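import Vale.Agent.P166.Od

/-! P166 AL: the algebraic identity behind the lower bound.
Plan. c = sum gap alpha, beta = bet, g = gg, Lg tau = sum alpha log (1 + gap tau), p = ptot, D = p (r+1), chi_l = Gam (tau l), beta_l = beta (tau l), dh = (Q none).dh pi. Facts: 0 <= beta <= c (schur1, g <= 1), beta is Lipschitz with constant sum b^2,
Rtr (dmu) w = t - c + beta (phi w) for w > 0 (Kinv_dmu, schur1), m (l+1) dh (l+1) = beta_l - beta_(l+1), dh 0 = t 0 * beta'(tau 0), sum of dh l <= (sum b^2) t (r+1) <= (sum b^2) 2 / alpha none (dc_le, top_le).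
I tau = beta tau * Gam tau - log (g tau) - Lg tau has derivative beta * SS (use schur1: beta Gam = c Gam + g - 1, and SS = g + tau g', g' = - sum alpha gap/(1+gap tau)^2). schur2 gives sum log (1 + Ahat tau) - sum log (1 + gap tau) = log g, and by differentiating (within [0,oo))
sum Ahat/(1+Ahat tau) - sum gap/(1+gap tau) = g'/g; differentiating schur1 gives beta' Gam = g'/g + Lg' at tau 0 > 0 or after multiplying by t 0 (if tau 0 = 0 check directly: g'(0) = -c = -Lg'(0)).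
al_identity: trace with u = beta, sub_tail and telescoping: for 1 <= l <= r the l-th terms give beta_l p_l - beta_(l-1) p_(l-1). al: the trial (pi.r, pi.m, Pv); limitP_le, entropy_eq, |sus q - chi q| <= 2 e' (emax_eq, emax_ge both ways). -/

open MeasureTheory ProbabilityTheory Filter Topology Matrix Finset

namespace Vale.Agent.P166

noncomputable section

variable {K : Type} [Fintype K] [DecidableEq K] {α : Option K → ℝ} {bb : K → ℝ} {t : ℝ}
  {O : Og (Option K)} {Q : Option K → Quad (Fr K)}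

lemma al_der {f g : ℝ → ℝ} {f' g' τ : ℝ} (hτ : 0 ≤ τ) (hf : HasDerivAt f f' τ)
    (hg : HasDerivAt g g' τ) (h : ∀ x, 0 ≤ x → f x = g x) : f' = g' :=
  (uniqueDiffOn_Ici 0 τ hτ).eq_deriv _ hf.hasDerivWithinAt
    (hg.hasDerivWithinAt.congr (fun x hx => h x hx) (h τ hτ))

lemma al_pos {A τ : ℝ} (hA : 0 ≤ A) (hτ : 0 ≤ τ) : 0 < 1 + A * τ := by positivity

lemma al_dlog {A τ : ℝ} (hA : 0 ≤ A) (hτ : 0 ≤ τ) :
    HasDerivAt (fun x => Real.log (1 + A * x)) (A / (1 + A * τ)) τ := by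
  have h := (((hasDerivAt_id' τ).const_mul A).const_add 1).log (al_pos hA hτ).ne'
  rwa [mul_one] at h

lemma al_dfrac (b : ℝ) {A τ : ℝ} (hA : 0 ≤ A) (hτ : 0 ≤ τ) :
    HasDerivAt (fun x => b * x / (1 + A * x)) (b / (1 + A * τ) ^ 2) τ := by
  have h := ((hasDerivAt_id' τ).const_mul b).fun_div
    (((hasDerivAt_id' τ).const_mul A).const_add 1) (al_pos hA hτ).ne'
  refine h.congr_deriv (congrArg (· / (1 + A * τ) ^ 2) ?_)
  ring

lemma al_frac (b : ℝ) {A τ τ' : ℝ} (hA : 0 ≤ A) (hτ : 0 ≤ τ) (hτ' : 0 ≤ τ') :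
    b * τ / (1 + A * τ) - b * τ' / (1 + A * τ') = b * ((τ - τ') / ((1 + A * τ') * (1 + A * τ))) := by
  have h1 := (al_pos hA hτ).ne'
  have h2 := (al_pos hA hτ').ne'
  field_simp
  ring

lemma al_ell (π : Path) {J : Type} [Fintype J] (w A : J → ℝ) (hA : ∀ j, 0 ≤ A j) :
    ∑ j, w j * π.ell (A j) = -(π.t 0 * ∑ j, w j * (A j / (1 + A j * π.tau 0)) +
      ∑ l ∈ range (π.r + 1), (π.m (l + 1))⁻¹ * (∑ j, w j * Real.log (1 + A j * π.tau l) -
        ∑ j, w j * Real.log (1 + A j * π.tau (l + 1)))) / 2 := by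
  have h : ∀ j, w j * π.ell (A j) = -(π.t 0 * (w j * (A j / (1 + A j * π.tau 0))) +
      ∑ l ∈ range (π.r + 1), (π.m (l + 1))⁻¹ * (w j * Real.log (1 + A j * π.tau l) -
        w j * Real.log (1 + A j * π.tau (l + 1)))) / 2 := fun j => by
    rw [Path.ell, sum_congr rfl fun l _ => show (π.m (l + 1))⁻¹ *
      (w j * Real.log (1 + A j * π.tau l) - w j * Real.log (1 + A j * π.tau (l + 1))) =
      w j * ((π.m (l + 1))⁻¹ * Real.log ((1 + A j * π.tau l) / (1 + A j * π.tau (l + 1)))) by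
        rw [Real.log_div (al_pos (hA j) (π.tau_nonneg _)).ne' (al_pos (hA j) (π.tau_nonneg _)).ne']
        ring, ← mul_sum]
    ring
  rw [sum_congr rfl fun j _ => h j, ← sum_div, sum_neg_distrib, sum_add_distrib, ← mul_sum,
    sum_comm]
  simp only [← mul_sum, sum_sub_distrib]

lemma al_Ahat (h : Sp α bb t) (o : Option K) (k : K) : 0 ≤ QPA bb t O o (Sum.inl k) :=
  sum_nonneg fun o _ => mul_nonneg (gap_nonneg h.le o) (sq_nonneg _)

variable (α bb t O) in
/-- logarithmic potential -/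
def alL (τ : ℝ) : ℝ := ∑ k, Real.log (1 + QPA bb t O none (Sum.inl k) * τ) -
  ∑ k, Real.log (1 + gap bb t (some k) * τ) + ∑ o, α o * Real.log (1 + gap bb t o * τ)

variable (α bb t O) in
/-- its derivative -/
def alL' (τ : ℝ) : ℝ := ∑ k, QPA bb t O none (Sum.inl k) / (1 + QPA bb t O none (Sum.inl k) * τ) -
  ∑ k, gap bb t (some k) / (1 + gap bb t (some k) * τ) +
    ∑ o, α o * (gap bb t o / (1 + gap bb t o * τ))

variable (bb t O) in
/-- derivative of `bet` -/
def alB' (τ : ℝ) : ℝ := ∑ k, QPb bb t O (Sum.inl k) ^ 2 / (1 + QPA bb t O none (Sum.inl k) * τ) ^ 2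

lemma al_dbet (h : Sp α bb t) {τ : ℝ} (hτ : 0 ≤ τ) :
    HasDerivAt (bet bb t O) (alB' bb t O τ) τ :=
  HasDerivAt.fun_sum fun k _ => al_dfrac _ (al_Ahat h none k) hτ

lemma al_dL (h : Sp α bb t) {τ : ℝ} (hτ : 0 ≤ τ) :
    HasDerivAt (alL α bb t O) (alL' α bb t O τ) τ :=
  ((HasDerivAt.fun_sum fun k _ => al_dlog (al_Ahat h none k) hτ).fun_sub
    (HasDerivAt.fun_sum fun k _ => al_dlog (gap_nonneg h.le (some k)) hτ)).fun_add
    (HasDerivAt.fun_sum fun o _ => (al_dlog (gap_nonneg h.le o) hτ).const_mul (α o))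

lemma al_bet_zero : bet bb t O 0 = 0 := by simp [bet]

omit [DecidableEq K] in
lemma al_gg_pos (h : Sp α bb t) {τ : ℝ} (hτ : 0 ≤ τ) : 0 < gg α bb t τ :=
  (h.pos none).trans_le (h.gg_mem hτ).1

lemma al_lg (h : Sp α bb t) (hO : OD α bb t O) {τ : ℝ} (hτ : 0 ≤ τ) :
    ∑ o, α o * (gap bb t o / (1 + gap bb t o * τ)) =
      gg α bb t τ * (∑ o, gap bb t o * α o - bet bb t O τ) := by
  rcases hτ.eq_or_lt with rfl | h0
  · simp [gg, al_bet_zero, h.sum, mul_comm]
  · refine mul_left_cancel₀ h0.ne' ?_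
    have h1 : τ * ∑ o, α o * (gap bb t o / (1 + gap bb t o * τ)) = 1 - gg α bb t τ := by
      rw [mul_sum, gg, eq_sub_iff_add_eq, ← sum_add_distrib]
      refine Eq.trans (sum_congr rfl fun o _ => ?_) h.sum
      have h2 := mul_inv_cancel₀ (al_pos (gap_nonneg h.le o) hτ).ne'
      simp only [div_eq_mul_inv]
      linear_combination α o * h2
    rw [h1]
    linear_combination -schur1 h hO hτ

lemma al_key (h : Sp α bb t) (hO : OD α bb t O) {τ : ℝ} (hτ : 0 ≤ τ) :
    alB' bb t O τ * Gam α bb t τ = alL' α bb t O τ := by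
  have hs := schur1 h hO hτ
  have h0 : 1 + τ * (∑ o, gap bb t o * α o) - τ * bet bb t O τ ≠ 0 := fun a => by
    rw [a, mul_zero] at hs
    exact zero_ne_one hs
  have h1 := al_der hτ ((HasDerivAt.fun_sum fun k (_ : k ∈ univ) =>
    al_dlog (al_Ahat (O := O) h none k) hτ).fun_sub
    (HasDerivAt.fun_sum fun k (_ : k ∈ univ) => al_dlog (gap_nonneg h.le (some k)) hτ))
    ((((((hasDerivAt_id' τ).mul_const (∑ o, gap bb t o * α o)).const_add 1).fun_sub
      ((hasDerivAt_id' τ).fun_mul (al_dbet h hτ))).log h0).fun_neg) fun x hx => by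
      have h2 := congrArg Real.log (schur1 h hO hx)
      have h3 := al_gg_pos h hx
      have h4 : 1 + x * (∑ o, gap bb t o * α o) - x * bet bb t O x ≠ 0 := fun a => by
        have := schur1 h hO hx
        rw [a, mul_zero] at this
        exact zero_ne_one this
      rw [Real.log_mul h3.ne' h4, Real.log_one] at h2
      rw [← Real.log_prod fun k _ => (al_pos (al_Ahat h none k) hx).ne',
        ← Real.log_prod fun k _ => (al_pos (gap_nonneg h.le (some k)) hx).ne', schur2 h hO hx,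
        Real.log_mul h3.ne' (prod_ne_zero_iff.2 fun k _ =>
          (al_pos (gap_nonneg h.le (some k)) hx).ne')]
      linarith
  rw [alL', h1, al_lg h hO hτ, div_eq_mul_inv, ← eq_inv_of_mul_eq_one_left hs, Gam]
  ring

lemma al_dI (h : Sp α bb t) (hO : OD α bb t O) {τ : ℝ} (hτ : 0 ≤ τ) :
    HasDerivAt (fun x => bet bb t O x * Gam α bb t x - alL α bb t O x)
      (bet bb t O τ * SS α bb t τ) τ := by
  refine (((al_dbet h hτ).fun_mul (h.hasDerivAt_Gam hτ)).fun_sub (al_dL h hτ)).congr_deriv ?_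
  rw [al_key h hO hτ]
  ring

lemma al_cont (h : Sp α bb t) : ContinuousOn (bet bb t O) (Set.Ici 0) :=
  fun _ hx => (al_dbet h hx).continuousAt.continuousWithinAt

lemma al_dh {o : Option K} {Q : Quad (Fr K)} (hQ : IsQP α bb t O o Q) (π : Path) (l : ℕ) :
    Q.dh π l = ∑ k, QPb bb t O (Sum.inl k) ^ 2 * π.dc (QPA bb t O none (Sum.inl k)) l := by
  rw [Quad.dh, hQ.A, hQ.b, Fintype.sum_sum_type]
  simp only [QPb, ne_eq, OfNat.ofNat_ne_zero, not_false_eq_true, zero_pow, zero_mul,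
    sum_const_zero, add_zero]
  rfl

lemma al_dh_zero {o : Option K} {Q : Quad (Fr K)} (hQ : IsQP α bb t O o Q) (π : Path) :
    Q.dh π 0 = π.t 0 * alB' bb t O (π.tau 0) := by
  rw [al_dh hQ, alB', mul_sum]
  refine sum_congr rfl fun k _ => ?_
  rw [Path.dc]
  ring

lemma al_dh_succ (h : Sp α bb t) {o : Option K} {Q : Quad (Fr K)} (hQ : IsQP α bb t O o Q)
    (π : Path) {l : ℕ} (hl : l ≤ π.r) :
    π.m (l + 1) * Q.dh π (l + 1) = bet bb t O (π.tau l) - bet bb t O (π.tau (l + 1)) := by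
  rw [al_dh hQ, bet, bet, mul_sum, ← sum_sub_distrib]
  refine sum_congr rfl fun k _ => ?_
  rw [al_frac _ (al_Ahat h none k) (π.tau_nonneg _) (π.tau_nonneg _), Path.dc,
    show π.tau l - π.tau (l + 1) = π.m (l + 1) * π.dt (l + 1) by rw [π.tau_succ hl]; ring]
  ring

lemma al_m_pos (π : Path) (l : ℕ) : 0 < π.m (l + 1) :=
  π.m_pos.trans_le (monotone_nat_of_le_succ π.m_mono (by omega))

lemma al_ell3 (h : Sp α bb t) (π : Path) :
    ∑ k, π.ell (QPA bb t O none (Sum.inl k)) - ∑ k, π.ell (gap bb t (some k)) +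
      ∑ o, α o * π.ell (gap bb t o) = -(π.t 0 * alL' α bb t O (π.tau 0) +
        ∑ l ∈ range (π.r + 1), (π.m (l + 1))⁻¹ *
          (alL α bb t O (π.tau l) - alL α bb t O (π.tau (l + 1)))) / 2 := by
  have h1 := al_ell π (fun _ => 1) _ (al_Ahat (O := O) h none)
  have h2 := al_ell π (fun _ => 1) _ fun k => gap_nonneg h.le (some k)
  have h3 := al_ell π α _ (gap_nonneg h.le)
  simp only [one_mul] at h1 h2
  rw [h1, h2, h3]
  simp only [alL, alL', mul_sub, mul_add, sum_add_distrib, sum_sub_distrib]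
  ring

theorem al_identity (h : Sp α bb t) (hQ : ∀ o, IsQP α bb t O o (Q o)) (π : Path) :
    (∫ q in (0 : ℝ)..ptot α bb t π (π.r + 1), bet bb t O (phi α bb t (chi α bb t π q))) / 2 -
        (∑ l ∈ range (π.r + 1), (Q none).dh π l *
          (ptot α bb t π (π.r + 1) - tail π.r π.m (ptot α bb t π) l)) / 2 =
      ∑ k, π.ell (QPA bb t O none (Sum.inl k)) - ∑ k, π.ell (gap bb t (some k)) +
        ∑ o, α o * π.ell (gap bb t o) + (Q none).dh π (π.r + 1) * ptot α bb t π (π.r + 1) / 2 := by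
  have hO := (hQ none).od
  have h1 := h.trace π (al_cont h) fun τ hτ => al_dI h hO hτ
  have h2 : ∑ l ∈ range (π.r + 1), (Q none).dh π l *
      (ptot α bb t π (π.r + 1) - tail π.r π.m (ptot α bb t π) l) +
      (Q none).dh π (π.r + 1) * ptot α bb t π (π.r + 1) =
      ∑ l ∈ range (π.r + 1), (Q none).dh π (l + 1) *
        (Gam α bb t (π.tau (l + 1)) + π.m (l + 1) * ptot α bb t π (l + 1)) +
        π.t 0 * alL' α bb t O (π.tau 0) := by
    have h3 := sum_range_succ' (fun l => (Q none).dh π l *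
      (Gam α bb t (π.tau l) + π.m l * ptot α bb t π l)) (π.r + 1)
    rw [sum_range_succ, π.tau_top, π.m_top _ (Nat.lt_succ_self _), π.m_zero,
      al_dh_zero (hQ none), zero_mul, add_zero, mul_assoc, al_key h hO (π.tau_nonneg _), Gam,
      zero_mul, zero_add, one_mul] at h3
    rw [← h3, sum_congr rfl fun l hl => by rw [h.sub_tail π (mem_range.1 hl).le]]
  have h4 : ∑ l ∈ range (π.r + 1), (π.m (l + 1))⁻¹ *
      ((bet bb t O (π.tau l) * Gam α bb t (π.tau l) - alL α bb t O (π.tau l)) -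
        (bet bb t O (π.tau (l + 1)) * Gam α bb t (π.tau (l + 1)) - alL α bb t O (π.tau (l + 1)))) =
      ∑ l ∈ range (π.r + 1), ((Q none).dh π (l + 1) *
        (Gam α bb t (π.tau (l + 1)) + π.m (l + 1) * ptot α bb t π (l + 1)) +
        (bet bb t O (π.tau (l + 1)) * ptot α bb t π (l + 1) -
          bet bb t O (π.tau l) * ptot α bb t π l) -
        (π.m (l + 1))⁻¹ * (alL α bb t O (π.tau l) - alL α bb t O (π.tau (l + 1)))) := by
    refine sum_congr rfl fun l hl => ?_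
    have h5 := al_dh_succ h (hQ none) π (Nat.lt_succ_iff.1 (mem_range.1 hl))
    have h6 := h.ptot_succ π (Nat.lt_succ_iff.1 (mem_range.1 hl))
    have h7 := inv_mul_cancel₀ (al_m_pos π l).ne'
    linear_combination (-(π.m (l + 1))⁻¹ * bet bb t O (π.tau l)) * h6 -
      ((π.m (l + 1))⁻¹ * Gam α bb t (π.tau (l + 1)) + ptot α bb t π (l + 1)) * h5 +
      (bet bb t O (π.tau l) * (ptot α bb t π (l + 1) - ptot α bb t π l) +
        (Q none).dh π (l + 1) * Gam α bb t (π.tau (l + 1))) * h7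
  rw [sum_sub_distrib, sum_add_distrib,
    sum_range_sub fun l => bet bb t O (π.tau l) * ptot α bb t π l, π.tau_top, al_bet_zero] at h4
  rw [h1, h4, al_ell3 h π]
  linarith

omit [DecidableEq K] in
lemma al_c (h : Sp α bb t) : 0 ≤ ∑ o, gap bb t o * α o :=
  sum_nonneg fun o _ => mul_nonneg (gap_nonneg h.le o) (h.pos o).le

lemma al_bet_mem (h : Sp α bb t) (hO : OD α bb t O) {τ : ℝ} (hτ : 0 ≤ τ) :
    0 ≤ bet bb t O τ ∧ bet bb t O τ ≤ ∑ o, gap bb t o * α o := by
  refine ⟨sum_nonneg fun k _ => div_nonneg (mul_nonneg (sq_nonneg _) hτ)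
    (al_pos (al_Ahat h none k) hτ).le, sub_nonneg.1 ?_⟩
  refine nonneg_of_mul_nonneg_right ?_ (al_gg_pos h hτ)
  rw [← al_lg h hO hτ]
  exact sum_nonneg fun o _ => mul_nonneg (h.pos o).le
    (div_nonneg (gap_nonneg h.le o) (al_pos (gap_nonneg h.le o) hτ).le)

lemma al_bet_lip (h : Sp α bb t) {τ τ' : ℝ} (hτ : 0 ≤ τ) (hτ' : 0 ≤ τ') :
    bet bb t O τ - bet bb t O τ' ≤ (∑ k, QPb bb t O (Sum.inl k) ^ 2) * |τ - τ'| := by
  rw [bet, bet, ← sum_sub_distrib, sum_mul]
  refine sum_le_sum fun k _ => ?_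
  have hA := al_Ahat (O := O) h none k
  rw [al_frac _ hA hτ hτ']
  refine mul_le_mul_of_nonneg_left ((div_le_div_of_nonneg_right (le_abs_self _)
    (mul_pos (al_pos hA hτ') (al_pos hA hτ)).le).trans (div_le_self (abs_nonneg _) ?_)) (sq_nonneg _)
  exact one_le_mul_of_one_le_of_one_le (le_add_of_nonneg_right (mul_nonneg hA hτ'))
    (le_add_of_nonneg_right (mul_nonneg hA hτ))

lemma al_Rtr (h : Sp α bb t) (hO : OD α bb t O) {w : ℝ} (hw : 0 < w) :
    Rtr (dmu α bb t) w = t - ∑ o, gap bb t o * α o + bet bb t O (phi α bb t w) := by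
  have h1 := h.Gam_phi hw.le
  have h2 := hw.trans_le (h.phi_le hw.le).1
  have h3 := schur1 h hO h2.le
  rw [Rtr, h.Kinv_dmu hw]
  generalize phi α bb t w = τ at h1 h2 h3
  rw [← h1, Gam, mul_inv, ← eq_inv_of_mul_eq_one_right h3]
  field_simp
  ring

lemma al_emax {r : ℕ} {m p p' : ℕ → ℝ} (hm : MOk r m) (hp : ∀ j < r, p j ≤ p (j + 1)) {e : ℝ}
    (he : 0 ≤ e) (h : ∀ j ≤ r, tail r m p j - tail r m p' j ≤ e) (q : ℝ) :
    ∑ i ∈ range (r + 1), (m (i + 1) - m i) * max q (p i) ≤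
      ∑ i ∈ range (r + 1), (m (i + 1) - m i) * max q (p' i) + e := by
  obtain ⟨j, hj, h1⟩ := emax_eq hm hp q
  have h2 := emax_ge hm p' q hj
  have h3 : tail r m p j - tail r m p' j ≤ e := by
    rcases hj.eq_or_lt with rfl | h4
    · simpa [tail] using he
    · exact h j (Nat.lt_succ_iff.1 h4)
  linarith

lemma al_energy (h : Sp α bb t) (hO : OD α bb t O) (π : Path) (τ : Trial) {e : ℝ}
    (h1 : |ptot α bb t π (π.r + 1) - 1| ≤ e) (h2 : ∀ q, |τ.sus q - chi α bb t π q| ≤ 2 * e) :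
    2 * τ.energy 1 (dmu α bb t) ≤ t - ∑ o, gap bb t o * α o +
      (∫ q in (0 : ℝ)..ptot α bb t π (π.r + 1), bet bb t O (phi α bb t (chi α bb t π q))) +
      (∑ k, QPb bb t O (Sum.inl k) ^ 2) * (2 * e / α none) + (∑ o, gap bb t o * α o) * e := by
  have hu : Continuous fun w => bet bb t O (phi α bb t w) :=
    (al_cont h).comp_continuous h.continuous_phi fun w => h.phi_nonneg w
  have c1 : Continuous fun q => bet bb t O (phi α bb t (τ.sus q)) := hu.comp τ.continuous_sus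
  have c2 : Continuous fun q => bet bb t O (phi α bb t (chi α bb t π q)) :=
    hu.comp (h.continuous_chi π)
  have e1 : ∫ q in (0 : ℝ)..1, Rtr (dmu α bb t) (1 * τ.sus q) =
      ∫ q in (0 : ℝ)..1, (t - ∑ o, gap bb t o * α o + bet bb t O (phi α bb t (τ.sus q))) := by
    refine intervalIntegral.integral_congr_ae ?_
    filter_upwards [compl_mem_ae_iff.2 (measure_singleton (1 : ℝ))] with q hq hq'
    rw [Set.uIoc_of_le zero_le_one] at hq'
    rw [one_mul, al_Rtr h hO (τ.sus_pos (lt_of_le_of_ne hq'.2 hq))]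
  have e2 : ∫ q in (0 : ℝ)..1, (t - ∑ o, gap bb t o * α o + bet bb t O (phi α bb t (τ.sus q))) ≤
      ∫ q in (0 : ℝ)..1, (t - ∑ o, gap bb t o * α o +
        (∑ k, QPb bb t O (Sum.inl k) ^ 2) * (2 * e / α none) +
        bet bb t O (phi α bb t (chi α bb t π q))) := by
    refine intervalIntegral.integral_mono_on zero_le_one
      ((continuous_const.add c1).intervalIntegrable _ _)
      ((continuous_const.add c2).intervalIntegrable _ _) fun q _ => ?_
    have h3 := al_bet_lip (O := O) h (h.phi_nonneg (τ.sus q)) (h.phi_nonneg (chi α bb t π q))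
    have h4 := (h.phi_lip (τ.sus q) (chi α bb t π q)).trans
      (div_le_div_of_nonneg_right (h2 q) (h.pos none).le)
    have h5 := mul_le_mul_of_nonneg_left h4
      (sum_nonneg fun k (_ : k ∈ univ) => sq_nonneg (QPb bb t O (Sum.inl k)))
    linarith
  rw [intervalIntegral.integral_add intervalIntegrable_const (c2.intervalIntegrable _ _),
    intervalIntegral.integral_const, sub_zero, one_smul,
    ← intervalIntegral.integral_add_adjacent_intervals (b := ptot α bb t π (π.r + 1))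
      (c2.intervalIntegrable _ _) (c2.intervalIntegrable _ _)] at e2
  have e3 := intervalIntegral.norm_integral_le_of_norm_le_const (a := ptot α bb t π (π.r + 1))
    (b := 1) (C := ∑ o, gap bb t o * α o) (f := fun q => bet bb t O (phi α bb t (chi α bb t π q)))
    fun q _ => by
      have := al_bet_mem h hO (h.phi_nonneg (chi α bb t π q))
      rw [Real.norm_eq_abs, abs_of_nonneg this.1]
      exact this.2
  rw [abs_sub_comm] at e3
  have e4 := (le_abs_self _).trans (e3.trans (mul_le_mul_of_nonneg_left h1 (al_c h)))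
  rw [Trial.energy, e1]
  linarith

lemma al_dh_nonneg (h : Sp α bb t) {o : Option K} {Q : Quad (Fr K)} (hQ : IsQP α bb t O o Q)
    (π : Path) {l : ℕ} (hl : l ≤ π.r + 1) : 0 ≤ Q.dh π l := by
  rw [al_dh hQ]
  exact sum_nonneg fun k _ => mul_nonneg (sq_nonneg _) (π.dc_nonneg (al_Ahat h none k) hl)

lemma al_dh_sum (h : Sp α bb t) {o : Option K} {Q : Quad (Fr K)} (hQ : IsQP α bb t O o Q)
    (π : Path) : ∑ l ∈ range (π.r + 1), Q.dh π l + Q.dh π (π.r + 1) ≤
      (∑ k, QPb bb t O (Sum.inl k) ^ 2) * π.t (π.r + 1) := by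
  rw [← sum_range_succ, sum_congr rfl fun l _ => al_dh hQ π l, sum_comm, sum_mul]
  refine sum_le_sum fun k _ => ?_
  rw [← mul_sum]
  exact mul_le_mul_of_nonneg_left (π.cc_le (al_Ahat h none k) le_rfl) (sq_nonneg _)

lemma al_X (h : Sp α bb t) (hQ : ∀ o, IsQP α bb t O o (Q o)) (π : Path)
    (h0 : parisi π.m (fun _ => 0) 0 (π.r + 1) 0 = 0) :
    ∑ o, α o * (Q o).X π - (QS bb t h.le).X π =
      ∑ k, π.ell (QPA bb t O none (Sum.inl k)) - ∑ k, π.ell (gap bb t (some k)) +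
        ∑ o, α o * π.ell (gap bb t o) - (∑ o, gap bb t o * α o) / 2 +
        parisi π.m ((Q none).dh π) 0 (π.r + 1) 0 + (Q none).dh π (π.r + 1) / 2 := by
  have h1 : ∀ o, α o * (Q o).X π = α o * π.ell (gap bb t o) + α o *
      (∑ k, π.ell (QPA bb t O none (Sum.inl k)) + ∑ o, π.ell (gap bb t o) -
        (∑ o, gap bb t o * α o) / 2 + parisi π.m ((Q none).dh π) 0 (π.r + 1) 0 +
        (Q none).dh π (π.r + 1) / 2) := fun o => by
    rw [Quad.X, (hQ o).dh_eq (hQ none), (hQ o).c, (hQ o).A, Fintype.sum_sum_type,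
      Fintype.sum_sum_type, Fintype.sum_unique (ι := Unit)]
    change α o * (∑ k, π.ell (QPA bb t O none (Sum.inl k)) + (∑ o, π.ell (gap bb t o) +
      π.ell (gap bb t o)) - _ + _ + _) = _
    ring
  have h2 : (QS bb t h.le).dh π = fun _ => 0 := by
    funext l
    simp [Quad.dh, QS]
  have h3 : (QS bb t h.le).X π = ∑ k, π.ell (gap bb t (some k)) + ∑ o, π.ell (gap bb t o) := by
    rw [Quad.X, h2, h0, Fintype.sum_sum_type, Fintype.sum_sum_type,
      Fintype.sum_unique (ι := Unit)]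
    change ∑ k, π.ell (gap bb t (some k)) + (∑ o, π.ell (gap bb t o) + π.ell 0) - 0 / 2 + 0 +
      0 / 2 = _
    rw [π.ell_zero]
    ring
  rw [sum_congr rfl fun o _ => h1 o, sum_add_distrib, ← sum_mul, h.sum, h3]
  ring

theorem al (h : Sp α bb t) (hQ : ∀ o, IsQP α bb t O o (Q o)) {e : ℝ} (he : 0 < e) :
    ∃ e' > 0, ∀ (π : Path) (Pv : ℕ → ℝ), IsOv π.r π.m ((Q none).dh π) Pv →
      |ptot α bb t π (π.r + 1) - 1| ≤ e' →
      (∀ j ≤ π.r, |tail π.r π.m Pv j - tail π.r π.m (ptot α bb t π) j| ≤ e') →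
      limitP 1 (dmu α bb t) ≤ t / 2 + ∑ o, α o * (Q o).X π - (QS bb t h.le).X π + e := by
  have hO := (hQ none).od
  have ha := h.pos none
  have hc := al_c h
  have hB : 0 ≤ ∑ k, QPb bb t O (Sum.inl k) ^ 2 := sum_nonneg fun _ _ => sq_nonneg _
  obtain ⟨C, hC⟩ : ∃ C, C = (∑ k, QPb bb t O (Sum.inl k) ^ 2) / α none := ⟨_, rfl⟩
  have hC0 : 0 ≤ C := hC ▸ div_nonneg hB ha.le
  have hD : 0 < 6 * C + ∑ o, gap bb t o * α o + 1 := by positivity
  refine ⟨min 1 (e / (6 * C + ∑ o, gap bb t o * α o + 1)), lt_min one_pos (div_pos he hD),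
    fun π Pv hP h1 h2 => ?_⟩
  have g1 := min_le_left 1 (e / (6 * C + ∑ o, gap bb t o * α o + 1))
  have g2 := (le_div_iff₀ hD).1 (min_le_right 1 (e / (6 * C + ∑ o, gap bb t o * α o + 1)))
  generalize min 1 (e / (6 * C + ∑ o, gap bb t o * α o + 1)) = ε at h1 h2 g1 g2
  have g0 : 0 ≤ ε := (abs_nonneg _).trans h1
  let τ : Trial := ⟨π.r, π.m, Pv, π.m_zero, π.m_pos, fun j _ => π.m_mono j, π.m_lt,
    π.m_top _ (Nat.lt_succ_self _), hP.nonneg, hP.mono, hP.lt⟩
  have := h.dmu_prob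
  have k1 := limitP_le h.isCompact_dmu τ
  have k2 : τ.entropy = entv π.r π.m Pv ((Q none).dh π) :=
    τ.entropy_eq (fun l hl => al_dh_nonneg h (hQ none) π (Nat.le_succ_of_le hl)) hP
  have k3 := al_energy h hO π τ h1 fun q => by
    have k4 := al_emax (p' := ptot α bb t π) τ.mok hP.mono g0 (fun j hj => (abs_le.1 (h2 j hj)).2) q
    have k5 := al_emax (p := ptot α bb t π) (p' := Pv) τ.mok
      (fun j hj => h.ptot_mono π j.le_succ (Nat.succ_le_succ hj.le)) g0
      (fun j hj => (abs_sub_le_iff.1 (h2 j hj)).2) q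
    have k6 := abs_le.1 h1
    rw [τ.sus_eq, chi, abs_le]
    dsimp only [τ] at k4 k5 ⊢
    constructor <;> linarith [k6.1, k6.2]
  have k4 : parisi π.m (fun _ => 0) 0 (π.r + 1) 0 = 0 := by
    have k5 := τ.ent_zero
    simpa [Trial.ent] using k5
  have k5 := al_X h hQ π k4
  have k6 := al_identity h hQ π
  have k7 := al_dh_sum h (hQ none) π
  have k8 : (∑ k, QPb bb t O (Sum.inl k) ^ 2) * π.t (π.r + 1) ≤ 2 * C := by
    have k9 : π.t (π.r + 1) ≤ 2 / α none := by
      rw [le_div_iff₀' ha]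
      linarith [h.top_le π, (abs_le.1 h1).2]
    refine (mul_le_mul_of_nonneg_left k9 hB).trans_eq ?_
    rw [hC]
    ring
  have k9 : ∑ l ∈ range (π.r + 1), (Q none).dh π l *
      (ptot α bb t π (π.r + 1) - tail π.r π.m (ptot α bb t π) l) +
      ∑ l ∈ range (π.r + 1), (Q none).dh π l * tail π.r π.m Pv l ≤
      (∑ l ∈ range (π.r + 1), (Q none).dh π l) * (1 + 2 * ε) := by
    rw [← sum_add_distrib, sum_mul]
    refine sum_le_sum fun l hl => ?_
    rw [← mul_add]
    refine mul_le_mul_of_nonneg_left ?_ (al_dh_nonneg h (hQ none) π (mem_range.1 hl).le)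
    linarith [(abs_le.1 h1).2, (abs_le.1 (h2 l (Nat.lt_succ_iff.1 (mem_range.1 hl)))).2]
  have k10 : (Q none).dh π (π.r + 1) * ptot α bb t π (π.r + 1) ≤
      (Q none).dh π (π.r + 1) * (1 + 2 * ε) :=
    mul_le_mul_of_nonneg_left (by linarith [(abs_le.1 h1).2]) (al_dh_nonneg h (hQ none) π le_rfl)
  have k11 := mul_le_mul_of_nonneg_left (k7.trans k8) g0
  have k12 : (∑ k, QPb bb t O (Sum.inl k) ^ 2) * (2 * ε / α none) = 2 * (ε * C) := by
    rw [hC]
    ring
  rw [k2, entv] at k1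
  rw [k12] at k3
  nlinarith [mul_nonneg g0 hC0, mul_nonneg g0 hc]

end

end Vale.Agent.P166
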