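import Vale.Agent.P166.Alg2

/-! P166 AU: the algebraic inequality behind the upper bound.
Plan. psi w = (SS tl (phi tl w))^(-1) is increasing, Lipschitz, in [1, 1/alpha none]. trace with u = SS^(-1), I = id gives t (r+1) = integral over [0,D] of psi (chi q). For q in [0, min 1 D]: emax_eq for the trial gives j; if j <= tau.r the hypothesis and emax_ge give
chi q <= sus q + 2 e', if j = tau.r+1 use j' = pi.r+1. So t (r+1) <= integral over [0,1] of psi (sus q) + C e'. kinv_step: for 0 < w <= 1, z = Kinv (dmu t) w = t + 1/tau, tau = phi t w <= 1/alpha none; check that z - d' belongs to the closure of the set defining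
Kinv (dmu (t - delta)) w for d' = delta (alpha none / SS t tau - e): the difference of Stieltjes transforms is tau^2 (- alpha none delta + SS d') up to a relative error O(delta tau); equivalently work with Gam and phi_mono.
Finally |SS t (phi t w) - SS tl (phi tl w)| <= C |t - tl| (gaps differ by |t - tl|, |Gam t tau - Gam tl tau| <= tau^2 |t - tl|, Gam_sub, SS_lip). Integrate over q in (0,1) (intervalIntegrable_Rtr, sus_pos, sus_le_one). -/

open MeasureTheory ProbabilityTheory Filter Topology Matrix Finset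

namespace Vale.Agent.P166

noncomputable section

variable {K : Type} [Fintype K] {α : Option K → ℝ} {bb : K → ℝ}

lemma au_sp {tl : ℝ} (h : Sp α bb tl) (hlt : ∀ k, bb k < tl) :
    ∃ ρ > 0, ∀ t, |t - tl| ≤ ρ → Sp α bb t := by
  have h1 : ∀ᶠ t in 𝓝 tl, ∀ k, bb k < t := eventually_all.2 fun k => lt_mem_nhds (hlt k)
  obtain ⟨ρ, hρ, h2⟩ := Metric.nhds_basis_closedBall.eventually_iff.1 h1
  exact ⟨ρ, hρ, fun t ht => ⟨h.pos, h.sum, fun k => (h2 (by rwa [Metric.mem_closedBall,
    Real.dist_eq]) k).le⟩⟩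

lemma au_avg {t : ℝ} (h : Sp α bb t) (c : ℝ) : c = ∑ o, α o * c := by
  rw [← Finset.sum_mul, h.sum, one_mul]

omit [Fintype K] in
lemma au_gap (t t' : ℝ) (o : Option K) : |gap bb t o - gap bb t' o| ≤ |t - t'| := by
  cases o with
  | none => simp [gap]
  | some k => exact (congrArg abs (sub_sub_sub_cancel_right t t' (bb k))).le

lemma au_inv {x y : ℝ} (hx : 1 ≤ x) (hy : 1 ≤ y) : |x⁻¹ - y⁻¹| ≤ |x - y| := by
  have hx0 : 0 < x := by linarith
  have hy0 : 0 < y := by linarith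
  rw [inv_sub_inv hx0.ne' hy0.ne', abs_div, abs_sub_comm, abs_of_pos (mul_pos hx0 hy0)]
  exact div_le_self (abs_nonneg _) (one_le_mul_of_one_le_of_one_le hx hy)

lemma au_gam {t t' τ : ℝ} (h : Sp α bb t) (h' : Sp α bb t') (hτ : 0 ≤ τ) :
    |Gam α bb t τ - Gam α bb t' τ| ≤ τ ^ 2 * |t - t'| := by
  rw [Gam, Gam, ← mul_sub, abs_mul, abs_of_nonneg hτ, sq, mul_assoc, gg, gg,
    ← Finset.sum_sub_distrib]
  refine mul_le_mul_of_nonneg_left ((Finset.abs_sum_le_sum_abs _ _).trans ?_) hτ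
  rw [au_avg h (τ * _)]
  refine Finset.sum_le_sum fun o _ => ?_
  rw [div_eq_mul_inv, div_eq_mul_inv, ← mul_sub, abs_mul, abs_of_pos (h.pos o)]
  refine mul_le_mul_of_nonneg_left ((au_inv
    (le_add_of_nonneg_right (mul_nonneg (gap_nonneg h.le o) hτ))
    (le_add_of_nonneg_right (mul_nonneg (gap_nonneg h'.le o) hτ))).trans ?_) (h.pos o).le
  rw [add_sub_add_left_eq_sub, ← sub_mul, abs_mul, abs_of_nonneg hτ, mul_comm]
  exact mul_le_mul_of_nonneg_left (au_gap t t' o) hτ

lemma au_bound (bb : K → ℝ) (tl : ℝ) : ∃ A, 0 ≤ A ∧ ∀ o, gap bb tl o ≤ A := by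
  obtain ⟨A, hA⟩ := (Set.finite_range (gap bb tl)).bddAbove
  exact ⟨A, hA ⟨none, rfl⟩, fun o => hA ⟨o, rfl⟩⟩

lemma au_near {tl : ℝ} (h : Sp α bb tl) : ∃ C, 0 ≤ C ∧ ∀ t, Sp α bb t → ∀ w ∈ Set.Ioc (0 : ℝ) 1,
    ∀ o, |gap bb t o * phi α bb t w - gap bb tl o * phi α bb tl w| ≤ C * |t - tl| := by
  obtain ⟨A, hA0, hA⟩ := au_bound bb tl
  have ha := h.pos none
  refine ⟨(α none)⁻¹ + A * ((α none)⁻¹ ^ 2 / α none), by positivity, fun t ht w hw o => ?_⟩
  have h0 := ht.phi_nonneg w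
  have h1 : phi α bb t w ≤ (α none)⁻¹ :=
    (ht.phi_le hw.1.le).2.trans (by rw [← one_div]; exact div_le_div_of_nonneg_right hw.2 ha.le)
  have h2 : |phi α bb t w - phi α bb tl w| ≤ (α none)⁻¹ ^ 2 / α none * |t - tl| := by
    have h3 := h.phi_lip (Gam α bb tl (phi α bb t w)) w
    rw [h.phi_Gam h0] at h3
    have h4 := au_gam h ht h0
    rw [ht.Gam_phi hw.1.le, abs_sub_comm tl] at h4
    rw [div_mul_eq_mul_div]
    exact h3.trans (div_le_div_of_nonneg_right (h4.trans
      (mul_le_mul_of_nonneg_right (pow_le_pow_left₀ h0 h1 2) (abs_nonneg _))) ha.le)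
  have e1 : gap bb t o * phi α bb t w - gap bb tl o * phi α bb tl w =
      (gap bb t o - gap bb tl o) * phi α bb t w +
        gap bb tl o * (phi α bb t w - phi α bb tl w) := by ring
  rw [e1, add_mul, mul_assoc]
  refine (abs_add_le _ _).trans (add_le_add ?_ ?_)
  · rw [abs_mul, abs_of_nonneg h0, mul_comm]
    exact mul_le_mul h1 (au_gap t tl o) (abs_nonneg _) (inv_nonneg.2 ha.le)
  · rw [abs_mul, abs_of_nonneg (gap_nonneg h.le o)]
    exact mul_le_mul (hA o) h2 (abs_nonneg _) hA0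

lemma au_exact {t δ w : ℝ} (h : Sp α bb t) (h' : Sp α bb (t - δ)) (hw : 0 < w) :
    (Kinv (dmu α bb t) w - Kinv (dmu α bb (t - δ)) w) *
      ∑ o, α o * ((1 + gap bb t o * phi α bb t w)⁻¹ *
        (1 + gap bb (t - δ) o * phi α bb (t - δ) w)⁻¹) = α none * δ := by
  have h1 := h.Gam_phi hw.le
  have h2 := h'.Gam_phi hw.le
  have p1 : 0 < phi α bb t w := hw.trans_le (h.phi_le hw.le).1
  have p2 : 0 < phi α bb (t - δ) w := hw.trans_le (h'.phi_le hw.le).1
  rw [h.Kinv_dmu hw, h'.Kinv_dmu hw]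
  generalize phi α bb t w = τ at *
  generalize phi α bb (t - δ) w = τ' at *
  have key : ∀ o, τ * (α o / (1 + gap bb t o * τ)) - τ' * (α o / (1 + gap bb (t - δ) o * τ')) =
      τ * τ' * (o.elim (α none * δ) (fun _ => 0) - (t + τ⁻¹ - (t - δ + τ'⁻¹)) *
        (α o * ((1 + gap bb t o * τ)⁻¹ * (1 + gap bb (t - δ) o * τ')⁻¹))) := by
    intro o
    have q1 : 0 < 1 + gap bb t o * τ := by
      have := mul_nonneg (gap_nonneg h.le o) p1.le
      linarith
    have q2 : 0 < 1 + gap bb (t - δ) o * τ' := by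
      have := mul_nonneg (gap_nonneg h'.le o) p2.le
      linarith
    cases o with
    | none =>
      simp only [gap, Option.elim]
      field_simp
      ring
    | some k =>
      have q3 : τ * (1 + gap bb (t - δ) (some k) * τ') - τ' * (1 + gap bb t (some k) * τ) =
          τ * τ' * -(t + τ⁻¹ - (t - δ + τ'⁻¹)) := by
        simp only [gap, Option.elim]
        field_simp
        ring
      simp only [Option.elim]
      generalize 1 + gap bb t (some k) * τ = x at *
      generalize 1 + gap bb (t - δ) (some k) * τ' = y at *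
      generalize t + τ⁻¹ - (t - δ + τ'⁻¹) = d at *
      field_simp
      linear_combination α (some k) * q3
  have h3 := Finset.sum_congr rfl fun o (_ : o ∈ (univ : Finset (Option K))) => key o
  rw [Finset.sum_sub_distrib, ← Finset.mul_sum, ← Finset.mul_sum, ← Finset.mul_sum,
    Finset.sum_sub_distrib, ← Finset.mul_sum, Fintype.sum_option (fun o : Option K =>
      o.elim (α none * δ) fun _ => (0 : ℝ))] at h3
  have h4 : τ * ∑ o, α o / (1 + gap bb t o * τ) -
    τ' * ∑ o, α o / (1 + gap bb (t - δ) o * τ') = 0 := sub_eq_zero.2 (h1.trans h2.symm)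
  rw [h4] at h3
  have h5 := (mul_eq_zero.1 h3.symm).resolve_left (mul_pos p1 p2).ne'
  simp only [Option.elim, Finset.sum_const_zero, add_zero] at h5
  linarith

lemma kinv_step {tl : ℝ} (h : Sp α bb tl) (hlt : ∀ k, bb k < tl) {e : ℝ} (he : 0 < e) :
    ∃ δ0 > 0, ∀ δ ∈ Set.Ioc 0 δ0, ∀ t, |t - tl| ≤ δ0 → ∀ w ∈ Set.Ioc (0 : ℝ) 1,
      δ * (α none * (SS α bb tl (phi α bb tl w))⁻¹ - e) ≤
        Kinv (dmu α bb t) w - Kinv (dmu α bb (t - δ)) w := by
  obtain ⟨ρ, hρ, hsp⟩ := au_sp h hlt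
  obtain ⟨C, hC, hn⟩ := au_near h
  have ha := h.pos none
  refine ⟨min (ρ / 2) (α none * e / (3 * C + 1)), by positivity, fun δ hδ t ht w hw => ?_⟩
  set η := min (ρ / 2) (α none * e / (3 * C + 1)) with hη
  have ht' : |t - δ - tl| ≤ 2 * η := by
    have := abs_le.1 ht
    rw [abs_le]
    constructor <;> linarith [hδ.1, hδ.2]
  have η1 : η ≤ ρ / 2 := min_le_left _ _
  have η2 : η * (3 * C + 1) ≤ α none * e := (le_div_iff₀ (by positivity)).1 (min_le_right _ _)
  have η0 : 0 < η := by positivity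
  have s1 := hsp t (by linarith)
  have s2 := hsp (t - δ) (by linarith)
  have hex := au_exact s1 s2 hw.1
  set S := ∑ o, α o * ((1 + gap bb t o * phi α bb t w)⁻¹ *
        (1 + gap bb (t - δ) o * phi α bb (t - δ) w)⁻¹) with hS
  have hS0 := h.SS_mem (h.phi_nonneg w)
  have x1 : ∀ {s : ℝ} (hs : Sp α bb s) o, 1 ≤ 1 + gap bb s o * phi α bb s w := fun hs o =>
    le_add_of_nonneg_right (mul_nonneg (gap_nonneg hs.le o) (hs.phi_nonneg w))
  have hSa : α none ≤ S := by
    have := Finset.single_le_sum (f := fun o => α o * ((1 + gap bb t o * phi α bb t w)⁻¹ *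
        (1 + gap bb (t - δ) o * phi α bb (t - δ) w)⁻¹)) (fun o _ => mul_nonneg (h.pos o).le
          (mul_nonneg (inv_nonneg.2 (zero_le_one.trans (x1 s1 o)))
            (inv_nonneg.2 (zero_le_one.trans (x1 s2 o))))) (Finset.mem_univ none)
    refine le_trans (le_of_eq ?_) this
    simp [gap]
  have hd : S - SS α bb tl (phi α bb tl w) ≤ α none * e := by
    refine le_trans ?_ (show 3 * C * η ≤ α none * e by nlinarith)
    rw [hS, SS, ← Finset.sum_sub_distrib, au_avg h (3 * C * η)]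
    refine Finset.sum_le_sum fun o _ => ?_
    rw [div_eq_mul_inv, ← mul_sub, ← inv_pow, sq]
    refine mul_le_mul_of_nonneg_left ?_ (h.pos o).le
    have a1 := (abs_le.1 ((au_inv (x1 s1 o) (x1 h o)).trans
      ((congrArg abs (add_sub_add_left_eq_sub _ _ _)).trans_le
        ((hn t s1 w hw o).trans (mul_le_mul_of_nonneg_left ht hC))))).2
    have a2 := (abs_le.1 ((au_inv (x1 s2 o) (x1 h o)).trans
      ((congrArg abs (add_sub_add_left_eq_sub _ _ _)).trans_le
        ((hn _ s2 w hw o).trans (mul_le_mul_of_nonneg_left ht' hC))))).2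
    have b1 := inv_le_one_of_one_le₀ (x1 s2 o)
    have b2 := inv_le_one_of_one_le₀ (x1 h o)
    have b3 := inv_nonneg.2 (zero_le_one.trans (x1 s2 o))
    have b4 := inv_nonneg.2 (zero_le_one.trans (x1 h o))
    have c0 := mul_nonneg hC η0.le
    nlinarith [mul_le_mul_of_nonneg_right a1 b3, mul_le_mul_of_nonneg_right a2 b4,
      mul_le_mul_of_nonneg_left b1 c0, mul_le_mul_of_nonneg_left b2 c0]
  have hSp : 0 < S := ha.trans_le hSa
  have hS0p := ha.trans_le hS0.1
  rw [eq_div_of_mul_eq hSp.ne' hex, le_div_iff₀ hSp, mul_assoc, mul_comm (α none) δ]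
  refine mul_le_mul_of_nonneg_left ?_ hδ.1.le
  have u1 : α none * (SS α bb tl (phi α bb tl w))⁻¹ ≤ 1 := by
    rw [← div_eq_mul_inv]
    exact div_le_one_of_le₀ hS0.1 hS0p.le
  have u2 : α none * (SS α bb tl (phi α bb tl w))⁻¹ * SS α bb tl (phi α bb tl w) = α none := by
    rw [mul_assoc, inv_mul_cancel₀ hS0p.ne', mul_one]
  have u3 : 0 ≤ α none * (SS α bb tl (phi α bb tl w))⁻¹ := by positivity
  nlinarith [mul_le_mul_of_nonneg_left hd u3, mul_le_mul_of_nonneg_right u1 (mul_pos ha he).le,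
    mul_le_mul_of_nonneg_left hSa he.le]

lemma au_cont {t : ℝ} (h : Sp α bb t) :
    ContinuousOn (fun τ => (SS α bb t τ)⁻¹) (Set.Ici 0) := by
  refine ContinuousOn.inv₀ (continuousOn_finsetSum _ fun o _ => continuousOn_const.div
    (by fun_prop) fun τ hτ => pow_ne_zero _ ?_) fun τ hτ => ((h.pos none).trans_le (h.SS_mem hτ).1).ne'
  exact (add_pos_of_pos_of_nonneg one_pos (mul_nonneg (gap_nonneg h.le o) hτ)).ne'

lemma au_trace {t : ℝ} (h : Sp α bb t) (π : Path) :
    ∫ q in (0 : ℝ)..ptot α bb t π (π.r + 1),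
      (SS α bb t (phi α bb t (chi α bb t π q)))⁻¹ = π.t (π.r + 1) := by
  have hp : ∀ τ, 0 ≤ τ → SS α bb t τ ≠ 0 := fun τ hτ =>
    ((h.pos none).trans_le (h.SS_mem hτ).1).ne'
  rw [h.trace π (au_cont h) (I := id) fun τ hτ => by
    rw [inv_mul_cancel₀ (hp τ hτ)]
    exact hasDerivAt_id τ, h.ptot_zero, mul_inv_cancel_right₀ (hp _ (π.tau_nonneg 0)),
    ← π.sum_dt (π.r + 1), Finset.sum_range_succ' π.dt, add_comm (π.t 0)]
  refine congrArg (· + π.t 0) (Finset.sum_congr rfl fun l hl => ?_)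
  have hm : 0 < π.m (l + 1) :=
    π.m_pos.trans_le (monotone_nat_of_le_succ π.m_mono (Nat.le_add_left 1 l))
  rw [id, id, π.tau_succ (Nat.lt_succ_iff.1 (Finset.mem_range.1 hl)), add_sub_cancel_left,
    inv_mul_cancel_left₀ hm.ne']

lemma au_lip {t : ℝ} (h : Sp α bb t) : ∃ L, 0 ≤ L ∧ ∀ w w' η, 0 ≤ η → w ≤ w' + η →
    (SS α bb t (phi α bb t w))⁻¹ ≤ (SS α bb t (phi α bb t w'))⁻¹ + L * η := by
  obtain ⟨A, hA0, hA⟩ := au_bound bb t
  have ha := h.pos none
  refine ⟨2 * A / α none / (α none * α none), by positivity, fun w w' η hη hw => ?_⟩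
  have m1 := h.SS_mem (h.phi_nonneg (w' + η))
  have m2 := h.SS_mem (h.phi_nonneg w')
  refine (inv_anti₀ (ha.trans_le m1.1) (h.SS_anti (h.phi_nonneg w) (h.phi_mono hw))).trans ?_
  rw [← sub_le_iff_le_add', inv_sub_inv (ha.trans_le m1.1).ne' (ha.trans_le m2.1).ne',
    div_mul_eq_mul_div]
  refine div_le_div₀ (by positivity) ?_ (mul_pos ha ha) (mul_le_mul m1.1 m2.1 ha.le (ha.le.trans m1.1))
  refine (le_abs_self _).trans ((h.SS_lip hA (h.phi_nonneg _) (h.phi_nonneg _)).trans ?_)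
  rw [div_mul_eq_mul_div, mul_div_assoc]
  refine mul_le_mul_of_nonneg_left ((h.phi_lip _ _).trans_eq ?_) (by positivity)
  rw [sub_add_cancel_left, abs_neg, abs_of_nonneg hη]

lemma au_chi (τ : Trial) {tl e' : ℝ} (he : 0 ≤ e') (π : Path)
    (hD : |ptot α bb tl π (π.r + 1) - 1| ≤ e')
    (hj : ∀ j ≤ τ.r, ∃ j' ≤ π.r + 1, π.m j' = τ.m j ∧
        tail τ.r τ.m τ.p j ≤ tail π.r π.m (ptot α bb tl π) j' + e') (q : ℝ) :
    chi α bb tl π q ≤ τ.sus q + 2 * e' := by
  obtain ⟨j, h1, h2⟩ := emax_eq τ.mok τ.p_mono q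
  have h3 := (abs_le.1 hD).2
  rw [τ.sus_eq, h2, chi]
  rcases h1.lt_or_eq with h1 | rfl
  · obtain ⟨j', a1, a2, a3⟩ := hj j (Nat.lt_succ_iff.1 h1)
    have := emax_ge π.mok' (ptot α bb tl π) q a1
    rw [a2] at this
    linarith
  · have := emax_ge π.mok' (ptot α bb tl π) q le_rfl
    rw [π.mok'.top, tail, Finset.Ico_self, Finset.sum_empty] at this
    rw [τ.m_top, tail, Finset.Ico_self, Finset.sum_empty]
    linarith

theorem au (τ : Trial) {tl : ℝ} (h : Sp α bb tl) (hlt : ∀ k, bb k < tl) {e δ1 : ℝ} (he : 0 < e)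
    (hδ1 : 0 < δ1) : ∃ δ ∈ Set.Ioc 0 δ1, ∃ e' > 0, ∀ t, |t - tl| ≤ e' → ∀ π : Path,
      |ptot α bb tl π (π.r + 1) - 1| ≤ e' →
      (∀ j ≤ τ.r, ∃ j' ≤ π.r + 1, π.m j' = τ.m j ∧
        tail τ.r τ.m τ.p j ≤ tail π.r π.m (ptot α bb tl π) j' + e') →
      δ * (α none * π.t (π.r + 1) / 2 - e) ≤
        τ.energy 1 (dmu α bb t) - τ.energy 1 (dmu α bb (t - δ)) := by
  obtain ⟨ρ, hρ, hsp⟩ := au_sp h hlt
  obtain ⟨δ0, hδ0, hk⟩ := kinv_step h hlt he
  obtain ⟨L, hL, hl⟩ := au_lip h
  have ha := h.pos none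
  have ha1 : α none ≤ 1 := (h.SS_mem le_rfl).1.trans (h.SS_mem le_rfl).2
  refine ⟨min δ1 (min δ0 (ρ / 2)), ⟨by positivity, min_le_left _ _⟩,
    min (min δ0 (ρ / 2)) (e / (2 * L + (α none)⁻¹)), by positivity, fun t ht π hD hj => ?_⟩
  set δ := min δ1 (min δ0 (ρ / 2)) with hδ
  set e' := min (min δ0 (ρ / 2)) (e / (2 * L + (α none)⁻¹)) with he'
  have d0 : 0 < δ := by positivity
  have d1 : δ ≤ δ0 := (min_le_right _ _).trans (min_le_left _ _)
  have d2 : δ ≤ ρ / 2 := (min_le_right _ _).trans (min_le_right _ _)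
  have e0 : 0 < e' := by positivity
  have e1 : e' ≤ δ0 := (min_le_left _ _).trans (min_le_left _ _)
  have e2 : e' ≤ ρ / 2 := (min_le_left _ _).trans (min_le_right _ _)
  have e3 : e' * (2 * L + (α none)⁻¹) ≤ e := (le_div_iff₀ (by positivity)).1 (min_le_right _ _)
  have s1 := hsp t (by linarith)
  have s2 := hsp (t - δ) (by
    have := abs_le.1 ht
    rw [abs_le]
    constructor <;> linarith)
  have cψ : Continuous fun w => (SS α bb tl (phi α bb tl w))⁻¹ :=
    (au_cont h).comp_continuous h.continuous_phi h.phi_nonneg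
  have c1 := cψ.comp (h.continuous_chi π)
  have c2 := cψ.comp τ.continuous_sus
  have k1 : π.t (π.r + 1) ≤ (∫ q in (0 : ℝ)..1, (SS α bb tl (phi α bb tl (τ.sus q)))⁻¹) + e := by
    have i1 := intervalIntegral.integral_add_adjacent_intervals (μ := volume)
      (c1.intervalIntegrable 0 1) (c1.intervalIntegrable 1 (ptot α bb tl π (π.r + 1)))
    have i2 := intervalIntegral.integral_mono_on (μ := volume) zero_le_one
      (c1.intervalIntegrable 0 1)
      ((c2.intervalIntegrable 0 1).add (intervalIntegrable_const (c := L * (2 * e'))))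
      fun q _ => hl _ _ _ (by positivity) (au_chi τ e0.le π hD hj q)
    rw [intervalIntegral.integral_add (c2.intervalIntegrable 0 1) intervalIntegrable_const,
      intervalIntegral.integral_const, sub_zero, one_smul] at i2
    have i3 := intervalIntegral.norm_integral_le_of_norm_le_const (a := 1)
      (b := ptot α bb tl π (π.r + 1)) (C := (α none)⁻¹)
      (f := fun q => (SS α bb tl (phi α bb tl (chi α bb tl π q)))⁻¹) fun q _ => by
        have m := h.SS_mem (h.phi_nonneg (chi α bb tl π q))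
        rw [Real.norm_of_nonneg (inv_nonneg.2 (ha.le.trans m.1))]
        exact inv_anti₀ ha m.1
    have i4 := (le_abs_self _).trans
      (i3.trans (mul_le_mul_of_nonneg_left hD (inv_nonneg.2 ha.le)))
    have i5 := au_trace h π
    simp only [Function.comp_def] at i1 i2
    linarith
  have p1 := s1.dmu_prob
  have p2 := s2.dmu_prob
  have j1 := intervalIntegrable_Rtr s1.isCompact_dmu τ one_pos
  have j2 := intervalIntegrable_Rtr s2.isCompact_dmu τ one_pos
  have j3 : IntervalIntegrable (fun q => δ * (α none * (SS α bb tl (phi α bb tl (τ.sus q)))⁻¹ - e))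
      volume 0 1 :=
    (continuous_const.mul ((continuous_const.mul c2).sub continuous_const)).intervalIntegrable 0 1
  have j4 : IntervalIntegrable (fun q => α none * (SS α bb tl (phi α bb tl (τ.sus q)))⁻¹)
      volume 0 1 := (continuous_const.mul c2).intervalIntegrable 0 1
  have k2 := intervalIntegral.integral_mono_on_of_le_Ioo zero_le_one j3 (j1.sub j2) fun q hq => by
    have := hk δ ⟨d0, d1⟩ t (ht.trans e1) (τ.sus q) ⟨τ.sus_pos hq.2, τ.sus_le_one hq.1.le⟩
    rw [one_mul, Rtr, Rtr]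
    linarith
  rw [intervalIntegral.integral_sub j1 j2, intervalIntegral.integral_const_mul,
    intervalIntegral.integral_sub j4 intervalIntegrable_const, intervalIntegral.integral_const_mul,
    intervalIntegral.integral_const, sub_zero, one_smul] at k2
  rw [Trial.energy, Trial.energy]
  have k3 := mul_le_mul_of_nonneg_left k1 ha.le
  have k4 := mul_le_mul_of_nonneg_right ha1 he.le
  have k5 := mul_le_mul_of_nonneg_left (show α none * π.t (π.r + 1) / 2 - e ≤
    (α none * (∫ q in (0 : ℝ)..1, (SS α bb tl (phi α bb tl (τ.sus q)))⁻¹) - e) / 2 by linarith) d0.le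
  linarith

end

end Vale.Agent.P166
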