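import Vale.Agent.P166.Inv

/-! P166: internal definitions, part 2 (the sequences used in both bounds). -/

open MeasureTheory ProbabilityTheory Filter Topology Matrix Finset

namespace Vale.Agent.P166

noncomputable section

namespace YD

variable {ι : Type} [Fintype ι] [DecidableEq ι] (D : YD ι)

/-- the model seen from its top eigenspace -/
@[reducible] def cav {F : Type} (bb : ι → ℝ) (Top : Finset ι) (N0 : ℕ) (hN : Fintype.card ι ≤ N0)
    (hne : Top.Nonempty) (t : ℝ) (hb : ∀ i ∈ Top, bb i = t)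
    (hinv : D.Inv (Function.Embedding.subtype fun i => i ∈ Top))
    (e : F ↪ {i // i ∈ Top}) (r : ℕ) (b : ℕ → ℕ) (m : ℕ → ℝ) (P : Pr) : Cav r F where
  toSys := (D.rm bb Top N0 hN).sys r b m P
  D := {i // i ∈ Top}
  x z c d := D.Y z.1.1 c.1 d.1
  mx c d := (D.mY c.1 d.1).comp (measurable_fst.comp measurable_fst)
  e := e
  ϱ := N0 / Top.card
  ϱ_nonneg := by positivity
  gram_x z c c' := by
    have h1 : (0 : ℝ) < Top.card := by exact_mod_cast hne.card_pos
    have h2 : (0 : ℝ) < N0 := by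
      have : Top.card ≤ N0 := (Finset.card_le_univ Top).trans hN
      exact_mod_cast lt_of_lt_of_le hne.card_pos this
    have h3 : ((((D.rm bb Top N0 hN).sys r b m P).R z c c').1 : ℝ) =
        TY Top N0 (D.Y z.1.1 c.1) (D.Y z.1.1 c'.1) :=
      Rm_fst ((D.rm bb Top N0 hN).bT z.1.1) c c'
    rw [h3, Fintype.card_coe, TY,
      Finset.sum_coe_sort Top fun i => D.Y z.1.1 c.1 i * D.Y z.1.1 c'.1 i]
    field_simp
  inv B := by
    obtain ⟨τ, hτ, hY'⟩ := hinv B
    have hh : ∀ ω, (D.rm bb Top N0 hN).h (τ ω) = (D.rm bb Top N0 hN).h ω := fun ω => by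
      funext σ
      show hY bb (D.Y (τ ω) σ) = hY bb (D.Y ω σ)
      rw [hY']; exact hY_emb _ B (fun k => hb k.1 k.2) _
    have hT : ∀ ω, (D.rm bb Top N0 hN).T (τ ω) = (D.rm bb Top N0 hN).T ω := fun ω => by
      funext σ σ'
      show TY Top N0 (D.Y (τ ω) σ) (D.Y (τ ω) σ') = TY Top N0 (D.Y ω σ) (D.Y ω σ')
      rw [hY', hY']; exact TY_emb _ B (Or.inl fun k => k.2) _ _ _
    have hQ : ∀ ω, (D.rm bb Top N0 hN).Q (τ ω) = (D.rm bb Top N0 hN).Q ω := fun ω => by
      funext σ σ'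
      show ∑ i, D.Y (τ ω) σ i * D.Y (τ ω) σ' i = ∑ i, D.Y ω σ i * D.Y ω σ' i
      rw [hY', hY']; exact orth_dot _ _ _
    refine ⟨fun z => ((τ z.1.1, z.1.2), z.2),
      (hτ.prod (MeasurePreserving.id _)).prod (MeasurePreserving.id _), fun z => ⟨?_, ?_, ?_⟩⟩
    · show Hm r b m P ((D.rm bb Top N0 hN).h (τ z.1.1)) ((D.rm bb Top N0 hN).T (τ z.1.1)) z.1.2 +
        feat (sqr (Cm r b P ((D.rm bb Top N0 hN).T (τ z.1.1)) ((D.rm bb Top N0 hN).Q (τ z.1.1))))
          z.2 = _
      rw [hh, hT, hQ]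
    · show Rm r b ((D.rm bb Top N0 hN).T (τ z.1.1)) = _
      rw [hT]
    · intro c
      funext d
      show D.Y (τ z.1.1) c.1 d.1 = _
      rw [hY']
      exact embM_mulVec_in (Function.Embedding.subtype fun i => i ∈ Top) B.1 _ d

end YD

/-- colour of a frame index in the `N` spin system -/
def frc {K : Type} : Fr K → Option K
  | Sum.inl k => some k
  | Sum.inr (Sum.inl o) => o
  | Sum.inr (Sum.inr _) => none

/-- a sequence of coloured systems at flat points of the perturbation -/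
structure Seq (K : Type) [Fintype K] [DecidableEq K] (r : ℕ) where
  m : ℕ → ℝ
  mok : MOk r m
  α : Option K → ℝ
  α_pos : ∀ o, 0 < α o
  α_sum : ∑ o, α o = 1
  bb : K → ℝ
  t : ℕ → ℝ
  tl : ℝ
  t_lim : Tendsto t (hyperfilter ℕ) (𝓝 tl)
  bb_lt : ∀ k, bb k < tl
  bb_le : ∀ i k, bb k ≤ t i
  N : ℕ → ℕ
  N0 : ℕ → ℕ
  c : ∀ i, Fin (N i) → Option K
  frac : ∀ o, Tendsto (fun i => ((blk (c i) o).card : ℝ) / N i) (hyperfilter ℕ) (𝓝 (α o))
  hN : ∀ i, N i + 1 ≤ N0 i
  δ : ℝ
  δ_pos : 0 < δ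
  hδ : ∀ i, δ * N0 i ≤ N i
  N0_lim : Tendsto N0 (hyperfilter ℕ) atTop
  b : ℕ → ℕ → ℕ
  P : ℕ → Pr
  ok : ∀ i, (P i).Ok
  Λ : ℝ
  a_le : ∀ i l, (P i).a l ≤ Λ
  M_lim : Tendsto (fun i => (P i).M) (hyperfilter ℕ) atTop
  s_pos : ∀ i, 0 < (P i).s
  s_small : Tendsto (fun i => (P i).s ^ 2 / N0 i) (hyperfilter ℕ) (𝓝 0)
  s_big : Tendsto (fun i => √(N0 i) / (P i).s ^ 2) (hyperfilter ℕ) (𝓝 0)
  err_lim : Tendsto (fun i => err (b i) 1 r * KK (2 ^ N i) (Λ * N i + 6 * (P i).s ^ 2) 0)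
    (hyperfilter ℕ) (𝓝 0)
  e : ∀ i, Fr K ↪ Fin (N i)
  e_col : ∀ i f, c i (e i f) = frc f
  flat : ∀ i, Flat r (P i).M (P i).s (fun x0 x =>
    ((YO (Fin (N i))).rm (ev bb (t i) (c i)) (blk (c i) none) (N0 i)
      (by simpa using Nat.le_of_succ_le (hN i))).F r (b i) m ((P i).wx x0 x)) (P i).x0 (P i).x 0

namespace Seq

variable {K : Type} [Fintype K] [DecidableEq K] {r : ℕ} (Z : Seq K r)

lemma card_le (i : ℕ) : Fintype.card (Fin (Z.N i)) ≤ Z.N0 i := by
  simpa using Nat.le_of_succ_le (Z.hN i)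

lemma card_le' (i : ℕ) : Fintype.card (Option (Fin (Z.N i))) ≤ Z.N0 i := by
  simpa using Z.hN i

/-- the model of a colouring of `Fin N` -/
@[reducible] def mod (i : ℕ) (c : Fin (Z.N i) → Option K) : RM :=
  (YO (Fin (Z.N i))).rm (ev Z.bb (Z.t i) c) (blk c none) (Z.N0 i) (Z.card_le i)

/-- the `N` spin system -/
@[reducible] def S (i : ℕ) : RM := Z.mod i (Z.c i)

/-- base colouring: the frame is promoted to the top -/
def cb (i : ℕ) (x : Fin (Z.N i)) : Option K := if ∃ f, Z.e i f = x then none else Z.c i x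

/-- the base system -/
@[reducible] def B (i : ℕ) : RM := Z.mod i (Z.cb i)

lemma e_mem (i : ℕ) (f : Fr K) : Z.e i f ∈ blk (Z.cb i) none := by
  exact Finset.mem_filter.2 ⟨Finset.mem_univ _, if_pos ⟨f, rfl⟩⟩

/-- the base system with its frame -/
@[reducible] def base (i : ℕ) : Cav r (Fr K) :=
  (YO (Fin (Z.N i))).cav (ev Z.bb (Z.t i) (Z.cb i)) (blk (Z.cb i) none) (Z.N0 i) (Z.card_le i)
    ⟨_, Z.e_mem i (Sum.inr (Sum.inr ()))⟩ (Z.t i)
    (fun x hx => by
      have : Z.cb i x = none := by simpa [blk] using hx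
      simp [ev, this])
    (YO_inv _) ⟨fun f => ⟨Z.e i f, Z.e_mem i f⟩, fun _ _ h => (Z.e i).injective (congrArg (·.1) h)⟩
    r (Z.b i) Z.m (Z.P i)

/-- colouring of the `N+1` spin system in which a colour `o` was added -/
def cp (i : ℕ) (o : Option K) : Option (Fin (Z.N i)) → Option K
  | none => none
  | some x => if x = Z.e i (Sum.inr (Sum.inr ())) then o else Z.c i x

/-- the `N+1` spin model on random coordinates `D` -/
@[reducible] def modp (i : ℕ) (o : Option K) (D : YD (Option (Fin (Z.N i)))) : RM :=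
  D.rm (ev Z.bb (Z.t i) (Z.cp i o)) (blk (Z.cp i o) none) (Z.N0 i) (Z.card_le' i)

/-- the `N+1` spin system -/
@[reducible] def Sp (i : ℕ) (o : Option K) : RM := Z.modp i o (YO _)

/-- free energy at the parameters of the sequence -/
def Fv (i : ℕ) (X : RM) : ℝ := X.F r (Z.b i) Z.m (Z.P i)

/-- averages at the parameters of the sequence -/
def Av (i : ℕ) (X : RM) (n : ℕ) (G : X.Ω → (Fin n → Cfg r (Z.b i) X.Sg) → ℝ) : ℝ :=
  X.A r (Z.b i) Z.m (Z.P i) n G

/-- the section of the colouring used in the structure theorem -/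
def sec (i : ℕ) : Option K ↪ Option (Fin (Z.N i)) :=
  ⟨fun o => o.map fun k => Z.e i (Sum.inl k), by
    intro o o' h
    cases o <;> cases o' <;> simp_all⟩

end Seq

/-- cavity energy of the `N` spin system -/
def QS {K : Type} [Fintype K] (bb : K → ℝ) (t : ℝ) (h : ∀ k, bb k ≤ t) : Quad (Fr K) where
  A f := gap bb t (frc f)
  b _ := 0
  c := 0
  A_nonneg f := by
    unfold gap
    cases frc f with
    | none => exact le_rfl
    | some k => exact sub_nonneg.2 (h k)
  q_nonneg y ε := by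
    have : 0 ≤ ∑ f, gap bb t (frc f) * y f ^ 2 := Finset.sum_nonneg fun f _ => by
      refine mul_nonneg ?_ (sq_nonneg _)
      unfold gap
      cases frc f with
      | none => exact le_rfl
      | some k => exact sub_nonneg.2 (h k)
    simp only [zero_mul, Finset.sum_const_zero, mul_zero, add_zero, zero_div]
    positivity

/-- an orthogonal matrix with last column `√α` that diagonalises the compression of the gaps -/
structure OD {K : Type} [Fintype K] [DecidableEq K] (α : Option K → ℝ) (bb : K → ℝ) (t : ℝ)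
    (O : Og (Option K)) : Prop where
  col : ∀ o, O.1 o none = √(α o)
  diag : ∀ k k', k ≠ k' → ∑ o, gap bb t o * O.1 o (some k) * O.1 o (some k') = 0

/-- diagonal coefficients of the cavity energy of the `N+1` spin system -/
def QPA {K : Type} [Fintype K] [DecidableEq K] (bb : K → ℝ) (t : ℝ) (O : Og (Option K))
    (o0 : Option K) : Fr K → ℝ
  | Sum.inl k => ∑ o, gap bb t o * O.1 o (some k) ^ 2
  | Sum.inr (Sum.inl o) => gap bb t o
  | Sum.inr (Sum.inr _) => gap bb t o0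

/-- couplings of the new spin -/
def QPb {K : Type} [Fintype K] [DecidableEq K] (bb : K → ℝ) (t : ℝ) (O : Og (Option K)) :
    Fr K → ℝ
  | Sum.inl k => ∑ o, gap bb t o * O.1 o (some k) * O.1 o none
  | Sum.inr _ => 0

/-- `Q` is the cavity energy of the `N+1` spin system -/
structure IsQP {K : Type} [Fintype K] [DecidableEq K] (α : Option K → ℝ) (bb : K → ℝ) (t : ℝ)
    (O : Og (Option K)) (o0 : Option K) (Q : Quad (Fr K)) : Prop where
  od : OD α bb t O
  A : Q.A = QPA bb t O o0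
  b : Q.b = QPb bb t O
  c : Q.c = ∑ o, gap bb t o * α o

/-- truncated coordinate as an observable -/
def Vy {F : Type} (M : ℝ) (f : F) (y : F → ℝ) (_ : Bool) : ℝ := clip M (y f)

/-- the square of the truncated coordinate -/
def Vy2 {F : Type} (M : ℝ) (f : F) (y : F → ℝ) (_ : Bool) : ℝ := clip M (y f) ^ 2

/-- the new spin as an observable -/
def Ve {F : Type} (_ : F → ℝ) (ε : Bool) : ℝ := spin ε

/-- test index of colour `o` -/
def gI {K : Type} (o : Option K) : Fr K := Sum.inr (Sum.inl o)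

/-- spectral measure of the colouring -/
def dmu {K : Type} [Fintype K] (α : Option K → ℝ) (bb : K → ℝ) (t : ℝ) : Measure ℝ :=
  dm α fun o => o.elim t bb

/-- unperturbed free energy with the field, plus `N ⟨p,h⟩/2 - N h_r / 2` -/
def Gv (τ : Trial) (b : ℕ → ℕ) (N : ℕ) (bb : Fin N → ℝ) (a : ℕ → ℝ) : ℝ :=
  ((YO (Fin N)).rm bb ∅ N (by simp)).F τ.r b τ.m (Pr0 a) - Z0 τ.r b τ.m +
    N * (τ.ent a - parisi τ.m a 0 (τ.r + 1) 0)

/-- its supremum over the box of fields -/
def G0 (τ : Trial) (Λ : ℝ) (b : ℕ → ℕ) (N : ℕ) (bb : Fin N → ℝ) : ℝ :=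
  sSup (Gv τ b N bb '' {a | ∀ l, a l ∈ Set.Icc 0 Λ})

end

end Vale.Agent.P166
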