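import Vale.Agent.P166.Conc
import Vale.Agent.P166.Defs2

/-! P166 Alg1: general properties of the R-transform, the energy and limitP.
Plan. mu almost every x lies in the support (Measure.support_mem_ae), so lo <= x <= hi with lo = sInf, hi = sSup of the support; for z > hi, 1/(z - lo) <= stieltjes z <= 1/(z - hi). For w > 0 the set defining Kinv is nonempty (z = hi + 1/w) and every
element is >= lo + 1/w. Kinv is antitone on (0,oo); q -> Kinv (beta sus q) is monotone on [0,1) and Rtr is bounded there, which gives interval integrability (measurability: restrict to Ioo 0 1, MonotoneOn.aemeasurable-type lemmas such as aemeasurable_restrict_of_monotoneOn).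
limitP_le: ciInf_le with the lower bound beta lo / 2 (entropy_nonneg). limitP_map_mul: Rtr (map (beta * .) mu) w = beta Rtr mu (beta w) (support of the image under a homeomorphism, Real.sInf_smul_of_nonneg or csInf lemmas). -/

open MeasureTheory ProbabilityTheory Filter Topology Matrix Finset

namespace Vale.Agent.P166

noncomputable section

instance : Nonempty Trial :=
  ⟨⟨0, fun j => if j = 0 then 0 else 1, fun _ => 0, rfl, by simp, fun j hj => by
    obtain rfl := Nat.le_zero.1 hj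
    simp, by simp, by simp, le_rfl, fun _ _ => le_rfl, zero_lt_one⟩⟩

lemma mono_of_step {f : ℕ → ℝ} {r : ℕ} (h : ∀ j < r, f j ≤ f (j + 1)) {i j : ℕ} (hij : i ≤ j)
    (hj : j ≤ r) : f i ≤ f j := by
  induction j, hij using Nat.le_induction with
  | base => exact le_rfl
  | succ k _ ih => exact (ih (Nat.le_of_succ_le hj)).trans (h k hj)

namespace Trial

variable (τ : Trial)

lemma sus_eq (q : ℝ) :
    τ.sus q = 1 - ∑ j ∈ range (τ.r + 1), (τ.m (j + 1) - τ.m j) * max q (τ.p j) := by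
  simp only [Trial.sus, mul_sub, mul_one, sum_sub_distrib (f := fun j => τ.m (j + 1) - τ.m j),
    sum_range_sub, τ.m_top, τ.m_zero, sub_zero]
lemma continuous_sus : Continuous τ.sus := by
  unfold Trial.sus
  fun_prop
lemma antitone_sus : Antitone τ.sus := fun _ _ h =>
  sum_le_sum fun j hj => mul_le_mul_of_nonneg_left (sub_le_sub_left (max_le_max_right _ h) _)
    (sub_nonneg.2 (τ.m_mono j (mem_range_succ_iff.1 hj)))
lemma sus_pos {q : ℝ} (h : q < 1) : 0 < τ.sus q :=
  sum_pos' (fun j hj => mul_nonneg (sub_nonneg.2 (τ.m_mono j (mem_range_succ_iff.1 hj)))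
    (sub_nonneg.2 (max_le h.le
      ((mono_of_step τ.p_mono (mem_range_succ_iff.1 hj) le_rfl).trans τ.p_lt.le))))
    ⟨τ.r, self_mem_range_succ _, mul_pos (sub_pos.2 (τ.m_lt.trans_eq τ.m_top.symm))
      (sub_pos.2 (max_lt h τ.p_lt))⟩
lemma sus_le_one {q : ℝ} (h : 0 ≤ q) : τ.sus q ≤ 1 := by
  rw [τ.sus_eq]
  exact sub_le_self _ (sum_nonneg fun j hj => mul_nonneg
    (sub_nonneg.2 (τ.m_mono j (mem_range_succ_iff.1 hj))) (h.trans (le_max_left _ _)))

end Trial

lemma emax_split {r : ℕ} {m : ℕ → ℝ} (h0 : m 0 = 0) (p : ℕ → ℝ) (q : ℝ) (j : ℕ) :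
    q * m j + tail r m p j = ∑ i ∈ range j, (m (i + 1) - m i) * q +
      ∑ i ∈ Ico j (r + 1), (m (i + 1) - m i) * p i := by
  rw [← sum_mul, sum_range_sub, h0, sub_zero, mul_comm, tail]

lemma emax_at {r : ℕ} {m p : ℕ → ℝ} (h0 : m 0 = 0) {q : ℝ} {j : ℕ} (hj : j ≤ r + 1)
    (h1 : ∀ i < j, p i ≤ q) (h2 : ∀ i, j ≤ i → i ≤ r → q ≤ p i) :
    ∑ i ∈ range (r + 1), (m (i + 1) - m i) * max q (p i) = q * m j + tail r m p j := by
  rw [emax_split h0, ← sum_range_add_sum_Ico _ hj]
  refine congrArg₂ _ (sum_congr rfl fun i hi => ?_) (sum_congr rfl fun i hi => ?_)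
  · rw [max_eq_left (h1 i (mem_range.1 hi))]
  · rw [max_eq_right (h2 i (mem_Ico.1 hi).1 (Nat.le_of_lt_succ (mem_Ico.1 hi).2))]

/-- the mean of `max q (p i)` is the largest of the numbers `q m j + tail j` -/
lemma emax_ge {r : ℕ} {m : ℕ → ℝ} (hm : MOk r m) (p : ℕ → ℝ) (q : ℝ) {j : ℕ} (hj : j ≤ r + 1) :
    q * m j + tail r m p j ≤ ∑ i ∈ range (r + 1), (m (i + 1) - m i) * max q (p i) := by
  rw [emax_split hm.zero, ← sum_range_add_sum_Ico _ hj]
  exact add_le_add (sum_le_sum fun i hi => mul_le_mul_of_nonneg_left (le_max_left _ _)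
      (sub_nonneg.2 (hm.mono i (Nat.le_of_lt_succ ((mem_range.1 hi).trans_le hj)))))
    (sum_le_sum fun i hi => mul_le_mul_of_nonneg_left (le_max_right _ _)
      (sub_nonneg.2 (hm.mono i (Nat.le_of_lt_succ (mem_Ico.1 hi).2))))
lemma emax_eq {r : ℕ} {m p : ℕ → ℝ} (hm : MOk r m) (hp : ∀ j < r, p j ≤ p (j + 1)) (q : ℝ) :
    ∃ j ≤ r + 1, ∑ i ∈ range (r + 1), (m (i + 1) - m i) * max q (p i) = q * m j + tail r m p j := by
  classical
  have h : ∃ j, r + 1 ≤ j ∨ q ≤ p j := ⟨r + 1, Or.inl le_rfl⟩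
  have hj : Nat.find h ≤ r + 1 := Nat.find_min' h (Or.inl le_rfl)
  refine ⟨_, hj, emax_at hm.zero hj (fun i hi => (not_le.1 (not_or.1 (Nat.find_min h hi)).2).le)
    fun i h1 h2 => ((Nat.find_spec h).resolve_left (by omega)).trans (mono_of_step hp h1 h2)⟩

variable {μ ν : Measure ℝ} [IsProbabilityMeasure μ] [IsProbabilityMeasure ν]

omit [IsProbabilityMeasure μ] in
lemma ae_mem_supp (hμ : IsCompact μ.support) :
    ∀ᵐ x ∂μ, x ∈ Set.Icc (sInf μ.support) (sSup μ.support) := by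
  filter_upwards [μ.support_mem_ae] with x hx
  exact ⟨csInf_le hμ.bddBelow hx, le_csSup hμ.bddAbove hx⟩

lemma stieltjes_mem (hμ : IsCompact μ.support) {z : ℝ} (hz : sSup μ.support < z) :
    (z - sInf μ.support)⁻¹ ≤ stieltjes μ z ∧ stieltjes μ z ≤ (z - sSup μ.support)⁻¹ := by
  have h1 : ∀ᵐ x ∂μ, (z - sInf μ.support)⁻¹ ≤ (z - x)⁻¹ ∧ (z - x)⁻¹ ≤ (z - sSup μ.support)⁻¹ ∧
      0 ≤ (z - x)⁻¹ := by
    filter_upwards [ae_mem_supp hμ] with x hx
    have h2 := sub_pos.2 (hx.2.trans_lt hz)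
    exact ⟨inv_anti₀ h2 (sub_le_sub_left hx.1 _), inv_anti₀ (sub_pos.2 hz) (sub_le_sub_left hx.2 _),
      inv_nonneg.2 h2.le⟩
  have hi : Integrable (fun x => (z - x)⁻¹) μ := Integrable.of_bound
    (Measurable.aestronglyMeasurable (by fun_prop)) _
    (h1.mono fun x hx => (Real.norm_of_nonneg hx.2.2).trans_le hx.2.1)
  constructor
  · simpa [stieltjes] using integral_mono_ae (integrable_const _) hi (h1.mono fun x hx => hx.1)
  · simpa [stieltjes] using integral_mono_ae hi (integrable_const _) (h1.mono fun x hx => hx.2.1)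

lemma Kset_mem (hμ : IsCompact μ.support) {w : ℝ} (hw : 0 < w) :
    sSup μ.support + w⁻¹ ∈ {z | sSup μ.support < z ∧ stieltjes μ z ≤ w} := by
  have h := lt_add_of_pos_right (sSup μ.support) (inv_pos.2 hw)
  exact ⟨h, (stieltjes_mem hμ h).2.trans_eq (by rw [add_sub_cancel_left, inv_inv])⟩

lemma Kset_bdd (μ : Measure ℝ) (w : ℝ) : BddBelow {z | sSup μ.support < z ∧ stieltjes μ z ≤ w} :=
  ⟨_, fun _ h => h.1.le⟩

lemma Kinv_anti (hμ : IsCompact μ.support) {w w' : ℝ} (hw : 0 < w) (h : w ≤ w') :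
    Kinv μ w' ≤ Kinv μ w :=
  csInf_le_csInf (Kset_bdd μ w') ⟨_, Kset_mem hμ hw⟩ fun _ hz => ⟨hz.1, hz.2.trans h⟩

lemma Rtr_mem (hμ : IsCompact μ.support) {w : ℝ} (hw : 0 < w) :
    Rtr μ w ∈ Set.Icc (sInf μ.support) (sSup μ.support) := by
  refine ⟨le_sub_iff_add_le.2 (le_csInf ⟨_, Kset_mem hμ hw⟩ fun z hz => ?_),
    sub_le_iff_le_add.2 (csInf_le (Kset_bdd μ w) (Kset_mem hμ hw))⟩
  obtain ⟨x, hx⟩ := (ae_mem_supp hμ).exists
  exact le_sub_iff_add_le'.1 ((inv_le_comm₀ (sub_pos.2 ((hx.1.trans hx.2).trans_lt hz.1)) hw).1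
    ((stieltjes_mem hμ hz.1).1.trans hz.2))

lemma intervalIntegrable_Rtr (hμ : IsCompact μ.support) (τ : Trial) {β : ℝ} (hβ : 0 < β) :
    IntervalIntegrable (fun q => Rtr μ (β * τ.sus q)) volume 0 1 := by
  rw [intervalIntegrable_iff_integrableOn_Ioo_of_le zero_le_one]
  have hm : MonotoneOn (fun q => Kinv μ (β * τ.sus q)) (Set.Ioo 0 1) := fun _ _ b hb h =>
    Kinv_anti hμ (mul_pos hβ (τ.sus_pos hb.2)) (mul_le_mul_of_nonneg_left (τ.antitone_sus h) hβ.le)
  refine IntegrableOn.of_bound measure_Ioo_lt_top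
    ((aemeasurable_restrict_of_monotoneOn measurableSet_Ioo hm).sub
      (continuous_const.mul τ.continuous_sus).measurable.inv.aemeasurable).aestronglyMeasurable
    (max |sInf μ.support| |sSup μ.support|) (ae_restrict_of_forall_mem measurableSet_Ioo
      fun q hq => ?_)
  have h := Rtr_mem hμ (mul_pos hβ (τ.sus_pos hq.2))
  exact abs_le_max_abs_abs h.1 h.2

lemma Kinv_le_add (hμ : IsCompact μ.support) (hν : IsCompact ν.support) {η : ℝ}
    (hs : sSup μ.support ≤ sSup ν.support + η)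
    (h : ∀ z, sSup ν.support < z → stieltjes μ (z + η) ≤ stieltjes ν z) {w : ℝ} (hw : 0 < w) :
    Kinv μ w ≤ Kinv ν w + η :=
  sub_le_iff_le_add.1 (le_csInf ⟨_, Kset_mem hν hw⟩ fun z hz => sub_le_iff_le_add.2
    (csInf_le (Kset_bdd μ w) ⟨hs.trans_lt (add_lt_add_left hz.1 η), (h z hz.1).trans hz.2⟩))

lemma energy_le_add (hμ : IsCompact μ.support) (hν : IsCompact ν.support) {η : ℝ}
    (hs : sSup μ.support ≤ sSup ν.support + η)
    (h : ∀ z, sSup ν.support < z → stieltjes μ (z + η) ≤ stieltjes ν z) (τ : Trial) :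
    τ.energy 1 μ ≤ τ.energy 1 ν + η / 2 := by
  have h1 := intervalIntegral.integral_mono_on_of_le_Ioo zero_le_one
    (intervalIntegrable_Rtr hμ τ one_pos)
    ((intervalIntegrable_Rtr hν τ one_pos).add (intervalIntegrable_const (c := η))) fun q hq => by
      have h2 := Kinv_le_add hμ hν hs h (mul_pos one_pos (τ.sus_pos hq.2))
      unfold Rtr
      linarith
  rw [intervalIntegral.integral_add (intervalIntegrable_Rtr hν τ one_pos) intervalIntegrable_const,
    intervalIntegral.integral_const, sub_zero, one_smul] at h1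
  unfold Trial.energy
  linarith

lemma energy_mem (hμ : IsCompact μ.support) (τ : Trial) :
    τ.energy 1 μ ∈ Set.Icc (sInf μ.support / 2) (sSup μ.support / 2) := by
  have h1 := intervalIntegral.integral_mono_on_of_le_Ioo zero_le_one intervalIntegrable_const
    (intervalIntegrable_Rtr hμ τ one_pos) fun q hq =>
      (Rtr_mem hμ (mul_pos one_pos (τ.sus_pos hq.2))).1
  have h2 := intervalIntegral.integral_mono_on_of_le_Ioo zero_le_one
    (intervalIntegrable_Rtr hμ τ one_pos) intervalIntegrable_const fun q hq =>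
      (Rtr_mem hμ (mul_pos one_pos (τ.sus_pos hq.2))).2
  rw [intervalIntegral.integral_const, sub_zero, one_smul] at h1 h2
  unfold Trial.energy
  constructor <;> linarith

lemma limitP_le (hμ : IsCompact μ.support) (τ : Trial) :
    limitP 1 μ ≤ τ.energy 1 μ + τ.entropy :=
  ciInf_le ⟨sInf μ.support / 2, Set.forall_mem_range.2 fun σ =>
    le_add_of_le_of_nonneg (energy_mem hμ σ).1 σ.entropy_nonneg⟩ τ

lemma le_limitP (μ : Measure ℝ) {c : ℝ} (h : ∀ τ : Trial, c ≤ τ.energy 1 μ + τ.entropy) :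
    c ≤ limitP 1 μ := le_ciInf h

lemma exists_trial_lt (μ : Measure ℝ) {e : ℝ} (he : 0 < e) :
    ∃ τ : Trial, τ.energy 1 μ + τ.entropy < limitP 1 μ + e :=
  exists_lt_of_ciInf_lt (lt_add_of_pos_right _ he)

lemma limitP_le_add (hμ : IsCompact μ.support) (hν : IsCompact ν.support) {η : ℝ}
    (hs : sSup μ.support ≤ sSup ν.support + η)
    (h : ∀ z, sSup ν.support < z → stieltjes μ (z + η) ≤ stieltjes ν z) :
    limitP 1 μ ≤ limitP 1 ν + η / 2 :=
  sub_le_iff_le_add.1 (le_limitP ν fun τ => by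
    linarith [limitP_le hμ τ, energy_le_add hμ hν hs h τ])

lemma support_map_mul (μ : Measure ℝ) {β : ℝ} (hβ : 0 < β) :
    (μ.map fun x => β * x).support = (fun x => β * x) '' μ.support := by
  let e := Homeomorph.mulLeft₀ β hβ.ne'
  have he : MeasurableEmbedding fun x => β * x := e.measurableEmbedding
  ext y
  obtain ⟨x, rfl⟩ := e.surjective y
  refine Iff.trans ?_ (e.injective.mem_set_image (s := μ.support)).symm
  rw [Measure.mem_support_iff_forall, Measure.mem_support_iff_forall]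
  simp only [he.map_apply]
  refine ⟨fun h V hV => ?_, fun h U hU => h _ (e.continuous.continuousAt.preimage_mem_nhds hU)⟩
  exact (h _ (e.isOpenMap.image_mem_nhds hV)).trans_eq
    (congrArg μ (Set.preimage_image_eq _ e.injective))

lemma Rtr_map_mul (μ : Measure ℝ) {β : ℝ} (hβ : 0 < β) (w : ℝ) :
    Rtr (μ.map fun x => β * x) w = β * Rtr μ (β * w) := by
  have he : MeasurableEmbedding fun x => β * x := (Homeomorph.mulLeft₀ β hβ.ne').measurableEmbedding
  have h1 : sSup (μ.map fun x => β * x).support = β * sSup μ.support := by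
    rw [support_map_mul μ hβ]
    exact Real.sSup_smul_of_nonneg hβ.le _
  have h2 : ∀ z, stieltjes (μ.map fun x => β * x) (β * z) = β⁻¹ * stieltjes μ z := fun z => by
    simp only [stieltjes, he.integral_map, ← mul_sub, mul_inv, integral_const_mul]
  have h3 : Kinv (μ.map fun x => β * x) w = β * Kinv μ (β * w) := by
    refine Eq.trans (congrArg sInf ?_) (Real.sInf_smul_of_nonneg hβ.le _)
    ext y
    obtain ⟨z, rfl⟩ := mul_left_surjective₀ hβ.ne' y
    refine Iff.trans ?_ (Set.smul_mem_smul_set_iff₀ hβ.ne' _ z).symm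
    simp only [Set.mem_ofPred_eq, h1, h2, mul_lt_mul_iff_right₀ hβ, inv_mul_le_iff₀ hβ]
  rw [Rtr, Rtr, h3, mul_sub, mul_inv, mul_inv_cancel_left₀ hβ.ne']

lemma limitP_map_mul (hμ : IsCompact μ.support) {β : ℝ} (hβ : 0 < β) :
    limitP β μ = limitP 1 (μ.map fun x => β * x) := by
  simp only [limitP, Trial.energy, Rtr_map_mul μ hβ, one_mul, intervalIntegral.integral_const_mul,
    ← mul_assoc, one_div_mul_eq_div]

section dm

variable {J : Type} [Fintype J] {α : J → ℝ}

lemma dm_prob (h0 : ∀ j, 0 < α j) (h1 : ∑ j, α j = 1) (ℓ : J → ℝ) :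
    IsProbabilityMeasure (dm α ℓ) :=
  ⟨by simp [dm, ← ENNReal.ofReal_sum_of_nonneg fun j _ => (h0 j).le, h1]⟩
lemma support_dm (h0 : ∀ j, 0 < α j) (ℓ : J → ℝ) : (dm α ℓ).support = Set.range ℓ := by
  refine Set.Subset.antisymm (Measure.support_subset_of_isClosed (Set.finite_range ℓ).isClosed ?_)
    (Set.range_subset_iff.2 fun j => (Measure.mem_support_iff_forall _).2 fun U hU => ?_)
  · simp [mem_ae_iff, dm]
  · rw [dm, Measure.finsetSum_apply]
    refine lt_of_lt_of_le ?_ (single_le_sum (fun _ _ => zero_le) (mem_univ j))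
    simp [Measure.dirac_apply_of_mem (mem_of_mem_nhds hU), h0 j]
lemma isCompact_support_dm (h0 : ∀ j, 0 < α j) (ℓ : J → ℝ) : IsCompact (dm α ℓ).support :=
  (support_dm h0 ℓ).symm ▸ (Set.finite_range ℓ).isCompact
lemma integral_dm (h0 : ∀ j, 0 < α j) (ℓ : J → ℝ) (f : ℝ → ℝ) :
    ∫ x, f x ∂dm α ℓ = ∑ j, α j * f (ℓ j) := by
  rw [dm, integral_finsetSum_measure fun j _ =>
    (integrable_dirac enorm_lt_top).smul_measure ENNReal.ofReal_ne_top]
  simp only [integral_smul_measure, integral_dirac, ENNReal.toReal_ofReal (h0 _).le, smul_eq_mul]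
lemma nonempty_of_sum (h1 : ∑ j, α j = 1) : Nonempty J := by
  by_contra h
  have := not_nonempty_iff.1 h
  simp at h1

lemma energy_dm_const (h0 : ∀ j, 0 < α j) (h1 : ∑ j, α j = 1) (t0 : ℝ) (τ : Trial) :
    τ.energy 1 (dm α fun _ => t0) = t0 / 2 := by
  have := dm_prob h0 h1 fun _ => t0
  have := nonempty_of_sum h1
  have h := energy_mem (isCompact_support_dm h0 fun _ => t0) τ
  rw [support_dm h0, Set.range_const, csInf_singleton, csSup_singleton] at h
  exact le_antisymm h.2 h.1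
lemma energy_dm_le (h0 : ∀ j, 0 < α j) (h1 : ∑ j, α j = 1) {ℓ ℓ' : J → ℝ} {η : ℝ}
    (h : ∀ j, ℓ j ≤ ℓ' j + η) (τ : Trial) :
    τ.energy 1 (dm α ℓ) ≤ τ.energy 1 (dm α ℓ') + η / 2 := by
  have := dm_prob h0 h1 ℓ
  have := dm_prob h0 h1 ℓ'
  have := nonempty_of_sum h1
  have hb : ∀ j, ℓ' j ≤ sSup (dm α ℓ').support := fun j => by
    rw [support_dm h0]
    exact le_csSup (Set.finite_range _).bddAbove ⟨j, rfl⟩
  refine energy_le_add (isCompact_support_dm h0 ℓ) (isCompact_support_dm h0 ℓ') ?_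
    (fun z hz => ?_) τ
  · rw [support_dm h0 ℓ]
    exact csSup_le (Set.range_nonempty _) (Set.forall_mem_range.2 fun j =>
      (h j).trans (add_le_add_left (hb j) η))
  · rw [stieltjes, stieltjes, integral_dm h0, integral_dm h0]
    exact sum_le_sum fun j _ => mul_le_mul_of_nonneg_left
      (inv_anti₀ (sub_pos.2 ((hb j).trans_lt hz)) (by linarith [h j])) (h0 j).le

end dm

end

end Vale.Agent.P166
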