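import Vale.Agent.P166.Defs0

/-! P166 Flat: at a maximum of Phi - pen the second differences of Phi are small. Elementary real inequalities.
Plan: compare with the point where one coordinate is moved to 3/2 to locate the maximiser in [5/4,7/4] (in fact [3/2,7/4] when s is nonzero; if s = 0 nothing is
claimed, the hypothesis 0 < s is there), then compare with x +- delta. Only the (p,j) term of pen changes under Function.update (Finset.sum over range: split off p and j). -/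

open MeasureTheory ProbabilityTheory Filter Topology Matrix Finset

namespace Vale.Agent.P166

noncomputable section

lemma pen_nonneg (r M : ℕ) (s x0 : ℝ) (x : ℕ × ℕ → ℝ) : 0 ≤ pen r M s x0 x :=
by
  unfold pen
  positivity
lemma pen_mid (r M : ℕ) (s : ℝ) : pen r M s (3 / 2) (fun _ => 3 / 2) = 0 :=
by
  simp [pen]
lemma pen_le (r M : ℕ) (s : ℝ) {x0 : ℝ} {x : ℕ × ℕ → ℝ} (h : InBox x0 x) :
    pen r M s x0 x ≤ (3 * r + 5) * s ^ 2 :=
by
  have hq : ∀ y ∈ Set.Icc (1 : ℝ) 2, (y - 3 / 2) ^ 2 ≤ 1 / 4 := fun y hy => by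
    nlinarith [hy.1, hy.2]
  have hg : ∀ n, ∑ p ∈ range n, (1 / 4 : ℝ) ^ p = 4 / 3 - 4 / 3 * (1 / 4 : ℝ) ^ n := fun n => by
    induction n with
    | zero => simp
    | succ n ih => rw [sum_range_succ, ih]; ring
  have h1 : ∑ p ∈ range M, ∑ j ∈ range (r + 1), (1 / 4 : ℝ) ^ p * (x (p, j) - 3 / 2) ^ 2 ≤
      ∑ p ∈ range M, ∑ j ∈ range (r + 1), (1 / 4 : ℝ) ^ p * (1 / 4) :=
    sum_le_sum fun p _ => sum_le_sum fun j _ =>
      mul_le_mul_of_nonneg_left (hq _ (h.2 _)) (by positivity)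
  simp only [sum_const, card_range, nsmul_eq_mul, ← mul_sum, ← sum_mul, hg] at h1
  have h2 : (0 : ℝ) ≤ (r + 1) * (1 / 4 : ℝ) ^ M := by positivity
  have h3 := hq _ h.1
  have h4 : 8 * (x0 - 3 / 2) ^ 2 + 8 * ∑ p ∈ range M, ∑ j ∈ range (r + 1),
      (1 / 4 : ℝ) ^ p * (x (p, j) - 3 / 2) ^ 2 ≤ 3 * r + 5 := by
    simp only [← mul_sum]
    push_cast at h1
    have : (0 : ℝ) ≤ r := Nat.cast_nonneg r
    linarith
  have h5 := mul_le_mul_of_nonneg_right h4 (sq_nonneg s)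
  unfold pen
  linarith
lemma continuous_pen (r M : ℕ) (s : ℝ) :
    Continuous fun z : ℝ × (ℕ × ℕ → ℝ) => pen r M s z.1 z.2 :=
by
  unfold pen
  fun_prop
lemma isCompact_box : IsCompact {z : ℝ × (ℕ × ℕ → ℝ) | InBox z.1 z.2} :=
by
  have e : {z : ℝ × (ℕ × ℕ → ℝ) | InBox z.1 z.2} =
      Set.Icc (1 : ℝ) 2 ×ˢ Set.pi Set.univ fun _ => Set.Icc (1 : ℝ) 2 := by
    ext z
    simp only [InBox, Set.mem_ofPred_eq, Set.mem_prod, Set.mem_univ_pi]
  rw [e]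
  exact isCompact_Icc.prod (isCompact_univ_pi fun _ => isCompact_Icc)

lemma flat_pen_update {r M p j : ℕ} (hp : p < M) (hj : j ≤ r) (s x0 : ℝ) (x : ℕ × ℕ → ℝ) (y : ℝ) :
    pen r M s x0 (Function.update x (p, j) y) = pen r M s x0 x +
      8 * (s ^ 2 * (1 / 4 : ℝ) ^ p) * ((y - 3 / 2) ^ 2 - (x (p, j) - 3 / 2) ^ 2) := by
  have h : ∀ q : ℕ × ℕ, (1 / 4 : ℝ) ^ q.1 * (Function.update x (p, j) y q - 3 / 2) ^ 2 =
      (1 / 4 : ℝ) ^ q.1 * (x q - 3 / 2) ^ 2 + if q = (p, j) then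
        (1 / 4 : ℝ) ^ p * ((y - 3 / 2) ^ 2 - (x (p, j) - 3 / 2) ^ 2) else 0 := by
    intro q
    split_ifs with hq
    · subst hq
      rw [Function.update_self]; ring
    · rw [Function.update_of_ne hq, add_zero]
  unfold pen
  rw [← sum_product' (f := fun p' j' => (1 / 4 : ℝ) ^ p' *
      (Function.update x (p, j) y (p', j') - 3 / 2) ^ 2),
    ← sum_product' (f := fun p' j' => (1 / 4 : ℝ) ^ p' * (x (p', j') - 3 / 2) ^ 2)]
  simp only [Prod.mk.eta, h]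
  rw [sum_add_distrib, sum_ite_eq', if_pos (mem_product.2 ⟨mem_range.2 hp, mem_range.2 (by omega)⟩)]
  ring

lemma flat_box_update {x0 : ℝ} {x : ℕ × ℕ → ℝ} (h : InBox x0 x) (k : ℕ × ℕ) {y : ℝ}
    (hy : y ∈ Set.Icc (1 : ℝ) 2) : InBox x0 (Function.update x k y) := by
  refine ⟨h.1, fun k' => ?_⟩
  by_cases e : k' = k
  · subst e; rwa [Function.update_self]
  · rw [Function.update_of_ne e]; exact h.2 k'

lemma flat_one {φ : ℝ → ℝ} {w y0 : ℝ} (hw : 0 < w) (hy : y0 ∈ Set.Icc (1 : ℝ) 2)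
    (hmax : ∀ y ∈ Set.Icc (1 : ℝ) 2, φ y ≤ φ y0 + 8 * w * ((y - 3 / 2) ^ 2 - (y0 - 3 / 2) ^ 2))
    (h : ∀ y y', 1 ≤ y → y ≤ y' → y' ≤ 2 → φ y ≤ φ y' ∧ φ y' ≤ φ y + 2 * w * (y' - y)) :
    y0 ∈ Set.Icc (5 / 4 : ℝ) (7 / 4) ∧ ∀ δ ∈ Set.Icc (0 : ℝ) (1 / 4),
      φ (y0 + δ) + φ (y0 - δ) - 2 * φ y0 ≤ 16 * w * δ ^ 2 := by
  have h1 := hmax (3 / 2) ⟨by norm_num, by norm_num⟩
  have h2 : y0 ∈ Set.Icc (5 / 4 : ℝ) (7 / 4) := by
    rcases le_total y0 (3 / 2) with h3 | h3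
    · have h4 := (h y0 (3 / 2) hy.1 h3 (by norm_num)).1
      have h5 : w * (y0 - 3 / 2) ^ 2 ≤ w * 0 := by linarith
      have h6 := le_of_mul_le_mul_left h5 hw
      constructor <;> nlinarith
    · have h4 := (h (3 / 2) y0 (by norm_num) h3 hy.2).2
      have h5 : w * (4 * (y0 - 3 / 2) ^ 2) ≤ w * (y0 - 3 / 2) := by linarith
      have h6 := le_of_mul_le_mul_left h5 hw
      constructor <;> nlinarith
  refine ⟨h2, fun δ hδ => ?_⟩
  have h3 := hmax (y0 + δ) ⟨by linarith [h2.1, hδ.1], by linarith [h2.2, hδ.2]⟩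
  have h4 := hmax (y0 - δ) ⟨by linarith [h2.1, hδ.2], by linarith [h2.2, hδ.1]⟩
  linarith

lemma flat_of_max {r M : ℕ} {s : ℝ} (hs : 0 < s) {Φ : ℝ → (ℕ × ℕ → ℝ) → ℝ} {x0 : ℝ}
    {x : ℕ × ℕ → ℝ} (hx : InBox x0 x)
    (hmax : ∀ x0' x', InBox x0' x' → Φ x0' x' - pen r M s x0' x' ≤ Φ x0 x - pen r M s x0 x)
    (h0 : ∀ y y', 1 ≤ y → y ≤ y' → y' ≤ 2 →
      Φ y x ≤ Φ y' x ∧ Φ y' x ≤ Φ y x + 2 * s ^ 2 * (y' - y))
    (h1 : ∀ p < M, ∀ j ≤ r, ∀ y y', 1 ≤ y → y ≤ y' → y' ≤ 2 →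
      Φ x0 (Function.update x (p, j) y) ≤ Φ x0 (Function.update x (p, j) y') ∧
      Φ x0 (Function.update x (p, j) y') ≤
        Φ x0 (Function.update x (p, j) y) + 2 * s ^ 2 * (1 / 4 : ℝ) ^ p * (y' - y)) :
    Flat r M s Φ x0 x 0 :=
by
  have a0 := flat_one (φ := fun y => Φ y x) (w := s ^ 2) (by positivity) hx.1 (fun y hy => by
    have := hmax y x ⟨hy, hx.2⟩
    unfold pen at this
    linarith) h0
  have a1 : ∀ p < M, ∀ j ≤ r, _ := fun p hp j hj =>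
    flat_one (φ := fun y => Φ x0 (Function.update x (p, j) y)) (w := s ^ 2 * (1 / 4 : ℝ) ^ p)
      (by positivity) (hx.2 (p, j)) (fun y hy => by
        have := hmax x0 _ (flat_box_update hx (p, j) hy)
        rw [flat_pen_update hp hj] at this
        rw [Function.update_eq_self]
        linarith) (fun y y' b1 b2 b3 => by
        rw [← mul_assoc]
        exact h1 p hp j hj y y' b1 b2 b3)
  refine ⟨hx, a0.1, fun p hp j hj => (a1 p hp j hj).1, fun δ hδ => ?_, fun p hp j hj δ hδ => ?_⟩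
  · rw [add_zero]
    exact a0.2 δ hδ
  · have := (a1 p hp j hj).2 δ hδ
    rw [Function.update_eq_self] at this
    linarith

lemma Flat.transfer {r M : ℕ} {s D B : ℝ} {Φ Φ' : ℝ → (ℕ × ℕ → ℝ) → ℝ} {x0 : ℝ} {x : ℕ × ℕ → ℝ}
    (h : Flat r M s Φ x0 x D) (hB : ∀ x0' x', InBox x0' x' → |Φ x0' x' - Φ' x0' x'| ≤ B) :
    Flat r M s Φ' x0 x (D + 4 * B) :=
by
  have b0 := abs_le.1 (hB x0 x h.box)
  refine ⟨h.box, h.m0, h.m1, fun δ hδ => ?_, fun p hp j hj δ hδ => ?_⟩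
  · have b1 := abs_le.1 (hB (x0 + δ) x
      ⟨⟨by linarith [h.m0.1, hδ.1], by linarith [h.m0.2, hδ.2]⟩, h.box.2⟩)
    have b2 := abs_le.1 (hB (x0 - δ) x
      ⟨⟨by linarith [h.m0.1, hδ.2], by linarith [h.m0.2, hδ.1]⟩, h.box.2⟩)
    linarith [h.d0 δ hδ]
  · have m := h.m1 p hp j hj
    have b1 := abs_le.1 (hB x0 _ (flat_box_update h.box (p, j) (y := x (p, j) + δ)
      ⟨by linarith [m.1, hδ.1], by linarith [m.2, hδ.2]⟩))
    have b2 := abs_le.1 (hB x0 _ (flat_box_update h.box (p, j) (y := x (p, j) - δ)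
      ⟨by linarith [m.1, hδ.2], by linarith [m.2, hδ.1]⟩))
    linarith [h.d1 p hp j hj δ hδ]

end

end Vale.Agent.P166
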