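import Vale.Agent.P166.RMB
import Vale.Agent.P166.Flat

/-! P166 Cont: Lipschitz dependence of the free energy on the parameters, flat points.
Plan. F_lip: let P'' have a, x0, x equal to the pointwise max of the two, h'' = max h h'; Fm_le from each of the two points to the join, integrate (integrable_Fm; for the join use the pointwise bounds only:
Fm P h <= Fm P'' h'' <= Fm P' h' + error, then integral_mono). flat_of_isMax: flat_of_max with the one coordinate monotonicity from Fm_le. exists_flat: continuousOn from F_lip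
(finitely many coordinates matter), isCompact_box, IsCompact.exists_isMaxOn. F_pert from Fm_pert. hY_sub_le: sum of squares is card. -/

open MeasureTheory ProbabilityTheory Filter Topology Matrix Finset

namespace Vale.Agent.P166

noncomputable section

variable {r : ℕ} {b : ℕ → ℕ} {m : ℕ → ℝ}

/-- distance between two parameters -/
def pdist (r : ℕ) (BQ : ℝ) (P P' : Pr) : ℝ :=
  P.s ^ 2 * |P.x0 - P'.x0| + (∑ l ∈ range (r + 1), |P.a l - P'.a l|) * BQ / 2 +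
    2 * P.s ^ 2 * ∑ p ∈ range P.M, ∑ j ∈ range (r + 1), (1 / 4 : ℝ) ^ p * |P.x (p, j) - P'.x (p, j)|

lemma cont_half {Sg : Type} [Fintype Sg] [Nonempty Sg] (hm : MOk r m) {P P' : Pr} (hP : P.Ok)
    (hP' : P'.Ok) (hs : P'.s = P.s) (hM : P'.M = P.M) {h h' : Sg → ℝ} {T Q : Sg → Sg → ℝ}
    (hT : PSD T) (hQ : PSD Q) (bT : ∀ σ σ', |T σ σ'| ≤ 1) {BQ B : ℝ} (bQ : ∀ σ, Q σ σ ≤ BQ)
    (hh : ∀ σ, |h σ - h' σ| ≤ B) :
    Fm r b m P h T Q ≤ Fm r b m P' h' T Q + (B + pdist r BQ P P') := by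
  obtain ⟨σ0⟩ := (inferInstance : Nonempty Sg)
  have hB : 0 ≤ BQ := (hQ.diag_nonneg σ0).trans (bQ σ0)
  have k : ∀ x y : ℝ, max x y - y ≤ |x - y| := fun x y => by
    rw [sub_le_iff_le_add]
    exact max_le (by linarith [le_abs_self (x - y)]) (by linarith [abs_nonneg (x - y)])
  have hI : ∀ x y : ℝ, x ∈ Set.Icc (1 : ℝ) 2 → y ∈ Set.Icc (1 : ℝ) 2 →
      max x y ∈ Set.Icc (1 : ℝ) 2 := fun x y hx hy => ⟨hx.1.trans (le_max_left _ _), max_le hx.2 hy.2⟩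
  have hJ : Pr.Ok ⟨fun l => max (P.a l) (P'.a l), P.s, P.M, max P.x0 P'.x0,
      fun q => max (P.x q) (P'.x q)⟩ := ⟨fun l => (hP.a_nonneg l).trans (le_max_left _ _),
    hI _ _ hP.box.1 hP'.box.1, fun q => hI _ _ (hP.box.2 q) (hP'.box.2 q)⟩
  have h1 := (Fm_le (b := b) hm hP hJ rfl rfl (fun _ _ => le_max_left _ _) (le_max_left _ _)
    (fun _ _ _ _ => le_max_left _ _) (h := h) (h' := fun σ => max (h σ) (h' σ)) hT hQ bT bQ (B := B)
    fun σ => ⟨le_max_left _ _, by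
      linarith [k (h' σ) (h σ), max_comm (h σ) (h' σ), abs_sub_comm (h σ) (h' σ), hh σ]⟩).1
  have h2 := (Fm_le (b := b) hm hP' hJ hs.symm hM.symm (fun _ _ => le_max_right _ _)
    (le_max_right _ _) (fun _ _ _ _ => le_max_right _ _) (h := h')
    (h' := fun σ => max (h σ) (h' σ)) hT hQ bT bQ (B := B)
    fun σ => ⟨le_max_right _ _, by linarith [k (h σ) (h' σ), hh σ]⟩).2
  rw [hs, hM] at h2
  have h3 := mul_le_mul_of_nonneg_left (k P.x0 P'.x0) (sq_nonneg P.s)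
  have h4 := mul_le_mul_of_nonneg_right
    (sum_le_sum fun l (_ : l ∈ range (r + 1)) => k (P.a l) (P'.a l)) hB
  have h5 := mul_le_mul_of_nonneg_left (sum_le_sum fun p (_ : p ∈ range P.M) =>
    sum_le_sum fun j (_ : j ∈ range (r + 1)) => mul_le_mul_of_nonneg_left
      (k (P.x (p, j)) (P'.x (p, j))) (by positivity : (0 : ℝ) ≤ (1 / 4) ^ p))
    (by positivity : 0 ≤ 2 * P.s ^ 2)
  unfold pdist
  linarith

lemma cont_int {Ω : Type} [MeasurableSpace Ω] {μ : Measure Ω} [IsProbabilityMeasure μ]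
    {f g : Ω → ℝ} {K : ℝ} (hf : Integrable f μ) (hg : Integrable g μ) (h : ∀ ω, |f ω - g ω| ≤ K) :
    |∫ ω, f ω ∂μ - ∫ ω, g ω ∂μ| ≤ K := by
  rw [← integral_sub hf hg]
  exact rmb_abs_integral_le h

lemma cont_le {Ω : Type} [MeasurableSpace Ω] {μ : Measure Ω} [IsProbabilityMeasure μ]
    {f g : Ω → ℝ} {K : ℝ} (hf : Integrable f μ) (hg : Integrable g μ) (h : ∀ ω, f ω ≤ g ω + K) :
    ∫ ω, f ω ∂μ ≤ ∫ ω, g ω ∂μ + K := by
  have h1 := integral_mono hf (hg.add (integrable_const K)) h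
  simpa [integral_add hg (integrable_const K)] using h1

lemma abs_Fm_sub_le {Sg : Type} [Fintype Sg] [Nonempty Sg] (hm : MOk r m) {P P' : Pr} (hP : P.Ok)
    (hP' : P'.Ok) (hs : P'.s = P.s) (hM : P'.M = P.M) {h h' : Sg → ℝ} {T Q : Sg → Sg → ℝ}
    (hT : PSD T) (hQ : PSD Q) (bT : ∀ σ σ', |T σ σ'| ≤ 1) {BQ B : ℝ} (bQ : ∀ σ, Q σ σ ≤ BQ)
    (hh : ∀ σ, |h σ - h' σ| ≤ B) :
    |Fm r b m P h T Q - Fm r b m P' h' T Q| ≤ B + pdist r BQ P P' := by
  have h1 := cont_half (b := b) hm hP hP' hs hM hT hQ bT bQ hh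
  have h2 := cont_half (b := b) hm hP' hP hs.symm hM.symm hT hQ bT bQ
    fun σ => (abs_sub_comm _ _).trans_le (hh σ)
  have h3 : pdist r BQ P' P = pdist r BQ P P' := by
    simp only [pdist, hs, hM, abs_sub_comm P'.x0, abs_sub_comm (P'.a _), abs_sub_comm (P'.x _)]
  rw [abs_le]
  constructor <;> linarith

lemma RM.F_lip (X : RM) (hm : MOk r m) {P P' : Pr} (hP : P.Ok) (hP' : P'.Ok) (hs : P'.s = P.s)
    (hM : P'.M = P.M) : |X.F r b m P - X.F r b m P'| ≤ pdist r X.BQ P P' :=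
  cont_int (X.integrable_Fm hm hP) (X.integrable_Fm hm hP') fun ω =>
    (abs_Fm_sub_le hm hP hP' hs hM (X.pT ω) (X.pQ ω) (X.bT ω) (X.bQ ω) (B := 0)
      fun _ => by simp).trans_eq (zero_add _)

lemma abs_hY_sub_le {ι : Type} [Fintype ι] {bb bb' y : ι → ℝ} {η : ℝ} (h : ∀ i, |bb i - bb' i| ≤ η)
    (hy : ∑ i, y i ^ 2 = Fintype.card ι) : |hY bb y - hY bb' y| ≤ η * Fintype.card ι / 2 := by
  unfold hY
  rw [← sub_div, ← sum_sub_distrib, abs_div, abs_two, ← hy, mul_sum]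
  refine div_le_div_of_nonneg_right ((abs_sum_le_sum_abs _ _).trans (sum_le_sum fun i _ => ?_))
    zero_le_two
  rw [← sub_mul, abs_mul, abs_of_nonneg (sq_nonneg (y i))]
  exact mul_le_mul_of_nonneg_right (h i) (sq_nonneg _)

lemma YD.F_lip {ι : Type} [Fintype ι] (D : YD ι) (hm : MOk r m) {P P' : Pr} (hP : P.Ok)
    (hP' : P'.Ok) (hs : P'.s = P.s) (hM : P'.M = P.M) {bb bb' : ι → ℝ} {η : ℝ}
    (h : ∀ i, |bb i - bb' i| ≤ η) (Top : Finset ι) {N0 : ℕ} (hN : Fintype.card ι ≤ N0) :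
    |(D.rm bb Top N0 hN).F r b m P - (D.rm bb' Top N0 hN).F r b m P'| ≤
      η * Fintype.card ι / 2 + pdist r (Fintype.card ι) P P' :=
  cont_int ((D.rm bb Top N0 hN).integrable_Fm hm hP) ((D.rm bb' Top N0 hN).integrable_Fm hm hP')
    fun ω => abs_Fm_sub_le hm hP hP' hs hM ((D.rm bb Top N0 hN).pT ω) ((D.rm bb Top N0 hN).pQ ω)
      ((D.rm bb Top N0 hN).bT ω) ((D.rm bb Top N0 hN).bQ ω) fun σ => abs_hY_sub_le h (D.sq ω σ)

lemma YD.F_mono {ι : Type} [Fintype ι] (D : YD ι) (hm : MOk r m) {P : Pr} (hP : P.Ok)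
    {bb bb' : ι → ℝ} (h : ∀ i, bb i ≤ bb' i) (Top : Finset ι) {N0 : ℕ} (hN : Fintype.card ι ≤ N0) :
    (D.rm bb Top N0 hN).F r b m P ≤ (D.rm bb' Top N0 hN).F r b m P :=
  integral_mono ((D.rm bb Top N0 hN).integrable_Fm hm hP)
    ((D.rm bb' Top N0 hN).integrable_Fm hm hP) fun ω =>
    (Fm_le hm hP hP rfl rfl (fun _ _ => le_rfl) le_rfl (fun _ _ _ _ => le_rfl)
      ((D.rm bb Top N0 hN).pT ω) ((D.rm bb Top N0 hN).pQ ω) ((D.rm bb Top N0 hN).bT ω)
      ((D.rm bb Top N0 hN).bQ ω) (B := (D.rm bb Top N0 hN).Bh + (D.rm bb' Top N0 hN).Bh) fun σ =>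
      ⟨div_le_div_of_nonneg_right (sum_le_sum fun i _ =>
        mul_le_mul_of_nonneg_right (h i) (sq_nonneg _)) zero_le_two,
        (abs_le.1 ((D.rm bb' Top N0 hN).bh ω σ)).2.trans
          ((le_add_of_nonneg_left (neg_le_iff_add_nonneg.1
            (abs_le.1 ((D.rm bb Top N0 hN).bh ω σ)).1)).trans_eq (add_assoc _ _ _))⟩).1

/-- the perturbation changes the free energy by `O(s²)` -/
lemma YD.F_pert {ι : Type} [Fintype ι] (D : YD ι) (hm : MOk r m) {P : Pr} (hP : P.Ok) (bb : ι → ℝ)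
    (Top Top' : Finset ι) {N0 N0' : ℕ} (hN : Fintype.card ι ≤ N0) (hN' : Fintype.card ι ≤ N0') :
    (D.rm bb Top' N0' hN').F r b m (Pr0 P.a) ≤ (D.rm bb Top N0 hN).F r b m P ∧
    (D.rm bb Top N0 hN).F r b m P ≤
      (D.rm bb Top' N0' hN').F r b m (Pr0 P.a) + (3 * r + 5) * P.s ^ 2 := by
  have h1 := (D.rm bb Top' N0' hN').integrable_Fm (b := b) hm (Pr0_ok hP.a_nonneg)
  have h2 := (D.rm bb Top N0 hN).integrable_Fm (b := b) hm hP
  have h3 := fun ω => Fm_pert (b := b) hm hP ((D.rm bb Top N0 hN).h ω)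
    (T' := (D.rm bb Top' N0' hN').T ω) ((D.rm bb Top N0 hN).pT ω) ((D.rm bb Top N0 hN).pQ ω)
    ((D.rm bb Top N0 hN).bT ω)
  exact ⟨integral_mono h1 h2 fun ω => (h3 ω).1, cont_le h2 h1 fun ω => (h3 ω).2⟩

lemma Pr.Ok.wx {P : Pr} (hP : P.Ok) {x0 : ℝ} {x : ℕ × ℕ → ℝ} (h : InBox x0 x) : (P.wx x0 x).Ok :=
  ⟨hP.a_nonneg, h⟩

lemma RM.cont_wx (X : RM) (hm : MOk r m) {P : Pr} (hP : P.Ok) {x0 x0' : ℝ} {x x' : ℕ × ℕ → ℝ}
    (h : InBox x0 x) (h' : InBox x0' x') (h0 : x0 ≤ x0') (h1 : ∀ q, x q ≤ x' q) :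
    X.F r b m (P.wx x0 x) ≤ X.F r b m (P.wx x0' x') ∧
      X.F r b m (P.wx x0' x') ≤ X.F r b m (P.wx x0 x) + (P.s ^ 2 * (x0' - x0) +
        2 * P.s ^ 2 * ∑ p ∈ range P.M, ∑ j ∈ range (r + 1),
          (1 / 4 : ℝ) ^ p * (x' (p, j) - x (p, j))) := by
  have h2 := X.integrable_Fm (b := b) hm (hP.wx h)
  have h3 := X.integrable_Fm (b := b) hm (hP.wx h')
  have h4 := fun ω => Fm_le (b := b) hm (hP.wx h) (hP.wx h') rfl rfl (fun _ _ => le_rfl) h0
    (fun _ _ _ _ => h1 _) (X.pT ω) (X.pQ ω) (X.bT ω) (X.bQ ω) (h := X.h ω) (h' := X.h ω) (B := 0)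
    fun _ => ⟨le_rfl, (add_zero _).ge⟩
  refine ⟨integral_mono h2 h3 fun ω => (h4 ω).1, cont_le h3 h2 fun ω => (h4 ω).2.trans_eq ?_⟩
  simp only [Pr.wx, sub_self, sum_const_zero, zero_mul, zero_div, add_zero, add_assoc]

lemma RM.flat_of_isMax (X : RM) (hm : MOk r m) {P : Pr} (hP : P.Ok) (hs : 0 < P.s)
    (hmax : ∀ x0 x, InBox x0 x → X.F r b m (P.wx x0 x) - pen r P.M P.s x0 x ≤
      X.F r b m P - pen r P.M P.s P.x0 P.x) :
    Flat r P.M P.s (fun x0 x => X.F r b m (P.wx x0 x)) P.x0 P.x 0 := by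
  refine flat_of_max hs hP.box hmax (fun y y' h1 h2 h3 => ?_) fun p hp j hj y y' h1 h2 h3 => ?_
  · have h4 := X.cont_wx (b := b) hm hP (x := P.x) (x' := P.x) ⟨⟨h1, h2.trans h3⟩, hP.box.2⟩
      ⟨⟨h1.trans h2, h3⟩, hP.box.2⟩ h2 fun _ => le_rfl
    simp only [sub_self, mul_zero, sum_const_zero, add_zero] at h4
    have h5 := mul_nonneg (sq_nonneg P.s) (sub_nonneg.2 h2)
    exact ⟨h4.1, by linarith [h4.2]⟩
  · have h4 := X.cont_wx (b := b) hm hP (flat_box_update hP.box (p, j) ⟨h1, h2.trans h3⟩)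
      (flat_box_update hP.box (p, j) ⟨h1.trans h2, h3⟩) le_rfl
      (update_le_update_iff.2 ⟨h2, fun _ _ => le_rfl⟩)
    rw [sum_eq_single_of_mem p (mem_range.2 hp) fun p' _ hp' => sum_eq_zero fun j' _ => by
        simp [hp'],
      sum_eq_single_of_mem j (mem_range.2 (Nat.lt_succ_of_le hj)) fun j' _ hj' => by simp [hj'],
      Function.update_self, Function.update_self] at h4
    exact ⟨h4.1, by linarith [h4.2]⟩

lemma RM.exists_max (X : RM) (hm : MOk r m) {P : Pr} (hP : P.Ok) :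
    ∃ x0 x, InBox x0 x ∧ ∀ x0' x', InBox x0' x' →
      X.F r b m (P.wx x0' x') - pen r P.M P.s x0' x' ≤
        X.F r b m (P.wx x0 x) - pen r P.M P.s x0 x := by
  have h1 : ContinuousOn (fun z : ℝ × (ℕ × ℕ → ℝ) => X.F r b m (P.wx z.1 z.2))
      {z | InBox z.1 z.2} := fun z0 h0 => by
    have h2 : Continuous fun z : ℝ × (ℕ × ℕ → ℝ) =>
        pdist r X.BQ (P.wx z.1 z.2) (P.wx z0.1 z0.2) := by
      simp only [pdist, Pr.wx]
      fun_prop
    have h3 := (h2.tendsto' z0 0 (by simp [pdist])).mono_left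
      (nhdsWithin_le_nhds (s := {z | InBox z.1 z.2}))
    refine tendsto_iff_dist_tendsto_zero.2 (squeeze_zero' (Eventually.of_forall fun _ => dist_nonneg)
      ?_ h3)
    filter_upwards [self_mem_nhdsWithin] with z hz
    exact X.F_lip hm (hP.wx hz) (hP.wx h0) rfl rfl
  obtain ⟨z, hz, h2⟩ := isCompact_box.exists_isMaxOn ⟨(P.x0, P.x), hP.box⟩
    (h1.sub (continuous_pen r P.M P.s).continuousOn)
  exact ⟨z.1, z.2, hz, fun x0' x' h => h2 (a := (x0', x')) h⟩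

lemma cont_tangent {Sg : Type} [Fintype Sg] [Nonempty Sg] (hm : MOk r m) {P : Pr} (hP : P.Ok)
    (h h' : Sg → ℝ) {T Q : Sg → Sg → ℝ} (hT : PSD T) (hQ : PSD Q) :
    Fm r b m P h T Q + Am r b m P h T Q 1 (fun c => h' (c 0).1 - h (c 0).1) ≤
      Fm r b m P h' T Q := by
  have h1 : Integrable (fun u => Avg 1 (Hm r b m P h T u) (Cm r b P T Q)
      fun c => h' (c 0).1 - h (c 0).1) (Pu b m 1 r) :=
    rmb_integrable (rmb_measurable_Avg 1 (rmb_measurable_Hm h T) (fun _ _ => measurable_const)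
      fun _ => measurable_const) fun u => abs_Avg_le 1 _ _ (B := ∑ σ, |h' σ - h σ|) fun c =>
        single_le_sum (f := fun σ => |h' σ - h σ|) (fun _ _ => abs_nonneg _) (mem_univ _)
  unfold Fm Am
  rw [← integral_add (integrable_Phi_Hm hm hP.a_nonneg h hT hQ) h1]
  refine integral_mono ((integrable_Phi_Hm hm hP.a_nonneg h hT hQ).add h1)
    (integrable_Phi_Hm hm hP.a_nonneg h' hT hQ) fun u => ?_
  have h2 := Phi_jensen (Hm r b m P h T u) (fun c => h' c.1 - h c.1) (Cm r b P T Q)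
  have h3 : (Hm r b m P h T u + fun c => h' c.1 - h c.1) = Hm r b m P h' T u := by
    funext c
    simp only [Hm, Pi.add_apply]
    ring
  rwa [h3, ← Avg_one] at h2

/-- convexity in the eigenvalues (Phi_jensen) -/
lemma YD.F_tangent {ι : Type} [Fintype ι] (D : YD ι) (hm : MOk r m) {P : Pr} (hP : P.Ok)
    (bb bb' : ι → ℝ) (Top : Finset ι) {N0 : ℕ} (hN : Fintype.card ι ≤ N0) :
    (D.rm bb Top N0 hN).F r b m P + (D.rm bb Top N0 hN).A r b m P 1
        (fun ω c => hY bb' (D.Y ω (c 0).1) - hY bb (D.Y ω (c 0).1)) ≤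
      (D.rm bb' Top N0 hN).F r b m P := by
  have h1 := (D.rm bb Top N0 hN).integrable_Fm (b := b) hm hP
  have h2 : Integrable (fun ω => Am r b m P ((D.rm bb Top N0 hN).h ω) ((D.rm bb Top N0 hN).T ω)
      ((D.rm bb Top N0 hN).Q ω) 1 fun c => hY bb' (D.Y ω (c 0).1) - hY bb (D.Y ω (c 0).1)) D.P :=
    rmb_integrable ((D.rm bb Top N0 hN).measurable_Am 1 fun c =>
      ((D.rm bb' Top N0 hN).mh _).sub ((D.rm bb Top N0 hN).mh _))
      fun ω => rmb_abs_integral_le fun _ => abs_Avg_le 1 _ _ fun c => (abs_sub _ _).trans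
        (add_le_add ((D.rm bb' Top N0 hN).bh ω _) ((D.rm bb Top N0 hN).bh ω _))
  refine (integral_add h1 h2).symm.trans_le (integral_mono (h1.add h2)
    ((D.rm bb' Top N0 hN).integrable_Fm hm hP) fun ω => ?_)
  exact cont_tangent hm hP ((D.rm bb Top N0 hN).h ω) ((D.rm bb' Top N0 hN).h ω)
    ((D.rm bb Top N0 hN).pT ω) ((D.rm bb Top N0 hN).pQ ω)

end

end Vale.Agent.P166
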