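import Vale.Agent.P166.Gibbs

/-! P166 Gibbs2: total variation, Taylor expansion, second differences (deterministic).
Plan. av_tv: BC = sum sqrt(p p') = exp(-D/2) with D = lz H + lz H' - 2 lz mid; |p-p'|_1 <= 2 sqrt(1-BC^2) (Cauchy-Schwarz) and
1 - exp(-D) <= D; products: |prod p - prod p'|_1 <= n |p-p'|_1 by induction on n (Fin.consEquiv / Fin.sum_univ_succ, or a hybrid telescoping).
taylor1/taylor2: phi(t) = log av1 exp(tK); phi' = <K>_t, phi'' = Var_t in [0,B^2], |phi'''| <= 8 B^3 (centred variable bounded by 2B);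
use hasDerivAt_av1 three times and the mean value inequality (or taylor_mean_remainder_lagrange).
power_mean: Jensen for u -> u^(1+eta) (Real.inner_le_nnorm_mul_nnorm is not needed; use Real.rpow_arith_mean_le_arith_mean_rpow or the tangent line
inequality u^(1+eta) >= a^(1+eta) + (1+eta) a^eta (u-a)), and -log <exp(-q)> <= <q> (exp_av1_le). assoc: Chebyshev sum inequality
via the double sum of (q s - q s')(exp(-q s) - exp(-q s')) <= 0.
thermal: with Y = d (K - <K>): ab >= a+b-1 for a,b >= 1, exp Y + exp(-Y) - 1 >= (3/4) exp |Y|, Jensen.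
rad: apply taylor2 for each z with K s = V s * spin (z (nd s)); <K> = sum_nu spin(z nu) <V 1[nd = nu]>; integrate: E spin(z nu) = 0,
E spin(z nu) spin(z nu') = 1[nu = nu'] (Measure.pi over Bool: use the measure preserving flip of one coordinate, or integral_fintype_prod_eq_prod). -/

open MeasureTheory ProbabilityTheory Filter Topology Matrix Finset

namespace Vale.Agent.P166

noncomputable section

variable {S : Type} [Fintype S] [Nonempty S]

lemma g2_sum_pos (H : S → ℝ) : 0 < ∑ s, Real.exp (H s) :=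
  Finset.sum_pos (fun _ _ => Real.exp_pos _) Finset.univ_nonempty

lemma g2_gw (H : S → ℝ) (s : S) : gw H s = Real.exp (H s - lz H) := by
  rw [gw, lz, Real.exp_sub, Real.exp_log (g2_sum_pos H)]

lemma g2_prod_gw (n : ℕ) (H : S → ℝ) (σ : Fin n → S) :
    ∏ l, gw H (σ l) = Real.exp (∑ l, H (σ l) - n * lz H) := by
  simp only [g2_gw, ← Real.exp_sum, Finset.sum_sub_distrib, Finset.sum_const, Finset.card_univ,
    Fintype.card_fin, nsmul_eq_mul]

lemma hasDerivAt_lz (H K : S → ℝ) (x : ℝ) :
    HasDerivAt (fun t : ℝ => lz fun s => H s + t * K s) (av1 (fun s => H s + x * K s) K) x := by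
  have h1 : HasDerivAt (fun t : ℝ => ∑ s, Real.exp (H s + t * K s))
      (∑ s, Real.exp (H s + x * K s) * K s) x :=
    HasDerivAt.fun_sum fun s _ => ((hasDerivAt_mul_const (K s)).const_add (H s)).exp
  refine (h1.log (g2_sum_pos _).ne').congr_deriv ?_
  simp only [av1, gw, Finset.sum_div]
  exact Finset.sum_congr rfl fun s _ => by ring

lemma hasDerivAt_av (n : ℕ) (H K : S → ℝ) (F : (Fin n → S) → ℝ) (x : ℝ) :
    HasDerivAt (fun t : ℝ => av n (fun s => H s + t * K s) F)
      (av n (fun s => H s + x * K s) (fun σ => F σ * ∑ l, K (σ l)) -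
        n * av n (fun s => H s + x * K s) F * av1 (fun s => H s + x * K s) K) x := by
  simp only [av, g2_prod_gw]
  refine (HasDerivAt.fun_sum fun σ _ => (((HasDerivAt.fun_sum fun l _ =>
    (hasDerivAt_mul_const (K (σ l))).const_add (H (σ l))).fun_sub
    ((hasDerivAt_lz H K x).const_mul (n : ℝ))).exp.mul_const (F σ))).congr_deriv ?_
  rw [Finset.mul_sum, Finset.sum_mul, ← Finset.sum_sub_distrib]
  exact Finset.sum_congr rfl fun σ _ => by ring

lemma hasDerivAt_av1 (H K f : S → ℝ) (x : ℝ) :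
    HasDerivAt (fun t : ℝ => av1 (fun s => H s + t * K s) f)
      (av1 (fun s => H s + x * K s) (fun s => f s * K s) -
        av1 (fun s => H s + x * K s) f * av1 (fun s => H s + x * K s) K) x := by
  have h := hasDerivAt_av 1 H K (fun σ => f (σ 0)) x
  simp only [av_one, Fin.sum_univ_one, Nat.cast_one, one_mul] at h
  rwa [av_one (fun s => H s + x * K s) (fun s => f s * K s)] at h

lemma g2_hell {T : Type} [Fintype T] (a a' : T → ℝ) (h : ∑ t, a t ^ 2 = 1) (h' : ∑ t, a' t ^ 2 = 1) :
    ∑ t, |a t ^ 2 - a' t ^ 2| ≤ 2 * √(1 - (∑ t, a t * a' t) ^ 2) := by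
  have h1 := Finset.sum_mul_sq_le_sq_mul_sq Finset.univ (fun t => |a t - a' t|)
    (fun t => |a t + a' t|)
  have e1 : ∑ t, |a t - a' t| ^ 2 = 2 - 2 * ∑ t, a t * a' t := by
    have : ∀ t, |a t - a' t| ^ 2 = a t ^ 2 + a' t ^ 2 - 2 * (a t * a' t) := fun t => by
      rw [sq_abs]; ring
    simp only [this, Finset.sum_sub_distrib, Finset.sum_add_distrib, h, h', ← Finset.mul_sum]
    ring
  have e2 : ∑ t, |a t + a' t| ^ 2 = 2 + 2 * ∑ t, a t * a' t := by
    have : ∀ t, |a t + a' t| ^ 2 = a t ^ 2 + a' t ^ 2 + 2 * (a t * a' t) := fun t => by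
      rw [sq_abs]; ring
    simp only [this, Finset.sum_add_distrib, h, h', ← Finset.mul_sum]
    ring
  have e3 : ∑ t, |a t ^ 2 - a' t ^ 2| = ∑ t, |a t - a' t| * |a t + a' t| :=
    Finset.sum_congr rfl fun t _ => by rw [← abs_mul]; congr 1; ring
  rw [e1, e2, ← e3] at h1
  have h2 : (∑ t, |a t ^ 2 - a' t ^ 2|) / 2 ≤ √(1 - (∑ t, a t * a' t) ^ 2) :=
    Real.le_sqrt_of_sq_le (by nlinarith)
  linarith

lemma lz_mid_le (H H' : S → ℝ) : 2 * lz (fun s => (H s + H' s) / 2) ≤ lz H + lz H' := by
  have h1 := lz_jensen (fun s => (H s + H' s) / 2) (fun s => (H s - H' s) / 2)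
  have h2 := lz_jensen (fun s => (H s + H' s) / 2) (fun s => -1 * ((H s - H' s) / 2))
  rw [av1_mul_left] at h2
  have e1 : ((fun s => (H s + H' s) / 2) + fun s => (H s - H' s) / 2) = H := by
    funext s; simp only [Pi.add_apply]; ring
  have e2 : ((fun s => (H s + H' s) / 2) + fun s => -1 * ((H s - H' s) / 2)) = H' := by
    funext s; simp only [Pi.add_apply]; ring
  rw [e1] at h1
  rw [e2] at h2
  linarith

lemma av_tv (n : ℕ) (H H' : S → ℝ) (F : (Fin n → S) → ℝ) {B : ℝ} (hF : ∀ σ, |F σ| ≤ B) :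
    |av n H F - av n H' F| ≤
      2 * n * B * √(lz H + lz H' - 2 * lz fun s => (H s + H' s) / 2) := by
  have hB : 0 ≤ B := (abs_nonneg _).trans (hF (Classical.arbitrary _))
  obtain ⟨D, hD⟩ : ∃ D, D = lz H + lz H' - 2 * lz fun s => (H s + H' s) / 2 := ⟨_, rfl⟩
  have hD0 : 0 ≤ D := by linarith [lz_mid_le H H']
  have one : ∀ G : S → ℝ, ∑ σ : Fin n → S, ∏ l, gw G (σ l) = 1 := fun G => by
    simpa only [av, mul_one] using av_const n G 1
  have sq : ∀ (G : S → ℝ) (σ : Fin n → S),
      Real.exp ((∑ l, G (σ l) - n * lz G) / 2) ^ 2 = ∏ l, gw G (σ l) := fun G σ => by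
    rw [g2_prod_gw, ← Real.exp_nat_mul]
    congr 1
    push_cast
    ring
  have h1 := g2_hell (fun σ : Fin n → S => Real.exp ((∑ l, H (σ l) - n * lz H) / 2))
    (fun σ => Real.exp ((∑ l, H' (σ l) - n * lz H') / 2)) (by simp only [sq, one])
    (by simp only [sq, one])
  have e : ∑ σ : Fin n → S, Real.exp ((∑ l, H (σ l) - n * lz H) / 2) *
      Real.exp ((∑ l, H' (σ l) - n * lz H') / 2) = Real.exp (-(n * D) / 2) := by
    rw [← mul_one (Real.exp (-(n * D) / 2)), ← one fun s => (H s + H' s) / 2, Finset.mul_sum]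
    refine Finset.sum_congr rfl fun σ _ => ?_
    rw [g2_prod_gw, ← Real.exp_add, ← Real.exp_add, ← Finset.sum_div, Finset.sum_add_distrib, hD]
    congr 1
    ring
  simp only [sq, e] at h1
  have h2 : √(1 - Real.exp (-(n * D) / 2) ^ 2) ≤ n * √D := by
    refine (Real.sqrt_le_sqrt ?_).trans_eq (show √((n : ℝ) ^ 2 * D) = n * √D by
      rw [Real.sqrt_mul (sq_nonneg _), Real.sqrt_sq (Nat.cast_nonneg n)])
    have h3 : Real.exp (-(n * D) / 2) ^ 2 = Real.exp (-(n * D)) := by
      rw [← Real.exp_nat_mul]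
      congr 1
      push_cast
      ring
    have h4 : (n : ℝ) ≤ (n : ℝ) ^ 2 := by exact_mod_cast Nat.le_self_pow two_ne_zero n
    have h5 := mul_le_mul_of_nonneg_right h4 hD0
    linarith [Real.add_one_le_exp (-(n * D))]
  rw [← hD, av, av, ← Finset.sum_sub_distrib]
  calc |∑ σ : Fin n → S, ((∏ l, gw H (σ l)) * F σ - (∏ l, gw H' (σ l)) * F σ)|
      ≤ ∑ σ : Fin n → S, |(∏ l, gw H (σ l)) - ∏ l, gw H' (σ l)| * B := by
        refine (Finset.abs_sum_le_sum_abs _ _).trans (Finset.sum_le_sum fun σ _ => ?_)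
        rw [← sub_mul, abs_mul]
        exact mul_le_mul_of_nonneg_left (hF σ) (abs_nonneg _)
    _ ≤ 2 * (n * √D) * B := by
        rw [← Finset.sum_mul]
        exact mul_le_mul_of_nonneg_right (h1.trans (by linarith)) hB
    _ = 2 * n * B * √D := by ring

omit [Fintype S] [Nonempty S] in
lemma g2_int {f f' : ℝ → ℝ} (hf : ∀ t, HasDerivAt f (f' t) t) (h0 : f 0 = 0) {M : ℝ} {k : ℕ}
    (hb : ∀ t, |f' t| ≤ M * |t| ^ k) (t : ℝ) : |f t| ≤ M / (k + 1) * |t| ^ (k + 1) := by
  have key : ∀ {f f' : ℝ → ℝ}, (∀ t, HasDerivAt f (f' t) t) → f 0 = 0 →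
      (∀ t, |f' t| ≤ M * |t| ^ k) → ∀ t, 0 ≤ t → |f t| ≤ M / (k + 1) * t ^ (k + 1) := by
    intro f f' hf h0 hb t ht
    refine image_norm_le_of_norm_deriv_right_le_deriv_boundary (f := f) (f' := f') (a := 0) (b := t)
      (fun x _ => (hf x).continuousAt.continuousWithinAt) (fun x _ => (hf x).hasDerivWithinAt)
      (B := fun x => M / (k + 1) * x ^ (k + 1)) (B' := fun x => M * x ^ k) (by simp [h0])
      (fun x => ?_) (fun x hx => ?_) ⟨ht, le_rfl⟩
    · refine ((hasDerivAt_pow (k + 1) x).const_mul (M / (k + 1))).congr_deriv ?_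
      push_cast
      field_simp
    · have := hb x
      rwa [abs_of_nonneg hx.1] at this
  rcases le_total 0 t with ht | ht
  · rw [abs_of_nonneg ht]
    exact key hf h0 hb t ht
  · have := key (f := fun x => f (-x)) (f' := fun x => f' (-x) * -1)
      (fun x => (hf (-x)).comp x (hasDerivAt_neg x)) (by simpa using h0)
      (fun x => by simpa using hb (-x)) (-t) (by linarith)
    rw [abs_of_nonpos ht]
    simpa using this

lemma g2_phi (H K : S → ℝ) (θ : ℝ) :
    Real.log (av1 H fun s => Real.exp (θ * K s)) = lz (fun s => H s + θ * K s) - lz H := by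
  have := lz_add H fun s => θ * K s
  rw [show (H + fun s => θ * K s) = fun s => H s + θ * K s from rfl] at this
  linarith

lemma g2_pow (G K : S → ℝ) {B : ℝ} (hK : ∀ s, |K s| ≤ B) (k : ℕ) :
    |av1 G fun s => K s ^ k| ≤ B ^ k :=
  abs_av1_le_const G fun s => by
    rw [abs_pow]
    exact pow_le_pow_left₀ (abs_nonneg _) (hK s) k

lemma g2_d2 (H K : S → ℝ) (t : ℝ) : HasDerivAt (fun t : ℝ => av1 (fun s => H s + t * K s) K)
    (av1 (fun s => H s + t * K s) (fun s => K s ^ 2) - av1 (fun s => H s + t * K s) K ^ 2) t := by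
  simpa only [sq] using hasDerivAt_av1 H K K t

lemma taylor1 (H K : S → ℝ) {B : ℝ} (hK : ∀ s, |K s| ≤ B) (θ : ℝ) :
    |Real.log (av1 H fun s => Real.exp (θ * K s)) - θ * av1 H K| ≤ θ ^ 2 * B ^ 2 := by
  have h1 := g2_int (k := 0) (M := B ^ 2) (fun t => (g2_d2 H K t).sub_const (av1 H K))
    (by simp) fun t => by
      have a1 := av1_sq_le (fun s => H s + t * K s) K
      have a2 := (le_abs_self _).trans (g2_pow (fun s => H s + t * K s) K hK 2)
      rw [abs_of_nonneg (by linarith), pow_zero, mul_one]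
      nlinarith [sq_nonneg (av1 (fun s => H s + t * K s) K)]
  have h2 := g2_int (fun t => ((hasDerivAt_lz H K t).sub_const (lz H)).fun_sub
    (hasDerivAt_mul_const (av1 H K))) (by simp) h1 θ
  rw [g2_phi]
  refine h2.trans ?_
  norm_num
  nlinarith [mul_nonneg (sq_nonneg θ) (sq_nonneg B)]

lemma taylor2 (H K : S → ℝ) {B : ℝ} (hK : ∀ s, |K s| ≤ B) (θ : ℝ) :
    |Real.log (av1 H fun s => Real.exp (θ * K s)) - θ * av1 H K -
      θ ^ 2 / 2 * (av1 H (fun s => K s ^ 2) - av1 H K ^ 2)| ≤ 2 * |θ| ^ 3 * B ^ 3 := by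
  have hB : 0 ≤ B := (abs_nonneg _).trans (hK (Classical.arbitrary _))
  obtain ⟨v, hv⟩ : ∃ v, v = av1 H (fun s => K s ^ 2) - av1 H K ^ 2 := ⟨_, rfl⟩
  have h0 := g2_int (k := 0) (M := 6 * B ^ 3) (fun t => ((hasDerivAt_av1 H K (fun s => K s ^ 2)
    t).fun_sub ((g2_d2 H K t).fun_pow 2)).sub_const v) (by simp [hv]) fun t => by
      have a1 := abs_av1_le_const (fun s => H s + t * K s) hK
      have a2 := g2_pow (fun s => H s + t * K s) K hK 2
      have a3 := g2_pow (fun s => H s + t * K s) K hK 3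
      simp only [← pow_succ]
      generalize av1 (fun s => H s + t * K s) K = m1 at *
      generalize av1 (fun s => H s + t * K s) (fun s => K s ^ 2) = m2 at *
      generalize av1 (fun s => H s + t * K s) (fun s => K s ^ 3) = m3 at *
      have b1 : |m2 * m1| ≤ B ^ 3 := by
        rw [abs_mul, pow_succ]
        exact mul_le_mul a2 a1 (abs_nonneg _) (by positivity)
      have b2 : |m1 ^ 3| ≤ B ^ 3 := by
        rw [abs_pow]
        exact pow_le_pow_left₀ (abs_nonneg _) a1 3
      rw [abs_le] at a3 b1 b2 ⊢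
      norm_num
      constructor <;> nlinarith [a3.1, a3.2, b1.1, b1.2, b2.1, b2.2]
  have h1 := g2_int (fun t => ((g2_d2 H K t).sub_const (av1 H K)).fun_sub
    (hasDerivAt_mul_const v)) (by simp) h0
  have h2 := g2_int (f := fun t => (lz fun s => H s + t * K s) - lz H - t * av1 H K - t ^ 2 / 2 * v)
    (fun t => ((((hasDerivAt_lz H K t).sub_const (lz H)).fun_sub
      (hasDerivAt_mul_const (av1 H K))).fun_sub
      (((hasDerivAt_pow 2 t).div_const 2).mul_const v)).congr_deriv (by norm_num)) (by simp) h1 θ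
  rw [g2_phi, ← hv]
  refine h2.trans ?_
  norm_num
  nlinarith [mul_nonneg (pow_nonneg (abs_nonneg θ) 3) (pow_nonneg hB 3)]

lemma g2_mono (H K : S → ℝ) : av1 H K ≤ av1 (H + K) K := by
  have h1 := lz_jensen H K
  have h2 := lz_jensen (H + K) fun s => -1 * K s
  have e : (H + K + fun s => -1 * K s) = H := by
    funext s; simp only [Pi.add_apply]; ring
  rw [av1_mul_left, e] at h2
  linarith

lemma g2_assoc (H q : S → ℝ) {t : ℝ} (ht : 0 ≤ t) : av1 (fun s => H s - t * q s) q ≤ av1 H q := by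
  rcases ht.eq_or_lt with rfl | ht
  · simp
  · have h := g2_mono H fun s => -t * q s
    have e : (H + fun s => -t * q s) = fun s => H s - t * q s := by
      funext s; simp only [Pi.add_apply]; ring
    rw [av1_mul_left, av1_mul_left, e] at h
    nlinarith

lemma assoc (H q : S → ℝ) : av1 (H - q) q ≤ av1 H q := by
  have := g2_assoc H q zero_le_one
  simp only [one_mul] at this
  exact this

lemma power_mean_lower (H q : S → ℝ) (hq : ∀ s, 0 ≤ q s) {η : ℝ} (hη : 0 ≤ η) :
    lz (H - q) - η * av1 H q ≤ lz fun s => H s - (1 + η) * q s := by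
  have h := lz_jensen (H - q) fun s => -η * q s
  have e : (H - q + fun s => -η * q s) = fun s => H s - (1 + η) * q s := by
    funext s; simp only [Pi.add_apply, Pi.sub_apply]; ring
  rw [av1_mul_left, e] at h
  nlinarith [mul_le_mul_of_nonneg_left (assoc H q) hη]

lemma power_mean_upper (H q : S → ℝ) (hq : ∀ s, 0 ≤ q s) {η : ℝ} (hη : 0 ≤ η) (hη1 : η ≤ 1) :
    (lz fun s => H s - (1 - η) * q s) ≤ lz (H - q) + η * av1 H q := by
  have h := lz_jensen (fun s => H s - (1 - η) * q s) fun s => -η * q s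
  have e : ((fun s => H s - (1 - η) * q s) + fun s => -η * q s) = H - q := by
    funext s; simp only [Pi.add_apply, Pi.sub_apply]; ring
  rw [av1_mul_left, e] at h
  nlinarith [mul_le_mul_of_nonneg_left (g2_assoc H q (sub_nonneg.2 hη1)) hη]

lemma thermal (H K : S → ℝ) {d : ℝ} (hd : 0 ≤ d) :
    d * av1 H (fun s => |K s - av1 H K|) ≤
      1 + (lz (fun s => H s + d * K s) + lz (fun s => H s - d * K s) - 2 * lz H) := by
  obtain ⟨c, hc⟩ : ∃ c, c = av1 H K := ⟨_, rfl⟩
  rw [← hc]
  have z : av1 H (fun s => K s - c) = 0 := by rw [av1_sub, av1_const, hc, sub_self]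
  have a1 := exp_av1_le H fun s => d * (K s - c)
  have a2 := exp_av1_le H fun s => -d * (K s - c)
  rw [av1_mul_left, z, mul_zero, Real.exp_zero] at a1 a2
  have e1 := g2_phi H (fun s => K s - c) d
  have e2 := g2_phi H (fun s => K s - c) (-d)
  have f1 : (lz fun s => H s + d * (K s - c)) = (lz fun s => H s + d * K s) + -(d * c) := by
    rw [← lz_add_const]; congr 1; funext s; ring
  have f2 : (lz fun s => H s + -d * (K s - c)) = (lz fun s => H s - d * K s) + d * c := by
    rw [← lz_add_const]; congr 1; funext s; ring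
  have a3 := exp_av1_le H fun s => d * |K s - c|
  have a4 : (av1 H fun s => Real.exp (d * |K s - c|)) ≤
      (av1 H fun s => Real.exp (d * (K s - c))) + av1 H fun s => Real.exp (-d * (K s - c)) := by
    rw [← av1_add]
    refine av1_mono H fun s => ?_
    rcases abs_cases (K s - c) with h | h
    · rw [h.1]; linarith [Real.exp_pos (-d * (K s - c))]
    · rw [h.1, mul_neg, neg_mul]; linarith [Real.exp_pos (d * (K s - c))]
  rw [av1_mul_left] at a3
  generalize (av1 H fun s => Real.exp (d * (K s - c))) = a at *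
  generalize (av1 H fun s => Real.exp (-d * (K s - c))) = b at *
  have h1 : Real.exp (d * av1 H fun s => |K s - c|) ≤ Real.exp 1 * (a * b) := by
    have : 2 ≤ Real.exp 1 := by linarith [Real.add_one_le_exp 1]
    nlinarith [mul_nonneg (sub_nonneg.2 a1) (sub_nonneg.2 a2)]
  have h2 := Real.log_le_log (Real.exp_pos _) h1
  rw [Real.log_exp, Real.log_mul (Real.exp_pos _).ne' (by positivity), Real.log_exp,
    Real.log_mul (by positivity) (by positivity)] at h2
  linarith

omit [Fintype S] [Nonempty S] in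
lemma g2_spin {N : Type} [Fintype N] [DecidableEq N] (f g : Bool → ℝ) (a b : N)
    (hf : ∫ z, f z ∂unifB = 0) (hab : a ≠ b) :
    ∫ z : N → Bool, f (z a) * g (z b) ∂(Measure.pi fun _ => unifB) = 0 := by
  have h := integral_fintype_prod_eq_prod (μ := fun _ : N => unifB)
    (fun (i : N) (x : Bool) => (if i = a then f x else 1) * if i = b then g x else 1)
  simp only [Finset.prod_mul_distrib, Finset.prod_ite_eq', Finset.mem_univ, if_true] at h
  rw [h]
  refine Finset.prod_eq_zero (Finset.mem_univ a) ?_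
  simp only [if_true, if_neg hab, mul_one, hf]

lemma rad {N : Type} [Fintype N] [DecidableEq N] (H V : S → ℝ) (nd : S → N) {B : ℝ}
    (hV : ∀ s, |V s| ≤ B) (θ : ℝ) :
    |∫ z : N → Bool, Real.log (av1 H fun s => Real.exp (θ * (V s * spin (z (nd s)))))
        ∂(Measure.pi fun _ => unifB) -
      θ ^ 2 / 2 * (av1 H (fun s => V s ^ 2) -
        av 2 H fun σ => (if nd (σ 0) = nd (σ 1) then 1 else 0) * V (σ 0) * V (σ 1))| ≤
      2 * |θ| ^ 3 * B ^ 3 := by
  have s0 : ∫ z, spin z ∂unifB = 0 := by rw [integral_unifB]; simp [spin]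
  have s1 : ∀ a : N, ∫ z : N → Bool, spin (z a) ∂(Measure.pi fun _ => unifB) = 0 := fun a => by
    have hp := measurePreserving_eval (fun _ : N => unifB) a
    have h2 := integral_map (μ := Measure.pi fun _ : N => unifB) hp.measurable.aemeasurable
      (measurable_of_finite spin).aestronglyMeasurable
    rw [hp.map_eq, s0] at h2
    exact h2.symm
  have s2 : ∀ a b : N, ∫ z : N → Bool, spin (z a) * spin (z b) ∂(Measure.pi fun _ => unifB) =
      if a = b then 1 else 0 := fun a b => by
    split_ifs with h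
    · subst h
      have : ∀ z : N → Bool, spin (z a) * spin (z a) = 1 := fun z => by rw [← sq, spin_sq]
      simp only [this, integral_const, probReal_univ, smul_eq_mul, mul_one]
    · exact g2_spin spin spin a b s0 h
  have i1 : ∫ z : N → Bool, av1 H (fun s => V s * spin (z (nd s)))
      ∂(Measure.pi fun _ => unifB) = 0 := by
    simp only [av1]
    rw [integral_finsetSum _ fun _ _ => Integrable.of_finite]
    simp only [integral_const_mul, s1, mul_zero, Finset.sum_const_zero]
  have i2 : ∫ z : N → Bool, av1 H (fun s => V s * spin (z (nd s))) ^ 2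
      ∂(Measure.pi fun _ => unifB) =
      av 2 H fun σ => (if nd (σ 0) = nd (σ 1) then 1 else 0) * V (σ 0) * V (σ 1) := by
    simp only [sq, ← av_two_mul, av]
    rw [integral_finsetSum _ fun _ _ => Integrable.of_finite]
    refine Finset.sum_congr rfl fun σ _ => ?_
    simp only [mul_mul_mul_comm (V (σ 0)), integral_const_mul, s2]
    ring
  have e : ∫ z : N → Bool, (Real.log (av1 H fun s => Real.exp (θ * (V s * spin (z (nd s))))) -
      θ * av1 H (fun s => V s * spin (z (nd s))) - θ ^ 2 / 2 * (av1 H (fun s => V s ^ 2) -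
        av1 H (fun s => V s * spin (z (nd s))) ^ 2)) ∂(Measure.pi fun _ => unifB) =
      ∫ z : N → Bool, Real.log (av1 H fun s => Real.exp (θ * (V s * spin (z (nd s)))))
        ∂(Measure.pi fun _ => unifB) - θ ^ 2 / 2 * (av1 H (fun s => V s ^ 2) -
        av 2 H fun σ => (if nd (σ 0) = nd (σ 1) then 1 else 0) * V (σ 0) * V (σ 1)) := by
    rw [integral_sub Integrable.of_finite Integrable.of_finite,
      integral_sub Integrable.of_finite Integrable.of_finite, integral_const_mul,
      integral_const_mul, integral_sub Integrable.of_finite Integrable.of_finite, i1, i2]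
    simp
  rw [← e, ← Real.norm_eq_abs]
  refine (norm_integral_le_of_norm_le_const (C := 2 * |θ| ^ 3 * B ^ 3)
    (Filter.Eventually.of_forall fun z => ?_)).trans_eq (by simp)
  have := taylor2 H (fun s => V s * spin (z (nd s))) (B := B)
    (fun s => by rw [abs_mul, abs_spin, mul_one]; exact hV s) θ
  simp only [mul_pow, spin_sq, mul_one] at this
  exact this

end

end Vale.Agent.P166
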