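import Vale.Agent.P166.Gauss

/-! P166 Tree: combinatorics of the finite trees and the product structure of vertex indexed variables.
Plan: inductions on k (generalising j). ndEquiv: MeasurableEquiv built from curry (map_pi_uncurry) and MeasurableEquiv.piOptionEquivProd
(Measure.pi_map_piOptionEquivProd), or directly by Measure.pi_eq on boxes. psd_lev: 1[l <= lev] is the Gram kernel of the features 1[anc l alpha = nu].
map_tree_field: the field at (sigma, alpha) is sum over l <= r of feat (a l) (g (anc l alpha)) sigma (st_add), a linear Gaussian field with index type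
Option Nd x I and features 1[nu = anc l alpha for l = depth of nu] a l sigma i; compute the Gram kernel with anc_eq_iff and anc_inj; map_pi_uncurry, map_feat_gK. -/

open MeasureTheory ProbabilityTheory Filter Topology Matrix Finset

namespace Vale.Agent.P166

noncomputable section

variable {b : ℕ → ℕ}

lemma lev_le (j k : ℕ) (α α' : Leaf b j k) : lev j k α α' ≤ k := by
  induction k generalizing j with
  | zero => exact le_rfl
  | succ k ih =>
    have := ih (j + 1) α.2 α'.2
    rw [lev]
    split_ifs <;> omega
lemma lev_self (j k : ℕ) (α : Leaf b j k) : lev j k α α = k := by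
  induction k generalizing j with
  | zero => rfl
  | succ k ih => rw [lev, if_pos rfl, ih]
lemma lev_comm (j k : ℕ) (α α' : Leaf b j k) : lev j k α α' = lev j k α' α := by
  induction k generalizing j with
  | zero => rfl
  | succ k ih =>
    rw [lev, lev, ih]
    simp only [eq_comm]
lemma lev_ultra (j k : ℕ) (α α' α'' : Leaf b j k) :
    min (lev j k α α') (lev j k α' α'') ≤ lev j k α α'' := by
  induction k generalizing j with
  | zero => exact min_le_left _ _
  | succ k ih =>
    have := ih (j + 1) α.2 α'.2 α''.2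
    rw [lev, lev, lev]
    by_cases h : α.1 = α'.1
    · by_cases h' : α'.1 = α''.1
      · rw [if_pos h, if_pos h', if_pos (h.trans h')]
        omega
      · rw [if_neg h']
        omega
    · rw [if_neg h]
      omega
lemma dep_mem (j k : ℕ) (ν : Nd b j k) : j ≤ dep j k ν ∧ dep j k ν < j + k := by
  induction k generalizing j with
  | zero => exact ν.elim
  | succ k ih =>
    obtain ⟨c, _ | ν⟩ := ν
    · rw [dep]
      omega
    · have := ih (j + 1) ν
      rw [dep]
      omega
lemma anc_zero (j k : ℕ) (α : Leaf b j k) : anc j k 0 α = none := by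
  cases k <;> rfl

lemma tree_anc_succ (j k i : ℕ) (α : Leaf b j (k + 1)) :
    anc j (k + 1) (i + 1) α = some (α.1, anc (j + 1) k i α.2) := rfl

lemma anc_eq_iff (j k i : ℕ) (hi : i ≤ k) (α α' : Leaf b j k) :
    anc j k i α = anc j k i α' ↔ i ≤ lev j k α α' := by
  induction k generalizing j i with
  | zero => exact ⟨fun _ => hi, fun _ => rfl⟩
  | succ k ih =>
    rcases i with _ | i
    · rw [anc_zero, anc_zero]
      exact ⟨fun _ => Nat.zero_le _, fun _ => rfl⟩
    · rw [tree_anc_succ, tree_anc_succ, lev]
      refine Option.some_inj.trans (Prod.ext_iff.trans ?_)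
      have := ih (j + 1) i (by omega) α.2 α'.2
      by_cases h : α.1 = α'.1
      · rw [if_pos h, Nat.add_le_add_iff_right]
        exact (and_iff_right h).trans this
      · rw [if_neg h]
        exact ⟨fun h' => absurd h'.1 h, fun h' => absurd h' (by omega)⟩
lemma anc_succ (j k i : ℕ) (hi : i < k) (α : Leaf b j k) :
    ∃ ν, anc j k (i + 1) α = some ν ∧ dep j k ν = j + i := by
  induction k generalizing j i with
  | zero => omega
  | succ k ih =>
    rcases i with _ | i
    · exact ⟨(α.1, none), by rw [tree_anc_succ, anc_zero]; rfl, rfl⟩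
    · obtain ⟨ν, h1, h2⟩ := ih (j + 1) i (by omega) α.2
      refine ⟨(α.1, some ν), by rw [tree_anc_succ, h1]; rfl, ?_⟩
      rw [dep, h2]
      omega
lemma anc_inj (j k i i' : ℕ) (hi : i ≤ k) (hi' : i' ≤ k) (α α' : Leaf b j k)
    (h : anc j k i α = anc j k i' α') : i = i' := by
  rcases i with _ | i <;> rcases i' with _ | i'
  · rfl
  · obtain ⟨ν, h1, -⟩ := anc_succ j k i' hi' α'
    rw [anc_zero, h1] at h
    exact absurd h (by simp)
  · obtain ⟨ν, h1, -⟩ := anc_succ j k i hi α
    rw [anc_zero, h1] at h
    exact absurd h (by simp)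
  · obtain ⟨ν, h1, h2⟩ := anc_succ j k i hi α
    obtain ⟨ν', h1', h2'⟩ := anc_succ j k i' hi' α'
    rw [h1, h1', Option.some_inj] at h
    subst h
    omega
lemma psd_lev (j k l : ℕ) :
    PSD fun α α' : Leaf b j k => if l ≤ lev j k α α' then (1 : ℝ) else 0 := by
  classical
  by_cases hl : l ≤ k
  · have e : (fun α α' : Leaf b j k => if l ≤ lev j k α α' then (1 : ℝ) else 0) =
        gram fun (α : Leaf b j k) ν => if anc j k l α = ν then (1 : ℝ) else 0 := by
      funext α α'
      simp only [gram, ite_mul, one_mul, zero_mul, Finset.sum_ite_eq, Finset.mem_univ, if_true]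
      exact if_congr ((anc_eq_iff j k l hl α α').symm.trans eq_comm) rfl rfl
    rw [e]
    exact psd_gram _
  · have e : (fun α α' : Leaf b j k => if l ≤ lev j k α α' then (1 : ℝ) else 0) =
        fun _ _ => 0 := by
      funext α α'
      exact if_neg fun h => hl (h.trans (lev_le j k α α'))
    rw [e]
    exact psd_zero
lemma err_nonneg (j k : ℕ) : 0 ≤ err b j k := by
  induction k generalizing j with
  | zero => exact le_rfl
  | succ k ih =>
    have := ih (j + 1)
    rw [err]
    positivity

lemma tree_err_congr {b b' : ℕ → ℕ} (j k : ℕ) (h : ∀ i, j ≤ i → b i = b' i) :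
    err b j k = err b' j k := by
  induction k generalizing j with
  | zero => rfl
  | succ k ih => rw [err, err, h j le_rfl, ih (j + 1) fun i hi => h i (by omega)]

lemma exists_err_le (j k : ℕ) {ε : ℝ} (hε : 0 < ε) : ∃ b : ℕ → ℕ, err b j k ≤ ε := by
  induction k generalizing j ε with
  | zero => exact ⟨0, hε.le⟩
  | succ k ih =>
    obtain ⟨N, hN⟩ := exists_nat_ge ((2 / ε) ^ 2)
    have hN1 : (0 : ℝ) < N + 1 := by positivity
    obtain ⟨b', hb'⟩ := ih (j + 1) (ε := ε / 2 / (N + 1)) (by positivity)
    refine ⟨Function.update b' j N, ?_⟩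
    rw [err, Function.update_self, tree_err_congr (b' := b') (j + 1) k
      fun i hi => Function.update_of_ne (by omega) _ _]
    have h1 : (√((N : ℝ) + 1))⁻¹ ≤ ε / 2 := by
      rw [← inv_div]
      exact inv_anti₀ (by positivity) (Real.le_sqrt_of_sq_le (by linarith))
    rw [le_div_iff₀ hN1] at hb'
    linarith

lemma lw_eq_sum (m : ℕ → ℝ) (j k : ℕ) (u : Nd b j k → ℝ) (α : Leaf b j k) :
    lw m j k u α = ∑ i ∈ range k, (anc j k (i + 1) α).elim 0 u / m (j + i + 1) := by
  induction k generalizing j with
  | zero => rfl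
  | succ k ih =>
    rw [lw, ih, Finset.sum_range_succ', add_comm, tree_anc_succ, anc_zero]
    refine congrArg₂ (· + ·) (Finset.sum_congr rfl fun i hi => ?_) rfl
    obtain ⟨ν, h1, -⟩ := anc_succ (j + 1) k i (Finset.mem_range.1 hi) α.2
    rw [tree_anc_succ, h1, show j + 1 + i + 1 = j + (i + 1) + 1 by omega]
    rfl
lemma continuous_lw (m : ℕ → ℝ) (j k : ℕ) (α : Leaf b j k) :
    Continuous fun u : Nd b j k → ℝ => lw m j k u α := by
  simp only [lw_eq_sum]
  refine continuous_finsetSum _ fun i _ => Continuous.div_const ?_ _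
  cases anc j k (i + 1) α with
  | none => exact continuous_const
  | some ν => exact continuous_apply ν
lemma measurable_st {E Ω : Type} [MeasurableSpace E] [MeasurableSpace Ω] {step : ℕ → E → Ω → E}
    (hs : ∀ l, Measurable fun z : E × Ω => step l z.1 z.2) (j k : ℕ) (α : Leaf b j k) :
    Measurable fun z : E × (Nd b j k → Ω) => st step j k z.1 z.2 α := by
  induction k generalizing j with
  | zero => exact measurable_fst
  | succ k ih =>
    exact (ih (j + 1) α.2).comp (f := fun z : E × (Nd b j (k + 1) → Ω) =>
      (step j z.1 (z.2 (α.1, none)), fun ν => z.2 (α.1, some ν)))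
      (((hs j).comp (measurable_fst.prodMk ((measurable_pi_apply _).comp measurable_snd))).prodMk
        (measurable_pi_lambda _ fun ν => (measurable_pi_apply _).comp measurable_snd))
lemma measurable_stt {E Ω : Type} [MeasurableSpace E] [MeasurableSpace Ω] {step : ℕ → E → Ω → E}
    (hs : ∀ l, Measurable fun z : E × Ω => step l z.1 z.2) (r : ℕ) (y : E) (α : Leaf b 1 r) :
    Measurable fun ω : Option (Nd b 1 r) → Ω => stt step r y ω α :=
  (measurable_st hs 1 r α).comp (f := fun ω : Option (Nd b 1 r) → Ω =>
    (step 0 y (ω none), fun ν => ω (some ν)))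
    (((hs 0).comp (measurable_const.prodMk (measurable_pi_apply _))).prodMk
      (measurable_pi_lambda _ fun _ => measurable_pi_apply _))

lemma tree_st_add {E Ω : Type} [AddCommMonoid E] (φ : ℕ → Ω → E) (j k : ℕ) (y : E)
    (ω : Option (Nd b j k) → Ω) (α : Leaf b j k) :
    st (fun l y w => y + φ l w) j k y (fun ν => ω (some ν)) α =
      y + ∑ i ∈ range k, φ (j + i) (ω (anc j k (i + 1) α)) := by
  induction k generalizing j y with
  | zero => exact (add_zero y).symm
  | succ k ih =>
    rw [st, ih (j + 1) _ fun o => ω (some (α.1, o)), Finset.sum_range_succ', add_assoc,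
      add_comm (φ j _), tree_anc_succ, anc_zero]
    refine congrArg (fun t => y + (t + _)) (Finset.sum_congr rfl fun i _ => ?_)
    rw [tree_anc_succ, show j + 1 + i = j + (i + 1) by omega]
    rfl

lemma stt_add {E Ω : Type} [AddCommMonoid E] (φ : ℕ → Ω → E) (r : ℕ) (y : E)
    (ω : Option (Nd b 1 r) → Ω) (α : Leaf b 1 r) :
    stt (fun l y w => y + φ l w) r y ω α = y + ∑ l ∈ range (r + 1), φ l (ω (anc 1 r l α)) := by
  rw [stt, tree_st_add, Finset.sum_range_succ', anc_zero, add_assoc, add_comm (φ 0 _)]
  simp only [add_comm 1]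

lemma tree_st_prod {E E' Ω Ω' : Type} (step : ℕ → E → Ω → E) (step' : ℕ → E' → Ω' → E')
    (j k : ℕ) (y : E) (y' : E') (ω : Nd b j k → Ω × Ω') (α : Leaf b j k) :
    st (fun l (z : E × E') (w : Ω × Ω') => (step l z.1 w.1, step' l z.2 w.2)) j k (y, y') ω α =
      (st step j k y (fun ν => (ω ν).1) α, st step' j k y' (fun ν => (ω ν).2) α) := by
  induction k generalizing j y y' with
  | zero => rfl
  | succ k ih => exact ih (j + 1) _ _ _ _

lemma stt_prod {E E' Ω Ω' : Type} (step : ℕ → E → Ω → E) (step' : ℕ → E' → Ω' → E') (r : ℕ)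
    (y : E) (y' : E') (ω : Option (Nd b 1 r) → Ω × Ω') (α : Leaf b 1 r) :
    stt (fun l (z : E × E') (w : Ω × Ω') => (step l z.1 w.1, step' l z.2 w.2)) r (y, y') ω α =
      (stt step r y (fun ν => (ω ν).1) α, stt step' r y' (fun ν => (ω ν).2) α) :=
  tree_st_prod step step' 1 r _ _ _ α

lemma tree_st_pick {E : Type} (j0 j k : ℕ) (y : E) (ω : Option (Nd b j k) → E)
    (α : Leaf b j k) :
    st (fun l (z w : E) => if l = j0 then w else z) j k y (fun ν => ω (some ν)) α =
      if j ≤ j0 ∧ j0 < j + k then ω (anc j k (j0 - j + 1) α) else y := by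
  induction k generalizing j y with
  | zero => exact (if_neg (by omega)).symm
  | succ k ih =>
    rw [st, ih (j + 1) _ fun o => ω (some (α.1, o)), tree_anc_succ]
    by_cases h : j = j0
    · rw [if_neg (by omega), if_pos h, if_pos (by omega), show j0 - j = 0 by omega, anc_zero]
      rfl
    · rw [if_neg h]
      by_cases h' : j + 1 ≤ j0 ∧ j0 < j + 1 + k
      · rw [if_pos h', if_pos (by omega), show j0 - (j + 1) + 1 = j0 - j by omega]
        rfl
      · rw [if_neg h', if_neg (by omega)]

lemma stt_pick {E : Type} (r j : ℕ) (hj : j ≤ r) (y : E) (ω : Option (Nd b 1 r) → E)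
    (α : Leaf b 1 r) :
    stt (fun l (z w : E) => if l = j then w else z) r y ω α = ω (anc 1 r j α) := by
  rw [stt, tree_st_pick]
  rcases j with _ | j
  · rw [if_neg (by omega), if_pos rfl, anc_zero]
  · rw [if_pos (by omega), Nat.add_sub_cancel]

lemma tree_map_option {A K : Type} [MeasurableSpace A] [Fintype K] (μ : Option K → Measure A)
    [∀ o, IsProbabilityMeasure (μ o)] :
    (Measure.pi μ).map (fun g : Option K → A => (g none, fun ν => g (some ν))) =
      (μ none).prod (Measure.pi fun ν => μ (some ν)) := by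
  have hG : Measurable fun (p : A × (K → A)) (o : Option K) => o.elim p.1 p.2 :=
    measurable_pi_lambda _ fun o => by
      cases o with
      | none => exact measurable_fst
      | some ν => exact (measurable_pi_apply ν).comp measurable_snd
  have hF : Measurable fun g : Option K → A => (g none, fun ν => g (some ν)) :=
    (measurable_pi_apply _).prodMk (measurable_pi_lambda _ fun _ => measurable_pi_apply _)
  have e : Measure.pi μ = ((μ none).prod (Measure.pi fun ν => μ (some ν))).map
      fun (p : A × (K → A)) (o : Option K) => o.elim p.1 p.2 := by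
    refine Measure.pi_eq fun s hs => ?_
    have : (fun (p : A × (K → A)) (o : Option K) => o.elim p.1 p.2) ⁻¹' Set.pi Set.univ s =
        s none ×ˢ Set.pi Set.univ fun ν => s (some ν) := by
      ext x
      simp only [Set.mem_preimage, Set.mem_pi, Set.mem_univ, forall_true_left, Set.mem_prod,
        Option.forall, Option.elim]
    rw [Measure.map_apply hG (MeasurableSet.univ_pi hs), this, Measure.prod_prod, Measure.pi_pi,
      Fintype.prod_option]
  rw [e, Measure.map_map hF hG]
  exact Measure.map_id

lemma tree_map_split {A C K : Type} [MeasurableSpace A] [Fintype C] [Fintype K]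
    (μ : C × Option K → Measure A) [∀ p, IsProbabilityMeasure (μ p)] :
    (Measure.pi μ).map (fun (ω : C × Option K → A) (c : C) =>
        (ω (c, none), fun ν : K => ω (c, some ν))) =
      Measure.pi fun c => (μ (c, none)).prod (Measure.pi fun ν => μ (c, some ν)) := by
  have e := map_pi_uncurry (fun (c : C) (o : Option K) => μ (c, o))
  have hF : Measurable fun g : Option K → A => (g none, fun ν => g (some ν)) :=
    (measurable_pi_apply _).prodMk (measurable_pi_lambda _ fun _ => measurable_pi_apply _)
  have hU : Measurable fun (g : C → Option K → A) (p : C × Option K) => g p.1 p.2 :=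
    measurable_pi_lambda _ fun p => (measurable_pi_apply p.2).comp (measurable_pi_apply p.1)
  have hS : Measurable fun (ω : C × Option K → A) (c : C) =>
      (ω (c, none), fun ν : K => ω (c, some ν)) :=
    measurable_pi_lambda _ fun c => (measurable_pi_apply _).prodMk
      (measurable_pi_lambda _ fun _ => measurable_pi_apply _)
  have e2 := Measure.pi_map_pi (μ := fun c : C => Measure.pi fun o : Option K => μ (c, o))
    (fun _ => hF.aemeasurable)
  simp only [tree_map_option] at e2
  have e3 := congrArg (Measure.map fun (ω : C × Option K → A) (c : C) =>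
    (ω (c, none), fun ν : K => ω (c, some ν))) e
  rw [Measure.map_map hS hU] at e3
  exact e3.symm.trans e2

/-- product structure of variables indexed by the vertices -/
lemma map_nd_split {A : Type} [MeasurableSpace A] (j k : ℕ) (μ : Nd b j (k + 1) → Measure A)
    [∀ ν, IsProbabilityMeasure (μ ν)] :
    (Measure.pi μ).map (fun (ω : Nd b j (k + 1) → A) (c : Fin (b j + 1)) =>
        (ω (c, none), fun ν : Nd b (j + 1) k => ω (c, some ν))) =
      Measure.pi fun c => (μ (c, none)).prod (Measure.pi fun ν => μ (c, some ν)) :=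
  @tree_map_split A (Fin (b j + 1)) (Nd b (j + 1) k) _ _ _ μ ‹_›

/-- hierarchical representation of a Gaussian field on `Sg × leaves` -/
lemma map_tree_field {Sg I : Type} [Fintype Sg] [Fintype I] (r : ℕ) (a : ℕ → Sg → I → ℝ) :
    (Measure.pi fun _ : Option (Nd b 1 r) => gam I).map
        (fun g (c : Cfg r b Sg) => stt (fun l (y : Sg → ℝ) w => y + feat (a l) w) r 0 g c.2 c.1) =
      gK fun c c' : Cfg r b Sg => ∑ l ∈ range (r + 1),
        if l ≤ lev 1 r c.2 c'.2 then gram (a l) c.1 c'.1 else 0 := by
  classical
  obtain ⟨A, hA⟩ : ∃ A : Cfg r b Sg → Option (Nd b 1 r) × I → ℝ, A = fun c p =>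
      ∑ l ∈ range (r + 1), if anc 1 r l c.2 = p.1 then a l c.1 p.2 else 0 := ⟨_, rfl⟩
  have key : ∀ (c : Cfg r b Sg) (f : Option (Nd b 1 r) × I → ℝ), ∑ p, A c p * f p =
      ∑ l ∈ range (r + 1), ∑ i, a l c.1 i * f (anc 1 r l c.2, i) := by
    intro c f
    simp only [hA, Finset.sum_mul, ite_mul, zero_mul]
    rw [Finset.sum_comm]
    refine Finset.sum_congr rfl fun l _ => ?_
    rw [Fintype.sum_prod_type, Finset.sum_comm]
    simp only [Finset.sum_ite_eq, Finset.mem_univ, if_true]
  have hU : Measurable fun (g : Option (Nd b 1 r) → I → ℝ) (p : Option (Nd b 1 r) × I) =>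
      g p.1 p.2 :=
    measurable_pi_lambda _ fun p => (measurable_pi_apply p.2).comp (measurable_pi_apply p.1)
  have e1 : (fun (g : Option (Nd b 1 r) → I → ℝ) (c : Cfg r b Sg) =>
      stt (fun l (y : Sg → ℝ) w => y + feat (a l) w) r 0 g c.2 c.1) =
      feat A ∘ fun g (p : Option (Nd b 1 r) × I) => g p.1 p.2 := by
    funext g c
    rw [stt_add (fun l w => feat (a l) w), zero_add, Finset.sum_apply, Function.comp_apply, feat,
      key]
    rfl
  have e2 : gram A = fun c c' : Cfg r b Sg => ∑ l ∈ range (r + 1),
      if l ≤ lev 1 r c.2 c'.2 then gram (a l) c.1 c'.1 else 0 := by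
    funext c c'
    rw [gram, key]
    refine Finset.sum_congr rfl fun l hl => ?_
    have hl' : l ≤ r := Nat.lt_succ_iff.1 (Finset.mem_range.1 hl)
    have h1 : ∀ i, A c' (anc 1 r l c.2, i) = if l ≤ lev 1 r c.2 c'.2 then a l c'.1 i else 0 := by
      intro i
      rw [hA]
      refine (Finset.sum_eq_single_of_mem l hl fun l' hl2 hne => if_neg fun h => hne ?_).trans ?_
      · exact anc_inj 1 r l' l (Nat.lt_succ_iff.1 (Finset.mem_range.1 hl2)) hl' _ _ h
      · exact if_congr (eq_comm.trans (anc_eq_iff 1 r l hl' _ _)) rfl rfl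
    simp only [h1]
    split_ifs
    · rfl
    · simp
  rw [e1, ← Measure.map_map (measurable_feat A) hU, map_pi_uncurry fun _ _ => gaussianReal 0 1,
    ← e2]
  exact map_feat_gK A

end

end Vale.Agent.P166
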