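import Vale.Agent.P166.Rec
import Vale.Agent.P166.Tree

/-! P166 Lln: law of large numbers on the tree.
Plan. lln1: A = mean of c_i / mu; |log A| <= |A-1| (1 + 1/A), 1/A <= mean of mu / c_i (harmonic-arithmetic), Cauchy-Schwarz, Var A <= E c^2 / (n mu^2);
E c^2 <= K, E c^(-2) <= K, mu <= sqrt K, 1/mu <= E c^(-1) <= sqrt K, K >= 1. lln: induction on k with map_nd_split: u -> m^(-1) log mean exp(m u) is 1-Lipschitz for the sup norm,
so the error at the root is at most the sum of the errors of the children plus the lln1 error for c = exp(m (X_(l+1)(step) - c l y)). -/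

open MeasureTheory ProbabilityTheory Filter Topology Matrix Finset

namespace Vale.Agent.P166

noncomputable section

/-- normalised log-sum-exp -/
def llnLse {n : ℕ} (a : ℝ) (d : Fin (n + 1) → ℝ) : ℝ :=
  a⁻¹ * Real.log (((n : ℝ) + 1)⁻¹ * ∑ i, Real.exp (a * d i))

lemma lln_avg_pos {n : ℕ} (f : Fin (n + 1) → ℝ) : 0 < ((n : ℝ) + 1)⁻¹ * ∑ i, Real.exp (f i) :=
  mul_pos (by positivity) (Finset.sum_pos (fun i _ => Real.exp_pos _) Finset.univ_nonempty)

lemma lln_exp_lse {n : ℕ} {a : ℝ} (ha : 0 < a) (d : Fin (n + 1) → ℝ) :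
    Real.exp (a * llnLse a d) = ((n : ℝ) + 1)⁻¹ * ∑ i, Real.exp (a * d i) := by
  unfold llnLse
  rw [← mul_assoc, mul_inv_cancel₀ ha.ne', one_mul, Real.exp_log (lln_avg_pos _)]

lemma lln_lse_le {n : ℕ} {a : ℝ} (ha : 0 < a) {d d' : Fin (n + 1) → ℝ} {c : ℝ}
    (h : ∀ i, d i ≤ d' i + c) : llnLse a d ≤ llnLse a d' + c := by
  have h1 : Real.exp (a * llnLse a d) ≤ Real.exp (a * (llnLse a d' + c)) := by
    rw [mul_add, Real.exp_add, lln_exp_lse ha, lln_exp_lse ha, mul_assoc, Finset.sum_mul]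
    refine mul_le_mul_of_nonneg_left (Finset.sum_le_sum fun i _ => ?_) (by positivity)
    rw [← Real.exp_add, ← mul_add]
    exact Real.exp_le_exp.2 (mul_le_mul_of_nonneg_left (h i) ha.le)
  exact le_of_mul_le_mul_left (Real.exp_le_exp.1 h1) ha

lemma lln_lse_abs {n : ℕ} {a : ℝ} (ha : 0 < a) (d d' : Fin (n + 1) → ℝ) :
    |llnLse a d - llnLse a d'| ≤ ∑ i, |d i - d' i| := by
  have h : ∀ i, |d i - d' i| ≤ ∑ i, |d i - d' i| := fun i =>
    Finset.single_le_sum (f := fun i => |d i - d' i|) (fun i _ => abs_nonneg _) (Finset.mem_univ i)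
  have h1 := lln_lse_le ha (d := d) (d' := d') (c := ∑ i, |d i - d' i|) fun i => by
    linarith [(abs_le.1 (h i)).2]
  have h2 := lln_lse_le ha (d := d') (d' := d) (c := ∑ i, |d i - d' i|) fun i => by
    linarith [(abs_le.1 (h i)).1]
  rw [abs_le]; constructor <;> linarith

lemma lln_lse_shift {n : ℕ} {a : ℝ} (ha : 0 < a) (d : Fin (n + 1) → ℝ) (c : ℝ) :
    llnLse a d = c + a⁻¹ * Real.log (((n : ℝ) + 1)⁻¹ * ∑ i, Real.exp (a * (d i - c))) := by
  have h2 : Real.exp (a * llnLse a d) = Real.exp (a * c +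
      Real.log (((n : ℝ) + 1)⁻¹ * ∑ i, Real.exp (a * (d i - c)))) := by
    rw [Real.exp_add, lln_exp_lse ha, Real.exp_log (lln_avg_pos _), mul_left_comm,
      Finset.mul_sum (a := Real.exp _)]
    congr 1
    refine Finset.sum_congr rfl fun i _ => ?_
    rw [← Real.exp_add]; congr 1; ring
  have h3 := Real.exp_injective h2
  rw [← inv_mul_cancel_left₀ ha.ne' (llnLse a d), h3, mul_add, inv_mul_cancel_left₀ ha.ne']

lemma lln_meas_lse {n : ℕ} {a : ℝ} {Z : Type} [MeasurableSpace Z] {D : Z → Fin (n + 1) → ℝ}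
    (hD : ∀ i, Measurable fun z => D z i) : Measurable fun z => llnLse a (D z) := by
  unfold llnLse
  exact ((Finset.measurable_sum _ fun i _ => ((hD i).const_mul a).exp).const_mul _).log.const_mul _

lemma lln_tan {x M : ℝ} (hx : 0 < x) (hM : 0 < M) :
    3 * (M⁻¹) ^ 2 - 2 * (M⁻¹) ^ 3 * x ≤ (x⁻¹) ^ 2 := by
  have e : (x⁻¹) ^ 2 - (3 * (M⁻¹) ^ 2 - 2 * (M⁻¹) ^ 3 * x) =
      (M - x) ^ 2 * (M + 2 * x) / (x ^ 2 * M ^ 3) := by
    field_simp; ring
  have : 0 ≤ (M - x) ^ 2 * (M + 2 * x) / (x ^ 2 * M ^ 3) := by positivity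
  linarith

lemma lln_sq_avg {n : ℕ} {x : Fin (n + 1) → ℝ} (hx : ∀ i, 0 < x i) {M : ℝ}
    (hM : M = ((n : ℝ) + 1)⁻¹ * ∑ i, x i) : (M⁻¹) ^ 2 ≤ ((n : ℝ) + 1)⁻¹ * ∑ i, ((x i)⁻¹) ^ 2 := by
  have hLp : (0 : ℝ) < (n : ℝ) + 1 := by positivity
  have hMp : 0 < M := by
    rw [hM]; exact mul_pos (inv_pos.2 hLp) (Finset.sum_pos (fun i _ => hx i) Finset.univ_nonempty)
  have h2 := Finset.sum_le_sum fun i (_ : i ∈ Finset.univ) => lln_tan (hx i) hMp
  rw [Finset.sum_sub_distrib, ← Finset.mul_sum, ← Finset.mul_sum] at h2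
  have h3 : ∑ i, x i = ((n : ℝ) + 1) * M := by rw [hM]; field_simp
  simp only [Finset.sum_const, Finset.card_univ, Fintype.card_fin, nsmul_eq_mul] at h2
  rw [h3] at h2
  push_cast at h2
  have h4 : 3 * (((n : ℝ) + 1) * M⁻¹ ^ 2) - 2 * M⁻¹ ^ 3 * (((n : ℝ) + 1) * M) =
      ((n : ℝ) + 1) * M⁻¹ ^ 2 := by
    field_simp; ring
  rw [h4] at h2
  rw [le_inv_mul_iff₀ hLp]
  exact h2

lemma lln_abs_log {M u c : ℝ} (hM : 0 < M) (hu : 0 < u) (hc : 0 < c) :
    |Real.log M - Real.log u| ≤ c * (M - u) ^ 2 + (2 * c)⁻¹ * (u⁻¹ ^ 2 + M⁻¹ ^ 2) := by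
  have key : ∀ t d : ℝ, d * t ≤ c / 2 * d ^ 2 + (2 * c)⁻¹ * t ^ 2 := fun t d => by
    have e : c / 2 * d ^ 2 + (2 * c)⁻¹ * t ^ 2 - d * t = (c * d - t) ^ 2 / (2 * c) := by
      field_simp; ring
    have : 0 ≤ (c * d - t) ^ 2 / (2 * c) := by positivity
    linarith
  have h1 : Real.log M - Real.log u ≤ (M - u) * u⁻¹ := by
    rw [← Real.log_div hM.ne' hu.ne']
    refine (Real.log_le_sub_one_of_pos (div_pos hM hu)).trans (le_of_eq ?_)
    field_simp
  have h2 : Real.log u - Real.log M ≤ (u - M) * M⁻¹ := by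
    rw [← Real.log_div hu.ne' hM.ne']
    refine (Real.log_le_sub_one_of_pos (div_pos hu hM)).trans (le_of_eq ?_)
    field_simp
  have h3 := key u⁻¹ (M - u)
  have h4 := key M⁻¹ (u - M)
  have h5 : (u - M) ^ 2 = (M - u) ^ 2 := by ring
  rw [h5] at h4
  have h6 : 0 ≤ c / 2 * (M - u) ^ 2 := by positivity
  have h7 : 0 ≤ (2 * c)⁻¹ * u⁻¹ ^ 2 := by positivity
  have h8 : 0 ≤ (2 * c)⁻¹ * M⁻¹ ^ 2 := by positivity
  rw [abs_le, mul_add]
  constructor <;> linarith

section avg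
variable {Ω : Type} [MeasurableSpace Ω] (P : Measure Ω) [IsProbabilityMeasure P] {n : ℕ}

lemma lln_int_eval {f : Ω → ℝ} (hf : Integrable f P) (i : Fin (n + 1)) :
    Integrable (fun G : Fin (n + 1) → Ω => f (G i)) (Measure.pi fun _ => P) :=
  integrable_comp_eval (μ := fun _ : Fin (n + 1) => P) (i := i) hf

lemma lln_sum_eq {f : Ω → ℝ} (hf : Integrable f P) :
    ∫ G : Fin (n + 1) → Ω, ∑ i, f (G i) ∂(Measure.pi fun _ => P) = ((n : ℝ) + 1) * ∫ e, f e ∂P := by
  rw [integral_finsetSum _ fun i _ => lln_int_eval P hf i]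
  simp_rw [integral_comp_eval (μ := fun _ : Fin (n + 1) => P) hf.aestronglyMeasurable]
  simp

lemma lln_avg_int {f : Ω → ℝ} (hf : Integrable f P) :
    Integrable (fun G : Fin (n + 1) → Ω => ((n : ℝ) + 1)⁻¹ * ∑ i, f (G i)) (Measure.pi fun _ => P) :=
  (integrable_finsetSum _ fun i _ => lln_int_eval P hf i).const_mul _

lemma lln_avg_eq {f : Ω → ℝ} (hf : Integrable f P) :
    ∫ G : Fin (n + 1) → Ω, ((n : ℝ) + 1)⁻¹ * ∑ i, f (G i) ∂(Measure.pi fun _ => P) =
      ∫ e, f e ∂P := by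
  rw [integral_const_mul, lln_sum_eq P hf, ← mul_assoc, inv_mul_cancel₀ (by positivity), one_mul]

lemma lln_var {Y : Ω → ℝ} (hY2 : MemLp Y 2 P) {K : ℝ} (hK : ∫ e, Y e ^ 2 ∂P ≤ K) :
    Integrable (fun G : Fin (n + 1) → Ω => (((n : ℝ) + 1)⁻¹ * ∑ i, Y (G i) - ∫ e, Y e ∂P) ^ 2)
      (Measure.pi fun _ => P) ∧
    ∫ G : Fin (n + 1) → Ω, (((n : ℝ) + 1)⁻¹ * ∑ i, Y (G i) - ∫ e, Y e ∂P) ^ 2
      ∂(Measure.pi fun _ => P) ≤ K / ((n : ℝ) + 1) := by
  have hS2 : MemLp (fun G : Fin (n + 1) → Ω => ∑ i, Y (G i)) 2 (Measure.pi fun _ => P) :=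
    memLp_finsetSum _ fun i _ => hY2.comp_measurePreserving (measurePreserving_eval (fun _ => P) i)
  have hM2 := hS2.const_mul ((n : ℝ) + 1)⁻¹
  refine ⟨(hM2.sub (memLp_const _)).integrable_sq, ?_⟩
  have hMo1 : Var[Y; P] ≤ K := (variance_le_expectation_sq hY2.aestronglyMeasurable).trans hK
  rw [← lln_avg_eq (n := n) P (hY2.integrable (by simp)), ← variance_eq_integral hM2.aemeasurable,
    variance_const_mul]
  have h1 := variance_sum_pi (μ := fun _ : Fin (n + 1) => P) (X := fun _ => Y) fun _ => hY2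
  have h2 : (∑ i : Fin (n + 1), fun G : Fin (n + 1) → Ω => Y (G i)) = fun G => ∑ i, Y (G i) := by
    funext G; simp
  rw [h2] at h1
  rw [h1]
  simp only [Finset.sum_const, Finset.card_univ, Fintype.card_fin, nsmul_eq_mul]
  push_cast
  calc ((n : ℝ) + 1)⁻¹ ^ 2 * (((n : ℝ) + 1) * Var[Y; P])
      ≤ ((n : ℝ) + 1)⁻¹ ^ 2 * (((n : ℝ) + 1) * K) := by gcongr
    _ = K / ((n : ℝ) + 1) := by field_simp

end avg

lemma lln1 {Ω : Type} [MeasurableSpace Ω] (P : Measure Ω) [IsProbabilityMeasure P] {f ρ : Ω → ℝ}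
    (hf : Measurable f) (hρ : ∀ ω, |f ω| ≤ ρ ω) {K : ℝ}
    (hi : Integrable (fun ω => Real.exp (2 * ρ ω)) P) (hK : ∫ ω, Real.exp (2 * ρ ω) ∂P ≤ K)
    (n : ℕ) :
    Integrable (fun ω : Fin (n + 1) → Ω =>
        Real.log (((n : ℝ) + 1)⁻¹ * ∑ i, Real.exp (f (ω i)))) (Measure.pi fun _ => P) ∧
    ∫ ω : Fin (n + 1) → Ω, |Real.log (((n : ℝ) + 1)⁻¹ * ∑ i, Real.exp (f (ω i))) -
        Real.log (∫ w, Real.exp (f w) ∂P)| ∂(Measure.pi fun _ => P) ≤
      2 * K ^ 2 * (√((n : ℝ) + 1))⁻¹ := by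
  have hLp : (0 : ℝ) < (n : ℝ) + 1 := by positivity
  obtain ⟨c, hc⟩ : ∃ c : ℝ, c = √((n : ℝ) + 1) := ⟨_, rfl⟩
  have hc0 : 0 < c := hc ▸ Real.sqrt_pos.2 hLp
  have hcc : c * c = (n : ℝ) + 1 := hc ▸ Real.mul_self_sqrt hLp.le
  have b1 : ∀ e, Real.exp (f e) ^ 2 ≤ Real.exp (2 * ρ e) := fun e => by
    rw [← Real.exp_nat_mul]
    refine Real.exp_le_exp.2 ?_
    push_cast; linarith [le_abs_self (f e), hρ e]
  have b2 : ∀ e, (Real.exp (f e))⁻¹ ^ 2 ≤ Real.exp (2 * ρ e) := fun e => by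
    rw [← Real.exp_neg, ← Real.exp_nat_mul]
    refine Real.exp_le_exp.2 ?_
    push_cast; linarith [neg_abs_le (f e), hρ e]
  have hK1 : 1 ≤ K := by
    refine le_trans ?_ hK
    have h1 : ∫ _ω, (1 : ℝ) ∂P ≤ _ := integral_mono (integrable_const 1) hi fun e =>
      Real.one_le_exp (by linarith [abs_nonneg (f e), hρ e])
    simpa using h1
  have i1 : Integrable (fun e => Real.exp (f e) ^ 2) P :=
    hi.mono' (hf.exp.pow_const 2).aestronglyMeasurable
      (ae_of_all _ fun e => by rw [Real.norm_eq_abs, abs_of_nonneg (by positivity)]; exact b1 e)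
  have i2 : Integrable (fun e => (Real.exp (f e))⁻¹ ^ 2) P :=
    hi.mono' (hf.exp.inv.pow_const 2).aestronglyMeasurable
      (ae_of_all _ fun e => by rw [Real.norm_eq_abs, abs_of_nonneg (by positivity)]; exact b2 e)
  have k2 : ∫ e, (Real.exp (f e))⁻¹ ^ 2 ∂P ≤ K := (integral_mono i2 hi b2).trans hK
  have hY2 : MemLp (fun e => Real.exp (f e)) 2 P :=
    (memLp_two_iff_integrable_sq hf.exp.aestronglyMeasurable).2 i1
  have iY : Integrable (fun e => Real.exp (f e)) P := hY2.integrable (by simp)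
  obtain ⟨iV, hVar⟩ := lln_var (n := n) P hY2 ((integral_mono i1 hi b1).trans hK)
  obtain ⟨u, hu⟩ : ∃ u : ℝ, u = ∫ e, Real.exp (f e) ∂P := ⟨_, rfl⟩
  have hup : 0 < u := hu ▸ integral_exp_pos iY
  rw [← hu] at iV hVar ⊢
  have hu2 : u⁻¹ ^ 2 ≤ K := by
    have h1 : ∫ e, (3 * (u⁻¹) ^ 2 - 2 * (u⁻¹) ^ 3 * Real.exp (f e)) ∂P ≤ _ :=
      integral_mono ((integrable_const _).sub (iY.const_mul _)) i2 fun e =>
        lln_tan (Real.exp_pos _) hup
    rw [integral_sub (integrable_const _) (iY.const_mul _), integral_const, integral_const_mul,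
      ← hu] at h1
    have e : 3 * u⁻¹ ^ 2 - 2 * u⁻¹ ^ 3 * u = u⁻¹ ^ 2 := by field_simp; ring
    simp only [probReal_univ, smul_eq_mul, one_mul] at h1
    linarith
  have iW := lln_avg_int (n := n) P i2
  have hW := (lln_avg_eq (n := n) P i2).trans_le k2
  have hm : Measurable fun ω : Fin (n + 1) → Ω =>
      Real.log (((n : ℝ) + 1)⁻¹ * ∑ i, Real.exp (f (ω i))) :=
    ((Finset.measurable_sum _ fun i _ => (hf.comp (measurable_pi_apply i)).exp).const_mul _).log
  have iB : Integrable (fun G : Fin (n + 1) → Ω =>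
      c * (((n : ℝ) + 1)⁻¹ * ∑ i, Real.exp (f (G i)) - u) ^ 2 + (2 * c)⁻¹ *
        (K + ((n : ℝ) + 1)⁻¹ * ∑ i, (Real.exp (f (G i)))⁻¹ ^ 2)) (Measure.pi fun _ => P) :=
    (iV.const_mul c).add (((integrable_const K).add iW).const_mul _)
  have hpt : ∀ G : Fin (n + 1) → Ω,
      |Real.log (((n : ℝ) + 1)⁻¹ * ∑ i, Real.exp (f (G i))) - Real.log u| ≤
      c * (((n : ℝ) + 1)⁻¹ * ∑ i, Real.exp (f (G i)) - u) ^ 2 + (2 * c)⁻¹ *
        (K + ((n : ℝ) + 1)⁻¹ * ∑ i, (Real.exp (f (G i)))⁻¹ ^ 2) := fun G => by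
    refine (lln_abs_log (lln_avg_pos _) hup hc0).trans ?_
    have h1 := lln_sq_avg (x := fun i => Real.exp (f (G i))) (fun i => Real.exp_pos _) rfl
    gcongr
  have iD : Integrable (fun G : Fin (n + 1) → Ω =>
      Real.log (((n : ℝ) + 1)⁻¹ * ∑ i, Real.exp (f (G i))) - Real.log u) (Measure.pi fun _ => P) :=
    iB.mono' (hm.sub_const _).aestronglyMeasurable (ae_of_all _ hpt)
  refine ⟨(iD.add (integrable_const (Real.log u))).congr (ae_of_all _ fun G => by simp), ?_⟩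
  refine (integral_mono iD.abs iB hpt).trans ?_
  have iKW : Integrable (fun G : Fin (n + 1) → Ω =>
      K + ((n : ℝ) + 1)⁻¹ * ∑ i, (Real.exp (f (G i)))⁻¹ ^ 2) (Measure.pi fun _ => P) :=
    (integrable_const K).add iW
  rw [integral_add (iV.const_mul c) (iKW.const_mul _), integral_const_mul, integral_const_mul,
    integral_add (integrable_const K) iW, integral_const, ← hc]
  simp only [probReal_univ, smul_eq_mul, one_mul]
  have h7 := mul_le_mul_of_nonneg_left hVar hc0.le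
  have h8 := mul_le_mul_of_nonneg_left (add_le_add_left hW K) (show 0 ≤ (2 * c)⁻¹ by positivity)
  have h9 : c * (K / ((n : ℝ) + 1)) + (2 * c)⁻¹ * (K + K) = 2 * K * c⁻¹ := by
    rw [← hcc]; field_simp; ring
  have h10 : 2 * K * c⁻¹ ≤ 2 * K ^ 2 * c⁻¹ := by
    have : K ≤ K ^ 2 := by nlinarith
    gcongr
  linarith

lemma lln_step {Ω T : Type} [MeasurableSpace Ω] [MeasurableSpace T] (P : Measure Ω)
    [IsProbabilityMeasure P] (τ : Measure T) [IsProbabilityMeasure τ] {D : Ω × T → ℝ}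
    (hD : Measurable D) {A ρ : Ω → ℝ} (hA : Measurable A) {c ε a m0 K : ℝ} (hm0 : 0 < m0)
    (ha : m0 ≤ a) (ha1 : a ≤ 1) (hρ : ∀ e, |A e - c| ≤ ρ e)
    (hi : Integrable (fun ω => Real.exp (2 * ρ ω)) P) (hK : ∫ ω, Real.exp (2 * ρ ω) ∂P ≤ K)
    (h1 : ∀ e, Integrable (fun t => D (e, t)) τ) (h2 : ∀ e, ∫ t, |D (e, t) - A e| ∂τ ≤ ε) (n : ℕ) :
    Integrable (fun G : Fin (n + 1) → Ω × T => llnLse a fun i => D (G i))
      (Measure.pi fun _ => P.prod τ) ∧
    ∫ G : Fin (n + 1) → Ω × T, |llnLse a (fun i => D (G i)) - Tm a P A|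
      ∂(Measure.pi fun _ => P.prod τ) ≤ 2 * K ^ 2 / m0 * (√((n : ℝ) + 1))⁻¹ + ((n : ℝ) + 1) * ε := by
  have ha0 : 0 < a := hm0.trans_le ha
  have hf : Measurable fun e => a * (A e - c) := (hA.sub_const c).const_mul a
  have hfρ : ∀ e, |a * (A e - c)| ≤ ρ e := fun e => by
    rw [abs_mul, abs_of_pos ha0]
    have := abs_nonneg (A e - c)
    nlinarith [hρ e]
  obtain ⟨j1, j2⟩ := lln1 P hf hfρ hi hK n
  have iE : Integrable (fun e => Real.exp (a * (A e - c))) P :=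
    hi.mono' hf.exp.aestronglyMeasurable (ae_of_all _ fun e => by
      rw [Real.norm_eq_abs, abs_of_pos (Real.exp_pos _)]
      refine Real.exp_le_exp.2 ?_
      linarith [le_abs_self (a * (A e - c)), hfρ e, abs_nonneg (a * (A e - c))])
  have eT : Tm a P A = c + a⁻¹ * Real.log (∫ e, Real.exp (a * (A e - c)) ∂P) := by
    have e1 : ∫ e, Real.exp (a * A e) ∂P = Real.exp (a * c) * ∫ e, Real.exp (a * (A e - c)) ∂P := by
      rw [← integral_const_mul]
      congr 1; funext e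
      rw [← Real.exp_add]; congr 1; ring
    unfold Tm
    rw [if_neg ha0.ne', e1, Real.log_mul (Real.exp_pos _).ne' (integral_exp_pos iE).ne',
      Real.log_exp]
    field_simp
  have hdm : Measurable fun p : Ω × T => |D p - A p.1| := (hD.sub (hA.comp measurable_fst)).abs
  have iDA : Integrable (fun p : Ω × T => |D p - A p.1|) (P.prod τ) := by
    rw [integrable_prod_iff hdm.aestronglyMeasurable]
    refine ⟨ae_of_all _ fun e => ((h1 e).sub (integrable_const (A e))).abs, ?_⟩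
    refine Integrable.of_bound
      (hdm.norm.stronglyMeasurable.integral_prod_right' (ν := τ)).aestronglyMeasurable ε
      (ae_of_all _ fun e => ?_)
    rw [Real.norm_eq_abs, abs_of_nonneg (integral_nonneg fun t => norm_nonneg _)]
    simpa only [Real.norm_eq_abs, abs_abs] using h2 e
  have kDA : ∫ p : Ω × T, |D p - A p.1| ∂(P.prod τ) ≤ ε := by
    rw [integral_prod _ iDA]
    calc ∫ e, ∫ t, |D (e, t) - A e| ∂τ ∂P ≤ ∫ _e, ε ∂P :=
          integral_mono iDA.integral_prod_left (integrable_const ε) h2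
      _ = ε := by simp
  have hmp : MeasurePreserving (fun (G : Fin (n + 1) → Ω × T) i => (G i).1)
      (Measure.pi fun _ => P.prod τ) (Measure.pi fun _ => P) :=
    measurePreserving_pi (fun _ => P.prod τ) (fun _ => P) (f := fun _ => Prod.fst)
      fun _ => measurePreserving_fst
  obtain ⟨W, hW⟩ : ∃ W : (Fin (n + 1) → Ω) → ℝ, W = fun ω =>
      |Real.log (((n : ℝ) + 1)⁻¹ * ∑ i, Real.exp (a * (A (ω i) - c))) -
        Real.log (∫ w, Real.exp (a * (A w - c)) ∂P)| := ⟨_, rfl⟩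
  have iW : Integrable W (Measure.pi fun _ => P) := by
    rw [hW]; exact (j1.sub (integrable_const _)).abs
  have iW' := hmp.integrable_comp_of_integrable iW
  have kW : ∫ G : Fin (n + 1) → Ω × T, (W ∘ fun G i => (G i).1) G ∂(Measure.pi fun _ => P.prod τ)
      ≤ 2 * K ^ 2 * (√((n : ℝ) + 1))⁻¹ := by
    refine le_trans (le_of_eq ?_) j2
    rw [← hW, ← hmp.map_eq, integral_map hmp.measurable.aemeasurable
      (by rw [hmp.map_eq]; exact iW.aestronglyMeasurable)]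
    rfl
  have iS : Integrable (fun G : Fin (n + 1) → Ω × T => ∑ i, |D (G i) - A (G i).1|)
      (Measure.pi fun _ => P.prod τ) :=
    integrable_finsetSum _ fun i _ => lln_int_eval (P.prod τ) iDA i
  have iB : Integrable (fun G : Fin (n + 1) → Ω × T => m0⁻¹ * (W ∘ fun G i => (G i).1) G +
      ∑ i, |D (G i) - A (G i).1|) (Measure.pi fun _ => P.prod τ) := (iW'.const_mul _).add iS
  have hpt : ∀ G : Fin (n + 1) → Ω × T, |llnLse a (fun i => D (G i)) - Tm a P A| ≤
      m0⁻¹ * (W ∘ fun G i => (G i).1) G + ∑ i, |D (G i) - A (G i).1| := fun G => by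
    have h3 := lln_lse_abs ha0 (fun i => D (G i)) (fun i => A (G i).1)
    have h4 : |llnLse a (fun i => A (G i).1) - Tm a P A| ≤ m0⁻¹ * (W ∘ fun G i => (G i).1) G := by
      rw [eT, lln_lse_shift ha0 _ c, add_sub_add_left_eq_sub, ← mul_sub, abs_mul,
        abs_of_pos (inv_pos.2 ha0), hW]
      exact mul_le_mul_of_nonneg_right (inv_anti₀ hm0 ha) (abs_nonneg _)
    linarith [abs_sub_le (llnLse a fun i => D (G i)) (llnLse a fun i => A (G i).1) (Tm a P A)]
  have hLm : Measurable fun G : Fin (n + 1) → Ω × T => llnLse a fun i => D (G i) :=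
    lln_meas_lse fun i => hD.comp (measurable_pi_apply i)
  have iD : Integrable (fun G : Fin (n + 1) → Ω × T => llnLse a (fun i => D (G i)) - Tm a P A)
      (Measure.pi fun _ => P.prod τ) :=
    iB.mono' (hLm.sub_const _).aestronglyMeasurable (ae_of_all _ hpt)
  refine ⟨(iD.add (integrable_const (Tm a P A))).congr (ae_of_all _ fun G => by simp), ?_⟩
  refine (integral_mono iD.abs iB hpt).trans ?_
  rw [integral_add (iW'.const_mul _) iS, integral_const_mul, lln_sum_eq (P.prod τ) iDA]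
  have h5 := mul_le_mul_of_nonneg_left kW (inv_pos.2 hm0).le
  have h6 := mul_le_mul_of_nonneg_left kDA (show (0 : ℝ) ≤ (n : ℝ) + 1 by positivity)
  have e : m0⁻¹ * (2 * K ^ 2 * (√((n : ℝ) + 1))⁻¹) = 2 * K ^ 2 / m0 * (√((n : ℝ) + 1))⁻¹ := by ring
  linarith

lemma lln_meas_lN {b : ℕ → ℕ} (m : ℕ → ℝ) {Z : Type} [MeasurableSpace Z] :
    ∀ (k j : ℕ) (X : Z → Leaf b j k → ℝ), (∀ α, Measurable fun z => X z α) →
      Measurable fun z => lN m j k (X z)
  | 0, _, _, h => h ()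
  | k + 1, j, X, h => lln_meas_lse (a := m j)
      (D := fun z (c : Fin (b j + 1)) => lN m (j + 1) k fun α => X z (c, α))
      fun c => lln_meas_lN m k (j + 1) (fun z α => X z (c, α)) fun α => h (c, α)

theorem lln {b : ℕ → ℕ} {E Ω : Type} [MeasurableSpace E] [MeasurableSpace Ω] (m : ℕ → ℝ)
    (P : Measure Ω) [IsProbabilityMeasure P] {step : ℕ → E → Ω → E}
    (hs : ∀ l, Measurable fun z : E × Ω => step l z.1 z.2) {X : E → ℝ} (hX : Measurable X)
    {m0 K : ℝ} (hm0 : 0 < m0) {ρ : ℕ → Ω → ℝ} (c : ℕ → E → ℝ) (k j : ℕ)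
    (hm : ∀ l, j ≤ l → l < j + k → m0 ≤ m l ∧ m l ≤ 1)
    (hi : ∀ l, j ≤ l → l < j + k → Integrable (fun ω => Real.exp (2 * ρ l ω)) P ∧
      ∫ ω, Real.exp (2 * ρ l ω) ∂P ≤ K)
    (hc : ∀ l n y ω, j ≤ l → l + n + 1 = j + k →
      |rc m P step X (l + 1) n (step l y ω) - c l y| ≤ ρ l ω) (y : E) :
    Integrable (fun ω : Nd b j k → Ω => lN m j k fun α => X (st step j k y ω α))
      (Measure.pi fun _ => P) ∧
    ∫ ω : Nd b j k → Ω, |lN m j k (fun α => X (st step j k y ω α)) - rc m P step X j k y|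
      ∂(Measure.pi fun _ => P) ≤ 2 * K ^ 2 / m0 * err b j k := by
  induction k generalizing j y with
  | zero =>
    refine ⟨integrable_const (X y), ?_⟩
    simp [lN, st, rc, err]
  | succ k ih =>
    have ih' := fun y' => ih (j + 1) (fun l h1 h2 => hm l (by omega) (by omega))
      (fun l h1 h2 => hi l (by omega) (by omega))
      (fun l n y ω h1 h2 => hc l n y ω (by omega) (by omega)) y'
    have hsy : Measurable fun e => step j y e := (hs j).comp (measurable_prodMk_left (x := y))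
    have hD : Measurable fun p : Ω × (Nd b (j + 1) k → Ω) =>
        lN m (j + 1) k fun α => X (st step (j + 1) k (step j y p.1) p.2 α) := by
      refine lln_meas_lN m k (j + 1) _ fun α => hX.comp ?_
      have h1 := (measurable_st hs (j + 1) k α).comp
        ((hsy.comp measurable_fst).prodMk (measurable_snd (β := Nd b (j + 1) k → Ω)))
      simpa only [Function.comp_def] using h1
    have hA : Measurable fun e => rc m P step X (j + 1) k (step j y e) :=
      (measurable_rc m P hs hX (j + 1) k).comp hsy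
    obtain ⟨s1, s2⟩ := lln_step P (Measure.pi fun _ : Nd b (j + 1) k => P) hD hA hm0
      (hm j le_rfl (by omega)).1 (hm j le_rfl (by omega)).2
      (fun e => hc j k y e le_rfl (by omega)) (hi j le_rfl (by omega)).1 (hi j le_rfl (by omega)).2
      (fun e => (ih' (step j y e)).1) (fun e => (ih' (step j y e)).2) (b j)
    have hmp : MeasurePreserving (fun (ω : Nd b j (k + 1) → Ω) (c : Fin (b j + 1)) =>
        (ω (c, none), fun ν : Nd b (j + 1) k => ω (c, some ν))) (Measure.pi fun _ => P)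
        (Measure.pi fun _ => P.prod (Measure.pi fun _ => P)) :=
      ⟨measurable_pi_lambda _ fun c => (measurable_pi_apply _).prodMk
        (measurable_pi_lambda _ fun ν => measurable_pi_apply _), map_nd_split j k fun _ => P⟩
    refine ⟨hmp.integrable_comp_of_integrable s1, ?_⟩
    rw [← hmp.map_eq, integral_map hmp.measurable.aemeasurable
      (by rw [hmp.map_eq]; exact (s1.sub (integrable_const _)).abs.aestronglyMeasurable)] at s2
    have e : 2 * K ^ 2 / m0 * err b j (k + 1) = 2 * K ^ 2 / m0 * (√((b j : ℝ) + 1))⁻¹ +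
        ((b j : ℝ) + 1) * (2 * K ^ 2 / m0 * err b (j + 1) k) := by
      simp only [err]; ring
    rw [e]
    exact s2

end

end Vale.Agent.P166
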