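import Vale.Agent.P166.RMB
import Vale.Agent.P166.Lln

/-! P166 ThA: the law of large numbers for the free energy on the tree (helper file of Th). -/

open MeasureTheory ProbabilityTheory Filter Topology Matrix Finset

namespace Vale.Agent.P166

noncomputable section

variable {r : ℕ} {b : ℕ → ℕ} {m : ℕ → ℝ}

lemma tha_max (hm : MOk r m) {l : ℕ} (hl : l ≤ r + 1) : m l = max (m l) 0 :=
  (max_eq_left (hm.nonneg hl)).symm

lemma tha_rc_max (hm : MOk r m) {E Ω : Type} [MeasurableSpace E] [MeasurableSpace Ω]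
    (P : Measure Ω) (step : ℕ → E → Ω → E) (X : E → ℝ) {j k : ℕ} (h : j + k ≤ r + 1) :
    rc m P step X j k = rc (fun l => max (m l) 0) P step X j k :=
  rc_congr _ _ P step step X j k (fun l _ hl => tha_max hm (by omega)) fun _ _ _ => rfl

/-- law of large numbers with a mark at the root -/
lemma tha_root (hm : MOk r m) {E Ω : Type} [MeasurableSpace E] [MeasurableSpace Ω]
    (P : Measure Ω) [IsProbabilityMeasure P] {step : ℕ → E → Ω → E}
    (hs : ∀ l, Measurable fun z : E × Ω => step l z.1 z.2) {X : E → ℝ} (hX : Measurable X)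
    {K : ℝ} {ρ : ℕ → Ω → ℝ} (c : ℕ → E → ℝ)
    (hi : ∀ l, 1 ≤ l → l < 1 + r → Integrable (fun ω => Real.exp (2 * ρ l ω)) P ∧
      ∫ ω, Real.exp (2 * ρ l ω) ∂P ≤ K)
    (hc : ∀ l n y ω, 1 ≤ l → l + n + 1 = 1 + r →
      |rc m P step X (l + 1) n (step l y ω) - c l y| ≤ ρ l ω) (y : E)
    (h0 : Integrable (fun ω => rc m P step X 1 r (step 0 y ω)) P) :
    Integrable (fun ω : Option (Nd b 1 r) → Ω => lN m 1 r fun α => X (stt step r y ω α))
      (Measure.pi fun _ => P) ∧
    |∫ ω : Option (Nd b 1 r) → Ω, lN m 1 r (fun α => X (stt step r y ω α))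
      ∂(Measure.pi fun _ => P) - rc m P step X 0 (r + 1) y| ≤ 2 * K ^ 2 / m 1 * err b 1 r := by
  have hl := fun y' => lln (b := b) m P hs hX hm.pos c r 1
    (fun l h1 h2 => ⟨hm.one_le h1 (by omega), hm.le_one (by omega)⟩) hi hc y'
  set F : Ω × (Nd b 1 r → Ω) → ℝ :=
    fun z => lN m 1 r fun α => X (st step 1 r (step 0 y z.1) z.2 α) with hF
  have hy : Measurable (step 0 y) := (hs 0).comp measurable_prodMk_left
  have hFm : Measurable F := lln_meas_lN m r 1 _ fun α => hX.comp
    ((measurable_st hs 1 r α).comp ((hy.comp measurable_fst).prodMk measurable_snd))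
  have hsp : Measurable fun g : Option (Nd b 1 r) → Ω => (g none, fun ν => g (some ν)) :=
    (measurable_pi_apply _).prodMk (measurable_pi_lambda _ fun ν => measurable_pi_apply _)
  have hmp : MeasurePreserving (fun g : Option (Nd b 1 r) → Ω => (g none, fun ν => g (some ν)))
      (Measure.pi fun _ => P) (P.prod (Measure.pi fun _ => P)) :=
    ⟨hsp, tree_map_option fun _ => P⟩
  have hFi : Integrable F (P.prod (Measure.pi fun _ => P)) := by
    refine (integrable_prod_iff hFm.aestronglyMeasurable).2 ⟨ae_of_all _ fun w => (hl (step 0 y w)).1, ?_⟩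
    refine Integrable.mono' (h0.abs.add (integrable_const (2 * K ^ 2 / m 1 * err b 1 r)))
      (hFm.norm.stronglyMeasurable.integral_prod_right').aestronglyMeasurable
      (ae_of_all _ fun w => ?_)
    rw [Real.norm_of_nonneg (integral_nonneg fun _ => norm_nonneg _)]
    have h1 := (hl (step 0 y w)).1
    have h2 := (hl (step 0 y w)).2
    have h3 : Integrable (fun t => |F (w, t) - rc m P step X 1 r (step 0 y w)|)
        (Measure.pi fun _ => P) := (h1.sub (integrable_const (rc m P step X 1 r (step 0 y w)))).abs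
    calc ∫ t, ‖F (w, t)‖ ∂(Measure.pi fun _ => P)
        ≤ ∫ t, (|rc m P step X 1 r (step 0 y w)| +
          |F (w, t) - rc m P step X 1 r (step 0 y w)|) ∂(Measure.pi fun _ => P) := by
          refine integral_mono h1.norm ((integrable_const _).add h3) fun t => ?_
          have := abs_add_le (rc m P step X 1 r (step 0 y w))
            (F (w, t) - rc m P step X 1 r (step 0 y w))
          simpa using this
      _ ≤ _ := by
          rw [integral_add (integrable_const _) h3]
          simp only [integral_const, probReal_univ, one_smul, Pi.add_apply]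
          exact add_le_add le_rfl h2
  refine ⟨hmp.integrable_comp_of_integrable hFi, ?_⟩
  have e1 : ∫ ω : Option (Nd b 1 r) → Ω, lN m 1 r (fun α => X (stt step r y ω α))
      ∂(Measure.pi fun _ => P) = ∫ w, ∫ t, F (w, t) ∂(Measure.pi fun _ => P) ∂P := by
    rw [← integral_prod F hFi, ← hmp.map_eq, integral_map hsp.aemeasurable hFm.aestronglyMeasurable]
    rfl
  have e2 : rc m P step X 0 (r + 1) y = ∫ w, rc m P step X 1 r (step 0 y w) ∂P := by
    show Tm (m 0) P _ = _
    rw [hm.zero, Tm, if_pos rfl]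
  rw [e1, e2, ← integral_sub hFi.integral_prod_left h0]
  refine rmb_abs_integral_le fun w => le_trans ?_ (hl (step 0 y w)).2
  have h1 := (hl (step 0 y w)).1
  have e3 : ∫ t, F (w, t) ∂(Measure.pi fun _ => P) - rc m P step X 1 r (step 0 y w) =
      ∫ t, (F (w, t) - rc m P step X 1 r (step 0 y w)) ∂(Measure.pi fun _ => P) := by
    rw [integral_sub h1 (integrable_const _)]
    simp only [integral_const, probReal_univ, one_smul, hF]
  rw [e3]
  exact abs_integral_le_integral_abs

section Free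

variable {Sg I : Type} [Fintype Sg] [Nonempty Sg] [Fintype I]

lemma tha_lip (h : Sg → ℝ) (y y' : Sg → ℝ) : |lz (h + y) - lz (h + y')| ≤ 1 * ‖y - y'‖ := by
  rw [one_mul]
  refine abs_lz_sub_le fun s => ?_
  have := norm_le_pi_norm (y - y') s
  simpa using this

omit [Nonempty Sg] in
lemma tha_exp_int (a : Sg → I → ℝ) (c : ℝ) :
    Integrable (fun w => Real.exp (c * ‖feat a w‖)) (gam I) := by
  have h := integrable_exp_norm (gram a) c
  rw [← map_feat_gK] at h
  exact h.comp_measurable (measurable_feat a)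

lemma tha_exp_le (a : Sg → I → ℝ) {V : ℝ} (hV : ∀ σ, gram a σ σ ≤ V) :
    ∫ w, Real.exp (2 * ‖feat a w‖) ∂gam I ≤ 2 * Fintype.card Sg * Real.exp (2 * V) := by
  have h := integral_exp_norm_le (psd_gram a) (c := 2) (by norm_num) hV
  rw [← map_feat_gK, integral_map (measurable_feat a).aemeasurable (by fun_prop),
    show (2 : ℝ) ^ 2 * V / 2 = 2 * V by ring] at h
  exact h

/-- the field on the tree produced by the marks -/
def thaY (r : ℕ) (b : ℕ → ℕ) (a : ℕ → Sg → I → ℝ) (g : Option (Nd b 1 r) → I → ℝ)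
    (c : Cfg r b Sg) : ℝ :=
  stt (fun l (y : Sg → ℝ) w => y + feat (a l) w) r 0 g c.2 c.1

/-- its covariance -/
def thaC (r : ℕ) (b : ℕ → ℕ) (a : ℕ → Sg → I → ℝ) (c c' : Cfg r b Sg) : ℝ :=
  ∑ l ∈ range (r + 1), if l ≤ lev 1 r c.2 c'.2 then gram (a l) c.1 c'.1 else 0

omit [Nonempty Sg] in
lemma tha_step (a : ℕ → Sg → I → ℝ) (l : ℕ) :
    Measurable fun z : (Sg → ℝ) × (I → ℝ) => z.1 + feat (a l) z.2 :=
  measurable_fst.add ((measurable_feat (a l)).comp measurable_snd)

omit [Nonempty Sg] in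
lemma thaY_meas (a : ℕ → Sg → I → ℝ) : Measurable (thaY r b a) :=
  measurable_pi_lambda _ fun c => (measurable_pi_apply c.1).comp
    (measurable_stt (step := fun l (y : Sg → ℝ) w => y + feat (a l) w) (tha_step a) r 0 c.2)

variable {E Ω0 : Type} [MeasurableSpace E] [MeasurableSpace Ω0]

omit [Nonempty Sg] in
lemma tha_mp (a : ℕ → Sg → I → ℝ) (P0 : Measure Ω0) [IsProbabilityMeasure P0] :
    MeasurePreserving (fun z : Option (Nd b 1 r) → (I → ℝ) × Ω0 =>
      (thaY r b a fun ν => (z ν).1, fun ν => (z ν).2)) (Measure.pi fun _ => (gam I).prod P0)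
      ((gK (thaC r b a)).prod (Measure.pi fun _ => P0)) := by
  have h1 := measurePreserving_arrowProdEquivProdArrow (I → ℝ) Ω0 (Option (Nd b 1 r))
    (fun _ => gam I) (fun _ => P0)
  have h2 : MeasurePreserving (thaY r b a) (Measure.pi fun _ => gam I) (gK (thaC r b a)) :=
    ⟨thaY_meas a, map_tree_field r a⟩
  exact (h2.prod (MeasurePreserving.id _)).comp h1

lemma tha_pair (hm : MOk r m) (h : Sg → ℝ) (a : ℕ → Sg → I → ℝ) {V : ℝ}
    (hV : ∀ l ≤ r, ∀ σ, gram (a l) σ σ ≤ V) (P0 : Measure Ω0) [IsProbabilityMeasure P0]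
    {step : ℕ → E → Ω0 → E} (hs : ∀ l, Measurable fun z : E × Ω0 => step l z.1 z.2) {W : E → ℝ}
    (hW : Measurable W) {B : ℝ} (hB : ∀ y, |W y| ≤ B) (y0 : E) :
    Integrable (fun z : Option (Nd b 1 r) → (I → ℝ) × Ω0 => lN m 1 r fun α =>
      lz (h + fun σ => thaY r b a (fun ν => (z ν).1) (σ, α)) + W (stt step r y0 (fun ν => (z ν).2) α))
      (Measure.pi fun _ => (gam I).prod P0) ∧
    |∫ z : Option (Nd b 1 r) → (I → ℝ) × Ω0, lN m 1 r (fun α =>
      lz (h + fun σ => thaY r b a (fun ν => (z ν).1) (σ, α)) + W (stt step r y0 (fun ν => (z ν).2) α))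
      ∂(Measure.pi fun _ => (gam I).prod P0) -
      (rc m (gam I) (fun l (y : Sg → ℝ) w => y + feat (a l) w) (fun y => lz (h + y)) 0 (r + 1) 0 +
        rc m P0 step W 0 (r + 1) y0)| ≤
      2 * (2 * Fintype.card Sg * Real.exp (2 * V) * Real.exp (2 * B)) ^ 2 / m 1 * err b 1 r := by
  set X : (Sg → ℝ) → ℝ := fun y => lz (h + y) with hXd
  have hX : Measurable X := measurable_lz fun s => measurable_const.add (measurable_pi_apply s)
  have hm' : ∀ l, 0 ≤ max (m l) 0 := fun l => le_max_right _ _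
  have hi1 : ∀ l n (y : Sg → ℝ), l + n + 1 ≤ r + 1 →
      Integrable (fun w => rc m (gam I) (fun l (y : Sg → ℝ) w => y + feat (a l) w) X (l + 1) n
        (y + feat (a l) w)) (gam I) ∧
      Integrable (fun w => Real.exp (m l * rc m (gam I) (fun l (y : Sg → ℝ) w => y + feat (a l) w)
        X (l + 1) n (y + feat (a l) w))) (gam I) := by
    intro l n y hl
    rw [tha_rc_max hm _ _ _ (by omega), tha_max hm (l := l) (by omega)]
    exact rc_int_lip _ hm' (gam I) (fun l => measurable_feat (a l)) (fun l c => tha_exp_int (a l) c)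
      (tha_lip h) l n y
  have hi2 : ∀ l n (y : E), l + n + 1 ≤ r + 1 →
      Integrable (fun w => rc m P0 step W (l + 1) n (step l y w)) P0 ∧
      Integrable (fun w => Real.exp (m l * rc m P0 step W (l + 1) n (step l y w))) P0 := by
    intro l n y hl
    rw [tha_rc_max hm _ _ _ (by omega), tha_max hm (l := l) (by omega)]
    exact rc_int_bdd _ hm' P0 hs hW hB l n y
  have hadd : ∀ j k (y : Sg → ℝ) (y' : E), j + k ≤ r + 1 →
      rc m ((gam I).prod P0) (fun l (z : (Sg → ℝ) × E) (w : (I → ℝ) × Ω0) =>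
        (z.1 + feat (a l) w.1, step l z.2 w.2)) (fun z => X z.1 + W z.2) j k (y, y') =
      rc m (gam I) (fun l (y : Sg → ℝ) w => y + feat (a l) w) X j k y + rc m P0 step W j k y' :=
    fun j k y y' hjk => rc_add m (gam I) P0 (fun l (y : Sg → ℝ) w => y + feat (a l) w) step X W j k
      (fun l n y _ h2 => hi1 l n y (by omega)) (fun l n y _ h2 => hi2 l n y (by omega)) y y'
  have hs2 : ∀ l, Measurable fun q : ((Sg → ℝ) × E) × ((I → ℝ) × Ω0) =>
      (q.1.1 + feat (a l) q.2.1, step l q.1.2 q.2.2) := fun l =>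
    ((tha_step a l).comp (measurable_fst.fst.prodMk measurable_snd.fst)).prodMk
      ((hs l).comp (measurable_fst.snd.prodMk measurable_snd.snd))
  have key := tha_root (b := b) hm ((gam I).prod P0)
    (step := fun l (z : (Sg → ℝ) × E) (w : (I → ℝ) × Ω0) => (z.1 + feat (a l) w.1, step l z.2 w.2))
    hs2 (X := fun z => X z.1 + W z.2) ((hX.comp measurable_fst).add (hW.comp measurable_snd))
    (K := 2 * Fintype.card Sg * Real.exp (2 * V) * Real.exp (2 * B))
    (ρ := fun l w => ‖feat (a l) w.1‖ + B)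
    (fun l z => rc m (gam I) (fun l (y : Sg → ℝ) w => y + feat (a l) w) X (l + 1) (r - l) z.1)
    (fun l _ h2 => by
      simp only [mul_add, Real.exp_add]
      refine ⟨((tha_exp_int (a l) 2).comp_fst P0).mul_const _, ?_⟩
      rw [integral_mul_const, integral_fun_fst (fun w => Real.exp (2 * ‖feat (a l) w‖)),
        probReal_univ, one_smul]
      exact mul_le_mul_of_nonneg_right (tha_exp_le (a l) (hV l (by omega))) (Real.exp_pos _).le)
    (fun l n y w _ h2 => by
      obtain rfl : n = r - l := by omega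
      rw [hadd _ _ _ _ (by omega)]
      have h3 : |rc m P0 step W (l + 1) (r - l) (step l y.2 w.2)| ≤ B := by
        rw [tha_rc_max hm _ _ _ (by omega)]
        exact abs_rc_le _ hm' P0 hs hW hB _ _ _
      have h4 : |rc m (gam I) (fun l (y : Sg → ℝ) w => y + feat (a l) w) X (l + 1) (r - l)
          (y.1 + feat (a l) w.1) - rc m (gam I) (fun l (y : Sg → ℝ) w => y + feat (a l) w) X
          (l + 1) (r - l) y.1| ≤ ‖feat (a l) w.1‖ := by
        rw [tha_rc_max hm _ _ _ (by omega)]
        have := rc_lip _ hm' (gam I) (fun l => measurable_feat (a l))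
          (fun l c => tha_exp_int (a l) c) (tha_lip h) (l + 1) (r - l) (y.1 + feat (a l) w.1) y.1
        rwa [one_mul, add_sub_cancel_left] at this
      rw [abs_le] at h3 h4 ⊢
      constructor <;> linarith [h3.1, h3.2, h4.1, h4.2])
    (0, y0) (by
      have e : ∀ w : (I → ℝ) × Ω0, rc m ((gam I).prod P0)
          (fun l (z : (Sg → ℝ) × E) (w : (I → ℝ) × Ω0) => (z.1 + feat (a l) w.1, step l z.2 w.2))
          (fun z => X z.1 + W z.2) 1 r (0 + feat (a 0) w.1, step 0 y0 w.2) = _ :=
        fun w => hadd 1 r _ _ (by omega)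
      simp only [e]
      exact ((hi1 0 r 0 (by omega)).1.comp_fst P0).add ((hi2 0 r y0 (by omega)).1.comp_snd _))
  rw [hadd 0 (r + 1) 0 y0 (by omega)] at key
  simp only [stt_prod (fun l (y : Sg → ℝ) w => y + feat (a l) w) step] at key
  exact key

/-- free energy with a bounded extra energy depending on the leaf -/
lemma tha_free (hm : MOk r m) (h : Sg → ℝ) (a : ℕ → Sg → I → ℝ) {V : ℝ}
    (hV : ∀ l ≤ r, ∀ σ, gram (a l) σ σ ≤ V) (P0 : Measure Ω0) [IsProbabilityMeasure P0]
    {step : ℕ → E → Ω0 → E} (hs : ∀ l, Measurable fun z : E × Ω0 => step l z.1 z.2) {W : E → ℝ}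
    (hW : Measurable W) {B : ℝ} (hB : ∀ y, |W y| ≤ B) (y0 : E) :
    Integrable (fun q : (Nd b 1 r → ℝ) × ((Cfg r b Sg → ℝ) × (Option (Nd b 1 r) → Ω0)) =>
      lz fun c : Cfg r b Sg => h c.1 + lw m 1 r q.1 c.2 + q.2.1 c + W (stt step r y0 q.2.2 c.2))
      ((Pu b m 1 r).prod ((gK (thaC r b a)).prod (Measure.pi fun _ => P0))) ∧
    |∫ u, ∫ p : (Cfg r b Sg → ℝ) × (Option (Nd b 1 r) → Ω0),
      (lz fun c : Cfg r b Sg => h c.1 + lw m 1 r u c.2 + p.1 c + W (stt step r y0 p.2 c.2))
      ∂((gK (thaC r b a)).prod (Measure.pi fun _ => P0)) ∂Pu b m 1 r - Z0 r b m -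
      (rc m (gam I) (fun l (y : Sg → ℝ) w => y + feat (a l) w) (fun y => lz (h + y)) 0 (r + 1) 0 +
        rc m P0 step W 0 (r + 1) y0)| ≤
      2 * (2 * Fintype.card Sg * Real.exp (2 * V) * Real.exp (2 * B)) ^ 2 / m 1 * err b 1 r := by
  have hWm : ∀ α : Leaf b 1 r, Measurable fun ω : Option (Nd b 1 r) → Ω0 =>
      W (stt step r y0 ω α) := fun α => hW.comp (measurable_stt hs r y0 α)
  have hI : Integrable
      (fun q : (Nd b 1 r → ℝ) × ((Cfg r b Sg → ℝ) × (Option (Nd b 1 r) → Ω0)) =>
      lz fun c : Cfg r b Sg => h c.1 + lw m 1 r q.1 c.2 + q.2.1 c + W (stt step r y0 q.2.2 c.2))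
      ((Pu b m 1 r).prod ((gK (thaC r b a)).prod (Measure.pi fun _ => P0))) := by
    refine integrable_lz (fun c => ?_) fun c => ?_
    · exact ((measurable_const.add ((continuous_lw m 1 r c.2).measurable.comp measurable_fst)).add
        ((measurable_pi_apply c).comp measurable_snd.fst)).add ((hWm c.2).comp measurable_snd.snd)
    · exact (((integrable_const _).add ((integrable_lw hm c.2).comp_fst _)).add
        (((integrable_eval c).comp_fst _).comp_snd _)).add
        (((rmb_integrable (hWm c.2) fun _ => hB _).comp_snd _).comp_snd _)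
  refine ⟨hI, ?_⟩
  obtain ⟨k1, k2⟩ := tha_pair (b := b) hm h a hV P0 hs hW hB y0
  have hmp := tha_mp (r := r) (b := b) a P0
  have e1 : ∀ (u : Nd b 1 r → ℝ) (p : (Cfg r b Sg → ℝ) × (Option (Nd b 1 r) → Ω0)),
      (lz fun c : Cfg r b Sg => h c.1 + lw m 1 r u c.2 + p.1 c + W (stt step r y0 p.2 c.2)) =
      lz fun α => lw m 1 r u α + (lz (h + fun σ => p.1 (σ, α)) + W (stt step r y0 p.2 α)) := by
    intro u p
    rw [lz_prod fun σ α => h σ + lw m 1 r u α + p.1 (σ, α) + W (stt step r y0 p.2 α)]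
    congr 1
    funext α
    rw [add_left_comm, ← lz_add_const]
    congr 1
    funext σ
    simp only [Pi.add_apply]
    ring
  have hN : Measurable fun p : (Cfg r b Sg → ℝ) × (Option (Nd b 1 r) → Ω0) =>
      lN m 1 r fun α => lz (h + fun σ => p.1 (σ, α)) + W (stt step r y0 p.2 α) :=
    lln_meas_lN m r 1 _ fun α => (measurable_lz fun σ => measurable_const.add
      ((measurable_pi_apply (σ, α)).comp measurable_fst)).add ((hWm α).comp measurable_snd)
  rw [integral_integral_swap hI]
  simp only [e1, tree_mean hm]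
  rw [← hmp.map_eq, integral_map hmp.measurable.aemeasurable
    (hN.add_const _).aestronglyMeasurable, integral_add k1 (integrable_const _)]
  simp only [integral_const, probReal_univ, one_smul, add_sub_cancel_right]
  exact k2

end Free

end

end Vale.Agent.P166
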