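import Vale.Agent.P166.RMB
import Vale.Agent.P166.Lln
import Vale.Agent.P166.ThA
import Vale.Agent.P166.Gibbs2

/-! P166 Th: free energies on the finite tree are close to the recursion.
Plan. th_det (deterministic h, T, Q): log av1 H exp K = lz (H+K) - lz H (lz_add). Realise y ~ gK Cm by map_tree_field with a l = sqr (Cl l) (gram_sqr, psd_Cl). For fixed marks, lz over Sg x Leaf is lz over leaves
of lw u + X(state) with X y = lz (h + s^2 x0 T + y) (lz_prod), so tree_mean turns the u integral into lN + Z0 (Fubini). Combine the two families of marks into marks in the product space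
(measurePreserving_arrowProdEquivProdArrow, stt_prod), split off the root mark (piOptionEquivProd), apply lln (j = 1, k = r) to X + W and to X with rho l w = norm (feat (a l) w) + B,
c l y = rc X (l+1) n y.1 (rc_lip: X is 1-Lipschitz; |rc (X+W) - rc X| <= B by rc_add and abs_rc_le), K = 2 card exp(2V+2B) (integral_exp_norm_le); level 0 has m 0 = 0; rc_add. Replace m by max m 0 where a lemma wants 0 <= m l for all l (rc_congr).
th: Fubini over X.Omega (integral_gK). lev_law: rad with V = 1, nd c = anc j c.2 (anc_eq_iff), th with marks in Bool, stt_pick, rc_pick, |log cosh x - x^2/2| <= |x|^3; j = 0 is trivial.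
end0: features sqrt(a l) spin(sigma i) indexed by iota (yv_dot), lz of sum y_i spin(sigma i) is card log 2 + sum log cosh y_i, lln with rho = sqrt(a l) sum |g i|, K = (2 exp(2 Lambda))^card, rc_pi. -/

open MeasureTheory ProbabilityTheory Filter Topology Matrix Finset

namespace Vale.Agent.P166

noncomputable section

variable {r : ℕ} {b : ℕ → ℕ} {m : ℕ → ℝ} {P : Pr}

lemma th_abs_log {S : Type} [Fintype S] [Nonempty S] (H K : S → ℝ) {B : ℝ} (hK : ∀ s, |K s| ≤ B) :
    |Real.log (av1 H fun s => Real.exp (K s))| ≤ B := by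
  have h := abs_lz_sub_le (H := H + K) (H' := H) (B := B) fun s => by simpa using hK s
  rwa [lz_add, add_sub_cancel_left] at h

lemma th_KK (n : ℕ) (V : ℝ) {B B' : ℝ} (h : B' ≤ B) {e μ : ℝ} (he : 0 ≤ e) (hμ : 0 < μ) :
    2 * (2 * n * Real.exp (2 * V) * Real.exp (2 * B')) ^ 2 / μ * e ≤ e * KK n V B / μ / 2 := by
  have h1 : 2 * (2 * n * Real.exp (2 * V) * Real.exp (2 * B')) ^ 2 =
      8 * (n : ℝ) ^ 2 * Real.exp (4 * B' + 4 * V) := by
    rw [show 4 * B' + 4 * V = 2 * V + 2 * V + (2 * B' + 2 * B') by ring]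
    simp only [Real.exp_add]
    ring
  have h2 : Real.exp (4 * B' + 4 * V) ≤ Real.exp (4 * B + 4 * V) :=
    Real.exp_le_exp.2 (by linarith)
  rw [h1, KK]
  calc 8 * (n : ℝ) ^ 2 * Real.exp (4 * B' + 4 * V) / μ * e
      ≤ 8 * (n : ℝ) ^ 2 * Real.exp (4 * B + 4 * V) / μ * e := by gcongr
    _ = _ := by ring

lemma th_rc_zero {E Ω : Type} [MeasurableSpace Ω] (m : ℕ → ℝ) (P0 : Measure Ω)
    [IsProbabilityMeasure P0] (step : ℕ → E → Ω → E) :
    ∀ (k j : ℕ) (y : E), rc m P0 step (fun _ => 0) j k y = 0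
  | 0, _, _ => rfl
  | k + 1, j, y => by
    show Tm (m j) P0 (fun ω => rc m P0 step (fun _ => 0) (j + 1) k (step j y ω)) = 0
    simp [th_rc_zero m P0 step k, Tm]

lemma th_meas {Sg E Ω0 Z : Type} [Fintype Sg] [MeasurableSpace E] [MeasurableSpace Ω0]
    [MeasurableSpace Z] {step : ℕ → E → Ω0 → E}
    (hs : ∀ l, Measurable fun z : E × Ω0 => step l z.1 z.2) {W : E → ℝ} (hW : Measurable W) (y0 : E)
    (H : Z → Cfg r b Sg → ℝ) (e : Z → Option (Nd b 1 r) → Ω0) (hH : ∀ c, Measurable fun z => H z c)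
    (he : Measurable e) :
    Measurable fun z => Real.log (av1 (H z) fun c => Real.exp (W (stt step r y0 (e z) c.2))) := by
  refine (measurable_av1 hH fun c => Measurable.exp ?_).log
  have h1 : Measurable fun ω : Option (Nd b 1 r) → Ω0 => W (stt step r y0 ω c.2) :=
    hW.comp (measurable_stt hs r y0 c.2)
  exact h1.comp he

lemma th_int {Sg E Ω0 Z : Type} [Fintype Sg] [Nonempty Sg] [MeasurableSpace E] [MeasurableSpace Ω0]
    [MeasurableSpace Z] (μ : Measure Z) [IsProbabilityMeasure μ] {step : ℕ → E → Ω0 → E}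
    (hs : ∀ l, Measurable fun z : E × Ω0 => step l z.1 z.2) {W : E → ℝ} (hW : Measurable W) {B : ℝ}
    (hB : ∀ y, |W y| ≤ B) (y0 : E)
    (H : Z → Cfg r b Sg → ℝ) (e : Z → Option (Nd b 1 r) → Ω0) (hH : ∀ c, Measurable fun z => H z c)
    (he : Measurable e) :
    Integrable (fun z => Real.log (av1 (H z) fun c => Real.exp (W (stt step r y0 (e z) c.2)))) μ :=
  rmb_integrable (th_meas hs hW y0 H e hH he) fun _ => th_abs_log _ _ fun _ => hB _

theorem th_det {Sg : Type} [Fintype Sg] [Nonempty Sg] (hm : MOk r m) (ha : ∀ l, 0 ≤ P.a l)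
    (h : Sg → ℝ) {T Q : Sg → Sg → ℝ} (hT : PSD T) (hQ : PSD Q) {V : ℝ}
    (hV : ∀ l ≤ r, ∀ σ, Cl P T Q l σ σ ≤ V) {E Ω0 : Type} [MeasurableSpace E] [MeasurableSpace Ω0]
    (P0 : Measure Ω0) [IsProbabilityMeasure P0] {step : ℕ → E → Ω0 → E}
    (hs : ∀ l, Measurable fun z : E × Ω0 => step l z.1 z.2) {W : E → ℝ} (hW : Measurable W) {B : ℝ}
    (hB : ∀ y, |W y| ≤ B) (y0 : E) :
    |∫ u, ∫ y, ∫ ω, Real.log (av1 (Hm r b m P h T u + y)
          fun c => Real.exp (W (stt step r y0 ω c.2)))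
        ∂(Measure.pi fun _ : Option (Nd b 1 r) => P0) ∂gK (Cm r b P T Q) ∂Pu b m 1 r -
      rc m P0 step W 0 (r + 1) y0| ≤ err b 1 r * KK (Fintype.card Sg) V B / m 1 := by
  set a : ℕ → Sg → Sg → ℝ := fun l => sqr (Cl P T Q l) with ha_def
  have hg : ∀ l, gram (a l) = Cl P T Q l := fun l => gram_sqr (psd_Cl ha hT hQ l)
  have hC : Cm r b P T Q = thaC r b a := by
    funext c c'
    simp only [Cm, thaC, hg]
  set h' : Sg → ℝ := fun σ => h σ + P.s ^ 2 * P.x0 * T σ σ with hh'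
  have hV' : ∀ l ≤ r, ∀ σ, gram (a l) σ σ ≤ V := fun l hl σ => by rw [hg]; exact hV l hl σ
  have hB0 : 0 ≤ B := (abs_nonneg _).trans (hB y0)
  obtain ⟨i1, k1⟩ := tha_free (b := b) hm h' a hV' P0 hs hW hB y0
  obtain ⟨i0, k0⟩ := tha_free (b := b) hm h' a hV' P0 hs (W := fun _ => 0) measurable_const (B := 0)
    (fun _ => by simp) y0
  have e1 : ∀ (u : Nd b 1 r → ℝ) (y : Cfg r b Sg → ℝ) (ω : Option (Nd b 1 r) → Ω0),
      Real.log (av1 (Hm r b m P h T u + y) fun c => Real.exp (W (stt step r y0 ω c.2))) =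
      (lz fun c : Cfg r b Sg => h' c.1 + lw m 1 r u c.2 + y c + W (stt step r y0 ω c.2)) -
        lz fun c : Cfg r b Sg => h' c.1 + lw m 1 r u c.2 + y c + 0 := by
    intro u y ω
    have := lz_add (Hm r b m P h T u + y) fun c => W (stt step r y0 ω c.2)
    simp only [add_zero]
    exact eq_sub_of_add_eq' this.symm
  have e2 : ∀ u : Nd b 1 r → ℝ, ∫ y, ∫ ω, Real.log (av1 (Hm r b m P h T u + y)
        fun c => Real.exp (W (stt step r y0 ω c.2)))
        ∂(Measure.pi fun _ : Option (Nd b 1 r) => P0) ∂gK (Cm r b P T Q) =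
      ∫ p : (Cfg r b Sg → ℝ) × (Option (Nd b 1 r) → Ω0), Real.log (av1 (Hm r b m P h T u + p.1)
        fun c => Real.exp (W (stt step r y0 p.2 c.2)))
        ∂((gK (thaC r b a)).prod (Measure.pi fun _ => P0)) := by
    intro u
    rw [hC]
    exact (integral_prod _ (th_int _ hs hW hB y0
      (fun p : (Cfg r b Sg → ℝ) × (Option (Nd b 1 r) → Ω0) => Hm r b m P h T u + p.1) Prod.snd
      (fun c => by simp only [Pi.add_apply]; fun_prop) measurable_snd)).symm
  simp only [e2]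
  simp only [e1]
  rw [integral_integral_sub i1 i0]
  rw [th_rc_zero] at k0
  have t1 := th_KK (Fintype.card Sg) V (le_refl B) (err_nonneg (b := b) 1 r) hm.pos
  have t0 := th_KK (Fintype.card Sg) V hB0 (err_nonneg (b := b) 1 r) hm.pos
  rw [abs_le] at k1 k0 ⊢
  constructor <;> linarith [k1.1, k1.2, k0.1, k0.2]

lemma th_sys (X : RM) {f : (Cfg r b X.Sg → ℝ) → ℝ} (hf : Measurable f) {B : ℝ}
    (hb : ∀ H, |f H| ≤ B) {c ε : ℝ}
    (h : ∀ ω, |∫ u, ∫ y, f (Hm r b m P (X.h ω) (X.T ω) u + y) ∂gK (Cm r b P (X.T ω) (X.Q ω))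
      ∂Pu b m 1 r - c| ≤ ε) : |∫ z, f ((X.sys r b m P).H z) ∂(X.sys r b m P).P - c| ≤ ε := by
  have hH : Measurable (X.sys r b m P).H := measurable_pi_lambda _ (X.sys r b m P).mH
  have h1 : Integrable (fun z => f ((X.sys r b m P).H z)) (X.sys r b m P).P :=
    rmb_integrable (hf.comp hH) fun z => hb _
  have e := fun w => X.rmb_inner (b := b) (m := m) (P := P) hf w
  have h2 := h1.integral_prod_left.congr (Eventually.of_forall e)
  have e1 : ∫ z, f ((X.sys r b m P).H z) ∂(X.sys r b m P).P =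
      ∫ ω, ∫ u, ∫ y, f (Hm r b m P (X.h ω) (X.T ω) u + y) ∂gK (Cm r b P (X.T ω) (X.Q ω))
        ∂Pu b m 1 r ∂X.P := by
    refine (integral_prod _ h1).trans ?_
    simp only [e]
    exact integral_prod _ h2
  have e2 : c = ∫ _, c ∂X.P := by simp
  rw [e1, e2, ← integral_sub h2.integral_prod_left (integrable_const _)]
  exact rmb_abs_integral_le h

theorem RM.th (X : RM) (hm : MOk r m) (hP : P.Ok) {V : ℝ}
    (hV : ∀ l ≤ r, P.a l * X.BQ + 6 * P.s ^ 2 ≤ V) {E Ω0 : Type} [MeasurableSpace E]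
    [MeasurableSpace Ω0] (P0 : Measure Ω0) [IsProbabilityMeasure P0] {step : ℕ → E → Ω0 → E}
    (hs : ∀ l, Measurable fun z : E × Ω0 => step l z.1 z.2) {W : E → ℝ} (hW : Measurable W) {B : ℝ}
    (hB : ∀ y, |W y| ≤ B) (y0 : E) :
    |∫ z, Real.log (av1 ((X.sys r b m P).H z.1) fun c => Real.exp (W (stt step r y0 z.2 c.2)))
        ∂((X.sys r b m P).P.prod (Measure.pi fun _ : Option (Nd b 1 r) => P0)) -
      rc m P0 step W 0 (r + 1) y0| ≤ err b 1 r * KK (Fintype.card X.Sg) V B / m 1 := by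
  have hj := th_meas hs hW y0 (Z := (Cfg r b X.Sg → ℝ) × (Option (Nd b 1 r) → Ω0)) Prod.fst Prod.snd
    (fun c => by fun_prop) measurable_snd
  have hfm : Measurable fun H : Cfg r b X.Sg → ℝ => ∫ ω, Real.log (av1 H
      fun c => Real.exp (W (stt step r y0 ω c.2))) ∂(Measure.pi fun _ : Option (Nd b 1 r) => P0) :=
    hj.stronglyMeasurable.integral_prod_right'.measurable
  have h0 := th_int ((X.sys r b m P).P.prod (Measure.pi fun _ : Option (Nd b 1 r) => P0)) hs hW hB
    y0 (fun z => (X.sys r b m P).H z.1) Prod.snd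
    (fun c => ((X.sys r b m P).mH c).comp measurable_fst) measurable_snd
  refine (congrArg (fun t => |t - rc m P0 step W 0 (r + 1) y0|) (integral_prod _ h0)).trans_le ?_
  exact th_sys X hfm (B := B) (fun H => rmb_abs_integral_le fun ω => th_abs_log _ _ fun c => hB _)
    fun ω => th_det hm hP.a_nonneg (X.h ω) (X.pT ω) (X.pQ ω)
      (fun l hl σ => (Cl_diag_le hP (X.bT ω) (X.bQ ω) l σ).trans (hV l hl)) P0 hs hW hB y0

lemma th_logcosh (x : ℝ) : |Real.log (Real.cosh x) - x ^ 2 / 2| ≤ 2 * |x| ^ 3 := by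
  have h := taylor2 (fun _ : Bool => (0 : ℝ)) spin (B := 1) (fun s => (abs_spin s).le) x
  have e1 : (av1 (fun _ : Bool => (0 : ℝ)) fun s => Real.exp (x * spin s)) = Real.cosh x := by
    simp [av1, gw, spin, Real.cosh_eq]
    ring
  have e2 : av1 (fun _ : Bool => (0 : ℝ)) spin = 0 := by simp [av1, gw, spin]
  have e3 : (av1 (fun _ : Bool => (0 : ℝ)) fun s => spin s ^ 2) = 1 := by
    simp only [spin_sq, av1_const]
  rw [e1, e2, e3] at h
  simpa using h

theorem RM.lev_law (X : RM) (hm : MOk r m) (hP : P.Ok) {V : ℝ}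
    (hV : ∀ l ≤ r, P.a l * X.BQ + 6 * P.s ^ 2 ≤ V) {j : ℕ} (hj : j ≤ r) {θ : ℝ} (h0 : 0 < θ)
    (h1 : θ ≤ 1) :
    |X.A r b m P 2 (fun _ c => if j ≤ lev 1 r (c 0).2 (c 1).2 then 1 else 0) - (1 - m j)| ≤
      8 * θ + 2 * (err b 1 r * KK (Fintype.card X.Sg) V 1 / m 1) / θ ^ 2 := by
  classical
  have hε : 0 ≤ err b 1 r * KK (Fintype.card X.Sg) V 1 / m 1 :=
    div_nonneg (mul_nonneg (err_nonneg 1 r) (by unfold KK; positivity)) hm.pos.le
  rcases Nat.eq_zero_or_pos j with rfl | hj0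
  · simp only [zero_le, if_true, X.A_const, hm.zero, sub_zero, sub_self, abs_zero]
    positivity
  have hmj : 0 < m j := hm.pos.trans_le (hm.one_le hj0 (by omega))
  have hmj1 : m j ≤ 1 := hm.le_one (by omega)
  have k1 := X.th (b := b) hm hP hV unifB (step := fun l (z w : Bool) => if l = j then w else z)
    (fun l => measurable_of_finite _) (W := fun z => θ * spin z) (measurable_of_finite _) (B := 1)
    (fun z => by rw [abs_mul, abs_spin, mul_one, abs_of_pos h0]; exact h1) true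
  rw [rc_pick m r j hm.zero hj hmj] at k1
  simp only [stt_pick r j hj] at k1
  have hH : Measurable (X.sys r b m P).H := measurable_pi_lambda _ (X.sys r b m P).mH
  have i0 : Integrable (fun z : (X.sys r b m P).Ω × (Option (Nd b 1 r) → Bool) =>
      Real.log (av1 ((X.sys r b m P).H z.1) fun c => Real.exp (θ * spin (z.2 (anc 1 r j c.2)))))
      ((X.sys r b m P).P.prod (Measure.pi fun _ : Option (Nd b 1 r) => unifB)) := by
    refine rmb_integrable (B := 1) ?_ fun z => th_abs_log _ _ fun c => by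
      rw [abs_mul, abs_spin, mul_one, abs_of_pos h0]; exact h1
    refine (measurable_av1 (fun c => ((X.sys r b m P).mH c).comp measurable_fst) fun c => ?_).log
    exact ((measurable_of_finite fun ω : Option (Nd b 1 r) → Bool =>
      θ * spin (ω (anc 1 r j c.2))).comp measurable_snd).exp
  rw [integral_prod _ i0] at k1
  have hG : ∀ (ω : X.Ω) (c : Fin 2 → Cfg r b X.Sg),
      |(if j ≤ lev 1 r (c 0).2 (c 1).2 then (1 : ℝ) else 0)| ≤ 1 := fun _ c => by
    split_ifs <;> simp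
  have eA := X.sys_E (b := b) (m := m) (P := P) 2
    (G := fun _ c => if j ≤ lev 1 r (c 0).2 (c 1).2 then 1 else 0) (fun _ => measurable_const) hG
  have iA := X.rmb_integrable_av (b := b) (m := m) (P := P) 2
    (G := fun _ c => if j ≤ lev 1 r (c 0).2 (c 1).2 then 1 else 0) (fun _ => measurable_const) hG
  have k2 := rmb_comb (μ := (X.sys r b m P).P) (c := θ ^ 2 / 2) (B := 1) (K := 2 * θ ^ 3)
    i0.integral_prod_left (integrable_const 0) iA fun z => by
      have h := rad ((X.sys r b m P).H z) (fun _ => 1) (fun c => anc 1 r j c.2) (B := 1)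
        (fun _ => by simp) θ
      simp only [one_mul, mul_one, one_pow, av1_const, anc_eq_iff 1 r j hj, abs_of_pos h0] at h
      simpa using h
  rw [← eA]
  unfold Sys.E
  have k3 := th_logcosh (m j * θ)
  rw [abs_of_pos (mul_pos hmj h0)] at k3
  have k4 : |(m j)⁻¹ * Real.log (Real.cosh (m j * θ)) - m j * θ ^ 2 / 2| ≤ 2 * θ ^ 3 := by
    have e : (m j)⁻¹ * Real.log (Real.cosh (m j * θ)) - m j * θ ^ 2 / 2 =
        (m j)⁻¹ * (Real.log (Real.cosh (m j * θ)) - (m j * θ) ^ 2 / 2) := by field_simp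
    rw [e, abs_mul, abs_of_pos (inv_pos.2 hmj), inv_mul_le_iff₀ hmj]
    refine k3.trans ?_
    have : m j ^ 2 ≤ 1 := pow_le_one₀ hmj.le hmj1
    have h3 : 0 ≤ m j * θ ^ 3 := by positivity
    nlinarith
  simp only [integral_const, smul_zero, sub_zero] at k2
  set A := ∫ z, av 2 ((X.sys r b m P).H z)
    (fun c => if j ≤ lev 1 r (c 0).2 (c 1).2 then (1 : ℝ) else 0) ∂(X.sys r b m P).P
  set ε := err b 1 r * KK (Fintype.card X.Sg) V 1 / m 1
  have hθ2 : 0 < θ ^ 2 := by positivity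
  have k5 : |A - (1 - m j)| * θ ^ 2 ≤ 8 * θ * θ ^ 2 + 2 * ε := by
    rw [← abs_of_pos hθ2, ← abs_mul, abs_of_pos hθ2]
    rw [abs_le] at k1 k2 k4 ⊢
    constructor <;> nlinarith [k1.1, k1.2, k2.1, k2.2, k4.1, k4.2]
  rw [← le_div_iff₀ hθ2, add_div, mul_div_assoc, div_self hθ2.ne', mul_one] at k5
  exact k5

theorem lev_lim (X : ℕ → RM) (hm : MOk r m) (b : ℕ → ℕ → ℕ) (P : ℕ → Pr) (hP : ∀ i, (P i).Ok)
    (V : ℕ → ℝ) (hV : ∀ i, ∀ l ≤ r, (P i).a l * (X i).BQ + 6 * (P i).s ^ 2 ≤ V i) {L : Filter ℕ}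
    (hsm : Tendsto (fun i => err (b i) 1 r * KK (Fintype.card (X i).Sg) (V i) 0) L (𝓝 0))
    {j : ℕ} (hj : j ≤ r) :
    Tendsto (fun i => (X i).A r (b i) m (P i) 2
      fun _ c => if j ≤ lev 1 r (c 0).2 (c 1).2 then 1 else 0) L (𝓝 (1 - m j)) := by
  rw [Metric.tendsto_nhds]
  intro ε hε
  set θ := min 1 (ε / 16) with hθ
  have h0 : 0 < θ := lt_min one_pos (by positivity)
  have h2 : θ ≤ ε / 16 := min_le_right _ _
  have h3 := ((((hsm.const_mul (Real.exp 4)).div_const (m 1)).const_mul 2).div_const (θ ^ 2))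
  simp only [mul_zero, zero_div] at h3
  filter_upwards [h3.eventually_lt_const (half_pos hε)] with i hi
  have h4 := (X i).lev_law (b := b i) hm (hP i) (hV i) hj h0 (min_le_left _ _)
  have e : err (b i) 1 r * KK (Fintype.card (X i).Sg) (V i) 1 =
      Real.exp 4 * (err (b i) 1 r * KK (Fintype.card (X i).Sg) (V i) 0) := by
    simp only [KK, mul_one, mul_zero, zero_add, Real.exp_add]
    ring
  rw [Real.dist_eq]
  rw [e] at h4
  linarith

lemma th_sum_pi {ι : Type} [Fintype ι] [DecidableEq ι] (g : ι → Bool → ℝ) :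
    ∑ σ : ι → Bool, ∏ i, g i (σ i) = ∏ i, ∑ t, g i t := by
  rw [Finset.prod_univ_sum, Fintype.piFinset_univ]

lemma th_lz_spin {ι : Type} [Fintype ι] [DecidableEq ι] (y : ι → ℝ) :
    lz ((fun _ : ι → Bool => -(Fintype.card ι * Real.log 2)) + fun σ => ∑ i, y i * spin (σ i)) =
      ∑ i, Real.log (Real.cosh (y i)) := by
  have e : ((fun _ : ι → Bool => -(Fintype.card ι * Real.log 2)) + fun σ => ∑ i, y i * spin (σ i)) =
      fun σ => ∑ i, y i * spin (σ i) + -(Fintype.card ι * Real.log 2) := by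
    funext σ
    simp only [Pi.add_apply]
    ring
  rw [e, lz_add_const, lz]
  simp only [Real.exp_sum]
  rw [th_sum_pi fun i t => Real.exp (y i * spin t), Real.log_prod fun i _ => by positivity]
  have e2 : ∀ i, Real.log (∑ t : Bool, Real.exp (y i * spin t)) =
      Real.log 2 + Real.log (Real.cosh (y i)) := fun i => by
    rw [← Real.log_mul two_ne_zero (Real.cosh_pos _).ne']
    congr 1
    simp [spin, Real.cosh_eq]
    ring
  simp only [e2]
  simp [Finset.sum_add_distrib]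

lemma th_rc_spin {ι : Type} [Fintype ι] [DecidableEq ι] (hm : MOk r m) (a : ℕ → ℝ) :
    rc m (gam ι) (fun l (y : (ι → Bool) → ℝ) w => y + feat (fun σ i => √(a l) * spin (σ i)) w)
      (fun y => lz ((fun _ => -(Fintype.card ι * Real.log 2)) + y)) 0 (r + 1) 0 =
      Fintype.card ι * parisi m a 0 (r + 1) 0 := by
  have h := rc_push m (gam ι) (gam ι) (step := fun l (y g : ι → ℝ) => y + √(a l) • g)
    (step' := fun l (y : (ι → Bool) → ℝ) w => y + feat (fun σ i => √(a l) * spin (σ i)) w)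
    (fun l y => by fun_prop)
    (fun l => by
      have h1 := tha_step (fun l (σ : ι → Bool) i => √(a l) * spin (σ i)) l
      beta_reduce at h1 ⊢
      exact h1)
    (fun _ y σ => ∑ i, y i * spin (σ i))
    (fun _ => by fun_prop)
    (X := fun y => lz ((fun _ => -(Fintype.card ι * Real.log 2)) + y))
    (measurable_lz fun s => measurable_const.add (measurable_pi_apply s)) 0 (r + 1)
    (fun l y _ _ => by
      congr 1
      funext g σ
      simp only [Pi.add_apply, Pi.smul_apply, smul_eq_mul, feat, ← Finset.sum_add_distrib]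
      exact Finset.sum_congr rfl fun i _ => by ring) 0
  simp only [th_lz_spin, Pi.zero_apply, zero_mul, Finset.sum_const_zero] at h
  refine h.symm.trans ?_
  rw [tha_rc_max hm _ _ _ (by omega), rc_pi _ a fun l => le_max_right _ _, parisi_eq_rc m,
    tha_rc_max hm _ _ _ (by omega), ← parisi_eq_rc]
  simp

lemma th_end {ι : Type} [Fintype ι] [DecidableEq ι] (hm : MOk r m) {a : ℕ → ℝ} {Λ : ℝ}
    (ha : ∀ l, a l ∈ Set.Icc 0 Λ) (t0 : ℝ) (T : (ι → Bool) → (ι → Bool) → ℝ) (U : Og ι) :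
    |Fm r b m (Pr0 a) (fun σ => hY (fun _ => t0) (yv U σ)) T
        (fun σ σ' => ∑ i, yv U σ i * yv U σ' i) - (Z0 r b m +
        Fintype.card ι * (Real.log 2 + t0 / 2 + parisi m a 0 (r + 1) 0))| ≤
      err b 1 r * KK (2 ^ Fintype.card ι) (Λ * Fintype.card ι) 0 / m 1 := by
  set A : ℕ → (ι → Bool) → ι → ℝ := fun l σ i => √(a l) * spin (σ i) with hA
  have hg : ∀ l σ σ', gram (A l) σ σ' = a l * ∑ i, spin (σ i) * spin (σ' i) := fun l σ σ' => by
    rw [gram, Finset.mul_sum]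
    refine Finset.sum_congr rfl fun i _ => ?_
    rw [hA, mul_mul_mul_comm, Real.mul_self_sqrt (ha l).1]
  have hC : Cm r b (Pr0 a) T (fun σ σ' => ∑ i, yv U σ i * yv U σ' i) = thaC r b A := by
    funext c c'
    simp [Cm, thaC, hg, Cl, Pr0, yv_dot]
  have hV : ∀ l ≤ r, ∀ σ, gram (A l) σ σ ≤ Λ * Fintype.card ι := fun l _ σ => by
    rw [hg]
    simp only [← sq, spin_sq, Finset.sum_const, Finset.card_univ, nsmul_eq_mul, mul_one]
    exact mul_le_mul_of_nonneg_right (ha l).2 (Nat.cast_nonneg _)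
  obtain ⟨i0, k0⟩ := tha_free (b := b) hm (fun _ => -(Fintype.card ι * Real.log 2)) A hV
    (Measure.dirac ()) (step := fun _ _ _ => ()) (fun _ => measurable_const) (W := fun _ => 0)
    measurable_const (B := 0) (fun _ => by simp) ()
  rw [th_rc_zero, th_rc_spin hm a, add_zero] at k0
  have e1 : ∀ (u : Nd b 1 r → ℝ) (y : Cfg r b (ι → Bool) → ℝ),
      lz (Hm r b m (Pr0 a) (fun σ => hY (fun _ => t0) (yv U σ)) T u + y) =
      (lz fun c : Cfg r b (ι → Bool) => -(Fintype.card ι * Real.log 2) + lw m 1 r u c.2 + y c + 0) +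
        Fintype.card ι * (Real.log 2 + t0 / 2) := by
    intro u y
    rw [← lz_add_const]
    congr 1
    funext c
    simp only [Pi.add_apply, Hm, Pr0, hY, ← Finset.mul_sum, yv_sq]
    ring
  have e2 : ∀ u : Nd b 1 r → ℝ, Phi (Hm r b m (Pr0 a) (fun σ => hY (fun _ => t0) (yv U σ)) T u)
      (thaC r b A) = ∫ p : (Cfg r b (ι → Bool) → ℝ) × (Option (Nd b 1 r) → Unit),
        ((lz fun c : Cfg r b (ι → Bool) =>
          -(Fintype.card ι * Real.log 2) + lw m 1 r u c.2 + p.1 c + 0) +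
          Fintype.card ι * (Real.log 2 + t0 / 2))
        ∂((gK (thaC r b A)).prod (Measure.pi fun _ => Measure.dirac ())) := by
    intro u
    rw [integral_fun_fst fun y : Cfg r b (ι → Bool) → ℝ => (lz fun c : Cfg r b (ι → Bool) =>
      -(Fintype.card ι * Real.log 2) + lw m 1 r u c.2 + y c + 0) +
        Fintype.card ι * (Real.log 2 + t0 / 2), probReal_univ, one_smul, Phi]
    simp only [e1]
  rw [Fm, hC]
  simp only [e2]
  rw [integral_integral_add i0 (integrable_const _)]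
  simp only [integral_const, probReal_univ, one_smul]
  have t0 := th_KK (Fintype.card (ι → Bool)) (Λ * Fintype.card ι) (le_refl 0)
    (err_nonneg (b := b) 1 r) hm.pos
  have hε : 0 ≤ err b 1 r * KK (2 ^ Fintype.card ι) (Λ * Fintype.card ι) 0 / m 1 :=
    div_nonneg (mul_nonneg (err_nonneg 1 r) (by unfold KK; positivity)) hm.pos.le
  rw [show Fintype.card (ι → Bool) = 2 ^ Fintype.card ι by simp] at t0 k0
  rw [abs_le] at k0 ⊢
  constructor <;> linarith [k0.1, k0.2]

theorem end0 {ι : Type} [Fintype ι] [DecidableEq ι] (hm : MOk r m) {a : ℕ → ℝ} {Λ : ℝ}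
    (ha : ∀ l, a l ∈ Set.Icc 0 Λ) (t0 : ℝ) (Top : Finset ι) {N0 : ℕ} (hN : Fintype.card ι ≤ N0) :
    |((YO ι).rm (fun _ => t0) Top N0 hN).F r b m (Pr0 a) - Z0 r b m -
        Fintype.card ι * (Real.log 2 + t0 / 2 + parisi m a 0 (r + 1) 0)| ≤
      err b 1 r * KK (2 ^ Fintype.card ι) (Λ * Fintype.card ι) 0 / m 1 := by
  have hi := ((YO ι).rm (fun _ => t0) Top N0 hN).integrable_Fm (b := b) hm
    (Pr0_ok fun l => (ha l).1)
  have e2 : ∀ c : ℝ, c = ∫ _, c ∂haarO ι := fun c => by simp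
  rw [sub_sub, RM.F, e2 (Z0 r b m + _), ← integral_sub hi (integrable_const _)]
  exact rmb_abs_integral_le fun U => th_end hm ha t0 _ U

end

end Vale.Agent.P166
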