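import Vale.Agent.P166.Arr

/-! P166 Uniq: an ultrametric Ghirlanda-Guerra array with values in the natural numbers is determined by the law of one overlap.
Plan. exists_push: cons by Measure.map_map (offd commutes with injective reindexing), gg with the preimages of A and B (entries 0,last and 0,l.succ are off diagonal).
gga_unique: the arrays form a countable discrete space, Measure.ext_of_singleton; strong induction on n. n = 0, 1: zero diagonal. n = 2: zero diagonal, symmetry, zeta.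
n+2 replicas, A symmetric ultrametric with zero diagonal (otherwise both masses vanish, ae_comp): take a pair of distinct indices with the largest entry q and move it to (0, last) by a
permutation (cons). With A0 the restriction to the first n+1 indices, up to null sets
{X0 = A0, X 0 last = q} is the disjoint union of {X = A} and of the sets {X0 = A0, X l last > q} over l <> 0 with A 0 l = q. The first set has its mass given by gg with B = {q};
the others by gg with B = Ioi q after swapping the replicas 0 and l (cons). So the mass of A is determined by nu (n+1) and zeta. -/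

open MeasureTheory ProbabilityTheory Filter Topology Matrix Finset

namespace Vale.Agent.P166

noncomputable section

/-- symmetric ultrametric arrays with zero diagonal -/
structure GGA.UM (G : GGA ℕ) : Prop where
  diag : ∀ n, ∀ᵐ X ∂G.ν n, ∀ a, X a a = 0
  symm : ∀ᵐ X ∂G.ν 2, X 0 1 = X 1 0
  ultra : ∀ᵐ X ∂G.ν 3, min (X 0 1) (X 1 2) ≤ X 0 2

lemma uniq_offd {V : Type} {κ : V → ℕ} {n n' : ℕ} {e : Fin n → Fin n'} (he : Function.Injective e)
    (X : Fin n' → Fin n' → V) :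
    (fun a a' => offd κ X (e a) (e a')) = offd κ fun a a' => X (e a) (e a') := by
  funext a a'
  simp only [offd, he.eq_iff]

lemma uniq_ne {V : Type} {κ : V → ℕ} {n : ℕ} {a a' : Fin n} (h : a ≠ a') (X : Fin n → Fin n → V) :
    offd κ X a a' = κ (X a a') := if_neg h

lemma GGA.exists_push {V : Type} [MeasurableSpace V] (G : GGA V) {κ : V → ℕ} (hκ : Measurable κ) :
    ∃ G' : GGA ℕ, (∀ n, G'.ν n = (G.ν n).map (offd κ)) ∧ G'.zeta = G.zeta.map κ := by
  have hm := measurable_offd hκ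
  have hr : ∀ (n : ℕ) (T : Set (Fin n → Fin n → ℕ)),
      ((G.ν n).map (offd κ)).real T = (G.ν n).real (offd κ ⁻¹' T) := fun n T =>
    map_measureReal_apply (hm n) .of_discrete
  refine ⟨⟨fun n => (G.ν n).map (offd κ),
    fun n => Measure.isProbabilityMeasure_map (hm n).aemeasurable, fun n n' e he => ?_,
    fun n A B _ _ => ?_⟩, fun _ => rfl, ?_⟩
  · rw [Measure.map_map .of_discrete (hm n'), ← G.cons n n' e he,
      Measure.map_map (hm n) (by fun_prop)]
    congr 1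
    funext X
    exact uniq_offd he X
  · have h := G.gg n (offd κ ⁻¹' A) (κ ⁻¹' B) (hm _ .of_discrete) (hκ .of_discrete)
    simp only [hr, Set.preimage_ofPred_eq, uniq_offd (Fin.castSucc_injective _),
      uniq_ne (Fin.last_pos' (n := n + 1)).ne, uniq_ne (Fin.succ_ne_zero _).symm,
      uniq_ne (Fin.zero_ne_one (n := 0))]
    exact h
  · rw [GGA.zeta, GGA.zeta, Measure.map_map .of_discrete (hm 2), Measure.map_map hκ (by fun_prop)]
    rfl

/-- symmetric ultrametric with zero diagonal -/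
def UniqU {n : ℕ} (X : Fin n → Fin n → ℕ) : Prop :=
  (∀ a, X a a = 0) ∧ (∀ a b, X a b = X b a) ∧
    ∀ a b c, a ≠ b → b ≠ c → a ≠ c → min (X a b) (X b c) ≤ X a c

lemma uniq_inj2 {n : ℕ} {a b : Fin n} (h : a ≠ b) : Function.Injective ![a, b] := by
  intro i j
  fin_cases i <;> fin_cases j <;> simp [h, h.symm]

lemma uniq_inj3 {n : ℕ} {a b c : Fin n} (h1 : a ≠ b) (h2 : b ≠ c) (h3 : a ≠ c) :
    Function.Injective ![a, b, c] := by
  intro i j
  fin_cases i <;> fin_cases j <;> simp [h1, h1.symm, h2, h2.symm, h3, h3.symm]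

lemma uniq_ae {G : GGA ℕ} (h : G.UM) (n : ℕ) : ∀ᵐ X ∂G.ν n, UniqU X := by
  refine (h.diag n).and ((ae_all_iff.2 fun a => ae_all_iff.2 fun b => ?_).and
    (ae_all_iff.2 fun a => ae_all_iff.2 fun b => ae_all_iff.2 fun c => ?_))
  · rcases eq_or_ne a b with rfl | hab
    · exact Eventually.of_forall fun _ => rfl
    · exact G.ae_comp _ (uniq_inj2 hab) h.symm
  · by_cases k : a ≠ b ∧ b ≠ c ∧ a ≠ c
    · exact (G.ae_comp _ (uniq_inj3 k.1 k.2.1 k.2.2) h.ultra).mono fun X hX _ _ _ => hX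
    · exact Eventually.of_forall fun _ h1 h2 h3 => (k ⟨h1, h2, h3⟩).elim

lemma uniq_small {G : GGA ℕ} (h : G.UM) {n : ℕ} (hn : n ≤ 1) : G.ν n = Measure.dirac 0 := by
  have : Subsingleton (Fin n) := Fin.subsingleton_iff_le_one.2 hn
  have e : (id : (Fin n → Fin n → ℕ) → _) =ᵐ[G.ν n] fun _ => 0 :=
    (h.diag n).mono fun X hX => funext₂ fun a b => by rw [Subsingleton.elim b a]; exact hX a
  rw [← Measure.map_id (μ := G.ν n), Measure.map_congr e, Measure.map_const, measure_univ, one_smul]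

lemma uniq_perm (G : GGA ℕ) {n : ℕ} (τ : Equiv.Perm (Fin n)) (T : Set (Fin n → Fin n → ℕ)) :
    G.ν n ((fun X a a' => X (τ a) (τ a')) ⁻¹' T) = G.ν n T := by
  rw [← Measure.map_apply .of_discrete .of_discrete, G.cons n n τ τ.injective]

lemma uniq_key0 {G G' : GGA ℕ} (hz : G.zeta = G'.zeta) {n : ℕ} (ih : G.ν (n + 1) = G'.ν (n + 1))
    (A : Set (Fin (n + 1) → Fin (n + 1) → ℕ)) (B : Set ℕ) :
    G.ν (n + 2) {X | (fun a a' => X (Fin.castSucc a) (Fin.castSucc a')) ∈ A ∧ X 0 (Fin.last _) ∈ B} =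
    G'.ν (n + 2) {X | (fun a a' => X (Fin.castSucc a) (Fin.castSucc a')) ∈ A ∧
      X 0 (Fin.last _) ∈ B} := by
  have h1 := G.gg n A B .of_discrete .of_discrete
  have h2 := G'.gg n A B .of_discrete .of_discrete
  have e : ∀ G : GGA ℕ, (G.ν 2).real {X | X 0 1 ∈ B} = G.zeta.real B := fun G =>
    (map_measureReal_apply (f := fun X : Fin 2 → Fin 2 → ℕ => X 0 1) .of_discrete .of_discrete).symm
  rw [e, ih, hz, ← e, ← h2] at h1
  exact (ENNReal.toReal_eq_toReal_iff' (measure_ne_top _ _) (measure_ne_top _ _)).1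
    (mul_left_cancel₀ (by positivity) h1)

lemma uniq_key1 {G G' : GGA ℕ} (hz : G.zeta = G'.zeta) {n : ℕ} (ih : G.ν (n + 1) = G'.ν (n + 1))
    (A : Fin (n + 1) → Fin (n + 1) → ℕ) (B : Set ℕ) (l : Fin (n + 1)) :
    G.ν (n + 2) {X | (fun a a' => X (Fin.castSucc a) (Fin.castSucc a')) = A ∧
      X l.castSucc (Fin.last _) ∈ B} =
    G'.ν (n + 2) {X | (fun a a' => X (Fin.castSucc a) (Fin.castSucc a')) = A ∧
      X l.castSucc (Fin.last _) ∈ B} := by
  have h1 : ∀ a, Equiv.swap 0 l.castSucc (Fin.castSucc a) = (Equiv.swap 0 l a).castSucc := fun a =>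
    (Fin.castSucc_injective _).swap_apply 0 l a
  have h2 : Equiv.swap 0 l.castSucc (Fin.last (n + 1)) = Fin.last _ :=
    Equiv.swap_apply_of_ne_of_ne Fin.last_pos'.ne' (Fin.castSucc_lt_last l).ne'
  have e : {X : Fin (n + 2) → Fin (n + 2) → ℕ |
      (fun a a' => X (Fin.castSucc a) (Fin.castSucc a')) = A ∧ X l.castSucc (Fin.last _) ∈ B} =
      (fun X a a' => X (Equiv.swap 0 l.castSucc a) (Equiv.swap 0 l.castSucc a')) ⁻¹'
        {X | (fun a a' => X (Fin.castSucc a) (Fin.castSucc a')) ∈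
          {Y | (fun a a' => Y (Equiv.swap 0 l a) (Equiv.swap 0 l a')) = A} ∧ X 0 (Fin.last _) ∈ B} := by
    ext X
    simp only [Set.mem_preimage, Set.mem_ofPred_eq, h1, h2, Equiv.swap_apply_self,
      Equiv.swap_apply_left]
  rw [e, uniq_perm, uniq_perm, uniq_key0 hz ih]

lemma uniq_split {n : ℕ} {A X : Fin (n + 2) → Fin (n + 2) → ℕ} (hA : UniqU A)
    (hq : ∀ c d, c ≠ d → A c d ≤ A 0 (Fin.last _)) (hX : UniqU X)
    (hr : ∀ a a' : Fin (n + 1), X a.castSucc a'.castSucc = A a.castSucc a'.castSucc) :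
    X 0 (Fin.last _) = A 0 (Fin.last _) ↔ X = A ∨ ∃ l : Fin (n + 1),
      (l ≠ 0 ∧ A 0 l.castSucc = A 0 (Fin.last _)) ∧ A 0 (Fin.last _) < X l.castSucc (Fin.last _) := by
  have n0 : (0 : Fin (n + 2)) ≠ Fin.last _ := Fin.last_pos'.ne
  have key : ∀ l : Fin (n + 1), l ≠ 0 → ∀ Y : Fin (n + 2) → Fin (n + 2) → ℕ, UniqU Y →
      min (Y 0 l.castSucc) (Y 0 (Fin.last _)) ≤ Y l.castSucc (Fin.last _) ∧
      min (Y 0 (Fin.last _)) (Y l.castSucc (Fin.last _)) ≤ Y 0 l.castSucc ∧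
      min (Y 0 l.castSucc) (Y l.castSucc (Fin.last _)) ≤ Y 0 (Fin.last _) := fun l hl Y hY => by
    have n1 : (0 : Fin (n + 2)) ≠ l.castSucc := fun h => hl (Fin.castSucc_injective _ h.symm)
    have n2 := (Fin.castSucc_lt_last l).ne
    refine ⟨?_, ?_, hY.2.2 _ _ _ n1 n2 n0⟩
    · rw [hY.2.1 0 l.castSucc]; exact hY.2.2 _ _ _ n1.symm n0 n2
    · rw [hY.2.1 l.castSucc (Fin.last _)]; exact hY.2.2 _ _ _ n0 n2.symm n1
  constructor
  · intro h0
    by_contra hc
    push Not at hc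
    have h1 : ∀ l : Fin (n + 1), X l.castSucc (Fin.last _) = A l.castSucc (Fin.last _) := by
      intro l
      rcases eq_or_ne l 0 with rfl | hl
      · exact h0
      have k1 := key l hl X hX
      have k2 := key l hl A hA
      have k3 := hc.2 l
      have k4 := hq _ _ (Fin.castSucc_lt_last l).ne
      have k5 := hq 0 l.castSucc fun h => hl (Fin.castSucc_injective _ h.symm)
      have k6 : X 0 l.castSucc = A 0 l.castSucc := hr 0 l
      simp only [hl, ne_eq, not_false_eq_true, true_and] at k3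
      omega
    refine hc.1 (funext₂ fun a b => ?_)
    induction a using Fin.lastCases <;> induction b using Fin.lastCases
    · rw [hX.1, hA.1]
    · rw [hX.2.1, hA.2.1, h1]
    · exact h1 _
    · exact hr _ _
  · rintro (rfl | ⟨l, ⟨hl, h1⟩, h2⟩)
    · rfl
    · have k1 := key l hl X hX
      have k6 : X 0 l.castSucc = A 0 l.castSucc := hr 0 l
      omega

lemma uniq_mass {G : GGA ℕ} (h : G.UM) {n : ℕ} {A : Fin (n + 2) → Fin (n + 2) → ℕ} (hA : UniqU A)
    (hq : ∀ c d, c ≠ d → A c d ≤ A 0 (Fin.last _)) :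
    G.ν (n + 2) {X | (fun a a' => X (Fin.castSucc a) (Fin.castSucc a')) =
        (fun a a' => A (Fin.castSucc a) (Fin.castSucc a')) ∧
        X (0 : Fin (n + 1)).castSucc (Fin.last _) ∈ ({A 0 (Fin.last _)} : Set ℕ)} =
      G.ν (n + 2) {A} + ∑ l ∈ univ.filter fun l : Fin (n + 1) =>
        l ≠ 0 ∧ A 0 l.castSucc = A 0 (Fin.last _),
      G.ν (n + 2) {X | (fun a a' => X (Fin.castSucc a) (Fin.castSucc a')) =
        (fun a a' => A (Fin.castSucc a) (Fin.castSucc a')) ∧
        X l.castSucc (Fin.last _) ∈ Set.Ioi (A 0 (Fin.last _))} := by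
  rw [← measure_biUnion_finset₀ ?_ fun _ _ => MeasurableSet.of_discrete.nullMeasurableSet,
    ← measure_union ?_ .of_discrete]
  · refine measure_congr ((uniq_ae h _).mono fun X hX => propext ?_)
    change _ ∧ _ ↔ X = A ∨ X ∈ ⋃ l ∈ _, _
    simp only [Set.mem_iUnion, mem_filter, mem_univ, true_and, Set.mem_ofPred_eq, exists_prop]
    constructor
    · rintro ⟨h1, h2⟩
      exact ((uniq_split hA hq hX (congrFun₂ h1)).1 h2).imp_right fun ⟨l, k1, k2⟩ => ⟨l, k1, h1, k2⟩
    · rintro (rfl | ⟨l, k1, h1, k2⟩)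
      · exact ⟨rfl, rfl⟩
      · exact ⟨h1, (uniq_split hA hq hX (congrFun₂ h1)).2 (Or.inr ⟨l, k1, k2⟩)⟩
  · rw [Set.disjoint_singleton_left, Set.mem_iUnion₂]
    rintro ⟨l, -, -, h2⟩
    exact (hq _ _ (Fin.castSucc_lt_last l).ne).not_gt h2
  · intro l _ l' _ hne
    refine measure_mono_null (t := {X | ¬UniqU X}) ?_ (ae_iff.1 (uniq_ae h (n + 2)))
    rintro X ⟨⟨h1, h2⟩, -, h3⟩ hX
    have n1 := (Fin.castSucc_injective _).ne hne
    have k1 := hX.2.2 _ _ _ (Fin.castSucc_lt_last l).ne (Fin.castSucc_lt_last l').ne' n1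
    have k2 : X l.castSucc l'.castSucc = A l.castSucc l'.castSucc := congrFun₂ h1 l l'
    have k3 := hq _ _ n1
    rw [hX.2.1 (Fin.last _)] at k1
    rw [Set.mem_Ioi] at h2 h3
    omega

lemma uniq_step {G G' : GGA ℕ} (h : G.UM) (h' : G'.UM) (hz : G.zeta = G'.zeta) {n : ℕ}
    (ih : G.ν (n + 1) = G'.ν (n + 1)) {A : Fin (n + 2) → Fin (n + 2) → ℕ} (hA : UniqU A)
    (hq : ∀ c d, c ≠ d → A c d ≤ A 0 (Fin.last _)) : G.ν (n + 2) {A} = G'.ν (n + 2) {A} := by
  have e := uniq_mass h hA hq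
  simp only [uniq_key1 hz ih] at e
  rw [uniq_mass h' hA hq] at e
  exact ((ENNReal.add_left_inj (ENNReal.sum_ne_top.2 fun _ _ => measure_ne_top _ _)).1 e).symm

theorem gga_unique (G G' : GGA ℕ) (h : G.UM) (h' : G'.UM) (hz : G.zeta = G'.zeta) (n : ℕ) :
    G.ν n = G'.ν n := by
  induction n using Nat.twoStepInduction with
  | zero => rw [uniq_small h zero_le_one, uniq_small h' zero_le_one]
  | one => rw [uniq_small h le_rfl, uniq_small h' le_rfl]
  | more n _ ih =>
    refine Measure.ext_of_singleton fun A => ?_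
    by_cases hA : UniqU A
    · obtain ⟨⟨a, b⟩, hab, hmax⟩ := (univ.filter fun p : Fin (n + 2) × Fin (n + 2) =>
        p.1 ≠ p.2).exists_max_image (fun p => A p.1 p.2) ⟨(0, 1), by simp⟩
      have hab' : a ≠ b := (mem_filter.1 hab).2
      obtain ⟨τ, hτ⟩ := Equiv.Perm.exists_extending_pair _ _
        (uniq_inj2 (Fin.last_pos' (n := n + 1)).ne) (uniq_inj2 hab')
      have e : ({A} : Set _) = (fun X a a' => X (τ a) (τ a')) ⁻¹' {fun a a' => A (τ a) (τ a')} := by
        ext X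
        refine ⟨fun h => by rw [h]; rfl, fun h => funext₂ fun c c' => ?_⟩
        simpa using congrFun₂ h (τ.symm c) (τ.symm c')
      rw [e, uniq_perm, uniq_perm]
      refine uniq_step h h' hz ih ⟨fun _ => hA.1 _, fun _ _ => hA.2.1 _ _, fun c d f h1 h2 h3 =>
        hA.2.2 _ _ _ (τ.injective.ne h1) (τ.injective.ne h2) (τ.injective.ne h3)⟩ fun c d hcd => ?_
      rw [show τ 0 = a from hτ 0, show τ (Fin.last _) = b from hτ 1]
      exact hmax (τ c, τ d) (mem_filter.2 ⟨mem_univ _, τ.injective.ne hcd⟩)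
    · have k : ∀ G : GGA ℕ, G.UM → G.ν (n + 2) {A} = 0 := fun G h =>
        measure_mono_null (fun X hX hU => hA (hX ▸ hU)) (uniq_ae h (n + 2))
      rw [k G h, k G' h']

theorem law_eq {V V' : Type} [MeasurableSpace V] [MeasurableSpace V'] (G : GGA V) (G' : GGA V')
    {κ : V → ℕ} {κ' : V' → ℕ} (hκ : Measurable κ) (hκ' : Measurable κ')
    (hs : ∀ᵐ X ∂G.ν 2, κ (X 0 1) = κ (X 1 0)) (hs' : ∀ᵐ X ∂G'.ν 2, κ' (X 0 1) = κ' (X 1 0))
    (hu : ∀ᵐ X ∂G.ν 3, min (κ (X 0 1)) (κ (X 1 2)) ≤ κ (X 0 2))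
    (hu' : ∀ᵐ X ∂G'.ν 3, min (κ' (X 0 1)) (κ' (X 1 2)) ≤ κ' (X 0 2))
    (hz : G.zeta.map κ = G'.zeta.map κ') (n : ℕ) :
    (G.ν n).map (offd κ) = (G'.ν n).map (offd κ') := by
  have key : ∀ {V : Type} [MeasurableSpace V] (G : GGA V) {κ : V → ℕ}, Measurable κ →
      (∀ᵐ X ∂G.ν 2, κ (X 0 1) = κ (X 1 0)) →
      (∀ᵐ X ∂G.ν 3, min (κ (X 0 1)) (κ (X 1 2)) ≤ κ (X 0 2)) → ∀ H : GGA ℕ,
      (∀ n, H.ν n = (G.ν n).map (offd κ)) → H.UM := fun G κ hκ hs hu H hH => by
    refine ⟨fun n => ?_, ?_, ?_⟩ <;>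
      rw [hH, ae_map_iff (measurable_offd hκ _).aemeasurable .of_discrete]
    exacts [Eventually.of_forall fun _ _ => if_pos rfl, hs, hu]
  obtain ⟨H, h1, h2⟩ := G.exists_push hκ
  obtain ⟨H', h1', h2'⟩ := G'.exists_push hκ'
  rw [← h1, ← h1']
  exact gga_unique H H' (key G hκ hs hu H h1) (key G' hκ' hs' hu' H' h1') (by rw [h2, h2', hz]) n

end

end Vale.Agent.P166
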