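import Vale.Agent.P166.GGlim
import Vale.Agent.P166.Cont
import Vale.Agent.P166.Th
import Vale.Agent.P166.Uniq

/-! P166 Cas: good cascades exist and their level arrays have the law of the discretised limit array.
Plan. exists_goodCas: s i = i+1, M i = i, a = 0, b i from exists_err_le, (x0,x) from RM.exists_max; flat_of_isMax, dev_le (the last term vanishes, Omega is a point), gg_lim with D = 0, v i = 2 sqrt((R+1) 6 s^2) + cdev.
cas_law: MOk (pi.r+1) pi.m; lev_lim and Conv.tendsto_zeta give zeta {j <= level} = 1 - m j for j <= pi.r+1 (a l * 0 = 0); so the law of the level is the law of lab (both are determined by the masses of {< j});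
symmetry and ultrametricity of the level pass to the limit (Conv.ae_mem, lev_comm, lev_ultra, Rm_snd); law_eq; the function Phi (offd level A) is continuous (locally constant); integral_map. -/

open MeasureTheory ProbabilityTheory Filter Topology Matrix Finset

namespace Vale.Agent.P166

noncomputable section

lemma Path.mok (π : Path) : MOk (π.r + 1) π.m := by
  exact ⟨π.m_zero, π.m_pos, fun j _ => π.m_mono j, π.m_top _ (by omega)⟩
lemma Path.mok' (π : Path) : MOk π.r π.m := by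
  exact ⟨π.m_zero, π.m_pos, fun j _ => π.m_mono j, π.m_top _ (by omega)⟩
lemma Path.m_nonneg (π : Path) (l : ℕ) : 0 ≤ π.m l := by
  rw [← π.m_zero]
  exact monotone_nat_of_le_succ π.m_mono (Nat.zero_le l)
lemma Path.m_le_one (π : Path) (l : ℕ) : π.m l ≤ 1 := by
  rw [← π.m_top (max l (π.r + 1)) (by omega)]
  exact monotone_nat_of_le_succ π.m_mono (le_max_left _ _)
lemma Path.dt_nonneg (π : Path) {l : ℕ} (hl : l ≤ π.r + 1) : 0 ≤ π.dt l := by
  cases l with
  | zero => exact π.t_nonneg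
  | succ l => exact sub_nonneg.2 (π.t_mono l (by omega))
lemma Path.sum_dt (π : Path) (j : ℕ) : ∑ l ∈ range (j + 1), π.dt l = π.t j := by
  induction j with
  | zero => simp [Path.dt]
  | succ j ih => rw [Finset.sum_range_succ, ih]; simp [Path.dt]

lemma cas_dev {R : ℕ} {m : ℕ → ℝ} (hm : MOk R m) (b : ℕ → ℕ) {P : Pr} (hP : P.Ok)
    (hs : 0 ≤ P.s) : RM0.dev R b m P ≤ 2 * √(6 * (R + 1)) * P.s + cdev (m 1) := by
  have h := RM0.dev_le (r := R) (b := b) hm hP
  have e1 : ∑ l ∈ range (R + 1), (P.a l * RM0.BQ + 6 * P.s ^ 2) = 6 * (R + 1) * P.s ^ 2 := by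
    have : ∀ l, P.a l * RM0.BQ + 6 * P.s ^ 2 = 6 * P.s ^ 2 := fun l => by
      show P.a l * 0 + _ = _
      ring
    simp only [this, Finset.sum_const, Finset.card_range, nsmul_eq_mul]
    push_cast; ring
  have e2 : ∫ ω, |Fm R b m P (RM0.h ω) (RM0.T ω) (RM0.Q ω) - RM0.F R b m P| ∂(RM0.P) = 0 := by
    have e3 : RM0.F R b m P = Fm R b m P (RM0.h ()) (RM0.T ()) (RM0.Q ()) := by
      unfold RM.F
      exact integral_dirac _ ()
    rw [e3]
    exact (integral_dirac _ ()).trans (by simp)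
  rw [e1, e2, Real.sqrt_mul (by positivity), Real.sqrt_sq hs] at h
  linarith

theorem exists_goodCas {R : ℕ} {m : ℕ → ℝ} (hm : MOk R m) :
    ∃ (b : ℕ → ℕ → ℕ) (P : ℕ → Pr), GoodCas R m b P := by
  have hK : ∀ i : ℕ, 0 < KK 1 (6 * ((i : ℝ) + 1) ^ 2) 0 := fun i => by
    unfold KK; positivity
  choose b hb using fun i : ℕ => exists_err_le 1 R
    (ε := (1 / ((i : ℝ) + 1)) / KK 1 (6 * ((i : ℝ) + 1) ^ 2) 0) (div_pos (by positivity) (hK i))
  let P0 : ℕ → Pr := fun i => ⟨fun _ => 0, (i : ℝ) + 1, i, 1, fun _ => 1⟩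
  have h0 : ∀ i, (P0 i).Ok := fun i =>
    ⟨fun _ => le_rfl, ⟨⟨le_rfl, one_le_two⟩, fun _ => ⟨le_rfl, one_le_two⟩⟩⟩
  choose x0 x hx hmax using fun i => RM0.exists_max (b := b i) hm (h0 i)
  have hP : ∀ i, ((P0 i).wx (x0 i) (x i)).Ok := fun i => (h0 i).wx (hx i)
  have hs : ∀ i, 0 < ((P0 i).wx (x0 i) (x i)).s := fun i => by
    show 0 < (i : ℝ) + 1
    positivity
  have hlim : Tendsto (fun i : ℕ => (0 + (2 * √(6 * (R + 1)) * ((i : ℝ) + 1) + cdev (m 1)) + 1) /
      ((i : ℝ) + 1) ^ 2) (hyperfilter ℕ) (𝓝 0) := by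
    refine Tendsto.mono_left ?_ Nat.hyperfilter_le_atTop
    have hc := cdev_nonneg (m 1)
    have h1 := tendsto_one_div_add_atTop_nhds_zero_nat (𝕜 := ℝ) |>.const_mul
      (2 * √(6 * (R + 1)) + cdev (m 1) + 1)
    rw [mul_zero] at h1
    refine squeeze_zero (fun i => by positivity) (fun i => ?_) h1
    have hi : (0 : ℝ) ≤ i := Nat.cast_nonneg i
    rw [mul_one_div, div_le_div_iff₀ (by positivity) (by positivity)]
    have : 0 ≤ (cdev (m 1) + 1) * (i * (i + 1)) := by positivity
    nlinarith [this]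
  refine ⟨b, fun i => (P0 i).wx (x0 i) (x i), hP, ?_, ?_⟩
  · refine squeeze_zero (fun i => mul_nonneg (err_nonneg _ _) (hK i).le) (fun i => ?_)
      tendsto_one_div_add_atTop_nhds_zero_nat
    exact (le_div_iff₀ (hK i)).1 (hb i)
  · obtain ⟨G, d, hG, -⟩ := gg_lim (fun _ => RM0) hm b (fun i => (P0 i).wx (x0 i) (x i)) hP hs
      (fun _ => 0) (fun i => 2 * √(6 * (R + 1)) * ((i : ℝ) + 1) + cdev (m 1))
      (fun i => RM0.flat_of_isMax hm (hP i) (hs i) (hmax i))
      (fun i y0 y hy => cas_dev hm (b i) ((hP i).wx hy) (hs i).le)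
      (tendsto_id.mono_left Nat.hyperfilter_le_atTop) hlim
    exact ⟨G, hG⟩

lemma cas_zeta_prob {V : Type} [MeasurableSpace V] (G : GGA V) : IsProbabilityMeasure G.zeta := by
  unfold GGA.zeta
  exact Measure.isProbabilityMeasure_map
    ((measurable_pi_apply 1).comp (measurable_pi_apply 0)).aemeasurable

lemma cas_level {π : Path} {b : ℕ → ℕ → ℕ} {P : ℕ → Pr} (hc : GoodCas (π.r + 1) π.m b P)
    {G : GGA (VV (π.r + 1))} (hG : Conv (fun i => RM0.sys (π.r + 1) (b i) π.m (P i)) G) (j : ℕ) :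
    G.zeta.real {v | j ≤ (v.2 : ℕ)} = 1 - π.m j := by
  by_cases hj : j ≤ π.r + 1
  · have h1 := hG.tendsto_zeta (continuous_indL j)
    have h2 := lev_lim (fun _ => RM0) π.mok b P hc.ok (fun i => 6 * (P i).s ^ 2)
      (fun i l _ => by
        show (P i).a l * 0 + _ ≤ _
        simp) (L := hyperfilter ℕ) (hc.small.mono_left Nat.hyperfilter_le_atTop) hj
    have e : ∀ i, (RM0.sys (π.r + 1) (b i) π.m (P i)).E 2 (fun ω σ =>
        indL j ((RM0.sys (π.r + 1) (b i) π.m (P i)).R ω (σ 0) (σ 1))) =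
        RM0.A (π.r + 1) (b i) π.m (P i) 2
          fun _ c => if j ≤ lev 1 (π.r + 1) (c 0).2 (c 1).2 then 1 else 0 := fun i => by
      refine Eq.trans ?_ (RM0.sys_E 2 (fun _ => measurable_const) (B := 1)
        (fun _ c => by split_ifs <;> simp))
      congr 1
      funext z σ
      unfold indL
      rw [Rm_snd]
    simp only [e] at h1
    rw [← tendsto_nhds_unique h1 h2, ← integral_indicator_one
      (measurableSet_le measurable_const continuous_lvl.measurable)]
    congr 1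
    funext v
    simp [indL, Set.indicator_apply]
  · have : {v : VV (π.r + 1) | j ≤ (v.2 : ℕ)} = ∅ := by
      ext v
      have := v.2.2
      simp only [Set.mem_ofPred_eq, Set.mem_empty_iff_false, iff_false]
      omega
    rw [this, π.m_top j (by omega)]
    simp

theorem cas_law {r : ℕ} {G : GGA (VV r)} {ϱ d : ℝ} {n : ℕ} {π : Path} {lab : VV r → ℕ}
    (hD : Disc G ϱ d n π lab) {b : ℕ → ℕ → ℕ} {P : ℕ → Pr} (hc : GoodCas (π.r + 1) π.m b P)
    (k : ℕ) (Φ : (Fin k → Fin k → ℕ) → ℝ) :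
    Tendsto (fun i => (RM0.sys (π.r + 1) (b i) π.m (P i)).E k fun ω σ =>
        Φ (offd (fun v => (v.2 : ℕ)) ((RM0.sys (π.r + 1) (b i) π.m (P i)).arr ω σ)))
      (hyperfilter ℕ) (𝓝 (∫ A, Φ (offd lab A) ∂G.ν k)) := by
  obtain ⟨G', hG⟩ := hc.lim
  have hκ : Measurable fun v : VV (π.r + 1) => (v.2 : ℕ) := continuous_lvl.measurable
  have hent : ∀ {q : ℕ} (a a' : Fin q),
      Continuous fun X : Fin q → Fin q → VV (π.r + 1) => ((X a a').2 : ℕ) := fun a a' =>
    continuous_lvl.comp ((continuous_apply a').comp (continuous_apply a))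
  have hcont : Continuous fun A : Fin k → Fin k → VV (π.r + 1) =>
      Φ (offd (fun v => (v.2 : ℕ)) A) := by
    refine continuous_of_discreteTopology.comp
      (continuous_pi fun a => continuous_pi fun a' => ?_)
    unfold offd
    split_ifs
    · exact continuous_const
    · exact hent a a'
  have hs : ∀ᵐ X ∂G'.ν 2, ((X 0 1).2 : ℕ) = (X 1 0).2 :=
    hG.ae_mem (isClosed_eq (hent 0 1) (hent 1 0)) (Eventually.of_forall fun i ω σ => by
      show ((Rm _ _ _ _ _).2 : ℕ) = (Rm _ _ _ _ _).2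
      rw [Rm_snd, Rm_snd, lev_comm])
  have hu : ∀ᵐ X ∂G'.ν 3, min ((X 0 1).2 : ℕ) (X 1 2).2 ≤ (X 0 2).2 :=
    hG.ae_mem (isClosed_le ((hent 0 1).min (hent 1 2)) (hent 0 2))
      (Eventually.of_forall fun i ω σ => by
        show min ((Rm _ _ _ _ _).2 : ℕ) (Rm _ _ _ _ _).2 ≤ (Rm _ _ _ _ _).2
        rw [Rm_snd, Rm_snd, Rm_snd]
        exact lev_ultra _ _ _ _ _)
  have p1 := cas_zeta_prob G
  have p2 := cas_zeta_prob G'
  have hz : G'.zeta.map (fun v => (v.2 : ℕ)) = G.zeta.map lab := by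
    refine Measure.ext_of_Ici _ _ fun j => ?_
    rw [Measure.map_apply hκ measurableSet_Ici, Measure.map_apply hD.meas measurableSet_Ici,
      ← ENNReal.toReal_eq_toReal_iff' (measure_ne_top _ _) (measure_ne_top _ _)]
    have h1 := cas_level hc hG j
    have h2 := probReal_compl_eq_one_sub (μ := G.zeta) (s := {v | lab v < j})
      (measurableSet_lt hD.meas measurable_const)
    rw [← hD.mass j, ← h1] at h2
    have h3 : {v | lab v < j}ᶜ = lab ⁻¹' Set.Ici j := by
      ext v; simp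
    rw [h3] at h2
    exact h2.symm
  have hl := law_eq G' G hκ hD.meas hs hD.symm hu hD.ultra hz k
  have hΦ : Measurable Φ := measurable_of_countable Φ
  have h := hG k _ hcont
  rw [← integral_map (measurable_offd hκ k).aemeasurable hΦ.aestronglyMeasurable, hl,
    integral_map (measurable_offd hD.meas k).aemeasurable hΦ.aestronglyMeasurable] at h
  exact h

end

end Vale.Agent.P166
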