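import Vale.Agent.P166.Defs0

/-! P166 Gibbs: elementary facts on finite Gibbs averages (finite sums only).
Plan: sum_gw from exp_pos; av of a product function is a product (Finset.prod_univ_sum / Fintype.piFinset_univ);
av_comp_inj: sum out the replicas outside the range of e (e.g. write F as a sum of indicator products
F = sum_tau F tau * prod_l 1[sigma (e l) = tau l] and use av_prod with g l = indicator or 1);
av_append: Fin.appendEquiv or the same indicator trick. Jensen: exp x >= 1 + x after centring. -/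

open MeasureTheory ProbabilityTheory Filter Topology Matrix Finset

namespace Vale.Agent.P166

noncomputable section

variable {S : Type} [Fintype S]

lemma spin_sq (ε : Bool) : spin ε ^ 2 = 1 := by
  cases ε <;> simp [spin]
lemma abs_spin (ε : Bool) : |spin ε| = 1 := by
  cases ε <;> simp [spin]

instance : IsProbabilityMeasure unifB := by
  constructor
  simp only [unifB, Measure.smul_apply, Measure.add_apply, measure_univ, smul_eq_mul]
  rw [one_add_one_eq_two]
  exact ENNReal.inv_mul_cancel (by norm_num) (by norm_num)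
lemma integral_unifB (f : Bool → ℝ) : ∫ z, f z ∂unifB = (f true + f false) / 2 := by
  rw [unifB, integral_smul_measure, integral_add_measure (Integrable.of_finite) (Integrable.of_finite),
    integral_dirac, integral_dirac]
  simp only [ENNReal.toReal_inv, ENNReal.toReal_ofNat, smul_eq_mul]
  ring

lemma gibbs_Z_pos [Nonempty S] (H : S → ℝ) : 0 < ∑ s, Real.exp (H s) :=
  sum_pos (fun _ _ => Real.exp_pos _) univ_nonempty

lemma gibbs_sum_prod {n : ℕ} (g : Fin n → S → ℝ) :
    ∑ σ : Fin n → S, ∏ l, g l (σ l) = ∏ l, ∑ s, g l s := by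
  classical
  rw [prod_univ_sum, Fintype.piFinset_univ]

lemma gw_nonneg (H : S → ℝ) (s : S) : 0 ≤ gw H s :=
  div_nonneg (Real.exp_pos _).le (sum_nonneg fun _ _ => (Real.exp_pos _).le)
lemma gw_pos [Nonempty S] (H : S → ℝ) (s : S) : 0 < gw H s :=
  div_pos (Real.exp_pos _) (gibbs_Z_pos H)
lemma sum_gw [Nonempty S] (H : S → ℝ) : ∑ s, gw H s = 1 := by
  simp only [gw]
  rw [← sum_div, div_self (gibbs_Z_pos H).ne']
lemma gw_add_const (H : S → ℝ) (c : ℝ) : gw (fun s => H s + c) = gw H := by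
  funext s
  simp only [gw, Real.exp_add, ← sum_mul]
  exact mul_div_mul_right _ _ (Real.exp_pos c).ne'

lemma av1_const [Nonempty S] (H : S → ℝ) (c : ℝ) : av1 H (fun _ => c) = c := by
  rw [av1, ← sum_mul, sum_gw, one_mul]
lemma av1_add (H f g : S → ℝ) : av1 H (fun s => f s + g s) = av1 H f + av1 H g := by
  simp only [av1, mul_add, sum_add_distrib]
lemma av1_sub (H f g : S → ℝ) : av1 H (fun s => f s - g s) = av1 H f - av1 H g := by
  simp only [av1, mul_sub, sum_sub_distrib]
lemma av1_mul_left (H f : S → ℝ) (c : ℝ) : av1 H (fun s => c * f s) = c * av1 H f := by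
  simp only [av1, mul_sum]
  exact sum_congr rfl fun s _ => by ring
lemma av1_sum {ι : Type} (t : Finset ι) (H : S → ℝ) (f : ι → S → ℝ) :
    av1 H (fun s => ∑ i ∈ t, f i s) = ∑ i ∈ t, av1 H (f i) := by
  simp only [av1, mul_sum]
  exact sum_comm
lemma av1_mono (H : S → ℝ) {f g : S → ℝ} (h : ∀ s, f s ≤ g s) : av1 H f ≤ av1 H g :=
  sum_le_sum fun s _ => mul_le_mul_of_nonneg_left (h s) (gw_nonneg H s)
lemma av1_nonneg (H : S → ℝ) {f : S → ℝ} (h : ∀ s, 0 ≤ f s) : 0 ≤ av1 H f :=
  sum_nonneg fun s _ => mul_nonneg (gw_nonneg H s) (h s)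
lemma av1_pos [Nonempty S] (H : S → ℝ) {f : S → ℝ} (h : ∀ s, 0 < f s) : 0 < av1 H f :=
  sum_pos (fun s _ => mul_pos (gw_pos H s) (h s)) univ_nonempty
lemma abs_av1_le (H f : S → ℝ) : |av1 H f| ≤ av1 H fun s => |f s| := by
  refine (abs_sum_le_sum_abs _ _).trans (le_of_eq (sum_congr rfl fun s _ => ?_))
  rw [abs_mul, abs_of_nonneg (gw_nonneg H s)]
lemma abs_av1_le_const [Nonempty S] (H : S → ℝ) {f : S → ℝ} {B : ℝ} (h : ∀ s, |f s| ≤ B) :
    |av1 H f| ≤ B :=
  (abs_av1_le H f).trans ((av1_mono H h).trans_eq (av1_const H B))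
lemma av1_mul_sq_le (H f g : S → ℝ) :
    (av1 H fun s => f s * g s) ^ 2 ≤ av1 H (fun s => f s ^ 2) * av1 H fun s => g s ^ 2 := by
  have h := sum_mul_sq_le_sq_mul_sq univ (fun s => √(gw H s) * f s) (fun s => √(gw H s) * g s)
  have e : ∀ s, √(gw H s) ^ 2 = gw H s := fun s => Real.sq_sqrt (gw_nonneg H s)
  have e1 : ∀ s, √(gw H s) * f s * (√(gw H s) * g s) = gw H s * (f s * g s) := fun s => by
    rw [show √(gw H s) * f s * (√(gw H s) * g s) = √(gw H s) ^ 2 * (f s * g s) by ring, e]
  simp only [mul_pow, e, e1] at h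
  exact h
lemma av1_sq_le [Nonempty S] (H f : S → ℝ) : av1 H f ^ 2 ≤ av1 H fun s => f s ^ 2 := by
  have h := av1_mul_sq_le H f fun _ => 1
  simp only [mul_one, one_pow, av1_const] at h
  exact h
lemma exp_av1_le [Nonempty S] (H f : S → ℝ) :
    Real.exp (av1 H f) ≤ av1 H fun s => Real.exp (f s) := by
  have h : ∀ s, Real.exp (av1 H f) * (1 + (f s - av1 H f)) ≤ Real.exp (f s) := fun s => by
    have h1 := Real.add_one_le_exp (f s - av1 H f)
    have h2 : Real.exp (f s) = Real.exp (av1 H f) * Real.exp (f s - av1 H f) := by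
      rw [← Real.exp_add]; congr 1; ring
    rw [h2]
    exact mul_le_mul_of_nonneg_left (by linarith) (Real.exp_pos _).le
  refine le_trans (le_of_eq ?_) (av1_mono H h)
  rw [av1_mul_left, av1_add, av1_sub, av1_const, av1_const]
  simp

lemma av_one (H : S → ℝ) (f : S → ℝ) : av 1 H (fun σ => f (σ 0)) = av1 H f := by
  simp only [av, av1, Fin.prod_univ_one]
  exact Fintype.sum_equiv (Equiv.funUnique (Fin 1) S) _ _ fun σ => rfl
lemma av_const [Nonempty S] (n : ℕ) (H : S → ℝ) (c : ℝ) : av n H (fun _ => c) = c := by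
  rw [av, ← sum_mul, gibbs_sum_prod]
  simp [sum_gw]
lemma av_add (n : ℕ) (H : S → ℝ) (F G : (Fin n → S) → ℝ) :
    av n H (fun σ => F σ + G σ) = av n H F + av n H G := by
  simp only [av, mul_add, sum_add_distrib]
lemma av_sub (n : ℕ) (H : S → ℝ) (F G : (Fin n → S) → ℝ) :
    av n H (fun σ => F σ - G σ) = av n H F - av n H G := by
  simp only [av, mul_sub, sum_sub_distrib]
lemma av_mul_left (n : ℕ) (H : S → ℝ) (F : (Fin n → S) → ℝ) (c : ℝ) :
    av n H (fun σ => c * F σ) = c * av n H F := by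
  simp only [av, mul_sum]
  exact sum_congr rfl fun s _ => by ring
lemma av_sum {ι : Type} (t : Finset ι) (n : ℕ) (H : S → ℝ) (F : ι → (Fin n → S) → ℝ) :
    av n H (fun σ => ∑ i ∈ t, F i σ) = ∑ i ∈ t, av n H (F i) := by
  simp only [av, mul_sum]
  exact sum_comm
lemma av_mono (n : ℕ) (H : S → ℝ) {F G : (Fin n → S) → ℝ} (h : ∀ σ, F σ ≤ G σ) :
    av n H F ≤ av n H G :=
  sum_le_sum fun σ _ =>
    mul_le_mul_of_nonneg_left (h σ) (prod_nonneg fun l _ => gw_nonneg H (σ l))
lemma abs_av_le (n : ℕ) (H : S → ℝ) (F : (Fin n → S) → ℝ) :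
    |av n H F| ≤ av n H fun σ => |F σ| := by
  refine (abs_sum_le_sum_abs _ _).trans (le_of_eq (sum_congr rfl fun σ _ => ?_))
  rw [abs_mul, abs_of_nonneg (prod_nonneg fun l _ => gw_nonneg H (σ l))]
lemma abs_av_le_const [Nonempty S] (n : ℕ) (H : S → ℝ) {F : (Fin n → S) → ℝ} {B : ℝ}
    (h : ∀ σ, |F σ| ≤ B) : |av n H F| ≤ B :=
  (abs_av_le n H F).trans ((av_mono n H h).trans_eq (av_const n H B))
lemma av_add_const (n : ℕ) (H : S → ℝ) (c : ℝ) (F : (Fin n → S) → ℝ) :
    av n (fun s => H s + c) F = av n H F := by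
  simp only [av, gw_add_const]
lemma av_prod (n : ℕ) (H : S → ℝ) (g : Fin n → S → ℝ) :
    av n H (fun σ => ∏ l, g l (σ l)) = ∏ l, av1 H (g l) := by
  simp only [av, av1, ← prod_mul_distrib]
  exact gibbs_sum_prod fun l s => gw H s * g l s
lemma av_eval [Nonempty S] (n : ℕ) (H f : S → ℝ) (l : Fin n) :
    av n H (fun σ => f (σ l)) = av1 H f := by
  classical
  have h := av_prod n H fun l' s => if l' = l then f s else 1
  simp only [prod_ite_eq', mem_univ, if_true] at h
  rw [h, prod_eq_single l]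
  · simp
  · intro l' _ hl
    simp [hl, av1_const]
  · simp
lemma av_two_mul (H f g : S → ℝ) :
    av 2 H (fun σ => f (σ 0) * g (σ 1)) = av1 H f * av1 H g := by
  have h := av_prod 2 H ![f, g]
  simpa [Fin.prod_univ_two] using h
lemma gibbs_av_inj [Nonempty S] {n n' : ℕ} (e : Fin n → Fin n') (he : Function.Injective e)
    (H : S → ℝ) (g : Fin n → S → ℝ) :
    av n' H (fun σ => ∏ l, g l (σ (e l))) = ∏ l, av1 H (g l) := by
  classical
  have h := av_prod n' H fun l' s => ∏ l, if e l = l' then g l s else 1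
  have e1 : ∀ σ : Fin n' → S, (∏ l', ∏ l, if e l = l' then g l (σ l') else 1) =
      ∏ l, g l (σ (e l)) := fun σ => by
    rw [Finset.prod_comm]
    simp
  simp only [e1] at h
  rw [h]
  symm
  refine prod_of_injOn e he.injOn (fun _ _ => mem_univ _) (fun l' _ hl => ?_) fun l _ => ?_
  · have : ∀ l, e l ≠ l' := fun l hl' => hl ⟨l, by simp, hl'⟩
    simp [this, av1_const]
  · simp [he.eq_iff]
lemma av_comp_inj [Nonempty S] {n n' : ℕ} (e : Fin n → Fin n') (he : Function.Injective e)
    (H : S → ℝ) (F : (Fin n → S) → ℝ) : av n' H (fun σ => F fun l => σ (e l)) = av n H F := by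
  classical
  have hF : ∀ σ : Fin n → S, F σ = ∑ τ, F τ * ∏ l, if σ l = τ l then (1 : ℝ) else 0 := by
    intro σ
    rw [sum_eq_single σ]
    · simp
    · intro τ _ hτ
      obtain ⟨l, hl⟩ := Function.ne_iff.1 hτ
      rw [prod_eq_zero (mem_univ l) (if_neg (Ne.symm hl)), mul_zero]
    · simp
  have e1 : (fun σ : Fin n' → S => F fun l => σ (e l)) =
      fun σ => ∑ τ, F τ * ∏ l, if σ (e l) = τ l then (1 : ℝ) else 0 := funext fun σ => hF _
  have e2 : F = fun σ => ∑ τ, F τ * ∏ l, if σ l = τ l then (1 : ℝ) else 0 := funext hF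
  rw [e1, av_sum]
  conv_rhs => rw [e2, av_sum]
  refine sum_congr rfl fun τ _ => ?_
  rw [av_mul_left, av_mul_left, av_prod n H fun l s => if s = τ l then (1 : ℝ) else 0]
  congr 1
  exact gibbs_av_inj e he H fun l s => if s = τ l then (1 : ℝ) else 0
lemma av_append (n k : ℕ) (H : S → ℝ) (F : (Fin n → S) → ℝ) (g : S → ℝ) :
    av (n + k) H (fun σ => F (fun l => σ (Fin.castAdd k l)) * ∏ l : Fin k, g (σ (Fin.natAdd n l))) =
      av n H F * av1 H g ^ k := by
  have h := av_prod k H fun _ => g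
  rw [prod_const, card_univ, Fintype.card_fin] at h
  rw [← h]
  simp only [av, sum_mul_sum]
  rw [← Fintype.sum_prod_type']
  symm
  refine Fintype.sum_equiv (Fin.appendEquiv n k) _ _ fun c => ?_
  simp only [Fin.appendEquiv_apply, Fin.prod_univ_add, Fin.append_left, Fin.append_right]
  ring

lemma lz_add [Nonempty S] (H K : S → ℝ) :
    lz (H + K) = lz H + Real.log (av1 H fun s => Real.exp (K s)) := by
  have hZ := gibbs_Z_pos H
  rw [lz, lz, ← Real.log_mul hZ.ne' (av1_pos H fun s => Real.exp_pos _).ne']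
  congr 1
  simp only [av1, gw, mul_sum, Pi.add_apply, Real.exp_add]
  refine sum_congr rfl fun s _ => ?_
  field_simp
lemma lz_jensen [Nonempty S] (H K : S → ℝ) : lz H + av1 H K ≤ lz (H + K) := by
  rw [lz_add]
  have h := Real.log_le_log (Real.exp_pos _) (exp_av1_le H K)
  rw [Real.log_exp] at h
  linarith
lemma lz_mono [Nonempty S] {H H' : S → ℝ} (h : ∀ s, H s ≤ H' s) : lz H ≤ lz H' :=
  Real.log_le_log (gibbs_Z_pos H) (sum_le_sum fun s _ => Real.exp_le_exp.2 (h s))
lemma lz_add_const [Nonempty S] (H : S → ℝ) (c : ℝ) : lz (fun s => H s + c) = lz H + c := by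
  simp only [lz, Real.exp_add, ← sum_mul]
  rw [Real.log_mul (gibbs_Z_pos H).ne' (Real.exp_pos c).ne', Real.log_exp]
lemma abs_lz_sub_le [Nonempty S] {H H' : S → ℝ} {B : ℝ} (h : ∀ s, |H s - H' s| ≤ B) :
    |lz H - lz H'| ≤ B := by
  have h1 : lz H ≤ lz H' + B := by
    rw [← lz_add_const]
    exact lz_mono fun s => by linarith [(abs_le.1 (h s)).2]
  have h2 : lz H' ≤ lz H + B := by
    rw [← lz_add_const]
    exact lz_mono fun s => by linarith [(abs_le.1 (h s)).1]
  rw [abs_le]
  constructor <;> linarith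
lemma abs_lz_le [Nonempty S] (H : S → ℝ) :
    |lz H| ≤ Real.log (Fintype.card S) + ∑ s, |H s| := by
  have h0 : lz (fun _ : S => (0 : ℝ)) = Real.log (Fintype.card S) := by simp [lz]
  have h1 := abs_lz_sub_le (H := H) (H' := fun _ => 0) (B := ∑ s, |H s|) fun s => by
    rw [sub_zero]
    exact single_le_sum (f := fun s => |H s|) (fun _ _ => abs_nonneg _) (mem_univ s)
  have h2 : 0 ≤ Real.log (Fintype.card S) := Real.log_natCast_nonneg _
  rw [h0, abs_le] at h1
  rw [abs_le]
  constructor <;> linarith [h1.1, h1.2]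
lemma lz_convex [Nonempty S] (H K : S → ℝ) :
    ConvexOn ℝ Set.univ fun x : ℝ => lz fun s => H s + x * K s := by
  refine ⟨convex_univ, fun x _ y _ p q hp hq hpq => ?_⟩
  simp only [smul_eq_mul]
  have key : ∀ w : ℝ, lz (fun s => H s + (p * x + q * y) * K s) +
      (w - (p * x + q * y)) * av1 (fun s => H s + (p * x + q * y) * K s) K ≤
        lz fun s => H s + w * K s := by
    intro w
    have h := lz_jensen (fun s => H s + (p * x + q * y) * K s) fun s => (w - (p * x + q * y)) * K s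
    rw [av1_mul_left] at h
    refine h.trans_eq ?_
    congr 1
    funext s
    simp only [Pi.add_apply]
    ring
  have h1 := mul_le_mul_of_nonneg_left (key x) hp
  have h2 := mul_le_mul_of_nonneg_left (key y) hq
  obtain rfl : q = 1 - p := by linarith
  nlinarith
lemma gibbs_gw_tilt [Nonempty S] (H K : S → ℝ) (s : S) :
    gw (H + K) s = gw H s * Real.exp (K s) / ∑ s, gw H s * Real.exp (K s) := by
  have hZ := gibbs_Z_pos H
  simp only [gw, Pi.add_apply, Real.exp_add, div_mul_eq_mul_div, ← sum_div]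
  rw [div_div_div_cancel_right₀ hZ.ne']
lemma av1_tilt [Nonempty S] (H K f : S → ℝ) :
    av1 (H + K) f = av1 H (fun s => f s * Real.exp (K s)) / av1 H fun s => Real.exp (K s) := by
  simp only [av1, gibbs_gw_tilt, sum_div]
  exact sum_congr rfl fun s _ => by ring
lemma av_tilt [Nonempty S] (n : ℕ) (H K : S → ℝ) (F : (Fin n → S) → ℝ) :
    av n (H + K) F = av n H (fun σ => F σ * ∏ l, Real.exp (K (σ l))) /
      (av1 H fun s => Real.exp (K s)) ^ n := by
  simp only [av, av1, gibbs_gw_tilt, sum_div, prod_div_distrib, prod_mul_distrib, prod_const, card_univ,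
    Fintype.card_fin]
  exact sum_congr rfl fun s _ => by ring

lemma gibbs_gw_equiv {S' : Type} [Fintype S'] (e : S' ≃ S) (H : S → ℝ) (s : S') :
    gw (fun s => H (e s)) s = gw H (e s) := by
  rw [gw, gw, e.sum_comp fun s => Real.exp (H s)]
lemma lz_equiv {S' : Type} [Fintype S'] (e : S' ≃ S) (H : S → ℝ) :
    lz (fun s => H (e s)) = lz H := by
  rw [lz, lz, e.sum_comp fun s => Real.exp (H s)]
lemma av1_equiv {S' : Type} [Fintype S'] (e : S' ≃ S) (H f : S → ℝ) :
    av1 (fun s => H (e s)) (fun s => f (e s)) = av1 H f := by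
  simp only [av1, gibbs_gw_equiv]
  exact e.sum_comp fun s => gw H s * f s
lemma av_equiv {S' : Type} [Fintype S'] (e : S' ≃ S) (n : ℕ) (H : S → ℝ) (F : (Fin n → S) → ℝ) :
    av n (fun s => H (e s)) (fun σ => F fun l => e (σ l)) = av n H F := by
  simp only [av, gibbs_gw_equiv]
  exact (Equiv.piCongrRight fun _ : Fin n => e).sum_comp fun σ => (∏ l, gw H (σ l)) * F σ
lemma lz_prod {S' : Type} [Fintype S'] [Nonempty S'] [Nonempty S] (H : S → S' → ℝ) :
    lz (fun c : S × S' => H c.1 c.2) = lz fun s' => lz fun s => H s s' := by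
  have h : ∀ s', Real.exp (lz fun s => H s s') = ∑ s, Real.exp (H s s') := fun s' =>
    Real.exp_log (gibbs_Z_pos _)
  rw [lz, lz, Fintype.sum_prod_type, sum_comm]
  simp only [h]

lemma continuous_lz [Nonempty S] : Continuous (lz : (S → ℝ) → ℝ) := by
  refine Continuous.log (by fun_prop) fun H => (gibbs_Z_pos H).ne'
lemma measurable_lz {Ω : Type} [MeasurableSpace Ω] {H : Ω → S → ℝ}
    (hH : ∀ s, Measurable fun ω => H ω s) : Measurable fun ω => lz (H ω) := by
  unfold lz
  exact (Finset.measurable_sum _ fun s _ => (hH s).exp).log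
lemma measurable_gw {Ω : Type} [MeasurableSpace Ω] {H : Ω → S → ℝ}
    (hH : ∀ s, Measurable fun ω => H ω s) (s : S) : Measurable fun ω => gw (H ω) s := by
  unfold gw
  exact (hH s).exp.div (Finset.measurable_sum _ fun s _ => (hH s).exp)
lemma measurable_av1 {Ω : Type} [MeasurableSpace Ω] {H f : Ω → S → ℝ}
    (hH : ∀ s, Measurable fun ω => H ω s) (hf : ∀ s, Measurable fun ω => f ω s) :
    Measurable fun ω => av1 (H ω) (f ω) := by
  unfold av1
  exact Finset.measurable_sum _ fun s _ => (measurable_gw hH s).mul (hf s)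
lemma measurable_av {Ω : Type} [MeasurableSpace Ω] (n : ℕ) {H : Ω → S → ℝ}
    {F : Ω → (Fin n → S) → ℝ} (hH : ∀ s, Measurable fun ω => H ω s)
    (hF : ∀ σ, Measurable fun ω => F ω σ) : Measurable fun ω => av n (H ω) (F ω) := by
  unfold av
  exact Finset.measurable_sum _ fun σ _ =>
    (Finset.measurable_prod _ fun l _ => measurable_gw hH (σ l)).mul (hF σ)
lemma integrable_lz [Nonempty S] {Ω : Type} [MeasurableSpace Ω] {P : Measure Ω}
    [IsFiniteMeasure P] {H : Ω → S → ℝ} (hm : ∀ s, Measurable fun ω => H ω s)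
    (hH : ∀ s, Integrable (fun ω => H ω s) P) : Integrable (fun ω => lz (H ω)) P := by
  refine Integrable.mono' (g := fun ω => Real.log (Fintype.card S) + ∑ s, |H ω s|)
    ((integrable_const _).add (integrable_finsetSum _ fun s _ => (hH s).abs))
    (measurable_lz hm).aestronglyMeasurable (ae_of_all _ fun ω => ?_)
  exact abs_lz_le (H ω)

end

end Vale.Agent.P166
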