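import Vale.Agent.P166.Gauss
import Vale.Agent.P166.Gibbs

/-! P166 Rec: general properties of the recursion rc.
Plan: inductions on k generalising j and the state. Measurability: StronglyMeasurable.integral_prod_right. All functions are controlled by the class
Lin (linear growth under additive steps with exponential moments) or are bounded. rc_push: integral_map at each level. rc_add: exp of a sum is a product, integral_prod_mul,
log_mul (positivity: integral_pos of an integrable positive function). rc_pi: integral_fintype_prod_eq_prod, Real.log_prod. rc_tendsto: dominated convergence at each level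
(exp(m X) <= exp(m B) for m > 0; at a level with m = 0 use the lower bound, which is preserved by Jensen: Tm m P f >= int f). -/

open MeasureTheory ProbabilityTheory Filter Topology Matrix Finset

namespace Vale.Agent.P166

noncomputable section

variable {E Ω : Type} [MeasurableSpace E] [MeasurableSpace Ω]

lemma measurable_Tm (m : ℝ) (P : Measure Ω) [SFinite P] {f : E → Ω → ℝ}
    (hf : Measurable fun z : E × Ω => f z.1 z.2) : Measurable fun y => Tm m P (f y) := by
  unfold Tm
  split_ifs
  · exact hf.stronglyMeasurable.integral_prod_right'.measurable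
  · exact (hf.const_mul m).exp.stronglyMeasurable.integral_prod_right'.measurable.log.const_mul _

lemma Tm_const (m : ℝ) (P : Measure Ω) [IsProbabilityMeasure P] (c : ℝ) :
    Tm m P (fun _ => c) = c := by
  unfold Tm
  split_ifs with h
  · simp
  · simp [h]

lemma Tm_map {Ω' : Type} [MeasurableSpace Ω'] (m : ℝ) (P : Measure Ω) {φ : Ω → Ω'}
    (hφ : Measurable φ) {g : Ω' → ℝ} (hg : Measurable g) :
    Tm m (P.map φ) g = Tm m P fun ω => g (φ ω) := by
  have h2 : Measurable fun x => Real.exp (m * g x) := (hg.const_mul m).exp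
  unfold Tm
  rw [integral_map hφ.aemeasurable hg.aestronglyMeasurable,
    integral_map hφ.aemeasurable h2.aestronglyMeasurable]

lemma measurable_rc (m : ℕ → ℝ) (P : Measure Ω) [SFinite P] {step : ℕ → E → Ω → E}
    (hs : ∀ l, Measurable fun z : E × Ω => step l z.1 z.2) {X : E → ℝ} (hX : Measurable X)
    (j k : ℕ) : Measurable (rc m P step X j k) := by
  induction k generalizing j with
  | zero => exact hX
  | succ k ih => exact measurable_Tm (m j) P ((ih (j + 1)).comp (hs j))

lemma parisi_eq_rc (m a : ℕ → ℝ) (j k : ℕ) :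
    parisi m a j k = rc m (gaussianReal 0 1) (fun l (y z : ℝ) => y + √(a l) * z)
      (fun y => Real.log (Real.cosh y)) j k := by
  induction k generalizing j with
  | zero => rfl
  | succ k ih =>
    funext y
    simp only [parisi, rc, ih]
    rfl

lemma rc_congr (m m' : ℕ → ℝ) (P : Measure Ω) (step step' : ℕ → E → Ω → E) (X : E → ℝ) (j k : ℕ)
    (hm : ∀ l, j ≤ l → l < j + k → m l = m' l) (hs : ∀ l, j ≤ l → l < j + k → step l = step' l) :
    rc m P step X j k = rc m' P step' X j k := by
  induction k generalizing j with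
  | zero => rfl
  | succ k ih =>
    simp only [rc]
    rw [hm j le_rfl (by omega), hs j le_rfl (by omega),
      ih (j + 1) (fun l a b => hm l (by omega) (by omega)) fun l a b => hs l (by omega) (by omega)]

lemma rc_succ_top (m : ℕ → ℝ) (P : Measure Ω) (step : ℕ → E → Ω → E) (X : E → ℝ) (j k : ℕ) :
    rc m P step X j (k + 1) =
      rc m P step (fun y => Tm (m (j + k)) P fun ω => X (step (j + k) y ω)) j k := by
  induction k generalizing j with
  | zero => rfl
  | succ k ih =>
    have e : j + (k + 1) = j + 1 + k := by omega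
    rw [e]
    funext y
    change Tm (m j) P (fun ω => rc m P step X (j + 1) (k + 1) (step j y ω)) = _
    rw [ih]
    rfl

lemma Tm_mono {m : ℝ} (hm : 0 ≤ m) (P : Measure Ω) [IsProbabilityMeasure P] {f g : Ω → ℝ}
    (hf : Integrable f P) (hg : Integrable g P)
    (hf' : Integrable (fun ω => Real.exp (m * f ω)) P)
    (hg' : Integrable (fun ω => Real.exp (m * g ω)) P) (h : ∀ ω, f ω ≤ g ω) :
    Tm m P f ≤ Tm m P g := by
  unfold Tm
  split_ifs
  · exact integral_mono hf hg h
  · exact mul_le_mul_of_nonneg_left (Real.log_le_log (integral_exp_pos hf')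
      (integral_mono hf' hg' fun ω => Real.exp_le_exp.2 (mul_le_mul_of_nonneg_left (h ω) hm)))
      (inv_nonneg.2 hm)

lemma Tm_add_const (m : ℝ) (P : Measure Ω) [IsProbabilityMeasure P] {f : Ω → ℝ}
    (hf : Integrable f P) (hf' : Integrable (fun ω => Real.exp (m * f ω)) P) (c : ℝ) :
    Tm m P (fun ω => f ω + c) = Tm m P f + c := by
  unfold Tm
  split_ifs with h
  · rw [integral_add hf (integrable_const c), integral_const, probReal_univ, one_smul]
  · simp only [mul_add, Real.exp_add]
    rw [integral_mul_const, Real.log_mul (integral_exp_pos hf').ne' (Real.exp_pos _).ne',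
      Real.log_exp, mul_add, inv_mul_cancel_left₀ h]

lemma integral_le_Tm {m : ℝ} (hm : 0 ≤ m) (P : Measure Ω) [IsProbabilityMeasure P] {f : Ω → ℝ}
    (hf : Integrable f P) (hf' : Integrable (fun ω => Real.exp (m * f ω)) P) :
    ∫ ω, f ω ∂P ≤ Tm m P f := by
  unfold Tm
  split_ifs with h
  · exact le_rfl
  · have hm' : 0 < m := lt_of_le_of_ne hm (Ne.symm h)
    obtain ⟨c, hc⟩ : ∃ c, c = ∫ ω, f ω ∂P := ⟨_, rfl⟩
    have i1 : Integrable (fun ω => Real.exp (m * c) * m * f ω) P := hf.const_mul _
    have h1 := integral_mono (i1.add (integrable_const (Real.exp (m * c) * (1 - m * c)))) hf'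
      fun ω => by
        have := mul_le_mul_of_nonneg_left (Real.add_one_le_exp (m * f ω - m * c))
          (Real.exp_pos (m * c)).le
        rw [← Real.exp_add, add_sub_cancel] at this
        simp only [Pi.add_apply]
        linarith
    simp only [Pi.add_apply] at h1
    rw [integral_add i1 (integrable_const _), integral_const_mul, integral_const, probReal_univ,
      one_smul, ← hc] at h1
    rw [← hc, le_inv_mul_iff₀ hm', Real.le_log_iff_exp_le (integral_exp_pos hf')]
    linarith

lemma rec_int_exp {m : ℝ} (hm : 0 ≤ m) (P : Measure Ω) [IsProbabilityMeasure P] {f : Ω → ℝ}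
    (hf : Measurable f) {B : ℝ} (hB : ∀ ω, f ω ≤ B) :
    Integrable (fun ω => Real.exp (m * f ω)) P :=
  Integrable.of_bound (hf.const_mul m).exp.aestronglyMeasurable (Real.exp (m * B))
    (Eventually.of_forall fun ω => by
      rw [Real.norm_eq_abs, abs_of_pos (Real.exp_pos _)]
      exact Real.exp_le_exp.2 (mul_le_mul_of_nonneg_left (hB ω) hm))

lemma rec_int_bdd {m : ℝ} (hm : 0 ≤ m) (P : Measure Ω) [IsProbabilityMeasure P] {f : Ω → ℝ}
    (hf : Measurable f) {B : ℝ} (hB : ∀ ω, |f ω| ≤ B) :
    Integrable f P ∧ Integrable (fun ω => Real.exp (m * f ω)) P :=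
  ⟨Integrable.of_bound hf.aestronglyMeasurable B (Eventually.of_forall hB),
    rec_int_exp hm P hf fun ω => (abs_le.1 (hB ω)).2⟩

lemma abs_Tm_le {m : ℝ} (hm : 0 ≤ m) (P : Measure Ω) [IsProbabilityMeasure P] {f : Ω → ℝ}
    (hf : Measurable f) {B : ℝ} (hB : ∀ ω, |f ω| ≤ B) : |Tm m P f| ≤ B := by
  obtain ⟨h1, h2⟩ := rec_int_bdd hm P hf hB
  have a1 := Tm_mono hm P h1 (integrable_const B) h2 (integrable_const _)
    fun ω => (abs_le.1 (hB ω)).2
  have a2 := Tm_mono hm P (integrable_const (-B)) h1 (integrable_const _) h2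
    fun ω => (abs_le.1 (hB ω)).1
  rw [Tm_const] at a1 a2
  exact abs_le.2 ⟨a2, a1⟩

lemma abs_rc_le (m : ℕ → ℝ) (hm : ∀ l, 0 ≤ m l) (P : Measure Ω) [IsProbabilityMeasure P]
    {step : ℕ → E → Ω → E} (hs : ∀ l, Measurable fun z : E × Ω => step l z.1 z.2) {X : E → ℝ}
    (hX : Measurable X) {B : ℝ} (hB : ∀ y, |X y| ≤ B) (j k : ℕ) (y : E) :
    |rc m P step X j k y| ≤ B := by
  induction k generalizing j y with
  | zero => exact hB y
  | succ k ih =>
    exact abs_Tm_le (hm j) P ((measurable_rc m P hs hX (j + 1) k).comp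
      ((hs j).comp measurable_prodMk_left)) fun ω => ih _ _

/-- the recursion commutes with a level dependent change of state space -/
lemma rc_push {E' Ω' : Type} [MeasurableSpace E'] [MeasurableSpace Ω'] (m : ℕ → ℝ) (P : Measure Ω)
    (P' : Measure Ω') [SFinite P'] {step : ℕ → E → Ω → E} {step' : ℕ → E' → Ω' → E'}
    (hs : ∀ l y, Measurable (step l y)) (hs' : ∀ l, Measurable fun z : E' × Ω' => step' l z.1 z.2)
    (π : ℕ → E → E') (hπ : ∀ l, Measurable (π l)) {X : E' → ℝ} (hX : Measurable X) (j k : ℕ)
    (h : ∀ l y, j ≤ l → l < j + k →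
      P.map (fun ω => π (l + 1) (step l y ω)) = P'.map (step' l (π l y))) (y : E) :
    rc m P step (fun y => X (π (j + k) y)) j k y = rc m P' step' X j k (π j y) := by
  induction k generalizing j y with
  | zero => rfl
  | succ k ih =>
    have e : j + (k + 1) = j + 1 + k := by omega
    have hr := measurable_rc m P' hs' hX (j + 1) k
    simp only [rc]
    rw [← Tm_map (m j) P' (φ := step' j (π j y)) ((hs' j).comp measurable_prodMk_left) hr,
      ← h j y le_rfl (by omega),
      Tm_map (m j) P (φ := fun ω => π (j + 1) (step j y ω)) ((hπ (j + 1)).comp (hs j y)) hr, e]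
    simp only [ih (j + 1) fun l y a b => h l y (by omega) (by omega)]

lemma rec_int_lip {G : Type} [NormedAddCommGroup G] [MeasurableSpace G] [BorelSpace G]
    [SecondCountableTopology G] {m : ℝ} (hm : 0 ≤ m) (P : Measure Ω)
    [IsProbabilityMeasure P] {φ : Ω → G} (hφ : Measurable φ)
    (he : ∀ c, Integrable (fun ω => Real.exp (c * ‖φ ω‖)) P) {X : G → ℝ} {L : ℝ}
    (hX : ∀ y y', |X y - X y'| ≤ L * ‖y - y'‖) (y : G) :
    Integrable (fun ω => X (y + φ ω)) P ∧ Integrable (fun ω => Real.exp (m * X (y + φ ω))) P := by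
  have hc : Continuous X := (LipschitzWith.of_dist_le' (K := L) fun a b => by
    rw [Real.dist_eq, dist_eq_norm]; exact hX a b).continuous
  have h1 : Measurable fun ω => X (y + φ ω) := hc.measurable.comp (hφ.const_add y)
  have h2 : ∀ ω, |X (y + φ ω) - X y| ≤ L * ‖φ ω‖ := fun ω => by
    simpa only [add_sub_cancel_left] using hX (y + φ ω) y
  refine ⟨((he L).add (integrable_const |X y|)).mono' h1.aestronglyMeasurable
    (Eventually.of_forall fun ω => ?_), ((he (m * L)).const_mul (Real.exp (m * X y))).mono'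
    (h1.const_mul m).exp.aestronglyMeasurable (Eventually.of_forall fun ω => ?_)⟩
  · have := abs_sub_abs_le_abs_sub (X (y + φ ω)) (X y)
    simp only [Pi.add_apply, Real.norm_eq_abs]
    linarith [h2 ω, Real.add_one_le_exp (L * ‖φ ω‖)]
  · rw [Real.norm_eq_abs, abs_of_pos (Real.exp_pos _), ← Real.exp_add, mul_assoc, ← mul_add]
    exact Real.exp_le_exp.2 (mul_le_mul_of_nonneg_left (by linarith [(abs_le.1 (h2 ω)).2]) hm)

/-- additive steps with exponential moments preserve Lipschitz functions -/
lemma rc_lip {G : Type} [NormedAddCommGroup G] [MeasurableSpace G] [BorelSpace G]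
    [SecondCountableTopology G] (m : ℕ → ℝ) (hm : ∀ l, 0 ≤ m l) (P : Measure Ω)
    [IsProbabilityMeasure P] {φ : ℕ → Ω → G} (hφ : ∀ l, Measurable (φ l))
    (he : ∀ l c, Integrable (fun ω => Real.exp (c * ‖φ l ω‖)) P) {X : G → ℝ} {L : ℝ}
    (hX : ∀ y y', |X y - X y'| ≤ L * ‖y - y'‖) (j k : ℕ) (y y' : G) :
    |rc m P (fun l y ω => y + φ l ω) X j k y - rc m P (fun l y ω => y + φ l ω) X j k y'| ≤
      L * ‖y - y'‖ := by
  induction k generalizing j y y' with
  | zero => exact hX y y'
  | succ k ih =>
    have key : ∀ y y' : G, rc m P (fun l y ω => y + φ l ω) X j (k + 1) y ≤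
        rc m P (fun l y ω => y + φ l ω) X j (k + 1) y' + L * ‖y - y'‖ := fun y y' => by
      obtain ⟨a1, a2⟩ := rec_int_lip (hm j) P (hφ j) (he j) (ih (j + 1)) y
      obtain ⟨b1, b2⟩ := rec_int_lip (hm j) P (hφ j) (he j) (ih (j + 1)) y'
      simp only [rc]
      rw [← Tm_add_const _ P b1 b2]
      refine Tm_mono (hm j) P a1 (b1.add (integrable_const _)) a2 ?_ fun ω => ?_
      · simp only [mul_add, Real.exp_add]
        exact b2.mul_const _
      · have := (abs_le.1 (ih (j + 1) (y + φ j ω) (y' + φ j ω))).2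
        rw [add_sub_add_right_eq_sub] at this
        linarith
    have h1 := key y y'
    have h2 := key y' y
    rw [norm_sub_rev] at h2
    rw [abs_le]
    constructor <;> linarith

lemma Tm_prod {Ω' : Type} [MeasurableSpace Ω'] (m : ℝ) (P : Measure Ω) (P' : Measure Ω')
    [IsProbabilityMeasure P] [IsProbabilityMeasure P'] {f : Ω → ℝ} {g : Ω' → ℝ}
    (hf : Integrable f P) (hf' : Integrable (fun ω => Real.exp (m * f ω)) P)
    (hg : Integrable g P') (hg' : Integrable (fun ω => Real.exp (m * g ω)) P') :
    Tm m (P.prod P') (fun w => f w.1 + g w.2) = Tm m P f + Tm m P' g := by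
  unfold Tm
  split_ifs
  · rw [integral_add (hf.comp_fst P') (hg.comp_snd P), integral_fun_fst, integral_fun_snd,
      probReal_univ, probReal_univ, one_smul, one_smul]
  · simp only [mul_add, Real.exp_add]
    rw [integral_prod_mul (fun ω => Real.exp (m * f ω)) fun ω => Real.exp (m * g ω),
      Real.log_mul (integral_exp_pos hf').ne' (integral_exp_pos hg').ne', mul_add]

/-- additivity; `hi`, `hi'` say that all the integrals in the two recursions converge -/
lemma rc_add {E' Ω' : Type} [MeasurableSpace E'] [MeasurableSpace Ω'] (m : ℕ → ℝ) (P : Measure Ω)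
    (P' : Measure Ω') [IsProbabilityMeasure P] [IsProbabilityMeasure P'] (step : ℕ → E → Ω → E)
    (step' : ℕ → E' → Ω' → E') (X : E → ℝ) (X' : E' → ℝ) (j k : ℕ)
    (hi : ∀ l n y, j ≤ l → l + n + 1 = j + k →
      Integrable (fun ω => rc m P step X (l + 1) n (step l y ω)) P ∧
      Integrable (fun ω => Real.exp (m l * rc m P step X (l + 1) n (step l y ω))) P)
    (hi' : ∀ l n y, j ≤ l → l + n + 1 = j + k →
      Integrable (fun ω => rc m P' step' X' (l + 1) n (step' l y ω)) P' ∧
      Integrable (fun ω => Real.exp (m l * rc m P' step' X' (l + 1) n (step' l y ω))) P')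
    (y : E) (y' : E') :
    rc m (P.prod P') (fun l (z : E × E') (w : Ω × Ω') => (step l z.1 w.1, step' l z.2 w.2))
        (fun z => X z.1 + X' z.2) j k (y, y') =
      rc m P step X j k y + rc m P' step' X' j k y' := by
  induction k generalizing j y y' with
  | zero => rfl
  | succ k ih =>
    obtain ⟨a1, a2⟩ := hi j k y le_rfl (by omega)
    obtain ⟨b1, b2⟩ := hi' j k y' le_rfl (by omega)
    simp only [rc, ih (j + 1) (fun l n y a b => hi l n y (by omega) (by omega))
      fun l n y a b => hi' l n y (by omega) (by omega)]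
    exact Tm_prod (m j) P P' a1 a2 b1 b2

/-- the integrals converge for bounded terminal values -/
lemma rc_int_bdd (m : ℕ → ℝ) (hm : ∀ l, 0 ≤ m l) (P : Measure Ω) [IsProbabilityMeasure P]
    {step : ℕ → E → Ω → E} (hs : ∀ l, Measurable fun z : E × Ω => step l z.1 z.2) {X : E → ℝ}
    (hX : Measurable X) {B : ℝ} (hB : ∀ y, |X y| ≤ B) (l n : ℕ) (y : E) :
    Integrable (fun ω => rc m P step X (l + 1) n (step l y ω)) P ∧
      Integrable (fun ω => Real.exp (m l * rc m P step X (l + 1) n (step l y ω))) P := 
  rec_int_bdd (hm l) P ((measurable_rc m P hs hX (l + 1) n).comp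
    ((hs l).comp measurable_prodMk_left)) fun _ => abs_rc_le m hm P hs hX hB _ _ _

/-- the integrals converge for Lipschitz terminal values and additive steps -/
lemma rc_int_lip {G : Type} [NormedAddCommGroup G] [MeasurableSpace G] [BorelSpace G]
    [SecondCountableTopology G] (m : ℕ → ℝ) (hm : ∀ l, 0 ≤ m l) (P : Measure Ω)
    [IsProbabilityMeasure P] {φ : ℕ → Ω → G} (hφ : ∀ l, Measurable (φ l))
    (he : ∀ l c, Integrable (fun ω => Real.exp (c * ‖φ l ω‖)) P) {X : G → ℝ} {L : ℝ}
    (hX : ∀ y y', |X y - X y'| ≤ L * ‖y - y'‖) (l n : ℕ) (y : G) :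
    Integrable (fun ω => rc m P (fun l y ω => y + φ l ω) X (l + 1) n (y + φ l ω)) P ∧
      Integrable (fun ω => Real.exp (m l *
        rc m P (fun l y ω => y + φ l ω) X (l + 1) n (y + φ l ω))) P := 
  rec_int_lip (hm l) P (hφ l) (he l) (rc_lip m hm P hφ he hX (l + 1) n) y

lemma Tm_pi {ι : Type} [Fintype ι] (m : ℝ) (P : Measure Ω) [IsProbabilityMeasure P]
    {f : ι → Ω → ℝ} (hf : ∀ i, Integrable (f i) P)
    (hf' : ∀ i, Integrable (fun ω => Real.exp (m * f i ω)) P) :
    Tm m (Measure.pi fun _ : ι => P) (fun g => ∑ i, f i (g i)) = ∑ i, Tm m P (f i) := by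
  unfold Tm
  split_ifs
  · have hp := fun i => measurePreserving_eval (fun _ : ι => P) i
    refine (integral_finsetSum (f := fun i (g : ι → Ω) => f i (g i)) _
      fun i _ => (hp i).integrable_comp_of_integrable (hf i)).trans
      (Finset.sum_congr rfl fun i _ => ?_)
    have := integral_map (μ := Measure.pi fun _ : ι => P) (hp i).measurable.aemeasurable
      (f := f i) (by rw [(hp i).map_eq]; exact (hf i).1)
    rw [(hp i).map_eq] at this
    exact this.symm
  · simp only [Finset.mul_sum, Real.exp_sum]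
    rw [integral_fintype_prod_eq_prod fun i ω => Real.exp (m * f i ω),
      Real.log_prod fun i _ => (integral_exp_pos (hf' i)).ne', Finset.mul_sum]

lemma logcosh_lip (y y' : ℝ) :
    |Real.log (Real.cosh y) - Real.log (Real.cosh y')| ≤ 1 * ‖y - y'‖ := by
  have key : ∀ y y' : ℝ, Real.log (Real.cosh y) ≤ Real.log (Real.cosh y') + |y - y'| := by
    intro y y'
    rw [Real.log_le_iff_le_exp (Real.cosh_pos y), Real.exp_add, Real.exp_log (Real.cosh_pos y'),
      Real.cosh_eq, Real.cosh_eq]
    have h1 : Real.exp y ≤ Real.exp y' * Real.exp |y - y'| := by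
      rw [← Real.exp_add]
      exact Real.exp_le_exp.2 (by linarith [le_abs_self (y - y')])
    have h2 : Real.exp (-y) ≤ Real.exp (-y') * Real.exp |y - y'| := by
      rw [← Real.exp_add]
      exact Real.exp_le_exp.2 (by linarith [neg_abs_le (y - y')])
    linarith
  have h1 := key y y'
  have h2 := key y' y
  rw [abs_sub_comm] at h2
  rw [one_mul, Real.norm_eq_abs, abs_le]
  constructor <;> linarith

lemma rec_gauss_exp (s c : ℝ) :
    Integrable (fun z : ℝ => Real.exp (c * ‖s * z‖)) (gaussianReal 0 1) := by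
  refine ((integrable_exp_mul_gaussianReal (c * s)).add
    (integrable_exp_mul_gaussianReal (-(c * s)))).mono' (by fun_prop)
    (Eventually.of_forall fun z => ?_)
  simp only [Pi.add_apply, Real.norm_eq_abs, Real.abs_exp]
  rcases abs_cases (s * z) with h | h
  · rw [h.1, ← mul_assoc]
    linarith [Real.exp_pos (-(c * s) * z)]
  · rw [h.1, show c * -(s * z) = -(c * s) * z by ring]
    linarith [Real.exp_pos (c * s * z)]

lemma parisi_int (m a : ℕ → ℝ) (hm : ∀ l, 0 ≤ m l) (j k : ℕ) (y : ℝ) :
    Integrable (fun z => parisi m a (j + 1) k (y + √(a j) * z)) (gaussianReal 0 1) ∧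
      Integrable (fun z => Real.exp (m j * parisi m a (j + 1) k (y + √(a j) * z)))
        (gaussianReal 0 1) := by
  rw [parisi_eq_rc]
  exact rc_int_lip m hm (gaussianReal 0 1) (φ := fun l z => √(a l) * z) (fun _ => by fun_prop)
    (fun _ c => rec_gauss_exp _ c) logcosh_lip j k y

/-- independent copies of the Parisi recursion -/
lemma rc_pi {ι : Type} [Fintype ι] (m a : ℕ → ℝ) (hm : ∀ l, 0 ≤ m l) (j k : ℕ) (y : ι → ℝ) :
    rc m (gam ι) (fun l (y g : ι → ℝ) => y + √(a l) • g)
        (fun y => ∑ i, Real.log (Real.cosh (y i))) j k y = ∑ i, parisi m a j k (y i) := by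
  induction k generalizing j y with
  | zero => rfl
  | succ k ih =>
    simp only [rc, ih]
    exact Tm_pi (m j) (gaussianReal 0 1) (f := fun i z => parisi m a (j + 1) k (y i + √(a j) * z))
      (fun i => (parisi_int m a hm j k (y i)).1) fun i => (parisi_int m a hm j k (y i)).2

lemma parisi_zero (m a : ℕ → ℝ) (j k : ℕ) (ha : ∀ l, a l = 0) (y : ℝ) :
    parisi m a j k y = Real.log (Real.cosh y) := by
  induction k generalizing j y with
  | zero => rfl
  | succ k ih =>
    change Tm (m j) (gaussianReal 0 1) (fun z => parisi m a (j + 1) k (y + √(a j) * z)) = _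
    simp only [ih, ha, Real.sqrt_zero, zero_mul, add_zero, Tm_const]

lemma rc_add_const {G : Type} [NormedAddCommGroup G] [MeasurableSpace G] [BorelSpace G]
    [SecondCountableTopology G] (m : ℕ → ℝ) (hm : ∀ l, 0 ≤ m l) (P : Measure Ω)
    [IsProbabilityMeasure P] {φ : ℕ → Ω → G} (hφ : ∀ l, Measurable (φ l))
    (he : ∀ l c, Integrable (fun ω => Real.exp (c * ‖φ l ω‖)) P) {X : G → ℝ} {L : ℝ}
    (hX : ∀ y y', |X y - X y'| ≤ L * ‖y - y'‖) (c : ℝ) (j k : ℕ) (y : G) :
    rc m P (fun l y ω => y + φ l ω) (fun y => X y + c) j k y =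
      rc m P (fun l y ω => y + φ l ω) X j k y + c := by
  induction k generalizing j y with
  | zero => rfl
  | succ k ih =>
    obtain ⟨a1, a2⟩ := rc_int_lip m hm P hφ he hX j k y
    simp only [rc, ih]
    exact Tm_add_const _ P a1 a2 c

lemma integral_cosh_gauss (y s : ℝ) :
    ∫ z, Real.cosh (y + s * z) ∂gaussianReal 0 1 = Real.cosh y * Real.exp (s ^ 2 / 2) := by
  have e : ∀ t : ℝ, ∫ z, Real.exp (t * z) ∂gaussianReal 0 1 = Real.exp (t ^ 2 / 2) := fun t => by
    have := congrFun (mgf_id_gaussianReal (μ := 0) (v := 1)) t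
    simpa [mgf] using this
  have e2 : ∀ z : ℝ, Real.cosh (y + s * z) =
      Real.exp y / 2 * Real.exp (s * z) + Real.exp (-y) / 2 * Real.exp (-s * z) := fun z => by
    rw [Real.cosh_eq, neg_add, Real.exp_add, Real.exp_add, neg_mul]
    ring
  simp only [e2]
  rw [integral_add ((integrable_exp_mul_gaussianReal s).const_mul _)
    ((integrable_exp_mul_gaussianReal (-s)).const_mul _), integral_const_mul, integral_const_mul,
    e, e, neg_sq, Real.cosh_eq]
  ring

lemma parisi_top (m a : ℕ → ℝ) (hm : ∀ l, 0 ≤ m l) (j k : ℕ) (h1 : m (j + k) = 1)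
    (ha : 0 ≤ a (j + k)) (y : ℝ) :
    parisi m a j (k + 1) y = parisi m a j k y + a (j + k) / 2 := by
  have e : ∀ y : ℝ, Tm (m (j + k)) (gaussianReal 0 1)
      (fun z => Real.log (Real.cosh (y + √(a (j + k)) * z))) =
      Real.log (Real.cosh y) + a (j + k) / 2 := fun y => by
    rw [h1, Tm, if_neg one_ne_zero, inv_one, one_mul]
    simp only [one_mul, Real.exp_log (Real.cosh_pos _)]
    rw [integral_cosh_gauss, Real.sq_sqrt ha, Real.log_mul (Real.cosh_pos _).ne'
      (Real.exp_pos _).ne', Real.log_exp]
  rw [parisi_eq_rc, parisi_eq_rc, rc_succ_top]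
  simp only [e]
  exact rc_add_const m hm (gaussianReal 0 1) (φ := fun l z => √(a l) * z) (fun _ => by fun_prop)
    (fun _ c => rec_gauss_exp _ c) logcosh_lip _ j k y

lemma rc_pick (m : ℕ → ℝ) (r j : ℕ) (h0 : m 0 = 0) (hj : j ≤ r) (hmj : 0 < m j) (θ : ℝ) :
    rc m unifB (fun l (z w : Bool) => if l = j then w else z) (fun z => θ * spin z) 0 (r + 1) true =
      (m j)⁻¹ * Real.log (Real.cosh (m j * θ)) := by
  have top : ∀ k l z, j < l → rc m unifB (fun l (z w : Bool) => if l = j then w else z)
      (fun z => θ * spin z) l k z = θ * spin z := by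
    intro k
    induction k with
    | zero => exact fun _ _ _ => rfl
    | succ k ih =>
      intro l z hl
      simp only [rc, if_neg hl.ne', ih (l + 1) _ (by omega), Tm_const]
  have key : ∀ k l z, l ≤ j → j < l + k → rc m unifB (fun l (z w : Bool) => if l = j then w else z)
      (fun z => θ * spin z) l k z = (m j)⁻¹ * Real.log (Real.cosh (m j * θ)) := by
    intro k
    induction k with
    | zero => exact fun l z a b => absurd a (by omega)
    | succ k ih =>
      intro l z a b
      rcases a.eq_or_lt with rfl | a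
      · simp only [rc, if_true, top k (l + 1) _ (by omega)]
        rw [Tm, if_neg hmj.ne', integral_unifB, Real.cosh_eq]
        simp [spin]
      · simp only [rc, ih (l + 1) _ a (by omega), Tm_const]
  exact key _ _ _ (Nat.zero_le j) (by omega)

/-- monotone limits; `w` is a weight with finite expectation along the chain -/
lemma rc_tendsto (m : ℕ → ℝ) (hm : ∀ l, 0 ≤ m l) (P : Measure Ω) [IsProbabilityMeasure P]
    {step : ℕ → E → Ω → E} (hs : ∀ l, Measurable fun z : E × Ω => step l z.1 z.2)
    {X : E → ℝ} {Xn : ℕ → E → ℝ} (hX : Measurable X) (hXn : ∀ n, Measurable (Xn n)) {B : ℝ}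
    (hle : ∀ n y, X y ≤ Xn n y) (hB : ∀ n y, Xn n y ≤ B)
    (hlim : ∀ y, Tendsto (fun n => Xn n y) atTop (𝓝 (X y)))
    {w : E → ℝ} {c : ℝ} (hw0 : ∀ y, 0 ≤ w y) (hw : ∀ y, -w y ≤ X y)
    (hwi : ∀ l y, Integrable (fun ω => w (step l y ω)) P)
    (hwc : ∀ l y, ∫ ω, w (step l y ω) ∂P ≤ c * (1 + w y)) (j k : ℕ) (y : E) :
    Tendsto (fun n => rc m P step (Xn n) j k y) atTop (𝓝 (rc m P step X j k y)) := by
  have key : ∃ A, 0 ≤ A ∧ (∀ y, -(A * (1 + w y)) ≤ rc m P step X j k y) ∧
      (∀ n y, rc m P step X j k y ≤ rc m P step (Xn n) j k y) ∧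
      (∀ n y, rc m P step (Xn n) j k y ≤ B) ∧
      ∀ y, Tendsto (fun n => rc m P step (Xn n) j k y) atTop (𝓝 (rc m P step X j k y)) := by
    clear y
    induction k generalizing j with
    | zero => exact ⟨1, zero_le_one, fun y => by linarith [hw y, show rc m P step X j 0 y = X y
        from rfl], hle, hB, hlim⟩
    | succ k ih =>
      obtain ⟨A, hA, h1, h2, h3, h4⟩ := ih (j + 1)
      have ms : ∀ y, Measurable (step j y) := fun y => (hs j).comp measurable_prodMk_left
      have m0 : ∀ y, Measurable fun ω => rc m P step X (j + 1) k (step j y ω) := fun y =>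
        (measurable_rc m P hs hX (j + 1) k).comp (ms y)
      have mn : ∀ n y, Measurable fun ω => rc m P step (Xn n) (j + 1) k (step j y ω) := fun n y =>
        (measurable_rc m P hs (hXn n) (j + 1) k).comp (ms y)
      have iw : ∀ y, Integrable (fun ω => A * (1 + w (step j y ω))) P := fun y =>
        ((integrable_const 1).add (hwi j y)).const_mul A
      have ib : ∀ y, Integrable (fun ω => A * (1 + w (step j y ω)) + |B|) P := fun y =>
        (iw y).add (integrable_const _)
      have bd : ∀ (z : E) (x : ℝ), -(A * (1 + w z)) ≤ x → x ≤ B → ‖x‖ ≤ A * (1 + w z) + |B| :=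
        fun z x a b => by
          have := mul_nonneg hA (show 0 ≤ 1 + w z by linarith [hw0 z])
          rw [Real.norm_eq_abs, abs_le]
          constructor <;> linarith [abs_nonneg B, le_abs_self B]
      have i0 : ∀ y, Integrable (fun ω => rc m P step X (j + 1) k (step j y ω)) P := fun y =>
        (ib y).mono' (m0 y).aestronglyMeasurable
          (Eventually.of_forall fun ω => bd _ _ (h1 _) ((h2 0 _).trans (h3 0 _)))
      have i1 : ∀ n y, Integrable (fun ω => rc m P step (Xn n) (j + 1) k (step j y ω)) P :=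
        fun n y => (ib y).mono' (mn n y).aestronglyMeasurable
          (Eventually.of_forall fun ω => bd _ _ ((h1 _).trans (h2 n _)) (h3 n _))
      have e0 := fun y => rec_int_exp (hm j) P (m0 y) fun ω => (h2 0 _).trans (h3 0 _)
      have e1 := fun n y => rec_int_exp (hm j) P (mn n y) fun ω => h3 n _
      refine ⟨A * (1 + |c|), by positivity, fun y => ?_,
        fun n y => Tm_mono (hm j) P (i0 y) (i1 n y) (e0 y) (e1 n y) fun ω => h2 n _,
        fun n y => (Tm_mono (hm j) P (i1 n y) (integrable_const B) (e1 n y) (integrable_const _)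
          fun ω => h3 n _).trans_eq (Tm_const _ _ _), fun y => ?_⟩
      · refine le_trans ?_ (integral_le_Tm (hm j) P (i0 y) (e0 y))
        refine le_trans ?_ (integral_mono (iw y).neg (i0 y) fun ω => h1 _)
        simp only [Pi.neg_apply]
        rw [integral_neg, integral_const_mul, integral_add (integrable_const 1) (hwi j y),
          integral_const, probReal_univ, one_smul, mul_assoc, neg_le_neg_iff]
        refine mul_le_mul_of_nonneg_left ?_ hA
        nlinarith [hwc j y, hw0 y, mul_le_mul_of_nonneg_right (le_abs_self c)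
          (show 0 ≤ 1 + w y by linarith [hw0 y])]
      · simp only [rc, Tm]
        split_ifs
        · exact tendsto_integral_of_dominated_convergence _
            (fun n => (mn n y).aestronglyMeasurable) (ib y)
            (fun n => Eventually.of_forall fun ω => bd _ _ ((h1 _).trans (h2 n _)) (h3 n _))
            (Eventually.of_forall fun ω => h4 _)
        · refine (Tendsto.log ?_ (integral_exp_pos (e0 y)).ne').const_mul _
          exact tendsto_integral_of_dominated_convergence (fun _ => Real.exp (m j * B))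
            (fun n => (e1 n y).1) (integrable_const _)
            (fun n => Eventually.of_forall fun ω => by
              rw [Real.norm_eq_abs, Real.abs_exp]
              exact Real.exp_le_exp.2 (mul_le_mul_of_nonneg_left (h3 n _) (hm j)))
            (Eventually.of_forall fun ω => ((h4 _).const_mul _).rexp)
  obtain ⟨-, -, -, -, -, h⟩ := key
  exact h y

end

end Vale.Agent.P166
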