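import Vale.Agent.P157.RBasic
import Vale.Agent.P166.Rec

/-! P166 QtA: the Gaussian quadratic tilt, one step. -/

open MeasureTheory ProbabilityTheory Filter Topology Matrix Finset

namespace Vale.Agent.P166

noncomputable section

variable {F : Type} [Fintype F]

/-- normalised density of the quadratic tilt -/
def qtD (a s y g : ℝ) : ℝ :=
  √(1 + a * s ^ 2) * Real.exp (a * y ^ 2 / (2 * (1 + a * s ^ 2)) - a * (y + s * g) ^ 2 / 2)

/-- the affine map realising the tilted law -/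
def qtT (a s y g : ℝ) : ℝ := -(a * s * y) / (1 + a * s ^ 2) + (√(1 + a * s ^ 2))⁻¹ * g

lemma qt_mD (a s y : ℝ) : Measurable (qtD a s y) := by unfold qtD; fun_prop

lemma qt_mT (a s y : ℝ) : Measurable (qtT a s y) := by unfold qtT; fun_prop

lemma qt_D0 (a s y g : ℝ) : 0 ≤ qtD a s y g := by unfold qtD; positivity

lemma qt_1d {a : ℝ} (ha : 0 ≤ a) (s y : ℝ) :
    (gaussianReal 0 1).withDensity (fun g => ENNReal.ofReal (qtD a s y g)) =
      (gaussianReal 0 1).map (qtT a s y) := by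
  have hκ : 0 < 1 + a * s ^ 2 := by positivity
  have hr : 0 < √(1 + a * s ^ 2) := Real.sqrt_pos.2 hκ
  have e : qtT a s y = (fun x => -(a * s * y) / (1 + a * s ^ 2) + x) ∘
      fun g => (√(1 + a * s ^ 2))⁻¹ * g := rfl
  rw [e, ← Measure.map_map (measurable_const_add _) (measurable_const_mul _),
    gaussianReal_map_const_mul, gaussianReal_map_const_add, mul_one,
    gaussianReal_of_var_ne_zero _ one_ne_zero, gaussianReal_of_var_ne_zero _ (by
      intro h
      have := congrArg NNReal.toReal h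
      simp only [NNReal.coe_mk, NNReal.coe_zero] at this
      exact (pow_pos (inv_pos.2 hr) 2).ne' this),
    ← withDensity_mul _ (measurable_gaussianPDF _ _) (qt_mD a s y).ennreal_ofReal]
  congr 1
  funext g
  simp only [Pi.mul_apply, gaussianPDF]
  rw [← ENNReal.ofReal_mul (gaussianPDFReal_nonneg _ _ _)]
  congr 1
  simp only [gaussianPDFReal, qtD, NNReal.coe_one, NNReal.coe_mk, mul_one, mul_zero, zero_add,
    sub_zero]
  rw [Real.sqrt_mul (by positivity) (_ ^ 2), Real.sqrt_sq (inv_pos.2 hr).le, mul_inv, inv_inv,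
    inv_pow, Real.sq_sqrt hκ.le, mul_mul_mul_comm, ← Real.exp_add]
  congr 2
  field_simp
  ring

lemma qt_intD {a : ℝ} (ha : 0 ≤ a) (s y : ℝ) : Integrable (qtD a s y) (gaussianReal 0 1) := by
  refine Integrable.of_bound (qt_mD a s y).aestronglyMeasurable
    (√(1 + a * s ^ 2) * Real.exp (a * y ^ 2 / (2 * (1 + a * s ^ 2)))) (ae_of_all _ fun g => ?_)
  rw [Real.norm_of_nonneg (qt_D0 _ _ _ _)]
  refine mul_le_mul_of_nonneg_left (Real.exp_le_exp.2 (sub_le_self _ ?_)) (Real.sqrt_nonneg _)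
  positivity

lemma qt_pi_density (μ : Measure ℝ) [IsProbabilityMeasure μ] {ρ : F → ℝ → ℝ}
    (h0 : ∀ f x, 0 ≤ ρ f x) (hi : ∀ f, Integrable (ρ f) μ) :
    (Measure.pi fun _ : F => μ).withDensity (fun g => ENNReal.ofReal (∏ f, ρ f (g f))) =
      Measure.pi fun f => μ.withDensity fun x => ENNReal.ofReal (ρ f x) := by
  have := fun f => isFiniteMeasure_withDensity_ofReal (hi f).2
  refine (Measure.pi_eq fun s hs => ?_).symm
  rw [withDensity_apply _ (MeasurableSet.univ_pi hs), Measure.restrict_pi_pi,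
    ← ofReal_integral_eq_lintegral_ofReal
      (Integrable.fintype_prod (f := ρ) fun f => (hi f).restrict)
      (ae_of_all _ fun g => prod_nonneg fun f _ => h0 f _),
    integral_fintype_prod_eq_prod, ENNReal.ofReal_prod_of_nonneg
      fun f _ => integral_nonneg (h0 f)]
  refine prod_congr rfl fun f _ => ?_
  rw [withDensity_apply _ (hs f), ofReal_integral_eq_lintegral_ofReal (hi f).restrict
    (ae_of_all _ (h0 f))]

lemma qt_vec {a : F → ℝ} (ha : ∀ f, 0 ≤ a f) (s y : F → ℝ) {Φ : (F → ℝ) × Bool → ℝ}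
    (hΦ : Measurable Φ) :
    ∫ w, (∏ f, qtD (a f) (s f) (y f) (w.1 f)) * Φ w ∂(gam F).prod unifB =
      ∫ w, Φ (fun f => qtT (a f) (s f) (y f) (w.1 f), w.2) ∂(gam F).prod unifB := by
  have hm : Measurable fun g : F → ℝ => ∏ f, qtD (a f) (s f) (y f) (g f) :=
    Finset.measurable_prod _ fun f _ => (qt_mD _ _ _).comp (measurable_pi_apply f)
  have hT : Measurable fun (g : F → ℝ) f => qtT (a f) (s f) (y f) (g f) :=
    measurable_pi_lambda _ fun f => (qt_mT _ _ _).comp (measurable_pi_apply f)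
  have h1 : (gam F).withDensity (fun g => ENNReal.ofReal (∏ f, qtD (a f) (s f) (y f) (g f))) =
      (gam F).map fun g f => qtT (a f) (s f) (y f) (g f) := by
    rw [qt_pi_density _ (fun f => qt_D0 _ _ _) fun f => qt_intD (ha f) _ _,
      Measure.pi_map_pi fun f => (qt_mT _ _ _).aemeasurable]
    simp only [qt_1d (ha _)]
  have h2 := congrArg (fun μ => ∫ w, Φ w ∂(Measure.prod μ unifB)) h1
  rw [prod_withDensity_left hm.ennreal_ofReal, integral_withDensity_eq_integral_toReal_smul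
    (f := fun z : (F → ℝ) × Bool => ENNReal.ofReal (∏ f, qtD (a f) (s f) (y f) (z.1 f)))
    (hm.ennreal_ofReal.comp measurable_fst) (ae_of_all _ fun _ => ENNReal.ofReal_lt_top),
    ← Measure.map_id (μ := unifB), Measure.map_prod_map _ _ hT measurable_id, Measure.map_id,
    integral_map (hT.prodMap measurable_id).aemeasurable hΦ.aestronglyMeasurable] at h2
  refine Eq.trans (integral_congr_ae (ae_of_all _ fun w => ?_)) h2
  simp only [smul_eq_mul]
  rw [ENNReal.toReal_ofReal (prod_nonneg fun f _ => qt_D0 _ _ _ _)]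

lemma qt_D_eq {a : ℝ} (ha : 0 ≤ a) (s y g : ℝ) : qtD a s y g =
    Real.exp (Real.log (1 + a * s ^ 2) / 2 + a * y ^ 2 / (2 * (1 + a * s ^ 2)) -
      a * (y + s * g) ^ 2 / 2) := by
  have hκ : 0 < 1 + a * s ^ 2 := by positivity
  rw [qtD, add_sub_assoc, Real.exp_add, ← Real.log_sqrt hκ.le, Real.exp_log (Real.sqrt_pos.2 hκ)]

lemma qt_step {m : ℝ} (hm : 0 < m) {B : F → ℝ} (hB : ∀ f, 0 ≤ B f) (s y : F → ℝ)
    {Ψ : (F → ℝ) × Bool → ℝ} (hΨ : Measurable Ψ) (C : ℝ)
    (hi : Integrable (fun w : (F → ℝ) × Bool =>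
      Real.exp (m * Ψ (fun f => qtT (m * B f) (s f) (y f) (w.1 f), w.2))) ((gam F).prod unifB)) :
    Tm m ((gam F).prod unifB) (fun w => -(∑ f, B f * (y f + s f * w.1 f) ^ 2) / 2 - C + Ψ w) =
      -(∑ f, B f / (1 + m * B f * s f ^ 2) * y f ^ 2) / 2 -
        (∑ f, m⁻¹ * Real.log (1 + m * B f * s f ^ 2)) / 2 - C +
        Tm m ((gam F).prod unifB)
          fun w => Ψ (fun f => qtT (m * B f) (s f) (y f) (w.1 f), w.2) := by
  have ha : ∀ f, 0 ≤ m * B f := fun f => mul_nonneg hm.le (hB f)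
  set R := -(∑ f, B f / (1 + m * B f * s f ^ 2) * y f ^ 2) / 2 -
    (∑ f, m⁻¹ * Real.log (1 + m * B f * s f ^ 2)) / 2 - C with hR
  have e : ∀ w : (F → ℝ) × Bool,
      Real.exp (m * (-(∑ f, B f * (y f + s f * w.1 f) ^ 2) / 2 - C + Ψ w)) = Real.exp (m * R) *
        ((∏ f, qtD (m * B f) (s f) (y f) (w.1 f)) * Real.exp (m * Ψ w)) := fun w => by
    simp only [qt_D_eq (ha _)]
    rw [← Real.exp_sum, ← Real.exp_add, ← Real.exp_add]
    congr 1
    have : ∑ f, (Real.log (1 + m * B f * s f ^ 2) / 2 +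
        m * B f * y f ^ 2 / (2 * (1 + m * B f * s f ^ 2)) - m * B f * (y f + s f * w.1 f) ^ 2 / 2) =
        m * ((∑ f, m⁻¹ * Real.log (1 + m * B f * s f ^ 2)) / 2) +
          m * ((∑ f, B f / (1 + m * B f * s f ^ 2) * y f ^ 2) / 2) -
          m * ((∑ f, B f * (y f + s f * w.1 f) ^ 2) / 2) := by
      simp only [mul_sum, sum_div, ← sum_add_distrib, ← sum_sub_distrib]
      refine sum_congr rfl fun f _ => ?_
      have := ha f
      field_simp
    rw [this, hR]
    ring
  simp only [Tm, if_neg hm.ne', e]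
  rw [integral_const_mul, qt_vec ha s y (hΨ.const_mul m).exp,
    Real.log_mul (Real.exp_pos _).ne' (integral_exp_pos hi).ne', Real.log_exp, mul_add,
    inv_mul_cancel_left₀ hm.ne']

lemma qt_int {G Ω : Type} [NormedAddCommGroup G] [MeasurableSpace G] [BorelSpace G]
    [SecondCountableTopology G] [MeasurableSpace Ω] {m : ℝ} (hm : 0 ≤ m) (P : Measure Ω)
    [IsProbabilityMeasure P] {φ : Ω → G} (hφ : Measurable φ)
    (he : ∀ c, Integrable (fun ω => Real.exp (c * ‖φ ω‖)) P) {X : G → ℝ} (hX : Measurable X)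
    {L : ℝ} (hL : ∀ y, |X y| ≤ L * (1 + ‖y‖)) (y : G) :
    (∀ ω, |X (y + φ ω)| ≤ L * ‖φ ω‖ + L * (1 + ‖y‖)) ∧ Integrable (fun ω => X (y + φ ω)) P ∧
      Integrable (fun ω => Real.exp (m * X (y + φ ω))) P := by
  have h0 : 0 ≤ L := by simpa using (abs_nonneg _).trans (hL 0)
  have h1 : Measurable fun ω => X (y + φ ω) := hX.comp (hφ.const_add y)
  have h2 : ∀ ω, |X (y + φ ω)| ≤ L * ‖φ ω‖ + L * (1 + ‖y‖) := fun ω => by
    have := mul_le_mul_of_nonneg_left (norm_add_le y (φ ω)) h0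
    linarith [hL (y + φ ω)]
  refine ⟨h2, ((he L).add (integrable_const (L * (1 + ‖y‖)))).mono' h1.aestronglyMeasurable
    (Eventually.of_forall fun ω => ?_), ((he (m * L)).mul_const
      (Real.exp (m * (L * (1 + ‖y‖))))).mono'
    (h1.const_mul m).exp.aestronglyMeasurable (Eventually.of_forall fun ω => ?_)⟩
  · simp only [Pi.add_apply, Real.norm_eq_abs]
    linarith [h2 ω, Real.add_one_le_exp (L * ‖φ ω‖)]
  · rw [Real.norm_eq_abs, abs_of_pos (Real.exp_pos _), ← Real.exp_add, mul_assoc, ← mul_add]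
    exact Real.exp_le_exp.2 (mul_le_mul_of_nonneg_left (abs_le.1 (h2 ω)).2 hm)

lemma qt_growth {G Ω : Type} [NormedAddCommGroup G] [MeasurableSpace G] [BorelSpace G]
    [SecondCountableTopology G] [MeasurableSpace Ω] {m : ℝ} (hm : 0 ≤ m) (P : Measure Ω)
    [IsProbabilityMeasure P] {φ : Ω → G} (hφ : Measurable φ)
    (he : ∀ c, Integrable (fun ω => Real.exp (c * ‖φ ω‖)) P) {X : G → ℝ} (hX : Measurable X)
    {L : ℝ} (hL : ∀ y, |X y| ≤ L * (1 + ‖y‖)) :
    ∃ L' : ℝ, ∀ y, |Tm m P fun ω => X (y + φ ω)| ≤ L' * (1 + ‖y‖) := by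
  have hn : ∀ c : ℝ, Integrable (fun ω => c * ‖φ ω‖) P := fun c =>
    Integrable.const_mul ((he 1).mono' hφ.norm.aestronglyMeasurable (ae_of_all _ fun ω => by
      rw [norm_norm, one_mul]
      linarith [Real.add_one_le_exp ‖φ ω‖])) c
  have hn' : ∀ c : ℝ, Integrable (fun ω => Real.exp (m * (c * ‖φ ω‖))) P := fun c => by
    simpa only [mul_assoc] using he (m * c)
  have hc : ∀ c d : ℝ, Integrable (fun ω => Real.exp (m * (c * ‖φ ω‖ + d))) P := fun c d => by
    simp only [mul_add, Real.exp_add]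
    exact (hn' c).mul_const _
  refine ⟨L + (|Tm m P fun ω => L * ‖φ ω‖| + |Tm m P fun ω => -L * ‖φ ω‖|), fun y => ?_⟩
  obtain ⟨h1, h2, h3⟩ := qt_int hm P hφ he hX hL y
  have h4 := Tm_mono hm P h2 ((hn L).add (integrable_const _)) h3 (hc L _)
    fun ω => (abs_le.1 (h1 ω)).2
  have h5 := Tm_mono hm P ((hn (-L)).add (integrable_const (-(L * (1 + ‖y‖))))) h2 (hc (-L) _) h3
    fun ω => by simp only [Pi.add_apply]; linarith [(abs_le.1 (h1 ω)).1]
  have h6 := Tm_add_const m P (hn L) (hn' L) (L * (1 + ‖y‖))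
  have h7 := Tm_add_const m P (hn (-L)) (hn' (-L)) (-(L * (1 + ‖y‖)))
  have h8 := le_abs_self (Tm m P fun ω => L * ‖φ ω‖)
  have h9 := neg_abs_le (Tm m P fun ω => -L * ‖φ ω‖)
  have h10 := mul_nonneg (add_nonneg (abs_nonneg (Tm m P fun ω => L * ‖φ ω‖))
    (abs_nonneg (Tm m P fun ω => -L * ‖φ ω‖))) (norm_nonneg y)
  have h11 := abs_nonneg (Tm m P fun ω => L * ‖φ ω‖)
  have h12 := abs_nonneg (Tm m P fun ω => -L * ‖φ ω‖)
  replace h4 := h4.trans_eq h6
  replace h5 := h7.symm.trans_le h5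
  rw [abs_le]
  constructor <;> nlinarith

lemma qt_exp (s : F → ℝ) (e : Bool → ℝ) (c : ℝ) :
    Integrable (fun w : (F → ℝ) × Bool =>
      Real.exp (c * ‖((fun f => s f * w.1 f, e w.2) : (F → ℝ) × ℝ)‖)) ((gam F).prod unifB) := by
  have hm : Measurable fun g : F → ℝ => s * g := measurable_const_mul s
  have h1 := (P157.expM_gp_mul s).int |c|
  rw [integrable_map_measure (measurable_norm.const_mul _).exp.aestronglyMeasurable
    hm.aemeasurable] at h1
  have h2 : Measurable fun w : (F → ℝ) × Bool => ((fun f => s f * w.1 f, e w.2) : (F → ℝ) × ℝ) :=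
    (hm.comp measurable_fst).prodMk ((measurable_of_finite e).comp measurable_snd)
  refine (h1.mul_prod (Integrable.of_finite (f := fun b => Real.exp (|c| * ‖e b‖)))).mono'
    (h2.norm.const_mul c).exp.aestronglyMeasurable (ae_of_all _ fun w => ?_)
  rw [Real.norm_of_nonneg (Real.exp_pos _).le, Function.comp, ← Real.exp_add, ← mul_add]
  refine Real.exp_le_exp.2 ((mul_le_mul_of_nonneg_right (le_abs_self c) (norm_nonneg _)).trans
    (mul_le_mul_of_nonneg_left ?_ (abs_nonneg c)))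
  exact max_le (le_add_of_nonneg_right (norm_nonneg _)) (le_add_of_nonneg_left (norm_nonneg _))

end

end Vale.Agent.P166
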