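import Vale.Agent.P157.RBasic
import Vale.Agent.P166.Cas
import Vale.Agent.P166.Rec
import Vale.Agent.P166.QtA

/-! P166 Qt: recursion with a quadratic terminal term (Gaussian tilt).
Plan. qt: downward induction on the level. With A(l) f = A f / (1 + tau (l-1) A f) for 1 <= l <= r+2 (tau (r+1) = 0, tau (l-1) = tau l + m l dt l) prove for k levels starting at l = r+2-k >= 1:
rc dt (X) l k (y,z) = - sum A(l) y^2/2 - sum over i >= l of (2 m i)^(-1) log ((1 + A tau (i-1))/(1 + A tau i)) + rc dc Y l k (fun f => y f / (1 + A f tau (l-1)), z).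
One step: for each coordinate the Gaussian density times exp(-m A' (y + s g)^2/2) is (1 + m A' s^2)^(-1/2) exp(- m A' y^2 / (2 (1 + m A' s^2))) times the density of the law of
g = - m A' s y/(1 + m A' s^2) + g'/sqrt(1 + m A' s^2) (complete the square; state it as an identity of measures withDensity = smul map, then Measure.pi, or prove the vector version by induction on the coordinates / by
integral against volume and a linear change of variables). Functions of linear growth stay of linear growth (rc_growth), so that the exponential integrals are finite and positive. Level 0 has m 0 = 0: integral_add, E g^2 = 1.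
rc_eq_Rec: induction, integral_map. -/

open MeasureTheory ProbabilityTheory Filter Topology Matrix Finset

namespace Vale.Agent.P166

noncomputable section

variable {F : Type} [Fintype F]

/-- Gaussian increments with variances `v l f`, and a sign added to the last coordinate at level `j` -/
def stepM (v : ℕ → F → ℝ) (j l : ℕ) (y : (F → ℝ) × ℝ) (w : (F → ℝ) × Bool) : (F → ℝ) × ℝ :=
  y + (fun f => √(v l f) * w.1 f, if l = j then spin w.2 else 0)

/-- recursion through the levels of the cascade of `π` -/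
def RCm (π : Path) (v : ℕ → F → ℝ) (j : ℕ) (X : (F → ℝ) × ℝ → ℝ) (z0 : ℝ) : ℝ :=
  rc π.m ((gam F).prod unifB) (stepM v j) X 0 (π.r + 2) (0, z0)

/-- value of the cavity functional perturbed by `θ V z` -/
def RC2 (π : Path) (q V : (F → ℝ) → Bool → ℝ) (j : ℕ) (θ z0 : ℝ) : ℝ :=
  RCm π (fun l _ => π.dt l) j
    (fun y => Real.log (Wq (fun y' ε => q y' ε - θ * V y' ε * clip 1 y.2) y.1)) z0

omit [Fintype F] in
lemma qt_mphi (v : ℕ → F → ℝ) (j l : ℕ) : Measurable fun w : (F → ℝ) × Bool =>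
    ((fun f => √(v l f) * w.1 f, if l = j then spin w.2 else 0) : (F → ℝ) × ℝ) :=
  (measurable_pi_lambda _ fun f => ((measurable_pi_apply f).comp measurable_fst).const_mul _).prodMk
    ((measurable_of_finite fun b => if l = j then spin b else 0).comp measurable_snd)

lemma measurable_stepM (v : ℕ → F → ℝ) (j l : ℕ) :
    Measurable fun z : ((F → ℝ) × ℝ) × ((F → ℝ) × Bool) => stepM v j l z.1 z.2 :=
  measurable_fst.add ((qt_mphi v j l).comp measurable_snd)

/-- additive recursions are the recursions of P157 -/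
lemma rc_eq_Rec {G Ω : Type} [NormedAddCommGroup G] [MeasurableSpace G] [BorelSpace G]
    [SecondCountableTopology G] [MeasurableSpace Ω] (m : ℕ → ℝ) (P : Measure Ω)
    [IsProbabilityMeasure P] {φ : ℕ → Ω → G} (hφ : ∀ l, Measurable (φ l)) {X : G → ℝ}
    (hX : Measurable X) (j k : ℕ) :
    rc m P (fun l y ω => y + φ l ω) X j k = P157.Rec m (fun l => P.map (φ l)) X k j := by
  have hs : ∀ l, Measurable fun z : G × Ω => z.1 + φ l z.2 := fun l =>
    measurable_fst.add ((hφ l).comp measurable_snd)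
  induction k generalizing j with
  | zero => rfl
  | succ k ih =>
    funext y
    have hm := measurable_rc m P (step := fun l y ω => y + φ l ω) hs hX (j + 1) k
    change Tm (m j) P (fun ω => rc m P (fun l y ω => y + φ l ω) X (j + 1) k (y + φ j ω)) =
      Tm (m j) (P.map (φ j)) fun η => P157.Rec m (fun l => P.map (φ l)) X k (j + 1) (y + η)
    rw [← ih]
    exact (Tm_map (m j) P (hφ j) (hm.comp (measurable_const_add y))).symm

lemma rc_growth (m : ℕ → ℝ) (hm : ∀ l, 0 ≤ m l) (v : ℕ → F → ℝ) (j : ℕ) {Y : (F → ℝ) × ℝ → ℝ}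
    (hY : Measurable Y) {L : ℝ} (hL : ∀ y, |Y y| ≤ L * (1 + ‖y‖)) (i k : ℕ) :
    ∃ L' : ℝ, ∀ y, |rc m ((gam F).prod unifB) (stepM v j) Y i k y| ≤ L' * (1 + ‖y‖) := by
  induction k generalizing i with
  | zero => exact ⟨L, hL⟩
  | succ k ih =>
    obtain ⟨L', hL'⟩ := ih (i + 1)
    exact qt_growth (hm i) _ (qt_mphi v j i)
      (qt_exp (fun f => √(v i f)) fun b => if i = j then spin b else 0)
      (measurable_rc m _ (measurable_stepM v j) hY (i + 1) k) hL'

lemma Path.tau_nonneg (π : Path) (l : ℕ) : 0 ≤ π.tau l :=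
  sum_nonneg fun i hi => mul_nonneg (π.m_nonneg i)
    (π.dt_nonneg (by have := (mem_Ico.1 hi).2; omega))
lemma Path.tau_top (π : Path) : π.tau (π.r + 1) = 0 := by
  simp [Path.tau]
lemma Path.tau_succ (π : Path) {l : ℕ} (hl : l ≤ π.r) :
    π.tau l = π.tau (l + 1) + π.m (l + 1) * π.dt (l + 1) := by
  rw [Path.tau, Path.tau, sum_eq_sum_Ico_succ_bot (by omega), add_comm]
lemma Path.qt_one_le (π : Path) {A : ℝ} (hA : 0 ≤ A) (l : ℕ) : 1 ≤ 1 + A * π.tau l :=
  le_add_of_nonneg_right (mul_nonneg hA (π.tau_nonneg l))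
lemma Path.dc_nonneg (π : Path) {A : ℝ} (hA : 0 ≤ A) {l : ℕ} (hl : l ≤ π.r + 1) :
    0 ≤ π.dc A l := by
  cases l with
  | zero => exact div_nonneg π.t_nonneg (sq_nonneg _)
  | succ l =>
    exact div_nonneg (π.dt_nonneg hl) (mul_nonneg (zero_le_one.trans (π.qt_one_le hA _))
      (zero_le_one.trans (π.qt_one_le hA _)))
lemma Path.dc_le (π : Path) {A : ℝ} (hA : 0 ≤ A) {l : ℕ} (hl : l ≤ π.r + 1) :
    π.dc A l ≤ π.dt l := by
  cases l with
  | zero => exact div_le_self π.t_nonneg (one_le_pow₀ (π.qt_one_le hA _))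
  | succ l =>
    exact div_le_self (π.dt_nonneg hl)
      (one_le_mul_of_one_le_of_one_le (π.qt_one_le hA _) (π.qt_one_le hA _))
lemma Path.cc_nonneg (π : Path) {A : ℝ} (hA : 0 ≤ A) {j : ℕ} (hj : j ≤ π.r + 1) :
    0 ≤ π.cc A j :=
  sum_nonneg fun l hl => π.dc_nonneg hA (by have := mem_range.1 hl; omega)
lemma Path.cc_mono (π : Path) {A : ℝ} (hA : 0 ≤ A) {i j : ℕ} (h : i ≤ j) (hj : j ≤ π.r + 1) :
    π.cc A i ≤ π.cc A j :=
  sum_le_sum_of_subset_of_nonneg (range_mono (by omega)) fun l hl _ =>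
    π.dc_nonneg hA (by have := mem_range.1 hl; omega)
lemma Path.cc_le (π : Path) {A : ℝ} (hA : 0 ≤ A) {j : ℕ} (hj : j ≤ π.r + 1) :
    π.cc A j ≤ π.t (π.r + 1) := by
  refine (π.cc_mono hA hj le_rfl).trans ?_
  rw [← π.sum_dt]
  exact sum_le_sum fun l hl => π.dc_le hA (by have := mem_range.1 hl; omega)
lemma Path.cc_zero (π : Path) (j : ℕ) : π.cc 0 j = π.t j := by
  rw [← π.sum_dt]
  refine sum_congr rfl fun l _ => ?_
  cases l <;> simp [Path.dc, Path.dt]
lemma Path.ell_zero (π : Path) : π.ell 0 = 0 := by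
  simp [Path.ell]

/-- the logarithmic terms of the levels above `i` -/
def Path.qtC (π : Path) (A : F → ℝ) (i : ℕ) : ℝ :=
  (∑ f, ∑ l ∈ Ico i (π.r + 1),
    (π.m (l + 1))⁻¹ * Real.log ((1 + A f * π.tau l) / (1 + A f * π.tau (l + 1)))) / 2

lemma qt_alg {a b m B d y g : ℝ} (ha : 0 < a) (hb : 0 < b) (hd : 0 ≤ d)
    (h : 1 + m * B * √d ^ 2 = a / b) :
    (y + √d * qtT (m * B) (√d) y g) / b = y / a + √(d / (b * a)) * g := by
  have h1 : m * B * √d ^ 2 = a / b - 1 := by linarith
  have h2 : y + √d * (-(m * B * √d * y) / (a / b)) = y * b / a := by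
    rw [show √d * (-(m * B * √d * y) / (a / b)) = -(m * B * √d ^ 2 * y) / (a / b) by ring, h1]
    field_simp
    ring
  have h3 : √(d / (b * a)) = √d * (√(a / b))⁻¹ / b := by
    rw [Real.sqrt_div hd, show b * a = b ^ 2 * (a / b) by field_simp,
      Real.sqrt_mul (sq_nonneg _), Real.sqrt_sq hb.le]
    ring
  rw [qtT, h, mul_add, ← add_assoc, h2, h3]
  field_simp

lemma qt_ind (π : Path) {A : F → ℝ} (hA : ∀ f, 0 ≤ A f) (j : ℕ) {Y : (F → ℝ) × ℝ → ℝ}
    (hY : Measurable Y) {L : ℝ} (hL : ∀ y, |Y y| ≤ L * (1 + ‖y‖)) (k i : ℕ)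
    (hik : i + k = π.r + 1) (y : (F → ℝ) × ℝ) :
    rc π.m ((gam F).prod unifB) (stepM (fun l _ => π.dt l) j)
      (fun y => -(∑ f, A f * y.1 f ^ 2) / 2 + Y y) (i + 1) k y =
      -(∑ f, A f / (1 + A f * π.tau i) * y.1 f ^ 2) / 2 - π.qtC A i +
      rc π.m ((gam F).prod unifB) (stepM (fun l f => π.dc (A f) l) j) Y (i + 1) k
        (fun f => y.1 f / (1 + A f * π.tau i), y.2) := by
  induction k generalizing i y with
  | zero =>
    obtain rfl : i = π.r + 1 := hik
    simp [rc, Path.qtC, π.tau_top]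
  | succ k ih =>
    have h1 := fun f i => zero_lt_one.trans_le (π.qt_one_le (hA f) i)
    have hd := π.dt_nonneg (l := i + 1) (by omega)
    have hm : 0 < π.m (i + 1) :=
      π.m_pos.trans_le (monotone_nat_of_le_succ π.m_mono (by omega))
    have hW := measurable_rc π.m ((gam F).prod unifB)
      (measurable_stepM (fun l f => π.dc (A f) l) j) hY (i + 1 + 1) k
    obtain ⟨L', hL'⟩ := rc_growth π.m π.m_nonneg (fun l f => π.dc (A f) l) j hY hL (i + 1 + 1) k
    set W := rc π.m ((gam F).prod unifB) (stepM (fun l f => π.dc (A f) l) j) Y (i + 1 + 1) k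
    have hκ : ∀ f, 1 + π.m (i + 1) * (A f / (1 + A f * π.tau (i + 1))) * √(π.dt (i + 1)) ^ 2 =
        (1 + A f * π.tau i) / (1 + A f * π.tau (i + 1)) := fun f => by
      have := h1 f (i + 1)
      rw [Real.sq_sqrt hd, π.tau_succ (l := i) (by omega)]
      field_simp
      ring
    have hT : ∀ w : (F → ℝ) × Bool, ((fun f => (y.1 f + √(π.dt (i + 1)) *
        qtT (π.m (i + 1) * (A f / (1 + A f * π.tau (i + 1)))) √(π.dt (i + 1)) (y.1 f) (w.1 f)) /
          (1 + A f * π.tau (i + 1)), y.2 + if i + 1 = j then spin w.2 else 0) : (F → ℝ) × ℝ) =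
        stepM (fun l f => π.dc (A f) l) j (i + 1) (fun f => y.1 f / (1 + A f * π.tau i), y.2) w :=
      fun w => Prod.ext (funext fun f => qt_alg (h1 f i) (h1 f (i + 1)) hd (hκ f)) rfl
    have h2 := qt_step hm (B := fun f => A f / (1 + A f * π.tau (i + 1)))
      (fun f => div_nonneg (hA f) (h1 f _).le) (fun _ => √(π.dt (i + 1))) y.1
      (Ψ := fun w => W (fun f => (y.1 f + √(π.dt (i + 1)) * w.1 f) / (1 + A f * π.tau (i + 1)),
        y.2 + if i + 1 = j then spin w.2 else 0))
      (hW.comp ((measurable_pi_lambda _ fun f => ((((measurable_pi_apply f).comp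
        measurable_fst).const_mul _).const_add _).div_const _).prodMk
        ((measurable_of_finite fun b => y.2 + if i + 1 = j then spin b else 0).comp
          measurable_snd))) (π.qtC A (i + 1)) (by
        simp only [hT]
        exact (qt_int hm.le _ (qt_mphi (fun l f => π.dc (A f) l) j (i + 1))
          (qt_exp (fun f => √(π.dc (A f) (i + 1))) fun b => if i + 1 = j then spin b else 0)
          hW hL' _).2.2)
    simp only [hT, hκ] at h2
    change Tm (π.m (i + 1)) _ (fun w => rc π.m _ _ _ (i + 1 + 1) k (stepM _ j (i + 1) y w)) =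
      _ + Tm (π.m (i + 1)) _ fun w => W (stepM _ j (i + 1) _ w)
    simp only [ih (i + 1) (by omega)]
    refine h2.trans ?_
    congr 1
    have h3 : ∀ f, A f / (1 + A f * π.tau (i + 1)) /
        ((1 + A f * π.tau i) / (1 + A f * π.tau (i + 1))) = A f / (1 + A f * π.tau i) :=
      fun f => div_div_div_cancel_right₀ (h1 f _).ne' _ _
    simp only [h3, Path.qtC]
    rw [sub_sub, ← add_div, ← sum_add_distrib]
    congr 2
    exact sum_congr rfl fun f _ => by rw [sum_eq_sum_Ico_succ_bot (a := i) (by omega)]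

theorem qt (π : Path) {A : F → ℝ} (hA : ∀ f, 0 ≤ A f) (j : ℕ) {Y : (F → ℝ) × ℝ → ℝ}
    (hY : Measurable Y) {L : ℝ} (hL : ∀ y, |Y y| ≤ L * (1 + ‖y‖)) (z0 : ℝ) :
    RCm π (fun l _ => π.dt l) j (fun y => -(∑ f, A f * y.1 f ^ 2) / 2 + Y y) z0 =
      ∑ f, π.ell (A f) + RCm π (fun l f => π.dc (A f) l) j Y z0 := by
  have hW := measurable_rc π.m ((gam F).prod unifB)
    (measurable_stepM (fun l f => π.dc (A f) l) j) hY 1 (π.r + 1)
  obtain ⟨L', hL'⟩ := rc_growth π.m π.m_nonneg (fun l f => π.dc (A f) l) j hY hL 1 (π.r + 1)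
  have hi := (qt_int le_rfl ((gam F).prod unifB) (qt_mphi (fun l f => π.dc (A f) l) j 0)
    (qt_exp (fun f => √(π.dc (A f) 0)) fun b => if 0 = j then spin b else 0) hW hL' (0, z0)).2.1
  have h2 : ∀ f, Integrable (fun w : (F → ℝ) × Bool => w.1 f ^ 2) ((gam F).prod unifB) ∧
      ∫ w : (F → ℝ) × Bool, w.1 f ^ 2 ∂(gam F).prod unifB = 1 := fun f => by
    have hp : MeasurePreserving (fun w : (F → ℝ) × Bool => w.1 f) ((gam F).prod unifB)
        (gaussianReal 0 1) := (measurePreserving_eval _ f).comp measurePreserving_fst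
    refine ⟨hp.integrable_comp_of_integrable (g := fun x => x ^ 2)
      (memLp_id_gaussianReal' 2 (by simp)).integrable_sq, ?_⟩
    rw [← integral_map (f := fun x => x ^ 2) hp.aemeasurable (by fun_prop), hp.map_eq, gauss_two]
    rfl
  have h3 : Integrable (fun w : (F → ℝ) × Bool =>
      ∑ f, π.t 0 * A f / (1 + A f * π.tau 0) * w.1 f ^ 2) ((gam F).prod unifB) :=
    integrable_finsetSum _ fun f _ => (h2 f).1.const_mul _
  have e : ∀ w : (F → ℝ) × Bool, rc π.m ((gam F).prod unifB) (stepM (fun l _ => π.dt l) j)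
      (fun y => -(∑ f, A f * y.1 f ^ 2) / 2 + Y y) 1 (π.r + 1)
      (stepM (fun l _ => π.dt l) j 0 (0, z0) w) =
      (-(∑ f, π.t 0 * A f / (1 + A f * π.tau 0) * w.1 f ^ 2) / 2 - π.qtC A 0) +
      rc π.m ((gam F).prod unifB) (stepM (fun l f => π.dc (A f) l) j) Y 1 (π.r + 1)
        (stepM (fun l f => π.dc (A f) l) j 0 (0, z0) w) := fun w => by
    rw [qt_ind π hA j hY hL (π.r + 1) 0 (zero_add _)]
    congr 2
    · congr 2
      refine sum_congr rfl fun f _ => ?_
      simp only [stepM, Prod.fst_add, zero_add, mul_pow, Path.dt, Real.sq_sqrt π.t_nonneg]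
      ring
    · refine Prod.ext (funext fun f => ?_) rfl
      simp only [stepM, Prod.fst_add, zero_add, Path.dt, Path.dc]
      rw [Real.sqrt_div' _ (sq_nonneg _), Real.sqrt_sq (zero_le_one.trans (π.qt_one_le (hA f) 0))]
      ring
  change Tm (π.m 0) _ (fun w => rc π.m _ _ _ 1 (π.r + 1) (stepM _ j 0 (0, z0) w)) =
    _ + Tm (π.m 0) _ fun w => rc π.m _ _ _ 1 (π.r + 1) (stepM _ j 0 (0, z0) w)
  simp only [e, Tm, if_pos π.m_zero]
  have h4 : Integrable (fun w : (F → ℝ) × Bool =>
      -(∑ f, π.t 0 * A f / (1 + A f * π.tau 0) * w.1 f ^ 2) / 2) ((gam F).prod unifB) :=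
    h3.neg.div_const 2
  refine (integral_add (h4.sub (integrable_const _)) hi).trans ?_
  congr 1
  refine (integral_sub h4 (integrable_const _)).trans ?_
  rw [integral_div, integral_neg,
    integral_finsetSum _ fun f _ => (h2 f).1.const_mul _]
  simp only [integral_const_mul, (h2 _).2, mul_one, integral_const, probReal_univ, one_smul,
    Path.ell, Path.qtC, ← range_eq_Ico, neg_add, add_div, sum_add_distrib, ← sum_div,
    sum_neg_distrib]
  ring

end

end Vale.Agent.P166
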