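import Vale.Agent.P166.Alg1
import Vale.Agent.P166.Qt

/-! P166 Alg2: the functions Gam, phi for a finite spectrum and the trace formula.
Plan. Gam tau' - Gam tau = (tau' - tau) sum alpha / ((1 + A tau)(1 + A tau')) lies between alpha none (tau' - tau) and (tau' - tau); so Gam is a strictly increasing continuous bijection of [0,oo) (intermediate values), phi is its inverse.
stieltjes (dmu) (t + 1/tau) = Gam tau, the support has sup t. hasDerivAt_phi: HasDerivAt.of_local_left_inverse. m l * (sum alpha dc l) = Gam (tau (l-1)) - Gam (tau l) (tau_succ), hence chi at ptot l is Gam (tau l) (Abel summation, downward induction).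
trace: split [0, D] at the points ptot l (intervalIntegral.sum_integral_adjacent_intervals); chi is constant on [0, ptot 0] and affine with slope - m (l+1) on [ptot l, ptot (l+1)]; there q -> - I (phi (chi q)) / m (l+1) is an antiderivative
(intervalIntegral.integral_eq_sub_of_hasDerivAt_of_le, chi > 0 in the open interval). -/

open MeasureTheory ProbabilityTheory Filter Topology Matrix Finset

namespace Vale.Agent.P166

noncomputable section

variable {K : Type} [Fintype K] (α : Option K → ℝ) (bb : K → ℝ) (t : ℝ)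

/-- admissible spectral data -/
structure Sp : Prop where
  pos : ∀ o, 0 < α o
  sum : ∑ o, α o = 1
  le : ∀ k, bb k ≤ t

/-- `Γ(τ)/τ` -/
def gg (τ : ℝ) : ℝ := ∑ o, α o / (1 + gap bb t o * τ)
/-- Stieltjes transform at `t + 1/τ` -/
def Gam (τ : ℝ) : ℝ := τ * gg α bb t τ
/-- derivative of `Gam` -/
def SS (τ : ℝ) : ℝ := ∑ o, α o / (1 + gap bb t o * τ) ^ 2
/-- inverse of `Gam` -/
def phi (w : ℝ) : ℝ := sInf {τ | 0 ≤ τ ∧ w ≤ Gam α bb t τ}
/-- susceptibility of the total overlap path -/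
def chi (π : Path) (q : ℝ) : ℝ :=
  ptot α bb t π (π.r + 1) -
    ∑ i ∈ range (π.r + 1), (π.m (i + 1) - π.m i) * max q (ptot α bb t π i)

variable {α bb t}

lemma gap_nonneg (h : ∀ k, bb k ≤ t) (o : Option K) : 0 ≤ gap bb t o := by
  cases o with
  | none => exact le_rfl
  | some k => exact sub_nonneg.2 (h k)

namespace Sp

variable (h : Sp α bb t)
include h

lemma den_ge {τ : ℝ} (hτ : 0 ≤ τ) (o : Option K) : 1 ≤ 1 + gap bb t o * τ :=
  le_add_of_nonneg_right (mul_nonneg (gap_nonneg h.le o) hτ)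

lemma wsum_mem {f : Option K → ℝ} (hf : ∀ o, 1 ≤ f o) (hn : f none = 1) :
    ∑ o, α o / f o ∈ Set.Icc (α none) 1 :=
  ⟨le_of_eq_of_le (by rw [hn, div_one]) (single_le_sum (f := fun o => α o / f o)
      (fun o _ => div_nonneg (h.pos o).le (zero_le_one.trans (hf o))) (mem_univ none)),
    (sum_le_sum fun o _ => div_le_self (h.pos o).le (hf o)).trans_eq h.sum⟩

lemma gg_mem {τ : ℝ} (hτ : 0 ≤ τ) : gg α bb t τ ∈ Set.Icc (α none) 1 :=
  h.wsum_mem (h.den_ge hτ) (by simp [gap])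
lemma SS_mem {τ : ℝ} (hτ : 0 ≤ τ) : SS α bb t τ ∈ Set.Icc (α none) 1 :=
  h.wsum_mem (fun o => one_le_pow₀ (h.den_ge hτ o)) (by simp [gap])
lemma SS_anti {τ τ' : ℝ} (hτ : 0 ≤ τ) (h' : τ ≤ τ') : SS α bb t τ' ≤ SS α bb t τ :=
  sum_le_sum fun o _ => div_le_div_of_nonneg_left (h.pos o).le
    (pow_pos (one_pos.trans_le (h.den_ge hτ o)) 2)
    (pow_le_pow_left₀ (zero_le_one.trans (h.den_ge hτ o))
      (add_le_add_right (mul_le_mul_of_nonneg_left h' (gap_nonneg h.le o)) 1) 2)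
lemma SS_lip {A : ℝ} (hA : ∀ o, gap bb t o ≤ A) {τ τ' : ℝ} (hτ : 0 ≤ τ) (hτ' : 0 ≤ τ') :
    |SS α bb t τ - SS α bb t τ'| ≤ 2 * A * |τ - τ'| := by
  have key : ∀ x y : ℝ, 1 ≤ x → 1 ≤ y → |(x ^ 2)⁻¹ - (y ^ 2)⁻¹| ≤ 2 * |x - y| := fun x y hx hy => by
    have hx0 := one_pos.trans_le hx
    have hy0 := one_pos.trans_le hy
    have e : (x ^ 2)⁻¹ - (y ^ 2)⁻¹ = (x⁻¹ + y⁻¹) * (x⁻¹ * y⁻¹) * (y - x) := by
      field_simp
      ring
    have h1 := inv_le_one_of_one_le₀ hx
    have h2 := inv_le_one_of_one_le₀ hy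
    rw [e, abs_mul, abs_sub_comm, abs_of_nonneg (by positivity)]
    exact mul_le_mul_of_nonneg_right ((mul_le_of_le_one_right (by positivity)
      (mul_le_one₀ h1 (by positivity) h2)).trans (by linarith)) (abs_nonneg _)
  rw [SS, SS, ← sum_sub_distrib]
  refine (abs_sum_le_sum_abs _ _).trans ((sum_le_sum fun o _ => ?_).trans_eq
    (by rw [← sum_mul, h.sum, one_mul] : ∑ o, α o * (2 * A * |τ - τ'|) = _))
  rw [div_eq_mul_inv, div_eq_mul_inv, ← mul_sub, abs_mul, abs_of_pos (h.pos o)]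
  refine mul_le_mul_of_nonneg_left ((key _ _ (h.den_ge hτ o) (h.den_ge hτ' o)).trans ?_)
    (h.pos o).le
  rw [add_sub_add_left_eq_sub, ← mul_sub, abs_mul, abs_of_nonneg (gap_nonneg h.le o), mul_assoc]
  exact mul_le_mul_of_nonneg_left (mul_le_mul_of_nonneg_right (hA o) (abs_nonneg _)) zero_le_two
lemma hasDerivAt_Gam {τ : ℝ} (hτ : 0 ≤ τ) : HasDerivAt (Gam α bb t) (SS α bb t τ) τ := by
  have e : Gam α bb t = fun τ => ∑ o, α o * τ / (1 + gap bb t o * τ) := by
    funext τ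
    simp only [Gam, gg, mul_sum, mul_div_assoc', mul_comm]
  rw [e]
  refine HasDerivAt.fun_sum fun o _ => ?_
  have h1 := (one_pos.trans_le (h.den_ge hτ o)).ne'
  refine (((hasDerivAt_id' τ).const_mul (α o)).fun_div
    (((hasDerivAt_id' τ).const_mul (gap bb t o)).const_add 1) h1).congr_deriv ?_
  ring
lemma Gam_diff {τ τ' : ℝ} (hτ : 0 ≤ τ) (hτ' : 0 ≤ τ') : Gam α bb t τ' - Gam α bb t τ =
    (τ' - τ) * ∑ o, α o / ((1 + gap bb t o * τ) * (1 + gap bb t o * τ')) := by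
  simp only [Gam, gg, mul_sum, ← sum_sub_distrib]
  refine sum_congr rfl fun o _ => ?_
  have h1 := (one_pos.trans_le (h.den_ge hτ o)).ne'
  have h2 := (one_pos.trans_le (h.den_ge hτ' o)).ne'
  rw [mul_div_assoc', mul_div_assoc', mul_div_assoc', div_sub_div _ _ h2 h1]
  congr 1 <;> ring

lemma Gam_sub {τ τ' : ℝ} (hτ : 0 ≤ τ) (h' : τ ≤ τ') :
    α none * (τ' - τ) ≤ Gam α bb t τ' - Gam α bb t τ ∧
      Gam α bb t τ' - Gam α bb t τ ≤ τ' - τ := by
  have h1 := h.wsum_mem (fun o => one_le_mul_of_one_le_of_one_le (h.den_ge hτ o)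
    (h.den_ge (hτ.trans h') o)) (by simp [gap])
  rw [h.Gam_diff hτ (hτ.trans h'), mul_comm]
  exact ⟨mul_le_mul_of_nonneg_left h1.1 (sub_nonneg.2 h'),
    mul_le_of_le_one_right (sub_nonneg.2 h') h1.2⟩
lemma phi_nonneg (w : ℝ) : 0 ≤ phi α bb t w := Real.sInf_nonneg fun _ hx => hx.1
omit h in
lemma Gam_zero : Gam α bb t 0 = 0 := zero_mul _

lemma Gam_nonneg {τ : ℝ} (hτ : 0 ≤ τ) : 0 ≤ Gam α bb t τ :=
  mul_nonneg hτ ((h.pos none).le.trans (h.gg_mem hτ).1)

lemma exists_Gam {w : ℝ} (hw : 0 ≤ w) : ∃ τ, 0 ≤ τ ∧ Gam α bb t τ = w := by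
  have h0 := div_nonneg hw (h.pos none).le
  have h1 := (h.Gam_sub le_rfl h0).1
  rw [Gam_zero, sub_zero, sub_zero, mul_div_cancel₀ _ (h.pos none).ne'] at h1
  obtain ⟨τ, h2, h3⟩ := intermediate_value_Icc h0
    (fun τ hτ => (h.hasDerivAt_Gam hτ.1).continuousAt.continuousWithinAt)
    (⟨Gam_zero.trans_le hw, h1⟩ : w ∈ Set.Icc _ _)
  exact ⟨τ, h2.1, h3⟩

lemma phi_Gam' {τ : ℝ} (hτ : 0 ≤ τ) : phi α bb t (Gam α bb t τ) = τ := by
  refine IsLeast.csInf_eq ⟨⟨hτ, le_rfl⟩, fun s hs => not_lt.1 fun h1 => ?_⟩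
  have h2 := (h.Gam_sub hs.1 h1.le).1
  have h3 := mul_pos (h.pos none) (sub_pos.2 h1)
  linarith [hs.2]

lemma Gam_phi {w : ℝ} (hw : 0 ≤ w) : Gam α bb t (phi α bb t w) = w := by
  obtain ⟨τ, h1, rfl⟩ := h.exists_Gam hw
  rw [h.phi_Gam' h1]
lemma phi_Gam {τ : ℝ} (hτ : 0 ≤ τ) : phi α bb t (Gam α bb t τ) = τ := h.phi_Gam' hτ
lemma phi_mono : Monotone (phi α bb t) := fun _ w' hw =>
  csInf_le_csInf ⟨0, fun _ hx => hx.1⟩ ((h.exists_Gam (le_max_right w' 0)).imp fun _ h1 =>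
    ⟨h1.1, (le_max_left _ _).trans h1.2.ge⟩) fun _ hx => ⟨hx.1, hw.trans hx.2⟩
lemma Gam_phi_max (w : ℝ) : Gam α bb t (phi α bb t w) = max w 0 := by
  rcases le_total 0 w with hw | hw
  · rw [h.Gam_phi hw, max_eq_left hw]
  · have h1 : phi α bb t w = 0 :=
      IsLeast.csInf_eq ⟨⟨le_rfl, hw.trans Gam_zero.ge⟩, fun _ hs => hs.1⟩
    rw [h1, Gam_zero, max_eq_right hw]

lemma phi_sub {w w' : ℝ} (hw : w ≤ w') :
    |phi α bb t w' - phi α bb t w| ≤ |w' - w| / α none := by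
  have h1 := (h.Gam_sub (h.phi_nonneg w) (h.phi_mono hw)).1
  rw [h.Gam_phi_max, h.Gam_phi_max] at h1
  rw [abs_of_nonneg (sub_nonneg.2 (h.phi_mono hw)), le_div_iff₀' (h.pos none)]
  exact h1.trans ((le_abs_self _).trans (abs_max_sub_max_le_abs _ _ _))

lemma phi_lip (w w' : ℝ) : |phi α bb t w - phi α bb t w'| ≤ |w - w'| / α none := by
  rcases le_total w w' with hw | hw
  · rw [abs_sub_comm, abs_sub_comm w]
    exact h.phi_sub hw
  · exact h.phi_sub hw
lemma continuous_phi : Continuous (phi α bb t) :=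
  (LipschitzWith.of_dist_le' (K := (α none)⁻¹) fun w w' =>
    (h.phi_lip w w').trans_eq (div_eq_inv_mul _ _)).continuous
lemma phi_le {w : ℝ} (hw : 0 ≤ w) : w ≤ phi α bb t w ∧ phi α bb t w ≤ w / α none := by
  have h1 := h.Gam_sub le_rfl (h.phi_nonneg w)
  rw [h.Gam_phi hw, Gam_zero, sub_zero, sub_zero] at h1
  exact ⟨h1.2, (le_div_iff₀' (h.pos none)).2 h1.1⟩
lemma hasDerivAt_phi {w : ℝ} (hw : 0 < w) :
    HasDerivAt (phi α bb t) (SS α bb t (phi α bb t w))⁻¹ w :=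
  HasDerivAt.of_local_left_inverse h.continuous_phi.continuousAt (h.hasDerivAt_Gam (h.phi_nonneg w))
    ((h.pos none).trans_le (h.SS_mem (h.phi_nonneg w)).1).ne'
    ((lt_mem_nhds hw).mono fun _ hy => h.Gam_phi hy.le)
lemma dmu_prob : IsProbabilityMeasure (dmu α bb t) := dm_prob h.pos h.sum _
lemma isCompact_dmu : IsCompact (dmu α bb t).support := isCompact_support_dm h.pos _
lemma sSup_dmu : sSup (dmu α bb t).support = t := by
  rw [dmu, support_dm h.pos]
  refine IsGreatest.csSup_eq ⟨⟨none, rfl⟩, Set.forall_mem_range.2 fun o => ?_⟩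
  cases o with
  | none => exact le_rfl
  | some k => exact h.le k
lemma stieltjes_dmu (z : ℝ) :
    stieltjes (dmu α bb t) z = ∑ o, α o / (z - t + gap bb t o) := by
  rw [stieltjes, dmu, integral_dm h.pos]
  refine sum_congr rfl fun o _ => ?_
  cases o <;> simp [gap, div_eq_mul_inv]
lemma stieltjes_Gam {τ : ℝ} (hτ : 0 < τ) : stieltjes (dmu α bb t) (t + τ⁻¹) = Gam α bb t τ := by
  rw [h.stieltjes_dmu, Gam, gg, mul_sum]
  refine sum_congr rfl fun o _ => ?_
  have h1 := (one_pos.trans_le (h.den_ge hτ.le o)).ne'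
  rw [add_sub_cancel_left, show τ⁻¹ + gap bb t o = (1 + gap bb t o * τ) / τ by field_simp]
  field_simp

lemma Kinv_dmu {w : ℝ} (hw : 0 < w) : Kinv (dmu α bb t) w = t + (phi α bb t w)⁻¹ := by
  have h1 := hw.trans_le (h.phi_le hw.le).1
  rw [Kinv, h.sSup_dmu]
  refine IsLeast.csInf_eq ⟨⟨lt_add_of_pos_right _ (inv_pos.2 h1),
    ((h.stieltjes_Gam h1).trans (h.Gam_phi hw.le)).le⟩, fun z hz => ?_⟩
  have h2 := sub_pos.2 hz.1
  have h3 := h.stieltjes_Gam (inv_pos.2 h2)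
  rw [inv_inv, add_sub_cancel] at h3
  have h4 := h.phi_mono (h3.symm.trans_le hz.2)
  rw [h.phi_Gam (inv_pos.2 h2).le] at h4
  exact le_sub_iff_add_le'.1 ((inv_le_comm₀ h2 h1).1 h4)

variable (π : Path)

lemma ptot_nonneg {j : ℕ} (hj : j ≤ π.r + 1) : 0 ≤ ptot α bb t π j :=
  sum_nonneg fun o _ => mul_nonneg (h.pos o).le (π.cc_nonneg (gap_nonneg h.le o) hj)
lemma ptot_mono {i j : ℕ} (hij : i ≤ j) (hj : j ≤ π.r + 1) :
    ptot α bb t π i ≤ ptot α bb t π j :=
  sum_le_sum fun o _ => mul_le_mul_of_nonneg_left (π.cc_mono (gap_nonneg h.le o) hij hj)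
    (h.pos o).le
lemma ptot_zero : ptot α bb t π 0 = π.t 0 * SS α bb t (π.tau 0) := by
  simp only [ptot, Path.cc, Path.dc, SS, zero_add, range_one, sum_singleton, mul_sum]
  exact sum_congr rfl fun o _ => by ring
lemma ptot_succ {l : ℕ} (hl : l ≤ π.r) :
    π.m (l + 1) * (ptot α bb t π (l + 1) - ptot α bb t π l) =
      Gam α bb t (π.tau l) - Gam α bb t (π.tau (l + 1)) := by
  rw [h.Gam_diff (π.tau_nonneg _) (π.tau_nonneg _), ← sub_eq_iff_eq_add'.2 (π.tau_succ hl) |>.symm]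
  simp only [ptot, Path.cc, sum_range_succ _ (l + 1), Path.dc, mul_add, sum_add_distrib,
    add_sub_cancel_left, mul_sum]
  exact sum_congr rfl fun o _ => by ring
lemma top_le : α none * π.t (π.r + 1) ≤ ptot α bb t π (π.r + 1) :=
  le_of_eq_of_le (congrArg _ (π.cc_zero _).symm) (single_le_sum
    (f := fun o => α o * π.cc (gap bb t o) (π.r + 1))
    (fun o _ => mul_nonneg (h.pos o).le (π.cc_nonneg (gap_nonneg h.le o) le_rfl)) (mem_univ none))
lemma sub_tail {l : ℕ} (hl : l ≤ π.r + 1) :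
    ptot α bb t π (π.r + 1) - tail π.r π.m (ptot α bb t π) l =
      Gam α bb t (π.tau l) + π.m l * ptot α bb t π l := by
  induction hl using Nat.decreasingInduction with
  | self => simp [tail, π.tau_top, Gam_zero, π.m_top]
  | of_succ k hk ih =>
    have h1 := h.ptot_succ π (Nat.le_of_lt_succ hk)
    rw [tail] at ih
    rw [tail, sum_eq_sum_Ico_succ_bot hk]
    linarith
lemma continuous_chi : Continuous (chi α bb t π) := by
  unfold chi
  fun_prop
lemma chi_nonneg {q : ℝ} (hq : q ≤ ptot α bb t π (π.r + 1)) : 0 ≤ chi α bb t π q := by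
  refine sub_nonneg.2 ((sum_le_sum fun i hi => mul_le_mul_of_nonneg_left
    (max_le hq (h.ptot_mono π (mem_range.1 hi).le le_rfl)) (sub_nonneg.2 (π.m_mono i))).trans_eq ?_)
  rw [← sum_mul, sum_range_sub, π.m_top _ (Nat.lt_succ_self _), π.m_zero, sub_zero, one_mul]

lemma chi_at {j : ℕ} (hj : j ≤ π.r + 1) {q : ℝ} (h1 : ∀ i < j, ptot α bb t π i ≤ q)
    (h2 : q ≤ ptot α bb t π j) :
    chi α bb t π q = Gam α bb t (π.tau j) + π.m j * (ptot α bb t π j - q) := by
  have h3 := h.sub_tail π hj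
  rw [chi, emax_at π.m_zero hj h1 fun i hi hi' => h2.trans (h.ptot_mono π hi (Nat.le_succ_of_le hi'))]
  linarith

lemma trace_piece {u I : ℝ → ℝ} (hu : ContinuousOn u (Set.Ici 0))
    (hI : ∀ τ, 0 ≤ τ → HasDerivAt I (u τ * SS α bb t τ) τ) {a b c m : ℝ} (hab : a ≤ b)
    (hc : 0 ≤ c) (hm : 0 < m) :
    ∫ q in a..b, u (phi α bb t (c + m * (b - q))) =
      m⁻¹ * (I (phi α bb t (c + m * (b - a))) - I (phi α bb t c)) := by
  have h1 : Continuous fun q => phi α bb t (c + m * (b - q)) := h.continuous_phi.comp (by fun_prop)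
  have h2 : Continuous fun q => -m⁻¹ * I (phi α bb t (c + m * (b - q))) :=
    continuous_const.mul (continuous_iff_continuousAt.2 fun q =>
      ContinuousAt.comp (f := fun q => phi α bb t (c + m * (b - q)))
        (hI _ (h.phi_nonneg _)).continuousAt h1.continuousAt)
  refine (intervalIntegral.integral_eq_sub_of_hasDerivAt_of_le hab h2.continuousOn (fun q hq => ?_)
    ((hu.comp_continuous h1 fun q => h.phi_nonneg _).intervalIntegrable _ _)).trans (by
      rw [sub_self, mul_zero, add_zero]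
      ring)
  have h3 := add_pos_of_nonneg_of_pos hc (mul_pos hm (sub_pos.2 hq.2))
  have h4 := ((h.pos none).trans_le (h.SS_mem (h.phi_nonneg (c + m * (b - q)))).1).ne'
  have h5 := (h.hasDerivAt_phi h3).comp q
    ((((hasDerivAt_id' q).const_sub b).const_mul m).const_add c)
  have h6 := (hI _ (h.phi_nonneg (c + m * (b - q)))).comp q h5
  refine (h6.const_mul (-m⁻¹)).congr_deriv ?_
  simp only [Function.comp_apply]
  field_simp

theorem trace {u I : ℝ → ℝ} (hu : ContinuousOn u (Set.Ici 0))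
    (hI : ∀ τ, 0 ≤ τ → HasDerivAt I (u τ * SS α bb t τ) τ) :
    ∫ q in (0 : ℝ)..ptot α bb t π (π.r + 1), u (phi α bb t (chi α bb t π q)) =
      ptot α bb t π 0 * u (π.tau 0) +
        ∑ l ∈ range (π.r + 1), (π.m (l + 1))⁻¹ * (I (π.tau l) - I (π.tau (l + 1))) := by
  have hc : Continuous fun q => u (phi α bb t (chi α bb t π q)) :=
    hu.comp_continuous (h.continuous_phi.comp (h.continuous_chi π)) fun q => h.phi_nonneg _
  rw [← intervalIntegral.integral_add_adjacent_intervals (b := ptot α bb t π 0)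
    (hc.intervalIntegrable _ _) (hc.intervalIntegrable _ _),
    ← intervalIntegral.sum_integral_adjacent_intervals fun _ _ => hc.intervalIntegrable _ _]
  refine congrArg₂ _ ?_ (sum_congr rfl fun l hl => ?_)
  · rw [intervalIntegral.integral_congr (g := fun _ => u (π.tau 0)) fun q hq => ?_,
      intervalIntegral.integral_const, sub_zero, smul_eq_mul]
    rw [Set.uIcc_of_le (h.ptot_nonneg π (Nat.zero_le _))] at hq
    beta_reduce
    rw [h.chi_at π (Nat.zero_le _) (fun _ hi => absurd hi (Nat.not_lt_zero _)) hq.2, π.m_zero,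
      zero_mul, add_zero, h.phi_Gam (π.tau_nonneg _)]
  have hl' := mem_range.1 hl
  have h1 := h.ptot_mono π l.le_succ hl'
  have h2 := h.trace_piece hu hI h1 (h.Gam_nonneg (π.tau_nonneg (l + 1)))
    (π.m_pos.trans_le (monotone_nat_of_le_succ π.m_mono (Nat.le_add_left 1 l)))
  rw [h.ptot_succ π (Nat.le_of_lt_succ hl'), add_sub_cancel, h.phi_Gam (π.tau_nonneg _),
    h.phi_Gam (π.tau_nonneg _)] at h2
  refine (intervalIntegral.integral_congr fun q hq => ?_).trans h2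
  rw [Set.uIcc_of_le h1] at hq
  beta_reduce
  rw [h.chi_at π hl' (fun i hi => (h.ptot_mono π (Nat.le_of_lt_succ hi) hl'.le).trans hq.1) hq.2]

end Sp

end

end Vale.Agent.P166
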