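import Vale.Agent.P166.Defs0

/-! P166 Psd: positive semidefinite kernels and their square roots.
Plan: unfold PSD to Matrix.PosSemidef; Matrix.PosSemidef.add / smul / hadamard (Mathlib.Analysis.Matrix.Order) / submatrix;
psd_gram: of (gram a) = A * A^T (Matrix.posSemidef_self_mul_conjTranspose). gram_sqr: CFC.sqrt_mul_sqrt_self and self-adjointness.
continuousOn_sqr: either CFC.continuousOn_sqrt (open scoped Matrix.Norms.L2Operator; the norm topology is the product topology),
or by hand: sequences, roots are bounded (sum of squares of a row = diagonal entry), a cluster point is PSD with the right square,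
uniqueness (CFC.sqrt_unique or Matrix.PosSemidef.eq_of_sq_eq_sq). measurable_sqr: the PSD set is closed, sqr is 0 outside
(cfc junk value, see multivariateGaussian_of_not_posSemidef in Mathlib), ContinuousOn.measurable_piecewise.
exists_root_near: L = sqrt A; |(L-1)v| <= |(L+1)(L-1)v| = |(A-1)v| since L is PSD. -/

open MeasureTheory ProbabilityTheory Filter Topology Matrix Finset
open scoped MatrixOrder

namespace Vale.Agent.P166

noncomputable section

variable {S I : Type} [Fintype S] [Fintype I]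

lemma PSD.symm {C : S → S → ℝ} (h : PSD C) (s s' : S) : C s s' = C s' s :=
  (h.isHermitian.apply s s').symm

lemma psd_quad_eq (C : S → S → ℝ) (v : S → ℝ) :
    star v ⬝ᵥ (Matrix.of C *ᵥ v) = ∑ s, ∑ s', v s * C s s' * v s' := by
  simp only [dotProduct, mulVec, star_trivial, Matrix.of_apply, Finset.mul_sum, mul_assoc]

lemma PSD.quad_nonneg {C : S → S → ℝ} (h : PSD C) (v : S → ℝ) :
    0 ≤ ∑ s, ∑ s', v s * C s s' * v s' := by
  rw [← psd_quad_eq]
  exact Matrix.PosSemidef.dotProduct_mulVec_nonneg h v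
lemma psd_of_quad {C : S → S → ℝ} (hs : ∀ s s', C s s' = C s' s)
    (h : ∀ v : S → ℝ, 0 ≤ ∑ s, ∑ s', v s * C s s' * v s') : PSD C :=
  Matrix.PosSemidef.of_dotProduct_mulVec_nonneg (Matrix.IsHermitian.ext fun s s' => hs s' s)
    fun v => by
      rw [psd_quad_eq]
      exact h v
lemma PSD.diag_nonneg {C : S → S → ℝ} (h : PSD C) (s : S) : 0 ≤ C s s :=
  Matrix.PosSemidef.diag_nonneg h
lemma PSD.sq_le {C : S → S → ℝ} (h : PSD C) (s s' : S) : C s s' ^ 2 ≤ C s s * C s' s' := by
  have h1 : PSD fun i j : Fin 2 => C (![s, s'] i) (![s, s'] j) :=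
    Matrix.PosSemidef.submatrix h ![s, s']
  have h2 : discrim (C s s) (2 * C s s') (C s' s') ≤ 0 := discrim_le_zero fun t => by
    have h3 := h1.quad_nonneg ![t, 1]
    simp only [Fin.sum_univ_two, Matrix.cons_val_zero, Matrix.cons_val_one] at h3
    rw [h.symm s' s] at h3
    linarith
  rw [discrim] at h2
  linarith
lemma psd_gram (a : S → I → ℝ) : PSD (gram a) :=
  Matrix.posSemidef_self_mul_conjTranspose (Matrix.of a)
lemma psd_zero : PSD fun _ _ : S => (0 : ℝ) := Matrix.PosSemidef.zero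
lemma psd_const {c : ℝ} (hc : 0 ≤ c) : PSD fun _ _ : S => c :=
  Matrix.PosSemidef.submatrix (Matrix.PosSemidef.diagonal (d := fun _ : Unit => c) fun _ => hc)
    fun _ : S => ()
lemma psd_rank_one (v : S → ℝ) : PSD fun s s' => v s * v s' :=
  Matrix.posSemidef_vecMulVec_self_star v
lemma PSD.add {C C' : S → S → ℝ} (h : PSD C) (h' : PSD C') :
    PSD fun s s' => C s s' + C' s s' := Matrix.PosSemidef.add h h'
lemma PSD.smul {C : S → S → ℝ} (h : PSD C) {c : ℝ} (hc : 0 ≤ c) :
    PSD fun s s' => c * C s s' := Matrix.PosSemidef.smul h hc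
lemma PSD.mul {C C' : S → S → ℝ} (h : PSD C) (h' : PSD C') :
    PSD fun s s' => C s s' * C' s s' := Matrix.PosSemidef.hadamard h h'
lemma PSD.pow {C : S → S → ℝ} (h : PSD C) (p : ℕ) : PSD fun s s' => C s s' ^ p := by
  induction p with
  | zero => simpa only [pow_zero] using psd_const zero_le_one
  | succ p ih => simpa only [pow_succ] using ih.mul h
lemma psd_sum {ι : Type} (t : Finset ι) {C : ι → S → S → ℝ} (h : ∀ i ∈ t, PSD (C i)) :
    PSD fun s s' => ∑ i ∈ t, C i s s' := by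
  classical
  induction t using Finset.induction_on with
  | empty => simpa only [Finset.sum_empty] using psd_zero
  | insert a t ha ih =>
    simpa only [Finset.sum_insert ha] using (h a (Finset.mem_insert_self a t)).add
      (ih fun i hi => h i (Finset.mem_insert_of_mem hi))
lemma PSD.comp {S' : Type} [Fintype S'] {C : S → S → ℝ} (h : PSD C) (π : S' → S) :
    PSD fun s s' => C (π s) (π s') := Matrix.PosSemidef.submatrix h π
lemma PSD.pow_sub {C C' : S → S → ℝ} (h : PSD C) (h' : PSD fun s s' => C' s s' - C s s') (p : ℕ) :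
    PSD fun s s' => C' s s' ^ p - C s s' ^ p := by
  have h1 : PSD C' := by simpa only [add_sub_cancel] using h.add h'
  induction p with
  | zero => simpa only [pow_zero, sub_self] using psd_zero
  | succ p ih =>
    have e : (fun s s' => C' s s' ^ (p + 1) - C s s' ^ (p + 1)) = fun s s' =>
        C' s s' * (C' s s' ^ p - C s s' ^ p) + (C' s s' - C s s') * C s s' ^ p := by
      funext s s'
      ring
    rw [e]
    exact (h1.mul ih).add (h'.mul (h.pow p))
lemma isClosed_psd : IsClosed {C : S → S → ℝ | PSD C} := by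
  have e : {C : S → S → ℝ | PSD C} = (⋂ s, ⋂ s', {C : S → S → ℝ | C s s' = C s' s}) ∩
      ⋂ v : S → ℝ, {C : S → S → ℝ | 0 ≤ ∑ s, ∑ s', v s * C s s' * v s'} := by
    ext C
    simp only [Set.mem_ofPred_eq, Set.mem_inter_iff, Set.mem_iInter]
    exact ⟨fun h => ⟨h.symm, h.quad_nonneg⟩, fun h => psd_of_quad h.1 h.2⟩
  rw [e]
  exact (isClosed_iInter fun s => isClosed_iInter fun s' =>
    isClosed_eq (by fun_prop) (by fun_prop)).inter
      (isClosed_iInter fun v => isClosed_le continuous_const (by fun_prop))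

lemma psd_sqrt_mul [DecidableEq S] {A : Matrix S S ℝ} (hA : A.PosSemidef) :
    CFC.sqrt A * (CFC.sqrt A)ᵀ = A := by
  have h1 : (CFC.sqrt A).PosSemidef := Matrix.nonneg_iff_posSemidef.1 (CFC.sqrt_nonneg A)
  have h2 : (CFC.sqrt A)ᵀ = CFC.sqrt A := h1.isHermitian
  rw [h2, CFC.sqrt_mul_sqrt_self A hA.nonneg]

lemma gram_sqr {C : S → S → ℝ} (h : PSD C) : gram (sqr C) = C := by
  classical
  exact psd_sqrt_mul (A := Matrix.of C) h

open scoped Matrix.Norms.L2Operator in
lemma psd_continuousOn_sqrt [DecidableEq S] :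
    ContinuousOn (CFC.sqrt : Matrix S S ℝ → Matrix S S ℝ) {A | 0 ≤ A} := CFC.continuousOn_sqrt

lemma continuousOn_sqr : ContinuousOn (sqr : (S → S → ℝ) → S → S → ℝ) {C | PSD C} := by
  classical
  exact (psd_continuousOn_sqrt (S := S)).mono fun C hC => Matrix.PosSemidef.nonneg hC
lemma measurable_sqr : Measurable (sqr : (S → S → ℝ) → S → S → ℝ) := by
  classical
  have e : (sqr : (S → S → ℝ) → S → S → ℝ) = Set.piecewise {C | PSD C} sqr fun _ => 0 := by
    funext C
    by_cases h : PSD C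
    · rw [Set.piecewise_eq_of_mem {C | PSD C} _ _ h]
    · rw [Set.piecewise_eq_of_notMem {C | PSD C} _ _ h]
      exact CFC.sqrt_of_not_nonneg (a := Matrix.of C)
        fun h' => h (Matrix.nonneg_iff_posSemidef.1 h')
  rw [e]
  exact continuousOn_sqr.measurable_piecewise continuousOn_const isClosed_psd.measurableSet

/-- a Gram matrix close to the identity has an invertible root close to the identity -/
lemma exists_root_near [DecidableEq S] (A : Matrix S S ℝ) (hA : A.PosSemidef) {η : ℝ}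
    (hη : 0 ≤ η) (hη1 : η < 1)
    (h : ∀ v : S → ℝ, ∑ s, (((A - 1) *ᵥ v) s) ^ 2 ≤ η ^ 2 * ∑ s, v s ^ 2) :
    ∃ L : Matrix S S ℝ, L * Lᵀ = A ∧ IsUnit L.det ∧
      ∀ v : S → ℝ, ∑ s, (((L - 1) *ᵥ v) s) ^ 2 ≤ η ^ 2 * ∑ s, v s ^ 2 := by
  have h1 : (CFC.sqrt A).PosSemidef := Matrix.nonneg_iff_posSemidef.1 (CFC.sqrt_nonneg A)
  have h2 : CFC.sqrt A * CFC.sqrt A = A := CFC.sqrt_mul_sqrt_self A hA.nonneg
  have h3 : ∀ v : S → ℝ, ∑ s, (((CFC.sqrt A - 1) *ᵥ v) s) ^ 2 ≤ η ^ 2 * ∑ s, v s ^ 2 := by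
    intro v
    refine le_trans ?_ (h v)
    have e : (A - 1) *ᵥ v = CFC.sqrt A *ᵥ ((CFC.sqrt A - 1) *ᵥ v) + (CFC.sqrt A - 1) *ᵥ v := by
      rw [Matrix.mulVec_mulVec, ← Matrix.add_mulVec, mul_sub, h2, mul_one, sub_add_sub_cancel]
    rw [e]
    generalize (CFC.sqrt A - 1) *ᵥ v = w
    have h4 := h1.dotProduct_mulVec_nonneg w
    simp only [dotProduct, star_trivial] at h4
    have h5 : ∑ s, ((CFC.sqrt A *ᵥ w + w) s) ^ 2 = ∑ s, w s ^ 2 +
        (∑ s, (CFC.sqrt A *ᵥ w) s ^ 2 + 2 * ∑ s, w s * (CFC.sqrt A *ᵥ w) s) := by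
      rw [Finset.mul_sum, ← Finset.sum_add_distrib, ← Finset.sum_add_distrib]
      exact Finset.sum_congr rfl fun s _ => by rw [Pi.add_apply]; ring
    have h6 : 0 ≤ ∑ s, (CFC.sqrt A *ᵥ w) s ^ 2 := Finset.sum_nonneg fun s _ => sq_nonneg _
    linarith
  refine ⟨CFC.sqrt A, psd_sqrt_mul hA, isUnit_iff_ne_zero.2 fun h0 => ?_, h3⟩
  obtain ⟨v, hv, hv0⟩ := Matrix.exists_mulVec_eq_zero_iff.2 h0
  have h4 := h3 v
  simp only [Matrix.sub_mulVec, hv0, Matrix.one_mulVec, zero_sub, Pi.neg_apply, neg_sq] at h4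
  obtain ⟨s, hs⟩ := Function.ne_iff.1 hv
  have h5 : 0 < ∑ s, v s ^ 2 := Finset.sum_pos' (fun s _ => sq_nonneg _)
    ⟨s, Finset.mem_univ s, sq_pos_of_ne_zero hs⟩
  have h6 : η ^ 2 < 1 := by nlinarith
  nlinarith

end

end Vale.Agent.P166
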