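import Vale.Agent.P166.Defs1
import Vale.Agent.P166.Psd
import Vale.Agent.P157.GGext

/-! P166 Arr: laws of overlap arrays, limits along the ultrafilter.
Plan. integral_law: integral_finset_sum_measure, integral_map, integral_withDensity_eq_integral_smul (or integral_withDensity_eq_integral_toReal_smul), integral_finset_sum; total mass from
sum of the products of Gibbs weights = av of 1. exists_gga: ProbabilityMeasure (Fin n -> Fin n -> VV r) is compact (as in P157 SyncLim / Stab), nu n = limit of the laws along the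
ultrafilter (Ultrafilter.lim, le_nhds_lim; ProbabilityMeasure.tendsto_iff_forall_integral_tendsto). cons: E_comp_inj and ext_of_forall_integral_eq_of_IsFiniteMeasure.
gg: first for continuous f and psi = v.1^p * indL j (limit of the defect), then all continuous psi (P157.ggx_all in P157/GGext, VV r is P157.KK r and psiK p j is v.1^p * indL j), then sets:
both sides are finite measures on (arrays) x VV r, Measure.ext_of_integral_mul_boundedContinuousFunction (see P157.ggset_of_arrGG).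
tendsto_on: Tietze (ContinuousMap.exists_restrict_eq) and ae_mem. ae_mem: test with the continuous function min 1 (infDist A s) (s nonempty because some system has an array in it), or portmanteau. -/

open MeasureTheory ProbabilityTheory Filter Topology Matrix Finset

namespace Vale.Agent.P166

noncomputable section

namespace Sys

variable {V : Type} [MeasurableSpace V] (X : Sys V)

lemma measurable_arr {n : ℕ} (σ : Fin n → X.S) : Measurable fun ω => X.arr ω σ := by
  exact measurable_pi_lambda _ fun a => measurable_pi_lambda _ fun a' => X.mR _ _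
lemma arr_w_meas {n : ℕ} (σ : Fin n → X.S) :
    Measurable fun ω => ∏ l, gw (X.H ω) (σ l) :=
  Finset.measurable_prod _ fun l _ => measurable_gw X.mH (σ l)

lemma arr_w_nonneg {n : ℕ} (σ : Fin n → X.S) (ω : X.Ω) : 0 ≤ ∏ l, gw (X.H ω) (σ l) :=
  Finset.prod_nonneg fun _ _ => gw_nonneg _ _

lemma arr_w_le {n : ℕ} (σ : Fin n → X.S) (ω : X.Ω) : ∏ l, gw (X.H ω) (σ l) ≤ 1 := by
  refine Finset.prod_le_one (fun l _ => gw_nonneg _ _) fun l _ => ?_
  rw [← sum_gw (X.H ω)]
  exact Finset.single_le_sum (f := gw (X.H ω)) (fun s _ => gw_nonneg _ s) (Finset.mem_univ _)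

lemma arr_w_int {n : ℕ} (σ : Fin n → X.S) {g : X.Ω → ℝ} (hg : Measurable g) {B : ℝ}
    (hB : ∀ ω, |g ω| ≤ B) : Integrable (fun ω => (∏ l, gw (X.H ω) (σ l)) * g ω) X.P := by
  refine Integrable.of_bound ((X.arr_w_meas σ).mul hg).aestronglyMeasurable B
    (Eventually.of_forall fun ω => ?_)
  rw [Real.norm_eq_abs, abs_mul, abs_of_nonneg (X.arr_w_nonneg σ ω)]
  calc _ ≤ 1 * |g ω| := mul_le_mul_of_nonneg_right (X.arr_w_le σ ω) (abs_nonneg _)
    _ ≤ B := by rw [one_mul]; exact hB ω

lemma arr_fin {n : ℕ} (σ : Fin n → X.S) :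
    IsFiniteMeasure (X.P.withDensity fun ω => ENNReal.ofReal (∏ l, gw (X.H ω) (σ l))) := by
  have h := X.arr_w_int σ (g := fun _ => 1) measurable_const (B := 1) (fun _ => by simp)
  simp only [mul_one] at h
  exact isFiniteMeasure_withDensity_ofReal h.2

lemma arr_integral_law (n : ℕ) {f : (Fin n → Fin n → V) → ℝ} (hf : Measurable f) {B : ℝ}
    (hB : ∀ A, |f A| ≤ B) : ∫ A, f A ∂X.law n = X.E n fun ω σ => f (X.arr ω σ) := by
  unfold law E av
  rw [integral_finsetSum_measure, integral_finsetSum]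
  · refine Finset.sum_congr rfl fun σ _ => ?_
    rw [integral_map (X.measurable_arr σ).aemeasurable hf.aestronglyMeasurable,
      integral_withDensity_eq_integral_toReal_smul (X.arr_w_meas σ).ennreal_ofReal
        (Eventually.of_forall fun ω => ENNReal.ofReal_lt_top)]
    refine integral_congr_ae (Eventually.of_forall fun ω => ?_)
    simp only [ENNReal.toReal_ofReal (X.arr_w_nonneg σ ω), smul_eq_mul]
  · exact fun σ _ => X.arr_w_int σ (hf.comp (X.measurable_arr σ)) fun ω => hB _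
  · intro σ _
    have := X.arr_fin σ
    exact Integrable.of_bound hf.aestronglyMeasurable B (Eventually.of_forall hB)

instance (n : ℕ) : IsProbabilityMeasure (X.law n) := by
  refine isProbabilityMeasure_iff_real.2 ?_
  have h := X.arr_integral_law n (f := fun _ => 1) measurable_const (B := 1) (fun _ => by simp)
  simp only [E, av_const, integral_const, probReal_univ, smul_eq_mul, mul_one] at h
  exact h
lemma integral_law (n : ℕ) {f : (Fin n → Fin n → V) → ℝ} (hf : Measurable f) {B : ℝ}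
    (hB : ∀ A, |f A| ≤ B) : ∫ A, f A ∂X.law n = X.E n fun ω σ => f (X.arr ω σ) := by
  exact X.arr_integral_law n hf hB
lemma abs_E_le (n : ℕ) {F : X.Ω → (Fin n → X.S) → ℝ} {B : ℝ} (hB : ∀ ω σ, |F ω σ| ≤ B) :
    |X.E n F| ≤ B := by
  have h := norm_integral_le_of_norm_le_const (μ := X.P) (f := fun ω => av n (X.H ω) (F ω))
    (C := B) (Eventually.of_forall fun ω => abs_av_le_const n _ (hB ω))
  simpa only [probReal_univ, mul_one, Real.norm_eq_abs, E] using h
lemma integrable_av (n : ℕ) {F : X.Ω → (Fin n → X.S) → ℝ} (hF : ∀ σ, Measurable fun ω => F ω σ)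
    {B : ℝ} (hB : ∀ ω σ, |F ω σ| ≤ B) : Integrable (fun ω => av n (X.H ω) (F ω)) X.P := by
  exact Integrable.of_bound (measurable_av n X.mH hF).aestronglyMeasurable B
    (Eventually.of_forall fun ω => abs_av_le_const n _ (hB ω))
lemma E_const (n : ℕ) (c : ℝ) : X.E n (fun _ _ => c) = c := by
  simp only [E, av_const, integral_const, probReal_univ, smul_eq_mul, one_mul]
lemma E_add (n : ℕ) {F G : X.Ω → (Fin n → X.S) → ℝ} (hF : ∀ σ, Measurable fun ω => F ω σ)
    (hG : ∀ σ, Measurable fun ω => G ω σ) {B B' : ℝ} (hB : ∀ ω σ, |F ω σ| ≤ B)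
    (hB' : ∀ ω σ, |G ω σ| ≤ B') :
    X.E n (fun ω σ => F ω σ + G ω σ) = X.E n F + X.E n G := by
  unfold E
  rw [← integral_add (X.integrable_av n hF hB) (X.integrable_av n hG hB')]
  exact integral_congr_ae (Eventually.of_forall fun ω => av_add n _ (F ω) (G ω))
lemma E_mul_left (n : ℕ) (F : X.Ω → (Fin n → X.S) → ℝ) (c : ℝ) :
    X.E n (fun ω σ => c * F ω σ) = c * X.E n F := by
  unfold E
  rw [← integral_const_mul]
  exact integral_congr_ae (Eventually.of_forall fun ω => av_mul_left n _ (F ω) c)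
lemma abs_E_sub_le (n : ℕ) {F G : X.Ω → (Fin n → X.S) → ℝ} (hF : ∀ σ, Measurable fun ω => F ω σ)
    (hG : ∀ σ, Measurable fun ω => G ω σ) {B B' : ℝ} (hB : ∀ ω σ, |F ω σ| ≤ B)
    (hB' : ∀ ω σ, |G ω σ| ≤ B') {e : ℝ} (h : ∀ ω σ, |F ω σ - G ω σ| ≤ e) :
    |X.E n F - X.E n G| ≤ e := by
  have h1 : X.E n F - X.E n G = X.E n fun ω σ => F ω σ - G ω σ := by
    unfold E
    rw [← integral_sub (X.integrable_av n hF hB) (X.integrable_av n hG hB')]
    exact integral_congr_ae (Eventually.of_forall fun ω => (av_sub n _ (F ω) (G ω)).symm)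
  rw [h1]
  exact X.abs_E_le n h
lemma E_comp_inj {n n' : ℕ} (e : Fin n → Fin n') (he : Function.Injective e)
    (F : X.Ω → (Fin n → X.S) → ℝ) :
    X.E n' (fun ω σ => F ω fun l => σ (e l)) = X.E n F := by
  unfold E
  exact integral_congr_ae (Eventually.of_forall fun ω => av_comp_inj e he _ (F ω))

/-- defect in the Ghirlanda-Guerra identity -/
def defect (n : ℕ) (f : (Fin (n + 1) → Fin (n + 1) → V) → ℝ) (ψ : V → ℝ) : ℝ :=
  ((n : ℝ) + 1) * X.E (n + 2)
      (fun ω σ => f (X.arr ω fun l => σ l.castSucc) * ψ (X.R ω (σ 0) (σ (Fin.last _)))) -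
    X.E (n + 1) (fun ω σ => f (X.arr ω σ)) * X.E 2 (fun ω σ => ψ (X.R ω (σ 0) (σ 1))) -
    ∑ l : Fin n, X.E (n + 1) fun ω σ => f (X.arr ω σ) * ψ (X.R ω (σ 0) (σ l.succ))

end Sys

variable {r : ℕ}

lemma continuous_indL (j : ℕ) : Continuous (indL j : VV r → ℝ) := by
  exact (continuous_of_discreteTopology (f := fun i : Fin (r + 1) =>
    if j ≤ (i : ℕ) then (1 : ℝ) else 0)).comp continuous_snd
lemma abs_indL_le (j : ℕ) (v : VV r) : |indL j v| ≤ 1 := by
  unfold indL
  split_ifs <;> simp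
lemma continuous_lvl : Continuous fun v : VV r => (v.2 : ℕ) := by
  exact (continuous_of_discreteTopology (f := fun i : Fin (r + 1) => (i : ℕ))).comp continuous_snd
lemma measurable_offd {V : Type} [MeasurableSpace V] {κ : V → ℕ} (hκ : Measurable κ) (n : ℕ) :
    Measurable (offd κ : (Fin n → Fin n → V) → Fin n → Fin n → ℕ) := by
  refine measurable_pi_lambda _ fun a => measurable_pi_lambda _ fun a' => ?_
  unfold offd
  split_ifs
  · exact measurable_const
  · exact hκ.comp ((measurable_pi_apply a').comp (measurable_pi_apply a))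

instance arrBorel (n : ℕ) : BorelSpace (Fin n → Fin n → VV r) := inferInstance
instance arrOpens (n : ℕ) : OpensMeasurableSpace (Fin n → Fin n → VV r) :=
  BorelSpace.opensMeasurable
instance arrCompact (n : ℕ) : CompactSpace (Fin n → Fin n → VV r) := inferInstance
instance arrSecond (n : ℕ) : SecondCountableTopology (Fin n → Fin n → VV r) := inferInstance
instance arrT2 (n : ℕ) : T2Space (Fin n → Fin n → VV r) := inferInstance
instance arrMetr (n : ℕ) : TopologicalSpace.PseudoMetrizableSpace (Fin n → Fin n → VV r) :=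
  inferInstance
instance arrOuter (n : ℕ) : HasOuterApproxClosed (Fin n → Fin n → VV r) := inferInstance
instance arrCompactP (n : ℕ) : CompactSpace (ProbabilityMeasure (Fin n → Fin n → VV r)) :=
  inferInstance

/-- the law of the array as a probability measure -/
def arrP (X : Sys (VV r)) (n : ℕ) : ProbabilityMeasure (Fin n → Fin n → VV r) :=
  ⟨X.law n, inferInstance⟩

lemma arr_integral_cont (X : Sys (VV r)) (n : ℕ) {f : (Fin n → Fin n → VV r) → ℝ}
    (hf : Continuous f) : ∫ A, f A ∂X.law n = X.E n fun ω σ => f (X.arr ω σ) :=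
  X.integral_law n hf.measurable (B := ‖(⟨f, hf⟩ : C(Fin n → Fin n → VV r, ℝ))‖) fun A =>
    (⟨f, hf⟩ : C(Fin n → Fin n → VV r, ℝ)).norm_coe_le_norm A

lemma arr_int {Y : Type} [TopologicalSpace Y] [CompactSpace Y] [MeasurableSpace Y]
    [OpensMeasurableSpace Y] (Λ : Measure Y) [IsFiniteMeasure Λ] {F : Y → ℝ}
    (hF : Continuous F) : Integrable F Λ :=
  hF.integrable_of_hasCompactSupport (HasCompactSupport.of_compactSpace _)

/-- the functional `ψ ↦ ∫ Φ A * ψ (e A)` -/
def arrT {Y : Type} [TopologicalSpace Y] [CompactSpace Y] [MeasurableSpace Y]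
    [OpensMeasurableSpace Y] (Λ : Measure Y) [IsProbabilityMeasure Λ] (Φ : C(Y, ℝ))
    (e : C(Y, VV r)) : C(VV r, ℝ) →L[ℝ] ℝ :=
  LinearMap.mkContinuous
    { toFun := fun ψ => ∫ A, Φ A * ψ (e A) ∂Λ
      map_add' := fun ψ ψ' => by
        simp only [ContinuousMap.add_apply, mul_add]
        exact integral_add (arr_int Λ (by fun_prop)) (arr_int Λ (by fun_prop))
      map_smul' := fun c ψ => by
        simp only [ContinuousMap.smul_apply, smul_eq_mul, RingHom.id_apply, mul_left_comm _ c]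
        exact integral_const_mul _ _ } ‖Φ‖ fun ψ => by
    have := norm_integral_le_of_norm_le_const (μ := Λ) (f := fun A => Φ A * ψ (e A))
      (C := ‖Φ‖ * ‖ψ‖) (Filter.Eventually.of_forall fun A => by
        rw [norm_mul]
        exact mul_le_mul (Φ.norm_coe_le_norm _) (ψ.norm_coe_le_norm _) (norm_nonneg _)
          (norm_nonneg _))
    simpa using this

lemma arrT_apply {Y : Type} [TopologicalSpace Y] [CompactSpace Y] [MeasurableSpace Y]
    [OpensMeasurableSpace Y] (Λ : Measure Y) [IsProbabilityMeasure Λ] (Φ : C(Y, ℝ))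
    (e : C(Y, VV r)) (ψ : C(VV r, ℝ)) : arrT Λ Φ e ψ = ∫ A, Φ A * ψ (e A) ∂Λ := rfl

lemma arr_gg_cont {n : ℕ} (Λ2 : Measure (Fin (n + 2) → Fin (n + 2) → VV r))
    (Λ1 : Measure (Fin (n + 1) → Fin (n + 1) → VV r)) (Λ0 : Measure (Fin 2 → Fin 2 → VV r))
    [IsProbabilityMeasure Λ2] [IsProbabilityMeasure Λ1] [IsProbabilityMeasure Λ0]
    (h : ∀ (p j : ℕ) (f : (Fin (n + 1) → Fin (n + 1) → VV r) → ℝ), j ≤ r → Continuous f →
      (∀ A, |f A| ≤ 1) →
      ((n : ℝ) + 1) * ∫ A, f (fun a a' => A a.castSucc a'.castSucc) *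
          (fun v : VV r => (v.1 : ℝ) ^ p * indL j v) (A 0 (Fin.last _)) ∂Λ2 -
        (∫ A, f A ∂Λ1) * ∫ A, (fun v : VV r => (v.1 : ℝ) ^ p * indL j v) (A 0 1) ∂Λ0 -
        ∑ l : Fin n, ∫ A, f A * (fun v : VV r => (v.1 : ℝ) ^ p * indL j v) (A 0 l.succ) ∂Λ1 = 0)
    (Φ : C(Fin (n + 1) → Fin (n + 1) → VV r, ℝ)) (ψ : C(VV r, ℝ)) :
    ((n : ℝ) + 1) * ∫ A, Φ (fun a a' => A a.castSucc a'.castSucc) * ψ (A 0 (Fin.last _)) ∂Λ2 =
      (∫ A, Φ A ∂Λ1) * ∫ A, ψ (A 0 1) ∂Λ0 + ∑ l : Fin n, ∫ A, Φ A * ψ (A 0 l.succ) ∂Λ1 := by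
  have key := P157.ggx_all (k := r) (((n : ℝ) + 1) • arrT Λ2
      (Φ.comp ⟨fun A a a' => A a.castSucc a'.castSucc, by fun_prop⟩)
      ⟨fun A => A 0 (Fin.last _), by fun_prop⟩ -
    (∫ A, Φ A ∂Λ1) • arrT Λ0 1 ⟨fun A => A 0 1, by fun_prop⟩ -
    ∑ l : Fin n, arrT Λ1 Φ ⟨fun A => A 0 l.succ, by fun_prop⟩) (fun a j hj => ?_) ψ
  · simp only [_root_.sub_apply, _root_.smul_apply,
      _root_.sum_apply, arrT_apply, smul_eq_mul, ContinuousMap.one_apply,
      one_mul, ContinuousMap.comp_apply, ContinuousMap.coe_mk] at key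
    linarith
  have c0 : 0 < ‖Φ‖ + 1 := by positivity
  have h1 := h a j (fun A => (‖Φ‖ + 1)⁻¹ * Φ A) hj (by fun_prop) fun A => by
      rw [abs_mul, abs_of_pos (inv_pos.2 c0), inv_mul_le_iff₀ c0]
      linarith [Φ.norm_coe_le_norm A, Real.norm_eq_abs (Φ A)]
  simp only [mul_assoc, integral_const_mul, ← Finset.mul_sum] at h1
  rw [mul_left_comm, ← mul_sub, ← mul_sub, mul_eq_zero_iff_left (inv_pos.2 c0).ne'] at h1
  simpa only [_root_.sub_apply, _root_.smul_apply,
    _root_.sum_apply, arrT_apply, smul_eq_mul, ContinuousMap.one_apply,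
    one_mul, P157.ggxP_apply, ContinuousMap.comp_apply, ContinuousMap.coe_mk] using! h1

lemma arr_gg_set {n : ℕ} (Λ2 : Measure (Fin (n + 2) → Fin (n + 2) → VV r))
    (Λ1 : Measure (Fin (n + 1) → Fin (n + 1) → VV r)) (Λ0 : Measure (Fin 2 → Fin 2 → VV r))
    [IsProbabilityMeasure Λ2] [IsProbabilityMeasure Λ1] [IsProbabilityMeasure Λ0]
    (h : ∀ (p j : ℕ) (f : (Fin (n + 1) → Fin (n + 1) → VV r) → ℝ), j ≤ r → Continuous f →
      (∀ A, |f A| ≤ 1) →
      ((n : ℝ) + 1) * ∫ A, f (fun a a' => A a.castSucc a'.castSucc) *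
          (fun v : VV r => (v.1 : ℝ) ^ p * indL j v) (A 0 (Fin.last _)) ∂Λ2 -
        (∫ A, f A ∂Λ1) * ∫ A, (fun v : VV r => (v.1 : ℝ) ^ p * indL j v) (A 0 1) ∂Λ0 -
        ∑ l : Fin n, ∫ A, f A * (fun v : VV r => (v.1 : ℝ) ^ p * indL j v) (A 0 l.succ) ∂Λ1 = 0)
    (E : Set (Fin (n + 1) → Fin (n + 1) → VV r)) (D : Set (VV r)) (hE : MeasurableSet E)
    (hD : MeasurableSet D) :
    ((n : ℝ) + 1) * Λ2.real
        {X | (fun a a' => X (Fin.castSucc a) (Fin.castSucc a')) ∈ E ∧ X 0 (Fin.last _) ∈ D} =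
      Λ1.real E * Λ0.real {X | X 0 1 ∈ D} + ∑ l : Fin n, Λ1.real {X | X ∈ E ∧ X 0 l.succ ∈ D} := by
  have m2 : Measurable fun A : Fin (n + 2) → Fin (n + 2) → VV r =>
      ((fun a a' : Fin (n + 1) => A a.castSucc a'.castSucc), A 0 (Fin.last _)) := by fun_prop
  have m0 : Measurable fun A : Fin 2 → Fin 2 → VV r => A 0 1 := by fun_prop
  have m1 : ∀ l : Fin n, Measurable fun A : Fin (n + 1) → Fin (n + 1) → VV r =>
      (A, A 0 l.succ) := fun l => by fun_prop
  have eq : ((n + 1 : ℕ) : NNReal) • Λ2.map (fun A =>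
      ((fun a a' : Fin (n + 1) => A a.castSucc a'.castSucc), A 0 (Fin.last _))) =
      Λ1.prod (Λ0.map fun A => A 0 1) + ∑ l : Fin n, Λ1.map fun A => (A, A 0 l.succ) := by
    refine Measure.ext_of_integral_mul_boundedContinuousFunction fun f g => ?_
    have cf : Continuous fun p : (Fin (n + 1) → Fin (n + 1) → VV r) × VV r => f p.1 * g p.2 := by
      fun_prop
    rw [integral_smul_nnreal_measure, integral_add_measure (arr_int _ cf) (arr_int _ cf),
      integral_finsetSum_measure fun l _ => arr_int _ cf, integral_prod_mul,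
      integral_map m0.aemeasurable g.continuous.aestronglyMeasurable,
      integral_map m2.aemeasurable cf.aestronglyMeasurable]
    simp only [integral_map (m1 _).aemeasurable cf.aestronglyMeasurable]
    have := arr_gg_cont Λ2 Λ1 Λ0 h f.toContinuousMap g.toContinuousMap
    simpa [NNReal.smul_def] using this
  have e2 := congrArg (fun μ => Measure.real μ (E ×ˢ D)) eq
  simp only [measureReal_nnreal_smul_apply] at e2
  rw [measureReal_add_apply, measureReal_prod_prod, map_measureReal_apply m2 (hE.prod hD),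
    map_measureReal_apply m0 hD] at e2
  push_cast at e2
  refine e2.trans ?_
  congr 1
  rw [Measure.real, Measure.finsetSum_apply, ENNReal.toReal_sum fun l _ => measure_ne_top _ _]
  exact Finset.sum_congr rfl fun l _ => map_measureReal_apply (m1 l) (hE.prod hD)

theorem exists_gga (X : ℕ → Sys (VV r))
    (h : ∀ (n p j : ℕ) (f : (Fin (n + 1) → Fin (n + 1) → VV r) → ℝ), j ≤ r → Continuous f →
      (∀ A, |f A| ≤ 1) → Tendsto (fun i => (X i).defect n f fun v => (v.1 : ℝ) ^ p * indL j v)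
        (hyperfilter ℕ) (𝓝 0)) :
    ∃ G : GGA (VV r), Conv X G := by
  have hex : ∀ n : ℕ, ∃ ν : ProbabilityMeasure (Fin n → Fin n → VV r),
      Tendsto (fun i => arrP (X i) n) (hyperfilter ℕ) (𝓝 ν) := fun n => by
    obtain ⟨ν, -, hν⟩ := isCompact_univ.ultrafilter_le_nhds
      ((hyperfilter ℕ).map fun i => arrP (X i) n) (by simp)
    exact ⟨ν, hν⟩
  choose ν hν using hex
  have hc : ∀ (n : ℕ) (f : (Fin n → Fin n → VV r) → ℝ), Continuous f →
      Tendsto (fun i => (X i).E n fun ω σ => f ((X i).arr ω σ)) (hyperfilter ℕ)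
        (𝓝 (∫ A, f A ∂(ν n : Measure _))) := fun n f hf => by
    have h1 := ProbabilityMeasure.tendsto_iff_forall_integral_tendsto.1 (hν n)
      (BoundedContinuousFunction.mkOfCompact ⟨f, hf⟩)
    exact h1.congr fun i => arr_integral_cont (X i) n hf
  refine ⟨⟨fun n => ν n, fun n => inferInstance, fun n n' e he => ?_, fun n => ?_⟩, hc⟩
  · have hF : Continuous fun (A : Fin n' → Fin n' → VV r) a a' => A (e a) (e a') := by fun_prop
    refine ext_of_forall_integral_eq_of_IsFiniteMeasure fun f => ?_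
    rw [integral_map hF.measurable.aemeasurable f.continuous.aestronglyMeasurable]
    refine tendsto_nhds_unique (hc n' _ (f.continuous.comp hF)) ((hc n f f.continuous).congr fun i => ?_)
    exact ((X i).E_comp_inj e he fun ω σ => f ((X i).arr ω σ)).symm
  · refine arr_gg_set (r := r) _ _ _ fun p j f hj hf hb => ?_
    have hψ : Continuous fun v : VV r => (v.1 : ℝ) ^ p * indL j v :=
      ((continuous_subtype_val.comp continuous_fst).pow p).mul (continuous_indL j)
    refine tendsto_nhds_unique ?_ (h n p j f hj hf hb)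
    refine Tendsto.sub (Tendsto.sub (Tendsto.const_mul _ ?_) (Tendsto.mul (hc _ f hf) ?_))
      (tendsto_finsetSum _ fun l _ => ?_)
    · exact hc (n + 2) (fun A => f (fun a a' => A a.castSucc a'.castSucc) *
        (fun v : VV r => (v.1 : ℝ) ^ p * indL j v) (A 0 (Fin.last _)))
        ((hf.comp (by fun_prop)).mul (hψ.comp (by fun_prop)))
    · exact hc 2 (fun A => (fun v : VV r => (v.1 : ℝ) ^ p * indL j v) (A 0 1))
        (hψ.comp (by fun_prop))
    · exact hc (n + 1) (fun A => f A * (fun v : VV r => (v.1 : ℝ) ^ p * indL j v) (A 0 l.succ))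
        (hf.mul (hψ.comp (by fun_prop)))

namespace Conv

variable {X : ℕ → Sys (VV r)} {G : GGA (VV r)}

lemma ae_mem (h : Conv X G) {n : ℕ} {s : Set (Fin n → Fin n → VV r)} (hs : IsClosed s)
    (hm : ∀ᶠ i in hyperfilter ℕ, ∀ ω σ, (X i).arr ω σ ∈ s) : ∀ᵐ A ∂G.ν n, A ∈ s := by
  have h0 : Tendsto (fun i => arrP (X i) n) (hyperfilter ℕ)
      (𝓝 (⟨G.ν n, G.prob n⟩ : ProbabilityMeasure (Fin n → Fin n → VV r))) :=
    ProbabilityMeasure.tendsto_iff_forall_integral_tendsto.2 fun f =>
      (h n f f.continuous).congr fun i => (arr_integral_cont (X i) n f.continuous).symm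
  have h1 := ProbabilityMeasure.le_liminf_measure_open_of_tendsto h0 hs.isOpen_compl
  have h2 : ∀ᶠ i in hyperfilter ℕ, (arrP (X i) n : Measure (Fin n → Fin n → VV r)) sᶜ = 0 := by
    filter_upwards [hm] with i hi
    change (X i).law n sᶜ = 0
    unfold Sys.law
    rw [Measure.finsetSum_apply]
    refine Finset.sum_eq_zero fun σ _ => ?_
    rw [Measure.map_apply ((X i).measurable_arr σ) hs.isOpen_compl.measurableSet]
    have : (fun ω => (X i).arr ω σ) ⁻¹' sᶜ = ∅ :=
      Set.eq_empty_of_forall_notMem fun ω hω => hω (hi ω σ)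
    rw [this, measure_empty]
  rw [liminf_congr h2, liminf_const] at h1
  exact le_antisymm h1 bot_le

lemma tendsto_on (h : Conv X G) {n : ℕ} {s : Set (Fin n → Fin n → VV r)} (hs : IsClosed s)
    (hm : ∀ᶠ i in hyperfilter ℕ, ∀ ω σ, (X i).arr ω σ ∈ s)
    {f : (Fin n → Fin n → VV r) → ℝ} (hf : ContinuousOn f s) :
    Tendsto (fun i => (X i).E n fun ω σ => f ((X i).arr ω σ)) (hyperfilter ℕ)
      (𝓝 (∫ A, f A ∂G.ν n)) := by
  obtain ⟨g, hg⟩ := ContinuousMap.exists_restrict_eq hs ⟨s.domRestrict f, hf.domRestrict⟩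
  have hg' : ∀ A ∈ s, g A = f A := fun A hA => DFunLike.congr_fun hg ⟨A, hA⟩
  have h1 : ∫ A, f A ∂G.ν n = ∫ A, g A ∂G.ν n :=
    integral_congr_ae ((h.ae_mem hs hm).mono fun A hA => (hg' A hA).symm)
  rw [h1]
  refine (h n g g.continuous).congr' (hm.mono fun i hi => ?_)
  simp only [hg' _ (hi _ _)]

lemma gram (h : Conv X G) {φ : VV r → ℝ} (hφ : Continuous φ) {d : ℝ}
    (hp : ∀ i ω, PSD fun s s' => φ ((X i).R ω s s'))
    (hd : Tendsto (fun i => (X i).E 1 fun ω σ => |φ ((X i).R ω (σ 0) (σ 0)) - d|)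
      (hyperfilter ℕ) (𝓝 0)) : G.Gram φ d := by
  refine ⟨fun n => ?_, fun n => ae_all_iff.2 fun a => ?_⟩
  · have hc : Continuous fun (A : Fin n → Fin n → VV r) a a' => φ (A a a') := by fun_prop
    exact h.ae_mem (isClosed_psd.preimage hc)
      (Eventually.of_forall fun i ω σ => (hp i ω).comp σ)
  · have hc : Continuous fun A : Fin n → Fin n → VV r => |φ (A a a) - d| := by fun_prop
    have h1 : ∫ A, |φ (A a a) - d| ∂G.ν n = 0 := by
      refine tendsto_nhds_unique (h n _ hc) (hd.congr fun i => ?_)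
      exact ((X i).E_comp_inj (fun _ : Fin 1 => a) (Function.injective_of_subsingleton _)
        fun ω σ => |φ ((X i).R ω (σ 0) (σ 0)) - d|).symm
    rw [integral_eq_zero_iff_of_nonneg (fun A => abs_nonneg _) (arr_int _ hc)] at h1
    filter_upwards [h1] with A hA
    exact sub_eq_zero.1 (abs_eq_zero.1 hA)

lemma tendsto_zeta (h : Conv X G) {f : VV r → ℝ} (hf : Continuous f) :
    Tendsto (fun i => (X i).E 2 fun ω σ => f ((X i).R ω (σ 0) (σ 1))) (hyperfilter ℕ)
      (𝓝 (∫ v, f v ∂G.zeta)) := by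
  have m0 : Measurable fun A : Fin 2 → Fin 2 → VV r => A 0 1 := by fun_prop
  unfold GGA.zeta
  rw [integral_map m0.aemeasurable hf.aestronglyMeasurable]
  exact h 2 (fun A => f (A 0 1)) (by fun_prop)

end Conv

namespace GGA

variable {V : Type} [MeasurableSpace V] (G : GGA V)

instance : IsProbabilityMeasure G.zeta := by
  exact Measure.isProbabilityMeasure_map (Measurable.aemeasurable (by fun_prop))
lemma ae_comp {n n' : ℕ} (e : Fin n → Fin n') (he : Function.Injective e)
    {p : (Fin n → Fin n → V) → Prop} (h : ∀ᵐ A ∂G.ν n, p A) :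
    ∀ᵐ A ∂G.ν n', p fun a a' => A (e a) (e a') := by
  rw [← G.cons n n' e he] at h
  exact ae_of_ae_map (Measurable.aemeasurable (by fun_prop)) h
lemma map_entry {n : ℕ} {a a' : Fin n} (h : a ≠ a') :
    (G.ν n).map (fun A => A a a') = G.zeta := by
  have he : Function.Injective (![a, a'] : Fin 2 → Fin n) := by
    intro i j hij
    fin_cases i <;> fin_cases j <;> simp_all [eq_comm]
  unfold zeta
  rw [← G.cons 2 n _ he, Measure.map_map (by fun_prop) (by fun_prop)]
  rfl
lemma ae_entry {n : ℕ} {p : V → Prop} (h : ∀ᵐ v ∂G.zeta, p v) :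
    ∀ᵐ A ∂G.ν n, ∀ a a', a ≠ a' → p (A a a') := by
  refine ae_all_iff.2 fun a => ae_all_iff.2 fun a' => ?_
  by_cases ha : a = a'
  · exact Eventually.of_forall fun A h' => absurd ha h'
  · rw [← G.map_entry ha] at h
    exact (ae_of_ae_map (Measurable.aemeasurable (by fun_prop)) h).mono fun A hA _ => hA
lemma Gram.abs_le {G : GGA V} {φ : V → ℝ} {d : ℝ} (h : G.Gram φ d) (hφ : Measurable φ) :
    0 ≤ d ∧ ∀ᵐ v ∂G.zeta, |φ v| ≤ d := by
  have hd : 0 ≤ d := by
    obtain ⟨A, h1, h2⟩ := ((h.psd 1).and (h.diag 1)).exists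
    rw [← h2 0]
    exact h1.diag_nonneg 0
  refine ⟨hd, ?_⟩
  unfold zeta
  refine (ae_map_iff (Measurable.aemeasurable (by fun_prop))
    (measurableSet_le (continuous_abs.measurable.comp hφ) measurable_const)).2 ?_
  filter_upwards [h.psd 2, h.diag 2] with A h1 h2
  have h3 := h1.sq_le 0 1
  simp only [h2] at h3
  exact abs_le_of_sq_le_sq (by rwa [pow_two d]) hd

end GGA

/-- measurable functions are `L¹(ζ)` limits of continuous ones -/
lemma exists_cont_near (ζ : Measure (VV r)) [IsProbabilityMeasure ζ] {f : VV r → ℝ}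
    (hf : Measurable f) (hb : ∀ v, |f v| ≤ 1) {e : ℝ} (he : 0 < e) :
    ∃ g : VV r → ℝ, Continuous g ∧ (∀ v, |g v| ≤ 1) ∧ ∫ v, |g v - f v| ∂ζ ≤ e := by
  have hi : Integrable f ζ := Integrable.of_bound hf.aestronglyMeasurable 1 (Eventually.of_forall hb)
  obtain ⟨g, hg, hgi⟩ := hi.exists_boundedContinuous_integral_sub_le he
  have hc : Continuous fun v => max (-1) (min 1 (g v)) := by fun_prop
  refine ⟨fun v => max (-1) (min 1 (g v)), hc, fun v => ?_, le_trans ?_ hg⟩
  · exact abs_le.2 ⟨le_max_left _ _, max_le (by norm_num) (min_le_left _ _)⟩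
  · refine integral_mono ((arr_int _ hc).sub hi).abs (hi.sub hgi).norm fun v => ?_
    have h1 := abs_le.1 (hb v)
    have h2 := le_abs_self (f v - g v)
    have h3 := neg_abs_le (f v - g v)
    simp only [Real.norm_eq_abs]
    rw [abs_le]
    rcases le_total 1 (g v) with h4 | h4
    · rw [min_eq_left h4, max_eq_right (by norm_num)]
      constructor <;> linarith [abs_nonneg (f v - g v)]
    · rw [min_eq_right h4]
      rcases le_total (-1) (g v) with h5 | h5
      · rw [max_eq_right h5]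
        constructor <;> linarith
      · rw [max_eq_left h5]
        constructor <;> linarith [abs_nonneg (f v - g v)]

end

end Vale.Agent.P166
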