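import Vale.Agent.P166.Fg
import Vale.Agent.P166.Cas

/-! P166 CasG: the cavity fields of the cascade are conditionally Gaussian; comparison with the limit array.
Plan. cas_gauss: integral_prod; y depends only on the marks, H and R only on the other coordinate. For fixed leaves the field (l,f) -> y (sigma l) f is a linear Gaussian field (stt_add; features sqrt(dt i) 1[nu = anc i alpha_l]) whose
Gram kernel is the sum of dt i over i <= lev = t lev (anc_eq_iff, anc_inj, sum_dt); map_pi_swap, map_feat_gK. cas_mom: cas_gauss like computation or integral_eval_four.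
cas_lim: cas_gauss, lev alpha alpha = pi.r+1, drop the marks (integral over the first factor), cas_law with Phi Lb = phi Lb * PsiG (tker pi Lb).
tker_psd: cas_law with Phi the indicator of the non PSD kernels (on the cascade the kernel is a Gram kernel). near_PsiG: uniform continuity of PsiG on the compact set of PSD kernels with entries bounded by rho
(d <= 1 since d is a value of v.1); almost surely both kernels are PSD, agree on the diagonal (gT.diag, Disc.top) and differ by at most rho / n elsewhere (Disc.near, ae_entry). -/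

open MeasureTheory ProbabilityTheory Filter Topology Matrix Finset

namespace Vale.Agent.P166

noncomputable section

variable {F : Type} [Fintype F]

/-- kernel attached to an array of labels -/
def tker (π : Path) {k : ℕ} (Lb : Fin k → Fin k → ℕ) (l l' : Fin k) : ℝ :=
  if l = l' then π.t (π.r + 1) else π.t (Lb l l')

section Aux

variable (π : Path) {b : ℕ → ℕ} {n : ℕ} (α : Fin n → Leaf b 1 (π.r + 1))

open Classical in
/-- features of the cavity field at the leaves `α` -/
def casGA (l : Fin n) (ν : Option (Nd b 1 (π.r + 1))) : ℝ :=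
  ∑ i ∈ range (π.r + 1 + 1), if anc 1 (π.r + 1) i (α l) = ν then √(π.dt i) else 0

lemma casG_key (l : Fin n) (g : Option (Nd b 1 (π.r + 1)) → ℝ) :
    ∑ ν, casGA π α l ν * g ν =
      ∑ i ∈ range (π.r + 1 + 1), √(π.dt i) * g (anc 1 (π.r + 1) i (α l)) := by
  simp only [casGA, Finset.sum_mul, ite_mul, zero_mul]
  rw [Finset.sum_comm]
  simp only [Finset.sum_ite_eq, Finset.mem_univ, if_true]

lemma casG_gram : gram (casGA π α) = fun l l' => π.t (lev 1 (π.r + 1) (α l) (α l')) := by
  funext l l'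
  have hle := lev_le 1 (π.r + 1) (α l) (α l')
  rw [gram, casG_key, ← π.sum_dt, ← Finset.sum_subset (range_subset_range.2 (Nat.succ_le_succ hle))]
  · refine Finset.sum_congr rfl fun i hi => ?_
    have h1 : i ≤ lev 1 (π.r + 1) (α l) (α l') := Nat.lt_succ_iff.1 (mem_range.1 hi)
    rw [casGA, Finset.sum_eq_single_of_mem i (mem_range.2 (by omega)) fun i' hi' hne =>
      if_neg fun h => hne (anc_inj 1 _ i' i (Nat.lt_succ_iff.1 (mem_range.1 hi')) (h1.trans hle)
        _ _ h), if_pos ((anc_eq_iff 1 _ i (h1.trans hle) _ _).2 h1).symm,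
      Real.mul_self_sqrt (π.dt_nonneg (h1.trans hle))]
  · intro i hi hi'
    have h1 : i ≤ π.r + 1 := Nat.lt_succ_iff.1 (mem_range.1 hi)
    rw [casGA, Finset.sum_eq_zero, mul_zero]
    intro i' hi2
    refine if_neg fun h => hi' ?_
    obtain rfl := anc_inj 1 _ i' i (Nat.lt_succ_iff.1 (mem_range.1 hi2)) h1 _ _ h
    exact mem_range.2 (Nat.lt_succ_of_le ((anc_eq_iff 1 _ i' h1 _ _).1 h.symm))

lemma casG_psd : PSD fun l l' => π.t (lev 1 (π.r + 1) (α l) (α l')) :=
  casG_gram π α ▸ psd_gram _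

lemma casG_meas : Measurable fun (g : Option (Nd b 1 (π.r + 1)) → F → ℝ) (f : F) (l : Fin n) =>
    stt (stepG π.dt) (π.r + 1) 0 g (α l) f :=
  measurable_pi_lambda _ fun f => measurable_pi_lambda _ fun l =>
    (measurable_pi_apply f).comp (measurable_stt (measurable_stepG π.dt) (π.r + 1) 0 (α l))

lemma casG_field : (Measure.pi fun _ : Option (Nd b 1 (π.r + 1)) => gam F).map
    (fun g (f : F) (l : Fin n) => stt (stepG π.dt) (π.r + 1) 0 g (α l) f) =
      Measure.pi fun _ : F => gK fun l l' => π.t (lev 1 (π.r + 1) (α l) (α l')) := by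
  have e : (fun (g : Option (Nd b 1 (π.r + 1)) → F → ℝ) (f : F) (l : Fin n) =>
      stt (stepG π.dt) (π.r + 1) 0 g (α l) f) =
      (fun (G : F → Option (Nd b 1 (π.r + 1)) → ℝ) f => feat (casGA π α) (G f)) ∘
        fun g f ν => g ν f := by
    funext g f l
    have h := stt_add (fun i (w : F → ℝ) => √(π.dt i) • w) (π.r + 1) 0 g (α l)
    rw [zero_add] at h
    refine (congrFun h f).trans ?_
    rw [Finset.sum_apply, Function.comp_apply, feat, casG_key]
    rfl
  have m1 : Measurable fun (G : F → Option (Nd b 1 (π.r + 1)) → ℝ) f => feat (casGA π α) (G f) :=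
    measurable_pi_lambda _ fun f => (measurable_feat _).comp (measurable_pi_apply f)
  have m2 : Measurable fun (g : Option (Nd b 1 (π.r + 1)) → F → ℝ) f ν => g ν f := by fun_prop
  rw [e, ← Measure.map_map m1 m2, map_pi_swap fun _ _ => gaussianReal 0 1,
    Measure.pi_map_pi fun _ => (measurable_feat _).aemeasurable, map_feat_gK, casG_gram]

lemma casG_int {Ψ : (Fin n → F → ℝ) → ℝ} (hΨ : Measurable Ψ) :
    ∫ g, Ψ (fun l => stt (stepG π.dt) (π.r + 1) 0 g (α l))
      ∂(Measure.pi fun _ : Option (Nd b 1 (π.r + 1)) => gam F) =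
      PsiG n Ψ fun l l' => π.t (lev 1 (π.r + 1) (α l) (α l')) := by
  have m1 : Measurable fun G : F → Fin n → ℝ => Ψ fun l f => G f l := hΨ.comp (by fun_prop)
  rw [PsiG, ← casG_field, integral_map (casG_meas π α).aemeasurable m1.aestronglyMeasurable]

lemma casG_one (f : F) : MeasurePreserving (fun (g : Option (Nd b 1 (π.r + 1)) → F → ℝ)
    (l : Fin n) => stt (stepG π.dt) (π.r + 1) 0 g (α l) f) (Measure.pi fun _ => gam F)
      (gK fun l l' => π.t (lev 1 (π.r + 1) (α l) (α l'))) :=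
  (measurePreserving_eval _ f).comp ⟨casG_meas π α, casG_field π α⟩

lemma casG_tker (P : Pr) (ω : (RM0.sys (π.r + 1) b π.m P).Ω) (σ : Fin n → Cfg (π.r + 1) b Unit) :
    tker π (offd (fun v => (v.2 : ℕ)) ((RM0.sys (π.r + 1) b π.m P).arr ω σ)) =
      fun l l' => π.t (lev 1 (π.r + 1) (σ l).2 (σ l').2) := by
  funext l l'
  unfold tker offd
  split_ifs with h
  · rw [h, lev_self]
  · exact congrArg π.t (Rm_snd _ _ _)

end Aux

theorem cas_gauss (π : Path) (b : ℕ → ℕ) (P : Pr) (n : ℕ) {Ψ : (Fin n → F → ℝ) → ℝ}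
    (hΨ : Measurable Ψ) {B : ℝ} (hB : ∀ y, |Ψ y| ≤ B)
    {f : (Fin n → Fin n → VV (π.r + 1)) → ℝ} (hf : Measurable f) {B' : ℝ} (hf' : ∀ A, |f A| ≤ B') :
    (casYS F π b P).toSys.E n (fun ω σ => f ((casYS F π b P).toSys.arr ω σ) *
        Ψ fun l => (casYS F π b P).y ω (σ l)) =
      (RM0.sys (π.r + 1) b π.m P).E n fun ω σ => f ((RM0.sys (π.r + 1) b π.m P).arr ω σ) *
        PsiG n Ψ (tker π (offd (fun v => (v.2 : ℕ)) ((RM0.sys (π.r + 1) b π.m P).arr ω σ))) := by
  have hy : ∀ σ : Fin n → Cfg (π.r + 1) b Unit,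
      Measurable fun z l => (casYS F π b P).y z (σ l) := fun σ =>
    measurable_pi_lambda _ fun l => measurable_pi_lambda _ fun f => (casYS F π b P).my (σ l) f
  have hi := (casYS F π b P).toSys.integrable_av n
    (F := fun ω σ => f ((casYS F π b P).toSys.arr ω σ) * Ψ fun l => (casYS F π b P).y ω (σ l))
    (fun σ => (hf.comp ((casYS F π b P).toSys.measurable_arr σ)).mul (hΨ.comp (hy σ)))
    (B := B' * B) fun ω σ => by
      rw [abs_mul]
      exact mul_le_mul (hf' _) (hB _) (abs_nonneg _) ((abs_nonneg _).trans (hf' ((casYS F π b P).toSys.arr ω σ)))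
  refine (integral_prod _ hi).trans (integral_congr_ae (ae_of_all _ fun ω => ?_))
  simp only [av]
  rw [integral_finsetSum]
  · refine Finset.sum_congr rfl fun σ _ => ?_
    rw [casG_tker, ← casG_int π (fun l => (σ l).2) hΨ, ← integral_const_mul, ← integral_const_mul]
    rfl
  · intro σ _
    exact ((rmb_integrable (hΨ.comp ((hy σ).comp (measurable_prodMk_left (x := ω))))
      fun _ => hB _).const_mul
      (f ((RM0.sys (π.r + 1) b π.m P).arr ω σ))).const_mul
        (∏ l, gw ((RM0.sys (π.r + 1) b π.m P).H ω) (σ l))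

theorem cas_mom (π : Path) (b : ℕ → ℕ) (P : Pr) :
    (casYS F π b P).Mom (3 * π.t (π.r + 1) ^ 2) := by
  intro f
  have hg : ∀ s, Integrable (fun ω => gw ((RM0.sys (π.r + 1) b π.m P).H ω) s)
      (RM0.sys (π.r + 1) b π.m P).P := fun s =>
    rmb_integrable (B := 1) (measurable_gw (RM0.sys (π.r + 1) b π.m P).mH s) fun ω => by
      rw [abs_of_nonneg (gw_nonneg _ _)]
      exact (Finset.single_le_sum (fun s _ => gw_nonneg _ s) (mem_univ s)).trans (sum_gw _).le
  have hy : ∀ s : Cfg (π.r + 1) b Unit, Integrable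
      (fun g : Option (Nd b 1 (π.r + 1)) → F → ℝ => stt (stepG π.dt) (π.r + 1) 0 g s.2 f ^ 4)
      (Measure.pi fun _ => gam F) := fun s => by
    have h := (casG_one π (fun _ : Fin 1 => s.2) f).integrable_comp_of_integrable
      (integrable_eval_pow 0 4)
    simpa only [Function.comp_def, Even.pow_abs (show Even 4 by decide)] using h
  have hv : ∀ s : Cfg (π.r + 1) b Unit, ∫ g : Option (Nd b 1 (π.r + 1)) → F → ℝ,
      stt (stepG π.dt) (π.r + 1) 0 g s.2 f ^ 4 ∂(Measure.pi fun _ => gam F) =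
        3 * π.t (π.r + 1) ^ 2 := fun s => by
    have h := integral_eval_four (casG_psd π fun _ : Fin 1 => s.2) 0
    rw [← (casG_one π (fun _ : Fin 1 => s.2) f).map_eq, integral_map
      (casG_one π (fun _ : Fin 1 => s.2) f).measurable.aemeasurable
        ((measurable_pi_apply 0).pow_const 4).aestronglyMeasurable, lev_self] at h
    exact h
  have hi := fun s => (hg s).mul_prod (hy s)
  refine ⟨integrable_finsetSum _ fun s _ => hi s, le_of_eq ?_⟩
  refine (integral_finsetSum _ fun s _ => hi s).trans ?_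
  refine (Finset.sum_congr rfl fun s _ => (integral_prod_mul
    (fun ω => gw ((RM0.sys (π.r + 1) b π.m P).H ω) s)
    fun g => stt (stepG π.dt) (π.r + 1) 0 g s.2 f ^ 4).trans (congrArg _ (hv s))).trans ?_
  rw [← Finset.sum_mul, ← integral_finsetSum _ fun s _ => hg s]
  simp only [sum_gw, integral_const, probReal_univ, one_smul, one_mul]

variable {r : ℕ} {G : GGA (VV r)} {ϱ d : ℝ}

theorem cas_lim {n : ℕ} {π : Path} {lab : VV r → ℕ} (hD : Disc G ϱ d n π lab) {b : ℕ → ℕ → ℕ}
    {P : ℕ → Pr} (hc : GoodCas (π.r + 1) π.m b P) (k : ℕ) {Ψ : (Fin k → F → ℝ) → ℝ}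
    (hΨ : Measurable Ψ) {B : ℝ} (hB : ∀ y, |Ψ y| ≤ B) (φ : (Fin k → Fin k → ℕ) → ℝ) :
    Tendsto (fun i => (casYS F π (b i) (P i)).toSys.E k fun ω σ =>
        φ (offd (fun v => (v.2 : ℕ)) ((casYS F π (b i) (P i)).toSys.arr ω σ)) *
          Ψ fun l => (casYS F π (b i) (P i)).y ω (σ l)) (hyperfilter ℕ)
      (𝓝 (∫ A, φ (offd lab A) * PsiG k Ψ (tker π (offd lab A)) ∂G.ν k)) := by
  have hcont : Continuous fun A : Fin k → Fin k → VV (π.r + 1) =>
      φ (offd (fun v => (v.2 : ℕ)) A) := by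
    refine continuous_of_discreteTopology.comp
      (continuous_pi fun a => continuous_pi fun a' => ?_)
    unfold offd
    split_ifs
    · exact continuous_const
    · exact continuous_lvl.comp ((continuous_apply a').comp (continuous_apply a))
  obtain ⟨C, hC⟩ := isCompact_univ.exists_bound_of_continuousOn hcont.continuousOn
  refine (cas_law hD hc k fun Lb => φ Lb * PsiG k Ψ (tker π Lb)).congr fun i => ?_
  exact (cas_gauss π (b i) (P i) k hΨ hB hcont.measurable fun A => hC A trivial).symm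

theorem tker_psd {n : ℕ} {π : Path} {lab : VV r → ℕ} (hD : Disc G ϱ d n π lab) (k : ℕ) :
    ∀ᵐ A ∂G.ν k, PSD (tker π (offd lab A)) := by
  classical
  obtain ⟨b, P, hc⟩ := exists_goodCas π.mok
  have h := cas_law hD hc k fun Lb => if PSD (tker π Lb) then 0 else 1
  simp only [casG_tker, casG_psd, if_true, Sys.E_const] at h
  have hm : Measurable fun A : Fin k → Fin k → VV r =>
      if PSD (tker π (offd lab A)) then (0 : ℝ) else 1 :=
    (measurable_of_countable fun Lb => if PSD (tker π Lb) then (0 : ℝ) else 1).comp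
      (measurable_offd hD.meas k)
  have h0 := (integral_eq_zero_iff_of_nonneg (fun A => by dsimp only; split_ifs <;> simp)
    (rmb_integrable (B := 1) hm fun A => by split_ifs <;> simp)).1
      (tendsto_nhds_unique h tendsto_const_nhds)
  filter_upwards [h0] with A hA
  by_contra hn
  simp [hn] at hA

theorem near_PsiG (hϱ : 0 ≤ ϱ) (hT : G.Gram (fun v => (v.1 : ℝ)) d) (k : ℕ)
    {Ψ : (Fin k → F → ℝ) → ℝ} (hΨ : Continuous Ψ) {B : ℝ} (hB : ∀ y, |Ψ y| ≤ B) {e : ℝ}
    (he : 0 < e) : ∃ n0 : ℕ, ∀ n ≥ n0, ∀ (π : Path) (lab : VV r → ℕ), Disc G ϱ d n π lab →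
      ∀ᵐ A ∂G.ν k, |PsiG k Ψ (fun l l' => ϱ * ((A l l').1 : ℝ)) -
        PsiG k Ψ (tker π (offd lab A))| ≤ e := by
  have hK : IsCompact ({C : Fin k → Fin k → ℝ | PSD C} ∩
      Set.pi Set.univ fun _ => Set.pi Set.univ fun _ => Set.Icc (-(2 * ϱ)) (2 * ϱ)) :=
    (isCompact_univ_pi fun _ => isCompact_univ_pi fun _ => isCompact_Icc).inter_left isClosed_psd
  obtain ⟨δ, hδ, h⟩ := Metric.uniformContinuousOn_iff.1 (hK.uniformContinuousOn_of_continuous
    ((continuousOn_PsiG k hΨ hB).mono Set.inter_subset_left)) e he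
  obtain ⟨n0, hn0⟩ := exists_nat_gt (ϱ / δ)
  refine ⟨n0 + 1, fun n hn π lab hD => ?_⟩
  have hn1 : (1 : ℝ) ≤ n := by exact_mod_cast (by omega : 1 ≤ n)
  have hn2 : (n0 : ℝ) ≤ n := by exact_mod_cast (by omega : n0 ≤ n)
  have h1 : ϱ / n < δ := by
    rw [div_lt_iff₀ (by linarith), mul_comm]
    exact (div_lt_iff₀ hδ).1 (hn0.trans_le hn2)
  have h2 : ϱ / n ≤ ϱ := div_le_self hϱ hn1
  filter_upwards [hT.psd k, hT.diag k, tker_psd hD k, G.ae_entry (n := k) hD.near] with A a1 a2 a3 a4
  have b1 : ∀ l l', |ϱ * ((A l l').1 : ℝ)| ≤ ϱ := fun l l' => by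
    rw [abs_mul, abs_of_nonneg hϱ]
    exact mul_le_of_le_one_right hϱ (abs_le.2 (A l l').1.2)
  have b2 : ∀ l l', |ϱ * ((A l l').1 : ℝ) - tker π (offd lab A) l l'| ≤ ϱ / n := fun l l' => by
    unfold tker offd
    split_ifs with hl
    · rw [← hl, a2, hD.top, sub_self, abs_zero]
      positivity
    · exact (a4 l l' hl).2
  refine (h _ ⟨a1.smul hϱ, fun l _ l' _ => abs_le.1 ((b1 l l').trans (by linarith))⟩ _
    ⟨a3, fun l _ l' _ => ?_⟩ ?_).le
  · have c1 := abs_le.1 (b1 l l')
    have c2 := abs_le.1 (b2 l l')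
    constructor <;> linarith [c1.1, c1.2, c2.1, c2.2]
  · exact (dist_pi_lt_iff hδ).2 fun l => (dist_pi_lt_iff hδ).2 fun l' => (b2 l l').trans_lt h1

end

end Vale.Agent.P166
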