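import Vale.Agent.P166.Psd

/-! P166 Gauss: the law of a linear Gaussian field depends only on its Gram kernel.
Plan. map_feat_eq: push both sides to EuclideanSpace (MeasurableEquiv.toLp 2) and use Measure.ext_of_charFun; the characteristic function at v is
prod_i E exp(i t_i g_i) with t_i = sum_s v s * a s i (integral_fintype_prod_eq_prod, charFun_gaussianReal), i.e. exp(-(1/2) sum v v gram).
The other laws are special cases (index type S (+) S, measurePreserving_sumPiEquivProdPi; rows of the root composed with pi; etc.).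
map_pi_uncurry: Measure.pi_eq on boxes. gK_eval: features of the one point space, compare with sqrt(C s s) * g (gaussianReal_map_const_mul).
E exp(c|Y|) <= E exp(cY) + E exp(-cY) (mgf of gaussianReal). -/

open MeasureTheory ProbabilityTheory Filter Topology Matrix Finset

namespace Vale.Agent.P166

noncomputable section

variable {S I J : Type} [Fintype S] [Fintype I] [Fintype J]

lemma measurable_feat (a : S → I → ℝ) : Measurable (feat a) := by
  unfold feat
  fun_prop
lemma measurable_feat_prod {Ω : Type} [MeasurableSpace Ω] {a : Ω → S → I → ℝ}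
    (ha : ∀ s i, Measurable fun ω => a ω s i) (s : S) :
    Measurable fun z : Ω × (I → ℝ) => feat (a z.1) z.2 s :=
  Finset.measurable_sum _ fun i _ =>
    ((ha s i).comp measurable_fst).mul ((measurable_pi_apply i).comp measurable_snd)

instance (C : S → S → ℝ) : IsProbabilityMeasure (gK C) :=
  Measure.isProbabilityMeasure_map (measurable_feat _).aemeasurable

lemma gauss_lin (t : I → ℝ) : (gam I).map (fun g => ∑ i, t i * g i) =
    gaussianReal 0 (∑ i, t i ^ 2).toNNReal := by
  refine Measure.ext_of_charFun (funext fun u => ?_)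
  rw [charFun_apply_real, integral_map (Measurable.aemeasurable (by fun_prop)) (by fun_prop),
    charFun_gaussianReal,
    Real.coe_toNNReal _ (Finset.sum_nonneg fun _ _ => sq_nonneg _)]
  have e : ∀ g : I → ℝ, Complex.exp (u * ((∑ i, t i * g i : ℝ) : ℂ) * Complex.I) =
      ∏ i, Complex.exp (((u * t i : ℝ) : ℂ) * (g i : ℝ) * Complex.I) := fun g => by
    rw [← Complex.exp_sum]
    push_cast
    simp only [Finset.mul_sum, Finset.sum_mul, mul_assoc]
  simp only [e]
  rw [integral_fintype_prod_eq_prod
    (f := fun i (x : ℝ) => Complex.exp (((u * t i : ℝ) : ℂ) * x * Complex.I))]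
  simp only [← charFun_apply_real, charFun_gaussianReal, ← Complex.exp_sum]
  congr 1
  push_cast
  simp only [mul_zero, zero_sub, one_mul, Finset.sum_neg_distrib, Finset.mul_sum,
    Finset.sum_div, mul_pow, mul_comm]

lemma gauss_feat (a : S → I → ℝ) (v : S → ℝ) :
    ((gam I).map (feat a)).map (fun y => ∑ s, v s * y s) =
      gaussianReal 0 (∑ s, ∑ s', v s * gram a s s' * v s').toNNReal := by
  rw [Measure.map_map (by fun_prop) (measurable_feat a)]
  have e : (fun y : S → ℝ => ∑ s, v s * y s) ∘ feat a = fun g => ∑ i, (∑ s, v s * a s i) * g i := by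
    funext g
    simp only [Function.comp_apply, feat, Finset.mul_sum, Finset.sum_mul, mul_assoc]
    exact Finset.sum_comm
  rw [e, gauss_lin]
  congr 2
  simp only [gram, sq, Finset.mul_sum, Finset.sum_mul]
  rw [Finset.sum_comm]
  refine Finset.sum_congr rfl fun s _ => ?_
  rw [Finset.sum_comm]
  exact Finset.sum_congr rfl fun s' _ => Finset.sum_congr rfl fun i _ => by ring

open Classical in
lemma gauss_dual (a : S → I → ℝ) (L : StrongDual ℝ (S → ℝ)) :
    ((gam I).map (feat a)).map L = gaussianReal 0 (∑ s, ∑ s',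
      L (Pi.single s 1) * gram a s s' * L (Pi.single s' 1)).toNNReal := by
  rw [← gauss_feat]
  congr 1
  funext y
  conv_lhs => rw [← Finset.univ_sum_single y, map_sum]
  refine Finset.sum_congr rfl fun s _ => ?_
  rw [mul_comm, ← smul_eq_mul, ← map_smul, ← Pi.single_smul, smul_eq_mul, mul_one]

lemma map_feat_eq (a : S → I → ℝ) (a' : S → J → ℝ) (h : gram a = gram a') :
    (gam I).map (feat a) = (gam J).map (feat a') := by
  refine Measure.ext_of_charFunDual (funext fun L => ?_)
  rw [charFunDual_eq_charFun_map_one, charFunDual_eq_charFun_map_one, gauss_dual, gauss_dual, h]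
lemma map_feat_gK (a : S → I → ℝ) : (gam I).map (feat a) = gK (gram a) :=
  map_feat_eq _ _ (gram_sqr (psd_gram a)).symm
lemma gK_add {C C' : S → S → ℝ} (h : PSD C) (h' : PSD C') :
    ((gK C).prod (gK C')).map (fun p => p.1 + p.2) = gK fun s s' => C s s' + C' s s' := by
  have e : gram (fun s => Sum.elim (sqr C s) (sqr C' s)) = fun s s' => C s s' + C' s s' := by
    funext s s'
    rw [← congrFun (congrFun (gram_sqr h) s) s', ← congrFun (congrFun (gram_sqr h') s) s']
    exact Fintype.sum_sum_type _
  rw [← e, ← map_feat_gK, gK, gK, Measure.map_prod_map _ _ (measurable_feat _) (measurable_feat _),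
    ← (measurePreserving_sumPiEquivProdPi fun _ : S ⊕ S => gaussianReal 0 1).map_eq,
    Measure.map_map ((measurable_feat _).prodMap (measurable_feat _)) (MeasurableEquiv.measurable _),
    Measure.map_map (by fun_prop)
      (((measurable_feat _).prodMap (measurable_feat _)).comp (MeasurableEquiv.measurable _))]
  congr 1
  funext g s
  exact (Fintype.sum_sum_type fun i => Sum.elim (sqr C s) (sqr C' s) i * g i).symm
lemma gK_comp {S' : Type} [Fintype S'] {C : S → S → ℝ} (h : PSD C) (π : S' → S) :
    (gK C).map (fun y s => y (π s)) = gK fun s s' => C (π s) (π s') := by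
  rw [gK, Measure.map_map (by fun_prop) (measurable_feat _)]
  refine (map_feat_gK fun s => sqr C (π s)).trans (congrArg gK ?_)
  funext s s'
  exact congrFun (congrFun (gram_sqr h) (π s)) (π s')
lemma gK_smul {C : S → S → ℝ} (h : PSD C) (c : ℝ) :
    (gK C).map (fun y s => c * y s) = gK fun s s' => c ^ 2 * C s s' := by
  rw [gK, Measure.map_map (by fun_prop) (measurable_feat _)]
  have e : (fun (y : S → ℝ) s => c * y s) ∘ feat (sqr C) = feat fun s i => c * sqr C s i := by
    funext g s
    simp only [Function.comp_apply, feat, Finset.mul_sum, mul_assoc]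
  rw [e, map_feat_gK]
  congr 1
  funext s s'
  rw [← congrFun (congrFun (gram_sqr h) s) s', gram, gram, Finset.mul_sum]
  exact Finset.sum_congr rfl fun i _ => by ring
lemma gK_zero : gK (fun _ _ : S => (0 : ℝ)) = Measure.dirac 0 := by
  have e : gram (fun _ _ : S => (0 : ℝ)) = fun _ _ => 0 := by
    funext s s'
    simp [gram]
  have e' : feat (fun _ _ : S => (0 : ℝ)) = fun _ => 0 := by
    funext g s
    simp [feat]
  rw [← e, ← map_feat_gK, e', Measure.map_const, measure_univ, one_smul]
lemma gauss_eval (C : S → S → ℝ) (s : S) :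
    (gK C).map (fun y => y s) = gaussianReal 0 (gram (sqr C) s s).toNNReal := by
  rw [gK, Measure.map_map (measurable_pi_apply s) (measurable_feat _)]
  exact (gauss_lin (sqr C s)).trans (by simp only [sq, gram])
lemma gK_eval {C : S → S → ℝ} (h : PSD C) (s : S) :
    (gK C).map (fun y => y s) = gaussianReal 0 (C s s).toNNReal := by
  rw [gauss_eval, gram_sqr h]
lemma map_gam_orth [DecidableEq I] (B : Og I) : (gam I).map (fun g => B.1 *ᵥ g) = gam I := by
  have e : feat (fun i j : I => (1 : Matrix I I ℝ) i j) = id :=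
    funext fun g => Matrix.one_mulVec g
  refine (map_feat_eq (fun i j => B.1 i j) (fun i j : I => (1 : Matrix I I ℝ) i j) ?_).trans
    (by rw [e, Measure.map_id])
  have h1 : B.1 * B.1ᵀ = (1 : Matrix I I ℝ) * 1ᵀ := by
    rw [Matrix.transpose_one, mul_one]
    exact (Matrix.mem_orthogonalGroup_iff _ _).1 B.2
  funext i j
  exact congrFun (congrFun h1 i) j

lemma map_pi_uncurry {A : Type} [MeasurableSpace A] (μ : J → I → Measure A)
    [∀ j i, IsProbabilityMeasure (μ j i)] :
    (Measure.pi fun j => Measure.pi fun i => μ j i).map (fun g (p : J × I) => g p.1 p.2) =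
      Measure.pi fun p : J × I => μ p.1 p.2 := by
  refine (Measure.pi_eq fun s hs => ?_).symm
  have e : (fun (g : J → I → A) (p : J × I) => g p.1 p.2) ⁻¹' Set.univ.pi s =
      Set.univ.pi fun j => Set.univ.pi fun i => s (j, i) := by
    ext g
    simp
  rw [Measure.map_apply (by fun_prop) (MeasurableSet.univ_pi hs), e, Measure.pi_pi,
    Fintype.prod_prod_type]
  simp only [Measure.pi_pi]
lemma gauss_comp_inj {A : Type} [MeasurableSpace A] (μ : I → Measure A)
    [∀ i, IsProbabilityMeasure (μ i)] (e : J → I) (he : Function.Injective e) :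
    (Measure.pi μ).map (fun g j => g (e j)) = Measure.pi fun j => μ (e j) := by
  have h := (iIndepFun_pi (μ := μ) (X := fun _ x => x) fun _ => aemeasurable_id').precomp he
  rw [(iIndepFun_iff_map_fun_eq_pi_map fun j => (measurable_pi_apply (e j)).aemeasurable).1 h]
  exact congrArg Measure.pi (funext fun j => (measurePreserving_eval μ (e j)).map_eq)
lemma map_pi_swap {A : Type} [MeasurableSpace A] (μ : J → I → Measure A)
    [∀ j i, IsProbabilityMeasure (μ j i)] :
    (Measure.pi fun j => Measure.pi fun i => μ j i).map (fun g i j => g j i) =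
      Measure.pi fun i => Measure.pi fun j => μ j i := by
  apply (MeasurableEquiv.curry I J A).symm.map_measurableEquiv_injective
  have h1 := gauss_comp_inj (fun p : J × I => μ p.1 p.2) Prod.swap Prod.swap_injective
  rw [← map_pi_uncurry, Measure.map_map (by fun_prop) (by fun_prop)] at h1
  rw [Measure.map_map (MeasurableEquiv.measurable _) (by fun_prop)]
  exact h1.trans (map_pi_uncurry fun i j => μ j i).symm
lemma map_pi_comp_inj {A : Type} [MeasurableSpace A] (μ : I → Measure A)
    [∀ i, IsProbabilityMeasure (μ i)] (e : J → I) (he : Function.Injective e) :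
    (Measure.pi μ).map (fun g j => g (e j)) = Measure.pi fun j => μ (e j) :=
  gauss_comp_inj μ e he

lemma gauss_int {C : S → S → ℝ} (s : S) {f : ℝ → ℝ} (h : ∀ v, Integrable f (gaussianReal 0 v)) :
    Integrable (fun y : S → ℝ => f (y s)) (gK C) :=
  Integrable.comp_measurable (gauss_eval C s ▸ h _) (measurable_pi_apply s)

lemma gauss_integral (C : S → S → ℝ) (s : S) {f : ℝ → ℝ} (h : Measurable f) :
    ∫ y, f (y s) ∂gK C = ∫ x, f x ∂gaussianReal 0 (gram (sqr C) s s).toNNReal := by
  rw [← gauss_eval, integral_map (measurable_pi_apply s).aemeasurable h.aestronglyMeasurable]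

lemma gauss_two (v : NNReal) : ∫ x, x ^ 2 ∂gaussianReal 0 v = v := by
  have h := variance_fun_id_gaussianReal (μ := 0) (v := v)
  rw [variance_eq_integral measurable_id'.aemeasurable] at h
  simpa using h

lemma gauss_deriv (v : ℝ) (p q p' : ℝ → ℝ) (hp : ∀ t, HasDerivAt p (p' t) t)
    (hq : ∀ t, q t = p' t + v * t * p t) :
    deriv (fun t => p t * Real.exp (v * t ^ 2 / 2)) = fun t => q t * Real.exp (v * t ^ 2 / 2) := by
  funext t
  refine (((hp t).mul (((hasDerivAt_pow 2 t).const_mul v).div_const 2).exp).congr_deriv ?_).deriv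
  rw [hq]
  simp only [Nat.cast_ofNat, Nat.add_one_sub_one, pow_one]
  ring

lemma gauss_four (v : NNReal) : ∫ x, x ^ 4 ∂gaussianReal 0 v = 3 * (v : ℝ) ^ 2 := by
  have h := iteratedDeriv_mgf_zero (X := fun x : ℝ => x) (μ := gaussianReal 0 v) (by simp) 4
  have e : mgf (fun x : ℝ => x) (gaussianReal 0 v) =
      fun t => (1 : ℝ) * Real.exp (v * t ^ 2 / 2) := by
    simp [mgf_fun_id_gaussianReal]
  rw [e, iteratedDeriv_succ, iteratedDeriv_succ, iteratedDeriv_succ, iteratedDeriv_one,
    gauss_deriv v (fun _ => 1) (fun t => v * t) _ (fun t => hasDerivAt_const t 1)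
      (fun t => by ring),
    gauss_deriv v (fun t => v * t) (fun t => v + v ^ 2 * t ^ 2) _
      (fun t => (hasDerivAt_id' t).const_mul (v : ℝ)) (fun t => by ring),
    gauss_deriv v (fun t => v + v ^ 2 * t ^ 2) (fun t => 3 * v ^ 2 * t + v ^ 3 * t ^ 3) _
      (fun t => ((hasDerivAt_pow 2 t).const_mul ((v : ℝ) ^ 2)).const_add (v : ℝ))
      (fun t => by push_cast; ring),
    gauss_deriv v (fun t => 3 * v ^ 2 * t + v ^ 3 * t ^ 3) _ _
      (fun t => ((hasDerivAt_id' t).const_mul (3 * (v : ℝ) ^ 2)).add
        ((hasDerivAt_pow 3 t).const_mul ((v : ℝ) ^ 3))) (fun t => rfl)] at h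
  simpa using h.symm

lemma integrable_eval_pow {C : S → S → ℝ} (s : S) (k : ℕ) :
    Integrable (fun y : S → ℝ => |y s| ^ k) (gK C) :=
  gauss_int s (f := fun x => |x| ^ k) fun _ =>
    integrable_pow_abs_of_mem_interior_integrableExpSet (X := id) (by simp) k
lemma integrable_eval {C : S → S → ℝ} (s : S) : Integrable (fun y : S → ℝ => y s) (gK C) :=
  gauss_int s (f := fun x => x) fun _ => IsGaussian.integrable_id
lemma integral_eval (C : S → S → ℝ) (s : S) : ∫ y, y s ∂gK C = 0 :=
  (gauss_integral C s measurable_id').trans integral_id_gaussianReal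
lemma integral_eval_mul {C : S → S → ℝ} (h : PSD C) (s s' : S) :
    ∫ y, y s * y s' ∂gK C = C s s' := by
  have key : ∀ t : S → ℝ, Integrable (fun g => (∑ i, t i * g i) ^ 2) (gam S) ∧
      ∫ g, (∑ i, t i * g i) ^ 2 ∂gam S = ∑ i, t i ^ 2 := fun t => by
    have hm : Measurable fun g : S → ℝ => ∑ i, t i * g i := by fun_prop
    refine ⟨Integrable.comp_measurable (g := fun x => x ^ 2) (gauss_lin t ▸
      integrable_pow_of_mem_interior_integrableExpSet (X := id) (by simp) 2) hm, ?_⟩
    rw [← integral_map (f := fun x => x ^ 2) hm.aemeasurable (by fun_prop), gauss_lin, gauss_two,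
      Real.coe_toNNReal _ (Finset.sum_nonneg fun _ _ => sq_nonneg _)]
  obtain ⟨h1, h2⟩ := key (sqr C s + sqr C s')
  obtain ⟨h3, h4⟩ := key (sqr C s - sqr C s')
  have e : ∀ g, feat (sqr C) g s * feat (sqr C) g s' = ((∑ i, (sqr C s + sqr C s') i * g i) ^ 2 -
      (∑ i, (sqr C s - sqr C s') i * g i) ^ 2) / 4 := fun g => by
    simp only [feat, Pi.add_apply, Pi.sub_apply, add_mul, sub_mul, Finset.sum_add_distrib,
      Finset.sum_sub_distrib]
    ring
  rw [gK, integral_map (measurable_feat _).aemeasurable (by fun_prop)]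
  simp only [e]
  rw [integral_div, integral_sub h1 h3, h2, h4, ← Finset.sum_sub_distrib, Finset.sum_div,
    ← congrFun (congrFun (gram_sqr h) s) s']
  exact Finset.sum_congr rfl fun i _ => by simp only [Pi.add_apply, Pi.sub_apply]; ring
lemma integral_eval_four {C : S → S → ℝ} (h : PSD C) (s : S) :
    ∫ y, y s ^ 4 ∂gK C = 3 * C s s ^ 2 := by
  rw [gauss_integral C s (f := fun x => x ^ 4) (by fun_prop), gauss_four, gram_sqr h,
    Real.coe_toNNReal _ (h.diag_nonneg s)]
lemma integrable_exp_eval (C : S → S → ℝ) (s : S) (c : ℝ) :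
    Integrable (fun y : S → ℝ => Real.exp (c * y s)) (gK C) :=
  gauss_int s (f := fun x => Real.exp (c * x)) fun _ => integrable_exp_mul_gaussianReal c
lemma integral_exp_eval {C : S → S → ℝ} (h : PSD C) (s : S) (c : ℝ) :
    ∫ y, Real.exp (c * y s) ∂gK C = Real.exp (c ^ 2 * C s s / 2) := by
  refine (mgf_gaussianReal (gK_eval h s) c).trans ?_
  rw [Real.coe_toNNReal _ (h.diag_nonneg s), zero_mul, zero_add, mul_comm]
lemma gauss_exp_le [Nonempty S] {c : ℝ} (hc : 0 ≤ c) (y : S → ℝ) :
    Real.exp (c * ‖y‖) ≤ ∑ s, (Real.exp (c * y s) + Real.exp (-c * y s)) := by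
  obtain ⟨s, hs⟩ := Finite.exists_max fun s => ‖y s‖
  refine le_trans ?_ (Finset.single_le_sum (f := fun s => Real.exp (c * y s) + Real.exp (-c * y s))
    (fun _ _ => by positivity) (Finset.mem_univ s))
  refine (Real.exp_le_exp.2 (mul_le_mul_of_nonneg_left
    ((pi_norm_le_iff_of_nonneg (norm_nonneg _)).2 hs) hc)).trans ?_
  rw [Real.norm_eq_abs]
  rcases abs_choice (y s) with h | h <;> rw [h]
  · exact le_add_of_nonneg_right (Real.exp_pos _).le
  · rw [mul_neg, neg_mul]
    exact le_add_of_nonneg_left (Real.exp_pos _).le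
lemma gauss_dom (C : S → S → ℝ) (c : ℝ) :
    Integrable (fun y : S → ℝ => ∑ s, (Real.exp (c * y s) + Real.exp (-c * y s))) (gK C) :=
  integrable_finsetSum _ fun s _ => (integrable_exp_eval C s c).add (integrable_exp_eval C s (-c))
lemma integrable_exp_norm (C : S → S → ℝ) (c : ℝ) :
    Integrable (fun y : S → ℝ => Real.exp (c * ‖y‖)) (gK C) := by
  rcases isEmpty_or_nonempty S with hS | hS
  · simp only [Subsingleton.elim _ (0 : S → ℝ)]
    exact integrable_const _
  refine (gauss_dom C |c|).mono' (by fun_prop) (.of_forall fun y => ?_)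
  rw [Real.norm_of_nonneg (Real.exp_pos _).le]
  exact (Real.exp_le_exp.2 (mul_le_mul_of_nonneg_right (le_abs_self c) (norm_nonneg y))).trans
    (gauss_exp_le (abs_nonneg c) y)
lemma integral_exp_norm_le [Nonempty S] {C : S → S → ℝ} (h : PSD C) {V c : ℝ} (hc : 0 ≤ c)
    (hV : ∀ s, C s s ≤ V) :
    ∫ y, Real.exp (c * ‖y‖) ∂gK C ≤ 2 * Fintype.card S * Real.exp (c ^ 2 * V / 2) := by
  refine (integral_mono (integrable_exp_norm C c) (gauss_dom C c) (gauss_exp_le hc)).trans ?_
  rw [integral_finsetSum _ fun s _ =>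
    (integrable_exp_eval C s c).fun_add (integrable_exp_eval C s (-c))]
  refine (Finset.sum_le_card_nsmul _ _ (2 * Real.exp (c ^ 2 * V / 2)) fun s _ => ?_).trans_eq ?_
  · rw [integral_add (integrable_exp_eval C s c) (integrable_exp_eval C s (-c)),
      integral_exp_eval h, integral_exp_eval h, neg_sq, ← two_mul]
    gcongr
    exact hV s
  · rw [nsmul_eq_mul, Finset.card_univ]
    ring

/-- integrals against `gK (C ω)` are integrals against a fixed standard Gaussian -/
lemma integral_gK (C : S → S → ℝ) {f : (S → ℝ) → ℝ} (hf : Measurable f) :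
    ∫ y, f y ∂gK C = ∫ g, f (feat (sqr C) g) ∂gam S :=
  integral_map (measurable_feat _).aemeasurable hf.aestronglyMeasurable
lemma measurable_integral_gK {Ω : Type} [MeasurableSpace Ω] {C : Ω → S → S → ℝ}
    (hC : ∀ s s', Measurable fun ω => C ω s s') {f : Ω → (S → ℝ) → ℝ}
    (hf : Measurable fun z : Ω × (S → ℝ) => f z.1 z.2) :
    Measurable fun ω => ∫ y, f ω y ∂gK (C ω) := by
  have h1 : Measurable fun ω => sqr (C ω) :=
    measurable_sqr.comp (measurable_pi_lambda _ fun s => measurable_pi_lambda _ fun s' => hC s s')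
  have h2 : Measurable fun z : Ω × (S → ℝ) => feat (sqr (C z.1)) z.2 :=
    measurable_pi_lambda _ fun s => measurable_feat_prod (a := fun ω => sqr (C ω))
      (fun s i => (measurable_pi_apply i).comp ((measurable_pi_apply s).comp h1)) s
  have h3 := (hf.comp (measurable_fst.prodMk h2)).stronglyMeasurable.integral_prod_right'
    (ν := gam S)
  simp only [fun ω => integral_gK (C ω) (f := f ω) (hf.comp measurable_prodMk_left)]
  exact h3.measurable

end

end Vale.Agent.P166
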