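import Vale.Agent.P166.Gibbs2
import Vale.Agent.P166.Gauss

/-! P166 Cmp: comparison of Gaussian averaged free energies and Gibbs averages.
Plan. Everything is integrable: |lz (H+y)| <= log card + sum |H s| + sum |y s|; Gibbs averages of bounded functions are bounded and measurable.
Phi_le_add: gK_add, Fubini, and for fixed y: lz(H+y+z) >= lz(H+y) + <z>, E_z <z> = 0. Phi_sub_diag_le: for fixed y,
E_z lz(H - d/2 + y + z) <= log E_z sum exp(..) = lz(H+y) (concavity of log: log u <= log a + u/a - 1; integral_exp_eval).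
Avg_tv_H: av_tv pointwise, then E sqrt D <= sqrt E D. Avg_tv_C: compare H+y with H+y+z; E lz(H+y+z/2) >= E lz(H+y) (gK_smul or Jensen again).
cc: every Phi H K with K in {C0, C', Cb} and |H - (H0-q)| <= theta(1+q) lies between Phi (H0 - q -+ 2 theta (1+q)) Cb
(monotonicity, Phi_le_add, Phi_sub_diag_le), which is within 2 theta (1 + Mq) of Phi (H0-q) Cb by power_mean_lower/upper (eta = 2 theta).
Then chain Avg H' C' ~ Avg H' C0 ~ Avg H' Cb ~ Avg (H0-q) Cb. -/

open MeasureTheory ProbabilityTheory Filter Topology Matrix Finset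

namespace Vale.Agent.P166

noncomputable section

variable {S : Type} [Fintype S] [Nonempty S]

omit [Fintype S] [Nonempty S] in
lemma cmp_meas (H : S → ℝ) (s : S) : Measurable fun y : S → ℝ => (H + y) s :=
  show Measurable fun y : S → ℝ => H s + y s by fun_prop

omit [Nonempty S] in
lemma cmp_meas_lz (H : S → ℝ) : Measurable fun y : S → ℝ => lz (H + y) :=
  measurable_lz (cmp_meas H)

omit [Nonempty S] in
lemma cmp_meas_av (n : ℕ) (H : S → ℝ) (F : (Fin n → S) → ℝ) :
    Measurable fun y : S → ℝ => av n (H + y) F :=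
  measurable_av n (cmp_meas H) fun _ => measurable_const

lemma integrable_lz_gK (H : S → ℝ) (C : S → S → ℝ) : Integrable (fun y => lz (H + y)) (gK C) :=
  integrable_lz (cmp_meas H) fun s => (integrable_const (H s)).add (integrable_eval s)

lemma integrable_av_gK (n : ℕ) (H : S → ℝ) (C : S → S → ℝ) (F : (Fin n → S) → ℝ) :
    Integrable (fun y => av n (H + y) F) (gK C) :=
  Integrable.of_bound (cmp_meas_av n H F).aestronglyMeasurable (∑ σ, |F σ|)
    (Eventually.of_forall fun _ => abs_av_le_const n _ fun σ =>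
      Finset.single_le_sum (f := fun σ => |F σ|) (fun _ _ => abs_nonneg _) (Finset.mem_univ σ))

lemma integrable_av1_gK (H : S → ℝ) (C : S → S → ℝ) (f : S → ℝ) :
    Integrable (fun y => av1 (H + y) f) (gK C) := by
  simpa only [av_one] using integrable_av_gK 1 H C fun σ => f (σ 0)

lemma Avg_one (H : S → ℝ) (C : S → S → ℝ) (f : S → ℝ) :
    Avg 1 H C (fun σ => f (σ 0)) = Avg1 H C f := by
  simp only [Avg, Avg1, av_one]

lemma abs_Avg_le (n : ℕ) (H : S → ℝ) (C : S → S → ℝ) {F : (Fin n → S) → ℝ} {B : ℝ}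
    (h : ∀ σ, |F σ| ≤ B) : |Avg n H C F| ≤ B := by
  have := norm_integral_le_of_norm_le_const (μ := gK C) (f := fun y => av n (H + y) F) (C := B)
    (Eventually.of_forall fun _ => abs_av_le_const n _ h)
  rwa [probReal_univ, mul_one] at this

lemma abs_Phi_le (H : S → ℝ) {C : S → S → ℝ} (hC : PSD C) :
    |Phi H C| ≤ Real.log (Fintype.card S) + ∑ s, |H s| + ∑ s, (1 + C s s) := by
  have i2 : ∀ s, Integrable (fun y : S → ℝ => y s * y s) (gK C) := fun s => by
    simpa only [sq_abs, ← sq] using integrable_eval_pow (C := C) s 2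
  have i3 : ∀ s, Integrable (fun y : S → ℝ => 1 + y s * y s) (gK C) := fun s =>
    (integrable_const 1).add (i2 s)
  have i4 : Integrable (fun y : S → ℝ => ∑ s, (1 + y s * y s)) (gK C) :=
    integrable_finsetSum _ fun s _ => i3 s
  have h := norm_integral_le_of_norm_le (f := fun y => lz (H + y))
    ((integrable_const (Real.log (Fintype.card S) + ∑ s, |H s|)).add i4)
    (Eventually.of_forall fun y => by
      refine (abs_lz_le _).trans ?_
      have : ∑ s, |(H + y) s| ≤ ∑ s, (|H s| + (1 + y s * y s)) := Finset.sum_le_sum fun s _ => by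
        refine (abs_add_le _ _).trans ?_
        have := abs_mul_abs_self (y s)
        nlinarith [sq_nonneg (|y s| - 1), abs_nonneg (y s)]
      rw [Finset.sum_add_distrib] at this
      simp only [Pi.add_apply] at this ⊢
      linarith)
  refine h.trans_eq ?_
  simp only [Pi.add_apply]
  rw [integral_add (integrable_const _) i4, integral_finsetSum _ fun s _ => i3 s]
  simp only [integral_add (integrable_const 1) (i2 _), integral_eval_mul hC, integral_const,
    probReal_univ, smul_eq_mul, one_mul]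

lemma Phi_zero (H : S → ℝ) : Phi H (fun _ _ => 0) = lz H := by
  rw [Phi, gK_zero, integral_dirac, add_zero]

lemma Phi_mono {H H' : S → ℝ} (h : ∀ s, H s ≤ H' s) (C : S → S → ℝ) : Phi H C ≤ Phi H' C :=
  integral_mono (integrable_lz_gK H C) (integrable_lz_gK H' C) fun y =>
    lz_mono fun s => add_le_add_left (h s) (y s)

omit [Fintype S] [Nonempty S] in
lemma cmp_shift (H y : S → ℝ) (c : ℝ) : ((fun s => H s + c) + y) = fun s => (H + y) s + c := by
  funext s
  simp only [Pi.add_apply]
  ring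

lemma Phi_add_const (H : S → ℝ) (c : ℝ) (C : S → S → ℝ) :
    Phi (fun s => H s + c) C = Phi H C + c := by
  simp only [Phi, cmp_shift, lz_add_const]
  rw [integral_add (integrable_lz_gK H C) (integrable_const c), integral_const, probReal_univ,
    one_smul]

lemma Avg_add_const (n : ℕ) (H : S → ℝ) (c : ℝ) (C : S → S → ℝ) (F : (Fin n → S) → ℝ) :
    Avg n (fun s => H s + c) C F = Avg n H C F := by
  simp only [Avg, cmp_shift, av_add_const]

lemma Phi_jensen (H K : S → ℝ) (C : S → S → ℝ) : Phi H C + Avg1 H C K ≤ Phi (H + K) C := by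
  rw [Phi, Avg1, ← integral_add (integrable_lz_gK H C) (integrable_av1_gK H C K)]
  refine integral_mono ((integrable_lz_gK H C).add (integrable_av1_gK H C K))
    (integrable_lz_gK _ C) fun y => ?_
  have := lz_jensen (H + y) K
  rwa [add_right_comm] at this

lemma Phi_equiv {S' : Type} [Fintype S'] (e : S' ≃ S) (H : S → ℝ) {C : S → S → ℝ} (hC : PSD C) :
    Phi (fun s => H (e s)) (fun s s' => C (e s) (e s')) = Phi H C := by
  rw [Phi, ← gK_comp hC e, integral_map (measurable_pi_lambda _ fun s =>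
    measurable_pi_apply (e s)).aemeasurable (cmp_meas_lz _).aestronglyMeasurable]
  exact integral_congr_ae (Eventually.of_forall fun y => lz_equiv e (H + y))

lemma Avg_equiv {S' : Type} [Fintype S'] (e : S' ≃ S) (n : ℕ) (H : S → ℝ) {C : S → S → ℝ}
    (hC : PSD C) (F : (Fin n → S) → ℝ) :
    Avg n (fun s => H (e s)) (fun s s' => C (e s) (e s')) (fun σ => F fun l => e (σ l)) =
      Avg n H C F := by
  rw [Avg, ← gK_comp hC e, integral_map (measurable_pi_lambda _ fun s =>
    measurable_pi_apply (e s)).aemeasurable (cmp_meas_av _ _ _).aestronglyMeasurable]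
  exact integral_congr_ae (Eventually.of_forall fun y => av_equiv e n (H + y) F)

omit [Nonempty S] in
lemma cmp_split {C C' : S → S → ℝ} (hC : PSD C) (hE : PSD fun s s' => C' s s' - C s s')
    {f : (S → ℝ) → ℝ} (hf : Integrable f (gK C')) :
    ∫ y, f y ∂gK C' = ∫ y, ∫ z, f (y + z) ∂(gK fun s s' => C' s s' - C s s') ∂gK C ∧
      Integrable (fun y => ∫ z, f (y + z) ∂(gK fun s s' => C' s s' - C s s')) (gK C) := by
  have hp : MeasurePreserving (fun p : (S → ℝ) × (S → ℝ) => p.1 + p.2)
      ((gK C).prod (gK fun s s' => C' s s' - C s s')) (gK C') :=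
    ⟨by fun_prop, by rw [gK_add hC hE]; simp only [add_sub_cancel]⟩
  have h1 : Integrable (fun p : (S → ℝ) × (S → ℝ) => f (p.1 + p.2))
      ((gK C).prod (gK fun s s' => C' s s' - C s s')) := hp.integrable_comp_of_integrable hf
  refine ⟨?_, h1.integral_prod_left⟩
  rw [← integral_prod _ h1, ← hp.map_eq]
  exact integral_map hp.measurable.aemeasurable (by rw [hp.map_eq]; exact hf.1)

lemma Phi_split (H : S → ℝ) {C C' : S → S → ℝ} (hC : PSD C)
    (hE : PSD fun s s' => C' s s' - C s s') :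
    Phi H C' = ∫ y, Phi (H + y) (fun s s' => C' s s' - C s s') ∂gK C ∧
      Integrable (fun y => Phi (H + y) fun s s' => C' s s' - C s s') (gK C) := by
  simpa only [Phi, add_assoc] using cmp_split hC hE (integrable_lz_gK H C')

lemma Avg_split (n : ℕ) (H : S → ℝ) {C C' : S → S → ℝ} (hC : PSD C)
    (hE : PSD fun s s' => C' s s' - C s s') (F : (Fin n → S) → ℝ) :
    Avg n H C' F = ∫ y, Avg n (H + y) (fun s s' => C' s s' - C s s') F ∂gK C ∧
      Integrable (fun y => Avg n (H + y) (fun s s' => C' s s' - C s s') F) (gK C) := by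
  simpa only [Avg, add_assoc] using cmp_split hC hE (integrable_av_gK n H C' F)

omit [Nonempty S] in
lemma cmp_av1_lin (G : S → ℝ) (E : S → S → ℝ) :
    Integrable (fun z => av1 G z) (gK E) ∧ ∫ z, av1 G z ∂gK E = 0 := by
  have i1 : ∀ s, Integrable (fun z : S → ℝ => gw G s * z s) (gK E) := fun s =>
    (integrable_eval s).const_mul _
  refine ⟨integrable_finsetSum _ fun s _ => i1 s, ?_⟩
  simp only [av1]
  rw [integral_finsetSum _ fun s _ => i1 s]
  simp only [integral_const_mul, integral_eval, mul_zero, Finset.sum_const_zero]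

lemma lz_le_Phi (G : S → ℝ) (E : S → S → ℝ) : lz G ≤ Phi G E := by
  obtain ⟨h1, h2⟩ := cmp_av1_lin G E
  have := integral_mono ((integrable_const (lz G)).add h1) (integrable_lz_gK G E)
    fun z => lz_jensen G z
  simp only [Pi.add_apply] at this
  rwa [integral_add (integrable_const _) h1, h2, integral_const, probReal_univ, one_smul,
    add_zero] at this

lemma Phi_diag_le (G : S → ℝ) {E : S → S → ℝ} (hE : PSD E) :
    Phi (fun s => G s - E s s / 2) E ≤ lz G := by
  have i1 : ∀ s, Integrable (fun z : S → ℝ =>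
      gw G s * (Real.exp (-(E s s / 2)) * Real.exp (1 * z s))) (gK E) := fun s =>
    ((integrable_exp_eval E s 1).const_mul _).const_mul _
  have i2 := integrable_finsetSum Finset.univ fun s _ => i1 s
  have := integral_mono (integrable_lz_gK (fun s => G s - E s s / 2) E)
    ((integrable_const (lz G - 1)).add i2) fun z => by
      have e : ((fun s => G s - E s s / 2) + z) = G + fun s => -(E s s / 2) + 1 * z s := by
        funext s
        simp only [Pi.add_apply]
        ring
      have := Real.log_le_sub_one_of_pos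
        (av1_pos G (f := fun s => Real.exp (-(E s s / 2) + 1 * z s)) fun s => Real.exp_pos _)
      simp only [e, lz_add, Pi.add_apply, ← Real.exp_add]
      rw [av1] at this ⊢
      linarith
  simp only [Pi.add_apply] at this
  rw [integral_add (integrable_const _) i2, integral_finsetSum _ fun s _ => i1 s] at this
  simp only [integral_const_mul, integral_exp_eval hE] at this
  simp only [← Real.exp_add, one_pow, one_mul, neg_add_cancel, Real.exp_zero, mul_one, sum_gw, integral_const, probReal_univ, one_smul,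
    sub_add_cancel] at this
  exact this

lemma Phi_le_add (H : S → ℝ) {C C' : S → S → ℝ} (hC : PSD C)
    (hE : PSD fun s s' => C' s s' - C s s') : Phi H C ≤ Phi H C' := by
  obtain ⟨h1, h2⟩ := Phi_split H hC hE
  rw [h1]
  exact integral_mono (integrable_lz_gK H C) h2 fun y => lz_le_Phi _ _

lemma Phi_sub_diag_le (H : S → ℝ) {C C' : S → S → ℝ} (hC : PSD C)
    (hE : PSD fun s s' => C' s s' - C s s') :
    Phi (fun s => H s - (C' s s - C s s) / 2) C' ≤ Phi H C := by
  obtain ⟨h1, h2⟩ := Phi_split (fun s => H s - (C' s s - C s s) / 2) hC hE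
  rw [h1]
  refine integral_mono h2 (integrable_lz_gK H C) fun y => ?_
  have e : ((fun s => H s - (C' s s - C s s) / 2) + y) =
      fun s => (H + y) s - (C' s s - C s s) / 2 := by
    funext s
    simp only [Pi.add_apply]
    ring
  simp only [e]
  exact Phi_diag_le (H + y) hE

omit [Fintype S] [Nonempty S] in
lemma cmp_tv {Ω : Type} [MeasurableSpace Ω] {P : Measure Ω} [IsProbabilityMeasure P]
    {f g D : Ω → ℝ} (hf : Integrable f P) (hg : Integrable g P) (hD : Integrable D P) {K : ℝ}
    (hK : 0 ≤ K) (h0 : ∀ x, 0 ≤ D x) (h : ∀ x, |f x - g x| ≤ K * √(D x)) :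
    |∫ x, f x ∂P - ∫ x, g x ∂P| ≤ K * √(∫ x, D x ∂P) := by
  have hI : 0 ≤ ∫ x, D x ∂P := integral_nonneg h0
  have key : ∀ c : ℝ, 0 < c → |∫ x, f x ∂P - ∫ x, g x ∂P| ≤
      K / (2 * c) * ∫ x, D x ∂P + K * c / 2 := by
    intro c hc
    have := norm_integral_le_of_norm_le (f := fun x => f x - g x)
      ((hD.const_mul (K / (2 * c))).add (integrable_const (K * c / 2)))
      (Eventually.of_forall fun x => (h x).trans (by
        have h1 : √(D x) ≤ D x / (2 * c) + c / 2 := by
          rw [div_add' _ _ _ (by positivity), le_div_iff₀ (by positivity)]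
          nlinarith [sq_nonneg (√(D x) - c), Real.sq_sqrt (h0 x)]
        refine (mul_le_mul_of_nonneg_left h1 hK).trans_eq ?_
        simp only [Pi.add_apply]
        ring))
    simp only [Pi.add_apply] at this
    rwa [integral_sub hf hg, integral_add (hD.const_mul _) (integrable_const _), integral_const_mul,
      integral_const, probReal_univ, one_smul] at this
  refine le_of_forall_pos_le_add fun ε hε => ?_
  obtain ⟨c, hc⟩ : ∃ c, c = √(∫ x, D x ∂P) := ⟨_, rfl⟩
  have hc0 : 0 ≤ c := hc ▸ Real.sqrt_nonneg _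
  have hc2 : ∫ x, D x ∂P = c ^ 2 := by rw [hc, Real.sq_sqrt hI]
  obtain ⟨η, hη, hη'⟩ : ∃ η : ℝ, 0 < η ∧ K * η ≤ ε :=
    ⟨ε / (K + 1), by positivity, by
      rw [mul_div_assoc', div_le_iff₀ (by positivity)]; nlinarith⟩
  refine (key (c + η) (by positivity)).trans ?_
  rw [← hc, hc2]
  have h3 : K / (2 * (c + η)) * c ^ 2 ≤ K * c / 2 := by
    rw [div_mul_eq_mul_div, div_le_div_iff₀ (by positivity) (by positivity)]
    nlinarith [mul_nonneg (mul_nonneg hK hc0) hη.le]
  nlinarith

lemma Avg_tv_H (n : ℕ) (H H' : S → ℝ) (C : S → S → ℝ) {F : (Fin n → S) → ℝ} {B : ℝ}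
    (hF : ∀ σ, |F σ| ≤ B) :
    |Avg n H C F - Avg n H' C F| ≤
      2 * n * B * √(Phi H C + Phi H' C - 2 * Phi (fun s => (H s + H' s) / 2) C) := by
  have hB : 0 ≤ B := (abs_nonneg _).trans (hF (Classical.arbitrary _))
  have e : ∀ y : S → ℝ, ((fun s => (H s + H' s) / 2) + y) =
      fun s => ((H + y) s + (H' + y) s) / 2 := fun y => by
    funext s
    simp only [Pi.add_apply]
    ring
  have i1 : Integrable (fun y => lz (H + y) + lz (H' + y)) (gK C) :=
    (integrable_lz_gK H C).add (integrable_lz_gK H' C)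
  have i2 := (integrable_lz_gK (fun s => (H s + H' s) / 2) C).const_mul 2
  have := cmp_tv (integrable_av_gK n H C F) (integrable_av_gK n H' C F)
    (D := fun y => lz (H + y) + lz (H' + y) - 2 * lz ((fun s => (H s + H' s) / 2) + y))
    (i1.sub i2) (K := 2 * n * B) (by positivity)
    (fun y => by rw [e]; exact sub_nonneg.2 (lz_mid_le _ _))
    (fun y => by rw [e]; exact av_tv n _ _ F hF)
  rwa [integral_sub i1 i2, integral_add (integrable_lz_gK H C) (integrable_lz_gK H' C),
    integral_const_mul] at this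

lemma av_tv_Avg (n : ℕ) (G : S → ℝ) (E : S → S → ℝ) {F : (Fin n → S) → ℝ} {B : ℝ}
    (hF : ∀ σ, |F σ| ≤ B) : |av n G F - Avg n G E F| ≤ 2 * n * B * √(Phi G E - lz G) := by
  have hB : 0 ≤ B := (abs_nonneg _).trans (hF (Classical.arbitrary _))
  obtain ⟨h1, h2⟩ := cmp_av1_lin G E
  have i1 : Integrable (fun z => lz (G + z) - lz G) (gK E) :=
    (integrable_lz_gK G E).sub (integrable_const (lz G))
  have := cmp_tv (integrable_const (av n G F)) (integrable_av_gK n G E F)
    (D := fun z => lz (G + z) - lz G - av1 G z) (i1.sub h1) (K := 2 * n * B) (by positivity)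
    (fun z => by linarith [lz_jensen G z]) (fun z => (av_tv n _ _ F hF).trans (by
      refine mul_le_mul_of_nonneg_left (Real.sqrt_le_sqrt ?_) (by positivity)
      have e : (fun s => (G s + (G + z) s) / 2) = G + fun s => 1 / 2 * z s := by
        funext s
        simp only [Pi.add_apply]
        ring
      have := lz_jensen G fun s => 1 / 2 * z s
      rw [av1_mul_left] at this
      rw [e]
      linarith))
  rwa [integral_sub i1 h1, h2, sub_zero, integral_sub (integrable_lz_gK G E) (integrable_const _),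
    integral_const, integral_const, probReal_univ, one_smul, one_smul] at this

lemma Avg_tv_C (n : ℕ) (H : S → ℝ) {C C' : S → S → ℝ} (hC : PSD C)
    (hE : PSD fun s s' => C' s s' - C s s') {F : (Fin n → S) → ℝ} {B : ℝ} (hF : ∀ σ, |F σ| ≤ B) :
    |Avg n H C F - Avg n H C' F| ≤ 2 * n * B * √(Phi H C' - Phi H C) := by
  have hB : 0 ≤ B := (abs_nonneg _).trans (hF (Classical.arbitrary _))
  obtain ⟨p1, p2⟩ := Phi_split H hC hE
  obtain ⟨a1, a2⟩ := Avg_split n H hC hE F
  have := cmp_tv (integrable_av_gK n H C F) a2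
    (D := fun y => Phi (H + y) (fun s s' => C' s s' - C s s') - lz (H + y))
    (p2.sub (integrable_lz_gK H C)) (K := 2 * n * B) (by positivity)
    (fun y => sub_nonneg.2 (lz_le_Phi _ _)) fun y => av_tv_Avg n _ _ hF
  rwa [integral_sub p2 (integrable_lz_gK H C), ← p1, ← a1] at this

omit [Nonempty S] in
lemma Avg1_mul_left (H : S → ℝ) (C : S → S → ℝ) (f : S → ℝ) (c : ℝ) :
    Avg1 H C (fun s => c * f s) = c * Avg1 H C f := by
  simp only [Avg1, av1_mul_left, integral_const_mul]

/-- crude lower comparison with a base system `(H0, Cb)` through a common smaller kernel `C0` -/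
lemma cc0_lower {H0 H' ρ : S → ℝ} {C0 C' Cb : S → S → ℝ} (h0 : PSD C0)
    (h' : PSD fun s s' => C' s s' - C0 s s') (hb : PSD fun s s' => Cb s s' - C0 s s')
    (hH : ∀ s, H0 s - ρ s ≤ H' s) (hd : ∀ s, Cb s s - C0 s s ≤ ρ s) :
    Phi H0 Cb - 3 / 2 * Avg1 H0 Cb ρ ≤ Phi H' C' := by
  have a1 := Phi_jensen H0 (fun s => -(3 / 2) * ρ s) Cb
  rw [Avg1_mul_left] at a1
  have a2 : Phi (H0 + fun s => -(3 / 2) * ρ s) Cb ≤
      Phi (fun s => H' s - (Cb s s - C0 s s) / 2) Cb := Phi_mono (fun s => by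
    simp only [Pi.add_apply]
    linarith [hH s, hd s]) Cb
  linarith [Phi_sub_diag_le H' h0 hb, Phi_le_add H' h0 h']

lemma Phi_pm_lower (H q : S → ℝ) (C : S → S → ℝ) (hq : ∀ s, 0 ≤ q s) {η : ℝ} (hη : 0 ≤ η) :
    Phi (H - q) C - η * Avg1 H C q ≤ Phi (fun s => H s - (1 + η) * q s) C := by
  have i2 := (integrable_av1_gK H C q).const_mul η
  rw [Phi, Avg1, ← integral_const_mul, ← integral_sub (integrable_lz_gK _ C) i2]
  refine integral_mono ((integrable_lz_gK _ C).sub i2) (integrable_lz_gK _ C) fun y => ?_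
  have e : ((fun s => H s - (1 + η) * q s) + y) = fun s => (H + y) s - (1 + η) * q s := by
    funext s
    simp only [Pi.add_apply]
    ring
  simp only [e, sub_add_eq_add_sub]
  exact power_mean_lower (H + y) q hq hη

lemma Phi_pm_upper (H q : S → ℝ) (C : S → S → ℝ) (hq : ∀ s, 0 ≤ q s) {η : ℝ} (hη : 0 ≤ η)
    (hη1 : η ≤ 1) : Phi (fun s => H s - (1 - η) * q s) C ≤ Phi (H - q) C + η * Avg1 H C q := by
  have i2 := (integrable_av1_gK H C q).const_mul η
  rw [Phi, Phi, Avg1, ← integral_const_mul, ← integral_add (integrable_lz_gK _ C) i2]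
  refine integral_mono (integrable_lz_gK _ C) ((integrable_lz_gK _ C).add i2) fun y => ?_
  have e : ((fun s => H s - (1 - η) * q s) + y) = fun s => (H + y) s - (1 - η) * q s := by
    funext s
    simp only [Pi.add_apply]
    ring
  simp only [e, sub_add_eq_add_sub]
  exact power_mean_upper (H + y) q hq hη hη1

/-- cavity comparison -/
lemma cc {H0 H' q : S → ℝ} {C0 C' Cb : S → S → ℝ} {θ : ℝ} (h0 : PSD C0)
    (h' : PSD fun s s' => C' s s' - C0 s s') (hb : PSD fun s s' => Cb s s' - C0 s s')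
    (hq : ∀ s, 0 ≤ q s) (hθ : 0 ≤ θ) (hθ1 : θ ≤ 1 / 4)
    (hH : ∀ s, |H' s - (H0 s - q s)| ≤ θ * (1 + q s))
    (hd' : ∀ s, C' s s - C0 s s ≤ θ * (1 + q s)) (hdb : ∀ s, Cb s s - C0 s s ≤ θ * (1 + q s)) :
    |Phi H' C' - Phi (H0 - q) Cb| ≤ 2 * θ * (1 + Avg1 H0 Cb q) ∧
    ∀ (n : ℕ) (F : (Fin n → S) → ℝ) (B : ℝ), (∀ σ, |F σ| ≤ B) →
      |Avg n H' C' F - Avg n (H0 - q) Cb F| ≤ 15 * n * B * √(θ * (1 + Avg1 H0 Cb q)) := by
  obtain ⟨x, hx⟩ : ∃ x, x = θ * (1 + Avg1 H0 Cb q) := ⟨_, rfl⟩
  have hr : ∀ s, 0 ≤ θ * (1 + q s) := fun s => mul_nonneg hθ (by linarith [hq s])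
  have lo : ∀ G : S → ℝ, (∀ s, H0 s - q s - 2 * (θ * (1 + q s)) ≤ G s) →
      Phi (H0 - q) Cb - 2 * x ≤ Phi G Cb := fun G hG => by
    have a1 := Phi_pm_lower H0 q Cb hq (η := 2 * θ) (by linarith)
    have a2 := Phi_add_const (fun s => H0 s - (1 + 2 * θ) * q s) (-(2 * θ)) Cb
    have a3 : Phi (fun s => H0 s - (1 + 2 * θ) * q s + -(2 * θ)) Cb ≤ Phi G Cb :=
      Phi_mono (fun s => by linarith [hG s]) Cb
    linarith
  have hi : ∀ G : S → ℝ, (∀ s, G s ≤ H0 s - q s + 2 * (θ * (1 + q s))) →
      Phi G Cb ≤ Phi (H0 - q) Cb + 2 * x := fun G hG => by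
    have a1 := Phi_pm_upper H0 q Cb hq (η := 2 * θ) (by linarith) (by linarith)
    have a2 := Phi_add_const (fun s => H0 s - (1 - 2 * θ) * q s) (2 * θ) Cb
    have a3 : Phi G Cb ≤ Phi (fun s => H0 s - (1 - 2 * θ) * q s + 2 * θ) Cb :=
      Phi_mono (fun s => by linarith [hG s]) Cb
    linarith
  have b1 : Phi (H0 - q) Cb - 2 * x ≤ Phi H' C0 :=
    (lo _ fun s => by linarith [(abs_le.1 (hH s)).1, hdb s, hr s]).trans (Phi_sub_diag_le H' h0 hb)
  have b2 : Phi H' C' ≤ Phi (H0 - q) Cb + 2 * x := by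
    have a1 := Phi_sub_diag_le (fun s => H' s + (C' s s - C0 s s) / 2) h0 h'
    simp only [add_sub_cancel_right] at a1
    exact a1.trans ((Phi_le_add _ h0 hb).trans
      (hi _ fun s => by linarith [(abs_le.1 (hH s)).2, hd' s, hr s]))
  have b3 : Phi H' Cb ≤ Phi (H0 - q) Cb + 2 * x :=
    hi _ fun s => by linarith [(abs_le.1 (hH s)).2, hr s]
  have b4 : Phi (H0 - q) Cb - 2 * x ≤ Phi (fun s => (H' s + (H0 - q) s) / 2) Cb :=
    lo _ fun s => by
      simp only [Pi.sub_apply]
      linarith [(abs_le.1 (hH s)).1, hr s]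
  have b5 := Phi_le_add H' h0 h'
  refine ⟨by rw [mul_assoc, ← hx, abs_le]; constructor <;> linarith, fun n F B hF => ?_⟩
  have hB : 0 ≤ B := (abs_nonneg _).trans (hF (Classical.arbitrary _))
  have sq : ∀ y : ℝ, y ≤ 6 * x → √y ≤ 5 / 2 * √x := fun y hy => by
    refine (Real.sqrt_le_sqrt (show y ≤ (5 / 2) ^ 2 * x by linarith)).trans_eq ?_
    rw [Real.sqrt_mul (sq_nonneg _), Real.sqrt_sq (by norm_num)]
  have hK : 0 ≤ 2 * n * B := by positivity
  have c1 := (Avg_tv_C n H' h0 h' hF).trans (mul_le_mul_of_nonneg_left (sq _ (by linarith)) hK)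
  have c2 := (Avg_tv_C n H' h0 hb hF).trans (mul_le_mul_of_nonneg_left (sq _ (by linarith)) hK)
  have c3 := (Avg_tv_H n H' (H0 - q) Cb hF).trans
    (mul_le_mul_of_nonneg_left (sq _ (by linarith)) hK)
  rw [← hx]
  rw [abs_le] at c1 c2 c3 ⊢
  constructor <;> linarith [c1.1, c1.2, c2.1, c2.2, c3.1, c3.2]

end

end Vale.Agent.P166
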