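import Vale.Agent.P166.Stable
import Vale.Agent.P166.Tree

/-! P166 TreeLaw: exact law of a cascade sum for deterministic leaf values.
Plan: tree_law by induction on k (generalising j and X). k = 0: m j = 1, logSt_one, c = 0. Step: map_nd_split; for the child c the subtree sum has the law
logSt (m (j+1)) shifted by lN (X (c,.)) + c'; add u(c,none)/m(j+1): logSt_mul gives logSt (m j) shifted; push the product measure (Measure.pi_map_pi),
lz over a product (lz_prod or Fintype.sum_prod_type), logSt_sum; the new constant is c' + (m j)^(-1) log (b j + 1). The corollaries use MOk (m l <= 1, m 1 <= m l for 1 <= l <= r+1). -/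

open MeasureTheory ProbabilityTheory Filter Topology Matrix Finset

namespace Vale.Agent.P166

noncomputable section

variable {b : ℕ → ℕ}

lemma treeLaw_mono {m : ℕ → ℝ} {j n : ℕ} (hmono : ∀ l, j ≤ l → l < n → m l ≤ m (l + 1))
    {l l' : ℕ} (h1 : j ≤ l) (h2 : l ≤ l') (h3 : l' ≤ n) : m l ≤ m l' := by
  induction l', h2 using Nat.le_induction with
  | base => exact le_rfl
  | succ l' h2 ih => exact (ih (by omega)).trans (hmono l' (by omega) (by omega))

lemma MOk.treeLaw_le {r : ℕ} {m : ℕ → ℝ} (h : MOk r m) {l l' : ℕ} (h2 : l ≤ l')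
    (h3 : l' ≤ r + 1) : m l ≤ m l' :=
  treeLaw_mono (j := 0) (fun l _ hl => h.mono l (by omega)) (Nat.zero_le _) h2 h3

lemma MOk.le_one {r : ℕ} {m : ℕ → ℝ} (h : MOk r m) {l : ℕ} (hl : l ≤ r + 1) : m l ≤ 1 := by
  exact (h.treeLaw_le hl le_rfl).trans h.top.le
lemma MOk.one_le {r : ℕ} {m : ℕ → ℝ} (h : MOk r m) {l : ℕ} (h1 : 1 ≤ l) (hl : l ≤ r + 1) :
    m 1 ≤ m l := by
  exact h.treeLaw_le h1 hl
lemma MOk.nonneg {r : ℕ} {m : ℕ → ℝ} (h : MOk r m) {l : ℕ} (hl : l ≤ r + 1) : 0 ≤ m l := by
  exact h.zero.ge.trans (h.treeLaw_le (Nat.zero_le _) hl)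

lemma treeLaw_meas (m : ℕ → ℝ) (j k : ℕ) (X : Leaf b j k → ℝ) :
    Measurable fun u : Nd b j k → ℝ => lz fun α => lw m j k u α + X α :=
  measurable_lz fun α => (continuous_lw m j k α).measurable.add_const _

lemma treeLaw_child {E : Type} [MeasurableSpace E] {P : Measure E} [IsProbabilityMeasure P]
    {G : E → ℝ} (hG : Measurable G) {ρ ρ' a : ℝ} (h0 : 0 < ρ) (h : ρ ≤ ρ') (h1 : ρ' ≤ 1)
    (hP : P.map G = (logSt ρ').map fun v => v + a) :
    ((logSt (ρ / ρ')).prod P).map (fun z => z.1 / ρ' + G z.2) = (logSt ρ).map fun v => a + v := by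
  have m1 : Measurable fun z : ℝ × ℝ => z.1 / ρ' + z.2 := by fun_prop
  have m2 : Measurable fun v : ℝ => v + a := by fun_prop
  have e1 : (fun z : ℝ × E => z.1 / ρ' + G z.2) =
      (fun z : ℝ × ℝ => z.1 / ρ' + z.2) ∘ Prod.map id G := rfl
  have e2 : (fun z : ℝ × ℝ => z.1 / ρ' + z.2) ∘ Prod.map id (fun v : ℝ => v + a) =
      (fun v => a + v) ∘ fun z : ℝ × ℝ => z.1 / ρ' + z.2 := by
    funext z
    simp only [Function.comp, Prod.map, id]
    ring
  rw [e1, ← Measure.map_map m1 (measurable_id.prodMap hG),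
    ← Measure.map_prod_map _ _ measurable_id hG, hP, Measure.map_prod_map _ _ measurable_id m2,
    Measure.map_map m1 (measurable_id.prodMap m2), e2, ← Measure.map_map (by fun_prop) m1,
    logSt_mul h0 h h1]

lemma treeLaw_split (m : ℕ → ℝ) (j k : ℕ) (X : Leaf b j (k + 1) → ℝ) (u : Nd b j (k + 1) → ℝ) :
    (lz fun α => lw m j (k + 1) u α + X α) = lz fun c : Fin (b j + 1) => u (c, none) / m (j + 1) +
      lz fun α : Leaf b (j + 1) k => lw m (j + 1) k (fun ν => u (c, some ν)) α + X (c, α) := by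
  unfold lz
  congr 1
  refine (Fintype.sum_prod_type (α₁ := Fin (b j + 1)) (α₂ := Leaf b (j + 1) k)
    fun α => Real.exp (lw m j (k + 1) u α + X α)).trans (sum_congr rfl fun c _ => ?_)
  rw [Real.exp_add, Real.exp_log (sum_pos (fun _ _ => Real.exp_pos _) univ_nonempty), mul_sum]
  refine sum_congr rfl fun α _ => ?_
  rw [← Real.exp_add, ← add_assoc]
  rfl

theorem tree_law (m : ℕ → ℝ) (k j : ℕ) (hpos : 0 < m j)
    (hmono : ∀ l, j ≤ l → l < j + k → m l ≤ m (l + 1)) (htop : m (j + k) = 1) :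
    ∃ c : ℝ, ∀ X : Leaf b j k → ℝ,
      (Pu b m j k).map (fun u => lz fun α => lw m j k u α + X α) =
        (logSt (m j)).map fun v => v + (lN m j k X + c) := by
  induction k generalizing j with
  | zero =>
    refine ⟨0, fun X => ?_⟩
    have e : (fun u : Nd b j 0 → ℝ => lz fun α => lw m j 0 u α + X α) = fun _ => X () := by
      funext u
      change Real.log (∑ α : Unit, Real.exp (0 + X α)) = _
      rw [Fintype.sum_unique, Real.log_exp, zero_add]
    have e1 : m j = 1 := htop
    rw [e, e1, logSt_one, Measure.map_const, measure_univ, one_smul,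
      Measure.map_dirac' (by fun_prop), zero_add, add_zero]
    rfl
  | succ k ih =>
    have h1 : m j ≤ m (j + 1) := hmono j le_rfl (by omega)
    have h2 : m (j + 1) ≤ 1 := (treeLaw_mono hmono (by omega) (by omega) le_rfl).trans htop.le
    obtain ⟨c', hc'⟩ := ih (j + 1) (hpos.trans_le h1) (fun l _ _ => hmono l (by omega) (by omega))
      (by rw [← htop]; congr 1; omega)
    refine ⟨c' + (m j)⁻¹ * Real.log ((b j : ℝ) + 1), fun X => ?_⟩
    let a : Fin (b j + 1) → ℝ := fun c => lN m (j + 1) k (fun α => X (c, α)) + c'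
    let F : Fin (b j + 1) → ℝ × (Nd b (j + 1) k → ℝ) → ℝ := fun c z => z.1 / m (j + 1) +
      lz fun α : Leaf b (j + 1) k => lw m (j + 1) k z.2 α + X (c, α)
    have hF : ∀ c, Measurable (F c) := fun c =>
      (measurable_fst.div_const _).add ((treeLaw_meas m (j + 1) k _).comp measurable_snd)
    have hl : Measurable (lz : (Fin (b j + 1) → ℝ) → ℝ) := continuous_lz.measurable
    have hs : Measurable fun (ω : Nd b j (k + 1) → ℝ) (c : Fin (b j + 1)) =>
        (ω (c, none), fun ν : Nd b (j + 1) k => ω (c, some ν)) :=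
      measurable_pi_lambda _ fun c => (measurable_pi_apply _).prodMk
        (measurable_pi_lambda _ fun ν => measurable_pi_apply _)
    have hFF : Measurable fun (z : Fin (b j + 1) → ℝ × (Nd b (j + 1) k → ℝ)) c => F c (z c) :=
      measurable_pi_lambda _ fun c => (hF c).comp (measurable_pi_apply c)
    have ha : ∀ c, Measurable fun v : ℝ => a c + v := fun c => by fun_prop
    have haa : Measurable fun (z : Fin (b j + 1) → ℝ) c => a c + z c := by fun_prop
    have e1 : (fun u : Nd b j (k + 1) → ℝ => lz fun α => lw m j (k + 1) u α + X α) =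
        lz ∘ (fun z c => F c (z c)) ∘ fun (ω : Nd b j (k + 1) → ℝ) (c : Fin (b j + 1)) =>
        (ω (c, none), fun ν : Nd b (j + 1) k => ω (c, some ν)) :=
      funext fun u => treeLaw_split m j k X u
    have e2 : (Pu b m j (k + 1)).map (fun (ω : Nd b j (k + 1) → ℝ) (c : Fin (b j + 1)) =>
        (ω (c, none), fun ν : Nd b (j + 1) k => ω (c, some ν))) =
        Measure.pi fun _ => (logSt (m j / m (j + 1))).prod (Pu b m (j + 1) k) :=
      map_nd_split j k _
    have e3 : ∀ c, ((logSt (m j / m (j + 1))).prod (Pu b m (j + 1) k)).map (F c) =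
        (logSt (m j)).map fun v => a c + v := fun c =>
      treeLaw_child (treeLaw_meas m (j + 1) k _) hpos h1 h2 (hc' _)
    have i1 : ∀ c, IsProbabilityMeasure
        (((logSt (m j / m (j + 1))).prod (Pu b m (j + 1) k)).map (F c)) := fun c =>
      Measure.isProbabilityMeasure_map (hF c).aemeasurable
    have i2 : ∀ c, IsProbabilityMeasure ((logSt (m j)).map fun v => a c + v) := fun c =>
      Measure.isProbabilityMeasure_map (ha c).aemeasurable
    have e4 := logSt_sum hpos (h1.trans h2) a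
    have e5 : (m j)⁻¹ * Real.log (∑ c, Real.exp (m j * a c)) =
        lN m j (k + 1) X + (c' + (m j)⁻¹ * Real.log ((b j : ℝ) + 1)) := by
      have hS : 0 < ∑ c : Fin (b j + 1), Real.exp (m j * lN m (j + 1) k fun α => X (c, α)) :=
        sum_pos (fun _ _ => Real.exp_pos _) univ_nonempty
      simp only [a, lN, mul_add, Real.exp_add, ← sum_mul]
      rw [Real.log_mul hS.ne' (Real.exp_pos _).ne', Real.log_mul (by positivity) hS.ne',
        Real.log_exp, Real.log_inv]
      field_simp
      ring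
    rw [e1, ← Measure.map_map hl (hFF.comp hs), ← Measure.map_map hFF hs, e2,
      Measure.pi_map_pi fun c => (hF c).aemeasurable]
    simp only [e3]
    rw [← Measure.pi_map_pi fun c => (ha c).aemeasurable, Measure.map_map hl haa, ← e5]
    exact e4

lemma lN_zero (m : ℕ → ℝ) (j k : ℕ) : lN (b := b) m j k (fun _ => 0) = 0 := by
  induction k generalizing j with
  | zero => rfl
  | succ k ih =>
    simp only [lN, ih, mul_zero, Real.exp_zero, sum_const, card_univ, Fintype.card_fin,
      nsmul_eq_mul, mul_one]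
    rw [Nat.cast_add_one, inv_mul_cancel₀ (by positivity), Real.log_one, mul_zero]

lemma integrable_lw {r : ℕ} {m : ℕ → ℝ} (h : MOk r m) (α : Leaf b 1 r) :
    Integrable (fun u => lw m 1 r u α) (Pu b m 1 r) := by
  simp only [lw_eq_sum]
  refine integrable_finsetSum _ fun i hi => Integrable.div_const ?_ _
  have hi' := mem_range.1 hi
  obtain ⟨ν, h1, h2⟩ := anc_succ 1 r i hi' α
  rw [h1]
  have h3 : 0 < m (dep 1 r ν) := h.pos.trans_le (h.one_le (by omega) (by omega))
  have h4 : m (dep 1 r ν) ≤ m (dep 1 r ν + 1) := h.mono _ (by omega)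
  exact (measurePreserving_eval (fun ν => logSt (m (dep 1 r ν) / m (dep 1 r ν + 1)))
    ν).integrable_comp_of_integrable
    (integrable_logSt (div_pos h3 (h3.trans_le h4)) ((div_le_one (h3.trans_le h4)).2 h4))

lemma treeLaw_int {r : ℕ} {m : ℕ → ℝ} (h : MOk r m) : ∀ (X : Leaf b 1 r → ℝ) (g : ℝ → ℝ),
    Measurable g → ∫ u, g (lz fun α => lw m 1 r u α + X α) ∂Pu b m 1 r =
      ∫ v, g (v + (lN m 1 r X + (Z0 r b m - ∫ w, w ∂logSt (m 1)))) ∂logSt (m 1) := by
  obtain ⟨c, hc⟩ := tree_law (b := b) m r 1 h.pos (fun l _ _ => h.mono l (by omega))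
    (by rw [add_comm]; exact h.top)
  have key : ∀ (X : Leaf b 1 r → ℝ) (g : ℝ → ℝ), Measurable g →
      ∫ u, g (lz fun α => lw m 1 r u α + X α) ∂Pu b m 1 r =
        ∫ v, g (v + (lN m 1 r X + c)) ∂logSt (m 1) := by
    intro X g hg
    rw [← integral_map (treeLaw_meas m 1 r X).aemeasurable hg.aestronglyMeasurable, hc,
      integral_map (by fun_prop) hg.aestronglyMeasurable]
  have h1 := key (fun _ => 0) id measurable_id
  simp only [id, add_zero, lN_zero, zero_add] at h1
  rw [integral_add (integrable_logSt h.pos (h.le_one (by omega))) (integrable_const _),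
    integral_const, probReal_univ, one_smul] at h1
  have h2 : Z0 r b m - ∫ w, w ∂logSt (m 1) = c := by
    rw [sub_eq_iff_eq_add']
    exact h1
  rw [h2]
  exact key

lemma tree_mean {r : ℕ} {m : ℕ → ℝ} (h : MOk r m) (X : Leaf b 1 r → ℝ) :
    ∫ u, lz (fun α => lw m 1 r u α + X α) ∂Pu b m 1 r = lN m 1 r X + Z0 r b m := by
  have h1 := treeLaw_int h X id measurable_id
  simp only [id] at h1
  rw [h1, integral_add (integrable_logSt h.pos (h.le_one (by omega))) (integrable_const _),
    integral_const, probReal_univ, one_smul]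
  ring

lemma tree_dev {r : ℕ} {m : ℕ → ℝ} (h : MOk r m) (X : Leaf b 1 r → ℝ) :
    ∫ u, |lz (fun α => lw m 1 r u α + X α) - (lN m 1 r X + Z0 r b m)| ∂Pu b m 1 r =
      cdev (m 1) := by
  rw [treeLaw_int h X (fun t => |t - (lN m 1 r X + Z0 r b m)|) (by fun_prop), cdev]
  congr 1
  funext v
  congr 1
  ring

end

end Vale.Agent.P166
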