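import Vale.Agent.P157.IMax
import Vale.Agent.P157.R12
import Vale.Agent.P166.Qt
import Vale.Agent.P166.XExp
import Vale.Agent.P166.TreeLaw

/-! P166 Conc: the one spin functional, through P157 (IMax, IMono, Grad, RExp).
Plan. With s j = sum of a l over l <= j: P157.inc s = a, P157.parisi r m s lc = parisi m a 0 (r+1) 0 (induction: gstep is P157.step), entv r m p a = spinTerm + pair / 2 (pair_eq_sum_tail). exists_isOv: P = P157.phat r m s;
phat_isPath, E2_last and Tl_lt for P r < 1, spin_max for supp (only the values a l, l <= r matter). expn: parisiRad is P157.Rec on R x R (second coordinate receives the sign at level j; rc_push, rc_eq_Rec) with terminal function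
lc (y + theta z) = lc y + theta h, h = (lc (y + theta z') - lc y)/theta, z' = clip 1 z, |h| <= 1, h = z' tanh y + theta/2 z'^2 (1 - tanh y^2) + O(theta^2); rec_expand (or rec_expand2), Tl linear and bounded, Tl_prod, E2_prod, compare r12_rec and r12_E2 in P157/R12.
ent_le: log cosh y <= |y|, a level l >= 1 adds at most log 2 / m l + m l a l / 2 (E exp(m |y + s g|) <= 2 exp(m |y| + m^2 s^2/2)), level 0 gives E |sqrt(a 0) g| <= sqrt (a 0); tail l <= p r (1 - m l), so 1 - tail l - m l >= (1 - m r)(1 - p r). -/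

open MeasureTheory ProbabilityTheory Filter Topology Matrix Finset

namespace Vale.Agent.P166

noncomputable section

/-- cumulative sums of the increments -/
def concS (a : ℕ → ℝ) (j : ℕ) : ℝ := ∑ l ∈ range (j + 1), a l

lemma conc_inc (a : ℕ → ℝ) (l : ℕ) : P157.inc (concS a) l = a l := by
  cases l with
  | zero => simp [P157.inc, concS]
  | succ l => simp [P157.inc, concS, sum_range_succ _ (l + 1)]

lemma conc_rq (a : ℕ → ℝ) : P157.rq (concS a) = fun l => P157.gw √(a l) :=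
  funext fun l => by rw [P157.rq, conc_inc]

lemma conc_levels (m a : ℕ → ℝ) (j k : ℕ) :
    parisi m a j k = P157.levels m (concS a) P157.lc k j := by
  induction k generalizing j with
  | zero => rfl
  | succ k ih =>
    rw [parisi, P157.levels, conc_inc, ← ih]
    rfl

lemma conc_path {r : ℕ} {a : ℕ → ℝ} (ha : ∀ l ≤ r, 0 ≤ a l) : P157.IsPath r (concS a) :=
  ⟨by simpa [concS] using ha 0 r.zero_le, fun j hj => by
    rw [concS, concS, sum_range_succ _ (j + 1)]
    exact le_add_of_nonneg_right (ha _ hj)⟩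

lemma conc_tail (r : ℕ) (m p : ℕ → ℝ) (j : ℕ) : P157.tail r m p j = tail r m p j := by
  rw [P157.tail, tail, Ico_add_one_right_eq_Icc]

lemma conc_pair (r : ℕ) (m p a : ℕ → ℝ) :
    P157.pair r m p (concS a) = ∑ l ∈ range (r + 1), a l * tail r m p l := by
  rw [P157.pair_eq_sum_tail]
  exact sum_congr rfl fun l _ => by rw [conc_inc, conc_tail]

lemma conc_entv (r : ℕ) (m p a : ℕ → ℝ) :
    entv r m p a = P157.spinTerm r m (concS a) + P157.pair r m p (concS a) / 2 := by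
  rw [entv, conc_pair, conc_levels]
  rfl

lemma conc_lv {r : ℕ} {m : ℕ → ℝ} (hm : MOk r m) {Y : Type} [NormedAddCommGroup Y]
    [MeasurableSpace Y] {ρ : ℕ → Measure Y} (h : ∀ l, P157.ExpM (ρ l)) :
    P157.Lv m ρ (r + 1) 0 :=
  fun i _ hi => ⟨hm.nonneg (by omega), hm.le_one (by omega), h i⟩

lemma conc_Rec {r : ℕ} {m : ℕ → ℝ} (hm : MOk r m) (a : ℕ → ℝ) :
    parisi m a 0 (r + 1) = P157.Rec m (P157.rq (concS a)) P157.lc (r + 1) 0 := by
  rw [conc_levels, P157.levels_eq_Rec P157.lc_c2d.1.env (conc_lv hm (P157.expM_rq _))]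

lemma conc_rc {E E' Ω : Type} [MeasurableSpace Ω] (m : ℕ → ℝ) (P : Measure Ω)
    {step : ℕ → E → Ω → E} {step' : ℕ → E' → Ω → E'} (π : E → E') (S : ℕ → E → Prop)
    (h : ∀ l y ω, S l y → S (l + 1) (step l y ω) ∧ π (step l y ω) = step' l (π y) ω)
    {X : E → ℝ} {X' : E' → ℝ} (k : ℕ) : ∀ j, (∀ y, S (j + k) y → X y = X' (π y)) →
      ∀ y, S j y → rc m P step X j k y = rc m P step' X' j k (π y) := by
  induction k with
  | zero => exact fun j hX y hy => hX y hy
  | succ k ih =>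
    intro j hX y hy
    change Tm _ _ _ = Tm _ _ _
    congr 1
    funext ω
    rw [ih (j + 1) (by rwa [add_right_comm]) _ (h j y ω hy).1, (h j y ω hy).2]

/-- the sign received at level `j` -/
def concR (j l : ℕ) : Measure ℝ := if l = j then unifB.map spin else Measure.dirac 0

lemma conc_R_eq (j l : ℕ) : unifB.map (fun b => if l = j then spin b else 0) = concR j l := by
  rw [concR]
  split_ifs
  · rfl
  · rw [Measure.map_const, measure_univ, one_smul]

lemma conc_expM (j l : ℕ) : P157.ExpM (concR j l) := by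
  rw [← conc_R_eq]
  exact ⟨Measure.isProbabilityMeasure_map (measurable_of_finite _).aemeasurable, fun c =>
    (integrable_map_measure (by fun_prop) (measurable_of_finite _).aemeasurable).2 .of_finite⟩

lemma conc_rsg (b : Bool) : P157.rsg (spin b) = spin b := by
  cases b <;> simp [P157.rsg, spin]

lemma conc_int : ∫ η, P157.rsg η ∂unifB.map spin = 0 := by
  rw [integral_map (measurable_of_finite _).aemeasurable P157.rsg_meas.aestronglyMeasurable,
    integral_unifB, conc_rsg, conc_rsg]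
  simp [spin]

lemma conc_Tl {m : ℕ → ℝ} (j : ℕ) (φ : ℝ → ℝ) (n : ℕ) : ∀ i, P157.Lv m (concR j) n i → ∀ y,
    P157.Tl m (concR j) (fun _ => 0) φ n i y =
      if i ≤ j ∧ j < i + n then ∫ η, φ (y + η) ∂unifB.map spin else φ y := by
  induction n with
  | zero => intro i _ y; rw [if_neg (by omega)]; rfl
  | succ n ih =>
    intro i hL y
    change ∫ η, P157.Tl m (concR j) (fun _ => 0) φ n (i + 1) (y + η)
      ∂((concR j i).tilted fun η => m i * P157.Rec m (concR j) (fun _ => 0) n (i + 1) (y + η)) = _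
    have := (conc_expM j i).prob
    simp only [P157.Rec_const hL.tail, tilted_const, ih _ hL.tail]
    by_cases h : i = j
    · rw [concR, if_pos h, if_pos (by omega)]
      simp only [show ¬ (i + 1 ≤ j ∧ j < i + 1 + n) by omega, if_false]
    · rw [concR, if_neg h, integral_dirac, add_zero]
      exact if_congr (by omega) rfl rfl

lemma conc_E2 {r : ℕ} {m : ℕ → ℝ} (hm : MOk r m) {j i : ℕ} (hj : j ≤ r) (hi : i ≤ r) :
    P157.E2 m (concR j) (fun _ => 0) P157.rsg r i = if j ≤ i then 1 else 0 := by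
  have hL := conc_lv hm (conc_expM j)
  have h1 : P157.Rec m (concR j) (fun _ => 0) (r - i) (i + 1) = fun _ => 0 :=
    funext fun y => P157.Rec_const (hL.mono (by omega) (by omega)) 0 y
  have : IsProbabilityMeasure (unifB.map spin) :=
    Measure.isProbabilityMeasure_map (measurable_of_finite _).aemeasurable
  unfold P157.E2
  rw [h1, conc_Tl j _ _ 0 (hL.mono le_rfl (by omega))]
  simp only [conc_Tl j P157.rsg (r - i) (i + 1) (hL.mono (by omega) (by omega))]
  by_cases h : j ≤ i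
  · rw [if_pos h, if_pos (by omega)]
    simp only [show ¬ (i + 1 ≤ j ∧ j < i + 1 + (r - i)) by omega, if_false, P157.rsg_sq,
      integral_const, probReal_univ, one_smul]
  · rw [if_neg h, if_neg (by omega), if_pos (by omega)]
    simp only [zero_add, conc_int]
    exact zero_pow two_ne_zero

lemma conc_rad (m a : ℕ → ℝ) {r j : ℕ} (hj : j ≤ r) (θ : ℝ) : parisiRad m a r j θ =
    P157.Rec m (fun l => (P157.rq (concS a) l).prod (concR j l))
      (fun y => P157.lc (y.1 + θ * P157.rsg y.2)) (r + 1) 0 0 := by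
  have hφ : ∀ l, Measurable (Prod.map (fun z : ℝ => √(a l) * z)
      fun b : Bool => if l = j then spin b else 0) := fun l =>
    (measurable_const_mul _).prodMap (measurable_of_finite _)
  have h1 : (fun l => (P157.rq (concS a) l).prod (concR j l)) = fun l =>
      ((gaussianReal 0 1).prod unifB).map (Prod.map (fun z : ℝ => √(a l) * z)
        fun b : Bool => if l = j then spin b else 0) := funext fun l => by
    rw [conc_rq, ← conc_R_eq, ← Measure.map_prod_map _ _ (measurable_const_mul _)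
      (measurable_of_finite _)]
    rfl
  have h2 : Measurable fun y : ℝ × ℝ => P157.lc (y.1 + θ * P157.rsg y.2) :=
    P157.lc_c2d.1.env.meas.comp
      (measurable_fst.add ((P157.rsg_meas.comp measurable_snd).const_mul θ))
  rw [h1, ← rc_eq_Rec m _ hφ h2]
  refine Eq.trans ?_ (conc_rc m _ (step' := fun l (y : ℝ) (ω : ℝ × Bool) =>
    y + √(a l) * ω.1 + if l = j then θ * spin ω.2 else 0) (fun y : ℝ × ℝ => y.1 + θ * y.2)
    (fun l y => (l ≤ j → y.2 = 0) ∧ (j < l → P157.rsg y.2 = y.2)) ?_ (X' := P157.lc) (r + 1) 0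
    (fun y hy => by rw [hy.2 (by omega)]) 0 ⟨fun _ => rfl, fun h => by omega⟩).symm
  · simp only [Prod.fst_zero, Prod.snd_zero, mul_zero, add_zero]
    rfl
  · intro l y ω hy
    simp only [Prod.snd_add, Prod.fst_add, Prod.map_fst, Prod.map_snd]
    split_ifs with h
    · refine ⟨⟨fun h' => by omega, fun _ => ?_⟩, by ring⟩
      rw [hy.1 h.le, zero_add, conc_rsg]
    · rw [add_zero]
      exact ⟨⟨fun h' => hy.1 (by omega), fun h' => hy.2 (by omega)⟩, by ring⟩

lemma conc_log {u : ℝ} (hu : |u| ≤ 1 / 2) : |Real.log (1 + u) - u + u ^ 2 / 2| ≤ 2 * |u| ^ 3 := by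
  have h := Real.abs_log_sub_add_sum_range_le (x := -u) (by rw [abs_neg]; linarith) 2
  rw [abs_neg, sub_neg_eq_add] at h
  have h1 : ∑ i ∈ range 2, (-u) ^ (i + 1) / ((i : ℝ) + 1) + Real.log (1 + u) =
      Real.log (1 + u) - u + u ^ 2 / 2 := by
    simp only [sum_range_succ, sum_range_zero]
    push_cast
    ring
  rw [h1] at h
  refine h.trans ((div_le_iff₀ (by linarith)).2 ?_)
  have : 0 ≤ |u| ^ 3 := by positivity
  norm_num
  nlinarith

lemma conc_lc (y z : ℝ) {θ : ℝ} (h0 : 0 ≤ Real.tanh θ) (h1 : Real.tanh θ ≤ 1 / 2) :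
    |P157.lc (y + θ * P157.rsg z) - (P157.lc y + 2 * Real.tanh θ *
      (2⁻¹ * (Real.tanh y * P157.rsg z) + -(Real.tanh θ / 4) * Real.tanh y ^ 2) +
        Real.tanh θ ^ 2 / 2)| ≤ 4 * Real.tanh θ ^ 3 := by
  have hy := Real.cosh_pos y
  have hθ := Real.cosh_pos θ
  have hT : |Real.tanh y * P157.rsg z| ≤ 1 := by
    rw [abs_mul, P157.rsg_abs, mul_one]
    exact (Real.abs_tanh_lt_one y).le
  have hu : |Real.tanh θ * (Real.tanh y * P157.rsg z)| ≤ Real.tanh θ := by
    rw [abs_mul, abs_of_nonneg h0]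
    exact mul_le_of_le_one_right h0 hT
  have e1 : Real.cosh (y + θ * P157.rsg z) =
      Real.cosh y * Real.cosh θ * (1 + Real.tanh θ * (Real.tanh y * P157.rsg z)) := by
    rw [Real.cosh_add, Real.tanh_eq_sinh_div_cosh, Real.tanh_eq_sinh_div_cosh, P157.rsg]
    split_ifs
    · rw [mul_one]
      field_simp
    · rw [mul_neg, mul_one, Real.cosh_neg, Real.sinh_neg]
      field_simp
  have e2 : Real.log (1 + Real.tanh θ) + Real.log (1 + -Real.tanh θ) =
      -(2 * Real.log (Real.cosh θ)) := by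
    rw [← Real.log_mul (by linarith) (by linarith), ← Nat.cast_two, ← Real.log_pow, ← Real.log_inv,
      Real.tanh_eq_sinh_div_cosh]
    congr 1
    field_simp
    linarith [Real.cosh_sq θ]
  have a1 := conc_log (hu.trans h1)
  have a2 := conc_log (u := Real.tanh θ) (by rwa [abs_of_nonneg h0])
  have a3 := conc_log (u := -Real.tanh θ) (by rwa [abs_neg, abs_of_nonneg h0])
  have a4 := pow_le_pow_left₀ (abs_nonneg _) hu 3
  rw [abs_neg] at a3
  rw [abs_of_nonneg h0] at a2 a3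
  rw [mul_pow, mul_pow, P157.rsg_sq] at a1
  have a5 := (abs_le.1 hu).1
  rw [P157.lc, P157.lc, e1, Real.log_mul (by positivity) (by linarith), Real.log_mul hy.ne' hθ.ne']
  rw [abs_le] at a1 a2 a3 ⊢
  constructor <;> nlinarith [a1.1, a1.2, a2.1, a2.2, a3.1, a3.2]

section
variable {Y : Type} [NormedAddCommGroup Y] [MeasurableSpace Y] [BorelSpace Y]
  [SecondCountableTopology Y] {m : ℕ → ℝ} {ρ : ℕ → Measure Y} {X φ ψ : Y → ℝ} {C d : ℝ}

lemma conc_Tl_lip {n j : ℕ} (h : P157.Env X C) (hL : P157.Lv m ρ n j) (hφ : Measurable φ)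
    (hψ : Measurable ψ) (hb : ∀ y, |ψ y| ≤ 1) (hd : ∀ y, |φ y - ψ y| ≤ d) (y : Y) :
    |P157.Tl m ρ X φ n j y - P157.Tl m ρ X ψ n j y| ≤ d := by
  have h1 := P157.Tl_add (ψ := fun y => φ y - ψ y) h hL hψ hb (hφ.sub hψ) hd y
  simp only [add_sub_cancel] at h1
  rw [h1, add_sub_cancel_left]
  exact P157.abs_Tl_le h hL hd y

lemma conc_E2_lip {k i : ℕ} (h : P157.Env X C) (hL : P157.Lv m ρ (k + 1) 0) (hφ : Measurable φ)
    (hψ : Measurable ψ) (hb' : ∀ y, |φ y| ≤ 1) (hb : ∀ y, |ψ y| ≤ 1)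
    (hd : ∀ y, |φ y - ψ y| ≤ d) (hi : i ≤ k) :
    |P157.E2 m ρ X φ k i - P157.E2 m ρ X ψ k i| ≤ 2 * d := by
  have hL1 : P157.Lv m ρ (k - i) (i + 1) := hL.mono (by omega) (by omega)
  refine conc_Tl_lip (h.recur hL1) (hL.mono le_rfl (by omega)) ((P157.Tl_meas h hL1 hφ).pow_const 2)
    ((P157.Tl_meas h hL1 hψ).pow_const 2) (fun y => ?_) (fun y => ?_) 0
  · exact (P157.abs_sq_le_of_bdd (P157.abs_Tl_le h hL1 hb) y).trans_eq (one_pow 2)
  · rw [sq_sub_sq, abs_mul]
    exact mul_le_mul ((abs_add_le _ _).trans (by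
      linarith [P157.abs_Tl_le h hL1 hb y, P157.abs_Tl_le h hL1 hb' y]))
      (conc_Tl_lip h hL1 hφ hψ hb hd y) (abs_nonneg _) zero_le_two

end

lemma conc_tail_lip {r : ℕ} {m e e' : ℕ → ℝ} (hm : MOk r m) {d : ℝ}
    (h : ∀ i ≤ r, |e i - e' i| ≤ d) : |P157.tail r m e 0 - P157.tail r m e' 0| ≤ d := by
  rw [conc_tail, conc_tail, tail, tail, ← sum_sub_distrib]
  refine (abs_sum_le_sum_abs _ _).trans
    ((sum_le_sum (g := fun i => (m (i + 1) - m i) * d) fun i hi => ?_).trans_eq ?_)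
  · have hi' : i ≤ r := Nat.lt_succ_iff.1 (mem_Ico.1 hi).2
    have h0 := sub_nonneg.2 (hm.mono i hi')
    rw [← mul_sub, abs_mul, abs_of_nonneg h0]
    exact mul_le_mul_of_nonneg_left (h i hi') h0
  · rw [← sum_mul, sum_Ico_sub _ (Nat.zero_le _), hm.top, hm.zero, sub_zero, one_mul]

lemma conc_expand {r : ℕ} {m : ℕ → ℝ} (hm : MOk r m) (a : ℕ → ℝ) {j : ℕ} (hj : j ≤ r) :
    ∃ c : ℝ, ∀ θ : ℝ, 0 ≤ Real.tanh θ → Real.tanh θ ≤ 1 / 2 →
      |parisiRad m a r j θ - parisi m a 0 (r + 1) 0 -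
        Real.tanh θ ^ 2 / 2 * (1 - tail r m (P157.phat r m (concS a)) j)| ≤
        c * Real.tanh θ ^ 3 := by
  obtain ⟨c, -, hc⟩ := P157.rec_expand2 r
  refine ⟨8 * c + 6, fun θ h0 h1 => ?_⟩
  have hX := P157.lc_c2d.1.env
  have hX0 : P157.Env (fun _ : ℝ => (0 : ℝ)) 0 := ⟨measurable_const, fun _ _ => by simp⟩
  have hX2 : P157.Env (fun y : ℝ × ℝ => P157.lc y.1) 1 := P157.ac_env_fst hX
  have hL1 := conc_lv hm (P157.expM_rq (concS a))
  have hL2 := conc_lv hm (conc_expM j)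
  have hL := hL1.prod hL2
  have mT : Measurable fun y : ℝ × ℝ => Real.tanh y.1 := P157.im_tanh.comp measurable_fst
  have mS : Measurable fun y : ℝ × ℝ => P157.rsg y.2 := P157.rsg_meas.comp measurable_snd
  have bT : ∀ y, |Real.tanh y ^ 2| ≤ 1 := fun y =>
    (P157.abs_sq_le_of_bdd (fun y => (Real.abs_tanh_lt_one y).le) y).trans_eq (one_pow 2)
  have m1 : Measurable fun y : ℝ × ℝ => 2⁻¹ * (Real.tanh y.1 * P157.rsg y.2) :=
    (mT.mul mS).const_mul _
  have b1 : ∀ y : ℝ × ℝ, |2⁻¹ * (Real.tanh y.1 * P157.rsg y.2)| ≤ 2⁻¹ := fun y => by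
    rw [abs_mul, abs_mul, P157.rsg_abs, mul_one, abs_of_pos (by norm_num : (0 : ℝ) < 2⁻¹)]
    linarith [Real.abs_tanh_lt_one y.1]
  have m2 : Measurable fun y : ℝ × ℝ => -(Real.tanh θ / 4) * Real.tanh y.1 ^ 2 :=
    (mT.pow_const 2).const_mul _
  have b2 : ∀ y : ℝ × ℝ, |-(Real.tanh θ / 4) * Real.tanh y.1 ^ 2| ≤ Real.tanh θ / 4 := fun y => by
    rw [abs_mul, abs_neg, abs_of_nonneg (by positivity : 0 ≤ Real.tanh θ / 4)]
    exact mul_le_of_le_one_right (by positivity) (bT _)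
  have b3 : ∀ y : ℝ × ℝ, |2⁻¹ * (Real.tanh y.1 * P157.rsg y.2) +
      -(Real.tanh θ / 4) * Real.tanh y.1 ^ 2| ≤ 1 := fun y =>
    (abs_add_le _ _).trans (by linarith [b1 y, b2 y])
  have hx : |2 * Real.tanh θ| ≤ 1 := by
    rw [abs_of_nonneg (by positivity)]
    linarith
  have m3 : Measurable fun y : ℝ × ℝ => 2⁻¹ * (Real.tanh y.1 * P157.rsg y.2) +
      -(Real.tanh θ / 4) * Real.tanh y.1 ^ 2 := m1.add m2
  have k1 := hc hL hm.zero hm.top hX2 m3 b3 _ hx
  have hE := P157.r12_env hX2 m3 b3 hx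
  have hd := fun y : ℝ × ℝ => conc_lc y.1 y.2 h0 h1
  have mR : Measurable fun y : ℝ × ℝ => P157.lc (y.1 + θ * P157.rsg y.2) :=
    hX.meas.comp (measurable_fst.add (mS.const_mul θ))
  have hE' := (hE.add_const (Real.tanh θ ^ 2 / 2)).add
    (P157.Env.of_bdd (mR.fun_sub (hE.add_const (Real.tanh θ ^ 2 / 2)).meas) hd)
  simp only [add_sub_cancel] at hE'
  have k2 := P157.abs_Rec_sub_le hE' (hE.add_const _) hL hd 0
  have k3 := P157.Rec_prod hX hX0 hL1 hL2 0
  have k4 := P157.Tl_prod (φ := Real.tanh) (φ' := P157.rsg) hX hX0 hL1 hL2 0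
  have k5 := P157.Tl_prod (φ := fun y => Real.tanh y ^ 2) (φ' := fun _ => 1) hX hX0 hL1 hL2 0
  have k6 : ∀ i ≤ r, P157.E2 m (fun l => (P157.rq (concS a) l).prod (concR j l))
      (fun y => P157.lc y.1) (fun y => 2⁻¹ * (Real.tanh y.1 * P157.rsg y.2)) r i =
      4⁻¹ * (P157.phat r m (concS a) i * if j ≤ i then 1 else 0) := fun i hi => by
    have h4 := P157.E2_prod (φ := Real.tanh) (φ' := P157.rsg) hX hX0 hL1 hL2 hi
    simp only [add_zero] at h4
    rw [← conc_E2 hm hj hi, P157.phat, P157.e1, ← h4]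
    unfold P157.E2
    simp only [P157.Tl_const_mul, mul_pow]
    norm_num
  have k7 := fun i (hi : i ≤ r) => conc_E2_lip hX2 hL m3 m1 b3
    (fun y => (b1 y).trans (by norm_num)) (fun y => by rw [add_sub_cancel_left]; exact b2 y) hi
  have k8 := conc_tail_lip hm k7
  have k9 := k7 r le_rfl
  have k10 : P157.tail r m (fun i => 4⁻¹ * (P157.phat r m (concS a) i * if j ≤ i then 1 else 0)) 0 =
      4⁻¹ * tail r m (P157.phat r m (concS a)) j := by
    have h6 := P157.ac_tail_ind (k := r) (m := m) (P157.phat r m (concS a)) 0 j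
    rw [max_eq_right (Nat.zero_le j)] at h6
    rw [← conc_tail, ← h6, P157.tail, P157.tail, mul_sum]
    exact sum_congr rfl fun i _ => by ring
  rw [P157.gr_tail_congr k6, k10] at k8
  rw [k6 r le_rfl, if_pos hj, mul_one] at k9
  rw [conc_Tl j P157.rsg _ 0 hL2, if_pos (by omega)] at k4
  rw [P157.Tl_const hX0 hL2, Prod.fst_zero, ← P157.E2_last] at k5
  rw [P157.Rec_const hL2] at k3
  simp only [add_zero, Prod.snd_zero, Prod.fst_zero, zero_add, conc_int, mul_zero, mul_one]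
    at k3 k4 k5
  rw [P157.Rec_add_const hE hL, ← conc_rad m a hj] at k2
  rw [P157.Tl_add hX2 hL m1 b1 m2 b2, P157.Tl_const_mul, P157.Tl_const_mul, k3, k4, k5,
    ← conc_Rec hm, abs_of_nonneg (by positivity : 0 ≤ 2 * Real.tanh θ)] at k1
  change |_ - _ - _ * (_ + _ * P157.phat r m (concS a) r) - _| ≤ _ at k1
  have t2 := sq_nonneg (Real.tanh θ)
  rw [abs_le] at k1 k2 k8 k9 ⊢
  constructor <;> nlinarith [k1.1, k1.2, k2.1, k2.2, mul_le_mul_of_nonneg_left k8.1 t2,
    mul_le_mul_of_nonneg_left k8.2 t2, mul_le_mul_of_nonneg_left k9.1 t2,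
    mul_le_mul_of_nonneg_left k9.2 t2]

lemma conc_lim {g : ℝ → ℝ} {L c : ℝ} (h : ∀ θ : ℝ, 0 ≤ Real.tanh θ → Real.tanh θ ≤ 1 / 2 →
    |g θ - Real.tanh θ ^ 2 / 2 * L| ≤ c * Real.tanh θ ^ 3) :
    Tendsto (fun θ : ℝ => 2 / θ ^ 2 * g θ) (𝓝[>] 0) (𝓝 L) := by
  obtain ⟨hc, hd, he⟩ := P157.lc_c2d
  have h1 : HasDerivAt Real.tanh 1 0 := by
    have h2 := (hc.d2 0).hasDerivAt
    have h3 := he 0
    rw [hd] at h2 h3
    rw [Real.tanh_zero, zero_pow two_ne_zero, add_zero] at h3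
    rwa [h3] at h2
  have h2 : Tendsto (fun θ : ℝ => Real.tanh θ / θ) (𝓝[>] 0) (𝓝 1) := by
    simpa [div_eq_inv_mul] using h1.tendsto_slope_zero_right
  have h3 : Tendsto Real.tanh (𝓝[>] 0) (𝓝 0) := by
    simpa using h1.continuousAt.tendsto.mono_left nhdsWithin_le_nhds
  have h4 := (h2.pow 2).mul_const L
  have h5 := ((h2.pow 2).mul h3).const_mul (2 * c)
  rw [one_pow, one_mul] at h4
  rw [mul_zero, mul_zero] at h5
  refine h4.congr_dist (squeeze_zero' (.of_forall fun _ => dist_nonneg) ?_ h5)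
  filter_upwards [self_mem_nhdsWithin, h3.eventually_le_const (by norm_num : (0 : ℝ) < 1 / 2),
    h2.eventually_const_le zero_lt_one] with θ a1 a2 a3
  have a0 : (0 : ℝ) < θ := a1
  have a4 := h θ (by simpa using (le_div_iff₀ a0).1 a3) a2
  have e : (Real.tanh θ / θ) ^ 2 * L - 2 / θ ^ 2 * g θ =
      -(2 / θ ^ 2 * (g θ - Real.tanh θ ^ 2 / 2 * L)) := by
    field_simp
    ring
  rw [Real.dist_eq, e, abs_neg, abs_mul, abs_of_pos (by positivity)]
  refine (mul_le_mul_of_nonneg_left a4 (by positivity)).trans_eq ?_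
  field_simp

lemma conc_env : P157.Env (fun y : ℝ => |y|) 1 :=
  .of_lip continuous_abs.measurable zero_le_one fun y y' =>
    (abs_abs_sub_abs_le_abs_sub y y').trans_eq (one_mul _).symm

lemma conc_Tm {a c : ℝ} (ha : 0 ≤ a) (hc : 0 < c) (h : a ≤ c) (w y : ℝ) :
    P157.Tm a (P157.gw w) (fun y => |y|) y ≤ |y| + (Real.log 2 / c + c * w ^ 2 / 2) := by
  refine (P157.Tm_mono_exp conc_env (P157.expM_gw w) ha h y).trans ?_
  have h0 := conc_env.integral_exp_pos (P157.expM_gw w) c y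
  have hi : ∀ t : ℝ, Integrable (fun η => Real.exp (t * η)) (P157.gw w) := fun t =>
    P157.gw_eq w ▸ integrable_exp_mul_gaussianReal t
  have hm : ∀ t : ℝ, ∫ η, Real.exp (t * η) ∂(P157.gw w) = Real.exp (t ^ 2 * w ^ 2 / 2) := fun t => by
    have := congrFun (mgf_fun_id_gaussianReal (μ := 0) (v := (w ^ 2).toNNReal)) t
    rw [mgf, Real.coe_toNNReal _ (sq_nonneg w), zero_mul, zero_add, mul_comm] at this
    rwa [P157.gw_eq]
  have h1 : ∫ η, Real.exp (c * |y + η|) ∂(P157.gw w) ≤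
      Real.exp (Real.log 2 + c * |y| + c ^ 2 * w ^ 2 / 2) := by
    refine (integral_mono (conc_env.integrable_exp (P157.expM_gw w) c y)
      (((hi c).add (hi (-c))).const_mul (Real.exp (c * |y|))) fun η => ?_).trans_eq ?_
    · simp only [Pi.add_apply, mul_add, ← Real.exp_add]
      have h2 := mul_le_mul_of_nonneg_left (abs_add_le y η) hc.le
      rcases abs_cases η with h3 | h3 <;> rw [h3.1] at h2
      · exact le_add_of_le_of_nonneg (Real.exp_le_exp.2 (by linarith)) (Real.exp_pos _).le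
      · exact le_add_of_nonneg_of_le (Real.exp_pos _).le (Real.exp_le_exp.2 (by linarith))
    · simp only [Pi.add_apply]
      rw [integral_const_mul, integral_add (hi c) (hi (-c)), hm, hm, neg_sq, Real.exp_add,
        Real.exp_add, Real.exp_log two_pos]
      ring
  rw [P157.Tm, if_neg hc.ne', inv_mul_le_iff₀ hc]
  refine ((Real.log_le_iff_le_exp h0).2 h1).trans_eq ?_
  field_simp
  ring

lemma conc_abs {m s : ℕ → ℝ} {ε : ℝ} (hε : 0 < ε) (n : ℕ) : ∀ j, P157.Lv m (P157.rq s) n j → ∀ y,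
    P157.Rec m (P157.rq s) (fun y => |y|) n j y ≤ |y| + ∑ i ∈ range n,
      (Real.log 2 / ε + (m (j + i) + ε) * √(P157.inc s (j + i)) ^ 2 / 2) := by
  induction n with
  | zero => exact fun j _ y => by simp [P157.Rec]
  | succ n ih =>
    intro j hL y
    obtain ⟨h1, -, h2⟩ := hL j le_rfl (by omega)
    have h3 := P157.Tm_le_add (conc_env.recur hL.tail) conc_env h2 h1 (y := y) (y' := y)
      fun η => ih _ hL.tail (y + η)
    have h4 := conc_Tm h1 (by linarith : 0 < m j + ε) (by linarith) √(P157.inc s j) y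
    have h5 : Real.log 2 / (m j + ε) ≤ Real.log 2 / ε :=
      div_le_div_of_nonneg_left (Real.log_nonneg one_le_two) hε (by linarith)
    rw [sum_range_succ']
    simp only [add_assoc j, add_comm 1, add_zero] at h3 ⊢
    change P157.Tm _ _ _ _ ≤ _
    change P157.Tm _ (P157.rq s j) _ _ ≤ _ at h4
    linarith

theorem exists_isOv {r : ℕ} {m a : ℕ → ℝ} (hm : MOk r m) (hs : ∀ j ≤ r, m j < m (j + 1))
    (ha : ∀ l ≤ r, 0 ≤ a l) : ∃ P : ℕ → ℝ, IsOv r m a P := by
  have hk : P157.IsPartition r m := ⟨hm.zero, hm.top, hs⟩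
  obtain ⟨h1, h2⟩ := P157.phat_isPath (s := concS a) hk
  refine ⟨P157.phat r m (concS a), h1.1, h1.2, h2, fun a' ha' => ?_, fun j hj => ?_⟩
  · rw [conc_entv, conc_entv]
    exact P157.spin_max hk (conc_path ha) (conc_path fun l _ => ha' l) fun _ _ => rfl
  · obtain ⟨c, hc⟩ := conc_expand hm a hj
    exact conc_lim hc

lemma parisi_congr {m a a' : ℕ → ℝ} {j k : ℕ} (h : ∀ l, j ≤ l → l < j + k → a l = a' l) :
    parisi m a j k = parisi m a' j k := by
  induction k generalizing j with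
  | zero => rfl
  | succ k ih =>
    rw [parisi, parisi, h j le_rfl (by omega), ih fun l h1 h2 => h l (by omega) (by omega)]

lemma Trial.mok (τ : Trial) : MOk τ.r τ.m := ⟨τ.m_zero, τ.m_pos, τ.m_mono, τ.m_top⟩

lemma Trial.ent_eq (τ : Trial) (a : ℕ → ℝ) : τ.ent a = entv τ.r τ.m τ.p a := by
  rw [entv, ← conc_pair, Trial.ent, P157.pair]
  simp only [mul_assoc, concS]

lemma Trial.ent_zero (τ : Trial) : τ.ent (fun _ => 0) = 0 := by
  rw [Trial.ent, parisi_zero _ _ _ _ fun _ => rfl]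
  simp

lemma Trial.ent_le (τ : Trial) : ∃ C κ : ℝ, 0 < κ ∧ ∀ a : ℕ → ℝ, (∀ l, 0 ≤ a l) →
    τ.ent a ≤ C - κ * ∑ l ∈ range (τ.r + 1), a l := by
  have h0 := sub_pos.2 τ.m_lt
  have h1 := sub_pos.2 τ.p_lt
  have hp : P157.IsPath τ.r τ.p := ⟨τ.p_nonneg, τ.p_mono⟩
  have hε : 0 < (1 - τ.m τ.r) * (1 - τ.p τ.r) / 2 := by positivity
  refine ⟨∑ _ ∈ range (τ.r + 1), Real.log 2 / ((1 - τ.m τ.r) * (1 - τ.p τ.r) / 2), _, half_pos hε,
    fun a ha => ?_⟩
  have hL := conc_lv τ.mok (P157.expM_rq (concS a))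
  have h2 := (P157.Rec_mono P157.lc_c2d.1.env conc_env hL (fun y => ?_) 0).trans
    (conc_abs hε _ _ hL 0)
  · rw [← conc_Rec τ.mok, abs_zero, zero_add] at h2
    rw [τ.ent_eq, entv, sum_div, sum_div, mul_sum, ← sum_sub_distrib]
    refine (add_le_add_left (sub_le_sub_right h2 _) _).trans ?_
    rw [← sum_sub_distrib, ← sum_add_distrib]
    refine sum_le_sum fun i hi => ?_
    rw [mem_range_succ_iff] at hi
    have h3 := ha i
    have h4 : tail τ.r τ.m τ.p i ≤ τ.p τ.r * (1 - τ.m i) := by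
      rw [← τ.m_top, ← sum_Ico_sub _ (Nat.le_succ_of_le hi), tail, mul_sum]
      refine sum_le_sum fun l hl => ?_
      have hl' : l ≤ τ.r := Nat.lt_succ_iff.1 (mem_Ico.1 hl).2
      nlinarith [τ.m_mono l hl', hp.mono_le hl' le_rfl]
    rw [zero_add, conc_inc, Real.sq_sqrt h3]
    nlinarith [mul_le_mul_of_nonneg_left h4 h3,
      mul_nonneg h3 (mul_nonneg (sub_nonneg.2 (τ.mok.treeLaw_le hi (by omega))) h1.le)]
  · rw [P157.lc, Real.log_le_iff_le_exp (Real.cosh_pos y), Real.cosh_eq]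
    linarith [Real.exp_le_exp.2 (le_abs_self y), Real.exp_le_exp.2 (neg_le_abs y)]

lemma Trial.coercive (τ : Trial) (B : ℝ) : ∃ Λ : ℝ, 0 < Λ ∧ ∀ a : ℕ → ℝ, (∀ l, 0 ≤ a l) →
    (∃ j ≤ τ.r, Λ ≤ a j) → τ.ent a < -B := by
  obtain ⟨C, κ, hκ, h⟩ := τ.ent_le
  refine ⟨(|C + B| + 1) / κ, by positivity, fun a ha ⟨j, hj, h1⟩ => ?_⟩
  have h2 := h1.trans (single_le_sum (fun l _ => ha l) (mem_range_succ_iff.2 hj))
  rw [div_le_iff₀' hκ] at h2
  linarith [h a ha, le_abs_self (C + B)]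

lemma Trial.ent_le_entropy (τ : Trial) {a : ℕ → ℝ} (ha : ∀ l, 0 ≤ a l) :
    τ.ent a ≤ τ.entropy := by
  obtain ⟨C, κ, hκ, h⟩ := τ.ent_le
  refine le_csSup ⟨C, ?_⟩ ⟨a, ha, rfl⟩
  rintro _ ⟨a', ha', rfl⟩
  exact (h a' ha').trans (sub_le_self _ (mul_nonneg hκ.le (sum_nonneg fun l _ => ha' l)))

lemma Trial.entropy_nonneg (τ : Trial) : 0 ≤ τ.entropy :=
  τ.ent_zero.ge.trans (τ.ent_le_entropy fun _ => le_rfl)

lemma Trial.entropy_eq (τ : Trial) {a : ℕ → ℝ} (ha : ∀ l ≤ τ.r, 0 ≤ a l)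
    (h : IsOv τ.r τ.m a τ.p) : τ.entropy = entv τ.r τ.m τ.p a := by
  refine IsGreatest.csSup_eq ⟨⟨fun l => max (a l) 0, fun l => le_max_right _ _, ?_⟩, ?_⟩
  · have h1 : ∀ l ∈ range (τ.r + 1), max (a l) 0 = a l := fun l hl =>
      max_eq_left (ha l (mem_range_succ_iff.1 hl))
    rw [τ.ent_eq, entv, entv, parisi_congr (a' := a) fun l _ hl => h1 l (mem_range.2 (by omega)),
      sum_congr rfl h1, sum_congr rfl fun l hl => congrArg (· * tail τ.r τ.m τ.p l) (h1 l hl)]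
  · rintro _ ⟨a', ha', rfl⟩
    exact (τ.ent_eq a').trans_le (h.supp a' ha')

end

end Vale.Agent.P166
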