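import Vale.Agent.P166.Defs1
import Vale.Agent.P166.Gibbs2

/-! P166 Tr: truncation of the cavity functionals.
Plan. w omega = av1 H (Wq q y) lies in (0,1]; L = -log w <= av1 of (q true + q false)/2 (AM-GM: Wq >= exp(-(q true + q false)/2), then exp_av1_le) <= C (1 + sum av1 y^2); so E L^2 <= K(C, M4, card F)
(av1_sq_le, Mom). tr_core: split on {L <= lam}: there delta / w <= delta exp lam; on the complement log(w+delta) - log w <= log 2 + L and use Chebyshev (1[L > lam] <= L^2/lam^2, L 1[L > lam] <= L^2/lam).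
|Vq q V| <= B Wq q pointwise. In val with A' = 1 and f = 1 use av_eval / av_two_mul. -/

open MeasureTheory ProbabilityTheory Filter Topology Matrix Finset

namespace Vale.Agent.P166

noncomputable section

lemma tr_pt {w δ lam : ℝ} (hw : 0 < w) (hw1 : w ≤ 1) (hδ : 0 < δ) (hδ1 : δ ≤ 1) (hl : 1 ≤ lam) :
    δ / (w + δ) ≤ Real.log (w + δ) - Real.log w ∧
      Real.log (w + δ) - Real.log w ≤ δ * Real.exp lam + 2 / lam * Real.log w ^ 2 := by
  have hp : 0 < w + δ := by positivity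
  have h0 : 0 < lam := by linarith
  constructor
  · have h := Real.one_sub_inv_le_log_of_pos (div_pos hp hw)
    rw [Real.log_div hp.ne' hw.ne', inv_div] at h
    refine le_trans (le_of_eq ?_) h
    field_simp
    ring
  · rcases le_total (-Real.log w) lam with h | h
    · have h1 := Real.log_le_sub_one_of_pos (div_pos hp hw)
      rw [Real.log_div hp.ne' hw.ne', add_div, div_self hw.ne'] at h1
      have h2 : w⁻¹ ≤ Real.exp lam := by
        rw [← Real.exp_log (inv_pos.2 hw), Real.log_inv]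
        exact Real.exp_le_exp.2 h
      have h3 : δ / w ≤ δ * Real.exp lam := mul_le_mul_of_nonneg_left h2 hδ.le
      have h4 : 0 ≤ 2 / lam * Real.log w ^ 2 := by positivity
      linarith
    · have h1 := Real.log_le_sub_one_of_pos hp
      have h2 : 2 * -Real.log w ≤ 2 / lam * Real.log w ^ 2 := by
        rw [div_mul_eq_mul_div, le_div_iff₀ h0]
        nlinarith
      have h3 : 0 ≤ δ * Real.exp lam := by positivity
      linarith

lemma tr_core (K : ℝ) {e : ℝ} (he : 0 < e) : ∃ δ0 > 0, ∀ δ ∈ Set.Ioc (0 : ℝ) δ0,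
    ∀ {Ω : Type} [MeasurableSpace Ω] (P : Measure Ω) [IsProbabilityMeasure P] (w : Ω → ℝ),
      Measurable w → (∀ ω, 0 < w ω ∧ w ω ≤ 1) → Integrable (fun ω => Real.log (w ω) ^ 2) P →
      ∫ ω, Real.log (w ω) ^ 2 ∂P ≤ K →
      |∫ ω, Real.log (w ω + δ) ∂P - ∫ ω, Real.log (w ω) ∂P| ≤ e ∧
        ∫ ω, δ / (w ω + δ) ∂P ≤ e := by
  obtain ⟨lam, hlam⟩ : ∃ lam, lam = 1 + 4 * |K| / e := ⟨_, rfl⟩
  have hl : 1 ≤ lam := by rw [hlam]; exact le_add_of_nonneg_right (by positivity)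
  have hl0 : 0 < lam := by linarith
  refine ⟨min 1 (e / 2 / Real.exp lam), by positivity, fun δ hδ Ω _ P _ w mw hw hi hK => ?_⟩
  have hpt := fun ω => tr_pt (hw ω).1 (hw ω).2 hδ.1 (hδ.2.trans (min_le_left _ _)) hl
  have h0 : ∀ ω, 0 ≤ δ / (w ω + δ) := fun ω => (div_pos hδ.1 (add_pos (hw ω).1 hδ.1)).le
  have iG : Integrable (fun ω => δ * Real.exp lam + 2 / lam * Real.log (w ω) ^ 2) P :=
    (integrable_const _).add (hi.const_mul _)
  have iD : Integrable (fun ω => Real.log (w ω + δ) - Real.log (w ω)) P :=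
    iG.mono' ((mw.add_const δ).log.sub mw.log).aestronglyMeasurable
      (Eventually.of_forall fun ω => by
        rw [Real.norm_of_nonneg ((h0 ω).trans (hpt ω).1)]; exact (hpt ω).2)
  have iL : Integrable (fun ω => Real.log (w ω)) P :=
    ((integrable_const 1).add hi).mono' mw.log.aestronglyMeasurable
      (Eventually.of_forall fun ω => by
        rw [Real.norm_eq_abs, Pi.add_apply, ← sq_abs]
        nlinarith [sq_nonneg (|Real.log (w ω)| - 1), abs_nonneg (Real.log (w ω))])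
  have iA : Integrable (fun ω => Real.log (w ω + δ)) P :=
    (iD.add iL).congr (Eventually.of_forall fun ω => sub_add_cancel _ _)
  have hD : ∫ ω, (Real.log (w ω + δ) - Real.log (w ω)) ∂P ≤ e := by
    refine (integral_mono iD iG fun ω => (hpt ω).2).trans ?_
    rw [integral_add (integrable_const _) (hi.const_mul _), integral_const, integral_const_mul,
      probReal_univ, one_smul]
    have h1 : δ * Real.exp lam ≤ e / 2 :=
      (le_div_iff₀ (Real.exp_pos _)).1 (hδ.2.trans (min_le_right _ _))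
    have h2 : 2 / lam * ∫ ω, Real.log (w ω) ^ 2 ∂P ≤ 2 / lam * |K| :=
      mul_le_mul_of_nonneg_left (hK.trans (le_abs_self K)) (by positivity)
    have h3 : 2 / lam * |K| ≤ e / 2 := by
      rw [div_mul_eq_mul_div, div_le_iff₀ hl0, hlam, mul_add, show e / 2 * (4 * |K| / e) = 2 * |K| by
        field_simp; norm_num]
      linarith
    linarith
  refine ⟨?_, (integral_mono_of_nonneg (Eventually.of_forall h0) iD
    (Eventually.of_forall fun ω => (hpt ω).1)).trans hD⟩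
  rw [← integral_sub iA iL, abs_of_nonneg (integral_nonneg fun ω => (h0 ω).trans (hpt ω).1)]
  exact hD

variable {F : Type} [Fintype F]

lemma Wq_pos {E : Type} (q : E → Bool → ℝ) (y : E) : 0 < Wq q y := by
  unfold Wq; positivity
lemma Wq_le_one {E : Type} {q : E → Bool → ℝ} (h : ∀ y ε, 0 ≤ q y ε) (y : E) : Wq q y ≤ 1 := by
  have h1 := fun ε => Real.exp_le_one_iff.2 (neg_nonpos.2 (h y ε))
  unfold Wq
  linarith [h1 true, h1 false]
lemma abs_Vq_le {E : Type} (q : E → Bool → ℝ) {V : E → Bool → ℝ} {B : ℝ} (h : ∀ y ε, |V y ε| ≤ B)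
    (y : E) : |Vq q V y| ≤ B * Wq q y := by
  have h1 : ∀ ε, |V y ε * Real.exp (-q y ε)| ≤ B * Real.exp (-q y ε) := fun ε => by
    rw [abs_mul, abs_of_pos (Real.exp_pos _)]
    exact mul_le_mul_of_nonneg_right (h y ε) (Real.exp_pos _).le
  unfold Vq Wq
  rw [abs_div, abs_two]
  linarith [h1 true, h1 false,
    abs_add_le (V y true * Real.exp (-q y true)) (V y false * Real.exp (-q y false))]
lemma QOk.continuous_Wq {q : (F → ℝ) → Bool → ℝ} {C : ℝ} (h : QOk q C) : Continuous (Wq q) :=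
  ((h.cont true).neg.rexp.add (h.cont false).neg.rexp).div_const 2
lemma QOk.continuous_Vq {q V : (F → ℝ) → Bool → ℝ} {C B : ℝ} (h : QOk q C) (hV : VOk V B) :
    Continuous (Vq q V) :=
  (((hV.cont true).mul (h.cont true).neg.rexp).add
    ((hV.cont false).mul (h.cont false).neg.rexp)).div_const 2
lemma QOk.neg_le_log_Wq {q : (F → ℝ) → Bool → ℝ} {C : ℝ} (h : QOk q C) (y : F → ℝ) :
    -(C * (1 + ∑ f, y f ^ 2)) ≤ Real.log (Wq q y) := by
  have h1 := fun ε => Real.exp_le_exp.2 (neg_le_neg (h.le y ε))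
  rw [Real.le_log_iff_exp_le (Wq_pos q y)]
  unfold Wq
  linarith [h1 true, h1 false]
lemma Quad.qok (Q : Quad F) : ∃ C, QOk Q.q C := by
  refine ⟨∑ f, Q.A f + 1 + ∑ f, Q.b f ^ 2 + |Q.c|, fun ε => by unfold Quad.q; fun_prop,
    Q.q_nonneg, fun y ε => ?_⟩
  have hA : 0 ≤ ∑ f, Q.A f := sum_nonneg fun f _ => Q.A_nonneg f
  have hb : 0 ≤ ∑ f, Q.b f ^ 2 := sum_nonneg fun f _ => sq_nonneg _
  have hy : 0 ≤ ∑ f, y f ^ 2 := sum_nonneg fun f _ => sq_nonneg _
  have h1 : ∑ f, Q.A f * y f ^ 2 ≤ (∑ f, Q.A f) * ∑ f, y f ^ 2 := by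
    rw [mul_sum]
    exact sum_le_sum fun f _ => mul_le_mul_of_nonneg_right
      (single_le_sum (fun f _ => Q.A_nonneg f) (mem_univ f)) (sq_nonneg _)
  have h2 : spin ε * ∑ f, Q.b f * y f ≤ ∑ f, Q.b f ^ 2 + ∑ f, y f ^ 2 := by
    rw [mul_sum, ← sum_add_distrib]
    refine sum_le_sum fun f _ => ?_
    nlinarith [sq_nonneg (spin ε * Q.b f - y f), spin_sq ε, sq_nonneg (Q.b f), sq_nonneg (y f)]
  unfold Quad.q
  nlinarith [le_abs_self Q.c, abs_nonneg Q.c, mul_nonneg hA hy, mul_nonneg hb hy,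
    mul_nonneg (abs_nonneg Q.c) hy]
lemma continuous_clip (M : ℝ) : Continuous (clip M) :=
  continuous_const.max (continuous_const.min continuous_id)
lemma abs_clip_le {M : ℝ} (hM : 0 ≤ M) (y : ℝ) : |clip M y| ≤ M :=
  abs_le.2 ⟨le_max_left _ _, max_le (by linarith) (min_le_left _ _)⟩
lemma abs_clip_le_abs {M : ℝ} (hM : 0 ≤ M) (y : ℝ) : |clip M y| ≤ |y| :=
  abs_le.2 ⟨le_max_of_le_right (le_min (by linarith [abs_nonneg y]) (neg_abs_le y)),
    max_le (by linarith [abs_nonneg y]) ((min_le_right _ _).trans (le_abs_self y))⟩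
lemma abs_sub_clip_le {M : ℝ} (hM : 0 < M) (y : ℝ) : |y - clip M y| ≤ y ^ 2 / M := by
  rw [le_div_iff₀ hM]
  unfold clip
  rcases le_total M y with h | h
  · rw [min_eq_left h, max_eq_right (by linarith), abs_of_nonneg (by linarith)]
    nlinarith
  · rw [min_eq_right h]
    rcases le_total (-M) y with h' | h'
    · rw [max_eq_right h', sub_self, abs_zero, zero_mul]
      positivity
    · rw [max_eq_left h', abs_of_nonpos (by linarith)]
      nlinarith

lemma tr_meas {r : ℕ} (X : YS r F) {W : (F → ℝ) → ℝ} (hW : Continuous W) (s : X.S) :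
    Measurable fun ω => W (X.y ω s) :=
  hW.measurable.comp (measurable_pi_lambda _ (X.my s))

lemma tr_w {r : ℕ} (X : YS r F) {C : ℝ} {q : (F → ℝ) → Bool → ℝ} (hq : QOk q C) (ω : X.Ω) :
    (0 < av1 (X.H ω) fun s => Wq q (X.y ω s)) ∧ (av1 (X.H ω) fun s => Wq q (X.y ω s)) ≤ 1 :=
  ⟨av1_pos _ fun _ => Wq_pos _ _, (av1_mono _ fun _ => Wq_le_one hq.nonneg _).trans_eq (av1_const _ 1)⟩

lemma YS.log_sq {r : ℕ} (X : YS r F) {M4 C : ℝ} (hM : X.Mom M4) {q : (F → ℝ) → Bool → ℝ}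
    (hq : QOk q C) :
    Integrable (fun ω => Real.log (av1 (X.H ω) fun s => Wq q (X.y ω s)) ^ 2) X.P ∧
    ∫ ω, Real.log (av1 (X.H ω) fun s => Wq q (X.y ω s)) ^ 2 ∂X.P ≤
      C ^ 2 * (Fintype.card F + 1) * (1 + Fintype.card F * M4) := by
  have hpt : ∀ ω, Real.log (av1 (X.H ω) fun s => Wq q (X.y ω s)) ^ 2 ≤
      C ^ 2 * (Fintype.card F + 1) * (1 + ∑ f, av1 (X.H ω) fun s => X.y ω s f ^ 4) := fun ω => by
    have h1 := exp_av1_le (X.H ω) fun s => Real.log (Wq q (X.y ω s))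
    simp only [Real.exp_log (Wq_pos q _)] at h1
    have h2 := ((av1_mono _ fun s => hq.neg_le_log_Wq (X.y ω s)).trans
      ((Real.le_log_iff_exp_le (tr_w X hq ω).1).2 h1))
    have h3 := Real.log_nonpos (tr_w X hq ω).1.le (tr_w X hq ω).2
    refine (show _ ≤ _ ^ 2 by nlinarith).trans ((av1_sq_le (X.H ω)
      fun s => -(C * (1 + ∑ f, X.y ω s f ^ 2))).trans ?_)
    refine (av1_mono _ (g := fun s => C ^ 2 * (Fintype.card F + 1) * (1 + ∑ f, X.y ω s f ^ 4))
      fun s => ?_).trans_eq (by rw [av1_mul_left, av1_add, av1_const, av1_sum])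
    have k1 := sq_sum_le_card_mul_sum_sq (s := univ) (f := fun f => X.y ω s f ^ 2)
    have k2 : 0 ≤ ∑ f, (1 - 2 * X.y ω s f ^ 2 + X.y ω s f ^ 4) := sum_nonneg fun f _ => by
      nlinarith [sq_nonneg (1 - X.y ω s f ^ 2)]
    simp only [← pow_mul, card_univ] at k1
    rw [sum_add_distrib, sum_sub_distrib, ← mul_sum, sum_const, card_univ, nsmul_eq_mul] at k2
    rw [neg_sq, mul_pow, mul_assoc]
    exact mul_le_mul_of_nonneg_left (by nlinarith) (sq_nonneg C)
  have iS := integrable_finsetSum univ fun f _ => (hM f).1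
  have iG := ((integrable_const 1).add iS).const_mul (C ^ 2 * (Fintype.card F + 1))
  have hi := iG.mono' ((measurable_av1 X.mH (tr_meas X hq.continuous_Wq)).log.pow_const
    2).aestronglyMeasurable (Eventually.of_forall fun ω => by
      rw [Real.norm_of_nonneg (sq_nonneg _)]; exact hpt ω)
  refine ⟨hi, (integral_mono hi iG hpt).trans ?_⟩
  simp only [Pi.add_apply]
  rw [integral_const_mul, integral_add (integrable_const _) iS, integral_const, probReal_univ,
    one_smul, integral_finsetSum _ fun f _ => (hM f).1]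
  refine mul_le_mul_of_nonneg_left (add_le_add le_rfl ?_) (by positivity)
  exact (sum_le_card_nsmul _ _ _ fun f _ => (hM f).2).trans_eq (by rw [card_univ, nsmul_eq_mul])

lemma tr_cmp {Ω : Type} [MeasurableSpace Ω] {P : Measure Ω} [IsProbabilityMeasure P]
    {u w : Ω → ℝ} (mu : Measurable u) (mw : Measurable w) (hw : ∀ ω, 0 < w ω) {δ B : ℝ} (hδ : 0 < δ)
    (k : ℕ) (hu : ∀ ω, |u ω| ≤ B * w ω ^ k) :
    |∫ ω, u ω / w ω ^ k ∂P - ∫ ω, u ω * ((w ω + δ) ^ k)⁻¹ ∂P| ≤ B * k * ∫ ω, δ / (w ω + δ) ∂P := by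
  have hp : ∀ ω, 0 < w ω + δ := fun ω => add_pos (hw ω) hδ
  have h1 : ∀ ω, |u ω / w ω ^ k| ≤ B := fun ω => by
    rw [abs_div, abs_of_pos (pow_pos (hw ω) k), div_le_iff₀ (pow_pos (hw ω) k)]
    exact hu ω
  have h2 : ∀ ω, u ω * ((w ω + δ) ^ k)⁻¹ = u ω / w ω ^ k * (1 + -(δ / (w ω + δ))) ^ k := fun ω => by
    have := (hw ω).ne'
    have := (hp ω).ne'
    rw [show 1 + -(δ / (w ω + δ)) = w ω / (w ω + δ) by field_simp; ring, div_pow]
    field_simp
  have h3 : ∀ ω, 0 ≤ δ / (w ω + δ) ∧ δ / (w ω + δ) ≤ 1 := fun ω =>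
    ⟨(div_pos hδ (hp ω)).le, (div_le_one (hp ω)).2 (by linarith [hw ω])⟩
  have h4 : ∀ ω, 0 ≤ (1 + -(δ / (w ω + δ))) ^ k ∧ (1 + -(δ / (w ω + δ))) ^ k ≤ 1 := fun ω =>
    ⟨pow_nonneg (by linarith [h3 ω]) k, pow_le_one₀ (by linarith [h3 ω]) (by linarith [h3 ω])⟩
  have i1 : Integrable (fun ω => u ω / w ω ^ k) P :=
    .of_bound (mu.div (mw.pow_const k)).aestronglyMeasurable B (Eventually.of_forall h1)
  have i2 : Integrable (fun ω => u ω * ((w ω + δ) ^ k)⁻¹) P :=
    .of_bound (mu.mul ((mw.add_const δ).pow_const k).inv).aestronglyMeasurable B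
      (Eventually.of_forall fun ω => by
        rw [h2, Real.norm_eq_abs, abs_mul, abs_of_nonneg (h4 ω).1]
        exact (mul_le_of_le_one_right (abs_nonneg _) (h4 ω).2).trans (h1 ω))
  have i3 : Integrable (fun ω => δ / (w ω + δ)) P :=
    .of_bound ((mw.add_const δ).const_div δ).aestronglyMeasurable 1
      (Eventually.of_forall fun ω => by rw [Real.norm_of_nonneg (h3 ω).1]; exact (h3 ω).2)
  rw [← integral_sub i1 i2, ← integral_const_mul]
  refine norm_integral_le_of_norm_le (G := ℝ) (i3.const_mul _) (Eventually.of_forall fun ω => ?_)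
  have h5 := one_add_mul_le_pow (a := -(δ / (w ω + δ))) (by linarith [h3 ω]) k
  rw [h2, ← mul_one_sub, Real.norm_eq_abs, abs_mul, abs_of_nonneg (sub_nonneg.2 (h4 ω).2),
    mul_assoc]
  exact mul_le_mul (h1 ω) (by linarith) (sub_nonneg.2 (h4 ω).2) ((abs_nonneg _).trans (h1 ω))

theorem tr (C M4 B : ℝ) {e : ℝ} (he : 0 < e) : ∃ δ0 > 0, ∀ δ ∈ Set.Ioc (0 : ℝ) δ0,
    ∀ {r : ℕ} (X : YS r F) (q V : (F → ℝ) → Bool → ℝ), X.Mom M4 → QOk q C → VOk V B →
      |X.cav1 q - X.val (fun _ => 1) (fun _ => 1) (fun _ => 1) (Wq q)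
        fun w => Real.log (w + δ)| ≤ e ∧
      |X.cav3 q V - X.val (fun _ => 1) (Vq q V) (fun _ => 1) (Wq q) fun w => (w + δ)⁻¹| ≤ e ∧
      ∀ f : VV r → ℝ, Measurable f → (∀ v, |f v| ≤ 1) →
        |X.cav2 q V f - X.val f (Vq q V) (Vq q V) (Wq q) fun w => ((w + δ) ^ 2)⁻¹| ≤ e := by
  have hp : 0 < 1 + |B| + 2 * B ^ 2 := by positivity
  obtain ⟨δ0, h0, H⟩ := tr_core (C ^ 2 * (Fintype.card F + 1) * (1 + Fintype.card F * M4))
    (div_pos he hp)
  refine ⟨δ0, h0, fun δ hδ r X q V hM hq hV => ?_⟩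
  have mw := measurable_av1 X.mH (tr_meas X hq.continuous_Wq)
  have mV := tr_meas X (hq.continuous_Vq hV)
  obtain ⟨h1, h2⟩ := H δ hδ X.P _ mw (tr_w X hq) (X.log_sq hM hq).1 (X.log_sq hM hq).2
  have hB : 0 ≤ B := (abs_nonneg _).trans (hV.bdd 0 true)
  have key : ∀ c, 0 ≤ c → c ≤ 1 + |B| + 2 * B ^ 2 → ∀ x, x ≤ e / (1 + |B| + 2 * B ^ 2) →
      c * x ≤ e := fun c h0 hc x hx => (mul_le_mul_of_nonneg_left hx h0).trans <| by
    rw [← mul_div_assoc, div_le_iff₀ hp, mul_comm]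
    exact mul_le_mul_of_nonneg_left hc he.le
  refine ⟨?_, ?_, fun f mf hf => ?_⟩
  · simp only [YS.cav1, YS.val, av_const, one_mul]
    rw [abs_sub_comm]
    simpa using key 1 zero_le_one (by nlinarith [abs_nonneg B]) _ h1
  · simp only [YS.cav3, YS.val, one_mul, mul_one]
    simp only [fun ω => av_eval 2 (X.H ω) (fun s => Vq q V (X.y ω s)) 0]
    have h3 := tr_cmp (P := X.P) (measurable_av1 X.mH mV) mw (fun ω => (tr_w X hq ω).1) hδ.1 1
      (B := B) fun ω => (abs_av1_le _ _).trans <| (av1_mono _ fun s =>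
        abs_Vq_le q hV.bdd _).trans_eq (by rw [av1_mul_left, pow_one])
    simp only [pow_one, Nat.cast_one, mul_one] at h3
    exact h3.trans (key _ hB (by nlinarith [le_abs_self B]) _ h2)
  · refine (tr_cmp (P := X.P) (measurable_av 2 X.mH fun σ => ((mf.comp (X.mR _ _)).mul
      (mV _)).mul (mV _)) mw (fun ω => (tr_w X hq ω).1) hδ.1 2 (B := B ^ 2) fun ω => ?_).trans
      (key _ (by positivity) (by push_cast; nlinarith [abs_nonneg B]) _ h2)
    refine (abs_av_le _ _ _).trans ((av_mono _ _ (G := fun σ => B * Wq q (X.y ω (σ 0)) *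
      (B * Wq q (X.y ω (σ 1)))) fun σ => ?_).trans_eq ?_)
    · simp only [Pi.mul_apply, abs_mul]
      exact mul_le_mul ((mul_le_of_le_one_left (abs_nonneg _) (hf _)).trans (abs_Vq_le q hV.bdd _))
        (abs_Vq_le q hV.bdd _) (abs_nonneg _) (mul_nonneg hB (Wq_pos _ _).le)
    · rw [av_two_mul (X.H ω) (fun s => B * Wq q (X.y ω s)) fun s => B * Wq q (X.y ω s),
        av1_mul_left]
      ring

end

end Vale.Agent.P166
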