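import Vale.Agent.P166.Qt
import Vale.Agent.P166.Tr
import Vale.Agent.P166.CasG
import Vale.Agent.P166.Th

/-! P166 Cq0: cavity functionals of good cascades converge to derivatives of the recursion.
Plan. cq_mark: R = pi.r+1. Let Wt (y,z) = Wq (q - theta V clip 1 z) y = exp(|theta| B) * (a weight in (0,1]); combine the Gaussian marks and the signs into marks in (F -> R) x Bool
(measurePreserving_arrowProdEquivProdArrow; stt (stepM dt j) (0,z0) has components stt (stepG dt) 0 and z0 + sum of the signs, by stt_add). Truncate: log (av1 Wt + delta) = log av1 exp(log (Wt + delta)); RM0.th with the bounded function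
log (Wt + delta) and GoodCas.small (KK 1 V B = KK 1 V 0 exp(4B)); tr_core and log_sq (cas_mom) make the truncation error uniform in i; rc_tendsto (delta = 1/(n+1), weight w y = C'(1 + sum y^2)) removes it on the recursion side.
cq1: theta = 0. cq3: j = pi.r+2, z0 = 1 (no sign is added); on S x Bool with energy H - q, taylor1 gives |cav1 (q - theta V) - cav1 q - theta cav3| <= theta^2 B^2 (av1_tilt, lz_prod).
cq2: z0 = 0, the mark is spin (omega (anc j alpha)); lemma rad on S x Bool with nd = anc j alpha, anc_eq_iff, Rm_snd. -/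

open MeasureTheory ProbabilityTheory Filter Topology Matrix Finset

namespace Vale.Agent.P166

noncomputable section

variable {F : Type} [Fintype F] {π : Path} {b : ℕ → ℕ → ℕ} {P : ℕ → Pr}
  {q V : (F → ℝ) → Bool → ℝ} {C B : ℝ}

section Fin

variable {S : Type} [Fintype S] [Nonempty S]

lemma cq0_gw (H : S → ℝ) (q : S → Bool → ℝ) (c : S × Bool) :
    gw (fun c : S × Bool => H c.1 - q c.1 c.2) c =
      gw H c.1 * (Real.exp (-q c.1 c.2) / 2) / av1 H (Wq q) := by
  have hZ := gibbs_Z_pos H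
  have hZ' := gibbs_Z_pos fun c : S × Bool => H c.1 - q c.1 c.2
  have e : av1 H (Wq q) =
      (∑ c : S × Bool, Real.exp (H c.1 - q c.1 c.2)) / (2 * ∑ s, Real.exp (H s)) := by
    rw [av1, Fintype.sum_prod_type, sum_div]
    refine sum_congr rfl fun s _ => ?_
    simp only [gw, Wq, Fintype.sum_bool, sub_eq_add_neg, Real.exp_add]
    field_simp
  rw [e, gw, gw, sub_eq_add_neg, Real.exp_add]
  field_simp

lemma cq0_av1 (H : S → ℝ) (q K : S → Bool → ℝ) :
    av1 (fun c : S × Bool => H c.1 - q c.1 c.2) (fun c => K c.1 c.2) =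
      av1 H (Vq q K) / av1 H (Wq q) := by
  rw [av1, Fintype.sum_prod_type, av1, sum_div]
  refine sum_congr rfl fun s _ => ?_
  simp only [cq0_gw, Vq, Fintype.sum_bool]
  ring

lemma cq0_av2 {T : Type} [Fintype T] (H : T → ℝ) (G : T → T → ℝ) :
    av 2 H (fun σ => G (σ 0) (σ 1)) = av1 H fun s => av1 H (G s) := by
  rw [av, ← (finTwoArrowEquiv T).symm.sum_comp, Fintype.sum_prod_type, av1]
  refine sum_congr rfl fun s _ => ?_
  rw [av1, mul_sum]
  refine sum_congr rfl fun s' _ => ?_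
  simp [mul_assoc]

lemma cq0_av2' (H : S → ℝ) (q V : S → Bool → ℝ) (f : S → S → ℝ) :
    av 2 (fun c : S × Bool => H c.1 - q c.1 c.2)
        (fun σ => f (σ 0).1 (σ 1).1 * V (σ 0).1 (σ 0).2 * V (σ 1).1 (σ 1).2) =
      av 2 H (fun σ => f (σ 0) (σ 1) * Vq q V (σ 0) * Vq q V (σ 1)) / av1 H (Wq q) ^ 2 := by
  rw [cq0_av2 _ fun c c' : S × Bool => f c.1 c'.1 * V c.1 c.2 * V c'.1 c'.2,
    cq0_av2 _ fun s s' => f s s' * Vq q V s * Vq q V s']
  have e : ∀ (s : S) (x : ℝ), av1 (fun c : S × Bool => H c.1 - q c.1 c.2)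
      (fun c' => f s c'.1 * x * V c'.1 c'.2) =
      x * (av1 H (fun s' => f s s' * Vq q V s') / av1 H (Wq q)) := fun s x => by
    rw [cq0_av1 H q fun s' ε => f s s' * x * V s' ε, ← mul_div_assoc, ← av1_mul_left]
    congr 2
    funext s'
    simp only [Vq]
    ring
  simp only [e]
  rw [cq0_av1 H q fun s ε => V s ε * (av1 H (fun s' => f s s' * Vq q V s') / av1 H (Wq q)),
    sq, ← div_div]
  refine congrArg (· / av1 H (Wq q)) ?_
  rw [div_eq_inv_mul (av1 H fun s => av1 H fun s' => f s s' * Vq q V s * Vq q V s'),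
    ← av1_mul_left]
  refine congrArg (av1 H) (funext fun s => ?_)
  have e2 : (fun s' => f s s' * Vq q V s * Vq q V s') =
      fun s' => Vq q V s * (f s s' * Vq q V s') := funext fun s' => by ring
  rw [e2, av1_mul_left]
  rw [Vq, Vq]
  ring

lemma cq0_log (H : S → ℝ) (q K : S → Bool → ℝ) :
    Real.log (av1 H (Wq fun s ε => q s ε - K s ε)) = Real.log (av1 H (Wq q)) +
      Real.log (av1 (fun c : S × Bool => H c.1 - q c.1 c.2) fun c => Real.exp (K c.1 c.2)) := by
  have h0 : 0 < av1 H (Wq q) := av1_pos _ fun _ => Wq_pos _ _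
  have h1 : 0 < av1 H (Wq fun s ε => q s ε - K s ε) := av1_pos _ fun _ => Wq_pos _ _
  have e : (Vq q fun s ε => Real.exp (K s ε)) = Wq fun s ε => q s ε - K s ε := by
    funext s
    simp only [Vq, Wq, ← Real.exp_add, sub_eq_add_neg, neg_add_rev, neg_neg]
  rw [cq0_av1 H q fun s ε => Real.exp (K s ε), e, Real.log_div h1.ne' h0.ne']
  ring

end Fin

lemma cq0_lim {L : Filter ℕ} {x : ℕ → ℝ} {g : ℝ → ℕ → ℝ} {γ : ℝ → ℝ} {c K : ℝ}
    (hg : ∀ θ, 0 < θ → Tendsto (g θ) L (𝓝 (γ θ))) (hγ : Tendsto γ (𝓝[>] 0) (𝓝 c))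
    (h : ∀ θ, 0 < θ → ∀ i, |g θ i - x i| ≤ K * θ) : Tendsto x L (𝓝 c) := by
  rw [Metric.tendsto_nhds]
  intro ε hε
  have h1 : Tendsto (fun θ : ℝ => K * θ) (𝓝[>] 0) (𝓝 0) := by
    have := ((continuous_const_mul K).tendsto 0).mono_left (nhdsWithin_le_nhds (s := Set.Ioi 0))
    rwa [mul_zero] at this
  obtain ⟨θ, h2, h3, h4⟩ := ((Metric.tendsto_nhds.1 hγ (ε / 3) (by positivity)).and
    ((h1.eventually_lt_const (show (0 : ℝ) < ε / 3 by positivity)).and self_mem_nhdsWithin)).exists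
  filter_upwards [Metric.tendsto_nhds.1 (hg θ h4) (ε / 3) (by positivity)] with i hi
  have h5 := h θ h4 i
  rw [Real.dist_eq, abs_lt] at h2 hi ⊢
  rw [abs_le] at h5
  constructor <;> linarith [h2.1, h2.2, hi.1, hi.2, h5.1, h5.2]

/-- cavity field and mark of a configuration -/
def cq0G (π : Path) (b : ℕ → ℕ) (P : Pr) (j : ℕ) (z0 : ℝ)
    (p : (casYS F π b P).Ω × (Option (Nd b 1 (π.r + 1)) → Bool)) (c : Cfg (π.r + 1) b Unit) :
    (F → ℝ) × ℝ :=
  ((casYS F π b P).y p.1 c, z0 + ∑ l ∈ range (π.r + 2),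
    if l = j then spin (p.2 (anc 1 (π.r + 1) l c.2)) else 0)

lemma cq0G_meas (π : Path) (b : ℕ → ℕ) (P : Pr) (j : ℕ) (z0 : ℝ) (c : Cfg (π.r + 1) b Unit) :
    Measurable fun p => cq0G (F := F) π b P j z0 p c :=
  ((measurable_pi_lambda _ ((casYS F π b P).my c)).comp measurable_fst).prodMk
    ((measurable_of_finite fun ω : Option (Nd b 1 (π.r + 1)) → Bool => z0 + ∑ l ∈ range (π.r + 2),
      if l = j then spin (ω (anc 1 (π.r + 1) l c.2)) else 0).comp measurable_snd)

lemma cq0_meas (π : Path) (b : ℕ → ℕ) (P : Pr) (j : ℕ) (z0 : ℝ) {W : (F → ℝ) × ℝ → ℝ}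
    (hW : Measurable W) :
    Measurable fun p : (casYS F π b P).Ω × (Option (Nd b 1 (π.r + 1)) → Bool) =>
      av1 ((casYS F π b P).H p.1) fun c => W (cq0G π b P j z0 p c) :=
  measurable_av1 (fun c => ((casYS F π b P).mH c).comp measurable_fst) fun c =>
    hW.comp (cq0G_meas π b P j z0 c)

lemma cq0_th (π : Path) (b : ℕ → ℕ) {P : Pr} (hP : P.Ok) (j : ℕ) (z0 : ℝ)
    {W : (F → ℝ) × ℝ → ℝ} (hW : Measurable W) {B : ℝ} (hB : ∀ y, |W y| ≤ B) :
    |∫ p, Real.log (av1 ((casYS F π b P).H p.1) fun c => Real.exp (W (cq0G π b P j z0 p c)))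
        ∂((casYS F π b P).P.prod (Measure.pi fun _ => unifB)) -
      RCm π (fun l _ => π.dt l) j W z0| ≤
      err b 1 (π.r + 1) * KK 1 (6 * P.s ^ 2) 0 * Real.exp (4 * B) / π.m 1 := by
  have h := RM0.th (b := b) π.mok hP (V := 6 * P.s ^ 2) (fun l _ => by simp)
    ((gam F).prod unifB) (measurable_stepM (fun l _ => π.dt l) j) hW hB (0, z0)
  have h1 := measurePreserving_arrowProdEquivProdArrow (F → ℝ) Bool (Option (Nd b 1 (π.r + 1)))
    (fun _ => gam F) (fun _ => unifB)
  have h2 := ((measurePreserving_prodAssoc (RM0.sys (π.r + 1) b π.m P).P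
    (Measure.pi fun _ : Option (Nd b 1 (π.r + 1)) => gam F)
    (Measure.pi fun _ : Option (Nd b 1 (π.r + 1)) => unifB)).symm).comp
    ((MeasurePreserving.id (RM0.sys (π.r + 1) b π.m P).P).prod h1)
  have hm := (cq0_meas π b P j z0 hW.exp).log
  have e : KK (Fintype.card RM0.Sg) (6 * P.s ^ 2) B = KK 1 (6 * P.s ^ 2) 0 * Real.exp (4 * B) := by
    simp only [KK, Fintype.card_unit, mul_zero, zero_add, Real.exp_add]
    ring
  rw [e, ← mul_assoc] at h
  refine le_of_eq_of_le (congrArg (fun x => |x - RCm π (fun l _ => π.dt l) j W z0|) ?_) h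
  have h3 := integral_map (μ := (RM0.sys (π.r + 1) b π.m P).P.prod (Measure.pi fun _ =>
    (gam F).prod unifB)) h2.measurable.aemeasurable hm.aestronglyMeasurable
  rw [h2.map_eq] at h3
  refine h3.trans (integral_congr_ae (Eventually.of_forall fun p => ?_))
  refine congrArg (fun f => Real.log (av1 _ f)) (funext fun c => congrArg (fun y => Real.exp (W y)) ?_)
  have e1 := stt_add (fun l (w : (F → ℝ) × Bool) =>
    ((fun f => √(π.dt l) * w.1 f, if l = j then spin w.2 else 0) : (F → ℝ) × ℝ)) (π.r + 1) (0, z0)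
    p.2 c.2
  have e2 := stt_add (fun l (g : F → ℝ) => √(π.dt l) • g) (π.r + 1) 0 (fun ν => (p.2 ν).1) c.2
  refine Eq.trans ?_ e1.symm
  refine Prod.ext (e2.trans ?_) ?_
  · rw [Prod.fst_add, Prod.fst_sum]
    rfl
  · rw [Prod.snd_add, Prod.snd_sum]
    rfl

lemma cq0_mom {v : ℕ → ℝ} {T a : ℝ} (hT : ∀ l, √(v l) ^ 2 ≤ T) (ha : 0 ≤ a) (hC : 0 ≤ C)
    (j l : ℕ) (y : (F → ℝ) × ℝ) :
    Integrable (fun w => a + C * (1 + ∑ f, (stepM (fun l _ => v l) j l y w).1 f ^ 2))
      ((gam F).prod unifB) ∧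
    ∫ w, (a + C * (1 + ∑ f, (stepM (fun l _ => v l) j l y w).1 f ^ 2)) ∂((gam F).prod unifB) ≤
      (2 + 2 * C * (Fintype.card F * T)) * (1 + (a + C * (1 + ∑ f, y.1 f ^ 2))) := by
  have hT0 : 0 ≤ T := (sq_nonneg _).trans (hT 0)
  have hg : ∀ f : F, MeasurePreserving (fun w : (F → ℝ) × Bool => w.1 f) ((gam F).prod unifB)
      (gaussianReal 0 1) := fun f =>
    (measurePreserving_eval (fun _ : F => gaussianReal 0 1) f).comp measurePreserving_fst
  have hi : ∀ f : F, Integrable (fun w : (F → ℝ) × Bool => w.1 f ^ 2) ((gam F).prod unifB) :=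
    fun f => (hg f).integrable_comp_of_integrable (memLp_id_gaussianReal 2).integrable_sq
  have hi' : ∀ f : F, ∫ w : (F → ℝ) × Bool, w.1 f ^ 2 ∂((gam F).prod unifB) = 1 := fun f => by
    have := gauss_two 1
    have hm : Measurable fun x : ℝ => x ^ 2 := measurable_id.pow_const 2
    rw [← (hg f).map_eq, integral_map (hg f).measurable.aemeasurable hm.aestronglyMeasurable]
      at this
    exact this
  have hpt : ∀ w : (F → ℝ) × Bool,
      a + C * (1 + ∑ f, (stepM (fun l _ => v l) j l y w).1 f ^ 2) ≤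
        (a + C * (1 + ∑ f, 2 * y.1 f ^ 2)) + C * (2 * T) * ∑ f, w.1 f ^ 2 := fun w => by
    rw [mul_assoc, add_assoc, ← mul_add, add_assoc, mul_sum, ← sum_add_distrib]
    refine add_le_add le_rfl (mul_le_mul_of_nonneg_left (add_le_add le_rfl
      (sum_le_sum fun f _ => ?_)) hC)
    simp only [stepM, Prod.fst_add, Pi.add_apply]
    have := mul_le_mul_of_nonneg_right (hT l) (sq_nonneg (w.1 f))
    nlinarith [sq_nonneg (y.1 f - √(v l) * w.1 f)]
  have hS : Integrable (fun w : (F → ℝ) × Bool => C * (2 * T) * ∑ f, w.1 f ^ 2)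
      ((gam F).prod unifB) := (integrable_finsetSum _ fun f _ => hi f).const_mul _
  have hD : Integrable (fun w : (F → ℝ) × Bool => (a + C * (1 + ∑ f, 2 * y.1 f ^ 2)) +
      C * (2 * T) * ∑ f, w.1 f ^ 2) ((gam F).prod unifB) := (integrable_const _).add hS
  have hw0 : ∀ y : (F → ℝ) × ℝ, 0 ≤ a + C * (1 + ∑ f, y.1 f ^ 2) := fun y => by positivity
  have hwm : Measurable fun y : (F → ℝ) × ℝ => a + C * (1 + ∑ f, y.1 f ^ 2) := by fun_prop
  have hwi := hD.mono' (hwm.comp ((measurable_stepM (fun l _ => v l) j l).comp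
    (measurable_prodMk_left (x := y)))).aestronglyMeasurable (Eventually.of_forall fun w =>
      (Real.norm_of_nonneg (hw0 _)).trans_le (hpt w))
  refine ⟨hwi, (integral_mono hwi hD hpt).trans ?_⟩
  rw [integral_add (integrable_const _) hS, integral_const_mul,
    integral_finsetSum _ fun f _ => hi f]
  simp only [hi', integral_const, probReal_univ, one_smul, ← mul_sum, sum_const, card_univ,
    nsmul_eq_mul]
  have h3 : 0 ≤ ∑ f, y.1 f ^ 2 := sum_nonneg fun _ _ => sq_nonneg _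
  have h4 : 0 ≤ C * (Fintype.card F * T) := by positivity
  nlinarith [mul_nonneg h4 (hw0 y)]

lemma cq0_rc (π : Path) (hq : QOk q C) (j : ℕ) (z0 : ℝ) {W : (F → ℝ) × ℝ → ℝ} (hW : Measurable W)
    {a : ℝ} (ha : 0 ≤ a) (h1 : ∀ y, Real.exp (-a) * Wq q y.1 ≤ W y)
    (h2 : ∀ y, W y ≤ Real.exp a * Wq q y.1) :
    Tendsto (fun n : ℕ => RCm π (fun l _ => π.dt l) j
      (fun y => Real.log (W y + Real.exp a * (1 / ((n : ℝ) + 1)))) z0) atTop
      (𝓝 (RCm π (fun l _ => π.dt l) j (fun y => Real.log (W y)) z0)) := by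
  have hC : 0 ≤ C := by simpa using (hq.nonneg 0 true).trans (hq.le 0 true)
  have hW0 : ∀ y, 0 < W y := fun y => (mul_pos (Real.exp_pos _) (Wq_pos _ _)).trans_le (h1 y)
  have hW1 : ∀ y, W y ≤ Real.exp a := fun y =>
    (h2 y).trans (mul_le_of_le_one_right (Real.exp_pos _).le (Wq_le_one hq.nonneg _))
  have e : ∀ X : (F → ℝ) × ℝ → ℝ, RCm π (fun l _ => π.dt l) j X z0 =
      rc π.m ((gam F).prod unifB) (stepM (fun l _ => π.dt (min l (π.r + 1))) j) X 0 (π.r + 2)
        (0, z0) := fun X =>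
    congrFun (rc_congr _ _ _ _ _ X 0 (π.r + 2) (fun _ _ _ => rfl) fun l _ hl => by
      funext y w
      simp only [stepM, min_eq_left (show l ≤ π.r + 1 by omega)]) _
  simp only [e]
  have hT : ∀ l, √(π.dt (min l (π.r + 1))) ^ 2 ≤ ∑ l ∈ range (π.r + 2), |π.dt l| := fun l => by
    rw [Real.sq_sqrt']
    exact (max_le (le_abs_self _) (abs_nonneg _)).trans (single_le_sum
      (f := fun l => |π.dt l|) (fun _ _ => abs_nonneg _) (mem_range.2 (by omega)))
  have hn : ∀ n : ℕ, 0 < Real.exp a * (1 / ((n : ℝ) + 1)) := fun n => by positivity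
  have hn1 : ∀ n : ℕ, 1 / ((n : ℝ) + 1) ≤ 1 := fun n =>
    (div_le_one (by positivity)).2 (le_add_of_nonneg_left (Nat.cast_nonneg n))
  refine rc_tendsto π.m π.m_nonneg _ (measurable_stepM _ j) hW.log
    (fun n => (hW.add_const _).log) (B := Real.log (Real.exp a + Real.exp a * 1))
    (fun n y => Real.log_le_log (hW0 y) (le_add_of_nonneg_right (hn n).le))
    (fun n y => Real.log_le_log (add_pos (hW0 y) (hn n)) (add_le_add (hW1 y)
      (mul_le_mul_of_nonneg_left (hn1 n) (Real.exp_pos _).le))) (fun y => ?_)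
    (w := fun y => a + C * (1 + ∑ f, y.1 f ^ 2)) (fun y => by positivity)
    (fun y => ?_) (fun l y => (cq0_mom hT ha hC j l y).1) (fun l y => (cq0_mom hT ha hC j l y).2)
    _ _ _
  · have := ((tendsto_one_div_add_atTop_nhds_zero_nat.const_mul (Real.exp a)).const_add (W y))
    rw [mul_zero, add_zero] at this
    exact this.log (hW0 y).ne'
  · have h3 := Real.log_le_log (mul_pos (Real.exp_pos _) (Wq_pos _ _)) (h1 y)
    rw [Real.log_mul (Real.exp_pos _).ne' (Wq_pos _ _).ne', Real.log_exp] at h3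
    linarith [hq.neg_le_log_Wq y.1]

lemma cq0_sq (π : Path) (b : ℕ → ℕ) (P : Pr) (hq : QOk q C) (j : ℕ) (z0 : ℝ)
    {W : (F → ℝ) × ℝ → ℝ} (hW : Measurable W) {a : ℝ} (h1 : ∀ y, Real.exp (-a) * Wq q y.1 ≤ W y)
    (h2 : ∀ y, W y ≤ Real.exp a * Wq q y.1) :
    let w := fun p : (casYS F π b P).Ω × (Option (Nd b 1 (π.r + 1)) → Bool) =>
      Real.exp (-a) * av1 ((casYS F π b P).H p.1) fun c => W (cq0G π b P j z0 p c)
    (∀ p, 0 < w p ∧ w p ≤ 1) ∧
    Integrable (fun p => Real.log (w p) ^ 2) ((casYS F π b P).P.prod (Measure.pi fun _ => unifB)) ∧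
    ∫ p, Real.log (w p) ^ 2 ∂((casYS F π b P).P.prod (Measure.pi fun _ => unifB)) ≤
      2 * (C ^ 2 * (Fintype.card F + 1) * (1 + Fintype.card F * (3 * π.t (π.r + 1) ^ 2))) +
        8 * a ^ 2 := by
  intro w
  obtain ⟨i0, i1⟩ := (casYS F π b P).log_sq (cas_mom π b P) hq
  set w0 := fun z => av1 ((casYS F π b P).H z) fun s => Wq q ((casYS F π b P).y z s)
  have hw0 : ∀ z, 0 < w0 z ∧ w0 z ≤ 1 := tr_w (casYS F π b P) hq
  have k1 : ∀ p, Real.exp (-a) * (Real.exp (-a) * w0 p.1) ≤ w p := fun p =>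
    mul_le_mul_of_nonneg_left ((av1_mul_left _ _ _).symm.trans_le
      (av1_mono _ fun c => h1 (cq0G π b P j z0 p c))) (Real.exp_pos _).le
  have k2 : ∀ p, w p ≤ w0 p.1 := fun p => by
    refine (mul_le_mul_of_nonneg_left ((av1_mono _ fun c => h2 (cq0G π b P j z0 p c)).trans_eq
      (av1_mul_left _ _ _)) (Real.exp_pos _).le).trans_eq ?_
    rw [← mul_assoc, ← Real.exp_add, neg_add_cancel, Real.exp_zero, one_mul]
    rfl
  have k0 : ∀ p, 0 < w p := fun p => lt_of_lt_of_le (by have := (hw0 p.1).1; positivity) (k1 p)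
  have k3 : ∀ p, Real.log (w p) ^ 2 ≤ 2 * Real.log (w0 p.1) ^ 2 + 8 * a ^ 2 := fun p => by
    have l1 := Real.log_le_log (by have := (hw0 p.1).1; positivity) (k1 p)
    have l2 := Real.log_le_log (k0 p) (k2 p)
    have l3 := Real.log_nonpos (hw0 p.1).1.le (hw0 p.1).2
    rw [Real.log_mul (Real.exp_pos _).ne' (mul_pos (Real.exp_pos _) (hw0 p.1).1).ne',
      Real.log_mul (Real.exp_pos _).ne' (hw0 p.1).1.ne', Real.log_exp] at l1
    nlinarith [sq_nonneg (Real.log (w0 p.1) + 2 * a)]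
  have iD : Integrable (fun p : (casYS F π b P).Ω × (Option (Nd b 1 (π.r + 1)) → Bool) =>
      Real.log (w0 p.1) ^ 2) ((casYS F π b P).P.prod (Measure.pi fun _ => unifB)) :=
    i0.comp_fst _
  have iD' := (iD.const_mul 2).add (integrable_const (8 * a ^ 2))
  have i2 := iD'.mono' (((cq0_meas π b P j z0 hW).const_mul (Real.exp (-a))).log.pow_const
    2).aestronglyMeasurable (Eventually.of_forall fun p => by
      rw [Real.norm_of_nonneg (sq_nonneg _)]; exact k3 p)
  refine ⟨fun p => ⟨k0 p, (k2 p).trans (hw0 p.1).2⟩, i2, (integral_mono i2 iD' k3).trans ?_⟩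
  simp only [Pi.add_apply]
  rw [integral_add (iD.const_mul 2) (integrable_const _), integral_const_mul,
    integral_fun_fst fun z => Real.log (w0 z) ^ 2]
  simp only [integral_const, probReal_univ, one_smul]
  linarith

lemma cq0_gen (hc : GoodCas (π.r + 1) π.m b P) (hq : QOk q C) (j : ℕ) (z0 : ℝ)
    {W : (F → ℝ) × ℝ → ℝ} (hW : Measurable W) {a : ℝ} (ha : 0 ≤ a)
    (h1 : ∀ y, Real.exp (-a) * Wq q y.1 ≤ W y) (h2 : ∀ y, W y ≤ Real.exp a * Wq q y.1) :
    (∀ i, Integrable (fun p => Real.log (av1 ((casYS F π (b i) (P i)).H p.1) fun c =>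
      W (cq0G π (b i) (P i) j z0 p c)))
      ((casYS F π (b i) (P i)).P.prod (Measure.pi fun _ => unifB))) ∧
    Tendsto (fun i => ∫ p, Real.log (av1 ((casYS F π (b i) (P i)).H p.1) fun c =>
      W (cq0G π (b i) (P i) j z0 p c))
      ∂((casYS F π (b i) (P i)).P.prod (Measure.pi fun _ => unifB))) (hyperfilter ℕ)
      (𝓝 (RCm π (fun l _ => π.dt l) j (fun y => Real.log (W y)) z0)) := by
  have hW0 : ∀ y, 0 < W y := fun y => (mul_pos (Real.exp_pos _) (Wq_pos _ _)).trans_le (h1 y)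
  have hW1 : ∀ y, W y ≤ Real.exp a := fun y =>
    (h2 y).trans (mul_le_of_le_one_right (Real.exp_pos _).le (Wq_le_one hq.nonneg _))
  have hs := fun i => cq0_sq π (b i) (P i) hq j z0 hW h1 h2
  have hm := fun i => (cq0_meas π (b i) (P i) j z0 hW).const_mul (Real.exp (-a))
  have hi := fun i => ((memLp_two_iff_integrable_sq (hm i).log.aestronglyMeasurable).2
    (hs i).2.1).integrable one_le_two
  have e0 : ∀ x : ℝ, 0 < x → Real.log x = Real.log (Real.exp (-a) * x) + a := fun x hx => by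
    rw [Real.log_mul (Real.exp_pos _).ne' hx.ne', Real.log_exp]
    ring
  have e1 := fun i (p : (casYS F π (b i) (P i)).Ω × (Option (Nd (b i) 1 (π.r + 1)) → Bool)) =>
    e0 _ (av1_pos ((casYS F π (b i) (P i)).H p.1) fun c => hW0 (cq0G π (b i) (P i) j z0 p c))
  refine ⟨fun i => ((hi i).add (integrable_const a)).congr
    (Eventually.of_forall fun p => (e1 i p).symm), ?_⟩
  rw [Metric.tendsto_nhds]
  intro ε hε
  obtain ⟨δ0, hδ0, H⟩ := tr_core (2 * (C ^ 2 * (Fintype.card F + 1) *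
    (1 + Fintype.card F * (3 * π.t (π.r + 1) ^ 2))) + 8 * a ^ 2) (show 0 < ε / 3 by positivity)
  obtain ⟨n, hn1, hn2⟩ := ((Metric.tendsto_nhds.1 (cq0_rc π hq j z0 hW ha h1 h2) (ε / 3)
    (by positivity)).and
    (tendsto_one_div_add_atTop_nhds_zero_nat.eventually_le_const hδ0)).exists
  set δ : ℝ := 1 / ((n : ℝ) + 1)
  have hδ : 0 < δ := by positivity
  have hδ' : 0 < Real.exp a * δ := by positivity
  obtain ⟨B', hB'⟩ : ∃ B', ∀ y, |Real.log (W y + Real.exp a * δ)| ≤ B' :=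
    ⟨_, fun y => abs_le_max_abs_abs (Real.log_le_log hδ' (le_add_of_nonneg_left (hW0 y).le))
      (Real.log_le_log (add_pos (hW0 y) hδ') (add_le_add (hW1 y) le_rfl))⟩
  have h3 := ((hc.small.mul_const (Real.exp (4 * B'))).div_const (π.m 1)).mono_left
    Nat.hyperfilter_le_atTop
  rw [zero_mul, zero_div] at h3
  filter_upwards [h3.eventually_lt_const (show (0 : ℝ) < ε / 3 by positivity)] with i h4
  have h5 := cq0_th π (b i) (hc.ok i) j z0 (hW.add_const (Real.exp a * δ)).log hB'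
  have h6 := (H δ ⟨hδ, hn2⟩ _ _ (hm i) (hs i).1 (hs i).2.1 (hs i).2.2).1
  have e2 : ∀ p : (casYS F π (b i) (P i)).Ω × (Option (Nd (b i) 1 (π.r + 1)) → Bool),
      Real.log (av1 ((casYS F π (b i) (P i)).H p.1) fun c =>
        Real.exp (Real.log (W (cq0G π (b i) (P i) j z0 p c) + Real.exp a * δ))) =
      Real.log (Real.exp (-a) * av1 ((casYS F π (b i) (P i)).H p.1) (fun c =>
        W (cq0G π (b i) (P i) j z0 p c)) + δ) + a := fun p => by
    simp only [Real.exp_log (add_pos (hW0 _) hδ')]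
    rw [av1_add, av1_const, e0 _ (add_pos (av1_pos _ fun c => hW0 _) hδ'), mul_add, ← mul_assoc,
      ← Real.exp_add, neg_add_cancel, Real.exp_zero, one_mul]
  have i2 : Integrable (fun p : (casYS F π (b i) (P i)).Ω × (Option (Nd (b i) 1 (π.r + 1)) → Bool) =>
      Real.log (Real.exp (-a) * av1 ((casYS F π (b i) (P i)).H p.1) (fun c =>
        W (cq0G π (b i) (P i) j z0 p c)) + δ))
      ((casYS F π (b i) (P i)).P.prod (Measure.pi fun _ => unifB)) :=
    rmb_integrable ((hm i).add_const δ).log fun p => abs_le_max_abs_abs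
      (Real.log_le_log hδ (le_add_of_nonneg_left ((hs i).1 p).1.le))
      (Real.log_le_log (add_pos ((hs i).1 p).1 hδ) (add_le_add ((hs i).1 p).2 le_rfl))
  simp only [e2] at h5
  rw [integral_add i2 (integrable_const a)] at h5
  rw [integral_congr_ae (Eventually.of_forall (e1 i)), integral_add (hi i) (integrable_const a)]
  rw [Real.dist_eq, abs_lt] at hn1 ⊢
  rw [abs_le] at h5 h6
  constructor <;> linarith [h5.1, h5.2, h6.1, h6.2, hn1.1, hn1.2]

lemma cq0_mark (hc : GoodCas (π.r + 1) π.m b P) (hq : QOk q C) (hV : VOk V B) (j : ℕ) (θ z0 : ℝ) :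
    (∀ i, Integrable (fun p => Real.log (av1 ((casYS F π (b i) (P i)).H p.1) fun c =>
      Wq (fun y ε => q y ε - θ * V y ε * clip 1 (cq0G π (b i) (P i) j z0 p c).2)
        (cq0G π (b i) (P i) j z0 p c).1))
      ((casYS F π (b i) (P i)).P.prod (Measure.pi fun _ => unifB))) ∧
    Tendsto (fun i => ∫ p, Real.log (av1 ((casYS F π (b i) (P i)).H p.1) fun c =>
      Wq (fun y ε => q y ε - θ * V y ε * clip 1 (cq0G π (b i) (P i) j z0 p c).2)
        (cq0G π (b i) (P i) j z0 p c).1)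
      ∂((casYS F π (b i) (P i)).P.prod (Measure.pi fun _ => unifB))) (hyperfilter ℕ)
      (𝓝 (RC2 π q V j θ z0)) := by
  have hB : 0 ≤ B := (abs_nonneg _).trans (hV.bdd 0 true)
  have hb : ∀ (y : (F → ℝ) × ℝ) ε, |θ * V y.1 ε * clip 1 y.2| ≤ |θ| * B := fun y ε => by
    rw [abs_mul, abs_mul]
    exact (mul_le_of_le_one_right (by positivity) (abs_clip_le zero_le_one _)).trans
      (mul_le_mul_of_nonneg_left (hV.bdd _ _) (abs_nonneg _))
  have hcont : ∀ ε, Continuous fun y : (F → ℝ) × ℝ =>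
      Real.exp (-(q y.1 ε - θ * V y.1 ε * clip 1 y.2)) := fun ε =>
    (((hq.cont ε).comp continuous_fst).sub ((((hV.cont ε).comp continuous_fst).const_mul θ).mul
      ((continuous_clip 1).comp continuous_snd))).neg.rexp
  refine cq0_gen hc hq j z0 (W := fun y => Wq (fun y' ε => q y' ε - θ * V y' ε * clip 1 y.2) y.1)
    (((hcont true).add (hcont false)).div_const 2).measurable (a := |θ| * B) (by positivity)
    (fun y => ?_) fun y => ?_
  · simp only [Wq]
    rw [← mul_div_assoc, mul_add, ← Real.exp_add, ← Real.exp_add]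
    exact div_le_div_of_nonneg_right (add_le_add
      (Real.exp_le_exp.2 (by linarith [(abs_le.1 (hb y true)).1]))
      (Real.exp_le_exp.2 (by linarith [(abs_le.1 (hb y false)).1]))) zero_le_two
  · simp only [Wq]
    rw [← mul_div_assoc, mul_add, ← Real.exp_add, ← Real.exp_add]
    exact div_le_div_of_nonneg_right (add_le_add
      (Real.exp_le_exp.2 (by linarith [(abs_le.1 (hb y true)).2]))
      (Real.exp_le_exp.2 (by linarith [(abs_le.1 (hb y false)).2]))) zero_le_two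

lemma cq0_int1 {r : ℕ} (X : YS r F) {M4 : ℝ} (hM : X.Mom M4) (hq : QOk q C) :
    Integrable (fun ω => Real.log (av1 (X.H ω) fun s => Wq q (X.y ω s))) X.P :=
  ((memLp_two_iff_integrable_sq (measurable_av1 X.mH
    (tr_meas X hq.continuous_Wq)).log.aestronglyMeasurable).2 (X.log_sq hM hq).1).integrable
    one_le_two

lemma cq0_int3 {r : ℕ} (X : YS r F) (hq : QOk q C) (hV : VOk V B) :
    Integrable (fun ω => av1 (X.H ω) (fun s => Vq q V (X.y ω s)) /
      av1 (X.H ω) fun s => Wq q (X.y ω s)) X.P :=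
  rmb_integrable (B := B) ((measurable_av1 X.mH (tr_meas X (hq.continuous_Vq hV))).div
    (measurable_av1 X.mH (tr_meas X hq.continuous_Wq))) fun ω =>
      (congrArg abs (cq0_av1 (X.H ω) (fun s => q (X.y ω s)) fun s => V (X.y ω s))).symm.trans_le
        (abs_av1_le_const _ fun _ => hV.bdd _ _)

lemma cq0_int2 {r : ℕ} (X : YS r F) (hq : QOk q C) (hV : VOk V B) (j : ℕ) :
    Integrable (fun ω => av 2 (X.H ω) (fun σ => indL j (X.R ω (σ 0) (σ 1)) *
      Vq q V (X.y ω (σ 0)) * Vq q V (X.y ω (σ 1))) /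
      (av1 (X.H ω) fun s => Wq q (X.y ω s)) ^ 2) X.P := by
  have mV := tr_meas X (hq.continuous_Vq hV)
  have hB : 0 ≤ B := (abs_nonneg _).trans (hV.bdd 0 true)
  refine rmb_integrable (B := 1 * B * B) ((measurable_av 2 X.mH fun σ =>
    (((continuous_indL j).measurable.comp (X.mR _ _)).mul (mV _)).mul (mV _)).div
    ((measurable_av1 X.mH (tr_meas X hq.continuous_Wq)).pow_const 2)) fun ω =>
      (congrArg abs (cq0_av2' (X.H ω) (fun s => q (X.y ω s)) (fun s => V (X.y ω s))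
        fun s s' => indL j (X.R ω s s'))).symm.trans_le (abs_av_le_const _ _ fun σ => ?_)
  rw [abs_mul, abs_mul]
  exact mul_le_mul (mul_le_mul (abs_indL_le _ _) (hV.bdd _ _) (abs_nonneg _) zero_le_one)
    (hV.bdd _ _) (abs_nonneg _) (by positivity)

theorem cq_mark (hc : GoodCas (π.r + 1) π.m b P) (hq : QOk q C) (hV : VOk V B) (j : ℕ) (θ z0 : ℝ) :
    Tendsto (fun i => ∫ z, ∫ ω : Option (Nd (b i) 1 (π.r + 1)) → Bool,
        Real.log (av1 ((casYS F π (b i) (P i)).H z) fun c =>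
          Wq (fun y ε => q y ε - θ * V y ε * clip 1 (z0 + ∑ l ∈ range (π.r + 2),
            if l = j then spin (ω (anc 1 (π.r + 1) l c.2)) else 0))
            ((casYS F π (b i) (P i)).y z c))
        ∂(Measure.pi fun _ => unifB) ∂(casYS F π (b i) (P i)).P)
      (hyperfilter ℕ) (𝓝 (RC2 π q V j θ z0)) :=
  (cq0_mark hc hq hV j θ z0).2.congr fun i => integral_prod _ ((cq0_mark hc hq hV j θ z0).1 i)

theorem cq1 (hc : GoodCas (π.r + 1) π.m b P) (hq : QOk q C) (hV : VOk V B) (j : ℕ) (z0 : ℝ) :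
    Tendsto (fun i => (casYS F π (b i) (P i)).cav1 q) (hyperfilter ℕ)
      (𝓝 (RC2 π q V j 0 z0)) := by
  refine (cq_mark hc hq hV j 0 z0).congr fun i => ?_
  simp only [zero_mul, sub_zero, integral_const, probReal_univ, one_smul]
  rfl

theorem cq3 (hc : GoodCas (π.r + 1) π.m b P) (hq : QOk q C) (hV : VOk V B) {c : ℝ}
    (h : Tendsto (fun θ => (RC2 π q V (π.r + 2) θ 1 - RC2 π q V (π.r + 2) 0 1) / θ) (𝓝[>] 0)
      (𝓝 c)) :
    Tendsto (fun i => (casYS F π (b i) (P i)).cav3 q V) (hyperfilter ℕ) (𝓝 c) := by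
  refine cq0_lim (K := B ^ 2) (fun θ _ => ((cq_mark hc hq hV (π.r + 2) θ 1).sub
    (cq1 hc hq hV (π.r + 2) 1)).div_const θ) h fun θ hθ i => ?_
  set X := casYS F π (b i) (P i)
  have i1 := cq0_int1 X (cas_mom π (b i) (P i)) hq
  have i3 := cq0_int3 X hq hV
  have h1 := cont_int ((cq0_mark hc hq hV (π.r + 2) θ 1).1 i).integral_prod_left
    (i1.add (i3.const_mul θ)) (K := θ ^ 2 * B ^ 2) fun z => by
      have e : ∀ (ω : Option (Nd (b i) 1 (π.r + 1)) → Bool) c,
          clip 1 (cq0G π (b i) (P i) (π.r + 2) 1 (z, ω) c).2 = 1 := fun ω c => by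
        simp only [cq0G]
        rw [sum_eq_zero fun l hl => if_neg (mem_range.1 hl).ne, add_zero]
        simp [clip]
      simp only [e, mul_one, Pi.add_apply]
      have e2 := cq0_log (X.H z) (fun s => q (X.y z s)) fun s ε => θ * V (X.y z s) ε
      have e3 := taylor1 (fun c : X.S × Bool => X.H z c.1 - q (X.y z c.1) c.2)
        (fun c => V (X.y z c.1) c.2) (fun c => hV.bdd _ _) θ
      rw [cq0_av1 (X.H z) (fun s => q (X.y z s)) fun s => V (X.y z s)] at e3
      refine le_of_eq_of_le (congrArg abs ?_) e3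
      refine (congrArg (· - _) ((integral_const _).trans ((congrArg (· • _) probReal_univ).trans
        ((one_smul _ _).trans e2)))).trans ?_
      exact add_sub_add_left_eq_sub _ _ _
  simp only [Pi.add_apply] at h1
  rw [integral_add i1 (i3.const_mul θ), integral_const_mul] at h1
  rw [div_sub' hθ.ne', abs_div, abs_of_pos hθ, div_le_iff₀ hθ, sub_sub]
  exact h1.trans_eq (by ring)

theorem cq2 (hc : GoodCas (π.r + 1) π.m b P) (hq : QOk q C) (hV : VOk V B) {j : ℕ}
    (hj : j ≤ π.r + 1) {c : ℝ}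
    (h : Tendsto (fun θ => 2 / θ ^ 2 * (RC2 π q V j θ 0 - RC2 π q V j 0 0)) (𝓝[>] 0) (𝓝 c)) :
    Tendsto (fun i => (casYS F π (b i) (P i)).cav3 q (fun y ε => V y ε ^ 2) -
      (casYS F π (b i) (P i)).cav2 q V (indL j)) (hyperfilter ℕ) (𝓝 c) := by
  classical
  have hB : 0 ≤ B := (abs_nonneg _).trans (hV.bdd 0 true)
  have hV2 : VOk (fun y ε => V y ε ^ 2) (B ^ 2) := ⟨fun ε => (hV.cont ε).pow 2, fun y ε => by
    rw [abs_pow]; exact pow_le_pow_left₀ (abs_nonneg _) (hV.bdd y ε) 2⟩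
  refine cq0_lim (K := 4 * B ^ 3) (fun θ _ => ((cq_mark hc hq hV j θ 0).sub
    (cq1 hc hq hV j 0)).const_mul (2 / θ ^ 2)) h fun θ hθ i => ?_
  set X := casYS F π (b i) (P i)
  have i1 := cq0_int1 X (cas_mom π (b i) (P i)) hq
  have i3 := cq0_int3 X hq hV2
  have i2 := cq0_int2 X hq hV j
  have h1 := cont_int ((cq0_mark hc hq hV j θ 0).1 i).integral_prod_left
    (i1.add ((i3.sub i2).const_mul (θ ^ 2 / 2))) (K := 2 * |θ| ^ 3 * B ^ 3) fun z => by
      have e : ∀ (ω : Option (Nd (b i) 1 (π.r + 1)) → Bool) c,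
          clip 1 (cq0G π (b i) (P i) j 0 (z, ω) c).2 = spin (ω (anc 1 (π.r + 1) j c.2)) :=
        fun ω c => by
          simp only [cq0G]
          rw [sum_ite_eq', if_pos (mem_range.2 (by omega)), zero_add]
          cases ω (anc 1 (π.r + 1) j c.2) <;> simp [clip, spin]
      simp only [e, Pi.add_apply, Pi.sub_apply]
      have e2 := fun ω : Option (Nd (b i) 1 (π.r + 1)) → Bool => cq0_log (X.H z)
        (fun s => q (X.y z s)) fun s ε => θ * V (X.y z s) ε * spin (ω (anc 1 (π.r + 1) j s.2))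
      have e3 := rad (fun c : X.S × Bool => X.H z c.1 - q (X.y z c.1) c.2)
        (fun c => V (X.y z c.1) c.2) (fun c => anc 1 (π.r + 1) j c.1.2) (fun c => hV.bdd _ _) θ
      have e4 : ∀ c c' : X.S, (if anc 1 (π.r + 1) j c.2 = anc 1 (π.r + 1) j c'.2 then (1 : ℝ) else 0)
          = indL j (X.R z c c') := fun c c' => by
        simp only [anc_eq_iff 1 (π.r + 1) j hj, indL]
        exact if_congr (by rw [← Rm_snd (fun _ _ : Unit => 0) c c']) rfl rfl
      simp only [e4, ← mul_assoc] at e3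
      rw [cq0_av1 (X.H z) (fun s => q (X.y z s)) fun s ε => V (X.y z s) ε ^ 2,
        cq0_av2' (X.H z) (fun s => q (X.y z s)) (fun s => V (X.y z s))
          fun s s' => indL j (X.R z s s')] at e3
      refine le_of_eq_of_le (congrArg abs ?_) e3
      refine (congrArg (· - _) ((integral_congr_ae (Eventually.of_forall e2)).trans
        ((integral_add (integrable_const _) Integrable.of_finite).trans (congrArg (· + _)
          ((integral_const _).trans ((congrArg (· • _) probReal_univ).trans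
            (one_smul _ _))))))).trans ?_
      exact add_sub_add_left_eq_sub _ _ _
  have e6 := (integral_add' i1 ((i3.sub i2).const_mul (θ ^ 2 / 2))).trans (congrArg (_ + ·)
    ((integral_const_mul _ _).trans (congrArg (_ * ·) (integral_sub' i3 i2))))
  replace h1 := (congrArg (fun x => |_ - x|) e6).symm.trans_le h1
  rw [abs_of_pos hθ, ← sub_sub] at h1
  have e5 : ∀ x y : ℝ, 2 / θ ^ 2 * x - y = 2 / θ ^ 2 * (x - θ ^ 2 / 2 * y) := fun x y => by
    field_simp
  rw [e5, abs_mul, abs_of_pos (show 0 < 2 / θ ^ 2 by positivity)]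
  refine (mul_le_mul_of_nonneg_left h1 (by positivity)).trans_eq ?_
  field_simp
  ring

end

end Vale.Agent.P166
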