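import Vale.Agent.P166.Stmt

/-! P166: internal definitions, part 0 (no proofs needed). See notes/P166.md. -/

open MeasureTheory ProbabilityTheory Filter Topology Matrix Finset
open scoped MatrixOrder

namespace Vale.Agent.P166

noncomputable section

/-- Standard Gaussian vector indexed by `I`. -/
abbrev gam (I : Type) [Fintype I] : Measure (I → ℝ) := Measure.pi fun _ => gaussianReal 0 1

/-- Uniform sign. -/
def unifB : Measure Bool := (2⁻¹ : ENNReal) • (Measure.dirac true + Measure.dirac false)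

section Gibbs

variable {S I : Type} [Fintype S] [Fintype I]

/-- log partition function -/
def lz (H : S → ℝ) : ℝ := Real.log (∑ s, Real.exp (H s))
/-- Gibbs weight -/
def gw (H : S → ℝ) (s : S) : ℝ := Real.exp (H s) / ∑ s', Real.exp (H s')
/-- one replica Gibbs average -/
def av1 (H f : S → ℝ) : ℝ := ∑ s, gw H s * f s
/-- `n` replica Gibbs average -/
def av (n : ℕ) (H : S → ℝ) (F : (Fin n → S) → ℝ) : ℝ :=
  ∑ σ : Fin n → S, (∏ l, gw H (σ l)) * F σ
/-- linear Gaussian field with features `a` -/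
def feat (a : S → I → ℝ) (g : I → ℝ) (s : S) : ℝ := ∑ i, a s i * g i
/-- Gram kernel of the features -/
def gram (a : S → I → ℝ) (s s' : S) : ℝ := ∑ i, a s i * a s' i
/-- positive semidefinite kernel -/
def PSD (C : S → S → ℝ) : Prop := (Matrix.of C).PosSemidef

open Classical in
/-- square root of a kernel (zero if the kernel is not PSD) -/
def sqr (C : S → S → ℝ) : S → S → ℝ := fun s s' => (CFC.sqrt (Matrix.of C) : Matrix S S ℝ) s s'

/-- law of the centred Gaussian field with covariance kernel `C` -/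
def gK (C : S → S → ℝ) : Measure (S → ℝ) := (gam S).map (feat (sqr C))
/-- free energy averaged over the Gaussian field -/
def Phi (H : S → ℝ) (C : S → S → ℝ) : ℝ := ∫ y, lz (H + y) ∂gK C
/-- replica average, averaged over the Gaussian field -/
def Avg (n : ℕ) (H : S → ℝ) (C : S → S → ℝ) (F : (Fin n → S) → ℝ) : ℝ :=
  ∫ y, av n (H + y) F ∂gK C
/-- one replica average, averaged over the Gaussian field -/
def Avg1 (H : S → ℝ) (C : S → S → ℝ) (f : S → ℝ) : ℝ := ∫ y, av1 (H + y) f ∂gK C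

/-- `E Ψ(y¹,…,yⁿ)` for Gaussian vectors `y^l : F → ℝ`, `Cov(y^l f, y^l' f') = C l l' δ_{ff'}` -/
def PsiG {F : Type} [Fintype F] (n : ℕ) (Ψ : (Fin n → F → ℝ) → ℝ) (C : Fin n → Fin n → ℝ) : ℝ :=
  ∫ G : F → Fin n → ℝ, Ψ (fun l f => G f l) ∂(Measure.pi fun _ => gK C)

end Gibbs

/-! ### Finite trees: `k` levels `j, …, j+k-1`, a vertex of level `l-1` has `b l + 1` children -/

/-- leaves -/
def Leaf (b : ℕ → ℕ) : ℕ → ℕ → Type
  | _, 0 => Unit
  | j, k + 1 => Fin (b j + 1) × Leaf b (j + 1) k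

/-- vertices other than the root -/
def Nd (b : ℕ → ℕ) : ℕ → ℕ → Type
  | _, 0 => Empty
  | j, k + 1 => Fin (b j + 1) × Option (Nd b (j + 1) k)

instance Leaf.fintype (b : ℕ → ℕ) : ∀ j k, Fintype (Leaf b j k)
  | _, 0 => inferInstanceAs (Fintype Unit)
  | j, k + 1 => @instFintypeProd _ _ _ (Leaf.fintype b (j + 1) k)

instance Leaf.nonempty (b : ℕ → ℕ) : ∀ j k, Nonempty (Leaf b j k)
  | _, 0 => ⟨()⟩
  | j, k + 1 => (Leaf.nonempty b (j + 1) k).elim fun a => ⟨(0, a)⟩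

instance Nd.fintype (b : ℕ → ℕ) : ∀ j k, Fintype (Nd b j k)
  | _, 0 => inferInstanceAs (Fintype Empty)
  | j, k + 1 => @instFintypeProd _ _ _ (@instFintypeOption _ (Nd.fintype b (j + 1) k))

variable {b : ℕ → ℕ}

/-- level of a vertex -/
def dep : ∀ j k, Nd b j k → ℕ
  | _, 0, ν => ν.elim
  | j, _ + 1, (_, none) => j
  | j, k + 1, (_, some ν) => dep (j + 1) k ν

/-- number of common levels of two leaves -/
def lev : ∀ j k, Leaf b j k → Leaf b j k → ℕ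
  | _, 0, _, _ => 0
  | j, k + 1, α, α' => if α.1 = α'.1 then lev (j + 1) k α.2 α'.2 + 1 else 0

/-- the ancestor of a leaf `i` levels below the root (`none` is the root) -/
def anc : ∀ j k, ℕ → Leaf b j k → Option (Nd b j k)
  | _, 0, _, _ => none
  | _, _ + 1, 0, _ => none
  | j, k + 1, i + 1, α => some (α.1, anc (j + 1) k i α.2)

/-- logarithm of the cascade weight of a leaf -/
def lw (m : ℕ → ℝ) : ∀ j k, (Nd b j k → ℝ) → Leaf b j k → ℝ
  | _, 0, _, _ => 0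
  | j, k + 1, u, α => u (α.1, none) / m (j + 1) + lw m (j + 1) k (fun ν => u (α.1, some ν)) α.2

/-- state at a leaf of a Markov chain driven by marks on the vertices -/
def st {E Ω : Type} (step : ℕ → E → Ω → E) : ∀ j k, E → (Nd b j k → Ω) → Leaf b j k → E
  | _, 0, y, _, _ => y
  | j, k + 1, y, ω, α =>
      st step (j + 1) k (step j y (ω (α.1, none))) (fun ν => ω (α.1, some ν)) α.2

/-- the same with a mark at the root (level `0`) -/
def stt {E Ω : Type} (step : ℕ → E → Ω → E) (r : ℕ) (y : E) (ω : Option (Nd b 1 r) → Ω)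
    (α : Leaf b 1 r) : E :=
  st step 1 r (step 0 y (ω none)) (fun ν => ω (some ν)) α

/-- logarithm of the normalised nested `ℓ^m` norm of `exp X` -/
def lN (m : ℕ → ℝ) : ∀ j k, (Leaf b j k → ℝ) → ℝ
  | _, 0, X => X ()
  | j, k + 1, X => (m j)⁻¹ * Real.log (((b j : ℝ) + 1)⁻¹ *
      ∑ c : Fin (b j + 1), Real.exp (m j * lN m (j + 1) k fun α => X (c, α)))

/-- size of the law of large numbers error of a tree -/
def err (b : ℕ → ℕ) : ℕ → ℕ → ℝ
  | _, 0 => 0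
  | j, k + 1 => (√((b j : ℝ) + 1))⁻¹ + ((b j : ℝ) + 1) * err b (j + 1) k

/-- constant in the law of large numbers -/
def KK (n : ℕ) (V B : ℝ) : ℝ := 16 * (n : ℝ) ^ 2 * Real.exp (4 * B + 4 * V)

/-- `μ` is the law of `log S`, `S` positive `ρ`-stable -/
def IsLogSt (ρ : ℝ) (μ : Measure ℝ) : Prop :=
  IsProbabilityMeasure μ ∧
    ∀ s : ℝ, 0 ≤ s → ∫ u, Real.exp (-(s * Real.exp u)) ∂μ = Real.exp (-(s ^ ρ))

open Classical in
/-- the law of `log S`, `S` positive `ρ`-stable, `0 < ρ ≤ 1` -/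
def logSt (ρ : ℝ) : Measure ℝ := if h : ∃ μ, IsLogSt ρ μ then h.choose else Measure.dirac 0

instance (ρ : ℝ) : IsProbabilityMeasure (logSt ρ) := by
  unfold logSt
  split_ifs with h
  · exact h.choose_spec.1
  · infer_instance

/-- law of the cascade variables -/
def Pu (b : ℕ → ℕ) (m : ℕ → ℝ) (j k : ℕ) : Measure (Nd b j k → ℝ) :=
  Measure.pi fun ν => logSt (m (dep j k ν) / m (dep j k ν + 1))

instance (m : ℕ → ℝ) (j k : ℕ) : IsProbabilityMeasure (Pu b m j k) := by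
  unfold Pu; infer_instance

/-- mean absolute deviation of `log S` -/
def cdev (ρ : ℝ) : ℝ := ∫ u, |u - ∫ v, v ∂logSt ρ| ∂logSt ρ

/-- admissible cascade parameters for `r` levels -/
structure MOk (r : ℕ) (m : ℕ → ℝ) : Prop where
  zero : m 0 = 0
  pos : 0 < m 1
  mono : ∀ j ≤ r, m j ≤ m (j + 1)
  top : m (r + 1) = 1

/-- one step of the general recursion -/
def Tm {Ω : Type} [MeasurableSpace Ω] (m : ℝ) (P : Measure Ω) (f : Ω → ℝ) : ℝ :=
  if m = 0 then ∫ ω, f ω ∂P else m⁻¹ * Real.log (∫ ω, Real.exp (m * f ω) ∂P)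

/-- the general recursion through the levels `j, …, j+k-1` -/
def rc {E Ω : Type} [MeasurableSpace Ω] (m : ℕ → ℝ) (P : Measure Ω) (step : ℕ → E → Ω → E)
    (X : E → ℝ) : ℕ → ℕ → E → ℝ
  | _, 0 => X
  | j, k + 1 => fun y => Tm (m j) P fun ω => rc m P step X (j + 1) k (step j y ω)

/-- Parisi recursion with an extra field `±θ` at level `j` -/
def parisiRad (m a : ℕ → ℝ) (r j : ℕ) (θ : ℝ) : ℝ :=
  rc m ((gaussianReal 0 1).prod unifB)
    (fun l (y : ℝ) (ω : ℝ × Bool) => y + √(a l) * ω.1 + if l = j then θ * spin ω.2 else 0)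
    (fun y => Real.log (Real.cosh y)) 0 (r + 1) 0

/-- tail integral of a step function -/
def tail (r : ℕ) (m p : ℕ → ℝ) (j : ℕ) : ℝ := ∑ i ∈ Ico j (r + 1), (m (i + 1) - m i) * p i

/-- `ψ(h) + ⟨p,h⟩/2` in terms of the increments `a` of `h` -/
def entv (r : ℕ) (m p a : ℕ → ℝ) : ℝ :=
  parisi m a 0 (r + 1) 0 - (∑ l ∈ range (r + 1), a l) / 2 +
    (∑ l ∈ range (r + 1), a l * tail r m p l) / 2

/-- `P` is the overlap path of the one spin cascade with field increments `a` -/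
structure IsOv (r : ℕ) (m a P : ℕ → ℝ) : Prop where
  nonneg : 0 ≤ P 0
  mono : ∀ j < r, P j ≤ P (j + 1)
  lt : P r < 1
  supp : ∀ a' : ℕ → ℝ, (∀ l, 0 ≤ a' l) → entv r m P a' ≤ entv r m P a
  expn : ∀ j ≤ r, Tendsto (fun θ : ℝ => 2 / θ ^ 2 * (parisiRad m a r j θ - parisi m a 0 (r + 1) 0))
    (𝓝[>] 0) (𝓝 (1 - tail r m P j))

/-! ### The model: spins `Sg`, energy `h`, top overlap `T`, overlap `Q`, on a tree -/

/-- field increments and perturbation parameters -/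
structure Pr where
  a : ℕ → ℝ
  s : ℝ
  M : ℕ
  x0 : ℝ
  x : ℕ × ℕ → ℝ

/-- no perturbation -/
def Pr0 (a : ℕ → ℝ) : Pr := ⟨a, 0, 0, 1, fun _ => 1⟩

/-- change the perturbation parameters -/
def Pr.wx (P : Pr) (x0 : ℝ) (x : ℕ × ℕ → ℝ) : Pr := ⟨P.a, P.s, P.M, x0, x⟩

/-- change the field -/
def Pr.wa (P : Pr) (a : ℕ → ℝ) : Pr := ⟨a, P.s, P.M, P.x0, P.x⟩

/-- the box of perturbation parameters -/
def InBox (x0 : ℝ) (x : ℕ × ℕ → ℝ) : Prop := x0 ∈ Set.Icc (1 : ℝ) 2 ∧ ∀ k, x k ∈ Set.Icc (1 : ℝ) 2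

/-- admissible parameters -/
structure Pr.Ok (P : Pr) : Prop where
  a_nonneg : ∀ l, 0 ≤ P.a l
  box : InBox P.x0 P.x

/-- configurations -/
abbrev Cfg (r : ℕ) (b : ℕ → ℕ) (Sg : Type) : Type := Sg × Leaf b 1 r

/-- values of the overlap arrays: top overlap and tree level -/
abbrev VV (r : ℕ) : Type := Set.Icc (-1 : ℝ) 1 × Fin (r + 1)

section Model

variable {Sg : Type} [Fintype Sg] (r : ℕ) (b : ℕ → ℕ) (m : ℕ → ℝ) (P : Pr)

/-- deterministic part of the Hamiltonian -/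
def Hm (h : Sg → ℝ) (T : Sg → Sg → ℝ) (u : Nd b 1 r → ℝ) (c : Cfg r b Sg) : ℝ :=
  h c.1 + P.s ^ 2 * P.x0 * T c.1 c.1 + lw m 1 r u c.2

/-- covariance created at level `l` -/
def Cl (T Q : Sg → Sg → ℝ) (l : ℕ) (σ σ' : Sg) : ℝ :=
  P.a l * Q σ σ' + P.s ^ 2 * ∑ p ∈ range P.M, (1 / 4 : ℝ) ^ p * P.x (p, l) ^ 2 * T σ σ' ^ p

/-- covariance of the Gaussian part of the Hamiltonian -/
def Cm (T Q : Sg → Sg → ℝ) (c c' : Cfg r b Sg) : ℝ :=
  ∑ l ∈ range (r + 1), if l ≤ lev 1 r c.2 c'.2 then Cl P T Q l c.1 c'.1 else 0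

/-- free energy -/
def Fm (h : Sg → ℝ) (T Q : Sg → Sg → ℝ) : ℝ :=
  ∫ u, Phi (Hm r b m P h T u) (Cm r b P T Q) ∂Pu b m 1 r

/-- replica averages -/
def Am (h : Sg → ℝ) (T Q : Sg → Sg → ℝ) (n : ℕ) (F : (Fin n → Cfg r b Sg) → ℝ) : ℝ :=
  ∫ u, Avg n (Hm r b m P h T u) (Cm r b P T Q) F ∂Pu b m 1 r

/-- free energy of the bare cascade -/
def Z0 : ℝ := ∫ u, lz (lw m 1 r u) ∂Pu b m 1 r

/-- overlap of two configurations -/
def Rm (T : Sg → Sg → ℝ) (c c' : Cfg r b Sg) : VV r :=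
  (Set.projIcc (-1) 1 (by norm_num) (T c.1 c'.1), ⟨min (lev 1 r c.2 c'.2) r, by omega⟩)

end Model

/-- penalty -/
def pen (r M : ℕ) (s x0 : ℝ) (x : ℕ × ℕ → ℝ) : ℝ :=
  8 * s ^ 2 * (x0 - 3 / 2) ^ 2 +
    8 * s ^ 2 * ∑ p ∈ range M, ∑ j ∈ range (r + 1), (1 / 4 : ℝ) ^ p * (x (p, j) - 3 / 2) ^ 2

/-- second differences of `Φ` at `(x0, x)` are small -/
structure Flat (r M : ℕ) (s : ℝ) (Φ : ℝ → (ℕ × ℕ → ℝ) → ℝ) (x0 : ℝ) (x : ℕ × ℕ → ℝ) (D : ℝ) :
    Prop where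
  box : InBox x0 x
  m0 : x0 ∈ Set.Icc (5 / 4 : ℝ) (7 / 4)
  m1 : ∀ p < M, ∀ j ≤ r, x (p, j) ∈ Set.Icc (5 / 4 : ℝ) (7 / 4)
  d0 : ∀ δ ∈ Set.Icc (0 : ℝ) (1 / 4),
    Φ (x0 + δ) x + Φ (x0 - δ) x - 2 * Φ x0 x ≤ 16 * s ^ 2 * δ ^ 2 + D
  d1 : ∀ p < M, ∀ j ≤ r, ∀ δ ∈ Set.Icc (0 : ℝ) (1 / 4),
    Φ x0 (Function.update x (p, j) (x (p, j) + δ)) + Φ x0 (Function.update x (p, j) (x (p, j) - δ))
      - 2 * Φ x0 x ≤ 16 * s ^ 2 * (1 / 4 : ℝ) ^ p * δ ^ 2 + D

/-! ### Ghirlanda-Guerra arrays -/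

/-- consistent family of laws of arrays satisfying the Ghirlanda-Guerra identities -/
structure GGA (V : Type) [MeasurableSpace V] where
  ν : ∀ n : ℕ, Measure (Fin n → Fin n → V)
  prob : ∀ n, IsProbabilityMeasure (ν n)
  cons : ∀ (n n' : ℕ) (e : Fin n → Fin n'), Function.Injective e →
    (ν n').map (fun A a a' => A (e a) (e a')) = ν n
  gg : ∀ (n : ℕ) (A : Set (Fin (n + 1) → Fin (n + 1) → V)) (B : Set V),
    MeasurableSet A → MeasurableSet B →
    ((n : ℝ) + 1) * (ν (n + 2)).real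
        {X | (fun a a' => X (Fin.castSucc a) (Fin.castSucc a')) ∈ A ∧ X 0 (Fin.last _) ∈ B} =
      (ν (n + 1)).real A * (ν 2).real {X | X 0 1 ∈ B} +
        ∑ l : Fin n, (ν (n + 1)).real {X | X ∈ A ∧ X 0 l.succ ∈ B}

attribute [instance] GGA.prob

/-- law of one overlap -/
def GGA.zeta {V : Type} [MeasurableSpace V] (G : GGA V) : Measure V := (G.ν 2).map fun X => X 0 1

/-- array of labels, zero on the diagonal -/
def offd {V : Type} (κ : V → ℕ) {n : ℕ} (X : Fin n → Fin n → V) (a a' : Fin n) : ℕ :=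
  if a = a' then 0 else κ (X a a')

/-- `φ` of the array is a Gram matrix with constant diagonal -/
structure GGA.Gram {V : Type} [MeasurableSpace V] (G : GGA V) (φ : V → ℝ) (d : ℝ) : Prop where
  psd : ∀ n, ∀ᵐ X ∂G.ν n, PSD fun a a' => φ (X a a')
  diag : ∀ n, ∀ᵐ X ∂G.ν n, ∀ a, φ (X a a) = d

/-- discrete order parameter with the self overlap `t (r+1)` -/
structure Path where
  r : ℕ
  m : ℕ → ℝ
  t : ℕ → ℝ
  m_zero : m 0 = 0
  m_pos : 0 < m 1
  m_mono : ∀ j, m j ≤ m (j + 1)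
  m_lt : m r < 1
  m_top : ∀ j, r < j → m j = 1
  t_nonneg : 0 ≤ t 0
  t_mono : ∀ j ≤ r, t j ≤ t (j + 1)

/-- `π, lab` discretise the array `G` with mesh `1/n` -/
structure Disc {r : ℕ} (G : GGA (VV r)) (ϱ d : ℝ) (n : ℕ) (π : Path) (lab : VV r → ℕ) : Prop where
  meas : Measurable lab
  mass : ∀ j, π.m j = G.zeta.real {v | lab v < j}
  strict : ∀ j ≤ π.r, π.m j < π.m (j + 1)
  top : π.t (π.r + 1) = ϱ * d
  near : ∀ᵐ v ∂G.zeta, lab v ≤ π.r ∧ |ϱ * (v.1 : ℝ) - π.t (lab v)| ≤ ϱ / n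
  symm : ∀ᵐ X ∂G.ν 2, lab (X 0 1) = lab (X 1 0)
  ultra : ∀ᵐ X ∂G.ν 3, min (lab (X 0 1)) (lab (X 1 2)) ≤ lab (X 0 2)
  cut : ∀ j : ℕ, ∃ j' : ℕ, ∀ᵐ v ∂G.zeta, (j ≤ (v.2 : ℕ) ↔ j' ≤ lab v)

namespace Path

variable (π : Path)

/-- increments -/
def dt : ℕ → ℝ
  | 0 => π.t 0
  | l + 1 => π.t (l + 1) - π.t l

/-- Parisi eigenvalues -/
def tau (l : ℕ) : ℝ := ∑ i ∈ Ico (l + 1) (π.r + 2), π.m i * π.dt i

/-- increments after tilting by `exp (-A y²/2)` -/
def dc (A : ℝ) : ℕ → ℝ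
  | 0 => π.t 0 / (1 + A * π.tau 0) ^ 2
  | l + 1 => π.dt (l + 1) / ((1 + A * π.tau (l + 1)) * (1 + A * π.tau l))

/-- the path after tilting -/
def cc (A : ℝ) (j : ℕ) : ℝ := ∑ l ∈ range (j + 1), π.dc A l

/-- free energy of the tilt -/
def ell (A : ℝ) : ℝ :=
  -(π.t 0 * A / (1 + A * π.tau 0) + ∑ l ∈ range (π.r + 1),
    (π.m (l + 1))⁻¹ * Real.log ((1 + A * π.tau l) / (1 + A * π.tau (l + 1)))) / 2

end Path

/-- truncation -/
def clip (M y : ℝ) : ℝ := max (-M) (min M y)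

/-- covariance of truncated Gaussians with variance `d` and covariance `c` -/
def rho (M c d : ℝ) : ℝ :=
  ∫ z : Fin 3 → ℝ, clip M (√c * z 0 + √(d - c) * z 1) * clip M (√c * z 0 + √(d - c) * z 2) ∂gam (Fin 3)

/-- nonnegative quadratic cavity energies -/
structure Quad (F : Type) [Fintype F] where
  A : F → ℝ
  b : F → ℝ
  c : ℝ
  A_nonneg : ∀ f, 0 ≤ A f
  q_nonneg : ∀ (y : F → ℝ) (ε : Bool),
    0 ≤ (∑ f, A f * y f ^ 2) / 2 + spin ε * (∑ f, b f * y f) + c / 2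

namespace Quad

variable {F : Type} [Fintype F] (Q : Quad F)

/-- the cavity energy -/
def q (y : F → ℝ) (ε : Bool) : ℝ :=
  (∑ f, Q.A f * y f ^ 2) / 2 + spin ε * (∑ f, Q.b f * y f) + Q.c / 2

/-- increments of the cavity field -/
def dh (π : Path) (l : ℕ) : ℝ := ∑ f, Q.b f ^ 2 * π.dc (Q.A f) l

/-- value of the cavity functional on a cascade -/
def X (π : Path) : ℝ :=
  ∑ f, π.ell (Q.A f) - Q.c / 2 + parisi π.m (Q.dh π) 0 (π.r + 1) 0 + Q.dh π (π.r + 1) / 2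

end Quad

/-- cavity weight -/
def Wq {E : Type} (q : E → Bool → ℝ) (y : E) : ℝ :=
  (Real.exp (-q y true) + Real.exp (-q y false)) / 2

/-- weighted cavity observable -/
def Vq {E : Type} (q V : E → Bool → ℝ) (y : E) : ℝ :=
  (V y true * Real.exp (-q y true) + V y false * Real.exp (-q y false)) / 2

/-- indicator of `j ≤ level` -/
def indL {r : ℕ} (j : ℕ) (v : VV r) : ℝ := if j ≤ (v.2 : ℕ) then 1 else 0

/-! ### Orthogonal group -/

/-- orthogonal group -/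
abbrev Og (ι : Type) [Fintype ι] [DecidableEq ι] : Type := ↥(Matrix.orthogonalGroup ι ℝ)

instance (ι : Type) [Fintype ι] [DecidableEq ι] : MeasurableSpace (Og ι) := borel _
instance (ι : Type) [Fintype ι] [DecidableEq ι] : BorelSpace (Og ι) := ⟨rfl⟩

/-- coordinates of a spin configuration in the eigenbasis -/
def yv {ι : Type} [Fintype ι] [DecidableEq ι] (U : Og ι) (σ : ι → Bool) : ι → ℝ :=
  U.1 *ᵥ fun i => spin (σ i)

/-- energy -/
def hY {ι : Type} [Fintype ι] (bb y : ι → ℝ) : ℝ := (∑ i, bb i * y i ^ 2) / 2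

/-- overlap in the top eigenspace -/
def TY {ι : Type} (Top : Finset ι) (N0 : ℝ) (y y' : ι → ℝ) : ℝ := (∑ i ∈ Top, y i * y' i) / N0

/-- the matrix acting as `O` on the coordinates `f k` and as the identity on the others -/
def embM {K ι : Type} [Fintype K] [DecidableEq K] [DecidableEq ι] (f : K ↪ ι) (O : Matrix K K ℝ) :
    Matrix ι ι ℝ :=
  Matrix.of fun i j => (if i = j then 1 else 0) +
    ∑ k, ∑ k', if f k = i ∧ f k' = j then O k k' - (if k = k' then 1 else 0) else 0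

/-- eigenvalues of a colouring: `t` for the colour `none` -/
def ev {K ι : Type} (bb : K → ℝ) (t : ℝ) (c : ι → Option K) (i : ι) : ℝ := (c i).elim t bb

/-- indices with colour `k` -/
def blk {K ι : Type} [Fintype ι] [DecidableEq K] (c : ι → Option K) (k : Option K) : Finset ι :=
  univ.filter fun i => c i = k

/-- finitely supported measure -/
def dm {K : Type} [Fintype K] (α ℓ : K → ℝ) : Measure ℝ :=
  ∑ k, ENNReal.ofReal (α k) • Measure.dirac (ℓ k)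

/-- indices of the cavity frame: `f k`, `g o`, `g'` -/
abbrev Fr (K : Type) : Type := K ⊕ Option K ⊕ Unit

/-- gap to the top eigenvalue -/
def gap {K : Type} (bb : K → ℝ) (t : ℝ) (o : Option K) : ℝ := o.elim 0 fun k => t - bb k

/-- total overlap path determined by the top overlap path -/
def ptot {K : Type} [Fintype K] (α : Option K → ℝ) (bb : K → ℝ) (t : ℝ) (π : Path) (j : ℕ) : ℝ :=
  ∑ o, α o * π.cc (gap bb t o) j

end

end Vale.Agent.P166
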