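import Vale.Agent.P166.Orth
import Vale.Agent.P166.Tree
import Vale.Agent.P166.Gibbs

/-! P166: internal definitions, part 1 (random systems). -/

open MeasureTheory ProbabilityTheory Filter Topology Matrix Finset

namespace Vale.Agent.P166

noncomputable section

/-- a random Gibbs system with overlaps in `V` -/
structure Sys (V : Type) [MeasurableSpace V] where
  Ω : Type
  [mΩ : MeasurableSpace Ω]
  P : Measure Ω
  [prob : IsProbabilityMeasure P]
  S : Type
  [fin : Fintype S]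
  [ne : Nonempty S]
  H : Ω → S → ℝ
  R : Ω → S → S → V
  mH : ∀ s, Measurable fun ω => H ω s
  mR : ∀ s s', Measurable fun ω => R ω s s'

attribute [instance] Sys.mΩ Sys.prob Sys.fin Sys.ne

namespace Sys

variable {V : Type} [MeasurableSpace V] (X : Sys V)

/-- averaged replica average -/
def E (n : ℕ) (F : X.Ω → (Fin n → X.S) → ℝ) : ℝ := ∫ ω, av n (X.H ω) (F ω) ∂X.P

/-- overlap array of `n` replicas -/
def arr {n : ℕ} (ω : X.Ω) (σ : Fin n → X.S) (a a' : Fin n) : V := X.R ω (σ a) (σ a')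

/-- law of the overlap array -/
def law (n : ℕ) : Measure (Fin n → Fin n → V) :=
  ∑ σ : Fin n → X.S,
    (X.P.withDensity fun ω => ENNReal.ofReal (∏ l, gw (X.H ω) (σ l))).map fun ω => X.arr ω σ

end Sys

/-- the overlap arrays of `X i` converge in law to `G` along the ultrafilter `hyperfilter ℕ` -/
def Conv {V : Type} [MeasurableSpace V] [TopologicalSpace V] (X : ℕ → Sys V) (G : GGA V) : Prop :=
  ∀ (n : ℕ) (f : (Fin n → Fin n → V) → ℝ), Continuous f →
    Tendsto (fun i => (X i).E n fun ω σ => f ((X i).arr ω σ)) (hyperfilter ℕ)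
      (𝓝 (∫ A, f A ∂G.ν n))

/-- a system with cavity fields -/
structure YS (r : ℕ) (F : Type) extends Sys (VV r) where
  y : Ω → S → F → ℝ
  my : ∀ s f, Measurable fun ω => y ω s f

namespace YS

variable {r : ℕ} {F : Type} (X : YS r F)

/-- general bounded functional -/
def val (f : VV r → ℝ) (A A' W : (F → ℝ) → ℝ) (g : ℝ → ℝ) : ℝ :=
  ∫ ω, av 2 (X.H ω) (fun σ => f (X.R ω (σ 0) (σ 1)) * A (X.y ω (σ 0)) * A' (X.y ω (σ 1))) *
    g (av1 (X.H ω) fun s => W (X.y ω s)) ∂X.P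

/-- cavity free energy -/
def cav1 (q : (F → ℝ) → Bool → ℝ) : ℝ :=
  ∫ ω, Real.log (av1 (X.H ω) fun s => Wq q (X.y ω s)) ∂X.P

/-- one replica average in the cavity system -/
def cav3 (q V : (F → ℝ) → Bool → ℝ) : ℝ :=
  ∫ ω, av1 (X.H ω) (fun s => Vq q V (X.y ω s)) / av1 (X.H ω) (fun s => Wq q (X.y ω s)) ∂X.P

/-- two replica average in the cavity system -/
def cav2 (q V : (F → ℝ) → Bool → ℝ) (f : VV r → ℝ) : ℝ :=
  ∫ ω, av 2 (X.H ω)
      (fun σ => f (X.R ω (σ 0) (σ 1)) * Vq q V (X.y ω (σ 0)) * Vq q V (X.y ω (σ 1))) /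
    (av1 (X.H ω) fun s => Wq q (X.y ω s)) ^ 2 ∂X.P

/-- fourth moments of the cavity fields are at most `M4` -/
def Mom (M4 : ℝ) : Prop :=
  ∀ f, Integrable (fun ω => av1 (X.H ω) fun s => X.y ω s f ^ 4) X.P ∧
    ∫ ω, av1 (X.H ω) (fun s => X.y ω s f ^ 4) ∂X.P ≤ M4

end YS

/-- admissible cavity energies -/
structure QOk {F : Type} [Fintype F] (q : (F → ℝ) → Bool → ℝ) (C : ℝ) : Prop where
  cont : ∀ ε, Continuous fun y => q y ε
  nonneg : ∀ y ε, 0 ≤ q y ε
  le : ∀ y ε, q y ε ≤ C * (1 + ∑ f, y f ^ 2)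

/-- admissible observables -/
structure VOk {F : Type} (V : (F → ℝ) → Bool → ℝ) (B : ℝ) : Prop where
  cont : ∀ ε, Continuous fun y => V y ε
  bdd : ∀ y ε, |V y ε| ≤ B

/-- a system whose law is invariant under rotations of the coordinates `x` -/
structure Cav (r : ℕ) (F : Type) extends Sys (VV r) where
  D : Type
  [fD : Fintype D]
  [dD : DecidableEq D]
  x : Ω → S → D → ℝ
  mx : ∀ s d, Measurable fun ω => x ω s d
  e : F ↪ D
  ϱ : ℝ
  ϱ_nonneg : 0 ≤ ϱ
  gram_x : ∀ ω s s', ∑ d, x ω s d * x ω s' d = Fintype.card D * ϱ * ((R ω s s').1 : ℝ)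
  inv : ∀ B : Og D, ∃ τ : Ω → Ω, MeasurePreserving τ P P ∧
    ∀ ω, H (τ ω) = H ω ∧ R (τ ω) = R ω ∧ ∀ s, x (τ ω) s = B.1 *ᵥ x ω s

attribute [instance] Cav.fD Cav.dD

/-- the cavity fields are the coordinates along the frame -/
@[reducible] def Cav.ys {r : ℕ} {F : Type} (X : Cav r F) : YS r F where
  toSys := X.toSys
  y ω s f := X.x ω s (X.e f)
  my s f := X.mx s (X.e f)

/-- limit data of a sequence of rotation invariant systems -/
structure IsLim {r : ℕ} {F : Type} (X : ℕ → Cav r F) (G : GGA (VV r)) (ϱ d : ℝ) : Prop where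
  conv : Conv (fun i => (X i).toSys) G
  dim : Tendsto (fun i => Fintype.card (X i).D) (hyperfilter ℕ) atTop
  rho : Tendsto (fun i => (X i).ϱ) (hyperfilter ℕ) (𝓝 ϱ)
  pos : 0 < ϱ
  gT : G.Gram (fun v => (v.1 : ℝ)) d
  gL : G.Gram (fun v => ((v.2 : ℕ) : ℝ)) r

/-- random data of a model -/
structure RM where
  Ω : Type
  [mΩ : MeasurableSpace Ω]
  P : Measure Ω
  [prob : IsProbabilityMeasure P]
  Sg : Type
  [fin : Fintype Sg]
  [ne : Nonempty Sg]
  h : Ω → Sg → ℝ
  T : Ω → Sg → Sg → ℝ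
  Q : Ω → Sg → Sg → ℝ
  mh : ∀ σ, Measurable fun ω => h ω σ
  mT : ∀ σ σ', Measurable fun ω => T ω σ σ'
  mQ : ∀ σ σ', Measurable fun ω => Q ω σ σ'
  Bh : ℝ
  bh : ∀ ω σ, |h ω σ| ≤ Bh
  bT : ∀ ω σ σ', |T ω σ σ'| ≤ 1
  BQ : ℝ
  bQ : ∀ ω σ, Q ω σ σ ≤ BQ
  pT : ∀ ω, PSD (T ω)
  pQ : ∀ ω, PSD (Q ω)

attribute [instance] RM.mΩ RM.prob RM.fin RM.ne

namespace RM

variable (X : RM) (r : ℕ) (b : ℕ → ℕ) (m : ℕ → ℝ) (P : Pr)

lemma measurable_Cm (c c' : Cfg r b X.Sg) :
    Measurable fun ω => Cm r b P (X.T ω) (X.Q ω) c c' := by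
  unfold Cm Cl
  refine Finset.measurable_sum _ fun l _ => ?_
  split_ifs
  · exact ((X.mQ _ _).const_mul _).add
      ((Finset.measurable_sum _ fun p _ => ((X.mT _ _).pow_const p).const_mul _).const_mul _)
  · exact measurable_const

lemma measurable_Hm (c : Cfg r b X.Sg) :
    Measurable fun z : X.Ω × (Nd b 1 r → ℝ) => Hm r b m P (X.h z.1) (X.T z.1) z.2 c := by
  unfold Hm
  exact (((X.mh _).comp measurable_fst).add (((X.mT _ _).comp measurable_fst).const_mul _)).add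
    ((continuous_lw m 1 r c.2).measurable.comp measurable_snd)

/-- total free energy -/
def F : ℝ := ∫ ω, Fm r b m P (X.h ω) (X.T ω) (X.Q ω) ∂X.P

/-- total replica average -/
def A (n : ℕ) (G : X.Ω → (Fin n → Cfg r b X.Sg) → ℝ) : ℝ :=
  ∫ ω, Am r b m P (X.h ω) (X.T ω) (X.Q ω) n (G ω) ∂X.P

/-- the model as a random Gibbs system -/
@[reducible] def sys : Sys (VV r) where
  Ω := (X.Ω × (Nd b 1 r → ℝ)) × (Cfg r b X.Sg → ℝ)
  P := (X.P.prod (Pu b m 1 r)).prod (gam (Cfg r b X.Sg))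
  S := Cfg r b X.Sg
  H z := Hm r b m P (X.h z.1.1) (X.T z.1.1) z.1.2 +
    feat (sqr (Cm r b P (X.T z.1.1) (X.Q z.1.1))) z.2
  R z := Rm r b (X.T z.1.1)
  mH c := by
    refine ((X.measurable_Hm r b m P c).comp measurable_fst).add ?_
    have h1 : Measurable fun z : X.Ω × (Nd b 1 r → ℝ) => sqr (Cm r b P (X.T z.1) (X.Q z.1)) :=
      measurable_sqr.comp (measurable_pi_lambda _ fun c => measurable_pi_lambda _ fun c' =>
        (X.measurable_Cm r b P c c').comp measurable_fst)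
    exact measurable_feat_prod (a := fun z : X.Ω × (Nd b 1 r → ℝ) =>
      sqr (Cm r b P (X.T z.1) (X.Q z.1)))
      (fun s i => (measurable_pi_apply i).comp ((measurable_pi_apply s).comp h1)) c
  mR c c' := by
    unfold Rm
    exact ((continuous_projIcc.measurable).comp
      ((X.mT _ _).comp (measurable_fst.comp measurable_fst))).prodMk measurable_const

/-- mean absolute deviation of the free energy -/
def dev : ℝ := ∫ z, |lz ((X.sys r b m P).H z) - X.F r b m P| ∂(X.sys r b m P).P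

end RM

/-- the model without spins -/
@[reducible] def RM0 : RM where
  Ω := Unit
  P := Measure.dirac ()
  Sg := Unit
  h _ _ := 0
  T _ _ _ := 0
  Q _ _ _ := 0
  mh _ := measurable_const
  mT _ _ := measurable_const
  mQ _ _ := measurable_const
  Bh := 0
  bh _ _ := by simp
  bT _ _ _ := by simp
  BQ := 0
  bQ _ _ := le_rfl
  pT _ := psd_zero
  pQ _ := psd_zero

/-- Gaussian increments -/
def stepG {F : Type} (dt : ℕ → ℝ) (l : ℕ) (y g : F → ℝ) : F → ℝ := y + √(dt l) • g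

lemma measurable_stepG {F : Type} (dt : ℕ → ℝ) (l : ℕ) :
    Measurable fun z : (F → ℝ) × (F → ℝ) => stepG dt l z.1 z.2 := by
  unfold stepG
  exact measurable_fst.add (measurable_snd.const_smul (√(dt l)))

/-- the cascade with hierarchical Gaussian cavity fields of covariance `π.t` -/
@[reducible] def casYS (F : Type) [Fintype F] (π : Path) (b : ℕ → ℕ) (P : Pr) : YS (π.r + 1) F where
  Ω := (RM0.sys (π.r + 1) b π.m P).Ω × (Option (Nd b 1 (π.r + 1)) → F → ℝ)
  P := (RM0.sys (π.r + 1) b π.m P).P.prod (Measure.pi fun _ => gam F)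
  S := Cfg (π.r + 1) b Unit
  H z := (RM0.sys (π.r + 1) b π.m P).H z.1
  R z := (RM0.sys (π.r + 1) b π.m P).R z.1
  mH c := ((RM0.sys (π.r + 1) b π.m P).mH c).comp measurable_fst
  mR c c' := ((RM0.sys (π.r + 1) b π.m P).mR c c').comp measurable_fst
  y z c := stt (stepG π.dt) (π.r + 1) 0 z.2 c.2
  my c f := (measurable_pi_apply f).comp
    ((measurable_stt (measurable_stepG π.dt) (π.r + 1) 0 c.2).comp measurable_snd)

/-- a sequence of perturbed finite cascades that approximates the Ruelle cascade -/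
structure GoodCas (R : ℕ) (m : ℕ → ℝ) (b : ℕ → ℕ → ℕ) (P : ℕ → Pr) : Prop where
  ok : ∀ i, (P i).Ok
  small : Tendsto (fun i => err (b i) 1 R * KK 1 (6 * (P i).s ^ 2) 0) atTop (𝓝 0)
  lim : ∃ G : GGA (VV R), Conv (fun i => RM0.sys R (b i) m (P i)) G

/-- random coordinates of spin configurations -/
structure YD (ι : Type) [Fintype ι] where
  Ω : Type
  [mΩ : MeasurableSpace Ω]
  P : Measure Ω
  [prob : IsProbabilityMeasure P]
  Sg : Type
  [fin : Fintype Sg]
  [ne : Nonempty Sg]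
  Y : Ω → Sg → ι → ℝ
  mY : ∀ σ i, Measurable fun ω => Y ω σ i
  sq : ∀ ω σ, ∑ i, Y ω σ i ^ 2 = Fintype.card ι

attribute [instance] YD.mΩ YD.prob YD.fin YD.ne

lemma abs_TY_le {ι : Type} [Fintype ι] (Top : Finset ι) {N0 : ℕ} (hN : Fintype.card ι ≤ N0)
    {y y' : ι → ℝ} (h : ∑ i, y i ^ 2 = Fintype.card ι) (h' : ∑ i, y' i ^ 2 = Fintype.card ι) :
    |TY Top N0 y y'| ≤ 1 := by
  unfold TY
  have hN' : (Fintype.card ι : ℝ) ≤ N0 := by exact_mod_cast hN
  have h1 : |∑ i ∈ Top, y i * y' i| ≤ Fintype.card ι := by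
    calc |∑ i ∈ Top, y i * y' i| ≤ ∑ i ∈ Top, |y i * y' i| := Finset.abs_sum_le_sum_abs _ _
      _ ≤ ∑ i, |y i * y' i| := Finset.sum_le_sum_of_subset_of_nonneg (Finset.subset_univ _)
          fun _ _ _ => abs_nonneg _
      _ ≤ ∑ i, (y i ^ 2 + y' i ^ 2) / 2 := Finset.sum_le_sum fun i _ => by
          rw [abs_le]; constructor <;> nlinarith [sq_nonneg (y i + y' i), sq_nonneg (y i - y' i)]
      _ = Fintype.card ι := by rw [← Finset.sum_div, Finset.sum_add_distrib, h, h']; ring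
  rcases Nat.eq_zero_or_pos N0 with h0 | h0
  · simp [h0]
  · have : (0 : ℝ) < N0 := by exact_mod_cast h0
    rw [abs_div, abs_of_pos this, div_le_one this]
    linarith

lemma psd_TY {ι Sg : Type} [Fintype Sg] (Top : Finset ι) (N0 : ℕ) (Y : Sg → ι → ℝ) :
    PSD fun σ σ' => TY Top N0 (Y σ) (Y σ') := by
  have h := (psd_sum Top (C := fun i σ σ' => Y σ i * Y σ' i)
    fun i _ => psd_rank_one fun σ => Y σ i).smul (c := (N0 : ℝ)⁻¹) (by positivity)
  have e : (fun σ σ' => TY Top N0 (Y σ) (Y σ')) =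
      fun σ σ' => (N0 : ℝ)⁻¹ * ∑ i ∈ Top, Y σ i * Y σ' i := by
    funext σ σ'; unfold TY; rw [div_eq_inv_mul]
  rw [e]; exact h

namespace YD

variable {ι : Type} [Fintype ι] (D : YD ι)

/-- the model with eigenvalues `bb` and top block `Top` -/
@[reducible] def rm (bb : ι → ℝ) (Top : Finset ι) (N0 : ℕ) (hN : Fintype.card ι ≤ N0) : RM where
  Ω := D.Ω
  P := D.P
  Sg := D.Sg
  h ω σ := hY bb (D.Y ω σ)
  T ω σ σ' := TY Top N0 (D.Y ω σ) (D.Y ω σ')
  Q ω σ σ' := ∑ i, D.Y ω σ i * D.Y ω σ' i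
  mh σ := by
    unfold hY
    exact (Finset.measurable_sum _ fun i _ => ((D.mY σ i).pow_const 2).const_mul _).div_const _
  mT σ σ' := by
    unfold TY
    exact (Finset.measurable_sum _ fun i _ => (D.mY σ i).mul (D.mY σ' i)).div_const _
  mQ σ σ' := Finset.measurable_sum _ fun i _ => (D.mY σ i).mul (D.mY σ' i)
  Bh := (∑ i, |bb i|) * Fintype.card ι
  bh ω σ := by
    unfold hY
    have h1 : ∀ i, D.Y ω σ i ^ 2 ≤ Fintype.card ι := fun i => by
      rw [← D.sq ω σ]
      exact Finset.single_le_sum (f := fun i => D.Y ω σ i ^ 2) (fun _ _ => sq_nonneg _)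
        (Finset.mem_univ i)
    have h2 : |∑ i, bb i * D.Y ω σ i ^ 2| ≤ (∑ i, |bb i|) * Fintype.card ι := by
      rw [Finset.sum_mul]
      refine (Finset.abs_sum_le_sum_abs _ _).trans (Finset.sum_le_sum fun i _ => ?_)
      rw [abs_mul, abs_of_nonneg (sq_nonneg (D.Y ω σ i))]
      exact mul_le_mul_of_nonneg_left (h1 i) (abs_nonneg _)
    rw [abs_div, abs_two]
    linarith [abs_nonneg (∑ i, bb i * D.Y ω σ i ^ 2)]
  bT ω σ σ' := abs_TY_le Top hN (D.sq ω σ) (D.sq ω σ')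
  BQ := Fintype.card ι
  bQ ω σ := by rw [← D.sq ω σ]; exact le_of_eq (Finset.sum_congr rfl fun i _ => (pow_two _).symm)
  pT ω := psd_TY Top N0 (D.Y ω)
  pQ ω := psd_sum Finset.univ (C := fun i σ σ' => D.Y ω σ i * D.Y ω σ' i)
    fun i _ => psd_rank_one fun σ => D.Y ω σ i

/-- invariance in law under rotations of the coordinates `f k` -/
def Inv [DecidableEq ι] {K : Type} [Fintype K] [DecidableEq K] (f : K ↪ ι) : Prop :=
  ∀ B : Og K, ∃ τ : D.Ω → D.Ω, MeasurePreserving τ D.P D.P ∧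
    ∀ ω σ, D.Y (τ ω) σ = (emb f B).1 *ᵥ D.Y ω σ

end YD

/-- Haar rotated spins -/
@[reducible] def YO (ι : Type) [Fintype ι] [DecidableEq ι] : YD ι where
  Ω := Og ι
  P := haarO ι
  Sg := ι → Bool
  Y := yv
  mY σ i := (continuous_yv σ i).measurable
  sq := yv_sq

/-- one more spin, coupled through the fixed rotation `W` -/
@[reducible] def YP (ι : Type) [Fintype ι] [DecidableEq ι] (W : Og (Option ι)) : YD (Option ι) where
  Ω := Og ι
  P := haarO ι
  Sg := Option ι → Bool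
  Y U := yv (W * emb Function.Embedding.some U)
  mY σ i := ((continuous_yv σ i).comp
    (continuous_const.mul (continuous_emb Function.Embedding.some))).measurable
  sq U := yv_sq _

/-- expected log partition function of the unperturbed model -/
def EL (ι : Type) [Fintype ι] [DecidableEq ι] (bb : ι → ℝ) : ℝ :=
  ∫ U, lz (fun σ => hY bb (yv U σ)) ∂haarO ι

end

end Vale.Agent.P166
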