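import Vale.Agent.P166.Ultra

/-! P166 DiscE: discretisation of a limit array.
Plan. kappa v = level * (n+1) + floor (n * T) (Nat.floor; T = v.1 is in [0, d] almost surely by GGA.pos and Gram.abs_le, so floor <= n). S = finite nonempty set of values k of kappa with positive zeta mass
(kappa < (r+1)(n+1)); lab v = card of {k in S | k < kappa v}; pi.r = card S - 1; m j = zeta (lab < j); t j = rho * (k_j mod (n+1)) / n for j <= pi.r with k_j the j-th element of S
(Finset.orderEmbOfFin, or Nat.nth), t (pi.r+1) = rho * d. Good set Gd = complement of all the null sets among those of GGA.sync with t rational; it has full measure and for v, w in Gd,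
level v < level w implies T v <= T w. This gives monotonicity of t (every k in S has a good point) and ultrametricity of kappa (lexicographic order; GGA.ultra for T and for the level, ae_entry), hence of lab
(monotone in kappa). cut: j <= level iff j (n+1) <= kappa iff card {k in S | k < j (n+1)} <= lab when kappa v is in S. -/

open MeasureTheory ProbabilityTheory Filter Topology Matrix Finset

namespace Vale.Agent.P166

noncomputable section

/-- lexicographic code of the level and of the rounded overlap -/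
def discK (n : ℕ) {r : ℕ} (v : VV r) : ℕ := (v.2 : ℕ) * (n + 1) + ⌊(n : ℝ) * (v.1 : ℝ)⌋₊

lemma disc_fl (n : ℕ) {r : ℕ} (v : VV r) : ⌊(n : ℝ) * (v.1 : ℝ)⌋₊ ≤ n :=
  Nat.floor_le_of_le (mul_le_of_le_one_right (Nat.cast_nonneg n) v.1.2.2)

lemma disc_mod (n : ℕ) {r : ℕ} (v : VV r) : discK n v % (n + 1) = ⌊(n : ℝ) * (v.1 : ℝ)⌋₊ := by
  rw [discK, Nat.mul_add_mod_of_lt (Nat.lt_succ_of_le (disc_fl n v))]

lemma disc_cut (n : ℕ) {r : ℕ} (v : VV r) (j : ℕ) : j ≤ (v.2 : ℕ) ↔ j * (n + 1) ≤ discK n v := by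
  have := disc_fl n v
  unfold discK
  constructor
  · intro h
    exact (Nat.mul_le_mul_right _ h).trans (Nat.le_add_right _ _)
  · intro h
    by_contra hc
    have h2 := Nat.mul_le_mul_right (n + 1) (Nat.succ_le_of_lt (not_le.1 hc))
    rw [Nat.succ_mul] at h2
    omega

lemma disc_lt (n : ℕ) {r : ℕ} (v : VV r) : discK n v < (r + 1) * (n + 1) :=
  not_le.1 fun h => absurd ((disc_cut n v _).2 h) (not_le.2 v.2.2)

lemma disc_flm (n : ℕ) {r : ℕ} {v w : VV r} (h : (v.1 : ℝ) ≤ w.1) :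
    ⌊(n : ℝ) * (v.1 : ℝ)⌋₊ ≤ ⌊(n : ℝ) * (w.1 : ℝ)⌋₊ :=
  Nat.floor_mono (mul_le_mul_of_nonneg_left h (Nat.cast_nonneg n))

lemma disc_le (n : ℕ) {r : ℕ} {v w : VV r} (h : (v.1 : ℝ) ≤ w.1) (h' : (v.2 : ℕ) ≤ w.2) :
    discK n v ≤ discK n w :=
  Nat.add_le_add (Nat.mul_le_mul_right _ h') (disc_flm n h)

lemma disc_meas (n r : ℕ) : Measurable (discK n : VV r → ℕ) :=
  (continuous_lvl.measurable.mul_const _).add
    (Nat.measurable_floor.comp ((measurable_subtype_coe.comp measurable_fst).const_mul _))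

lemma disc_surj (P : ℕ → Prop) [DecidablePred P] (K : ℕ) :
    ∀ j, ∃ k, j < Nat.count P K → P k ∧ Nat.count P k = j := by
  intro j
  induction K with
  | zero => exact ⟨0, fun h => absurd h (by simp)⟩
  | succ K ih =>
    by_cases h : j < Nat.count P K
    · obtain ⟨k, hk⟩ := ih
      exact ⟨k, fun _ => hk h⟩
    · refine ⟨K, fun h' => ?_⟩
      rw [Nat.count_succ] at h'
      split_ifs at h' with hp
      · exact ⟨hp, by omega⟩
      · omega

lemma disc_good {r : ℕ} (G : GGA (VV r)) {d : ℝ} (hT : G.Gram (fun v => (v.1 : ℝ)) d)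
    (hL : G.Gram (fun v => ((v.2 : ℕ) : ℝ)) r) : ∃ Gd : VV r → Prop, (∀ᵐ v ∂G.zeta, Gd v) ∧
      ∀ v w, Gd v → Gd w → (v.2 : ℕ) < w.2 → (v.1 : ℝ) ≤ w.1 := by
  refine ⟨fun v => ∀ (q : ℚ) (j : ℕ),
    (G.zeta {v | (q : ℝ) < (v.1 : ℝ) ∧ (v.2 : ℕ) ≤ j} = 0 → ¬((q : ℝ) < (v.1 : ℝ) ∧ (v.2 : ℕ) ≤ j)) ∧
    (G.zeta {v | j < (v.2 : ℕ) ∧ (v.1 : ℝ) ≤ q} = 0 → ¬(j < (v.2 : ℕ) ∧ (v.1 : ℝ) ≤ q)), ?_, ?_⟩
  · refine ae_all_iff.2 fun q => ae_all_iff.2 fun j => Eventually.and ?_ ?_
    · exact eventually_imp_distrib_left.2 fun h => measure_eq_zero_iff_ae_notMem.1 h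
    · exact eventually_imp_distrib_left.2 fun h => measure_eq_zero_iff_ae_notMem.1 h
  · intro v w hv hw h
    by_contra hc
    obtain ⟨q, q1, q2⟩ := exists_rat_btwn (not_le.1 hc)
    rcases G.sync hT hL q v.2 with h0 | h0
    · exact (hv q v.2).1 h0 ⟨q2, le_rfl⟩
    · exact (hw q v.2).2 h0 ⟨h, q1.le⟩

theorem exists_disc {r : ℕ} (G : GGA (VV r)) {d ϱ : ℝ} (hT : G.Gram (fun v => (v.1 : ℝ)) d)
    (hL : G.Gram (fun v => ((v.2 : ℕ) : ℝ)) r) (hϱ : 0 ≤ ϱ) {n : ℕ} (hn : 1 ≤ n) :
    ∃ (π : Path) (lab : VV r → ℕ), Disc G ϱ d n π lab := by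
  classical
  have hn' : (0 : ℝ) < n := by exact_mod_cast hn
  have cT : Continuous fun v : VV r => (v.1 : ℝ) := by fun_prop
  have cL : Continuous fun v : VV r => ((v.2 : ℕ) : ℝ) :=
    continuous_of_discreteTopology.comp continuous_lvl
  set P : ℕ → Prop := fun k => G.zeta {v | discK n v = k} ≠ 0 with hP
  obtain ⟨G0, g1, g2⟩ := disc_good G hT hL
  have hg : ∀ᵐ v ∂G.zeta, P (discK n v) ∧ G0 v ∧ 0 ≤ (v.1 : ℝ) ∧ (v.1 : ℝ) ≤ d := by
    have h1 : ∀ᵐ v ∂G.zeta, ∀ k, ¬P k → ¬discK n v = k := ae_all_iff.2 fun k =>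
      eventually_imp_distrib_left.2 fun h => measure_eq_zero_iff_ae_notMem.1 (not_not.1 h)
    filter_upwards [h1, g1, G.pos cT hT.psd, (hT.abs_le cT.measurable).2] with v h1 h2 h3 h4
    exact ⟨not_not.1 fun h => h1 _ h rfl, h2, h3, (le_abs_self _).trans h4⟩
  set c := Nat.count P ((r + 1) * (n + 1)) with hc
  set lab : VV r → ℕ := fun v => Nat.count P (discK n v) with hlab
  have hm : Measurable lab := (Measurable.of_discrete (f := Nat.count P)).comp (disc_meas n r)
  have hlt : ∀ v, P (discK n v) → lab v < c := fun v h => Nat.count_strict_mono h (disc_lt n v)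
  have hc0 : 0 < c := by
    obtain ⟨v, hv⟩ := hg.exists
    exact (Nat.zero_le _).trans_lt (hlt v hv.1)
  choose kk hkk using disc_surj P ((r + 1) * (n + 1))
  have hpt : ∀ j < c, ∃ v, discK n v = kk j ∧ G0 v ∧ 0 ≤ (v.1 : ℝ) ∧ (v.1 : ℝ) ≤ d := fun j hj => by
    obtain ⟨v, h1, h2⟩ := ((frequently_ae_iff.2 (hkk j hj).1).and_eventually hg).exists
    exact ⟨v, h1, h2.2⟩
  have hstrict : ∀ j < c, G.zeta.real {v | lab v < j} < G.zeta.real {v | lab v < j + 1} := by
    intro j hj
    have e : {v | lab v < j + 1} = {v | lab v < j} ∪ {v | lab v = j} := by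
      ext v
      simp only [Set.mem_ofPred_eq, Set.mem_union]
      omega
    have hd : Disjoint {v | lab v < j} {v | lab v = j} :=
      Set.disjoint_left.2 fun v h1 h2 => absurd h2 (ne_of_lt h1)
    have hs : MeasurableSet {v | lab v = j} := hm (measurableSet_singleton j)
    rw [e, measureReal_union hd hs, lt_add_iff_pos_right]
    refine ENNReal.toReal_pos (fun h => (hkk j hj).1 (measure_mono_null (fun v hv => ?_) h))
      (measure_ne_top _ _)
    show Nat.count P (discK n v) = j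
    rw [show discK n v = kk j from hv]
    exact (hkk j hj).2
  have htop : ∀ j, c ≤ j → G.zeta.real {v | lab v < j} = 1 := fun j hj => by
    refine (measureReal_congr (ae_eq_univ.2 (measure_eq_zero_iff_ae_notMem.2 ?_))).trans
      probReal_univ
    filter_upwards [hg] with v hv h
    exact h ((hlt v hv.1).trans_le hj)
  have hfl : ∀ v : VV r, 0 ≤ (v.1 : ℝ) → (⌊(n : ℝ) * (v.1 : ℝ)⌋₊ : ℝ) / n ≤ v.1 := fun v hv => by
    rw [div_le_iff₀' hn']
    exact Nat.floor_le (by positivity)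
  set t : ℕ → ℝ := fun j => if j < c then ϱ * (((kk j % (n + 1) : ℕ) : ℝ) / n) else ϱ * d with ht
  refine ⟨⟨c - 1, fun j => G.zeta.real {v | lab v < j}, t, by simp, ?_, fun j => ?_, ?_,
    fun j hj => htop j (by omega), ?_, fun j hj => ?_⟩, lab, hm, fun _ => rfl,
    fun j hj => hstrict j (by change j ≤ c - 1 at hj; omega), ?_, ?_, ?_, ?_, fun j => ?_⟩
  · simpa using hstrict 0 hc0
  · exact measureReal_mono fun v (hv : lab v < j) => Nat.lt_succ_of_lt hv
  · exact (hstrict _ (by omega)).trans_eq (htop (c - 1 + 1) (by omega))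
  · simp only [ht, if_pos hc0]
    positivity
  · have hj' : j < c := by omega
    obtain ⟨v, v1, v2, v3, v4⟩ := hpt j hj'
    simp only [ht, if_pos hj']
    rw [← v1, disc_mod]
    split_ifs with h
    · obtain ⟨w, w1, w2, -⟩ := hpt _ h
      rw [← w1, disc_mod]
      have h1 : discK n v < discK n w := by
        rw [v1, w1]
        by_contra hle
        have := Nat.count_monotone P (not_lt.1 hle)
        rw [(hkk j hj').2, (hkk _ h).2] at this
        omega
      have h2 : ⌊(n : ℝ) * (v.1 : ℝ)⌋₊ ≤ ⌊(n : ℝ) * (w.1 : ℝ)⌋₊ := by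
        rcases ((disc_cut n w v.2).2 ((Nat.le_add_right _ _).trans h1.le)).lt_or_eq with h3 | h3
        · exact disc_flm n (g2 v w v2 w2 h3)
        · unfold discK at h1
          rw [h3] at h1
          omega
      gcongr
    · exact mul_le_mul_of_nonneg_left ((hfl v v3).trans v4) hϱ
  · exact if_neg (by change ¬c - 1 + 1 < c; omega)
  · filter_upwards [hg] with v hv
    have h1 := hlt v hv.1
    refine ⟨by change lab v ≤ c - 1; omega, ?_⟩
    have h2 : kk (lab v) = discK n v := Nat.count_injective (hkk _ h1).1 hv.1 (hkk _ h1).2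
    change |ϱ * (v.1 : ℝ) - t (lab v)| ≤ _
    simp only [ht, if_pos h1]
    rw [h2, disc_mod, ← mul_sub, abs_mul, abs_of_nonneg hϱ,
      abs_of_nonneg (sub_nonneg.2 (hfl v hv.2.2.1)), div_eq_mul_one_div ϱ]
    refine mul_le_mul_of_nonneg_left ?_ hϱ
    rw [sub_le_iff_le_add, ← add_div, le_div_iff₀' hn']
    exact (Nat.lt_floor_add_one _).le.trans_eq (add_comm _ _)
  · filter_upwards [hT.psd 2, hL.psd 2] with X h1 h2
    have e1 : (X 0 1).1 = (X 1 0).1 := Subtype.ext (h1.symm 0 1)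
    have e2 : (X 0 1).2 = (X 1 0).2 := Fin.ext (by exact_mod_cast h2.symm 0 1)
    rw [Prod.ext e1 e2]
  · filter_upwards [G.ultra cT hT.psd, G.ultra cL hL.psd, G.ae_entry g1] with X h1 h2 h3
    have a := h3 0 1 (by decide)
    have b := h3 1 2 (by decide)
    have key : discK n (X 0 1) ≤ discK n (X 0 2) ∨ discK n (X 1 2) ≤ discK n (X 0 2) := by
      rw [min_le_iff] at h1 h2
      simp only [Nat.cast_le] at h2
      rcases h1 with h1 | h1 <;> rcases h2 with h2 | h2
      · exact Or.inl (disc_le n h1 h2)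
      · by_cases h : ((X 0 1).2 : ℕ) ≤ (X 0 2).2
        · exact Or.inl (disc_le n h1 h)
        · exact Or.inr (disc_le n ((g2 _ _ b a (by omega)).trans h1) h2)
      · by_cases h : ((X 1 2).2 : ℕ) ≤ (X 0 2).2
        · exact Or.inr (disc_le n h1 h)
        · exact Or.inl (disc_le n ((g2 _ _ a b (by omega)).trans h1) h2)
      · exact Or.inr (disc_le n h1 h2)
    exact min_le_iff.2 (key.imp (fun h => Nat.count_monotone P h) fun h => Nat.count_monotone P h)
  · refine ⟨Nat.count P (j * (n + 1)), ?_⟩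
    filter_upwards [hg] with v hv
    rw [disc_cut n v j]
    exact ⟨fun h => Nat.count_monotone P h,
      fun h => not_lt.1 fun h' => absurd (Nat.count_strict_mono hv.1 h') (not_lt.2 h)⟩

end

end Vale.Agent.P166
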