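import Vale.Agent.P157.RMap
import Vale.Agent.P166.Rec
import Vale.Agent.P166.Tr
import Vale.Agent.P166.XExp

/-! P166 RcQA: untilted recursions (Gaussian coordinate, sign coordinate) and the expansion for three
independent coordinates. -/

open MeasureTheory ProbabilityTheory Filter Topology Matrix Finset

namespace Vale.Agent.P166

noncomputable section

lemma rcq_reach {E Ω : Type} [MeasurableSpace Ω] (m : ℕ → ℝ) (P : Measure Ω) (step : ℕ → E → Ω → E)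
    (S : ℕ → E → Prop) (hS : ∀ l y ω, S l y → S (l + 1) (step l y ω)) {X X' : E → ℝ} (j k : ℕ)
    (hX : ∀ y, S (j + k) y → X y = X' y) (y : E) (hy : S j y) :
    rc m P step X j k y = rc m P step X' j k y := by
  induction k generalizing j y with
  | zero => exact hX y hy
  | succ k ih =>
    simp only [rc]
    congr 1
    funext ω
    exact ih (j + 1) (fun y h => hX y (by rwa [show j + (k + 1) = j + 1 + k by omega])) _
      (hS j y ω hy)

lemma rcq_shift {Y : Type} [NormedAddCommGroup Y] [MeasurableSpace Y] (m : ℕ → ℝ)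
    (ρ : ℕ → Measure Y) (X : Y → ℝ) (c : Y) (n j : ℕ) (y : Y) :
    P157.Rec m ρ (fun y => X (c + y)) n j y = P157.Rec m ρ X n j (c + y) := by
  induction n generalizing j y with
  | zero => rfl
  | succ n ih => simp only [P157.Rec, P157.Tm, ih, add_assoc]

lemma rcq_env0 {Y : Type} [NormedAddCommGroup Y] [MeasurableSpace Y] [BorelSpace Y]
    [SecondCountableTopology Y] : P157.Env (fun _ : Y => (0 : ℝ)) (2 * 0) :=
  P157.Env.of_bdd measurable_const fun _ => by simp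

lemma rcq_Tl_succ {m : ℕ → ℝ} {ρ : ℕ → Measure ℝ} {n j : ℕ} (hL : P157.Lv m ρ (n + 1) j)
    (U : ℝ → ℝ) (y : ℝ) : P157.Tl m ρ (fun _ => 0) U (n + 1) j y =
      ∫ η, P157.Tl m ρ (fun _ => 0) U n (j + 1) (y + η) ∂ρ j := by
  have := (hL j le_rfl (by omega)).2.2.prob
  simp only [P157.Tl, P157.Rec_const hL.tail, tilted_const]

lemma rcq_Tl_gauss {m a : ℕ → ℝ} (hm : ∀ l, 0 ≤ m l) (hm1 : ∀ l, m l ≤ 1) {U : ℝ → ℝ}
    (hU : Measurable U) {B : ℝ} (hB : ∀ y, |U y| ≤ B) (n j : ℕ) (ha : ∀ l < j + n, 0 ≤ a l)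
    (y : ℝ) : P157.Tl m (fun l => P157.gw √(a l)) (fun _ => 0) U n j y =
      ∫ η, U (y + η) ∂P157.gw √(∑ l ∈ Ico j (j + n), a l) := by
  induction n generalizing j y with
  | zero => simp [P157.Tl, P157.gw_zero]
  | succ n ih =>
    have e : j + (n + 1) = j + 1 + n := by omega
    rw [rcq_Tl_succ fun i _ _ => ⟨hm i, hm1 i, P157.expM_gw _⟩,
      Finset.sum_eq_sum_Ico_succ_bot (by omega), e,
      P157.rm_fub (ha j (by omega)) (sum_nonneg fun l hl => ha l (e ▸ (mem_Ico.1 hl).2)) hU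
        (P157.integrable_shift_bdd hU hB y)]
    simp only [ih (j + 1) (e ▸ ha)]

lemma rcq_E2_gauss {m a : ℕ → ℝ} (hm : ∀ l, 0 ≤ m l) (hm1 : ∀ l, m l ≤ 1) {U : ℝ → ℝ}
    (hU : Measurable U) {B : ℝ} (hB : ∀ y, |U y| ≤ B) {k i : ℕ} (hi : i ≤ k)
    (ha : ∀ l ≤ k, 0 ≤ a l) : P157.E2 m (fun l => P157.gw √(a l)) (fun _ => 0) U k i =
      ∫ η, (∫ η', U (η + η') ∂P157.gw √(∑ l ∈ range (k + 1), a l - ∑ l ∈ range (i + 1), a l)) ^ 2
        ∂P157.gw √(∑ l ∈ range (i + 1), a l) := by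
  have hL : ∀ n j, P157.Lv m (fun l => P157.gw √(a l)) n j := fun n j i _ _ =>
    ⟨hm i, hm1 i, P157.expM_gw _⟩
  unfold P157.E2
  rw [funext (P157.Rec_const (hL _ _) 0), rcq_Tl_gauss hm hm1
    ((P157.Tl_meas rcq_env0 (hL _ _) hU).pow_const 2)
    (P157.abs_sq_le_of_bdd (P157.abs_Tl_le rcq_env0 (hL _ _) hB)) _ _ fun l hl => ha l (by omega)]
  simp only [rcq_Tl_gauss hm hm1 hU hB (k - i) (i + 1) fun l hl => ha l (by omega), zero_add,
    show i + 1 + (k - i) = k + 1 by omega, Finset.sum_Ico_eq_sub _ (show i + 1 ≤ k + 1 by omega),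
    ← Finset.range_eq_Ico]

/-- law of the sign added at level `j` -/
def rcqSg (j l : ℕ) : Measure ℝ := unifB.map fun s => if l = j then spin s else 0

lemma rcq_expM (j l : ℕ) : P157.ExpM (rcqSg j l) :=
  ⟨Measure.isProbabilityMeasure_map (measurable_of_countable _).aemeasurable, fun c =>
    (integrable_map_measure (measurable_norm.const_mul c).exp.aestronglyMeasurable
      (measurable_of_countable _).aemeasurable).2 Integrable.of_finite⟩

lemma rcq_Tl_sign {m : ℕ → ℝ} (hm : ∀ l, 0 ≤ m l) (hm1 : ∀ l, m l ≤ 1) {W : ℝ → ℝ}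
    (hW : Measurable W) (j n i : ℕ) (y : ℝ) : P157.Tl m (rcqSg j) (fun _ => 0) W n i y =
      if i ≤ j ∧ j < i + n then (W (y + 1) + W (y + -1)) / 2 else W y := by
  have hL : ∀ n i, P157.Lv m (rcqSg j) n i := fun n i l _ _ => ⟨hm l, hm1 l, rcq_expM j l⟩
  induction n generalizing i y with
  | zero => rw [if_neg (by omega)]; rfl
  | succ n ih =>
    have hT : Measurable fun η => P157.Tl m (rcqSg j) (fun _ => 0) W n (i + 1) (y + η) :=
      (P157.Tl_meas rcq_env0 (hL _ _) hW).comp (measurable_const_add y)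
    rw [rcq_Tl_succ (hL _ _), rcqSg, integral_map (measurable_of_countable _).aemeasurable
      hT.aestronglyMeasurable, integral_unifB]
    simp only [ih]
    by_cases h : i = j
    · subst h
      simp [spin]
    · simp only [if_neg h, add_zero, add_self_div_two]
      refine if_congr ?_ rfl rfl
      omega

lemma rcq_E2_sign {m : ℕ → ℝ} (hm : ∀ l, 0 ≤ m l) (hm1 : ∀ l, m l ≤ 1) {j k i : ℕ} (hj : j ≤ k)
    (hi : i ≤ k) : P157.E2 m (rcqSg j) (fun _ => 0) (fun z => clip 1 (0 + z)) k i =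
      if j ≤ i then 1 else 0 := by
  have hL : ∀ n i, P157.Lv m (rcqSg j) n i := fun n i l _ _ => ⟨hm l, hm1 l, rcq_expM j l⟩
  have hW : Measurable fun z => clip 1 (0 + z) :=
    (continuous_clip 1).measurable.comp (measurable_const_add 0)
  unfold P157.E2
  rw [funext (P157.Rec_const (hL _ _) 0), rcq_Tl_sign hm hm1
    ((P157.Tl_meas rcq_env0 (hL _ _) hW).pow_const 2)]
  simp only [rcq_Tl_sign hm hm1 hW]
  by_cases h : j ≤ i
  · rw [if_pos (by omega), if_neg (by omega), if_neg (by omega), if_pos h]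
    norm_num [clip]
  · rw [if_neg (by omega), if_pos (by omega), if_neg h]
    norm_num [clip]

lemma rcq_scale {Y : Type} [NormedAddCommGroup Y] [MeasurableSpace Y] [BorelSpace Y]
    [SecondCountableTopology Y] (m : ℕ → ℝ) (ρ : ℕ → Measure Y) (X φ : Y → ℝ) (c : ℝ) (k i : ℕ) :
    P157.E2 m ρ X (fun y => c * φ y) k i = c ^ 2 * P157.E2 m ρ X φ k i := by
  unfold P157.E2
  simp only [P157.Tl_const_mul, mul_pow]

/-- expansion for three independent coordinates -/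
lemma rcq_expand {m : ℕ → ℝ} (hm : ∀ l, 0 ≤ m l) (hm1 : ∀ l, m l ≤ 1) {k : ℕ} (h0 : m 0 = 0)
    (h1 : m (k + 1) = 1) {ρ₁ ρ₂ ρ₃ : ℕ → Measure ℝ} (e₁ : ∀ l, P157.ExpM (ρ₁ l))
    (e₂ : ∀ l, P157.ExpM (ρ₂ l)) (e₃ : ∀ l, P157.ExpM (ρ₃ l)) {X U W : ℝ → ℝ} {C B : ℝ}
    (hX : P157.Env X C) (hU : Measurable U) (hB : 0 < B) (hUB : ∀ y, |U y| ≤ B)
    (hW : Measurable W) (hW1 : ∀ y, |W y| ≤ 1) : ∃ c : ℝ, ∀ θ : ℝ, |θ| ≤ B⁻¹ →
    |P157.Rec m (fun l => ((ρ₁ l).prod (ρ₂ l)).prod (ρ₃ l))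
        (fun y => X y.1.1 + θ * (U y.1.2 * W y.2)) (k + 1) 0 0 -
      P157.Rec m (fun l => ((ρ₁ l).prod (ρ₂ l)).prod (ρ₃ l))
        (fun y => X y.1.1 + 0 * (U y.1.2 * W y.2)) (k + 1) 0 0 -
      θ * (P157.Tl m ρ₂ (fun _ => 0) U (k + 1) 0 0 * P157.Tl m ρ₃ (fun _ => 0) W (k + 1) 0 0) -
      θ ^ 2 / 2 * (P157.E2 m ρ₂ (fun _ => 0) U k k * P157.E2 m ρ₃ (fun _ => 0) W k k -
        ∑ i ∈ Icc 0 k, (m (i + 1) - m i) *
          (P157.E2 m ρ₂ (fun _ => 0) U k i * P157.E2 m ρ₃ (fun _ => 0) W k i))| ≤ c * |θ| ^ 3 := by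
  obtain ⟨c, -, hc⟩ := P157.rec_expand2 k
  refine ⟨c * B ^ 3, fun θ hθ => ?_⟩
  have L₁ : P157.Lv m ρ₁ (k + 1) 0 := fun l _ _ => ⟨hm l, hm1 l, e₁ l⟩
  have L₂ : P157.Lv m ρ₂ (k + 1) 0 := fun l _ _ => ⟨hm l, hm1 l, e₂ l⟩
  have L₃ : P157.Lv m ρ₃ (k + 1) 0 := fun l _ _ => ⟨hm l, hm1 l, e₃ l⟩
  have X₂ := hX.prod (rcq_env0 (Y := ℝ))
  have X₃ := X₂.prod (rcq_env0 (Y := ℝ))
  have hx : |θ * B| ≤ 1 := by
    rw [abs_mul, abs_of_pos hB]
    exact (mul_le_mul_of_nonneg_right hθ hB.le).trans_eq (inv_mul_cancel₀ hB.ne')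
  have h := hc ((L₁.prod L₂).prod L₃) h0 h1 X₃
    (h := fun y : (ℝ × ℝ) × ℝ => (1 * (B⁻¹ * U y.1.2)) * W y.2)
    (by fun_prop) (fun y => by
      rw [one_mul, abs_mul, abs_mul, abs_of_pos (inv_pos.2 hB)]
      exact mul_le_one₀ ((mul_le_mul_of_nonneg_left (hUB _) (inv_pos.2 hB).le).trans_eq
        (inv_mul_cancel₀ hB.ne')) (abs_nonneg _) (hW1 _)) (θ * B) hx
  have eT := P157.Tl_prod (φ := fun y : ℝ × ℝ => 1 * (B⁻¹ * U y.2)) (φ' := W) X₂
    (rcq_env0 (Y := ℝ)) (L₁.prod L₂) L₃ 0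
  have eT' := P157.Tl_prod (φ := fun _ : ℝ => 1) (φ' := fun y => B⁻¹ * U y) hX
    (rcq_env0 (Y := ℝ)) L₁ L₂ 0
  have eE : ∀ i ≤ k, P157.E2 m (fun l => ((ρ₁ l).prod (ρ₂ l)).prod (ρ₃ l))
      (fun y => X y.1.1 + 0 + 0) (fun y : (ℝ × ℝ) × ℝ => (1 * (B⁻¹ * U y.1.2)) * W y.2) k i =
      B⁻¹ ^ 2 * (P157.E2 m ρ₂ (fun _ => 0) U k i * P157.E2 m ρ₃ (fun _ => 0) W k i) := by
    intro i hi
    rw [P157.E2_prod (φ := fun y : ℝ × ℝ => 1 * (B⁻¹ * U y.2)) (φ' := W) X₂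
      (rcq_env0 (Y := ℝ)) (L₁.prod L₂) L₃ hi, P157.E2_prod (φ := fun _ : ℝ => 1)
      (φ' := fun y => B⁻¹ * U y) hX (rcq_env0 (Y := ℝ)) L₁ L₂ hi, P157.E2_one hX L₁ hi, rcq_scale]
    ring
  rw [eT, Prod.fst_zero, eT', P157.Tl_const hX L₁, P157.Tl_const_mul, P157.tail, eE k le_rfl,
    Finset.sum_congr rfl fun i hi => by rw [eE i (mem_Icc.1 hi).2]] at h
  have f1 : (fun y : (ℝ × ℝ) × ℝ => X y.1.1 + θ * (U y.1.2 * W y.2)) =
      fun y => X y.1.1 + 0 + 0 + θ * B * ((1 * (B⁻¹ * U y.1.2)) * W y.2) := by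
    funext y
    field_simp
    ring
  have f2 : (fun y : (ℝ × ℝ) × ℝ => X y.1.1 + 0 * (U y.1.2 * W y.2)) =
      fun y => X y.1.1 + 0 + 0 := by
    funext y
    ring
  rw [f1, f2]
  refine (le_of_eq (congrArg abs ?_)).trans (h.trans_eq ?_)
  · simp only [mul_left_comm _ (B⁻¹ ^ 2), ← Finset.mul_sum, Prod.snd_zero]
    field_simp
  · rw [abs_mul, abs_of_pos hB]
    ring

lemma rcq_lim1 {G : ℝ → ℝ} {a b c δ : ℝ} (hδ : 0 < δ)
    (h : ∀ θ, |θ| ≤ δ → |G θ - G 0 - θ * a - θ ^ 2 / 2 * b| ≤ c * |θ| ^ 3) :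
    Tendsto (fun θ => (G θ - G 0) / θ) (𝓝[>] 0) (𝓝 a) := by
  have h1 : Tendsto (fun θ : ℝ => θ / 2 * |b| + c * θ ^ 2) (𝓝[>] 0) (𝓝 0) :=
    ((show Continuous fun θ : ℝ => θ / 2 * |b| + c * θ ^ 2 by fun_prop).tendsto' 0 0
      (by simp)).mono_left nhdsWithin_le_nhds
  rw [tendsto_iff_norm_sub_tendsto_zero]
  refine squeeze_zero' (Eventually.of_forall fun _ => norm_nonneg _) ?_ h1
  filter_upwards [Ioc_mem_nhdsGT hδ] with θ hθ
  have h2 := h θ (by rw [abs_of_pos hθ.1]; exact hθ.2)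
  have h3 := hθ.1
  have e : (G θ - G 0) / θ - a = (G θ - G 0 - θ * a - θ ^ 2 / 2 * b) / θ + θ / 2 * b := by
    field_simp
    ring
  rw [Real.norm_eq_abs, e]
  refine (abs_add_le _ _).trans ?_
  rw [abs_div, abs_mul, abs_of_pos h3, abs_of_pos (half_pos h3), add_comm]
  rw [abs_of_pos h3] at h2
  refine add_le_add le_rfl ((div_le_iff₀ h3).2 (h2.trans_eq (by ring)))

lemma rcq_lim2 {G : ℝ → ℝ} {b c δ : ℝ} (hδ : 0 < δ)
    (h : ∀ θ, |θ| ≤ δ → |G θ - G 0 - θ ^ 2 / 2 * b| ≤ c * |θ| ^ 3) :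
    Tendsto (fun θ => 2 / θ ^ 2 * (G θ - G 0)) (𝓝[>] 0) (𝓝 b) := by
  have h1 : Tendsto (fun θ : ℝ => 2 * c * θ) (𝓝[>] 0) (𝓝 0) :=
    ((show Continuous fun θ : ℝ => 2 * c * θ by fun_prop).tendsto' 0 0
      (by simp)).mono_left nhdsWithin_le_nhds
  rw [tendsto_iff_norm_sub_tendsto_zero]
  refine squeeze_zero' (Eventually.of_forall fun _ => norm_nonneg _) ?_ h1
  filter_upwards [Ioc_mem_nhdsGT hδ] with θ hθ
  have h2 := h θ (by rw [abs_of_pos hθ.1]; exact hθ.2)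
  have h3 := hθ.1
  have e : 2 / θ ^ 2 * (G θ - G 0) - b = 2 / θ ^ 2 * (G θ - G 0 - θ ^ 2 / 2 * b) := by
    field_simp
  rw [Real.norm_eq_abs, e, abs_mul, abs_of_pos (by positivity : 0 < 2 / θ ^ 2)]
  rw [abs_of_pos h3] at h2
  refine (mul_le_mul_of_nonneg_left h2 (by positivity)).trans_eq ?_
  field_simp

lemma rcq_rho {M : ℝ} (hM : 0 ≤ M) (c d : ℝ) : rho M c d =
    ∫ η, (∫ η', clip M (η + η') ∂P157.gw √(d - c)) ^ 2 ∂P157.gw √c := by
  have hc := continuous_clip M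
  have hp : MeasurePreserving (fun z : Fin 3 → ℝ => (z 0, (z 1, z 2))) (gam (Fin 3))
      ((gaussianReal 0 1).prod ((gaussianReal 0 1).prod (gaussianReal 0 1))) :=
    ((MeasurePreserving.id _).prod (measurePreserving_finTwoArrow (gaussianReal 0 1))).comp
      (measurePreserving_piFinSuccAbove (fun _ : Fin 3 => gaussianReal 0 1) 0)
  have hf : Continuous fun w : ℝ × ℝ × ℝ =>
      clip M (√c * w.1 + √(d - c) * w.2.1) * clip M (√c * w.1 + √(d - c) * w.2.2) := by fun_prop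
  have h1 := integral_map (μ := gam (Fin 3)) hp.measurable.aemeasurable
    (f := fun w : ℝ × ℝ × ℝ =>
      clip M (√c * w.1 + √(d - c) * w.2.1) * clip M (√c * w.1 + √(d - c) * w.2.2))
    hf.aestronglyMeasurable
  have h2 : Measurable fun η => (∫ η', clip M (η + η') ∂P157.gw √(d - c)) ^ 2 :=
    ((show Measurable fun p : ℝ × ℝ => clip M (p.1 + p.2) by
      fun_prop).stronglyMeasurable.integral_prod_right'.measurable).pow_const 2
  rw [hp.map_eq] at h1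
  rw [rho, ← h1, integral_prod _ (Integrable.of_bound hf.aestronglyMeasurable (M * M)
    (Eventually.of_forall fun w => by
      rw [Real.norm_eq_abs, abs_mul]
      exact mul_le_mul (abs_clip_le hM _) (abs_clip_le hM _) (abs_nonneg _) hM))]
  refine Eq.trans ?_ (integral_map (measurable_const_mul √c).aemeasurable
    h2.aestronglyMeasurable).symm
  congr 1
  funext x
  rw [integral_prod_mul (fun y => clip M (√c * x + √(d - c) * y))
    fun y => clip M (√c * x + √(d - c) * y), P157.gw,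
    integral_map (measurable_const_mul _).aemeasurable (by fun_prop), sq]

lemma rcq_indep {F : Type} [Fintype F] {t : F → ℝ} {f0 : F} (h0 : t f0 = 0) (s : ℝ) :
    (gam F).map (fun g => (∑ f, t f * g f, s * g f0)) =
      (P157.gw √(∑ f, t f ^ 2)).prod (P157.gw s) := by
  classical
  have hi := (iIndepFun_pi (μ := fun _ : F => gaussianReal 0 1)
    (X := fun f x => (if f = f0 then s else t f) * x)
    fun _ => (measurable_const_mul _).aemeasurable).indepFun_finsetSum_of_notMem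
    (fun f => by fun_prop) (notMem_erase f0 univ)
  have e : (∑ f ∈ univ.erase f0, fun g : F → ℝ => (if f = f0 then s else t f) * g f) =
      fun g => ∑ f, t f * g f := by
    funext g
    rw [Finset.sum_apply, ← Finset.add_sum_erase _ _ (mem_univ f0), h0, zero_mul, zero_add]
    exact Finset.sum_congr rfl fun f hf => by rw [if_neg (ne_of_mem_erase hf)]
  rw [e] at hi
  simp only [if_true] at hi
  rw [(indepFun_iff_map_prod_eq_prod_map_map (Measurable.aemeasurable (by fun_prop))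
    (Measurable.aemeasurable (by fun_prop))).1 hi, gauss_lin,
    P157.gw_eq, Real.sq_sqrt (sum_nonneg fun _ _ => sq_nonneg _)]
  congr 1
  exact (MeasurePreserving.comp ⟨measurable_const_mul s, rfl⟩
    (measurePreserving_eval (fun _ : F => gaussianReal 0 1) f0)).map_eq

end

end Vale.Agent.P166
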