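import Vale.Agent.P157.RMap
import Vale.Agent.P166.Defs2
import Vale.Agent.P166.Qt
import Vale.Agent.P166.Tr
import Vale.Agent.P166.XExp
import Vale.Agent.P166.RcQA

/-! P166 RcQ: the recursion for quadratic cavity energies.
Plan. log Wq (q - c) y = c + log Wq q y when c does not depend on the spin, log Wq Q.q y = - sum A y^2/2 - Q.c/2 + log cosh (b . y), and for V = Ve the cosh argument is b . y - theta clip 1 z. Apply qt.
RCm_cosh: rc_push along h = b . eta (its increment at level l is centred Gaussian with variance dh l: map_feat_eq or gK_eval), parisi_eq_rc, parisi_top at the level r+1 where m = 1.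
RC2_Ve: the same with state (h, z) and the sign; the state reached has z = 0 before level j and z = +-1 after, so push to h - theta z (clip 1 z = z there; one may first show that rc only depends on X on reachable states, or push
from a recursion on (F -> R) x Bool); the sign flip of unifB gives parisiRad; top level by E cosh (h + sqrt a g) = cosh h exp(a/2).
RC2_y (b f0 = 0, U bounded continuous): rc_eq_Rec and P157.rec_expand2 (file XExp, k = pi.r+1) with X = log cosh (b . eta), h = U(eta f0) clip 1 z / B; the coordinates other than f0, the coordinate f0 and z are independent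
(P157.Tl_map, E2_map along the additive map (eta,z) -> (b . eta, (eta f0, z)), Tl_prod, E2_prod); for X = 0, Tl is a plain Gaussian expectation and E2 at level i is the covariance rho (cc i) (cc (r+1)) (variances add up:
gw_prod_map_add), the sign contributes 1[j <= i]. -/

open MeasureTheory ProbabilityTheory Filter Topology Matrix Finset

namespace Vale.Agent.P166

noncomputable section

variable {F : Type} [Fintype F] (π : Path) (Q : Quad F)

lemma rho_self {M d : ℝ} (hd : 0 ≤ d) :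
    rho M d d = ∫ z, clip M (√d * z) ^ 2 ∂gaussianReal 0 1 := by
  have hf : Measurable fun z : ℝ => clip M (√d * z) ^ 2 :=
    ((continuous_clip M).measurable.comp (measurable_const_mul _)).pow_const 2
  have hp := measurePreserving_eval (fun _ : Fin 3 => gaussianReal 0 1) 0
  have h := integral_map (μ := gam (Fin 3)) hp.measurable.aemeasurable
    (f := fun z : ℝ => clip M (√d * z) ^ 2) hf.aestronglyMeasurable
  rw [hp.map_eq] at h
  rw [h, rho]
  simp only [sub_self, Real.sqrt_zero, zero_mul, add_zero, sq, Function.eval]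


lemma abs_rho_sub_le {M c d Dm : ℝ} (hM : 0 < M) (h0 : 0 ≤ c) (h1 : c ≤ d) (h2 : d ≤ Dm) :
    |rho M c d - c| ≤ 4 * (1 + Dm) ^ 2 / M := by
  have hc := continuous_clip M
  obtain ⟨a, ha⟩ : ∃ a : Fin 2 → Fin 3 → ℝ, a = ![![√c, √(d - c), 0], ![√c, 0, √(d - c)]] :=
    ⟨_, rfl⟩
  have hC := psd_gram a
  have s1 := Real.mul_self_sqrt h0
  have s2 := Real.mul_self_sqrt (sub_nonneg.2 h1)
  have c0 : ∀ s, gram a s s = d := fun s => by
    fin_cases s <;> simp [ha, gram, Fin.sum_univ_three, s1, s2]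
  have c1 : gram a 0 1 = c := by simp [ha, gram, Fin.sum_univ_three, s1]
  have e : rho M c d = ∫ y, clip M (y 0) * clip M (y 1) ∂gK (gram a) := by
    rw [← map_feat_gK, integral_map (measurable_feat a).aemeasurable
      (Continuous.aestronglyMeasurable (by fun_prop)), rho]
    simp [ha, feat, Fin.sum_univ_three]
  have i2 : ∀ s : Fin 2, Integrable (fun y : Fin 2 → ℝ => y s ^ 2) (gK (gram a)) := fun s => by
    simpa only [sq_abs] using integrable_eval_pow (C := gram a) s 2
  have i4 : ∀ s : Fin 2, Integrable (fun y : Fin 2 → ℝ => y s ^ 4) (gK (gram a)) := fun s => by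
    simpa only [Even.pow_abs (show Even 4 by decide)] using integrable_eval_pow (C := gram a) s 4
  have v2 : ∀ s : Fin 2, ∫ y, y s ^ 2 ∂gK (gram a) = d := fun s => by
    simp only [sq]
    rw [integral_eval_mul hC, c0]
  have v4 : ∀ s : Fin 2, ∫ y, y s ^ 4 ∂gK (gram a) = 3 * d ^ 2 := fun s => by
    rw [integral_eval_four hC, c0]
  have i1 : Integrable (fun y : Fin 2 → ℝ => y 0 * y 1) (gK (gram a)) :=
    ((i2 0).add (i2 1)).mono' (Continuous.aestronglyMeasurable (by fun_prop))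
      (Eventually.of_forall fun y => by
        rw [Real.norm_eq_abs, Pi.add_apply, abs_le]
        constructor <;> nlinarith [sq_nonneg (y 0 + y 1), sq_nonneg (y 0 - y 1)])
  have i0 : Integrable (fun y : Fin 2 → ℝ => clip M (y 0) * clip M (y 1)) (gK (gram a)) :=
    Integrable.of_bound (Continuous.aestronglyMeasurable (by fun_prop)) (M * M)
      (Eventually.of_forall fun y => by
        rw [Real.norm_eq_abs, abs_mul]
        exact mul_le_mul (abs_clip_le hM.le _) (abs_clip_le hM.le _) (abs_nonneg _) hM.le)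
  have hpt : ∀ x y : ℝ, |clip M x * clip M y - x * y| ≤
      (x ^ 4 + y ^ 2 + (x ^ 2 + y ^ 4)) / (2 * M) := fun x y => by
    have e1 : clip M x * clip M y - x * y = -((x - clip M x) * clip M y + x * (y - clip M y)) := by
      ring
    have b1 : |(x - clip M x) * clip M y| ≤ x ^ 2 / M * |y| := by
      rw [abs_mul]
      exact mul_le_mul (abs_sub_clip_le hM x) (abs_clip_le_abs hM.le y) (abs_nonneg _)
        (by positivity)
    have b2 : |x * (y - clip M y)| ≤ |x| * (y ^ 2 / M) := by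
      rw [abs_mul]
      exact mul_le_mul_of_nonneg_left (abs_sub_clip_le hM y) (abs_nonneg _)
    rw [e1, abs_neg]
    refine (abs_add_le _ _).trans ((add_le_add b1 b2).trans ?_)
    rw [show x ^ 2 / M * |y| + |x| * (y ^ 2 / M) = (2 * (x ^ 2 * |y| + |x| * y ^ 2)) / (2 * M) by
      field_simp]
    refine div_le_div_of_nonneg_right ?_ (by positivity)
    nlinarith [sq_nonneg (x ^ 2 - |y|), sq_nonneg (y ^ 2 - |x|), sq_abs x, sq_abs y]
  have h3 := (abs_integral_le_integral_abs (μ := gK (gram a))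
    (f := fun y => clip M (y 0) * clip M (y 1) - y 0 * y 1)).trans
    (integral_mono (i0.sub i1).abs ((((i4 0).add (i2 1)).add ((i2 0).add (i4 1))).div_const (2 * M))
      fun y => hpt (y 0) (y 1))
  simp only [Pi.add_apply] at h3
  rw [integral_sub i0 i1, integral_eval_mul hC, c1, ← e, integral_div,
    integral_add (f := fun y : Fin 2 → ℝ => y 0 ^ 4 + y 1 ^ 2)
      (g := fun y : Fin 2 → ℝ => y 0 ^ 2 + y 1 ^ 4) ((i4 0).add (i2 1)) ((i2 0).add (i4 1)),
    integral_add (i4 0) (i2 1),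
    integral_add (i2 0) (i4 1), v2, v2, v4, v4] at h3
  refine h3.trans ?_
  rw [show 4 * (1 + Dm) ^ 2 / M = 8 * (1 + Dm) ^ 2 / (2 * M) by field_simp; ring]
  refine div_le_div_of_nonneg_right ?_ (by positivity)
  nlinarith


lemma Quad.dh_nonneg {l : ℕ} (hl : l ≤ π.r + 1) : 0 ≤ Q.dh π l := by
  exact sum_nonneg fun f _ => mul_nonneg (sq_nonneg _) (π.dc_nonneg (Q.A_nonneg f) hl)


lemma rcq_logW (V : (F → ℝ) → Bool → ℝ) (θ s : ℝ) (y : F → ℝ) :
    Real.log (Wq (fun y' ε => Q.q y' ε - θ * V y' ε * s) y) = -(∑ f, Q.A f * y f ^ 2) / 2 +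
      (-Q.c / 2 + Real.log (Real.cosh (∑ f, -Q.b f * y f + θ * ((V y true - V y false) / 2 * s))) +
        θ * ((V y true + V y false) / 2 * s)) := by
  have e : Wq (fun y' ε => Q.q y' ε - θ * V y' ε * s) y =
      Real.exp (-(∑ f, Q.A f * y f ^ 2) / 2 + -Q.c / 2 + θ * ((V y true + V y false) / 2 * s)) *
        Real.cosh (∑ f, -Q.b f * y f + θ * ((V y true - V y false) / 2 * s)) := by
    rw [Wq, Real.cosh_eq, mul_div_assoc', mul_add, ← Real.exp_add, ← Real.exp_add]
    simp only [Quad.q, spin, neg_mul, Finset.sum_neg_distrib, if_true, Bool.false_eq_true, if_false]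
    congr 3 <;> ring
  rw [e, Real.log_mul (Real.exp_pos _).ne' (Real.cosh_pos _).ne', Real.log_exp]
  ring

lemma rcq_qt {V : (F → ℝ) → Bool → ℝ} (hV : ∀ ε, Measurable fun y => V y ε) {B : ℝ}
    (hB : ∀ y ε, |V y ε| ≤ B) (j : ℕ) (θ z0 : ℝ) :
    RC2 π Q.q V j θ z0 = ∑ f, π.ell (Q.A f) + RCm π (fun l f => π.dc (Q.A f) l) j
      (fun y => -Q.c / 2 + Real.log (Real.cosh (∑ f, -Q.b f * y.1 f +
        θ * ((V y.1 true - V y.1 false) / 2 * clip 1 y.2))) +
        θ * ((V y.1 true + V y.1 false) / 2 * clip 1 y.2)) z0 := by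
  have hc := continuous_clip 1
  have h1 : Measurable fun y : (F → ℝ) × ℝ => V y.1 true := (hV true).comp measurable_fst
  have h2 : Measurable fun y : (F → ℝ) × ℝ => V y.1 false := (hV false).comp measurable_fst
  have h3 : Measurable fun y : (F → ℝ) × ℝ => clip 1 y.2 := hc.measurable.comp measurable_snd
  have hB0 : 0 ≤ B := (abs_nonneg _).trans (hB 0 true)
  unfold RC2
  simp only [rcq_logW]
  refine qt π Q.A_nonneg j (L := |Q.c| + 2 * (|θ| * B) + ∑ f, |Q.b f|) ?_ (fun y => ?_) z0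
  · refine (measurable_const.add (Real.continuous_cosh.measurable.comp
      (Measurable.add (by fun_prop) ((((h1.sub h2).div_const 2).mul h3).const_mul θ))).log).add
      ((((h1.add h2).div_const 2).mul h3).const_mul θ)
  · have a1 : ∀ u : ℝ, |u| ≤ 2 * B → |θ * (u / 2 * clip 1 y.2)| ≤ |θ| * B := fun u hu => by
      rw [abs_mul, abs_mul, abs_div, abs_two]
      refine mul_le_mul_of_nonneg_left ?_ (abs_nonneg _)
      nlinarith [abs_clip_le zero_le_one y.2, abs_nonneg u, abs_nonneg (clip 1 y.2)]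
    have a2 := a1 _ ((abs_sub _ _).trans ((add_le_add (hB y.1 true) (hB y.1 false)).trans_eq
      (two_mul B).symm))
    have a3 := a1 _ ((abs_add_le _ _).trans ((add_le_add (hB y.1 true) (hB y.1 false)).trans_eq
      (two_mul B).symm))
    have a4 : |∑ f, -Q.b f * y.1 f| ≤ (∑ f, |Q.b f|) * ‖y‖ := by
      rw [Finset.sum_mul]
      refine (Finset.abs_sum_le_sum_abs _ _).trans (Finset.sum_le_sum fun f _ => ?_)
      rw [abs_mul, abs_neg]
      exact mul_le_mul_of_nonneg_left ((norm_le_pi_norm y.1 f).trans (norm_fst_le y)) (abs_nonneg _)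
    have a5 := logcosh_lip (∑ f, -Q.b f * y.1 f +
      θ * ((V y.1 true - V y.1 false) / 2 * clip 1 y.2)) 0
    rw [Real.cosh_zero, Real.log_one, sub_zero, sub_zero, one_mul, Real.norm_eq_abs] at a5
    have a6 := a5.trans ((abs_add_le _ _).trans (add_le_add a4 a2))
    have a7 : |(-Q.c / 2)| ≤ |Q.c| := by
      rw [abs_div, abs_neg, abs_two]
      linarith [abs_nonneg Q.c]
    have a8 : 0 ≤ ∑ f, |Q.b f| := sum_nonneg fun _ _ => abs_nonneg _
    refine (abs_add_le _ _).trans ((add_le_add ((abs_add_le _ _).trans (add_le_add a7 a6))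
      a3).trans ?_)
    have a9 : 0 ≤ (|Q.c| + 2 * (|θ| * B)) * ‖y‖ := by positivity
    nlinarith

lemma rcq_var {l : ℕ} (hl : l ≤ π.r + 1) :
    ∑ f, (-Q.b f * √(π.dc (Q.A f) l)) ^ 2 = Q.dh π l :=
  Finset.sum_congr rfl fun f _ => by
    rw [mul_pow, neg_sq, Real.sq_sqrt (π.dc_nonneg (Q.A_nonneg f) hl)]

lemma rcq_push (j : ℕ) (θ : ℝ) {X : ℝ → ℝ} (hX : Measurable X) (z0 : ℝ) :
    RCm π (fun l f => π.dc (Q.A f) l) j (fun y => X (∑ f, -Q.b f * y.1 f + θ * y.2)) z0 =
      rc π.m ((gaussianReal 0 1).prod unifB) (fun l (y : ℝ) (ω : ℝ × Bool) =>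
        y + √(Q.dh π l) * ω.1 + if l = j then θ * spin ω.2 else 0) X 0 (π.r + 2) (θ * z0) := by
  have hs : ∀ l : ℕ, Measurable fun s : Bool => if l = j then θ * spin s else 0 := fun l =>
    measurable_of_countable _
  have e0 : θ * z0 = ∑ f, -Q.b f * (0 : F → ℝ) f + θ * z0 := by simp
  rw [e0]
  refine rc_push π.m ((gam F).prod unifB) ((gaussianReal 0 1).prod unifB)
    (step := stepM (fun l f => π.dc (Q.A f) l) j) (step' := fun l (y : ℝ) (ω : ℝ × Bool) =>
      y + √(Q.dh π l) * ω.1 + if l = j then θ * spin ω.2 else 0)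
    (fun l y => (measurable_stepM (fun l f => π.dc (Q.A f) l) j l).comp
      (measurable_prodMk_left (x := y)))
    (fun l => ?_) (fun _ (y : (F → ℝ) × ℝ) => ∑ f, -Q.b f * y.1 f + θ * y.2)
    (fun _ => by fun_prop) hX 0 (π.r + 2) (fun l y _ hl => ?_) (0, z0)
  · exact Measurable.add (by fun_prop) ((hs l).comp (measurable_snd.comp measurable_snd))
  · have hl' : l ≤ π.r + 1 := by omega
    obtain ⟨p, hp⟩ : ∃ p, p = ∑ f, -Q.b f * y.1 f + θ * y.2 := ⟨_, rfl⟩
    have hg : Measurable fun w : ℝ × Bool => p + w.1 + if l = j then θ * spin w.2 else 0 :=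
      Measurable.add (by fun_prop) ((hs l).comp measurable_snd)
    have m1 : MeasurePreserving (fun g : F → ℝ => ∑ f, -Q.b f * √(π.dc (Q.A f) l) * g f) (gam F)
        (P157.gw √(Q.dh π l)) := ⟨by fun_prop, by
      rw [gauss_lin, rcq_var π Q hl', P157.gw_eq, Real.sq_sqrt (Q.dh_nonneg π hl')]⟩
    have m2 : MeasurePreserving (fun z : ℝ => √(Q.dh π l) * z) (gaussianReal 0 1)
        (P157.gw √(Q.dh π l)) := ⟨measurable_const_mul _, rfl⟩
    have m3 := (MeasurePreserving.comp ⟨hg, rfl⟩ (m1.prod (MeasurePreserving.id unifB))).map_eq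
    have m4 := (MeasurePreserving.comp ⟨hg, rfl⟩ (m2.prod (MeasurePreserving.id unifB))).map_eq
    rw [← hp]
    refine Eq.trans ?_ (m3.trans m4.symm)
    congr 1
    funext ω
    simp only [stepM, hp, Function.comp, Prod.map, id, Prod.fst_add, Prod.snd_add, Pi.add_apply,
      mul_add, Finset.sum_add_distrib, mul_ite, mul_zero, mul_assoc]
    ring

lemma rcq_top {m a : ℕ → ℝ} (hm : ∀ l, 0 ≤ m l) {r j : ℕ} {θ : ℝ} (h1 : m (r + 1) = 1)
    (ha : 0 ≤ a (r + 1)) (h : θ = 0 ∨ j ≤ r) (c : ℝ) :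
    rc m ((gaussianReal 0 1).prod unifB) (fun l (y : ℝ) (ω : ℝ × Bool) =>
      y + √(a l) * ω.1 + if l = j then θ * spin ω.2 else 0)
      (fun y => c + Real.log (Real.cosh y)) 0 (r + 2) 0 =
      c + parisiRad m a r j θ + a (r + 1) / 2 := by
  have h0 : ∀ s, (if r + 1 = j then θ * spin s else 0) = 0 := fun s => by
    rcases h with h | h
    · simp [h]
    · exact if_neg (by omega)
  have e : ∀ y : ℝ, Tm 1 ((gaussianReal 0 1).prod unifB)
      (fun ω : ℝ × Bool => c + Real.log (Real.cosh (y + √(a (r + 1)) * ω.1))) =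
      Real.log (Real.cosh y) + (c + a (r + 1) / 2) := fun y => by
    rw [Tm, if_neg one_ne_zero, inv_one, one_mul]
    simp only [one_mul, Real.exp_add, Real.exp_log (Real.cosh_pos _)]
    rw [integral_fun_fst (fun z => Real.exp c * Real.cosh (y + √(a (r + 1)) * z)), probReal_univ,
      one_smul, integral_const_mul, integral_cosh_gauss, Real.sq_sqrt ha,
      Real.log_mul (Real.exp_pos _).ne' (by positivity), Real.log_mul (Real.cosh_pos _).ne'
      (Real.exp_pos _).ne', Real.log_exp, Real.log_exp]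
    ring
  have hs : ∀ l : ℕ, Measurable fun s : Bool => if l = j then θ * spin s else 0 := fun l =>
    measurable_of_countable _
  rw [rc_succ_top, parisiRad]
  simp only [zero_add, h0, add_zero, h1, e, add_assoc]
  rw [rc_add_const m hm _
    (φ := fun l (ω : ℝ × Bool) => √(a l) * ω.1 + if l = j then θ * spin ω.2 else 0)
    (fun l => Measurable.add (by fun_prop) ((hs l).comp measurable_snd)) (fun l d => ?_)
    logcosh_lip]
  · ring
  · refine ((rec_gauss_exp √(a l) |d|).mul_prod (Integrable.of_finite (μ := unifB)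
      (f := fun s => Real.exp (|d| * ‖if l = j then θ * spin s else 0‖)))).mono'
      ((Measurable.add (by fun_prop) ((hs l).comp measurable_snd)).norm.const_mul
        d).exp.aestronglyMeasurable (Eventually.of_forall fun ω => ?_)
    rw [Real.norm_of_nonneg (Real.exp_pos _).le, ← Real.exp_add, ← mul_add]
    exact Real.exp_le_exp.2 (mul_le_mul (le_abs_self d) (norm_add_le _ _) (norm_nonneg _)
      (abs_nonneg _))

lemma rcq_rad0 (m a : ℕ → ℝ) (r j : ℕ) : parisiRad m a r j 0 = parisi m a 0 (r + 1) 0 := by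
  rw [parisiRad, parisi_eq_rc]
  simp only [zero_mul, ite_self, add_zero]
  refine rc_push m _ _ (fun l y => by fun_prop) (fun l => by fun_prop) (fun _ y => y)
    (fun _ => measurable_id) Real.continuous_cosh.measurable.log 0 (r + 1) (fun l y _ _ => ?_) 0
  exact (MeasurePreserving.comp (g := fun z : ℝ => y + √(a l) * z) ⟨by fun_prop, rfl⟩
    (measurePreserving_fst (μ := gaussianReal 0 1) (ν := unifB))).map_eq

lemma rcq_Ve {j : ℕ} {θ z0 : ℝ} (h : θ = 0 ∨ j ≤ π.r ∧ z0 = 0) :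
    RC2 π Q.q Ve j θ z0 = ∑ f, π.ell (Q.A f) - Q.c / 2 + parisiRad π.m (Q.dh π) π.r j θ +
      Q.dh π (π.r + 1) / 2 := by
  have e1 : RCm π (fun l f => π.dc (Q.A f) l) j
      (fun y => -Q.c / 2 + Real.log (Real.cosh (∑ f, -Q.b f * y.1 f + θ * clip 1 y.2))) z0 =
      RCm π (fun l f => π.dc (Q.A f) l) j
      (fun y => -Q.c / 2 + Real.log (Real.cosh (∑ f, -Q.b f * y.1 f + θ * y.2))) z0 := by
    rcases h with h | h
    · simp only [h, zero_mul]
    · refine rcq_reach _ _ _ (fun l y => |y.2| ≤ 1 ∧ (l ≤ j → y.2 = 0)) (fun l y ω hy => ?_) _ _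
        (fun y hy => ?_) _ (by simp [h.2])
      · by_cases hl : l = j
        · refine ⟨?_, fun h => by omega⟩
          simp only [stepM, Prod.snd_add, if_pos hl, hy.2 hl.le, zero_add, spin]
          split_ifs <;> simp
        · simp only [stepM, Prod.snd_add, if_neg hl, add_zero]
          exact ⟨hy.1, fun h => hy.2 (by omega)⟩
      · rw [clip, min_eq_right (abs_le.1 hy.1).2, max_eq_right (abs_le.1 hy.1).1]
  have e2 : θ * z0 = 0 := by
    rcases h with h | h
    · rw [h, zero_mul]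
    · rw [h.2, mul_zero]
  rw [rcq_qt π Q (V := Ve) (B := 1) (fun _ => measurable_const)
    fun _ ε => by cases ε <;> simp [Ve, spin]]
  simp only [Ve, show (spin true - spin false) / 2 = 1 by norm_num [spin],
    show (spin true + spin false) / 2 = 0 by norm_num [spin], one_mul, zero_mul, mul_zero, add_zero]
  rw [e1, rcq_push π Q j θ (X := fun h => -Q.c / 2 + Real.log (Real.cosh h))
    (measurable_const.add Real.continuous_cosh.measurable.log), e2,
    rcq_top π.m_nonneg (π.m_top _ (by omega)) (Q.dh_nonneg π le_rfl) (h.imp id And.left)]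
  ring

/-- the three coordinates that matter -/
def rcqP (b : F → ℝ) (f0 : F) : (F → ℝ) × ℝ →+ (ℝ × ℝ) × ℝ where
  toFun y := ((∑ f, -b f * y.1 f, y.1 f0), y.2)
  map_zero' := by simp
  map_add' y y' := by
    simp only [Prod.fst_add, Prod.snd_add, Pi.add_apply, mul_add, Finset.sum_add_distrib,
      Prod.mk_add_mk]

lemma rcq_three {f0 : F} (h0 : Q.b f0 = 0) (j : ℕ) {X : (ℝ × ℝ) × ℝ → ℝ} {C : ℝ}
    (hX : P157.Env X C) (z0 : ℝ) :
    RCm π (fun l f => π.dc (Q.A f) l) j (fun y => X (rcqP Q.b f0 y)) z0 =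
      P157.Rec π.m (fun l => ((P157.gw √(Q.dh π l)).prod (P157.gw √(π.dc (Q.A f0) l))).prod
        (rcqSg j l)) X (π.r + 2) 0 ((0, 0), z0) := by
  have hq : Measurable (rcqP Q.b f0) := by
    show Measurable fun y : (F → ℝ) × ℝ => ((∑ f, -Q.b f * y.1 f, y.1 f0), y.2)
    fun_prop
  have hs : ∀ l : ℕ, Measurable fun s : Bool => if l = j then spin s else 0 := fun l =>
    measurable_of_countable _
  have hφ : ∀ l, Measurable fun w : (F → ℝ) × Bool =>
      ((fun f => √(π.dc (Q.A f) l) * w.1 f, if l = j then spin w.2 else 0) : (F → ℝ) × ℝ) :=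
    fun l => Measurable.prodMk (by fun_prop) ((hs l).comp measurable_snd)
  have hρ : ∀ l < π.r + 2, (((gam F).prod unifB).map fun w : (F → ℝ) × Bool =>
      ((fun f => √(π.dc (Q.A f) l) * w.1 f, if l = j then spin w.2 else 0) : (F → ℝ) × ℝ)).map
        (rcqP Q.b f0) =
      ((P157.gw √(Q.dh π l)).prod (P157.gw √(π.dc (Q.A f0) l))).prod (rcqSg j l) := fun l hl => by
    have h1 := rcq_indep (t := fun f => -Q.b f * √(π.dc (Q.A f) l)) (f0 := f0) (by simp [h0])
      √(π.dc (Q.A f0) l)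
    rw [rcq_var π Q (by omega)] at h1
    rw [Measure.map_map hq (hφ l), ← h1, rcqSg, Measure.map_prod_map _ _ (by fun_prop) (hs l)]
    congr 1
    funext w
    simp only [rcqP, Function.comp, Prod.map, mul_assoc]
    rfl
  have h1 := rc_eq_Rec π.m ((gam F).prod unifB) hφ (hX.meas.comp hq) 0 (π.r + 2)
  refine (congrFun h1 (0, z0)).trans ((P157.Rec_map (rcqP Q.b f0) hq hX (fun l _ hl =>
    ⟨π.m_nonneg l, π.m_le_one l, ?_⟩) _).trans ?_)
  · beta_reduce
    rw [hρ l (by omega)]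
    exact ((P157.expM_gw _).prod (P157.expM_gw _)).prod (rcq_expM j l)
  · rw [P157.Rec_congr (m' := π.m) (j' := 0) (ρ' := fun l => ((P157.gw √(Q.dh π l)).prod
      (P157.gw √(π.dc (Q.A f0) l))).prod (rcqSg j l)) fun l hl => ⟨rfl, hρ (0 + l) (by omega)⟩]
    simp [rcqP]

lemma rcq_y {f0 : F} (h0 : Q.b f0 = 0) {U : ℝ → ℝ} (hU : Measurable U) {B : ℝ} (hB : 0 < B)
    (hb : ∀ y, |U y| ≤ B) (j : ℕ) (z0 : ℝ) : ∃ c : ℝ, ∀ θ : ℝ, |θ| ≤ B⁻¹ →
    |RC2 π Q.q (fun y _ => U (y f0)) j θ z0 - RC2 π Q.q (fun y _ => U (y f0)) j 0 z0 -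
      θ * (P157.Tl π.m (fun l => P157.gw √(π.dc (Q.A f0) l)) (fun _ => 0) U (π.r + 1 + 1) 0 0 *
        P157.Tl π.m (rcqSg j) (fun _ => 0) (fun z => clip 1 (z0 + z)) (π.r + 1 + 1) 0 0) -
      θ ^ 2 / 2 * (P157.E2 π.m (fun l => P157.gw √(π.dc (Q.A f0) l)) (fun _ => 0) U (π.r + 1)
          (π.r + 1) * P157.E2 π.m (rcqSg j) (fun _ => 0) (fun z => clip 1 (z0 + z)) (π.r + 1)
          (π.r + 1) - ∑ i ∈ Icc 0 (π.r + 1), (π.m (i + 1) - π.m i) *
        (P157.E2 π.m (fun l => P157.gw √(π.dc (Q.A f0) l)) (fun _ => 0) U (π.r + 1) i *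
          P157.E2 π.m (rcqSg j) (fun _ => 0) (fun z => clip 1 (z0 + z)) (π.r + 1) i))| ≤
      c * |θ| ^ 3 := by
  have hc := (continuous_clip 1).measurable
  have hX : P157.Env (fun h => Real.log (Real.cosh h) + -Q.c / 2) 1 :=
    (P157.Env.of_lip Real.continuous_cosh.measurable.log zero_le_one logcosh_lip).add_const _
  obtain ⟨c, h⟩ := rcq_expand π.m_nonneg π.m_le_one π.m_zero (π.m_top (π.r + 1 + 1) (by omega))
    (fun l => P157.expM_gw √(Q.dh π l)) (fun l => P157.expM_gw √(π.dc (Q.A f0) l)) (rcq_expM j)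
    hX hU hB hb (W := fun z => clip 1 (z0 + z)) (hc.comp (measurable_const_add z0))
    fun _ => abs_clip_le zero_le_one _
  have e : ∀ θ, RC2 π Q.q (fun y _ => U (y f0)) j θ z0 = ∑ f, π.ell (Q.A f) +
      P157.Rec π.m (fun l => ((P157.gw √(Q.dh π l)).prod (P157.gw √(π.dc (Q.A f0) l))).prod
        (rcqSg j l)) (fun y => Real.log (Real.cosh y.1.1) + -Q.c / 2 +
          θ * (U y.1.2 * clip 1 (z0 + y.2))) (π.r + 1 + 1) 0 0 := fun θ => by
    have hE := ((hX.comp (q := fun y : (ℝ × ℝ) × ℝ => y.1.1) (by fun_prop) le_rfl fun y y' => by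
      rw [one_mul]
      exact (norm_fst_le (y - y').1).trans (norm_fst_le (y - y'))).add
      ((P157.Env.of_bdd (φ := fun y : (ℝ × ℝ) × ℝ => U y.1.2 * clip 1 y.2) (b := B * 1)
        (by fun_prop) fun y => by
          rw [abs_mul]
          exact mul_le_mul (hb _) (abs_clip_le zero_le_one _) (abs_nonneg _) hB.le).const_mul θ))
    have h1 := rcq_three π Q h0 j hE z0
    rw [← add_zero (((0, 0), z0) : (ℝ × ℝ) × ℝ), ← rcq_shift] at h1
    simp only [Prod.fst_add, Prod.snd_add, zero_add] at h1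
    rw [rcq_qt π Q (V := fun y _ => U (y f0)) (fun _ => hU.comp (measurable_pi_apply f0))
      fun _ _ => hb _, ← h1]
    simp only [sub_self, zero_div, zero_mul, mul_zero, add_zero, add_self_div_two,
      add_comm (-Q.c / 2)]
    rfl
  refine ⟨c, fun θ hθ => ?_⟩
  rw [e, e, add_sub_add_left_eq_sub]
  exact h θ hθ

theorem RC2_zero (V : (F → ℝ) → Bool → ℝ) (j : ℕ) (z0 : ℝ) : RC2 π Q.q V j 0 z0 = Q.X π := by
  have e : RC2 π Q.q V j 0 z0 = RC2 π Q.q Ve j 0 z0 := by simp only [RC2, zero_mul]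
  rw [e, rcq_Ve π Q (Or.inl rfl), rcq_rad0, Quad.X]


theorem RC2_Ve {j : ℕ} (hj : j ≤ π.r) (θ : ℝ) :
    RC2 π Q.q Ve j θ 0 = ∑ f, π.ell (Q.A f) - Q.c / 2 + parisiRad π.m (Q.dh π) π.r j θ +
      Q.dh π (π.r + 1) / 2 := by
  exact rcq_Ve π Q (Or.inr ⟨hj, rfl⟩)


theorem RC2_first {f0 : F} (h0 : Q.b f0 = 0) {M : ℝ} (hM : 0 ≤ M) :
    Tendsto (fun θ => (RC2 π Q.q (Vy2 M f0) (π.r + 2) θ 1 - RC2 π Q.q (Vy2 M f0) (π.r + 2) 0 1) / θ)
      (𝓝[>] 0) (𝓝 (rho M (π.cc (Q.A f0) (π.r + 1)) (π.cc (Q.A f0) (π.r + 1)))) := by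
  have hU : Measurable fun y => clip M y ^ 2 := (continuous_clip M).measurable.pow_const 2
  have hb : ∀ y, |clip M y ^ 2| ≤ M ^ 2 + 1 := fun y =>
    (P157.abs_sq_le_of_bdd (abs_clip_le hM) y).trans (by linarith)
  obtain ⟨c, hc⟩ := rcq_y π Q h0 hU (by positivity) hb (π.r + 2) 1
  have hd := π.cc_nonneg (Q.A_nonneg f0) le_rfl
  rw [rcq_Tl_gauss π.m_nonneg π.m_le_one hU hb _ _ fun l hl =>
      π.dc_nonneg (Q.A_nonneg f0) (by omega),
    rcq_Tl_sign π.m_nonneg π.m_le_one (W := fun z => clip 1 (1 + z))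
      ((continuous_clip 1).measurable.comp (measurable_const_add 1)), if_neg (by omega),
    zero_add, ← Finset.range_eq_Ico, P157.gw,
    integral_map (f := fun η => clip M (0 + η) ^ 2) (measurable_const_mul _).aemeasurable
      (hU.comp (measurable_const_add 0)).aestronglyMeasurable] at hc
  have e : clip 1 (1 + 0) = 1 := by norm_num [clip]
  simp only [zero_add, e, mul_one] at hc
  rw [rho_self hd]
  exact rcq_lim1 (G := fun θ => RC2 π Q.q (Vy2 M f0) (π.r + 2) θ 1) (by positivity) hc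


theorem RC2_second {f0 : F} (h0 : Q.b f0 = 0) {M : ℝ} (hM : 0 ≤ M) {j : ℕ} (hj : j ≤ π.r + 1) :
    Tendsto (fun θ => 2 / θ ^ 2 * (RC2 π Q.q (Vy M f0) j θ 0 - RC2 π Q.q (Vy M f0) j 0 0))
      (𝓝[>] 0) (𝓝 (rho M (π.cc (Q.A f0) (π.r + 1)) (π.cc (Q.A f0) (π.r + 1)) -
        tail π.r π.m (fun i => rho M (π.cc (Q.A f0) i) (π.cc (Q.A f0) (π.r + 1))) j)) := by
  have hU := (continuous_clip M).measurable
  have hb : ∀ y, |clip M y| ≤ M + 1 := fun y => (abs_clip_le hM y).trans (by linarith)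
  obtain ⟨c, hc⟩ := rcq_y π Q h0 hU (by positivity) hb j 0
  have hE : ∀ i ≤ π.r + 1, P157.E2 π.m (fun l => P157.gw √(π.dc (Q.A f0) l)) (fun _ => 0) (clip M)
      (π.r + 1) i * P157.E2 π.m (rcqSg j) (fun _ => 0) (fun z => clip 1 (0 + z)) (π.r + 1) i =
      if j ≤ i then rho M (π.cc (Q.A f0) i) (π.cc (Q.A f0) (π.r + 1)) else 0 := fun i hi => by
    rw [rcq_E2_gauss π.m_nonneg π.m_le_one hU hb hi fun l hl => π.dc_nonneg (Q.A_nonneg f0) hl,
      rcq_E2_sign π.m_nonneg π.m_le_one hj hi, rcq_rho hM, mul_ite, mul_one, mul_zero]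
    rfl
  have e : (clip 1 (0 + (0 + 1)) + clip 1 (0 + (0 + -1))) / 2 = 0 := by norm_num [clip]
  have e2 : ∑ i ∈ Icc 0 (π.r + 1), (π.m (i + 1) - π.m i) *
      (P157.E2 π.m (fun l => P157.gw √(π.dc (Q.A f0) l)) (fun _ => 0) (clip M) (π.r + 1) i *
        P157.E2 π.m (rcqSg j) (fun _ => 0) (fun z => clip 1 (0 + z)) (π.r + 1) i) =
      tail π.r π.m (fun i => rho M (π.cc (Q.A f0) i) (π.cc (Q.A f0) (π.r + 1))) j := by
    rw [← Nat.range_succ_eq_Icc_zero, Finset.sum_range_succ, π.m_top (π.r + 1 + 1) (by omega),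
      π.m_top (π.r + 1) (by omega), sub_self, zero_mul, add_zero,
      Finset.sum_congr rfl fun i hi => by rw [hE i (mem_range.1 hi).le, mul_ite, mul_zero],
      ← Finset.sum_filter, tail]
    refine Finset.sum_congr ?_ fun _ _ => rfl
    ext i
    simp only [mem_filter, mem_range, mem_Ico, and_comm]
  rw [rcq_Tl_sign π.m_nonneg π.m_le_one (W := fun z => clip 1 (0 + z))
      ((continuous_clip 1).measurable.comp (measurable_const_add 0)), if_pos (by omega), e, e2,
    hE _ le_rfl, if_pos hj] at hc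
  simp only [mul_zero, sub_zero] at hc
  exact rcq_lim2 (G := fun θ => RC2 π Q.q (Vy M f0) j θ 0) (by positivity) hc


end

end Vale.Agent.P166
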