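import Vale.Agent.P166.Ev
import Vale.Agent.P166.Cq0
import Vale.Agent.P166.RcQ

/-! P166 Eq: values of the quadratic cavity functionals in terms of the discretised path.
Plan. cqX: cq1 with V = 0 and RC2_zero. cqY3: cq3 and RC2_first. cqY2: cq2, RC2_second and cqY3 (Vy2 is the square of Vy). cqE: cq2 with RC2_Ve, RC2_zero, IsOv.expn; cav3 of Ve^2 = 1 equals 1 (Vq q 1 = Wq q).
eq1, eq3, eq2y, eq2e: ev1, ev3, ev2 with exists_goodCas (pi.mok), abs_rho_sub_le with Dm = rho (cc <= t (r+1) = rho d <= rho), the weights m (i+1) - m i are nonnegative with sum <= 1. -/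

open MeasureTheory ProbabilityTheory Filter Topology Matrix Finset

namespace Vale.Agent.P166

noncomputable section

variable {F : Type} [Fintype F] (Q : Quad F)

lemma vok_Vy {M : ℝ} (hM : 0 ≤ M) (f : F) : VOk (Vy M f) M :=
  ⟨fun _ => (continuous_clip M).comp (continuous_apply f), fun y _ => abs_clip_le hM (y f)⟩
lemma vok_Vy2 {M : ℝ} (hM : 0 ≤ M) (f : F) : VOk (Vy2 M f) (M ^ 2) :=
  ⟨fun _ => ((continuous_clip M).comp (continuous_apply f)).pow 2, fun y _ => by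
    rw [Vy2, abs_pow]
    exact pow_le_pow_left₀ (abs_nonneg _) (abs_clip_le hM (y f)) 2⟩
lemma vok_Ve : VOk (Ve : (F → ℝ) → Bool → ℝ) 1 :=
  ⟨fun _ => continuous_const, fun _ ε => (abs_spin ε).le⟩

lemma eq_cav3_one {r : ℕ} (X : YS r F) (q : (F → ℝ) → Bool → ℝ) :
    X.cav3 q (fun y ε => Ve y ε ^ 2) = 1 := by
  have h : Vq q (fun y ε => Ve y ε ^ 2) = Wq q := by
    funext y
    simp only [Vq, Wq, Ve, spin_sq, one_mul]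
  have h1 : ∀ ω, av1 (X.H ω) (fun s => Wq q (X.y ω s)) / av1 (X.H ω) (fun s => Wq q (X.y ω s))
      = 1 := fun ω => div_self (av1_pos _ fun _ => Wq_pos _ _).ne'
  simp only [YS.cav3, h, h1]
  simp

lemma eq_tail_sub (π : Path) {p p' : ℕ → ℝ} {B : ℝ} (hB : 0 ≤ B)
    (h : ∀ i ≤ π.r, |p i - p' i| ≤ B) {j : ℕ} (hj : j ≤ π.r + 1) :
    |tail π.r π.m p j - tail π.r π.m p' j| ≤ B := by
  rw [tail, tail, ← Finset.sum_sub_distrib]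
  refine (Finset.abs_sum_le_sum_abs _ _).trans ((Finset.sum_le_sum
    (g := fun i => (π.m (i + 1) - π.m i) * B) fun i hi => ?_).trans ?_)
  · rw [← mul_sub, abs_mul, abs_of_nonneg (sub_nonneg.2 (π.m_mono i))]
    exact mul_le_mul_of_nonneg_left (h i (Nat.le_of_lt_succ (Finset.mem_Ico.1 hi).2))
      (sub_nonneg.2 (π.m_mono i))
  · rw [← Finset.sum_mul, Finset.sum_Ico_sub π.m hj]
    have h1 := π.m_le_one (π.r + 1)
    have h2 := π.m_nonneg j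
    nlinarith

section cascade

variable {π : Path} {b : ℕ → ℕ → ℕ} {P : ℕ → Pr}

theorem cqX (hc : GoodCas (π.r + 1) π.m b P) :
    Tendsto (fun i => (casYS F π (b i) (P i)).cav1 Q.q) (hyperfilter ℕ) (𝓝 (Q.X π)) := by
  obtain ⟨C, hq⟩ := Q.qok
  have h := cq1 hc hq vok_Ve 0 0
  rwa [RC2_zero] at h

theorem cqY3 (hc : GoodCas (π.r + 1) π.m b P) {f0 : F} (h0 : Q.b f0 = 0) {M : ℝ} (hM : 0 ≤ M) :
    Tendsto (fun i => (casYS F π (b i) (P i)).cav3 Q.q (Vy2 M f0)) (hyperfilter ℕ)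
      (𝓝 (rho M (π.cc (Q.A f0) (π.r + 1)) (π.cc (Q.A f0) (π.r + 1)))) := by
  obtain ⟨C, hq⟩ := Q.qok
  exact cq3 hc hq (vok_Vy2 hM f0) (RC2_first π Q h0 hM)

theorem cqY2 (hc : GoodCas (π.r + 1) π.m b P) {f0 : F} (h0 : Q.b f0 = 0) {M : ℝ} (hM : 0 ≤ M)
    {j : ℕ} (hj : j ≤ π.r + 1) :
    Tendsto (fun i => (casYS F π (b i) (P i)).cav2 Q.q (Vy M f0) (indL j)) (hyperfilter ℕ)
      (𝓝 (tail π.r π.m (fun i => rho M (π.cc (Q.A f0) i) (π.cc (Q.A f0) (π.r + 1))) j)) := by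
  obtain ⟨C, hq⟩ := Q.qok
  have h := (cqY3 Q hc h0 hM).sub (cq2 hc hq (vok_Vy hM f0) hj (RC2_second π Q h0 hM hj))
  rw [sub_sub_cancel] at h
  exact h.congr fun i => sub_sub_cancel _ _

theorem cqE (hc : GoodCas (π.r + 1) π.m b P) {Pv : ℕ → ℝ} (h : IsOv π.r π.m (Q.dh π) Pv) {j : ℕ}
    (hj : j ≤ π.r) :
    Tendsto (fun i => (casYS F π (b i) (P i)).cav2 Q.q Ve (indL j)) (hyperfilter ℕ)
      (𝓝 (tail π.r π.m Pv j)) := by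
  obtain ⟨C, hq⟩ := Q.qok
  have h1 : Tendsto (fun θ => 2 / θ ^ 2 * (RC2 π Q.q Ve j θ 0 - RC2 π Q.q Ve j 0 0)) (𝓝[>] 0)
      (𝓝 (1 - tail π.r π.m Pv j)) := (h.expn j hj).congr fun θ => by
    rw [RC2_zero, RC2_Ve π Q hj, Quad.X]
    ring
  have h2 := (tendsto_const_nhds (x := (1 : ℝ))).sub
    (cq2 hc hq vok_Ve (hj.trans (Nat.le_succ _)) h1)
  rw [sub_sub_cancel] at h2
  exact h2.congr fun i => by rw [eq_cav3_one, sub_sub_cancel]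

end cascade

variable {r : ℕ} {X : ℕ → Cav r F} {G : GGA (VV r)} {ϱ d : ℝ}

omit [Fintype F] in
lemma eq_top_le (h : IsLim X G ϱ d) {n : ℕ} {π : Path} {lab : VV r → ℕ}
    (hD : Disc G ϱ d n π lab) : π.t (π.r + 1) ≤ ϱ := by
  obtain ⟨A, hA⟩ := (h.gT.diag 1).exists
  have h1 : d ≤ 1 := (hA 0).symm.le.trans (A 0 0).1.2.2
  rw [hD.top]
  exact mul_le_of_le_one_right h.pos.le h1

lemma eq_rho (h : IsLim X G ϱ d) {n : ℕ} {π : Path} {lab : VV r → ℕ} (hD : Disc G ϱ d n π lab)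
    (f0 : F) {M : ℝ} (hM : 0 < M) {i : ℕ} (hi : i ≤ π.r + 1) :
    |rho M (π.cc (Q.A f0) i) (π.cc (Q.A f0) (π.r + 1)) - π.cc (Q.A f0) i| ≤
      4 * (1 + ϱ) ^ 2 / M :=
  abs_rho_sub_le hM (π.cc_nonneg (Q.A_nonneg f0) hi) (π.cc_mono (Q.A_nonneg f0) hi le_rfl)
    ((π.cc_le (Q.A_nonneg f0) le_rfl).trans (eq_top_le h hD))

theorem eq1 (h : IsLim X G ϱ d) {e : ℝ} (he : 0 < e) :
    ∃ n0 : ℕ, ∀ n ≥ n0, ∀ (π : Path) (lab : VV r → ℕ), Disc G ϱ d n π lab →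
      ∀ᶠ i in hyperfilter ℕ, |(X i).ys.cav1 Q.q - Q.X π| ≤ e := by
  obtain ⟨C, hq⟩ := Q.qok
  obtain ⟨n0, h1⟩ := ev1 h hq he
  refine ⟨n0, fun n hn π lab hD => ?_⟩
  obtain ⟨b, P, hc⟩ := exists_goodCas π.mok
  exact h1 n hn π lab hD b P hc _ (cqX Q hc)

theorem eq3 (h : IsLim X G ϱ d) {f0 : F} (h0 : Q.b f0 = 0) {M : ℝ} (hM : 0 < M) {e : ℝ}
    (he : 0 < e) : ∃ n0 : ℕ, ∀ n ≥ n0, ∀ (π : Path) (lab : VV r → ℕ), Disc G ϱ d n π lab →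
      ∀ᶠ i in hyperfilter ℕ, |(X i).ys.cav3 Q.q (Vy2 M f0) - π.cc (Q.A f0) (π.r + 1)| ≤
        e + 4 * (1 + ϱ) ^ 2 / M := by
  obtain ⟨C, hq⟩ := Q.qok
  obtain ⟨n0, h1⟩ := ev3 h hq (vok_Vy2 hM.le f0) he
  refine ⟨n0, fun n hn π lab hD => ?_⟩
  obtain ⟨b, P, hc⟩ := exists_goodCas π.mok
  filter_upwards [h1 n hn π lab hD b P hc _ (cqY3 Q hc h0 hM.le)] with i hi
  exact (abs_sub_le _ _ _).trans (add_le_add hi (eq_rho Q h hD f0 hM le_rfl))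

theorem eq2y (h : IsLim X G ϱ d) {f0 : F} (h0 : Q.b f0 = 0) {M : ℝ} (hM : 0 < M) {e : ℝ}
    (he : 0 < e) : ∃ (Λ : (VV r → ℝ) → ℝ) (C : ℝ) (n0 : ℕ),
      (∀ f, Continuous f → (∀ v, |f v| ≤ 1) →
        ∀ᶠ i in hyperfilter ℕ, |(X i).ys.cav2 Q.q (Vy M f0) f - Λ f| ≤ e) ∧
      (∀ f f', Measurable f → Measurable f' → (∀ v, |f v| ≤ 1) → (∀ v, |f' v| ≤ 1) →
        |Λ f - Λ f'| ≤ C * ∫ v, |f v - f' v| ∂G.zeta) ∧
      ∀ n ≥ n0, ∀ (π : Path) (lab : VV r → ℕ), Disc G ϱ d n π lab → ∀ j ≤ π.r + 1,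
        |Λ (fun v => if j ≤ lab v then 1 else 0) - tail π.r π.m (π.cc (Q.A f0)) j| ≤
          e + 4 * (1 + ϱ) ^ 2 / M := by
  obtain ⟨C, hq⟩ := Q.qok
  obtain ⟨Λ, C', n0, h1, h2, h3⟩ := ev2 h hq (vok_Vy hM.le f0) he
  refine ⟨Λ, C', n0, h1, h2, fun n hn π lab hD j hj => ?_⟩
  obtain ⟨b, P, hc⟩ := exists_goodCas π.mok
  exact (abs_sub_le _ _ _).trans (add_le_add (h3 n hn π lab hD b P hc j _ (cqY2 Q hc h0 hM.le hj))
    (eq_tail_sub π (by positivity) (fun i hi => eq_rho Q h hD f0 hM (hi.trans (Nat.le_succ _))) hj))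

theorem eq2e (h : IsLim X G ϱ d) {e : ℝ} (he : 0 < e) :
    ∃ (Λ : (VV r → ℝ) → ℝ) (C : ℝ) (n0 : ℕ),
      (∀ f, Continuous f → (∀ v, |f v| ≤ 1) →
        ∀ᶠ i in hyperfilter ℕ, |(X i).ys.cav2 Q.q Ve f - Λ f| ≤ e) ∧
      (∀ f f', Measurable f → Measurable f' → (∀ v, |f v| ≤ 1) → (∀ v, |f' v| ≤ 1) →
        |Λ f - Λ f'| ≤ C * ∫ v, |f v - f' v| ∂G.zeta) ∧
      ∀ n ≥ n0, ∀ (π : Path) (lab : VV r → ℕ), Disc G ϱ d n π lab →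
        ∀ Pv : ℕ → ℝ, IsOv π.r π.m (Q.dh π) Pv → ∀ j ≤ π.r,
          |Λ (fun v => if j ≤ lab v then 1 else 0) - tail π.r π.m Pv j| ≤ e := by
  obtain ⟨C, hq⟩ := Q.qok
  obtain ⟨Λ, C', n0, h1, h2, h3⟩ := ev2 h hq vok_Ve he
  refine ⟨Λ, C', n0, h1, h2, fun n hn π lab hD Pv hP j hj => ?_⟩
  obtain ⟨b, P, hc⟩ := exists_goodCas π.mok
  exact h3 n hn π lab hD b P hc j _ (cqE Q hc hP hj)

end

end Vale.Agent.P166
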