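import Vale.Agent.P166.Gauss

/-! P166 Es1: Efron-Stein inequality on a product space.
Plan: induction on the number of coordinates (Fin (n+1) with measurePreserving_piFinSuccAbove, or Finset induction with marginal integrals). On a product X x Y:
Var f = E_y Var_x f + Var_y (E_x f); E_y Var_x f <= E (f - f0)^2 when f0 does not depend on x; for g = E_x f use the induction hypothesis with g_j = E_x f_j and Jensen (E_x (f - f_j))^2 <= E_x (f - f_j)^2.
All functions are bounded and measurable. -/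

open MeasureTheory ProbabilityTheory Filter Topology Matrix Finset

namespace Vale.Agent.P166

noncomputable section

lemma es1_int {X : Type*} [MeasurableSpace X] (ν : Measure X) [IsProbabilityMeasure ν]
    {φ : X → ℝ} (hφ : Measurable φ) {C : ℝ} (b : ∀ x, |φ x| ≤ C) : Integrable φ ν :=
  Integrable.of_bound hφ.aestronglyMeasurable C (ae_of_all _ b)

lemma es1_abs_int {X : Type*} [MeasurableSpace X] (ν : Measure X) [IsProbabilityMeasure ν]
    {φ : X → ℝ} {C : ℝ} (b : ∀ x, |φ x| ≤ C) : |∫ x, φ x ∂ν| ≤ C := by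
  have := norm_integral_le_of_norm_le_const (μ := ν) (f := φ) (C := C) (ae_of_all _ b)
  simpa using this

lemma es1_sq_bd {u v C D : ℝ} (hu : |u| ≤ C) (hv : |v| ≤ D) : |(u - v) ^ 2| ≤ (C + D) ^ 2 := by
  rw [abs_pow]
  exact pow_le_pow_left₀ (abs_nonneg _) ((abs_sub u v).trans (add_le_add hu hv)) 2

lemma es1_split {X : Type*} [MeasurableSpace X] (ν : Measure X) [IsProbabilityMeasure ν]
    {φ : X → ℝ} (hφ : Measurable φ) {C : ℝ} (b : ∀ x, |φ x| ≤ C) (c : ℝ) :
    ∫ x, (φ x - c) ^ 2 ∂ν = ∫ x, φ x ^ 2 ∂ν - 2 * c * ∫ x, φ x ∂ν + c ^ 2 := by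
  have i1 := es1_int ν hφ b
  have i2 : Integrable (fun x => φ x ^ 2) ν :=
    es1_int ν (hφ.pow_const 2) (C := C ^ 2) fun x => by
      rw [abs_pow]; exact pow_le_pow_left₀ (abs_nonneg _) (b x) 2
  have e : (fun x => (φ x - c) ^ 2) = fun x => (φ x ^ 2 - 2 * c * φ x) + c ^ 2 := by
    funext x; ring
  have i3 : Integrable (fun x => φ x ^ 2 - 2 * c * φ x) ν := i2.sub (i1.const_mul _)
  rw [e, integral_add i3 (integrable_const _),
    integral_sub i2 (i1.const_mul _), integral_const_mul]
  simp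

lemma es1_one {X : Type*} [MeasurableSpace X] (ν : Measure X) [IsProbabilityMeasure ν]
    {φ : X → ℝ} (hφ : Measurable φ) {C : ℝ} (b : ∀ x, |φ x| ≤ C) (c m : ℝ) :
    ∫ x, (φ x - m) ^ 2 ∂ν ≤ ∫ x, (φ x - c) ^ 2 ∂ν + (∫ x, φ x ∂ν - m) ^ 2 := by
  rw [es1_split ν hφ b, es1_split ν hφ b]
  nlinarith [sq_nonneg (∫ x, φ x ∂ν - c)]

lemma es1_jensen {X : Type*} [MeasurableSpace X] (ν : Measure X) [IsProbabilityMeasure ν]
    {φ : X → ℝ} (hφ : Measurable φ) {C : ℝ} (b : ∀ x, |φ x| ≤ C) :
    (∫ x, φ x ∂ν) ^ 2 ≤ ∫ x, φ x ^ 2 ∂ν := by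
  have h := es1_split ν hφ b (∫ x, φ x ∂ν)
  have h0 : 0 ≤ ∫ x, (φ x - ∫ x, φ x ∂ν) ^ 2 ∂ν := integral_nonneg fun x => sq_nonneg _
  nlinarith

lemma es1_meas_cons {n : ℕ} {A : Type} [MeasurableSpace A] :
    Measurable fun p : (Fin n → A) × A => (Fin.cons p.2 p.1 : Fin (n + 1) → A) := by
  refine measurable_pi_iff.2 fun i => ?_
  refine Fin.cases ?_ (fun i => ?_) i
  · simpa using measurable_snd
  · simp only [Fin.cons_succ]
    exact (measurable_pi_apply i).comp measurable_fst

lemma es1_cons {n : ℕ} {A : Type} [MeasurableSpace A] (μ : Measure A) [IsProbabilityMeasure μ]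
    {F : (Fin (n + 1) → A) → ℝ} (hF : Measurable F) {C : ℝ} (b : ∀ x, |F x| ≤ C) :
    ∫ x, F x ∂(Measure.pi fun _ => μ) =
      ∫ y : Fin n → A, ∫ a, F (Fin.cons a y) ∂μ ∂(Measure.pi fun _ => μ) := by
  have h := (measurePreserving_piFinSuccAbove (fun _ : Fin (n + 1) => μ) 0).symm
  rw [← h.integral_comp', integral_prod_symm]
  · refine integral_congr_ae (ae_of_all _ fun y => integral_congr_ae (ae_of_all _ fun a => ?_))
    simp [MeasurableEquiv.piFinSuccAbove, Fin.insertNthEquiv]
  · exact es1_int _ (hF.comp (MeasurableEquiv.measurable _)) fun p => b _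

lemma es1_meas_int {n : ℕ} {A : Type} [MeasurableSpace A] (μ : Measure A)
    [IsProbabilityMeasure μ] {F : (Fin (n + 1) → A) → ℝ} (hF : Measurable F) :
    Measurable fun y : Fin n → A => ∫ a, F (Fin.cons a y) ∂μ :=
  ((hF.comp es1_meas_cons).stronglyMeasurable.integral_prod_right' (ν := μ)).measurable

theorem efron_stein {n : ℕ} {A : Type} [MeasurableSpace A] (μ : Measure A) [IsProbabilityMeasure μ]
    {f : (Fin n → A) → ℝ} {g : Fin n → (Fin n → A) → ℝ} (hf : Measurable f)
    (hg : ∀ j, Measurable (g j)) {B : ℝ} (bf : ∀ x, |f x| ≤ B) (bg : ∀ j x, |g j x| ≤ B)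
    (hi : ∀ j x a, g j (Function.update x j a) = g j x) :
    ∫ x, (f x - ∫ y, f y ∂(Measure.pi fun _ => μ)) ^ 2 ∂(Measure.pi fun _ => μ) ≤
      ∑ j, ∫ x, (f x - g j x) ^ 2 ∂(Measure.pi fun _ => μ) := by
  induction n with
  | zero =>
    have e : ∀ x, f x - ∫ y, f y ∂(Measure.pi fun _ => μ) = 0 := by
      intro x
      have : f = fun _ => f x := funext fun y => congrArg f (Subsingleton.elim _ _)
      rw [this]; simp
    simp [e]
  | succ n ih =>
    obtain ⟨a0⟩ := nonempty_of_isProbabilityMeasure μ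
    have mc : ∀ y : Fin n → A, Measurable fun a : A => (Fin.cons a y : Fin (n + 1) → A) :=
      fun y => es1_meas_cons.comp (measurable_const.prodMk measurable_id)
    set m := ∫ y, f y ∂(Measure.pi fun _ => μ) with hm
    have bm : |m| ≤ B := es1_abs_int _ bf
    let h : (Fin n → A) → ℝ := fun y => ∫ a, f (Fin.cons a y) ∂μ
    let k : Fin n → (Fin n → A) → ℝ := fun j y => ∫ a, g j.succ (Fin.cons a y) ∂μ
    have mh : Measurable h := es1_meas_int μ hf
    have mk : ∀ j, Measurable (k j) := fun j => es1_meas_int μ (hg j.succ)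
    have bh : ∀ y, |h y| ≤ B := fun y => es1_abs_int _ fun a => bf _
    have bk : ∀ j y, |k j y| ≤ B := fun j y => es1_abs_int _ fun a => bg _ _
    have hk : ∀ j y a, k j (Function.update y j a) = k j y := by
      intro j y a
      simp only [k, Fin.cons_update, hi]
    have IH := ih mh mk bh bk hk
    have em : ∫ y, h y ∂(Measure.pi fun _ => μ) = m := (es1_cons μ hf bf).symm
    rw [em] at IH
    have md : ∀ j, Measurable fun x => (f x - g j x) ^ 2 := fun j => (hf.sub (hg j)).pow_const 2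
    have bd : ∀ j x, |(f x - g j x) ^ 2| ≤ (B + B) ^ 2 := fun j x => es1_sq_bd (bf x) (bg j x)
    have id : ∀ j, Integrable (fun y : Fin n → A =>
        ∫ a, (f (Fin.cons a y) - g j (Fin.cons a y)) ^ 2 ∂μ) (Measure.pi fun _ => μ) :=
      fun j => es1_int _ (es1_meas_int μ (md j)) fun y => es1_abs_int _ fun a => bd j _
    have ih2 : Integrable (fun y => (h y - m) ^ 2) (Measure.pi fun _ => μ) :=
      es1_int _ ((mh.sub_const m).pow_const 2) fun y => es1_sq_bd (bh y) bm
    have s1 : ∫ x, (f x - m) ^ 2 ∂(Measure.pi fun _ => μ) ≤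
        ∫ x, (f x - g 0 x) ^ 2 ∂(Measure.pi fun _ => μ)
          + ∫ y, (h y - m) ^ 2 ∂(Measure.pi fun _ => μ) := by
      have m1 : Measurable fun x => (f x - m) ^ 2 := (hf.sub_const m).pow_const 2
      have b1 : ∀ x, |(f x - m) ^ 2| ≤ (B + B) ^ 2 := fun x => es1_sq_bd (bf x) bm
      rw [es1_cons μ m1 b1, es1_cons μ (md 0) (bd 0), ← integral_add (id 0) ih2]
      refine integral_mono (es1_int _ (es1_meas_int μ m1) fun y => es1_abs_int _ fun a => b1 _)
        ((id 0).add ih2) fun y => ?_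
      have e : ∀ a, g 0 (Fin.cons a y) = g 0 (Fin.cons a0 y) := by
        intro a
        rw [← hi 0 (Fin.cons a0 y) a, Fin.update_cons_zero]
      simp only [e]
      exact es1_one μ (hf.comp (mc y)) (fun a => bf _) _ m
    have s2 : ∀ j : Fin n, ∫ y, (h y - k j y) ^ 2 ∂(Measure.pi fun _ => μ) ≤
        ∫ x, (f x - g j.succ x) ^ 2 ∂(Measure.pi fun _ => μ) := by
      intro j
      rw [es1_cons μ (md j.succ) (bd j.succ)]
      refine integral_mono (es1_int _ ((mh.sub (mk j)).pow_const 2)
        fun y => es1_sq_bd (bh y) (bk j y)) (id j.succ) fun y => ?_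
      have e : h y - k j y = ∫ a, (f (Fin.cons a y) - g j.succ (Fin.cons a y)) ∂μ :=
        (integral_sub (es1_int _ (hf.comp (mc y)) fun a => bf _)
          (es1_int _ ((hg j.succ).comp (mc y)) fun a => bg _ _)).symm
      simp only [e]
      exact es1_jensen μ ((hf.comp (mc y)).sub ((hg j.succ).comp (mc y))) (C := B + B)
        fun a => (abs_sub _ _).trans (add_le_add (bf _) (bg _ _))
    rw [Fin.sum_univ_succ]
    have s3 := Finset.sum_le_sum fun j (_ : j ∈ Finset.univ) => s2 j
    linarith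

lemma es1_mp_update {n : ℕ} {A : Type} [MeasurableSpace A] (μ : Measure A)
    [IsProbabilityMeasure μ] (j : Fin n) :
    MeasurePreserving (fun p : (Fin n → A) × A => Function.update p.1 j p.2)
      ((Measure.pi fun _ => μ).prod μ) (Measure.pi fun _ => μ) := by
  have hm : Measurable fun p : (Fin n → A) × A => Function.update p.1 j p.2 := measurable_update'
  refine ⟨hm, (Measure.pi_eq fun s hs => ?_).symm⟩
  rw [Measure.map_apply hm (MeasurableSet.univ_pi hs)]
  have e : (fun p : (Fin n → A) × A => Function.update p.1 j p.2) ⁻¹' Set.univ.pi s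
      = (Set.univ.pi (Function.update s j Set.univ)) ×ˢ s j := by
    ext p
    simp only [Set.mem_preimage, Set.mem_pi, Set.mem_univ, true_imp_iff, Set.mem_prod]
    constructor
    · intro h
      refine ⟨fun i => ?_, by simpa using h j⟩
      by_cases hij : i = j
      · subst hij; simp
      · simpa [hij] using h i
    · rintro ⟨h1, h2⟩ i
      by_cases hij : i = j
      · subst hij; simpa using h2
      · simpa [hij] using h1 i
  rw [e, Measure.prod_prod, Measure.pi_pi, ← Finset.mul_prod_erase _ _ (Finset.mem_univ j),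
    ← Finset.mul_prod_erase _ (fun i => μ (s i)) (Finset.mem_univ j)]
  have e2 : ∏ i ∈ Finset.univ.erase j, μ (Function.update s j Set.univ i)
      = ∏ i ∈ Finset.univ.erase j, μ (s i) :=
    Finset.prod_congr rfl fun i hi => by rw [Function.update_of_ne (Finset.ne_of_mem_erase hi)]
  rw [e2, Function.update_self, measure_univ, one_mul, mul_comm]

/-- integrate out one coordinate -/
lemma integral_update {n : ℕ} {A : Type} [MeasurableSpace A] (μ : Measure A)
    [IsProbabilityMeasure μ] (j : Fin n) {f : (Fin n → A) → ℝ}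
    (hf : Integrable f (Measure.pi fun _ => μ)) :
    ∫ x, f x ∂(Measure.pi fun _ => μ) =
      ∫ x, ∫ a, f (Function.update x j a) ∂μ ∂(Measure.pi fun _ => μ) := by
  have h := es1_mp_update μ j
  have h2 := integral_map h.measurable.aemeasurable (f := f)
    (by rw [h.map_eq]; exact hf.aestronglyMeasurable)
  rw [h.map_eq] at h2
  rw [h2]
  exact integral_prod _ (h.integrable_comp_of_integrable hf)

end

end Vale.Agent.P166
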