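import Vale.Agent.P166.Inv

/-! P166 Es2: orthogonal projections onto spans of Gaussian vectors. -/

open MeasureTheory ProbabilityTheory Filter Topology Matrix Finset

namespace Vale.Agent.P166

noncomputable section

variable {ι : Type} [Fintype ι] [DecidableEq ι] {n : ℕ}

/-- orthogonal projection onto the span of the vectors `g k`, `k ∈ s` -/
def prj (g : Fin n → ι → ℝ) (s : Finset (Fin n)) : Matrix ι ι ℝ :=
  Matrix.of fun i j =>
    (Submodule.span ℝ ((fun k => (WithLp.toLp 2 (g k) : EuclideanSpace ℝ ι)) '' s)).starProjection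
      (EuclideanSpace.single j 1) i

/-- component of `x` orthogonal to the span -/
def res (g : Fin n → ι → ℝ) (s : Finset (Fin n)) (x : ι → ℝ) : ι → ℝ := x - prj g s *ᵥ x

/-- the first `k` indices -/
def lo (n k : ℕ) : Finset (Fin n) := univ.filter fun i => (i : ℕ) < k

/-- projection onto the first `k` of the rows `o i` of `U` -/
def rowP (o : Fin n ↪ ι) (U : Og ι) (k : ℕ) : Matrix ι ι ℝ :=
  ∑ i ∈ lo n k, Matrix.vecMulVec (U.1 (o i)) (U.1 (o i))

/-- the span in Euclidean space -/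
abbrev es2K (g : Fin n → ι → ℝ) (s : Finset (Fin n)) : Submodule ℝ (EuclideanSpace ℝ ι) :=
  Submodule.span ℝ ((fun k => (WithLp.toLp 2 (g k) : EuclideanSpace ℝ ι)) '' s)

omit [DecidableEq ι] in
lemma es2_inner (v w : ι → ℝ) :
    inner ℝ (WithLp.toLp 2 v : EuclideanSpace ℝ ι) (WithLp.toLp 2 w) = v ⬝ᵥ w := by
  rw [EuclideanSpace.inner_toLp_toLp, star_trivial, dotProduct_comm]

lemma es2_mulVec (g : Fin n → ι → ℝ) (s : Finset (Fin n)) (v : ι → ℝ) :
    (WithLp.toLp 2 (prj g s *ᵥ v) : EuclideanSpace ℝ ι) =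
      (es2K g s).starProjection (WithLp.toLp 2 v) := by
  have e : (WithLp.toLp 2 v : EuclideanSpace ℝ ι) = ∑ j, v j • EuclideanSpace.single j (1 : ℝ) := by
    ext i
    simp [Pi.single_apply]
  rw [e, map_sum]
  ext i
  simp only [prj, Matrix.mulVec, dotProduct, Matrix.of_apply, map_smul, WithLp.ofLp_sum,
    Finset.sum_apply, WithLp.ofLp_smul, Pi.smul_apply, smul_eq_mul]
  exact Finset.sum_congr rfl fun j _ => mul_comm _ _

lemma es2_nn {K : Type} [Fintype K] (v : K → ℝ) : 0 ≤ v ⬝ᵥ v :=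
  Finset.sum_nonneg fun _ _ => mul_self_nonneg _

omit [Fintype ι] [DecidableEq ι] in
lemma es2_mem_iff (g : Fin n → ι → ℝ) (s : Finset (Fin n)) (v : ι → ℝ) :
    (WithLp.toLp 2 v : EuclideanSpace ℝ ι) ∈ es2K g s ↔ v ∈ Submodule.span ℝ (g '' s) := by
  have e : es2K g s = (Submodule.span ℝ (g '' s)).map
      (WithLp.linearEquiv 2 ℝ (ι → ℝ)).symm.toLinearMap := by
    rw [Submodule.map_span, Set.image_image]
    rfl
  rw [e]
  exact Submodule.mem_map_equiv _

lemma es2_mem (g : Fin n → ι → ℝ) (s : Finset (Fin n)) (v : ι → ℝ) :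
    prj g s *ᵥ v ∈ Submodule.span ℝ (g '' s) := by
  rw [← es2_mem_iff, es2_mulVec]
  exact Submodule.starProjection_apply_mem _ _

lemma es2_orth {g : Fin n → ι → ℝ} {s : Finset (Fin n)} {w : ι → ℝ}
    (hw : w ∈ Submodule.span ℝ (g '' s)) (v : ι → ℝ) : w ⬝ᵥ res g s v = 0 := by
  rw [← es2_inner, res, WithLp.toLp_sub, es2_mulVec, real_inner_comm]
  exact Submodule.starProjection_inner_eq_zero _ _ ((es2_mem_iff g s w).2 hw)

omit [DecidableEq ι] in
lemma es2_span_orth {g : Fin n → ι → ℝ} {s : Finset (Fin n)} {z : ι → ℝ}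
    (h : ∀ k ∈ s, g k ⬝ᵥ z = 0) {w : ι → ℝ} (hw : w ∈ Submodule.span ℝ (g '' s)) :
    w ⬝ᵥ z = 0 := by
  induction hw using Submodule.span_induction with
  | mem x hx =>
    obtain ⟨k, hk, rfl⟩ := hx
    exact h k hk
  | zero => exact zero_dotProduct _
  | add x y _ _ hx hy => rw [add_dotProduct, hx, hy, add_zero]
  | smul c x _ hx => rw [smul_dotProduct, hx, smul_zero]

lemma es2_uniq {g : Fin n → ι → ℝ} {s : Finset (Fin n)} {u v : ι → ℝ}
    (hu : u ∈ Submodule.span ℝ (g '' s)) (h : ∀ k ∈ s, g k ⬝ᵥ (v - u) = 0) :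
    prj g s *ᵥ v = u := by
  have hd := Submodule.sub_mem _ (es2_mem g s v) hu
  have h1 := es2_span_orth h hd
  have h2 := es2_orth hd v
  have e : prj g s *ᵥ v - u = (v - u) - res g s v := by
    unfold res
    abel
  rw [← sub_eq_zero, ← dotProduct_self_eq_zero]
  conv_lhs => rw [e, dotProduct_sub, ← e, h1, h2, sub_zero]

omit [Fintype ι] [DecidableEq ι] in
lemma es2_gen (g : Fin n → ι → ℝ) {s : Finset (Fin n)} {k : Fin n} (hk : k ∈ s) :
    g k ∈ Submodule.span ℝ (g '' s) := Submodule.subset_span ⟨k, hk, rfl⟩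

lemma es2_split (g : Fin n → ι → ℝ) (s : Finset (Fin n)) (v : ι → ℝ) :
    v = prj g s *ᵥ v + res g s v := by
  unfold res
  abel

lemma es2_dot (g : Fin n → ι → ℝ) (s : Finset (Fin n)) (v w : ι → ℝ) :
    v ⬝ᵥ (prj g s *ᵥ w) = (prj g s *ᵥ v) ⬝ᵥ (prj g s *ᵥ w) := by
  conv_lhs => rw [es2_split g s v, add_dotProduct, dotProduct_comm (res g s v),
    es2_orth (es2_mem g s w), add_zero]

lemma es2_dot_res (g : Fin n → ι → ℝ) (s : Finset (Fin n)) (v w : ι → ℝ) :
    v ⬝ᵥ res g s w = res g s v ⬝ᵥ res g s w := by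
  conv_lhs => rw [es2_split g s v, add_dotProduct, es2_orth (es2_mem g s v), zero_add]

omit [DecidableEq ι] in
lemma es2_ext {A B : Matrix ι ι ℝ} (h : ∀ v, A *ᵥ v = B *ᵥ v) : A = B :=
  Matrix.mulVec_injective (funext h)

lemma prj_transpose (g : Fin n → ι → ℝ) (s : Finset (Fin n)) : (prj g s)ᵀ = prj g s := by
  ext i j
  have h1 := es2_dot g s (Pi.single i 1) (Pi.single j 1)
  have h2 := es2_dot g s (Pi.single j 1) (Pi.single i 1)
  rw [dotProduct_comm (prj g s *ᵥ _), ← h1] at h2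
  simpa using h2
lemma prj_mul_self (g : Fin n → ι → ℝ) (s : Finset (Fin n)) : prj g s * prj g s = prj g s :=
  es2_ext fun v => by
    rw [← Matrix.mulVec_mulVec]
    exact es2_uniq (es2_mem g s v) fun k _ => by rw [sub_self, dotProduct_zero]
lemma prj_empty (g : Fin n → ι → ℝ) : prj g ∅ = 0 :=
  es2_ext fun v => by
    rw [Matrix.zero_mulVec]
    exact es2_uniq (Submodule.zero_mem _) fun k hk => absurd hk (Finset.notMem_empty k)
lemma prj_congr {g g' : Fin n → ι → ℝ} {s : Finset (Fin n)} (h : ∀ k ∈ s, g k = g' k) :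
    prj g s = prj g' s :=
  es2_ext fun v => by
    have e : g '' s = g' '' s := Set.image_congr h
    refine es2_uniq (e ▸ es2_mem g' s v) fun k hk => ?_
    rw [h k hk]
    exact es2_orth (es2_gen g' hk) v
lemma prj_insert (g : Fin n → ι → ℝ) (s : Finset (Fin n)) (k : Fin n) :
    prj g (insert k s) = prj g s + (res g s (g k) ⬝ᵥ res g s (g k))⁻¹ •
      Matrix.vecMulVec (res g s (g k)) (res g s (g k)) :=
  es2_ext fun v => by
    obtain ⟨w, hw⟩ : ∃ w, w = res g s (g k) := ⟨_, rfl⟩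
    rw [← hw, Matrix.add_mulVec, Matrix.smul_mulVec, Matrix.vecMulVec_mulVec, op_smul_eq_smul,
      smul_smul]
    have hle : Submodule.span ℝ (g '' s) ≤ Submodule.span ℝ (g '' (insert k s : Finset (Fin n))) :=
      Submodule.span_mono (Set.image_mono (Finset.coe_subset.2 (Finset.subset_insert k s)))
    have e : v - (prj g s *ᵥ v + ((w ⬝ᵥ w)⁻¹ * (w ⬝ᵥ v)) • w) =
        res g s v - ((w ⬝ᵥ w)⁻¹ * (w ⬝ᵥ v)) • w := by
      unfold res
      abel
    have h0 : ∀ z ∈ Submodule.span ℝ (g '' s),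
        z ⬝ᵥ (res g s v - ((w ⬝ᵥ w)⁻¹ * (w ⬝ᵥ v)) • w) = 0 := fun z hz => by
      rw [dotProduct_sub, dotProduct_smul, es2_orth hz, hw, es2_orth hz, smul_zero, sub_zero]
    refine es2_uniq (Submodule.add_mem _ (hle (es2_mem g s v)) (Submodule.smul_mem _ _ ?_))
      fun j hj => ?_
    · rw [hw]
      exact Submodule.sub_mem _ (es2_gen g (Finset.mem_insert_self k s)) (hle (es2_mem g s _))
    rw [e]
    rcases Finset.mem_insert.1 hj with rfl | hj
    · rw [es2_split g s (g j), add_dotProduct, h0 _ (es2_mem g s _), ← hw, zero_add,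
        dotProduct_sub, dotProduct_smul, smul_eq_mul]
      have h1 : w ⬝ᵥ res g s v = w ⬝ᵥ v := by
        rw [hw, dotProduct_comm _ v, es2_dot_res g s v, dotProduct_comm]
      rw [h1]
      by_cases h2 : w ⬝ᵥ w = 0
      · rw [dotProduct_self_eq_zero.1 h2]
        simp
      · field_simp
        ring
    · exact h0 _ (es2_gen g hj)
lemma measurable_prj (s : Finset (Fin n)) (i j : ι) :
    Measurable fun g : Fin n → ι → ℝ => prj g s i j := by
  induction s using Finset.induction_on generalizing i j with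
  | empty => simpa only [prj_empty] using measurable_const
  | insert k s _ ih =>
    have h1 : ∀ i, Measurable fun g : Fin n → ι → ℝ => res g s (g k) i := fun i =>
      ((measurable_pi_apply i).comp (measurable_pi_apply k)).sub
        (Finset.measurable_sum _ fun j _ => (ih i j).mul
          ((measurable_pi_apply j).comp (measurable_pi_apply k)))
    simp only [prj_insert, Matrix.add_apply, Matrix.smul_apply, Matrix.vecMulVec_apply,
      smul_eq_mul, dotProduct]
    exact (ih i j).add ((Finset.measurable_sum _ fun l _ => (h1 l).mul (h1 l)).inv.mul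
      ((h1 i).mul (h1 j)))
lemma prj_quad (g : Fin n → ι → ℝ) (s : Finset (Fin n)) (v w : ι → ℝ) :
    v ⬝ᵥ (prj g s *ᵥ w) = (prj g s *ᵥ v) ⬝ᵥ (prj g s *ᵥ w) ∧
      v ⬝ᵥ w - v ⬝ᵥ (prj g s *ᵥ w) = res g s v ⬝ᵥ res g s w :=
  ⟨es2_dot g s v w, by rw [← dotProduct_sub, ← es2_dot_res]; rfl⟩
lemma prj_rot (g : Fin n → ι → ℝ) (s : Finset (Fin n)) (U : Og ι) :
    prj (fun k => U.1ᵀ *ᵥ g k) s = U.1ᵀ * prj g s * U.1 :=
  es2_ext fun v => by
    have hU : U.1 * U.1ᵀ = 1 := (Matrix.mem_orthogonalGroup_iff ι ℝ).1 U.2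
    rw [← Matrix.mulVec_mulVec, ← Matrix.mulVec_mulVec]
    refine es2_uniq ?_ fun k hk => ?_
    · have h1 := Submodule.mem_map_of_mem (f := Matrix.mulVecLin U.1ᵀ) (es2_mem g s (U.1 *ᵥ v))
      rwa [Submodule.map_span, Set.image_image] at h1
    · rw [Matrix.mulVec_transpose, ← Matrix.dotProduct_mulVec, Matrix.mulVec_sub,
        Matrix.mulVec_mulVec, hU, Matrix.one_mulVec]
      exact es2_orth (es2_gen g hk) _

lemma es2_lo_succ (k : Fin n) : lo n (k + 1) = insert k (lo n k) := by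
  ext i
  simp only [lo, Finset.mem_filter, Finset.mem_univ, true_and, Finset.mem_insert, Fin.ext_iff]
  omega

lemma es2_lo_ge {k : ℕ} (hk : n ≤ k) : lo n k = univ :=
  Finset.filter_true_of_mem fun i _ => i.2.trans_le hk

lemma es2_notMem (k : Fin n) : k ∉ lo n k := by simp [lo]

lemma es2_lo_mono {k k' : ℕ} (h : k ≤ k') : lo n k ⊆ lo n k' := fun i hi => by
  simp only [lo, Finset.mem_filter, Finset.mem_univ, true_and] at hi ⊢
  omega

lemma es2_lo_card (n k : ℕ) : (lo n k).card ≤ k := by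
  refine (Finset.card_le_card_of_injOn (s := lo n k) (t := range k) Fin.val (fun i hi => ?_)
    Fin.val_injective.injOn).trans_eq (Finset.card_range k)
  simpa [lo] using hi

/-- extension of an orthonormal family to the rows of an orthogonal matrix -/
lemma es2_extend {K : Type} [DecidableEq K] (o : K ↪ ι) (w : K → ι → ℝ)
    (h : ∀ k k', w k ⬝ᵥ w k' = if k = k' then 1 else 0) : ∃ U : Og ι, ∀ k, U.1 (o k) = w k := by
  have hv : Orthonormal ℝ ((Set.range o).domRestrict fun i =>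
      (WithLp.toLp 2 (Function.extend o w 0 i) : EuclideanSpace ℝ ι)) := by
    rw [orthonormal_iff_ite]
    rintro ⟨_, k, rfl⟩ ⟨_, k', rfl⟩
    simp only [Set.domRestrict_apply, o.injective.extend_apply, es2_inner, h]
    exact if_congr ⟨fun h1 => by subst h1; rfl, fun h1 => o.injective (congrArg Subtype.val h1)⟩
      rfl rfl
  obtain ⟨b, hb⟩ := hv.exists_orthonormalBasis_extension_of_card_eq finrank_euclideanSpace
  refine ⟨⟨Matrix.of fun i j => b i j, (Matrix.mem_orthogonalGroup_iff ι ℝ).2 ?_⟩, fun k => ?_⟩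
  · ext i j
    have h1 := orthonormal_iff_ite.1 b.orthonormal i j
    rw [Matrix.one_apply, ← h1]
    exact (es2_inner (b i).ofLp (b j).ofLp).symm
  · have h1 := hb (o k) ⟨k, rfl⟩
    rw [o.injective.extend_apply] at h1
    funext j
    simp [h1]

lemma prj_gs (o : Fin n ↪ ι) (g : Fin n → ι → ℝ) (h : ∀ k : Fin n, res g (lo n k) (g k) ≠ 0) :
    ∃ U0 : Og ι, ∀ k, prj g (lo n k) = rowP o U0 k := by
  obtain ⟨w, hw⟩ : ∃ w : Fin n → ι → ℝ, ∀ k, w k = res g (lo n k) (g k) := ⟨_, fun _ => rfl⟩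
  have hp : ∀ k, 0 < w k ⬝ᵥ w k := fun k => lt_of_le_of_ne (es2_nn _) fun h0 =>
    h k (by rw [← hw]; exact dotProduct_self_eq_zero.1 h0.symm)
  have ho : ∀ k k' : Fin n, k < k' → w k ⬝ᵥ w k' = 0 := fun k k' hk => by
    rw [hw k', hw k]
    refine es2_orth (Submodule.sub_mem _ (es2_gen g (by simpa [lo] using hk)) ?_) _
    exact Submodule.span_mono (Set.image_mono (Finset.coe_subset.2 (es2_lo_mono hk.le)))
      (es2_mem g _ _)
  obtain ⟨U, hU⟩ := es2_extend o (fun k => (√(w k ⬝ᵥ w k))⁻¹ • w k) fun k k' => by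
    rw [smul_dotProduct, dotProduct_smul, smul_smul, smul_eq_mul]
    rcases lt_trichotomy k k' with h1 | rfl | h1
    · rw [ho k k' h1, mul_zero, if_neg h1.ne]
    · rw [if_pos rfl, ← mul_inv, Real.mul_self_sqrt (hp k).le, inv_mul_cancel₀ (hp k).ne']
    · rw [dotProduct_comm (w k) (w k'), ho k' k h1, mul_zero, if_neg h1.ne']
  refine ⟨U, fun k => ?_⟩
  induction k with
  | zero =>
    have e : lo n 0 = ∅ := by simp [lo]
    rw [rowP, e, prj_empty, Finset.sum_empty]
  | succ k ih =>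
    rcases lt_or_ge k n with hk | hk
    · have e := es2_lo_succ (⟨k, hk⟩ : Fin n)
      dsimp only at e
      rw [rowP, e, Finset.sum_insert (es2_notMem ⟨k, hk⟩), prj_insert, ih, add_comm, hU,
        Matrix.smul_vecMulVec, Matrix.vecMulVec_smul, smul_smul, ← mul_inv,
        Real.mul_self_sqrt (hp _).le, hw]
      rfl
    · rw [rowP, es2_lo_ge (hk.trans k.le_succ), ← es2_lo_ge hk, ih]
      rfl
lemma rowP_mul (o : Fin n ↪ ι) (U0 U : Og ι) (k : ℕ) :
    rowP o (U0 * U) k = U.1ᵀ * rowP o U0 k * U.1 := by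
  unfold rowP
  rw [Finset.mul_sum, Finset.sum_mul]
  refine Finset.sum_congr rfl fun i _ => ?_
  rw [Matrix.mul_vecMulVec, Matrix.vecMulVec_mul, Matrix.mulVec_transpose]
  rfl

lemma es2_update {A : Type} [MeasurableSpace A] (μ : Measure A) [IsProbabilityMeasure μ]
    (j : Fin n) : MeasurePreserving (fun z : (Fin n → A) × A => Function.update z.1 j z.2)
      ((Measure.pi fun _ => μ).prod μ) (Measure.pi fun _ => μ) := by
  refine ⟨measurable_update', (Measure.pi_eq fun s hs => ?_).symm⟩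
  have e : (fun z : (Fin n → A) × A => Function.update z.1 j z.2) ⁻¹' Set.univ.pi s =
      Set.univ.pi (Function.update s j Set.univ) ×ˢ s j := by
    ext z
    simp only [Set.mem_preimage, Set.mem_pi, Set.mem_univ, true_imp_iff, Set.mem_prod]
    refine ⟨fun h => ⟨fun i => ?_, by simpa using h j⟩, fun h i => ?_⟩
    · by_cases hi : i = j
      · subst hi
        simp
      · simpa [hi] using h i
    · by_cases hi : i = j
      · subst hi
        simpa using h.2
      · simpa [hi] using h.1 i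
  rw [Measure.map_apply measurable_update' (MeasurableSet.univ_pi hs), e, Measure.prod_prod,
    Measure.pi_pi, ← Finset.mul_prod_erase _ _ (Finset.mem_univ j),
    ← Finset.mul_prod_erase _ _ (Finset.mem_univ j), Function.update_self, measure_univ, one_mul,
    mul_comm]
  congr 1
  exact Finset.prod_congr rfl fun i hi => by rw [Function.update_of_ne (Finset.ne_of_mem_erase hi)]

omit [DecidableEq ι] in
lemma es2_finrank (g : Fin n → ι → ℝ) (s : Finset (Fin n)) :
    Fintype.card ι ≤ s.card + Module.finrank ℝ (es2K g s)ᗮ := by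
  classical
  have h1 := Submodule.finrank_add_finrank_orthogonal (es2K g s)
  rw [finrank_euclideanSpace] at h1
  have h2 : Module.finrank ℝ (es2K g s) ≤ s.card := by
    have h3 := finrank_span_finset_le_card (R := ℝ)
      (s.image fun k => (WithLp.toLp 2 (g k) : EuclideanSpace ℝ ι))
    rw [Set.finrank, Finset.coe_image] at h3
    exact h3.trans Finset.card_image_le
  omega

/-- an orthonormal frame of the orthogonal complement -/
lemma es2_frame (g : Fin n → ι → ℝ) (s : Finset (Fin n)) : ∃ (D : ℕ) (J : Fin D → ι → ℝ),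
    Fintype.card ι ≤ s.card + D ∧ (∀ k k', J k ⬝ᵥ J k' = if k = k' then 1 else 0) ∧
      ∀ x v, res g s x ⬝ᵥ v = ∑ k, (J k ⬝ᵥ x) * (J k ⬝ᵥ v) := by
  let b := stdOrthonormalBasis ℝ (es2K g s)ᗮ
  refine ⟨_, fun k => (b k : EuclideanSpace ℝ ι).ofLp, es2_finrank g s, fun k k' => ?_,
    fun x v => ?_⟩
  · rw [← es2_inner, ← orthonormal_iff_ite.1 b.orthonormal k k']
    rfl
  · have hm : ∀ x, (WithLp.toLp 2 (res g s x) : EuclideanSpace ℝ ι) ∈ (es2K g s)ᗮ := fun x => by
      rw [res, WithLp.toLp_sub, es2_mulVec]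
      exact Submodule.sub_starProjection_mem_orthogonal _
    have h1 : ∀ k x, (b k : EuclideanSpace ℝ ι).ofLp ⬝ᵥ x =
        inner ℝ (b k) (⟨_, hm x⟩ : (es2K g s)ᗮ) := fun k x => by
      have h2 : (b k : EuclideanSpace ℝ ι).ofLp ⬝ᵥ (prj g s *ᵥ x) = 0 := by
        rw [← es2_inner, real_inner_comm]
        exact (b k).2 _ ((es2_mem_iff g s _).2 (es2_mem g s x))
      conv_lhs => rw [es2_split g s x, dotProduct_add, h2, zero_add, ← es2_inner]
      rfl
    rw [dotProduct_comm, es2_dot_res, dotProduct_comm, ← es2_inner]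
    refine (b.sum_inner_mul_inner ⟨_, hm x⟩ ⟨_, hm v⟩).symm.trans ?_
    exact Finset.sum_congr rfl fun k _ => by rw [h1, h1, real_inner_comm]

lemma ae_res_ne (hn : n ≤ Fintype.card ι) :
    ∀ᵐ g ∂(Measure.pi fun _ : Fin n => gam ι), ∀ k : Fin n, res g (lo n k) (g k) ≠ 0 := by
  refine ae_all_iff.2 fun k => ?_
  have hm : MeasurableSet {g : Fin n → ι → ℝ | res g (lo n k) (g k) ≠ 0} := by
    refine (measurableSet_eq_fun (measurable_pi_lambda _ fun i => ?_) measurable_const).compl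
    exact ((measurable_pi_apply i).comp (measurable_pi_apply k)).sub
      (Finset.measurable_sum _ fun j _ => (measurable_prj _ i j).mul
        ((measurable_pi_apply j).comp (measurable_pi_apply k)))
  have hu := es2_update (gam ι) k
  rw [← hu.map_eq, ae_map_iff hu.measurable.aemeasurable hm]
  refine (Measure.ae_prod_iff_ae_ae (hu.measurable hm)).2 (Eventually.of_forall fun g => ?_)
  obtain ⟨D, J, h1, h2, h3⟩ := es2_frame g (lo n k)
  have hD : 0 < D := by
    have := es2_lo_card n k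
    have := k.2
    omega
  have h4 : ∀ᵐ x ∂gam ι, ∑ i, J ⟨0, hD⟩ i * x i ≠ 0 := by
    have h5 := gauss_lin (J ⟨0, hD⟩)
    have h6 : ∑ i, J ⟨0, hD⟩ i ^ 2 = 1 := by simpa [dotProduct, sq] using h2 ⟨0, hD⟩ ⟨0, hD⟩
    rw [h6, Real.toNNReal_one] at h5
    have : NullSingletonClass (gaussianReal 0 1) := nullSingletonClass_gaussianReal one_ne_zero
    have h7 : ∀ᵐ t ∂gaussianReal 0 1, t ≠ 0 := Measure.ae_ne _ _
    rw [← h5] at h7
    exact ae_of_ae_map (p := fun t : ℝ => t ≠ 0) (Measurable.aemeasurable (by fun_prop)) h7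
  filter_upwards [h4] with x hx h0
  have e : prj (Function.update g k x) (lo n k) = prj g (lo n k) := prj_congr fun j hj =>
    Function.update_of_ne (ne_of_mem_of_not_mem hj (es2_notMem k)) _ _
  rw [res, e, Function.update_self] at h0
  have h5 := h3 x (J ⟨0, hD⟩)
  rw [res, h0, zero_dotProduct] at h5
  simp only [h2, mul_ite, mul_one, mul_zero, Finset.sum_ite_eq', Finset.mem_univ, if_true] at h5
  exact hx h5.symm

lemma es2_sph {K : Type} [Fintype K] [DecidableEq K] (k0 : K) (c : K → ℝ) :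
    (Fintype.card K : ℝ) ^ 2 * ∫ y, ((y ⬝ᵥ y)⁻¹ * (y ⬝ᵥ c) ^ 2) ^ 2 ∂gam K ≤ 3 * (c ⬝ᵥ c) ^ 2 := by
  obtain ⟨N, hN⟩ : ∃ N : (K → ℝ) → K → ℝ, ∀ y, N y = (√(y ⬝ᵥ y))⁻¹ • y := ⟨_, fun _ => rfl⟩
  have mN : Measurable N := by
    rw [show N = fun y => (√(y ⬝ᵥ y))⁻¹ • y from funext hN]
    unfold dotProduct
    fun_prop
  have h1 : ∀ y, ∑ k, N y k ^ 2 ≤ 1 := fun y => by
    have e : ∑ k, N y k ^ 2 = (y ⬝ᵥ y)⁻¹ * (y ⬝ᵥ y) := by
      simp only [hN, Pi.smul_apply, smul_eq_mul, mul_pow, inv_pow,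
        Real.sq_sqrt (es2_nn y), ← Finset.mul_sum]
      simp only [dotProduct, sq]
    rw [e]
    exact inv_mul_le_one_of_le₀ le_rfl (es2_nn y)
  have hI : ∀ φ : (K → ℝ) → ℝ, Continuous φ → Integrable (fun y => φ (N y)) (gam K) := fun φ hφ => by
    obtain ⟨B, hB⟩ := (isCompact_closedBall (0 : K → ℝ) 1).exists_bound_of_continuousOn
      hφ.continuousOn
    refine rmb_integrable (hφ.measurable.comp mN) (B := B) fun y => hB _ ?_
    refine mem_closedBall_zero_iff.2 ((pi_norm_le_iff_of_nonneg zero_le_one).2 fun k => ?_)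
    exact (sq_le_one_iff_abs_le_one _).1 ((Finset.single_le_sum (f := fun k => N y k ^ 2)
      (fun _ _ => sq_nonneg _) (Finset.mem_univ k)).trans (h1 y))
  have hinv : ∀ (B : Og K) (φ : (K → ℝ) → ℝ), Continuous φ →
      ∫ y, φ (B.1 *ᵥ N y) ∂gam K = ∫ y, φ (N y) ∂gam K := fun B φ hφ => by
    have mB : Measurable fun y : K → ℝ => B.1 *ᵥ y := by
      unfold Matrix.mulVec dotProduct
      fun_prop
    conv_rhs => rw [← map_gam_orth B,
      integral_map (f := fun y => φ (N y)) mB.aemeasurable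
        (hφ.measurable.comp mN).aestronglyMeasurable]
    refine integral_congr_ae (Eventually.of_forall fun y => ?_)
    have e : (B.1 *ᵥ y) ⬝ᵥ (B.1 *ᵥ y) = y ⬝ᵥ y := orth_dot B y y
    simp only [hN, e, Matrix.mulVec_smul]
  obtain ⟨-, h2, -⟩ := sm (fun φ => ∫ y, φ (N y) ∂gam K)
    (fun φ ψ hφ hψ => integral_add (hI φ hφ) (hI ψ hψ)) (fun c φ _ => integral_const_mul _ _)
    (fun φ _ h0 => integral_nonneg fun y => h0 _) hinv k0
  have h3 : ∫ y, (∑ k, N y k ^ 2) ^ 2 ∂gam K ≤ 1 := rmb_integral_le (fun _ => sq_nonneg _)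
    fun y => pow_le_one₀ (Finset.sum_nonneg fun _ _ => sq_nonneg _) (h1 y)
  rcases (es2_nn c).eq_or_lt with h0 | h0
  · rw [dotProduct_self_eq_zero.1 h0.symm]
    simp
  obtain ⟨B, hB⟩ := es2_extend ⟨fun _ : Unit => k0, fun _ _ _ => rfl⟩
    (fun _ => (√(c ⬝ᵥ c))⁻¹ • c) fun _ _ => by
      rw [smul_dotProduct, dotProduct_smul, smul_smul, smul_eq_mul, if_pos rfl, ← mul_inv,
        Real.mul_self_sqrt h0.le, inv_mul_cancel₀ h0.ne']
  have hB' : B.1 k0 = (√(c ⬝ᵥ c))⁻¹ • c := hB ()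
  have e : ∀ y : K → ℝ, ((y ⬝ᵥ y)⁻¹ * (y ⬝ᵥ c) ^ 2) ^ 2 = (c ⬝ᵥ c) ^ 2 * (B.1 *ᵥ N y) k0 ^ 4 :=
    fun y => by
      have e1 : (B.1 *ᵥ N y) k0 = (√(c ⬝ᵥ c))⁻¹ * ((√(y ⬝ᵥ y))⁻¹ * (y ⬝ᵥ c)) := by
        change B.1 k0 ⬝ᵥ N y = _
        rw [hB', hN, smul_dotProduct, dotProduct_smul, dotProduct_comm c y]
        rfl
      have e2 : (B.1 *ᵥ N y) k0 ^ 2 = (c ⬝ᵥ c)⁻¹ * ((y ⬝ᵥ y)⁻¹ * (y ⬝ᵥ c) ^ 2) := by
        rw [e1, mul_pow, mul_pow, inv_pow, inv_pow, Real.sq_sqrt h0.le,
          Real.sq_sqrt (es2_nn y)]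
      rw [show (B.1 *ᵥ N y) k0 ^ 4 = ((B.1 *ᵥ N y) k0 ^ 2) ^ 2 by ring, e2, ← mul_pow,
        mul_inv_cancel_left₀ h0.ne']
  simp only [e]
  rw [integral_const_mul, hinv B (fun y => y k0 ^ 4) (by fun_prop)]
  nlinarith [sq_nonneg (c ⬝ᵥ c)]

theorem sphere4 (g : Fin n → ι → ℝ) (s : Finset (Fin n)) {d : ℕ} (hd : 0 < d)
    (h : s.card + d ≤ Fintype.card ι) (v : ι → ℝ) :
    ∫ x, ((res g s x ⬝ᵥ res g s x)⁻¹ * (res g s x ⬝ᵥ v) ^ 2) ^ 2 ∂gam ι ≤
      3 * (v ⬝ᵥ v) ^ 2 / (d : ℝ) ^ 2 := by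
  obtain ⟨D, J, h1, h2, h3⟩ := es2_frame g s
  have hD : d ≤ D := by omega
  have hl : (gam ι).map (feat J) = gam (Fin D) := by
    have e : feat (fun i j : Fin D => (1 : Matrix (Fin D) (Fin D) ℝ) i j) = id :=
      funext fun g => Matrix.one_mulVec g
    refine (map_feat_eq J (fun i j : Fin D => (1 : Matrix (Fin D) (Fin D) ℝ) i j) ?_).trans
      (by rw [e, Measure.map_id])
    funext k k'
    refine (h2 k k').trans ?_
    simp [gram, Matrix.one_apply]
  have h4 := es2_sph (⟨0, hd.trans_le hD⟩ : Fin D) (feat J v)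
  rw [← hl, integral_map (measurable_feat J).aemeasurable
    (Measurable.aestronglyMeasurable (by unfold dotProduct; fun_prop)), Fintype.card_fin] at h4
  have e1 : ∀ x w, res g s x ⬝ᵥ w = feat J x ⬝ᵥ feat J w := h3
  have e2 : ∀ x, res g s x ⬝ᵥ res g s x = feat J x ⬝ᵥ feat J x := fun x => by
    rw [← es2_dot_res, dotProduct_comm, e1]
  simp only [e2]
  simp only [e1]
  have h5 : feat J v ⬝ᵥ feat J v ≤ v ⬝ᵥ v := by
    rw [← e2, ← (prj_quad g s v v).2, (prj_quad g s v v).1]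
    exact sub_le_self _ (es2_nn _)
  have h6 := pow_le_pow_left₀ (es2_nn _) h5 2
  have hd' : (0 : ℝ) < d := by exact_mod_cast hd
  have h7 : (d : ℝ) ^ 2 ≤ (D : ℝ) ^ 2 := pow_le_pow_left₀ hd'.le (by exact_mod_cast hD) 2
  rw [le_div_iff₀ (by positivity), mul_comm]
  refine (mul_le_mul_of_nonneg_right h7 (integral_nonneg fun _ => sq_nonneg _)).trans ?_
  linarith

theorem law_prj (o : Fin n ↪ ι) {Φ : (ℕ → ι → ι → ℝ) → ℝ} (hΦ : Measurable Φ) {B : ℝ}
    (hB : ∀ g : Fin n → ι → ℝ, |Φ fun k i j => prj g (lo n k) i j| ≤ B) :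
    ∫ g, Φ (fun k i j => prj g (lo n k) i j) ∂(Measure.pi fun _ : Fin n => gam ι) =
      ∫ U, Φ (fun k i j => rowP o U k i j) ∂haarO ι := by
  have mF : Measurable fun g : Fin n → ι → ℝ => Φ fun k i j => prj g (lo n k) i j :=
    hΦ.comp (measurable_pi_lambda _ fun k => measurable_pi_lambda _ fun i =>
      measurable_pi_lambda _ fun j => measurable_prj _ i j)
  have mR : Measurable fun z : Og ι × (Fin n → ι → ℝ) => fun k => z.1.1ᵀ *ᵥ z.2 k :=
    measurable_pi_lambda _ fun k => measurable_pi_lambda _ fun i =>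
      Finset.measurable_sum _ fun j _ => ((measurable_entry j i).comp measurable_fst).mul
        ((measurable_pi_apply j).comp ((measurable_pi_apply k).comp measurable_snd))
  have h1 : ∀ U : Og ι, ∫ g, Φ (fun k i j => prj (fun k => U.1ᵀ *ᵥ g k) (lo n k) i j)
      ∂(Measure.pi fun _ : Fin n => gam ι) =
      ∫ g, Φ (fun k i j => prj g (lo n k) i j) ∂(Measure.pi fun _ : Fin n => gam ι) := fun U => by
    have mB : Measurable fun y : ι → ℝ => U.1ᵀ *ᵥ y := by
      unfold Matrix.mulVec dotProduct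
      fun_prop
    have h2 : MeasurePreserving (fun y : ι → ℝ => U.1ᵀ *ᵥ y) (gam ι) (gam ι) :=
      ⟨mB, map_gam_orth (star U)⟩
    have h3 := measurePreserving_pi (fun _ : Fin n => gam ι) (fun _ : Fin n => gam ι) fun _ => h2
    conv_rhs => rw [← h3.map_eq,
      integral_map h3.measurable.aemeasurable mF.aestronglyMeasurable]
  have h4 := integral_integral_swap (μ := haarO ι) (ν := Measure.pi fun _ : Fin n => gam ι)
    (f := fun U g => Φ fun k i j => prj (fun k => U.1ᵀ *ᵥ g k) (lo n k) i j)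
    (rmb_integrable (mF.comp mR) fun z => hB _)
  simp only [h1, integral_const, probReal_univ, one_smul] at h4
  rw [h4]
  have hn : n ≤ Fintype.card ι := by simpa using Fintype.card_le_of_embedding o
  rw [integral_congr_ae (g := fun _ => ∫ U, Φ (fun k i j => rowP o U k i j) ∂haarO ι)]
  · simp
  filter_upwards [ae_res_ne hn] with g hg
  obtain ⟨U0, hU0⟩ := prj_gs o g hg
  simp only [prj_rot, hU0, ← rowP_mul]
  exact integral_haarO_left U0 fun U => Φ fun k i j => rowP o U k i j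

end

end Vale.Agent.P166
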