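import Vale.Agent.P166.RMB

/-! P166 TfA: auxiliary lemmas for Tf (pull back of a Gibbs system along a projection, comparison of the kernels). -/

open MeasureTheory ProbabilityTheory Filter Topology Matrix Finset

namespace Vale.Agent.P166

noncomputable section

section pull

variable {S S' E : Type} [Fintype S] [Fintype S'] [Fintype E] (ψ : S' ≃ S × E)

lemma tf_sum (f : S' → ℝ) : ∑ s', f s' = ∑ s, ∑ ε, f (ψ.symm (s, ε)) := by
  rw [← Fintype.sum_prod_type (f := fun p : S × E => f (ψ.symm p))]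
  exact (ψ.symm.sum_comp f).symm

lemma tf_Z (K : S → ℝ) :
    ∑ s', Real.exp (K (ψ s').1) = Fintype.card E * ∑ s, Real.exp (K s) := by
  rw [tf_sum ψ, Finset.mul_sum]
  refine Finset.sum_congr rfl fun s _ => ?_
  simp

lemma tf_gw (K : S → ℝ) (s' : S') :
    gw (fun s' => K (ψ s').1) s' = gw K (ψ s').1 / Fintype.card E := by
  unfold gw
  rw [tf_Z, div_div, mul_comm]

lemma tf_lz [Nonempty S] [Nonempty E] (K : S → ℝ) :
    lz (fun s' => K (ψ s').1) = lz K + Real.log (Fintype.card E) := by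
  unfold lz
  rw [tf_Z, Real.log_mul (by positivity) (gibbs_Z_pos K).ne', add_comm]

lemma tf_av1 (K : S → ℝ) (f : S' → ℝ) :
    av1 (fun s' => K (ψ s').1) f =
      av1 K fun s => (∑ ε, f (ψ.symm (s, ε))) / Fintype.card E := by
  unfold av1
  rw [tf_sum ψ]
  refine Finset.sum_congr rfl fun s _ => ?_
  simp only [tf_gw, Equiv.apply_symm_apply]
  rw [← Finset.mul_sum]
  ring

lemma tf_av (n : ℕ) (K : S → ℝ) (F : (Fin n → S') → ℝ) :
    av n (fun s' => K (ψ s').1) F =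
      av n K fun c => (∑ ε : Fin n → E, F fun l => ψ.symm (c l, ε l)) /
        (Fintype.card E : ℝ) ^ n := by
  unfold av
  rw [tf_sum ((Equiv.arrowCongr (Equiv.refl (Fin n)) ψ).trans
    (Equiv.arrowProdEquivProdArrow (Fin n) (fun _ => S) (fun _ => E)))]
  refine Finset.sum_congr rfl fun c _ => ?_
  have e : ∀ ε : Fin n → E, ((Equiv.arrowCongr (Equiv.refl (Fin n)) ψ).trans
      (Equiv.arrowProdEquivProdArrow (Fin n) (fun _ => S) (fun _ => E))).symm (c, ε) =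
      fun l => ψ.symm (c l, ε l) := fun ε => rfl
  simp only [e, tf_gw, Equiv.apply_symm_apply, Finset.prod_div_distrib, Finset.prod_const,
    Finset.card_univ, Fintype.card_fin]
  rw [← Finset.mul_sum]
  ring

lemma tf_pull {C : S → S → ℝ} (hC : PSD C) (π : S' → S) {f : (S' → ℝ) → ℝ} (hf : Measurable f) :
    ∫ y, f y ∂(gK fun s s' => C (π s) (π s')) = ∫ y, f (fun s => y (π s)) ∂gK C := by
  rw [← gK_comp hC π, integral_map (measurable_pi_lambda _ fun s =>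
    measurable_pi_apply (π s)).aemeasurable hf.aestronglyMeasurable]

lemma tf_log_le [Nonempty S] (H : S → ℝ) {W : S → ℝ} {B : ℝ}
    (h : ∀ s, Real.exp (-B) ≤ W s ∧ W s ≤ 1) : |Real.log (av1 H W)| ≤ B := by
  have h1 : Real.exp (-B) ≤ av1 H W := by
    simpa only [av1_const] using av1_mono H (f := fun _ => Real.exp (-B)) fun s => (h s).1
  have h2 : av1 H W ≤ 1 := by
    simpa only [av1_const] using av1_mono H (g := fun _ => (1 : ℝ)) fun s => (h s).2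
  have h3 := Real.log_le_log (Real.exp_pos _) h1
  rw [Real.log_exp] at h3
  have h4 := Real.log_nonpos ((Real.exp_pos _).le.trans h1) h2
  rw [abs_le]
  constructor <;> linarith

lemma tf_mean [Nonempty E] {f : E → ℝ} {a c : ℝ} (h : ∀ ε, a ≤ f ε ∧ f ε ≤ c) :
    a ≤ (∑ ε, f ε) / Fintype.card E ∧ (∑ ε, f ε) / Fintype.card E ≤ c := by
  have h0 : (0 : ℝ) < Fintype.card E := by positivity
  rw [le_div_iff₀ h0, div_le_iff₀ h0]
  have h1 := Finset.sum_le_sum (s := Finset.univ) fun ε _ => (h ε).1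
  have h2 := Finset.sum_le_sum (s := Finset.univ) fun ε _ => (h ε).2
  simp only [Finset.sum_const, Finset.card_univ, nsmul_eq_mul] at h1 h2
  constructor <;> linarith

variable [Nonempty S] [Nonempty E] [Nonempty S']

lemma tf_lz_tilt (K : S → ℝ) (q : S → E → ℝ) (κ : ℝ) :
    lz (fun s' => K (ψ s').1 + κ - q (ψ s').1 (ψ s').2) = lz K + (Real.log (Fintype.card E) + κ) +
      Real.log (av1 K fun s => (∑ ε, Real.exp (-q s ε)) / Fintype.card E) := by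
  have e : (fun s' => K (ψ s').1 + κ - q (ψ s').1 (ψ s').2) =
      fun s' => ((fun s' => K (ψ s').1) + fun s' => -q (ψ s').1 (ψ s').2) s' + κ := by
    funext s'
    simp only [Pi.add_apply]
    ring
  rw [e, lz_add_const, lz_add, tf_lz, tf_av1]
  simp only [Equiv.apply_symm_apply]
  ring

omit [Nonempty S] [Nonempty E] in
lemma tf_av_tilt (n : ℕ) (K : S → ℝ) (q : S → E → ℝ) (κ : ℝ) (F : (Fin n → S') → ℝ) :
    av n (fun s' => K (ψ s').1 + κ - q (ψ s').1 (ψ s').2) F =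
      av n K (fun c => (∑ ε : Fin n → E, F (fun l => ψ.symm (c l, ε l)) *
        ∏ l, Real.exp (-q (c l) (ε l))) / (Fintype.card E : ℝ) ^ n) /
      (av1 K fun s => (∑ ε, Real.exp (-q s ε)) / Fintype.card E) ^ n := by
  have e : (fun s' => K (ψ s').1 + κ - q (ψ s').1 (ψ s').2) =
      fun s' => ((fun s' => K (ψ s').1) + fun s' => -q (ψ s').1 (ψ s').2) s' + κ := by
    funext s'
    simp only [Pi.add_apply]
    ring
  rw [e, av_add_const, av_tilt, tf_av, tf_av1]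
  simp only [Equiv.apply_symm_apply]

omit [Nonempty S] [Nonempty E] [Nonempty S'] in
lemma tf_Avg1 (H : S → ℝ) {C : S → S → ℝ} (hC : PSD C) (κ : ℝ) (f : S' → ℝ) :
    Avg1 (fun s' => H (ψ s').1 + κ) (fun s s' => C (ψ s).1 (ψ s').1) f =
      Avg1 H C fun s => (∑ ε, f (ψ.symm (s, ε))) / Fintype.card E := by
  unfold Avg1
  rw [tf_pull hC (fun s => (ψ s).1) (f := fun y => av1 ((fun s' => H (ψ s').1 + κ) + y) f)
    (measurable_av1 (cmp_meas _) fun _ => measurable_const)]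
  refine integral_congr_ae (Eventually.of_forall fun y => ?_)
  have e : ((fun s' => H (ψ s').1 + κ) + fun s' => y (ψ s').1) =
      fun s' => (H + y) (ψ s').1 + κ := by
    funext s'
    simp only [Pi.add_apply]
    ring
  simp only [e]
  rw [← tf_av1]
  simp only [av1, gw_add_const]

lemma tf_core0 {H ρ : S → ℝ} {H' : S' → ℝ} {C : S → S → ℝ} {C0 C' : S' → S' → ℝ} (hC : PSD C)
    (h0 : PSD C0) (h' : PSD fun s s' => C' s s' - C0 s s')
    (hb : PSD fun s s' => C (ψ s).1 (ψ s').1 - C0 s s')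
    (hH : ∀ s, H (ψ s).1 - ρ (ψ s).1 ≤ H' s)
    (hd : ∀ s, C (ψ s).1 (ψ s).1 - C0 s s ≤ ρ (ψ s).1) :
    Phi H C - 3 / 2 * Avg1 H C ρ ≤ Phi H' C' := by
  have h1 := cc0_lower (H0 := fun s => H (ψ s).1 + 0) (H' := H') (ρ := fun s => ρ (ψ s).1)
    (Cb := fun s s' => C (ψ s).1 (ψ s').1) h0 h' hb (fun s => by linarith [hH s]) hd
  rw [tf_Avg1 ψ H hC] at h1
  have h2 : (Fintype.card E : ℝ) ≠ 0 := by positivity
  simp only [Equiv.apply_symm_apply, Finset.sum_const, Finset.card_univ, nsmul_eq_mul,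
    mul_div_cancel_left₀ _ h2] at h1
  have h3 : Phi H C ≤ Phi (fun s => H (ψ s).1 + 0) fun s s' => C (ψ s).1 (ψ s').1 := by
    rw [Phi_add_const, add_zero, Phi, Phi, tf_pull hC (fun s => (ψ s).1) (cmp_meas_lz _)]
    have e : ∀ y : S → ℝ, lz ((fun s => H (ψ s).1) + fun s => y (ψ s).1) =
        lz (H + y) + Real.log (Fintype.card E) := fun y => tf_lz ψ (H + y)
    simp only [e]
    refine integral_mono (integrable_lz_gK H C) ((integrable_lz_gK H C).add (integrable_const _))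
      fun y => le_add_of_nonneg_right (Real.log_natCast_nonneg _)
  linarith

lemma tf_core {H : S → ℝ} {q : S → E → ℝ} {H' : S' → ℝ} {C : S → S → ℝ} {C0 C' : S' → S' → ℝ}
    {θ κ Bq : ℝ} (hC : PSD C) (h0 : PSD C0) (h' : PSD fun s s' => C' s s' - C0 s s')
    (hb : PSD fun s s' => C (ψ s).1 (ψ s').1 - C0 s s') (hq : ∀ s ε, 0 ≤ q s ε ∧ q s ε ≤ Bq)
    (hθ : 0 ≤ θ) (hθ1 : θ ≤ 1 / 4)
    (hH : ∀ s, |H' s - (H (ψ s).1 + κ - q (ψ s).1 (ψ s).2)| ≤ θ * (1 + q (ψ s).1 (ψ s).2))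
    (hd' : ∀ s, C' s s - C0 s s ≤ θ * (1 + q (ψ s).1 (ψ s).2))
    (hd : ∀ s, C (ψ s).1 (ψ s).1 - C0 s s ≤ θ * (1 + q (ψ s).1 (ψ s).2)) :
    |Phi H' C' - Phi H C - (Real.log (Fintype.card E) + κ) -
      ∫ y, Real.log (av1 (H + y) fun s => (∑ ε, Real.exp (-q s ε)) / Fintype.card E) ∂gK C| ≤
      2 * (θ * (1 + Avg1 H C fun s => (∑ ε, q s ε) / Fintype.card E)) ∧
    ∀ (n : ℕ) (F : (Fin n → S') → ℝ) (B : ℝ), (∀ σ, |F σ| ≤ B) →
      |Avg n H' C' F - ∫ y, av n (H + y) (fun c => (∑ ε : Fin n → E,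
          F (fun l => ψ.symm (c l, ε l)) * ∏ l, Real.exp (-q (c l) (ε l))) /
            (Fintype.card E : ℝ) ^ n) /
          (av1 (H + y) fun s => (∑ ε, Real.exp (-q s ε)) / Fintype.card E) ^ n ∂gK C| ≤
        15 * n * B * √(θ * (1 + Avg1 H C fun s => (∑ ε, q s ε) / Fintype.card E)) := by
  obtain ⟨h1, h2⟩ := cc (H0 := fun s => H (ψ s).1 + κ) (H' := H')
    (q := fun s => q (ψ s).1 (ψ s).2) (Cb := fun s s' => C (ψ s).1 (ψ s').1) h0 h' hb
    (fun s => (hq _ _).1) hθ hθ1 hH hd' hd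
  rw [tf_Avg1 ψ H hC] at h1 h2
  simp only [Equiv.apply_symm_apply] at h1 h2
  have e : ∀ y : S → ℝ, (((fun s => H (ψ s).1 + κ) - fun s => q (ψ s).1 (ψ s).2) +
      fun s => y (ψ s).1) = fun s => (H + y) (ψ s).1 + κ - q (ψ s).1 (ψ s).2 := fun y => by
    funext s
    simp only [Pi.add_apply, Pi.sub_apply]
    ring
  refine ⟨?_, fun n F B hF => ?_⟩
  · have i1 : Integrable (fun y => Real.log (av1 (H + y)
        fun s => (∑ ε, Real.exp (-q s ε)) / Fintype.card E)) (gK C) :=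
      rmb_integrable (B := Bq) (measurable_av1 (f := fun _ s =>
        (∑ ε, Real.exp (-q s ε)) / Fintype.card E) (cmp_meas H) fun _ => measurable_const).log
        fun y => tf_log_le _ fun s => tf_mean fun ε =>
          ⟨Real.exp_le_exp.2 (neg_le_neg (hq s ε).2), Real.exp_le_one_iff.2 (neg_nonpos.2 (hq s ε).1)⟩
    have i2 : Integrable (fun y => lz (H + y) + (Real.log (Fintype.card E) + κ)) (gK C) :=
      (integrable_lz_gK H C).add (integrable_const _)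
    rw [Phi.eq_1 (_ - _), tf_pull hC (fun s => (ψ s).1) (cmp_meas_lz _)] at h1
    simp only [e, tf_lz_tilt] at h1
    rw [integral_add i2 i1, integral_add (integrable_lz_gK H C) (integrable_const _),
      integral_const, probReal_univ, one_smul] at h1
    rw [← mul_assoc]
    refine le_trans (le_of_eq ?_) h1
    congr 1
    unfold Phi
    ring
  · have h3 := h2 n F B hF
    rw [Avg.eq_1 n (_ - _), tf_pull hC (fun s => (ψ s).1) (cmp_meas_av _ _ _)] at h3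
    simpa only [e, tf_av_tilt] using h3

end pull

section ker

variable {Sg : Type} [Fintype Sg] {r : ℕ} {b : ℕ → ℕ} {m : ℕ → ℝ} {P : Pr}

lemma tf_pow_sub {t t0 : ℝ} (h0 : 0 ≤ t0) (h1 : t0 ≤ t) (h2 : t ≤ 1) (p : ℕ) :
    t ^ p - t0 ^ p ≤ p * (t - t0) := by
  induction p with
  | zero => simp
  | succ p ih =>
    have h3 : t0 ^ p ≤ 1 := pow_le_one₀ h0 (h1.trans h2)
    have h4 : t0 ^ p ≤ t ^ p := pow_le_pow_left₀ h0 h1 p
    have h5 : t * (t ^ p - t0 ^ p) ≤ t ^ p - t0 ^ p :=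
      mul_le_of_le_one_left (sub_nonneg.2 h4) h2
    have h6 : t0 ^ p * (t - t0) ≤ t - t0 := mul_le_of_le_one_left (sub_nonneg.2 h1) h3
    push_cast
    rw [pow_succ, pow_succ]
    nlinarith

lemma tf_sum_quarter (M : ℕ) : ∑ p ∈ range M, (1 / 4 : ℝ) ^ p * p ≤ 1 / 2 := by
  have h : ∑ p ∈ range M, (1 / 4 : ℝ) ^ p * p = 4 / 9 - (1 / 4) ^ M * (4 * M / 3 + 4 / 9) := by
    induction M with
    | zero => simp
    | succ M ih =>
      rw [sum_range_succ, ih]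
      push_cast
      ring
  have : (0 : ℝ) ≤ (1 / 4) ^ M * (4 * M / 3 + 4 / 9) := by positivity
  linarith

omit [Fintype Sg] in
lemma tf_Cl {T T0 Q Q0 : Sg → Sg → ℝ} (hQ : ∀ l σ σ', P.a l * Q σ σ' = P.a l * Q0 σ σ') (l : ℕ)
    (σ σ' : Sg) : Cl P T Q l σ σ' - Cl P T0 Q0 l σ σ' = P.s ^ 2 * ∑ p ∈ range P.M,
      (1 / 4 : ℝ) ^ p * P.x (p, l) ^ 2 * (T σ σ' ^ p - T0 σ σ' ^ p) := by
  unfold Cl
  rw [hQ]
  simp only [mul_sub, sum_sub_distrib]
  ring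

lemma tf_ker {T T0 Q Q0 : Sg → Sg → ℝ} (hQ : ∀ l σ σ', P.a l * Q σ σ' = P.a l * Q0 σ σ')
    (p0 : PSD T0) (pD : PSD fun σ σ' => T σ σ' - T0 σ σ') :
    PSD fun c c' : Cfg r b Sg => Cm r b P T Q c c' - Cm r b P T0 Q0 c c' := by
  have hE : ∀ l ∈ range (r + 1), PSD fun σ σ' => Cl P T Q l σ σ' - Cl P T0 Q0 l σ σ' := by
    intro l _
    simp only [tf_Cl hQ]
    exact (psd_sum (C := fun p σ σ' =>
      (1 / 4 : ℝ) ^ p * P.x (p, l) ^ 2 * (T σ σ' ^ p - T0 σ σ' ^ p)) _ fun p _ =>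
        (p0.pow_sub pD p).smul (by positivity)).smul (sq_nonneg _)
  have h3 := rmb_psd_lev (b := b) hE
  have e : (fun c c' : Cfg r b Sg => Cm r b P T Q c c' - Cm r b P T0 Q0 c c') =
      fun c c' : Cfg r b Sg => ∑ l ∈ range (r + 1), if l ≤ lev 1 r c.2 c'.2 then
        Cl P T Q l c.1 c'.1 - Cl P T0 Q0 l c.1 c'.1 else 0 := by
    funext c c'
    unfold Cm
    rw [← sum_sub_distrib]
    exact sum_congr rfl fun l _ => by split_ifs <;> simp
  rw [e]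
  exact h3

lemma tf_diag (hP : P.Ok) {T T0 Q Q0 : Sg → Sg → ℝ}
    (hQ : ∀ l σ σ', P.a l * Q σ σ' = P.a l * Q0 σ σ') (p0 : PSD T0)
    (pD : PSD fun σ σ' => T σ σ' - T0 σ σ') (bT : ∀ σ, T σ σ ≤ 1) (c : Cfg r b Sg) :
    Cm r b P T Q c c - Cm r b P T0 Q0 c c ≤ (2 * r + 8) * P.s ^ 2 * (T c.1 c.1 - T0 c.1 c.1) := by
  have h0 := p0.diag_nonneg c.1
  have h1 : 0 ≤ T c.1 c.1 - T0 c.1 c.1 := pD.diag_nonneg c.1
  have h2 : ∀ l ∈ range (r + 1), Cl P T Q l c.1 c.1 - Cl P T0 Q0 l c.1 c.1 ≤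
      P.s ^ 2 * (2 * (T c.1 c.1 - T0 c.1 c.1)) := fun l _ => by
    rw [tf_Cl hQ]
    refine mul_le_mul_of_nonneg_left ?_ (sq_nonneg _)
    have h3 : ∑ p ∈ range P.M, (1 / 4 : ℝ) ^ p * P.x (p, l) ^ 2 * (T c.1 c.1 ^ p - T0 c.1 c.1 ^ p) ≤
        ∑ p ∈ range P.M, (1 / 4 : ℝ) ^ p * p * (4 * (T c.1 c.1 - T0 c.1 c.1)) :=
      sum_le_sum fun p _ => by
        obtain ⟨h4, h5⟩ := hP.box.2 (p, l)
        have h6 := tf_pow_sub h0 (sub_nonneg.1 h1) (bT c.1) p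
        have h7 : P.x (p, l) ^ 2 ≤ 4 := by nlinarith
        have h8 : P.x (p, l) ^ 2 * (T c.1 c.1 ^ p - T0 c.1 c.1 ^ p) ≤
            4 * (p * (T c.1 c.1 - T0 c.1 c.1)) :=
          mul_le_mul h7 h6 (sub_nonneg.2 (pow_le_pow_left₀ h0 (sub_nonneg.1 h1) p)) (by norm_num)
        have h9 := mul_le_mul_of_nonneg_left h8 (by positivity : (0 : ℝ) ≤ (1 / 4) ^ p)
        linarith
    rw [← sum_mul] at h3
    have h4 := mul_le_mul_of_nonneg_right (tf_sum_quarter P.M)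
      (by positivity : 0 ≤ 4 * (T c.1 c.1 - T0 c.1 c.1))
    linarith
  rw [Cm_diag, Cm_diag, ← sum_sub_distrib]
  refine (sum_le_sum h2).trans ?_
  rw [sum_const, card_range, nsmul_eq_mul]
  push_cast
  have h3 : 0 ≤ P.s ^ 2 * (T c.1 c.1 - T0 c.1 c.1) := by positivity
  nlinarith

/-- the self overlap term -/
lemma tf_self (hP : P.Ok) {t t' t0 ρ : ℝ} (h : t0 ≤ t) (h' : t0 ≤ t')
    (hd : (2 * r + 8) * P.s ^ 2 * (t - t0) ≤ ρ) :
    P.s ^ 2 * P.x0 * t - P.s ^ 2 * P.x0 * t' ≤ ρ / 2 := by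
  obtain ⟨h1, h2⟩ := hP.box.1
  have h3 : 0 ≤ P.s ^ 2 * (t - t0) := mul_nonneg (sq_nonneg _) (sub_nonneg.2 h)
  have h4 : 0 ≤ P.s ^ 2 * (t' - t0) := mul_nonneg (sq_nonneg _) (sub_nonneg.2 h')
  have h5 : 0 ≤ (r : ℝ) * (P.s ^ 2 * (t - t0)) := by positivity
  have h6 : P.x0 * (P.s ^ 2 * (t - t0)) ≤ 2 * (P.s ^ 2 * (t - t0)) :=
    mul_le_mul_of_nonneg_right h2 h3
  have h7 : 0 ≤ P.x0 * (P.s ^ 2 * (t' - t0)) := by positivity
  nlinarith

/-- configurations of the larger system -/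
def tfEq {Sg' E : Type} (e : Sg' ≃ Sg × E) : Cfg r b Sg' ≃ Cfg r b Sg × E where
  toFun c := (((e c.1).1, c.2), (e c.1).2)
  invFun p := (e.symm (p.1.1, p.2), p.1.2)
  left_inv c := by simp
  right_inv p := by simp

end ker

namespace RM

variable {r : ℕ} {b : ℕ → ℕ} {m : ℕ → ℝ} {P : Pr} (X : RM)

lemma tf_F (hm : MOk r m) (hP : P.Ok) : ∫ w : X.Ω × (Nd b 1 r → ℝ),
    Phi (Hm r b m P (X.h w.1) (X.T w.1) w.2) (Cm r b P (X.T w.1) (X.Q w.1))
      ∂X.P.prod (Pu b m 1 r) = X.F r b m P :=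
  integral_prod _ (X.rmb_integrable_Phi hm hP)

lemma tf_int_Avg (n : ℕ) {G : X.Ω → (Fin n → Cfg r b X.Sg) → ℝ}
    (hG : ∀ σ, Measurable fun ω => G ω σ) {B : ℝ} (hB : ∀ ω σ, |G ω σ| ≤ B) :
    Integrable (fun w : X.Ω × (Nd b 1 r → ℝ) =>
      Avg n (Hm r b m P (X.h w.1) (X.T w.1) w.2) (Cm r b P (X.T w.1) (X.Q w.1)) (G w.1))
      (X.P.prod (Pu b m 1 r)) :=
  rmb_integrable (rmb_measurable_Avg n (F := fun w : X.Ω × (Nd b 1 r → ℝ) => G w.1)
    (X.measurable_Hm r b m P) (fun c c' => (X.measurable_Cm r b P c c').comp measurable_fst)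
    fun σ => (hG σ).comp measurable_fst) fun w => abs_Avg_le n _ _ (hB w.1)

lemma tf_A (n : ℕ) {G : X.Ω → (Fin n → Cfg r b X.Sg) → ℝ}
    (hG : ∀ σ, Measurable fun ω => G ω σ) {B : ℝ} (hB : ∀ ω σ, |G ω σ| ≤ B) :
    ∫ w : X.Ω × (Nd b 1 r → ℝ),
      Avg n (Hm r b m P (X.h w.1) (X.T w.1) w.2) (Cm r b P (X.T w.1) (X.Q w.1)) (G w.1)
      ∂X.P.prod (Pu b m 1 r) = X.A r b m P n G :=
  integral_prod _ (X.tf_int_Avg n hG hB)

lemma tf_sys {f : X.Ω → (Cfg r b X.Sg → ℝ) → ℝ}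
    (hf : Measurable fun p : X.Ω × (Cfg r b X.Sg → ℝ) => f p.1 p.2) {B : ℝ}
    (hB : ∀ ω H, |f ω H| ≤ B) :
    Integrable (fun w : X.Ω × (Nd b 1 r → ℝ) => ∫ y, f w.1 (Hm r b m P (X.h w.1) (X.T w.1) w.2 + y)
      ∂gK (Cm r b P (X.T w.1) (X.Q w.1))) (X.P.prod (Pu b m 1 r)) ∧
    ∫ z, f z.1.1 ((X.sys r b m P).H z) ∂(X.sys r b m P).P =
      ∫ w : X.Ω × (Nd b 1 r → ℝ), ∫ y, f w.1 (Hm r b m P (X.h w.1) (X.T w.1) w.2 + y)
        ∂gK (Cm r b P (X.T w.1) (X.Q w.1)) ∂X.P.prod (Pu b m 1 r) := by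
  have h1 : Integrable (fun z => f z.1.1 ((X.sys r b m P).H z)) (X.sys r b m P).P :=
    rmb_integrable (hf.comp ((measurable_fst.comp measurable_fst).prodMk
      (measurable_pi_lambda _ (X.sys r b m P).mH))) fun z => hB _ _
  have e : ∀ w : X.Ω × (Nd b 1 r → ℝ),
      ∫ g, f w.1 ((X.sys r b m P).H (w, g)) ∂gam (Cfg r b X.Sg) =
        ∫ y, f w.1 (Hm r b m P (X.h w.1) (X.T w.1) w.2 + y) ∂gK (Cm r b P (X.T w.1) (X.Q w.1)) :=
    fun w => X.rmb_inner (f := f w.1) (hf.comp (measurable_const.prodMk measurable_id)) w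
  refine ⟨h1.integral_prod_left.congr (Eventually.of_forall e), ?_⟩
  refine (integral_prod _ h1).trans ?_
  simp only [e]

end RM

lemma tf_mp {Ω Ω' Z : Type} [MeasurableSpace Ω] [MeasurableSpace Ω'] [MeasurableSpace Z]
    {μ : Measure Ω} {μ' : Measure Ω'} {ν : Measure Z} [IsProbabilityMeasure μ]
    [IsProbabilityMeasure ν] {φ : Ω → Ω'} (hφ : MeasurePreserving φ μ μ') {f : Ω' × Z → ℝ}
    (hf : Integrable f (μ'.prod ν)) :
    Integrable (fun w : Ω × Z => f (φ w.1, w.2)) (μ.prod ν) ∧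
      ∫ w : Ω × Z, f (φ w.1, w.2) ∂μ.prod ν = ∫ w, f w ∂μ'.prod ν := by
  have h := hφ.prod (MeasurePreserving.id ν)
  refine ⟨h.integrable_comp_of_integrable hf, ?_⟩
  rw [← h.map_eq, integral_map h.measurable.aemeasurable (by rw [h.map_eq]; exact hf.1)]
  rfl

end

end Vale.Agent.P166
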