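import Vale.Agent.P166.RMB
import Vale.Agent.P166.TfA

/-! P166 Tf: transfer between a base system and a system obtained by a small tilt (possibly with one more finite variable in E).
Plan. Fix omega and u. On S = Cfg X'.Sg use cc (resp. cc0_lower) with H0 = Hm of X pulled back along c -> ((e c.1).1, c.2) (plus kappa, Phi_add_const), Cb = pulled back Cm, C' = Cm of X', C0 = Cm built from T0 and X'.Q.
The differences of kernels are PSD (PSD.pow_sub, psd_lev, psd_sum). Diagonal: T^p - T0^p <= p (T - T0) on [0,1], sum p (1/4)^p <= 4/9 (or <= 1/2), x^2 <= 4, r+1 levels; the self overlap term changes by at most 2 s^2 max (T' - T0) (T - T0).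
By gK_comp the pulled back field is the base field composed with the projection, and the sum over Cfg X'.Sg is the sum over Cfg X.Sg x E: lz (pulled back H - q) = lz H + log card E + log av1 H (mean of exp (-q)), similarly for av (av_tilt)
and Avg1 H0 Cb q = Avg1 of the mean of q. Integrate in u and omega (integral_gK, integral_prod; E sqrt <= sqrt E). Fm_crude is the deterministic statement used in eso. -/

open MeasureTheory ProbabilityTheory Filter Topology Matrix Finset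

namespace Vale.Agent.P166

noncomputable section

variable {r : ℕ} {b : ℕ → ℕ} {m : ℕ → ℝ} {P : Pr}

theorem Fm_crude {Sg : Type} [Fintype Sg] [Nonempty Sg] (hm : MOk r m) (hP : P.Ok)
    {h h' ρ : Sg → ℝ} {T T' Q : Sg → Sg → ℝ} (pT : PSD T') (pQ : PSD Q)
    (pD : PSD fun σ σ' => T σ σ' - T' σ σ') (bT : ∀ σ, T σ σ ≤ 1)
    (h1 : ∀ σ, h' σ ≤ h σ) (h2 : ∀ σ, h σ - ρ σ / 2 ≤ h' σ)
    (h3 : ∀ σ, (2 * r + 8) * P.s ^ 2 * (T σ σ - T' σ σ) ≤ ρ σ) :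
    Fm r b m P h' T' Q ≤ Fm r b m P h T Q ∧
      Fm r b m P h T Q - 3 / 2 * Am r b m P h T Q 1 (fun c => ρ (c 0).1) ≤ Fm r b m P h' T' Q := by
  have pT0 : PSD T := by simpa only [add_sub_cancel] using pT.add pD
  have hE := tf_ker (r := r) (b := b) (P := P) (Q := Q) (Q0 := Q) (fun _ _ _ => rfl) pT pD
  have hC' := psd_Cm (r := r) (b := b) hP.a_nonneg pT pQ
  have hle : ∀ σ, T' σ σ ≤ T σ σ := fun σ => sub_nonneg.1 (pD.diag_nonneg σ)
  have i1 := integrable_Phi_Hm (b := b) hm hP.a_nonneg h' pT pQ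
  have i2 := integrable_Phi_Hm (b := b) hm hP.a_nonneg h pT0 pQ
  have bρ : ∀ σ, |ρ σ| ≤ ∑ σ, |ρ σ| := fun σ =>
    single_le_sum (f := fun σ => |ρ σ|) (fun _ _ => abs_nonneg _) (mem_univ σ)
  have i3 : Integrable (fun u => Avg 1 (Hm r b m P h T u) (Cm r b P T Q) fun c => ρ (c 0).1)
      (Pu b m 1 r) :=
    rmb_integrable (B := ∑ σ, |ρ σ|) (rmb_measurable_Avg 1 (F := fun _ c => ρ (c 0).1)
      (C := fun _ => Cm r b P T Q) (rmb_measurable_Hm h T) (fun _ _ => measurable_const)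
      fun _ => measurable_const) fun u => abs_Avg_le 1 _ _ fun c => bρ (c 0).1
  refine ⟨integral_mono i1 i2 fun u => (Phi_le_add _ hC' hE).trans (Phi_mono (fun c => ?_) _), ?_⟩
  · have h4 := mul_le_mul_of_nonneg_left (hle c.1)
      (mul_nonneg (sq_nonneg P.s) (zero_le_one.trans hP.box.1.1))
    unfold Hm
    linarith [h1 c.1]
  · have h4 := fun u => cc0_lower (H0 := Hm r b m P h T u) (H' := Hm r b m P h' T' u)
      (ρ := fun c => ρ c.1) (C' := Cm r b P T' Q) (Cb := Cm r b P T Q) hC'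
      (by simpa only [sub_self] using psd_zero) hE
      (fun c => by
        have h5 := tf_self hP (hle c.1) le_rfl (h3 c.1)
        unfold Hm
        linarith [h2 c.1])
      fun c => (tf_diag hP (fun _ _ _ => rfl) pT pD bT c).trans (h3 c.1)
    simp only [← Avg_one] at h4
    have i4 : Integrable (fun u => Phi (Hm r b m P h T u) (Cm r b P T Q) -
        3 / 2 * Avg 1 (Hm r b m P h T u) (Cm r b P T Q) fun c => ρ (c 0).1) (Pu b m 1 r) :=
      i2.sub (i3.const_mul _)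
    have h5 := integral_mono i4 i1 h4
    rwa [integral_sub i2 (i3.const_mul _), integral_const_mul] at h5

variable (X X' : RM) (φ : X.Ω → X'.Ω) {E : Type} [Fintype E] [Nonempty E] (e : X'.Sg ≃ X.Sg × E)
  (T0 : X.Ω → X'.Sg → X'.Sg → ℝ)

/-- common part of the covariances -/
structure Com : Prop where
  mp : MeasurePreserving φ X.P X'.P
  hQ : ∀ l ω σ σ', P.a l * X'.Q (φ ω) σ σ' = P.a l * X.Q ω (e σ).1 (e σ').1
  p0 : ∀ ω, PSD (T0 ω)
  p1 : ∀ ω, PSD fun σ σ' => X'.T (φ ω) σ σ' - T0 ω σ σ'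
  p2 : ∀ ω, PSD fun σ σ' => X.T ω (e σ).1 (e σ').1 - T0 ω σ σ'

omit [Fintype E] [Nonempty E] in
variable {X X' φ e T0} in
lemma Com.ker (hc : Com (P := P) X X' φ e T0) (hP : P.Ok) (ω : X.Ω) :
    PSD (Cm r b P (T0 ω) (X'.Q (φ ω))) ∧
    PSD (fun c c' => Cm r b P (X'.T (φ ω)) (X'.Q (φ ω)) c c' -
      Cm r b P (T0 ω) (X'.Q (φ ω)) c c') ∧
    PSD (fun c c' => Cm r b P (X.T ω) (X.Q ω) (tfEq e c).1 (tfEq e c').1 -
      Cm r b P (T0 ω) (X'.Q (φ ω)) c c') ∧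
    (∀ c, Cm r b P (X'.T (φ ω)) (X'.Q (φ ω)) c c - Cm r b P (T0 ω) (X'.Q (φ ω)) c c ≤
      (2 * r + 8) * P.s ^ 2 * (X'.T (φ ω) c.1 c.1 - T0 ω c.1 c.1)) ∧
    ∀ c, Cm r b P (X.T ω) (X.Q ω) (tfEq e c).1 (tfEq e c).1 - Cm r b P (T0 ω) (X'.Q (φ ω)) c c ≤
      (2 * r + 8) * P.s ^ 2 * (X.T ω (e c.1).1 (e c.1).1 - T0 ω c.1 c.1) :=
  ⟨psd_Cm hP.a_nonneg (hc.p0 ω) (X'.pQ _), tf_ker (fun _ _ _ => rfl) (hc.p0 ω) (hc.p1 ω),
    tf_ker (T := fun σ σ' => X.T ω (e σ).1 (e σ').1) (Q := fun σ σ' => X.Q ω (e σ).1 (e σ').1)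
      (fun l σ σ' => (hc.hQ l ω σ σ').symm) (hc.p0 ω) (hc.p2 ω),
    tf_diag hP (fun _ _ _ => rfl) (hc.p0 ω) (hc.p1 ω) fun _ => (abs_le.1 (X'.bT _ _ _)).2,
    tf_diag hP (T := fun σ σ' => X.T ω (e σ).1 (e σ').1)
      (Q := fun σ σ' => X.Q ω (e σ).1 (e σ').1) (fun l σ σ' => (hc.hQ l ω σ σ').symm) (hc.p0 ω)
      (hc.p2 ω) fun _ => (abs_le.1 (X.bT _ _ _)).2⟩

theorem tf0 (hm : MOk r m) (hP : P.Ok) (hc : Com (P := P) X X' φ e T0) {ρ : X.Ω → X.Sg → ℝ}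
    (mρ : ∀ σ, Measurable fun ω => ρ ω σ) {Bρ : ℝ} (bρ : ∀ ω σ, |ρ ω σ| ≤ Bρ)
    (hh : ∀ ω σ, X.h ω (e σ).1 - ρ ω (e σ).1 / 2 ≤ X'.h (φ ω) σ)
    (hd : ∀ ω σ, (2 * r + 8) * P.s ^ 2 * (X.T ω (e σ).1 (e σ).1 - T0 ω σ σ) ≤ ρ ω (e σ).1) :
    X.F r b m P - 3 / 2 * X.A r b m P 1 (fun ω c => ρ ω (c 0).1) ≤ X'.F r b m P := by
  have mG : ∀ c : Fin 1 → Cfg r b X.Sg, Measurable fun ω => ρ ω (c 0).1 := fun c => mρ _
  have bG : ∀ ω (c : Fin 1 → Cfg r b X.Sg), |ρ ω (c 0).1| ≤ Bρ := fun ω c => bρ ω _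
  obtain ⟨i1, e1⟩ := tf_mp hc.mp (X'.rmb_integrable_Phi (b := b) hm hP)
  have i2 := X.rmb_integrable_Phi (b := b) hm hP
  have i3 := (X.tf_int_Avg (m := m) (P := P) 1 mG bG).const_mul (3 / 2)
  rw [← X.tf_F hm hP, ← X'.tf_F hm hP, ← X.tf_A 1 mG bG, ← e1, ← integral_const_mul,
    ← integral_sub i2 i3]
  refine integral_mono (i2.sub i3) i1 fun w => ?_
  obtain ⟨k0, k1, k2, k3, k4⟩ := hc.ker (r := r) (b := b) hP w.1
  have h4 := tf_core0 (tfEq e) (H := Hm r b m P (X.h w.1) (X.T w.1) w.2)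
    (H' := Hm r b m P (X'.h (φ w.1)) (X'.T (φ w.1)) w.2) (ρ := fun c => ρ w.1 c.1)
    (psd_Cm hP.a_nonneg (X.pT w.1) (X.pQ w.1)) k0 k1 k2 (fun c => by
      have h5 := tf_self hP (sub_nonneg.1 ((hc.p2 w.1).diag_nonneg c.1))
        (sub_nonneg.1 ((hc.p1 w.1).diag_nonneg c.1)) (hd w.1 c.1)
      have h6 := hh w.1 c.1
      simp only [Hm, tfEq, Equiv.coe_fn_mk]
      linarith) fun c => (k4 c).trans (hd w.1 c.1)
  rwa [← Avg_one] at h4

lemma tf_comb {Ω : Type} [MeasurableSpace Ω] {μ : Measure Ω} [IsProbabilityMeasure μ]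
    {f1 f2 f3 D : Ω → ℝ} {c : ℝ} (h1 : Integrable f1 μ) (h2 : Integrable f2 μ)
    (h3 : Integrable f3 μ) (hD : Integrable D μ) (h : ∀ x, |f1 x - f2 x - c - f3 x| ≤ 2 * D x) :
    |∫ x, f1 x ∂μ - ∫ x, f2 x ∂μ - c - ∫ x, f3 x ∂μ| ≤ 2 * ∫ x, D x ∂μ := by
  have h4 := norm_integral_le_of_norm_le (f := fun x => f1 x - f2 x - c - f3 x) (hD.const_mul 2)
    (Eventually.of_forall h)
  have h5 : Integrable (fun x => f1 x - f2 x) μ := h1.sub h2
  have h6 : Integrable (fun x => f1 x - f2 x - c) μ := h5.sub (integrable_const c)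
  rwa [integral_sub h6 h3, integral_sub h5 (integrable_const c), integral_sub h1 h2,
    integral_const, probReal_univ, one_smul, integral_const_mul] at h4

theorem tf (hm : MOk r m) (hP : P.Ok) (hc : Com (P := P) X X' φ e T0) {q : X.Ω → X.Sg → E → ℝ}
    (mq : ∀ σ ε, Measurable fun ω => q ω σ ε) {Bq : ℝ} (bq : ∀ ω σ ε, 0 ≤ q ω σ ε ∧ q ω σ ε ≤ Bq)
    {κ θ Mq : ℝ} (hθ : 0 ≤ θ) (hθ1 : θ ≤ 1 / 4)
    (hh : ∀ ω σ, |X'.h (φ ω) σ - (X.h ω (e σ).1 - q ω (e σ).1 (e σ).2 + κ)| ≤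
      θ / 2 * (1 + q ω (e σ).1 (e σ).2))
    (d1 : ∀ ω σ, (2 * r + 8) * P.s ^ 2 * (X'.T (φ ω) σ σ - T0 ω σ σ) ≤
      θ * (1 + q ω (e σ).1 (e σ).2))
    (d2 : ∀ ω σ, (2 * r + 8) * P.s ^ 2 * (X.T ω (e σ).1 (e σ).1 - T0 ω σ σ) ≤
      θ * (1 + q ω (e σ).1 (e σ).2))
    (hM : X.A r b m P 1 (fun ω c => (∑ ε, q ω (c 0).1 ε) / Fintype.card E) ≤ Mq) :
    |X'.F r b m P - X.F r b m P - Real.log (Fintype.card E) - κ -
        ∫ z, Real.log (av1 ((X.sys r b m P).H z)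
          fun c => (∑ ε, Real.exp (-q z.1.1 c.1 ε)) / Fintype.card E) ∂(X.sys r b m P).P| ≤
      2 * θ * (1 + Mq) ∧
    ∀ (n : ℕ) (G : X'.Ω → (Fin n → Cfg r b X'.Sg) → ℝ) (B : ℝ),
      (∀ c, Measurable fun ω => G ω c) → (∀ ω c, |G ω c| ≤ B) →
      |X'.A r b m P n G - ∫ z, av n ((X.sys r b m P).H z) (fun c => (∑ ε : Fin n → E,
            G (φ z.1.1) (fun l => (e.symm ((c l).1, ε l), (c l).2)) *
              ∏ l, Real.exp (-q z.1.1 (c l).1 (ε l))) / (Fintype.card E : ℝ) ^ n) /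
          (av1 ((X.sys r b m P).H z)
            fun c => (∑ ε, Real.exp (-q z.1.1 c.1 ε)) / Fintype.card E) ^ n ∂(X.sys r b m P).P| ≤
        15 * n * B * √(θ * (1 + Mq)) := by
  have mG : ∀ c : Fin 1 → Cfg r b X.Sg,
      Measurable fun ω => (∑ ε, q ω (c 0).1 ε) / Fintype.card E := fun c =>
    (Finset.measurable_sum _ fun ε _ => mq _ ε).div_const _
  have bG0 : ∀ ω σ, 0 ≤ (∑ ε, q ω σ ε) / Fintype.card E ∧
      (∑ ε, q ω σ ε) / Fintype.card E ≤ Bq := fun ω σ => tf_mean (bq ω σ)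
  have bG : ∀ ω (c : Fin 1 → Cfg r b X.Sg), |(∑ ε, q ω (c 0).1 ε) / Fintype.card E| ≤ Bq :=
    fun ω c => by rw [abs_of_nonneg (bG0 ω _).1]; exact (bG0 ω _).2
  have key := fun w : X.Ω × (Nd b 1 r → ℝ) => tf_core (tfEq e)
    (H := Hm r b m P (X.h w.1) (X.T w.1) w.2) (q := fun c ε => q w.1 c.1 ε) (κ := κ) (Bq := Bq)
    (H' := Hm r b m P (X'.h (φ w.1)) (X'.T (φ w.1)) w.2)
    (psd_Cm hP.a_nonneg (X.pT w.1) (X.pQ w.1)) (hc.ker hP w.1).1 (hc.ker hP w.1).2.1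
    (hc.ker hP w.1).2.2.1 (fun c ε => bq w.1 c.1 ε) hθ hθ1 (fun c => by
      have h1 := sub_nonneg.1 ((hc.p1 w.1).diag_nonneg c.1)
      have h2 := sub_nonneg.1 ((hc.p2 w.1).diag_nonneg c.1)
      have h5 := tf_self hP h2 h1 (d2 w.1 c.1)
      have h6 := tf_self hP h1 h2 (d1 w.1 c.1)
      obtain ⟨h7, h8⟩ := abs_le.1 (hh w.1 c.1)
      simp only [Hm, tfEq, Equiv.coe_fn_mk]
      rw [abs_le]
      constructor <;> linarith)
    (fun c => ((hc.ker hP w.1).2.2.2.1 c).trans (d1 w.1 c.1))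
    (fun c => ((hc.ker hP w.1).2.2.2.2 c).trans (d2 w.1 c.1))
  simp only [← Avg_one] at key
  have i3 := X.tf_int_Avg (m := m) (P := P) 1 mG bG
  have iD := ((integrable_const (1 : ℝ)).add i3).const_mul θ
  have eD : ∫ w : X.Ω × (Nd b 1 r → ℝ), θ * (1 + Avg 1 (Hm r b m P (X.h w.1) (X.T w.1) w.2)
      (Cm r b P (X.T w.1) (X.Q w.1)) fun c => (∑ ε, q w.1 (c 0).1 ε) / Fintype.card E)
      ∂X.P.prod (Pu b m 1 r) ≤ θ * (1 + Mq) := by
    rw [integral_const_mul, integral_add (integrable_const _) i3, integral_const, probReal_univ,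
      one_smul, X.tf_A 1 mG bG]
    exact mul_le_mul_of_nonneg_left (by linarith) hθ
  have mq1 : ∀ σ ε, Measurable fun p : X.Ω × (Cfg r b X.Sg → ℝ) => q p.1 σ ε := fun σ ε =>
    (mq σ ε).comp measurable_fst
  have mq2 : ∀ σ ε, Measurable fun p : X.Ω × (Cfg r b X.Sg → ℝ) => Real.exp (-q p.1 σ ε) :=
    fun σ ε => (mq1 σ ε).neg.exp
  have mH : ∀ c, Measurable fun p : X.Ω × (Cfg r b X.Sg → ℝ) => p.2 c := fun c =>
    (measurable_pi_apply c).comp measurable_snd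
  have mW : Measurable fun p : X.Ω × (Cfg r b X.Sg → ℝ) =>
      av1 p.2 fun c => (∑ ε, Real.exp (-q p.1 c.1 ε)) / Fintype.card E :=
    measurable_av1 (f := fun (p : X.Ω × (Cfg r b X.Sg → ℝ)) c =>
      (∑ ε, Real.exp (-q p.1 c.1 ε)) / Fintype.card E)
      (H := fun p => p.2) mH fun c => (Finset.measurable_sum _ fun ε _ => mq2 c.1 ε).div_const _
  refine ⟨?_, fun n G B mG' bG' => ?_⟩
  · obtain ⟨i1, e1⟩ := tf_mp hc.mp (X'.rmb_integrable_Phi (b := b) hm hP)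
    have i2 := X.rmb_integrable_Phi (b := b) hm hP
    obtain ⟨i4, e4⟩ := X.tf_sys (m := m) (P := P) (B := Bq) (f := fun ω H => Real.log
      (av1 H fun c => (∑ ε, Real.exp (-q ω c.1 ε)) / Fintype.card E)) mW.log
      fun ω H => tf_log_le _ fun c => tf_mean fun ε =>
        ⟨Real.exp_le_exp.2 (neg_le_neg (bq ω c.1 ε).2),
          Real.exp_le_one_iff.2 (neg_nonpos.2 (bq ω c.1 ε).1)⟩
    have h1 := tf_comb i1 i2 i4 iD fun w => (key w).1
    rw [e1, X'.tf_F hm hP, X.tf_F hm hP, ← e4] at h1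
    rw [sub_sub _ (Real.log _), mul_assoc]
    exact h1.trans (mul_le_mul_of_nonneg_left eD zero_le_two)
  · obtain ⟨i1, e1⟩ := tf_mp hc.mp (X'.tf_int_Avg (m := m) (P := P) n mG' bG')
    have hB : 0 ≤ B := (abs_nonneg _).trans (bG' (φ (X.P.nonempty_of_neZero.some))
      fun _ => Classical.arbitrary _)
    have mG1 : ∀ c, Measurable fun p : X.Ω × (Cfg r b X.Sg → ℝ) => G (φ p.1) c := fun c =>
      ((mG' c).comp hc.mp.measurable).comp measurable_fst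
    obtain ⟨i4, e4⟩ := X.tf_sys (m := m) (P := P) (B := B) (f := fun ω H =>
      av n H (fun c => (∑ ε : Fin n → E, G (φ ω) (fun l => (e.symm ((c l).1, ε l), (c l).2)) *
        ∏ l, Real.exp (-q ω (c l).1 (ε l))) / (Fintype.card E : ℝ) ^ n) /
      (av1 H fun c => (∑ ε, Real.exp (-q ω c.1 ε)) / Fintype.card E) ^ n)
      ((measurable_av n (F := fun (p : X.Ω × (Cfg r b X.Sg → ℝ)) c => (∑ ε : Fin n → E,
          G (φ p.1) (fun l => (e.symm ((c l).1, ε l), (c l).2)) *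
            ∏ l, Real.exp (-q p.1 (c l).1 (ε l))) / (Fintype.card E : ℝ) ^ n)
        (H := fun p => p.2) mH fun c => (Finset.measurable_sum _ fun ε _ => (mG1 _).mul
          (Finset.measurable_prod _ fun l _ => mq2 _ _)).div_const _).div (mW.pow_const n))
      fun ω H => (congrArg abs (tf_av_tilt (tfEq e) n H (fun c ε => q ω c.1 ε) 0
        (G (φ ω)))).ge.trans (abs_av_le_const n _ (bG' _))
    have h1 := cmp_tv i1 i4 iD (K := 15 * n * B) (by positivity)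
      (fun w => mul_nonneg hθ (add_nonneg zero_le_one (integral_nonneg fun y =>
        (av_const 1 _ 0).ge.trans (av_mono 1 _
          fun c : Fin 1 → Cfg r b X.Sg => (bG0 w.1 (c 0).1).1))))
      fun w => (key w).2 n (G (φ w.1)) B (bG' _)
    rw [e1, X'.tf_A n mG' bG', ← e4] at h1
    exact h1.trans (mul_le_mul_of_nonneg_left (Real.sqrt_le_sqrt eD) (by positivity))

end

end Vale.Agent.P166
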