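import Vale.Agent.P166.Es1
import Vale.Agent.P166.Es2
import Vale.Agent.P166.Tf
import Vale.Agent.P166.Cont

/-! P166 Es3: fluctuations of the free energy in the Haar matrix are of order sqrt N. -/

open MeasureTheory ProbabilityTheory Filter Topology Matrix Finset

namespace Vale.Agent.P166

noncomputable section

section aux

variable {Ω : Type} [MeasurableSpace Ω] {μ : Measure Ω} [IsProbabilityMeasure μ]

lemma es3_abs {X : Ω → ℝ} (hX : Measurable X) {B K : ℝ} (hB : ∀ ω, |X ω| ≤ B) (hK : 0 ≤ K)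
    (h : ∫ ω, X ω ^ 2 ∂μ ≤ K ^ 2) : ∫ ω, |X ω| ∂μ ≤ K := by
  obtain ⟨c, hc⟩ : ∃ c, c = ∫ ω, |X ω| ∂μ := ⟨_, rfl⟩
  have h1 : Integrable (fun ω => |X ω|) μ := rmb_integrable hX.abs fun ω => by
    rw [abs_abs]; exact hB ω
  have h2 : Integrable (fun ω => X ω ^ 2) μ := rmb_integrable (hX.pow_const 2) (B := B ^ 2)
    fun ω => by rw [abs_pow]; exact pow_le_pow_left₀ (abs_nonneg _) (hB ω) 2
  have h3 : ∫ ω, (2 * c * |X ω| - c ^ 2) ∂μ ≤ ∫ ω, X ω ^ 2 ∂μ :=
    integral_mono ((h1.const_mul _).sub (integrable_const _)) h2 fun ω => by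
      have := sq_abs (X ω)
      dsimp only
      nlinarith [sq_nonneg (|X ω| - c)]
  rw [integral_sub (h1.const_mul _) (integrable_const _), integral_const_mul, integral_const,
    probReal_univ, one_smul, ← hc] at h3
  rw [← hc]
  exact (le_abs_self c).trans (abs_le_of_sq_le_sq (by nlinarith) hK)

omit [IsProbabilityMeasure μ] in
lemma es3_cs {I : Type} (s : Finset I) {q : I → ℝ} (hq : ∀ i ∈ s, 0 ≤ q i) {c M : ℝ}
    (hc : ∑ i ∈ s, q i ≤ c) (hM : 0 ≤ M) {z : I → Ω → ℝ}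
    (hz : ∀ i ∈ s, Integrable (fun ω => z i ω ^ 2) μ) (hz' : ∀ i ∈ s, ∫ ω, z i ω ^ 2 ∂μ ≤ M)
    {X : Ω → ℝ} (hX : ∀ ω, 0 ≤ X ω ∧ X ω ≤ ∑ i ∈ s, q i * z i ω) :
    ∫ ω, X ω ^ 2 ∂μ ≤ c ^ 2 * M := by
  have h0 : 0 ≤ ∑ i ∈ s, q i := Finset.sum_nonneg hq
  have h1 : Integrable (fun ω => ∑ i ∈ s, q i * z i ω ^ 2) μ :=
    integrable_finsetSum _ fun i hi => (hz i hi).const_mul _
  have h2 : ∫ ω, X ω ^ 2 ∂μ ≤ ∫ ω, (∑ i ∈ s, q i) * ∑ i ∈ s, q i * z i ω ^ 2 ∂μ :=
    integral_mono_of_nonneg (Eventually.of_forall fun _ => sq_nonneg _) (h1.const_mul _)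
      (Eventually.of_forall fun ω => (pow_le_pow_left₀ (hX ω).1 (hX ω).2 2).trans
        (Finset.sum_sq_le_sum_mul_sum_of_sq_le_mul s hq
          (fun i hi => mul_nonneg (hq i hi) (sq_nonneg _)) fun i _ => le_of_eq (by ring)))
  rw [integral_const_mul, integral_finsetSum _ fun i hi => (hz i hi).const_mul _] at h2
  have h3 : ∑ i ∈ s, ∫ ω, q i * z i ω ^ 2 ∂μ ≤ (∑ i ∈ s, q i) * M := by
    rw [Finset.sum_mul]
    refine Finset.sum_le_sum fun i hi => ?_
    rw [integral_const_mul]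
    exact mul_le_mul_of_nonneg_left (hz' i hi) (hq i hi)
  refine h2.trans ((mul_le_mul_of_nonneg_left h3 h0).trans ?_)
  rw [← mul_assoc, ← sq]
  exact mul_le_mul_of_nonneg_right (pow_le_pow_left₀ h0 hc 2) hM

lemma es3_tele (A : ℕ → ℝ) {i N : ℕ} (h : i ≤ N) :
    ∑ k ∈ range N, (if i < k + 1 then A k - A (k + 1) else 0) = A i - A N := by
  induction N, h using Nat.le_induction with
  | base =>
    rw [sub_self]
    exact Finset.sum_eq_zero fun k hk => if_neg (by have := mem_range.1 hk; omega)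
  | succ N h ih =>
    rw [Finset.sum_range_succ, ih, if_pos (by omega)]
    ring

variable {Sg : Type} [Fintype Sg] {r : ℕ} {b : ℕ → ℕ} {m : ℕ → ℝ} {P : Pr}

lemma es3_mFm {h : Ω → Sg → ℝ} {T : Ω → Sg → Sg → ℝ} (Q : Sg → Sg → ℝ)
    (mh : ∀ σ, Measurable fun ω => h ω σ) (mT : ∀ σ σ', Measurable fun ω => T ω σ σ') :
    Measurable fun ω => Fm r b m P (h ω) (T ω) Q := by
  refine (rmb_measurable_Phi (Ω := Ω × (Nd b 1 r → ℝ))
    (H := fun w => Hm r b m P (h w.1) (T w.1) w.2) (C := fun w => Cm r b P (T w.1) Q)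
    (fun c => ?_) fun c c' => ?_).stronglyMeasurable.integral_prod_right'.measurable
  · unfold Hm
    exact (((mh _).comp measurable_fst).add (((mT _ _).comp measurable_fst).const_mul _)).add
      ((continuous_lw m 1 r c.2).measurable.comp measurable_snd)
  · unfold Cm Cl
    refine Finset.measurable_sum _ fun l _ => ?_
    split_ifs
    · exact measurable_const.add ((Finset.measurable_sum _ fun p _ =>
        (((mT _ _).comp measurable_fst).pow_const p).const_mul _).const_mul _)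
    · exact measurable_const

lemma es3_weights [Nonempty Sg] (h : Sg → ℝ) (T Q : Sg → Sg → ℝ) : ∃ p : Sg → ℝ,
    (∀ σ, 0 ≤ p σ) ∧ ∑ σ, p σ = 1 ∧
      ∀ ρ : Sg → ℝ, Am r b m P h T Q 1 (fun c => ρ (c 0).1) = ∑ σ, ρ σ * p σ := by
  classical
  have key : ∀ ρ : Sg → ℝ, Am r b m P h T Q 1 (fun c => ρ (c 0).1) =
      ∑ σ, ρ σ * Am r b m P h T Q 1 fun c => if (c 0).1 = σ then 1 else 0 := fun ρ => by
    have e : (fun c : Fin 1 → Cfg r b Sg => ρ (c 0).1) =
        fun c => ∑ σ, ρ σ * if (c 0).1 = σ then 1 else 0 := by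
      funext c
      simp
    have e1 : ∀ u, Avg 1 (Hm r b m P h T u) (Cm r b P T Q) (fun c => ρ (c 0).1) =
        ∑ σ, ρ σ * Avg 1 (Hm r b m P h T u) (Cm r b P T Q)
          fun c => if (c 0).1 = σ then 1 else 0 := fun u => by
      simp only [e, Avg, av_sum, av_mul_left]
      rw [integral_finsetSum _ fun σ _ => (integrable_av_gK 1 _ _ _).const_mul _]
      simp only [integral_const_mul]
    simp only [Am, e1]
    have hI : ∀ σ, Integrable (fun u => Avg 1 (Hm r b m P h T u) (Cm r b P T Q)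
        fun c => if (c 0).1 = σ then 1 else 0) (Pu b m 1 r) := fun σ =>
      rmb_integrable (B := 1) (rmb_measurable_Avg 1 (rmb_measurable_Hm h T)
        (fun _ _ => measurable_const) fun _ => measurable_const)
        fun u => abs_Avg_le 1 _ _ fun c => by split_ifs <;> simp
    rw [integral_finsetSum _ fun σ _ => (hI σ).const_mul _]
    simp only [integral_const_mul]
  refine ⟨fun σ => Am r b m P h T Q 1 fun c => if (c 0).1 = σ then 1 else 0,
    fun σ => integral_nonneg fun u => integral_nonneg fun y => ?_, ?_, key⟩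
  · exact (av_const 1 _ 0).ge.trans (av_mono 1 _ fun c => by split_ifs <;> simp)
  · have h1 := key fun _ => 1
    simp only [one_mul] at h1
    rw [← h1]
    simp only [Am, Avg, av_const, integral_const, probReal_univ, one_smul]

end aux

variable {ι : Type} [Fintype ι] [DecidableEq ι] {r : ℕ} {b : ℕ → ℕ} {m : ℕ → ℝ} {P : Pr} {n : ℕ}

/-- spin vector -/
def es3s (σ : ι → Bool) (i : ι) : ℝ := spin (σ i)

/-- quadratic form -/
def es3q (A : ι → ι → ℝ) (σ σ' : ι → Bool) : ℝ := es3s σ ⬝ᵥ (Matrix.of A *ᵥ es3s σ')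

/-- energy -/
def es3h (n : ℕ) (δ : ℕ → ℝ) (c0 : ℝ) (A : ℕ → ι → ι → ℝ) (σ : ι → Bool) : ℝ :=
  c0 - (∑ k ∈ range n, δ k * es3q (A (k + 1)) σ σ) / 2

/-- top overlap -/
def es3T (n N0 : ℕ) (A : ℕ → ι → ι → ℝ) (σ σ' : ι → Bool) : ℝ :=
  (es3s σ ⬝ᵥ es3s σ' - es3q (A n) σ σ') / N0

/-- free energy -/
def es3F (r : ℕ) (b : ℕ → ℕ) (m : ℕ → ℝ) (P : Pr) (n N0 : ℕ) (δ : ℕ → ℝ) (c0 : ℝ)
    (A : ℕ → ι → ι → ℝ) : ℝ :=
  Fm r b m P (es3h n δ c0 A) (es3T n N0 A) fun σ σ' => es3s σ ⬝ᵥ es3s σ'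

omit [DecidableEq ι] in
lemma es3_ss (σ : ι → Bool) : es3s σ ⬝ᵥ es3s σ = Fintype.card ι := by
  simp [dotProduct, es3s, ← sq, spin_sq]

lemma es3_psdQ : PSD fun σ σ' : ι → Bool => es3s σ ⬝ᵥ es3s σ' := psd_gram es3s

omit [DecidableEq ι] in
lemma es3_mq (k : ℕ) (σ σ' : ι → Bool) :
    Measurable fun A : ℕ → ι → ι → ℝ => es3q (A k) σ σ' := by
  simp only [es3q, dotProduct, Matrix.mulVec, Matrix.of_apply]
  fun_prop

lemma es3_mF (N0 : ℕ) (δ : ℕ → ℝ) (c0 : ℝ) : Measurable (es3F (ι := ι) r b m P n N0 δ c0) :=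
  es3_mFm _ (fun σ => measurable_const.sub
    ((Finset.measurable_sum _ fun k _ => (es3_mq (k + 1) σ σ).const_mul _).div_const _))
    fun σ σ' => (measurable_const.sub (es3_mq n σ σ')).div_const _

lemma es3_q_bd (g : Fin n → ι → ℝ) (s : Finset (Fin n)) (σ : ι → Bool) :
    0 ≤ es3q (fun i j => prj g s i j) σ σ ∧ es3q (fun i j => prj g s i j) σ σ ≤ Fintype.card ι := by
  obtain ⟨h1, h2⟩ := prj_quad g s (es3s σ) (es3s σ)
  rw [es3_ss] at h2
  change 0 ≤ es3s σ ⬝ᵥ (prj g s *ᵥ es3s σ) ∧ es3s σ ⬝ᵥ (prj g s *ᵥ es3s σ) ≤ _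
  exact ⟨h1 ▸ es2_nn _, by linarith [es2_nn (res g s (es3s σ))]⟩

lemma es3_psdT (g : Fin n → ι → ℝ) (s : ℕ → Finset (Fin n)) (N0 : ℕ) :
    PSD (es3T n N0 fun k i j => prj g (s k) i j) := by
  have e : (es3T n N0 fun k i j => prj g (s k) i j) =
      fun σ σ' => TY univ N0 (res g (s n) (es3s σ)) (res g (s n) (es3s σ')) := by
    funext σ σ'
    exact congrArg (· / (N0 : ℝ)) (prj_quad g (s n) (es3s σ) (es3s σ')).2
  rw [e]
  exact psd_TY _ _ _

lemma es3_T_le (g : Fin n → ι → ℝ) (s : ℕ → Finset (Fin n)) {N0 : ℕ} (hN : Fintype.card ι ≤ N0)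
    (σ : ι → Bool) : es3T n N0 (fun k i j => prj g (s k) i j) σ σ ≤ 1 := by
  have h1 : (Fintype.card ι : ℝ) ≤ N0 := by exact_mod_cast hN
  refine div_le_one_of_le₀ ?_ (Nat.cast_nonneg _)
  rw [es3_ss]
  linarith [(es3_q_bd g (s n) σ).1]

lemma es3_bd (hm : MOk r m) (hP : P.Ok) {N0 : ℕ} (hN : Fintype.card ι ≤ N0) (δ : ℕ → ℝ) (c0 : ℝ) :
    ∃ B, ∀ (g : Fin n → ι → ℝ) (s : ℕ → Finset (Fin n)),
      |es3F r b m P n N0 δ c0 fun k i j => prj g (s k) i j| ≤ B := by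
  refine ⟨|Fm r b m (Pr0 P.a) (fun _ : ι → Bool => 0) (fun _ _ => 0) fun σ σ' => es3s σ ⬝ᵥ es3s σ'| +
    (|c0| + (∑ k ∈ range n, |δ k| * Fintype.card ι) / 2 +
      pdist r (Fintype.card ι) (Pr0 P.a) (Pr0 P.a)) + (3 * r + 5) * P.s ^ 2, fun g s => ?_⟩
  have pT := es3_psdT g s N0
  obtain ⟨h1, h2⟩ := Fm_pert (b := b) hm hP (es3h n δ c0 fun k i j => prj g (s k) i j)
    (T' := fun _ _ => 0) pT es3_psdQ fun σ σ' => by
      have h3 := pT.sq_le σ σ'
      refine (sq_le_one_iff_abs_le_one _).1 (h3.trans ?_)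
      exact mul_le_one₀ (es3_T_le g s hN σ) (pT.diag_nonneg _) (es3_T_le g s hN σ')
  have h3 := abs_Fm_sub_le (b := b) hm (Pr0_ok hP.a_nonneg) (Pr0_ok hP.a_nonneg) rfl rfl
    (h := es3h n δ c0 fun k i j => prj g (s k) i j) (h' := fun _ => 0) psd_zero es3_psdQ
    (fun _ _ => by simp) (fun σ => (es3_ss σ).le)
    (B := |c0| + (∑ k ∈ range n, |δ k| * Fintype.card ι) / 2) fun σ => by
      rw [sub_zero]
      refine (abs_sub _ _).trans (add_le_add le_rfl ?_)
      rw [abs_div, abs_two]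
      refine div_le_div_of_nonneg_right ((abs_sum_le_sum_abs _ _).trans
        (sum_le_sum fun k _ => ?_)) zero_le_two
      rw [abs_mul, abs_of_nonneg (es3_q_bd g _ σ).1]
      exact mul_le_mul_of_nonneg_left (es3_q_bd g _ σ).2 (abs_nonneg _)
  have h4 : 0 ≤ (3 * r + 5) * P.s ^ 2 := by positivity
  have h5 := le_abs_self
    (Fm r b m (Pr0 P.a) (fun _ : ι → Bool => 0) (fun _ _ => 0) fun σ σ' => es3s σ ⬝ᵥ es3s σ')
  have h6 := neg_abs_le
    (Fm r b m (Pr0 P.a) (fun _ : ι → Bool => 0) (fun _ _ => 0) fun σ σ' => es3s σ ⬝ᵥ es3s σ')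
  rw [abs_le] at h3 ⊢
  unfold es3F
  constructor <;> linarith [h3.1, h3.2]

/-- the rank one increment -/
def es3z (g : Fin n → ι → ℝ) (s : Finset (Fin n)) (σ : ι → Bool) (a : ι → ℝ) : ℝ :=
  (res g s a ⬝ᵥ res g s a)⁻¹ * (res g s a ⬝ᵥ es3s σ) ^ 2

lemma es3_z_nonneg (g : Fin n → ι → ℝ) (s : Finset (Fin n)) (σ : ι → Bool) (a : ι → ℝ) :
    0 ≤ es3z g s σ a := mul_nonneg (inv_nonneg.2 (es2_nn _)) (sq_nonneg _)

lemma es3_z_int (g : Fin n → ι → ℝ) (s : Finset (Fin n)) (σ : ι → Bool) :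
    Integrable (fun a => es3z g s σ a ^ 2) (gam ι) := by
  refine rmb_integrable (B := (Fintype.card ι : ℝ) ^ 2) ?_ fun a => ?_
  · simp only [es3z, res, dotProduct, Matrix.mulVec, Pi.sub_apply]
    fun_prop
  · rw [abs_of_nonneg (sq_nonneg _)]
    refine pow_le_pow_left₀ (es3_z_nonneg g s σ a) ?_ 2
    have h1 := Finset.sum_mul_sq_le_sq_mul_sq univ (res g s a) (es3s σ)
    simp only [sq (res g s a _), sq (es3s σ _)] at h1
    rw [← es3_ss σ]
    exact inv_mul_le_of_le_mul₀ (es2_nn _) (es2_nn _) h1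

lemma es3_ins (g : Fin n → ι → ℝ) {s : Finset (Fin n)} {j : Fin n} (hj : j ∈ s) (a : ι → ℝ)
    (σ σ' : ι → Bool) : es3q (fun i l => prj (Function.update g j a) s i l) σ σ' =
      es3q (fun i l => prj g (s.erase j) i l) σ σ' +
        (res g (s.erase j) a ⬝ᵥ res g (s.erase j) a)⁻¹ *
          ((res g (s.erase j) a ⬝ᵥ es3s σ) * (res g (s.erase j) a ⬝ᵥ es3s σ')) := by
  have e : prj (Function.update g j a) (s.erase j) = prj g (s.erase j) :=
    prj_congr fun k hk => Function.update_of_ne (Finset.ne_of_mem_erase hk) _ _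
  have e1 : res (Function.update g j a) (s.erase j) (Function.update g j a j) =
      res g (s.erase j) a := by rw [res, e, Function.update_self, res]
  have h := prj_insert (Function.update g j a) (s.erase j) j
  rw [Finset.insert_erase hj, e, e1] at h
  change es3s σ ⬝ᵥ (prj _ s *ᵥ es3s σ') = es3s σ ⬝ᵥ (prj g (s.erase j) *ᵥ es3s σ') + _
  rw [h, Matrix.add_mulVec, Matrix.smul_mulVec, Matrix.vecMulVec_mulVec, op_smul_eq_smul,
    dotProduct_add, dotProduct_smul, dotProduct_smul, smul_eq_mul, smul_eq_mul,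
    dotProduct_comm (es3s σ) (res _ _ _), mul_comm (_ ⬝ᵥ es3s σ')]

lemma es3_inc (g : Fin n → ι → ℝ) (s : Finset (Fin n)) (j : Fin n) (a : ι → ℝ) (σ : ι → Bool) :
    es3q (fun i l => prj g (s.erase j) i l) σ σ ≤
        es3q (fun i l => prj (Function.update g j a) s i l) σ σ ∧
      es3q (fun i l => prj (Function.update g j a) s i l) σ σ ≤
        es3q (fun i l => prj g (s.erase j) i l) σ σ + es3z g (s.erase j) σ a := by
  have h0 := es3_z_nonneg g (s.erase j) σ a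
  by_cases hj : j ∈ s
  · rw [es3_ins g hj, ← sq]
    exact ⟨le_add_of_nonneg_right h0, le_rfl⟩
  · have e : prj (Function.update g j a) s = prj g s :=
      prj_congr fun k hk => Function.update_of_ne (ne_of_mem_of_not_mem hk hj) _ _
    rw [e, Finset.erase_eq_of_notMem hj] at *
    exact ⟨le_rfl, le_add_of_nonneg_right h0⟩

lemma es3_step (hm : MOk r m) (hP : P.Ok) {N0 : ℕ} (hN : Fintype.card ι ≤ N0) {δ : ℕ → ℝ}
    (hδ : ∀ k, 0 ≤ δ k) {Bd : ℝ} (hB : ∑ k ∈ range n, δ k ≤ Bd) (c0 : ℝ) {d : ℕ} (hd : 0 < d)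
    (hn : n + d ≤ Fintype.card ι) (g : Fin n → ι → ℝ) (j : Fin n) :
    ∫ a, (es3F r b m P n N0 δ c0 (fun k i l => prj (Function.update g j a) (lo n k) i l) -
      es3F r b m P n N0 δ c0 fun k i l => prj g ((lo n k).erase j) i l) ^ 2 ∂gam ι ≤
      (3 / 2 * (Bd + (2 * r + 8) * P.s ^ 2 / N0)) ^ 2 *
        (3 * (Fintype.card ι : ℝ) ^ 2 / (d : ℝ) ^ 2) := by
  obtain ⟨κ, hκ⟩ : ∃ κ : ℝ, κ = (2 * r + 8) * P.s ^ 2 / N0 := ⟨_, rfl⟩
  have hκ0 : 0 ≤ κ := by rw [hκ]; positivity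
  obtain ⟨p, p0, p1, hp⟩ := es3_weights (r := r) (b := b) (m := m) (P := P)
    (es3h n δ c0 fun k i l => prj g ((lo n k).erase j) i l)
    (es3T n N0 fun k i l => prj g ((lo n k).erase j) i l) fun σ σ' => es3s σ ⬝ᵥ es3s σ'
  simp only [sub_sq_comm (es3F r b m P n N0 δ c0 fun k i l => prj (Function.update _ _ _) _ i l)]
  rw [← hκ]
  have hw : ∀ k, 0 ≤ if k < n then δ k else κ := fun k => by
    split_ifs
    exacts [hδ k, hκ0]
  have hs : ∀ z : ℕ → ℝ, ∑ k ∈ range (n + 1), (if k < n then δ k else κ) * z (min (k + 1) n) =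
      ∑ k ∈ range n, δ k * z (k + 1) + κ * z n := fun z => by
    rw [Finset.sum_range_succ, if_neg (lt_irrefl n), min_eq_right n.le_succ]
    congr 1
    exact Finset.sum_congr rfl fun k hk => by
      rw [if_pos (mem_range.1 hk), min_eq_left (mem_range.1 hk)]
  refine es3_cs (univ ×ˢ range (n + 1))
    (q := fun x => 3 / 2 * (p x.1 * if x.2 < n then δ x.2 else κ))
    (z := fun x => es3z g ((lo n (min (x.2 + 1) n)).erase j) x.1)
    (fun x _ => mul_nonneg (by norm_num) (mul_nonneg (p0 _) (hw _))) ?_ (by positivity)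
    (fun x _ => es3_z_int _ _ _) (fun x _ => ?_) fun a => ?_
  · have h1 := hs fun _ => 1
    simp only [mul_one] at h1
    rw [← Finset.mul_sum, Finset.sum_product]
    simp only [← Finset.mul_sum, h1]
    rw [← Finset.sum_mul, p1, one_mul]
    linarith
  · have h1 := sphere4 g ((lo n (min (x.2 + 1) n)).erase j) hd ((add_le_add
      ((Finset.card_le_univ _).trans_eq (Fintype.card_fin n)) le_rfl).trans hn) (es3s x.1)
    rwa [es3_ss] at h1
  have hj : j ∈ lo n n := by simp [lo]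
  have eT : ∀ σ σ', es3T n N0 (fun k i l => prj g ((lo n k).erase j) i l) σ σ' -
      es3T n N0 (fun k i l => prj (Function.update g j a) (lo n k) i l) σ σ' =
      ((res g ((lo n n).erase j) a ⬝ᵥ res g ((lo n n).erase j) a)⁻¹ / N0) *
        ((res g ((lo n n).erase j) a ⬝ᵥ es3s σ) * (res g ((lo n n).erase j) a ⬝ᵥ es3s σ')) :=
    fun σ σ' => by
      simp only [es3T]
      rw [es3_ins g hj]
      ring
  have h0 : ∀ σ, 0 ≤ ∑ k ∈ range n, δ k * es3z g ((lo n (k + 1)).erase j) σ a := fun σ =>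
    Finset.sum_nonneg fun k _ => mul_nonneg (hδ k) (es3_z_nonneg _ _ _ _)
  obtain ⟨h1, h2⟩ := Fm_crude (b := b) hm hP
    (h := es3h n δ c0 fun k i l => prj g ((lo n k).erase j) i l)
    (h' := es3h n δ c0 fun k i l => prj (Function.update g j a) (lo n k) i l)
    (ρ := fun σ => ∑ k ∈ range n, δ k * es3z g ((lo n (k + 1)).erase j) σ a +
      κ * es3z g ((lo n n).erase j) σ a)
    (T := es3T n N0 fun k i l => prj g ((lo n k).erase j) i l)
    (es3_psdT (Function.update g j a) (lo n) N0) es3_psdQ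
    (by
      simp only [eT]
      exact (psd_rank_one _).smul (div_nonneg (inv_nonneg.2 (es2_nn _)) (Nat.cast_nonneg _)))
    (es3_T_le g (fun k => (lo n k).erase j) hN)
    (fun σ => sub_le_sub_left (div_le_div_of_nonneg_right (sum_le_sum fun k _ =>
      mul_le_mul_of_nonneg_left (es3_inc g _ j a σ).1 (hδ k)) zero_le_two) _)
    (fun σ => by
      have h3 := sum_le_sum fun k (_ : k ∈ range n) =>
        mul_le_mul_of_nonneg_left (es3_inc g (lo n (k + 1)) j a σ).2 (hδ k)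
      simp only [mul_add, Finset.sum_add_distrib] at h3
      have h4 := mul_nonneg hκ0 (es3_z_nonneg g ((lo n n).erase j) σ a)
      simp only [es3h]
      linarith)
    fun σ => by
      rw [eT]
      refine le_trans (le_of_eq ?_) (le_add_of_nonneg_left (h0 σ))
      rw [hκ, es3z]
      ring
  rw [hp fun σ => ∑ k ∈ range n, δ k * es3z g ((lo n (k + 1)).erase j) σ a +
    κ * es3z g ((lo n n).erase j) σ a] at h2
  refine ⟨sub_nonneg.2 h1, (sub_le_comm.1 h2).trans_eq ?_⟩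
  rw [Finset.sum_product, Finset.mul_sum]
  refine Finset.sum_congr rfl fun σ _ => ?_
  rw [← hs fun k => es3z g ((lo n k).erase j) σ a, Finset.sum_mul, Finset.mul_sum]
  exact Finset.sum_congr rfl fun k _ => by ring

lemma es3_main (hm : MOk r m) (hP : P.Ok) {N0 : ℕ} (hN : Fintype.card ι ≤ N0) {δ : ℕ → ℝ}
    (hδ : ∀ k, 0 ≤ δ k) {Bd : ℝ} (hB : ∑ k ∈ range n, δ k ≤ Bd) (c0 : ℝ) {d : ℕ} (hd : 0 < d)
    (hn : n + d ≤ Fintype.card ι) (o : Fin n ↪ ι) :
    ∫ U, |es3F r b m P n N0 δ c0 (fun k i l => rowP o U k i l) -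
      ∫ V, es3F r b m P n N0 δ c0 (fun k i l => rowP o V k i l) ∂haarO ι| ∂haarO ι ≤
      3 * (Bd + (2 * r + 8) * P.s ^ 2 / N0) * (Fintype.card ι / d) * √(Fintype.card ι) := by
  obtain ⟨B, hB'⟩ := es3_bd (b := b) (n := n) hm hP hN δ c0
  have mF := es3_mF (ι := ι) (r := r) (b := b) (m := m) (P := P) (n := n) N0 δ c0
  have ms : ∀ s : ℕ → Finset (Fin n), Measurable fun g : Fin n → ι → ℝ =>
      es3F r b m P n N0 δ c0 fun k i l => prj g (s k) i l := fun s =>
    mF.comp (measurable_pi_lambda _ fun k => measurable_pi_lambda _ fun i =>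
      measurable_pi_lambda _ fun l => measurable_prj _ i l)
  rw [← law_prj o mF fun g => hB' g (lo n)]
  obtain ⟨F, hF⟩ : ∃ F, F = ∫ g, es3F r b m P n N0 δ c0 (fun k i l => prj g (lo n k) i l)
    ∂(Measure.pi fun _ : Fin n => gam ι) := ⟨_, rfl⟩
  have hb : ∀ g : Fin n → ι → ℝ,
      |es3F r b m P n N0 δ c0 (fun k i l => prj g (lo n k) i l) - F| ≤ B + |F| := fun g =>
    (abs_sub _ _).trans (add_le_add (hB' g _) le_rfl)
  have hv := efron_stein (gam ι) (ms (lo n)) (fun j => ms fun k => (lo n k).erase j)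
    (fun g => hB' g _) (fun j g => hB' g _) fun j g a => by
      congr 1
      funext k
      rw [prj_congr fun i hi => Function.update_of_ne (Finset.ne_of_mem_erase hi) _ _]
  rw [← hF] at hv ⊢
  rw [← law_prj o (Φ := fun A => |es3F r b m P n N0 δ c0 A - F|) (mF.sub_const F).abs
    fun g => (abs_abs _).trans_le (hb g)]
  obtain ⟨c, hc⟩ : ∃ c : ℝ, c = Bd + (2 * r + 8) * P.s ^ 2 / N0 := ⟨_, rfl⟩
  have hc0 : 0 ≤ c := by
    have := (Finset.sum_nonneg fun k _ => hδ k).trans hB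
    rw [hc]
    positivity
  rw [← hc]
  refine es3_abs ((ms _).sub_const F) hb (by positivity) (hv.trans ?_)
  refine (Finset.sum_le_card_nsmul _ _
    ((3 / 2 * c) ^ 2 * (3 * (Fintype.card ι : ℝ) ^ 2 / (d : ℝ) ^ 2)) fun j _ => ?_).trans ?_
  · refine (integral_update (gam ι) j (rmb_integrable (((ms _).fun_sub (ms _)).pow_const 2)
      (B := (B + B) ^ 2) fun g => ?_)).trans_le ?_
    rotate_left
    · refine rmb_integral_le (fun g => integral_nonneg fun _ => sq_nonneg _) fun g => ?_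
      have e : ∀ a k, prj (Function.update g j a) ((lo n k).erase j) = prj g ((lo n k).erase j) :=
        fun a k => prj_congr fun i hi => Function.update_of_ne (Finset.ne_of_mem_erase hi) _ _
      simp only [e]
      rw [hc]
      exact es3_step hm hP hN hδ hB c0 hd hn g j
    · rw [abs_pow]
      exact pow_le_pow_left₀ (abs_nonneg _)
        ((abs_sub _ _).trans (add_le_add (hB' g _) (hB' g _))) 2
  · have h1 : (n : ℝ) ≤ Fintype.card ι := by exact_mod_cast (Nat.le_add_right n d).trans hn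
    rw [Finset.card_univ, Fintype.card_fin, nsmul_eq_mul, mul_pow _ (√_),
      Real.sq_sqrt (Nat.cast_nonneg _)]
    have h2 : 0 ≤ c ^ 2 * ((Fintype.card ι : ℝ) / d) ^ 2 := by positivity
    have e1 : (3 / 2 * c) ^ 2 * (3 * (Fintype.card ι : ℝ) ^ 2 / (d : ℝ) ^ 2) =
        27 / 4 * (c ^ 2 * ((Fintype.card ι : ℝ) / d) ^ 2) := by ring
    have e2 : (3 * c * ((Fintype.card ι : ℝ) / d)) ^ 2 =
        9 * (c ^ 2 * ((Fintype.card ι : ℝ) / d) ^ 2) := by ring
    rw [e1, e2]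
    nlinarith [mul_nonneg h2 (sub_nonneg.2 h1), mul_nonneg h2 (Nat.cast_nonneg (α := ℝ) n)]

lemma es3_row (o : Fin n ↪ ι) (U : Og ι) (k : ℕ) (σ σ' : ι → Bool) :
    es3q (fun i l => rowP o U k i l) σ σ' = ∑ i ∈ lo n k, yv U σ (o i) * yv U σ' (o i) := by
  change es3s σ ⬝ᵥ (rowP o U k *ᵥ es3s σ') = _
  rw [rowP, Matrix.sum_mulVec, dotProduct_sum]
  refine Finset.sum_congr rfl fun i _ => ?_
  rw [Matrix.vecMulVec_mulVec, op_smul_eq_smul, dotProduct_smul, smul_eq_mul, mul_comm,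
    dotProduct_comm]
  rfl

theorem eso {ι : Type} [Fintype ι] [DecidableEq ι] {r : ℕ} {b : ℕ → ℕ} {m : ℕ → ℝ} {P : Pr}
    (hm : MOk r m) (hP : P.Ok) {bb : ι → ℝ} {Top : Finset ι} (hne : Top.Nonempty) {t Bd : ℝ}
    (h1 : ∀ i, bb i ≤ t) (h2 : ∀ i ∈ Top, bb i = t) (h3 : ∀ i, t - bb i ≤ Bd) {N0 : ℕ}
    (hN : Fintype.card ι ≤ N0) :
    ∫ U, |Fm r b m P (((YO ι).rm bb Top N0 hN).h U) (((YO ι).rm bb Top N0 hN).T U)
        (((YO ι).rm bb Top N0 hN).Q U) - ((YO ι).rm bb Top N0 hN).F r b m P| ∂haarO ι ≤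
      3 * (Bd + (2 * r + 8) * P.s ^ 2 / N0) * (Fintype.card ι / Top.card) *
        √(Fintype.card ι) := by
  obtain ⟨n, o, hn, ho, hs⟩ : ∃ (n : ℕ) (o : Fin n ↪ ι), n + Top.card ≤ Fintype.card ι ∧
      Monotone (fun k => bb (o k)) ∧
      ∀ F : ι → ℝ, ∑ i, F i = ∑ i ∈ Top, F i + ∑ k, F (o k) := by
    let e := (Topᶜ).equivFin.symm
    let τ := Tuple.sort fun k => bb (e k).1
    refine ⟨_, (τ.trans e).toEmbedding.trans (Function.Embedding.subtype _),
      ((add_comm _ _).trans (Finset.card_add_card_compl Top)).le,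
      Tuple.monotone_sort fun k => bb (e k).1, fun F => ?_⟩
    rw [← Finset.sum_add_sum_compl Top, ← Finset.sum_coe_sort Topᶜ]
    exact congrArg _ ((τ.trans e).sum_comp fun i => F i.1).symm
  obtain ⟨A, hA, hA'⟩ : ∃ A : ℕ → ℝ, (∀ k : Fin n, A k = t - bb (o k)) ∧ ∀ k, n ≤ k → A k = 0 :=
    ⟨fun k => if h : k < n then t - bb (o ⟨k, h⟩) else 0, fun k => dif_pos k.2,
      fun k hk => dif_neg (not_lt.2 hk)⟩
  have hδ : ∀ k, 0 ≤ A k - A (k + 1) := fun k => by
    rcases lt_or_ge k n with hk | hk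
    · have e := hA ⟨k, hk⟩
      rcases lt_or_ge (k + 1) n with hk' | hk'
      · have e' := hA ⟨k + 1, hk'⟩
        have := ho (a := ⟨k, hk⟩) (b := ⟨k + 1, hk'⟩) k.le_succ
        dsimp only at e e' this
        linarith
      · dsimp only at e
        linarith [hA' _ hk', h1 (o ⟨k, hk⟩)]
    · rw [hA' _ hk, hA' _ (hk.trans k.le_succ), sub_self]
  have hB : ∑ k ∈ range n, (A k - A (k + 1)) ≤ Bd := by
    rw [Finset.sum_range_sub', hA' n le_rfl, sub_zero]
    rcases Nat.eq_zero_or_pos n with h0 | h0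
    · obtain ⟨i, hi⟩ := hne
      linarith [hA' 0 h0.le, h3 i, h2 i hi]
    · exact (hA ⟨0, h0⟩).trans_le (h3 _)
  have e : ∀ U, Fm r b m P (((YO ι).rm bb Top N0 hN).h U) (((YO ι).rm bb Top N0 hN).T U)
      (((YO ι).rm bb Top N0 hN).Q U) = es3F r b m P n N0 (fun k => A k - A (k + 1))
        (t * Fintype.card ι / 2) fun k i l => rowP o U k i l := fun U => by
    unfold es3F
    congr 1
    · funext σ
      change hY bb (yv U σ) = _
      have e1 : ∑ k ∈ range n, (A k - A (k + 1)) * es3q (fun i l => rowP o U (k + 1) i l) σ σ =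
          ∑ i, (t - bb i) * yv U σ i ^ 2 := by
        rw [hs, Finset.sum_eq_zero (s := Top) fun i hi => by rw [h2 i hi, sub_self, zero_mul],
          zero_add]
        simp only [es3_row, lo, Finset.sum_filter, Finset.mul_sum]
        rw [Finset.sum_comm]
        refine Finset.sum_congr rfl fun i _ => ?_
        have e2 := es3_tele A i.2.le
        rw [hA' n le_rfl, sub_zero, hA] at e2
        rw [← e2, Finset.sum_mul]
        exact Finset.sum_congr rfl fun k _ => by split_ifs <;> ring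
      rw [es3h, e1, ← yv_sq U σ, hY, Finset.mul_sum, ← sub_div, ← Finset.sum_sub_distrib]
      congr 1
      exact Finset.sum_congr rfl fun i _ => by ring
    · funext σ σ'
      change TY Top N0 (yv U σ) (yv U σ') = _
      have e1 := (yv_dot U σ σ').symm.trans (hs _)
      rw [es3T, es3_row, es2_lo_ge le_rfl, TY]
      congr 1
      exact eq_sub_of_add_eq e1.symm
    · funext σ σ'
      exact yv_dot U σ σ'
  simp only [RM.F, e]
  exact es3_main hm hP hN hδ hB _ hne.card_pos hn o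

/-- the unperturbed case -/
theorem eso0 {ι : Type} [Fintype ι] [DecidableEq ι] {bb : ι → ℝ} {Top : Finset ι}
    (hne : Top.Nonempty) {t Bd : ℝ} (h1 : ∀ i, bb i ≤ t) (h2 : ∀ i ∈ Top, bb i = t)
    (h3 : ∀ i, t - bb i ≤ Bd) :
    ∫ U, |lz (fun σ => hY bb (yv U σ)) - EL ι bb| ∂haarO ι ≤
      3 * Bd * (Fintype.card ι / Top.card) * √(Fintype.card ι) := by
  have hm : MOk 0 fun j => (j : ℝ) :=
    ⟨Nat.cast_zero, by simp, fun j _ => by simp, by simp⟩
  have h := eso (b := fun _ => 0) hm (Pr0_ok (a := fun _ => 0) fun _ => le_rfl) hne h1 h2 h3 le_rfl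
  simp only [RM.F, Fm_zero hm, Z0_zero, add_zero] at h
  simpa [Pr0, EL] using h

end

end Vale.Agent.P166
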