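import Vale.Agent.P166.CasG
import Vale.Agent.P166.Tr

/-! P166 Ev: cavity functionals of rotation invariant systems are computed on cascades.
Plan. evb: approximate g uniformly on [0,1] by a polynomial (exists_polynomial_near_of_continuousOn); val is linear in g and |val g - val g'| <= B^2 sup |g - g'|; val for g = w^k is
E (2+k) of f(R 0 1) * Psi_k(y), Psi_k y = A (y 0) A' (y 1) prod W (y (natAdd 2 l)) (av_append). Put La f = sum over k of c_k * integral of f (A 0 1) PsiG Psi_k (rho T(A)) against G.nu (2+k).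
(1) is fg_lim, (2) is map_entry and abs_PsiG_le, (3) is cas_lim with phi Lb = 1[j <= Lb 0 1], near_PsiG and uniqueness of limits (le_of_tendsto).
ev1, ev3, ev2: tr on both sides with M4 = 3 (rho+1)^2 (Cav.mom eventually; cas_mom with t (r+1) = rho d <= rho), evb with j = 0, f = 1 (indL 0 = 1); on the cascade side the truncated values converge along the
ultrafilter to some limit because they are bounded (use Ultrafilter limits: isCompact_Icc.ultrafilter_le_nhds or a lemma exists_tendsto). -/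

open MeasureTheory ProbabilityTheory Filter Topology Matrix Finset

namespace Vale.Agent.P166

noncomputable section

variable {F : Type} [Fintype F] {r : ℕ} {X : ℕ → Cav r F} {G : GGA (VV r)} {ϱ d : ℝ}

lemma exists_ulim {u : ℕ → ℝ} {B : ℝ} (h : ∀ i, |u i| ≤ B) :
    ∃ c, |c| ≤ B ∧ Tendsto u (hyperfilter ℕ) (𝓝 c) := by
  obtain ⟨c, hc, ht⟩ := (isCompact_Icc (a := -B) (b := B)).ultrafilter_le_nhds
    ((hyperfilter ℕ).map u) (by
      rw [Ultrafilter.coe_map, Filter.le_principal_iff, Filter.mem_map]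
      exact Filter.univ_mem' fun i => abs_le.1 (h i))
  exact ⟨c, abs_le.2 hc, ht⟩


lemma ev_lim {u v : ℕ → ℝ} {c e : ℝ} (hu : Tendsto u (hyperfilter ℕ) (𝓝 c))
    (h : ∀ i, |u i - v i| ≤ e) : ∃ c', |c - c'| ≤ e ∧ Tendsto v (hyperfilter ℕ) (𝓝 c') := by
  obtain ⟨a, ha, ht⟩ := exists_ulim h
  refine ⟨c - a, by simpa using ha, ?_⟩
  have := hu.sub ht
  simpa using this

/-- the test function of `2 + k` replicas -/
def evPsi (A A' W : (F → ℝ) → ℝ) (k : ℕ) (y : Fin (2 + k) → F → ℝ) : ℝ :=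
  A (y (Fin.castAdd k 0)) * A' (y (Fin.castAdd k 1)) * ∏ l : Fin k, W (y (Fin.natAdd 2 l))

omit [Fintype F] in
lemma ev_psi_cont {A A' W : (F → ℝ) → ℝ} (hA : Continuous A) (hA' : Continuous A')
    (hW : Continuous W) (k : ℕ) : Continuous (evPsi A A' W k) := by
  unfold evPsi
  exact ((hA.comp (continuous_apply _)).mul (hA'.comp (continuous_apply _))).mul
    (continuous_finsetProd _ fun l _ => hW.comp (continuous_apply _))

omit [Fintype F] in
lemma ev_psi_le {A A' W : (F → ℝ) → ℝ} {B : ℝ} (bA : ∀ y, |A y| ≤ B) (bA' : ∀ y, |A' y| ≤ B)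
    (bW : ∀ y, W y ∈ Set.Icc (0 : ℝ) 1) (k : ℕ) (y : Fin (2 + k) → F → ℝ) :
    |evPsi A A' W k y| ≤ B * B := by
  unfold evPsi
  have hB : 0 ≤ B := (abs_nonneg _).trans (bA 0)
  have h1 : |∏ l : Fin k, W (y (Fin.natAdd 2 l))| ≤ 1 := by
    rw [abs_of_nonneg (Finset.prod_nonneg fun l _ => (bW _).1)]
    exact Finset.prod_le_one (fun l _ => (bW _).1) fun l _ => (bW _).2
  rw [abs_mul, abs_mul]
  calc _ ≤ B * B * 1 := mul_le_mul (mul_le_mul (bA _) (bA' _) (abs_nonneg _) hB) h1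
        (abs_nonneg _) (mul_nonneg hB hB)
    _ = _ := mul_one _

omit [Fintype F] in
lemma ev_val_pow {r : ℕ} (Y : YS r F) (f : VV r → ℝ) (A A' W : (F → ℝ) → ℝ) (k : ℕ) :
    Y.val f A A' W (fun w => w ^ k) = Y.toSys.E (2 + k) fun ω σ =>
      f (Y.toSys.arr ω σ (Fin.castAdd k 0) (Fin.castAdd k 1)) *
        evPsi A A' W k fun l => Y.y ω (σ l) := by
  unfold YS.val Sys.E
  refine integral_congr_ae (Eventually.of_forall fun ω => ?_)
  have h := av_append 2 k (Y.H ω)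
    (fun σ => f (Y.R ω (σ 0) (σ 1)) * A (Y.y ω (σ 0)) * A' (Y.y ω (σ 1))) fun s => W (Y.y ω s)
  refine h.symm.trans (congrArg (av (2 + k) (Y.H ω)) (funext fun σ => ?_))
  unfold evPsi Sys.arr
  ring

lemma ev_abs {Ω : Type} [MeasurableSpace Ω] (P : Measure Ω) [IsProbabilityMeasure P]
    {a w : Ω → ℝ} (ha : Measurable a) (hw : Measurable w) {K η : ℝ} (hK : ∀ ω, |a ω| ≤ K)
    (hw1 : ∀ ω, w ω ∈ Set.Icc (0 : ℝ) 1) {g : ℝ → ℝ} (mg : Measurable g) (N : ℕ) (c : ℕ → ℝ)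
    (hg : ∀ x ∈ Set.Icc (0 : ℝ) 1, |g x - ∑ k ∈ range N, c k * x ^ k| ≤ η) :
    |∫ ω, a ω * g (w ω) ∂P - ∑ k ∈ range N, c k * ∫ ω, a ω * w ω ^ k ∂P| ≤ K * η := by
  have hb : ∀ {u : Ω → ℝ} {L : ℝ}, Measurable u → (∀ ω, |u ω| ≤ L) → Integrable u P :=
    fun hu hL => Integrable.of_bound hu.aestronglyMeasurable _
      (Eventually.of_forall fun ω => hL ω)
  have h1 : ∀ k, Integrable (fun ω => c k * (a ω * w ω ^ k)) P := fun k => by
    refine (hb (L := K) (ha.mul (hw.pow_const k)) fun ω => ?_).const_mul _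
    have : |w ω ^ k| ≤ 1 := by
      rw [abs_of_nonneg (pow_nonneg (hw1 ω).1 k)]
      exact pow_le_one₀ (hw1 ω).1 (hw1 ω).2
    show |a ω * w ω ^ k| ≤ K
    rw [abs_mul]
    exact (mul_le_of_le_one_right (abs_nonneg _) this).trans (hK ω)
  have h2 : ∀ ω, |a ω * (g (w ω) - ∑ k ∈ range N, c k * w ω ^ k)| ≤ K * η := fun ω => by
    rw [abs_mul]
    exact mul_le_mul (hK ω) (hg _ (hw1 ω)) (abs_nonneg _) ((abs_nonneg _).trans (hK ω))
  have h3 : Integrable (fun ω => a ω * (g (w ω) - ∑ k ∈ range N, c k * w ω ^ k)) P :=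
    hb (ha.mul ((mg.comp hw).sub
      (Finset.measurable_sum _ fun k _ => (hw.pow_const k).const_mul _))) h2
  have h4 : ∫ ω, a ω * g (w ω) ∂P =
      ∫ ω, a ω * (g (w ω) - ∑ k ∈ range N, c k * w ω ^ k) ∂P +
        ∑ k ∈ range N, c k * ∫ ω, a ω * w ω ^ k ∂P := by
    simp only [← integral_const_mul]
    rw [← integral_finsetSum _ fun k _ => h1 k,
      ← integral_add h3 (integrable_finsetSum _ fun k _ => h1 k)]
    refine integral_congr_ae (Eventually.of_forall fun ω => ?_)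
    have : ∑ k ∈ range N, c k * (a ω * w ω ^ k) = a ω * ∑ k ∈ range N, c k * w ω ^ k := by
      rw [Finset.mul_sum]
      exact Finset.sum_congr rfl fun k _ => by ring
    show a ω * g (w ω) = a ω * (g (w ω) - ∑ k ∈ range N, c k * w ω ^ k) +
      ∑ k ∈ range N, c k * (a ω * w ω ^ k)
    rw [this]
    ring
  rw [h4, add_sub_cancel_right]
  have h5 := norm_integral_le_of_norm_le_const (μ := P) (C := K * η)
    (f := fun ω => a ω * (g (w ω) - ∑ k ∈ range N, c k * w ω ^ k)) (Eventually.of_forall h2)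
  simpa using h5

lemma ev_val_near {r : ℕ} (Y : YS r F) {f : VV r → ℝ} (hf : Measurable f) (bf : ∀ v, |f v| ≤ 1)
    {A A' W : (F → ℝ) → ℝ} (hA : Continuous A) (hA' : Continuous A')
    (hW : Continuous W) {B : ℝ} (bA : ∀ y, |A y| ≤ B) (bA' : ∀ y, |A' y| ≤ B)
    (bW : ∀ y, W y ∈ Set.Icc (0 : ℝ) 1) {g : ℝ → ℝ} (mg : Measurable g) {η : ℝ} (N : ℕ)
    (c : ℕ → ℝ) (hg : ∀ x ∈ Set.Icc (0 : ℝ) 1, |g x - ∑ k ∈ range N, c k * x ^ k| ≤ η) :
    |Y.val f A A' W g - ∑ k ∈ range N, c k * Y.val f A A' W fun w => w ^ k| ≤ B * B * η := by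
  have hB : 0 ≤ B := (abs_nonneg _).trans (bA 0)
  have my : ∀ s, Measurable fun ω => Y.y ω s := fun s => measurable_pi_lambda _ (Y.my s)
  refine ev_abs Y.P (measurable_av 2 Y.mH fun σ => ((hf.comp (Y.mR _ _)).mul
    (hA.measurable.comp (my _))).mul (hA'.measurable.comp (my _)))
    (measurable_av1 Y.mH fun s => hW.measurable.comp (my s)) (fun ω => ?_) (fun ω => ?_) mg N c hg
  · refine abs_av_le_const 2 _ fun σ => ?_
    show |f (Y.R ω (σ 0) (σ 1)) * A (Y.y ω (σ 0)) * A' (Y.y ω (σ 1))| ≤ B * B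
    rw [abs_mul, abs_mul]
    calc _ ≤ 1 * B * B := mul_le_mul (mul_le_mul (bf _) (bA _) (abs_nonneg _) zero_le_one)
          (bA' _) (abs_nonneg _) (mul_nonneg zero_le_one hB)
      _ = _ := by ring
  · refine ⟨av1_nonneg _ fun s => (bW _).1, (le_abs_self _).trans (abs_av1_le_const _ fun s => ?_)⟩
    exact (abs_of_nonneg (bW _).1).le.trans (bW _).2

lemma ev_ne (k : ℕ) : (Fin.castAdd k (0 : Fin 2)) ≠ Fin.castAdd k 1 := by
  intro h
  have := congrArg Fin.val h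
  simp at this

lemma ev_sum_le (N : ℕ) (c : ℕ → ℝ) {u v : ℕ → ℝ} {K : ℝ}
    (h : ∀ k ∈ range N, |u k - v k| ≤ K) :
    |∑ k ∈ range N, c k * u k - ∑ k ∈ range N, c k * v k| ≤ (∑ k ∈ range N, |c k|) * K := by
  rw [← Finset.sum_sub_distrib, Finset.sum_mul]
  refine (Finset.abs_sum_le_sum_abs _ _).trans (Finset.sum_le_sum fun k hk => ?_)
  rw [← mul_sub, abs_mul]
  exact mul_le_mul_of_nonneg_left (h k hk) (abs_nonneg _)

lemma ev_lip (G : GGA (VV r)) {n : ℕ} {a a' : Fin n} (hne : a ≠ a')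
    {Φ : (Fin n → Fin n → VV r) → ℝ} (hΦ : Measurable Φ) {K : ℝ} (hK : ∀ A, |Φ A| ≤ K)
    {f f' : VV r → ℝ} (hf : Measurable f) (hf' : Measurable f') (bf : ∀ v, |f v| ≤ 1)
    (bf' : ∀ v, |f' v| ≤ 1) :
    |∫ A, f (A a a') * Φ A ∂G.ν n - ∫ A, f' (A a a') * Φ A ∂G.ν n| ≤
      K * ∫ v, |f v - f' v| ∂G.zeta := by
  have hb : ∀ {u : (Fin n → Fin n → VV r) → ℝ} {L : ℝ}, Measurable u → (∀ ω, |u ω| ≤ L) →
      Integrable u (G.ν n) :=
    fun hu hL => Integrable.of_bound hu.aestronglyMeasurable _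
      (Eventually.of_forall fun ω => hL ω)
  have me : Measurable fun A : Fin n → Fin n → VV r => A a a' :=
    (measurable_pi_apply a').comp (measurable_pi_apply a)
  have h1 : ∀ {u : VV r → ℝ}, Measurable u → (∀ v, |u v| ≤ 1) →
      Integrable (fun A => u (A a a') * Φ A) (G.ν n) := fun hu bu =>
    hb (L := K) ((hu.comp me).mul hΦ) fun A => by
      rw [abs_mul]
      exact (mul_le_of_le_one_left (abs_nonneg _) (bu _)).trans (hK A)
  have md : Measurable fun v => |f v - f' v| := (hf.sub hf').abs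
  have h2 : Integrable (fun A : Fin n → Fin n → VV r => |f (A a a') - f' (A a a')|) (G.ν n) :=
    hb (L := 2) (md.comp me) fun A => by
      rw [abs_abs]
      have := abs_sub (f (A a a')) (f' (A a a'))
      linarith [bf (A a a'), bf' (A a a')]
  rw [← G.map_entry hne, integral_map me.aemeasurable md.aestronglyMeasurable,
    ← integral_sub (h1 hf bf) (h1 hf' bf'), ← integral_const_mul]
  refine abs_integral_le_integral_abs.trans (integral_mono
    ((h1 hf bf).sub (h1 hf' bf')).abs (h2.const_mul K) fun A => ?_)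
  show |f (A a a') * Φ A - f' (A a a') * Φ A| ≤ K * |f (A a a') - f' (A a a')|
  rw [← sub_mul, abs_mul, mul_comm]
  exact mul_le_mul_of_nonneg_right (hK A) (abs_nonneg _)

lemma ev_meas (n : ℕ) {Ψ : (Fin n → F → ℝ) → ℝ} (hΨ : Continuous Ψ) (ϱ : ℝ) :
    Measurable fun A : Fin n → Fin n → VV r => PsiG n Ψ fun l l' => ϱ * ((A l l').1 : ℝ) :=
  (measurable_PsiG n hΨ.measurable).comp (measurable_pi_lambda _ fun l =>
    measurable_pi_lambda _ fun l' => (measurable_subtype_coe.comp (measurable_fst.comp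
      ((measurable_pi_apply l').comp (measurable_pi_apply l)))).const_mul ϱ)

lemma ev_near (G : GGA (VV r)) {n : ℕ} {a a' : Fin n} (hne : a ≠ a') {Ψ : (Fin n → F → ℝ) → ℝ}
    (hΨ : Continuous Ψ) {K : ℝ} (hK : ∀ y, |Ψ y| ≤ K) (π : Path) {lab : VV r → ℕ}
    (hl : Measurable lab) (j : ℕ) {e : ℝ}
    (h : ∀ᵐ A ∂G.ν n, |PsiG n Ψ (fun l l' => ϱ * ((A l l').1 : ℝ)) -
        PsiG n Ψ (tker π (offd lab A))| ≤ e) :
    |∫ A, (if j ≤ lab (A a a') then 1 else 0) *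
        PsiG n Ψ (fun l l' => ϱ * ((A l l').1 : ℝ)) ∂G.ν n -
      ∫ A, (if j ≤ offd lab A a a' then 1 else 0) *
        PsiG n Ψ (tker π (offd lab A)) ∂G.ν n| ≤ e := by
  have hb : ∀ {u : (Fin n → Fin n → VV r) → ℝ} {L : ℝ}, Measurable u → (∀ ω, |u ω| ≤ L) →
      Integrable u (G.ν n) :=
    fun hu hL => Integrable.of_bound hu.aestronglyMeasurable _
      (Eventually.of_forall fun ω => hL ω)
  have ho : ∀ A : Fin n → Fin n → VV r, offd lab A a a' = lab (A a a') := fun A => if_neg hne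
  have me : Measurable fun A : Fin n → Fin n → VV r => A a a' :=
    (measurable_pi_apply a').comp (measurable_pi_apply a)
  have mi : Measurable fun A : Fin n → Fin n → VV r =>
      (if j ≤ lab (A a a') then 1 else 0 : ℝ) :=
    (measurable_of_countable fun x : ℕ => (if j ≤ x then 1 else 0 : ℝ)).comp (hl.comp me)
  have bi : ∀ A : Fin n → Fin n → VV r, |(if j ≤ lab (A a a') then 1 else 0 : ℝ)| ≤ 1 :=
    fun A => by split_ifs <;> simp
  have m2 : Measurable fun A : Fin n → Fin n → VV r => PsiG n Ψ (tker π (offd lab A)) :=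
    (measurable_of_countable fun Lb : Fin n → Fin n → ℕ => PsiG n Ψ (tker π Lb)).comp
      (measurable_offd hl n)
  have h1 : ∀ {u : (Fin n → Fin n → VV r) → ℝ}, Measurable u → (∀ v, |u v| ≤ K) →
      Integrable (fun A => (if j ≤ lab (A a a') then 1 else 0 : ℝ) * u A) (G.ν n) := fun hu bu =>
    hb (L := K) (mi.mul hu) fun A => by
      rw [abs_mul]
      exact (mul_le_of_le_one_left (abs_nonneg _) (bi _)).trans (bu A)
  simp only [ho]
  rw [← integral_sub (h1 (ev_meas n hΨ ϱ) fun A => abs_PsiG_le n hK _)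
    (h1 m2 fun A => abs_PsiG_le n hK _)]
  have h5 := norm_integral_le_of_norm_le_const (μ := G.ν n) (C := e)
    (f := fun A => (if j ≤ lab (A a a') then 1 else 0 : ℝ) *
        PsiG n Ψ (fun l l' => ϱ * ((A l l').1 : ℝ)) -
      (if j ≤ lab (A a a') then 1 else 0 : ℝ) * PsiG n Ψ (tker π (offd lab A)))
    (h.mono fun A hA => by
      rw [Real.norm_eq_abs, ← mul_sub, abs_mul]
      exact (mul_le_of_le_one_left (abs_nonneg _) (bi _)).trans hA)
  simpa using h5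

theorem evb (h : IsLim X G ϱ d) {A A' W : (F → ℝ) → ℝ} (hA : Continuous A) (hA' : Continuous A')
    (hW : Continuous W) {B : ℝ} (bA : ∀ y, |A y| ≤ B) (bA' : ∀ y, |A' y| ≤ B)
    (bW : ∀ y, W y ∈ Set.Icc (0 : ℝ) 1) {g : ℝ → ℝ} (hg : ContinuousOn g (Set.Icc 0 1))
    (mg : Measurable g) {e : ℝ} (he : 0 < e) :
    ∃ (Λ : (VV r → ℝ) → ℝ) (C : ℝ) (n0 : ℕ),
      (∀ f, Continuous f → (∀ v, |f v| ≤ 1) →
        ∀ᶠ i in hyperfilter ℕ, |(X i).ys.val f A A' W g - Λ f| ≤ e) ∧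
      (∀ f f', Measurable f → Measurable f' → (∀ v, |f v| ≤ 1) → (∀ v, |f' v| ≤ 1) →
        |Λ f - Λ f'| ≤ C * ∫ v, |f v - f' v| ∂G.zeta) ∧
      ∀ n ≥ n0, ∀ (π : Path) (lab : VV r → ℕ), Disc G ϱ d n π lab →
        ∀ (b : ℕ → ℕ → ℕ) (P : ℕ → Pr), GoodCas (π.r + 1) π.m b P → ∀ (j : ℕ) (c : ℝ),
          Tendsto (fun i => (casYS F π (b i) (P i)).val (indL j) A A' W g) (hyperfilter ℕ) (𝓝 c) →
          |Λ (fun v => if j ≤ lab v then 1 else 0) - c| ≤ e := by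
  have hB : 0 ≤ B := (abs_nonneg _).trans (bA 0)
  have hBB : 0 < B * B + 1 := by positivity
  obtain ⟨p, hp⟩ := exists_polynomial_near_of_continuousOn 0 1 g hg (e / 2 / (B * B + 1))
    (by positivity)
  obtain ⟨N, c, hc⟩ : ∃ (N : ℕ) (c : ℕ → ℝ), ∀ x ∈ Set.Icc (0 : ℝ) 1,
      |g x - ∑ k ∈ range N, c k * x ^ k| ≤ e / 2 / (B * B + 1) :=
    ⟨p.natDegree + 1, p.coeff, fun x hx => by
      rw [← Polynomial.eval_eq_sum_range, abs_sub_comm]
      exact (hp x hx).le⟩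
  have hη : B * B * (e / 2 / (B * B + 1)) ≤ e / 2 := by
    rw [mul_div_assoc', div_le_iff₀ hBB]
    nlinarith
  have hS : 0 ≤ ∑ k ∈ range N, |c k| := Finset.sum_nonneg fun k _ => abs_nonneg _
  have hS1 : 0 < ∑ k ∈ range N, |c k| + 1 := by linarith
  have hη' : (∑ k ∈ range N, |c k|) * (e / 2 / (∑ k ∈ range N, |c k| + 1)) ≤ e / 2 := by
    rw [mul_div_assoc', div_le_iff₀ hS1]
    nlinarith
  choose n0 hn0 using fun k => near_PsiG (G := G) h.pos.le h.gT (2 + k)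
    (ev_psi_cont hA hA' hW k) (ev_psi_le bA bA' bW k)
    (e := e / 2 / (∑ k ∈ range N, |c k| + 1)) (by positivity)
  refine ⟨fun f => ∑ k ∈ range N, c k * ∫ A0, f (A0 (Fin.castAdd k 0) (Fin.castAdd k 1)) *
    PsiG (2 + k) (evPsi A A' W k) (fun l l' => ϱ * ((A0 l l').1 : ℝ)) ∂G.ν (2 + k),
    (∑ k ∈ range N, |c k|) * (B * B), (range N).sup n0, fun f hf bf => ?_,
    fun f f' hf hf' bf bf' => ?_, fun n hn π lab hD b P hc' j a ha => ?_⟩
  · have ht := tendsto_finsetSum (range N) fun k _ => (fg_lim h (2 + k)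
      (ev_psi_cont hA hA' hW k) (ev_psi_le bA bA' bW k)
      (f := fun A0 => f (A0 (Fin.castAdd k 0) (Fin.castAdd k 1)))
      (hf.comp ((continuous_apply _).comp (continuous_apply _)))).const_mul (c k)
    filter_upwards [Metric.tendsto_nhds.1 ht (e / 2) (by positivity)] with i hi
    have h1 := ev_val_near (X i).ys hf.measurable bf hA hA' hW bA bA' bW mg N c hc
    simp only [ev_val_pow] at h1
    rw [Real.dist_eq] at hi
    exact (abs_sub_le _ _ _).trans (by linarith [h1.trans hη, hi.le])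
  · rw [mul_assoc]
    exact ev_sum_le N c fun k _ => ev_lip G (ev_ne k) (ev_meas _ (ev_psi_cont hA hA' hW k) ϱ)
      (fun A0 => abs_PsiG_le _ (ev_psi_le bA bA' bW k) _) hf hf' bf bf'
  · have ht := tendsto_finsetSum (range N) fun k _ => (cas_lim hD hc' (2 + k)
      (ev_psi_cont hA hA' hW k).measurable (ev_psi_le bA bA' bW k)
      fun Lb => if j ≤ Lb (Fin.castAdd k 0) (Fin.castAdd k 1) then 1 else 0).const_mul (c k)
    have h1 := le_of_tendsto (ha.sub ht).abs (b := e / 2) (Eventually.of_forall fun i => by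
      have h2 := ev_val_near (casYS F π (b i) (P i)) (continuous_indL j).measurable
        (abs_indL_le j) hA hA' hW bA bA' bW mg N c hc
      simp only [ev_val_pow] at h2
      simp only [offd, if_neg (ev_ne _)]
      exact h2.trans hη)
    have h3 := ev_sum_le N c fun k hk => ev_near G (ev_ne k) (ev_psi_cont hA hA' hW k)
      (ev_psi_le bA bA' bW k) π hD.meas j
      (hn0 k n ((Finset.le_sup (f := n0) hk).trans hn) π lab hD)
    rw [abs_sub_comm] at h1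
    exact (abs_sub_le _ _ _).trans (by linarith [h3.trans hη'])


omit [Fintype F] in
lemma ev_mom {r : ℕ} {Y : YS r F} {M M' : ℝ} (h : Y.Mom M) (hM : M ≤ M') : Y.Mom M' :=
  fun f => ⟨(h f).1, (h f).2.trans hM⟩

lemma ev_momX (h : IsLim X G ϱ d) :
    ∀ᶠ i in hyperfilter ℕ, (X i).ys.Mom (3 * (ϱ + 1) ^ 2) := by
  filter_upwards [h.rho.eventually (gt_mem_nhds (lt_add_one ϱ))] with i hi
  refine ev_mom (X i).mom ?_
  have := pow_le_pow_left₀ (X i).ϱ_nonneg hi.le 2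
  linarith

lemma ev_momC (h : IsLim X G ϱ d) {n : ℕ} {π : Path} {lab : VV r → ℕ} (hD : Disc G ϱ d n π lab)
    (b : ℕ → ℕ) (P : Pr) : (casYS F π b P).Mom (3 * (ϱ + 1) ^ 2) := by
  refine ev_mom (cas_mom π b P) ?_
  obtain ⟨A, hA⟩ := (h.gT.diag 1).exists
  have h1 : |d| ≤ 1 := by
    rw [← hA 0]
    exact abs_le.2 (A 0 0).1.2
  have h2 : d ^ 2 ≤ 1 := by
    rw [← sq_abs]
    exact pow_le_one₀ (abs_nonneg _) h1
  rw [hD.top]
  have := h.pos
  nlinarith [mul_le_mul_of_nonneg_left h2 (sq_nonneg ϱ)]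

lemma ev_ind0 {r : ℕ} : (indL 0 : VV r → ℝ) = fun _ => 1 := by
  funext v
  simp [indL]

lemma ev_bW {q : (F → ℝ) → Bool → ℝ} {C : ℝ} (hq : QOk q C) (y : F → ℝ) :
    Wq q y ∈ Set.Icc (0 : ℝ) 1 := ⟨(Wq_pos q y).le, Wq_le_one hq.nonneg y⟩

lemma ev_bV {q V : (F → ℝ) → Bool → ℝ} {C B : ℝ} (hq : QOk q C) (hV : VOk V B) (y : F → ℝ) :
    |Vq q V y| ≤ B :=
  (abs_Vq_le q hV.bdd y).trans
    (mul_le_of_le_one_right ((abs_nonneg _).trans (hV.bdd y true)) (ev_bW hq y).2)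

lemma ev_four {a b c d e x : ℝ} (h1 : |a - b| ≤ x / 4) (h2 : |b - c| ≤ x / 4)
    (h3 : |c - d| ≤ x / 4) (h4 : |e - d| ≤ x / 4) : |a - e| ≤ x := by
  rw [abs_le] at *
  constructor <;> linarith [h1.1, h1.2, h2.1, h2.2, h3.1, h3.2, h4.1, h4.2]

theorem ev1 (h : IsLim X G ϱ d) {q : (F → ℝ) → Bool → ℝ} {C : ℝ} (hq : QOk q C) {e : ℝ}
    (he : 0 < e) : ∃ n0 : ℕ, ∀ n ≥ n0, ∀ (π : Path) (lab : VV r → ℕ), Disc G ϱ d n π lab →
      ∀ (b : ℕ → ℕ → ℕ) (P : ℕ → Pr), GoodCas (π.r + 1) π.m b P → ∀ c : ℝ,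
        Tendsto (fun i => (casYS F π (b i) (P i)).cav1 q) (hyperfilter ℕ) (𝓝 c) →
        ∀ᶠ i in hyperfilter ℕ, |(X i).ys.cav1 q - c| ≤ e := by
  obtain ⟨δ, hδ, ht⟩ := tr (F := F) C (3 * (ϱ + 1) ^ 2) 0 (e := e / 4) (by positivity)
  have ht' := @ht δ ⟨hδ, le_rfl⟩
  have hV : VOk (fun (_ : F → ℝ) (_ : Bool) => (0 : ℝ)) 0 :=
    ⟨fun _ => continuous_const, fun _ _ => by simp⟩
  obtain ⟨Λ, C', n0, h1, -, h3⟩ := evb h (A := fun _ => 1) (A' := fun _ => 1) continuous_const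
    continuous_const hq.continuous_Wq (B := 1) (fun _ => by simp) (fun _ => by simp) (ev_bW hq)
    (g := fun w => Real.log (w + δ))
    ((continuousOn_id.add continuousOn_const).log fun x hx => by
      have := hx.1
      show x + δ ≠ 0
      positivity)
    (measurable_id.add_const δ).log (e := e / 4) (by positivity)
  refine ⟨n0, fun n hn π lab hD b P hc c ha => ?_⟩
  obtain ⟨c', hc', hl⟩ := ev_lim ha fun i => (ht' _ q _ (ev_momC h hD (b i) (P i)) hq hV).1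
  have h4 := h3 n hn π lab hD b P hc 0 c' (by rw [ev_ind0]; exact hl)
  simp only [zero_le, if_true] at h4
  filter_upwards [ev_momX h, h1 (fun _ => 1) continuous_const fun _ => by simp] with i hi hi'
  exact ev_four (ht' _ q _ hi hq hV).1 hi' h4 hc' 

theorem ev3 (h : IsLim X G ϱ d) {q V : (F → ℝ) → Bool → ℝ} {C B : ℝ} (hq : QOk q C)
    (hV : VOk V B) {e : ℝ} (he : 0 < e) :
    ∃ n0 : ℕ, ∀ n ≥ n0, ∀ (π : Path) (lab : VV r → ℕ), Disc G ϱ d n π lab →
      ∀ (b : ℕ → ℕ → ℕ) (P : ℕ → Pr), GoodCas (π.r + 1) π.m b P → ∀ c : ℝ,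
        Tendsto (fun i => (casYS F π (b i) (P i)).cav3 q V) (hyperfilter ℕ) (𝓝 c) →
        ∀ᶠ i in hyperfilter ℕ, |(X i).ys.cav3 q V - c| ≤ e := by
  obtain ⟨δ, hδ, ht⟩ := tr (F := F) C (3 * (ϱ + 1) ^ 2) B (e := e / 4) (by positivity)
  have ht' := @ht δ ⟨hδ, le_rfl⟩
  obtain ⟨Λ, C', n0, h1, -, h3⟩ := evb h (A := Vq q V) (A' := fun _ => 1) (hq.continuous_Vq hV)
    continuous_const hq.continuous_Wq (B := max B 1)
    (fun y => (ev_bV hq hV y).trans (le_max_left _ _)) (fun _ => by simp) (ev_bW hq)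
    (g := fun w => (w + δ)⁻¹)
    ((continuousOn_id.add continuousOn_const).inv₀ fun x hx => by
      have := hx.1
      show x + δ ≠ 0
      positivity)
    (measurable_id.add_const δ).inv (e := e / 4) (by positivity)
  refine ⟨n0, fun n hn π lab hD b P hc c ha => ?_⟩
  obtain ⟨c', hc', hl⟩ := ev_lim ha fun i => (ht' _ q V (ev_momC h hD (b i) (P i)) hq hV).2.1
  have h4 := h3 n hn π lab hD b P hc 0 c' (by rw [ev_ind0]; exact hl)
  simp only [zero_le, if_true] at h4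
  filter_upwards [ev_momX h, h1 (fun _ => 1) continuous_const fun _ => by simp] with i hi hi'
  exact ev_four (ht' _ q V hi hq hV).2.1 hi' h4 hc' 

theorem ev2 (h : IsLim X G ϱ d) {q V : (F → ℝ) → Bool → ℝ} {C B : ℝ} (hq : QOk q C)
    (hV : VOk V B) {e : ℝ} (he : 0 < e) :
    ∃ (Λ : (VV r → ℝ) → ℝ) (C' : ℝ) (n0 : ℕ),
      (∀ f, Continuous f → (∀ v, |f v| ≤ 1) →
        ∀ᶠ i in hyperfilter ℕ, |(X i).ys.cav2 q V f - Λ f| ≤ e) ∧
      (∀ f f', Measurable f → Measurable f' → (∀ v, |f v| ≤ 1) → (∀ v, |f' v| ≤ 1) →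
        |Λ f - Λ f'| ≤ C' * ∫ v, |f v - f' v| ∂G.zeta) ∧
      ∀ n ≥ n0, ∀ (π : Path) (lab : VV r → ℕ), Disc G ϱ d n π lab →
        ∀ (b : ℕ → ℕ → ℕ) (P : ℕ → Pr), GoodCas (π.r + 1) π.m b P → ∀ (j : ℕ) (c : ℝ),
          Tendsto (fun i => (casYS F π (b i) (P i)).cav2 q V (indL j)) (hyperfilter ℕ) (𝓝 c) →
          |Λ (fun v => if j ≤ lab v then 1 else 0) - c| ≤ e := by
  obtain ⟨δ, hδ, ht⟩ := tr (F := F) C (3 * (ϱ + 1) ^ 2) B (e := e / 2) (by positivity)
  have ht' := @ht δ ⟨hδ, le_rfl⟩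
  obtain ⟨Λ, C', n0, h1, h2, h3⟩ := evb h (A := Vq q V) (A' := Vq q V) (hq.continuous_Vq hV)
    (hq.continuous_Vq hV) hq.continuous_Wq (ev_bV hq hV) (ev_bV hq hV) (ev_bW hq)
    (g := fun w => ((w + δ) ^ 2)⁻¹)
    (((continuousOn_id.add continuousOn_const).pow 2).inv₀ fun x hx => by
      have := hx.1
      show (x + δ) ^ 2 ≠ 0
      positivity)
    ((measurable_id.add_const δ).pow_const 2).inv (e := e / 2) (by positivity)
  refine ⟨Λ, C', n0, fun f hf bf => ?_, h2, fun n hn π lab hD b P hc j c ha => ?_⟩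
  · filter_upwards [ev_momX h, h1 f hf bf] with i hi hi'
    exact (abs_sub_le _ _ _).trans
      (by linarith [(ht' _ q V hi hq hV).2.2 f hf.measurable bf])
  · obtain ⟨c', hc', hl⟩ := ev_lim ha fun i =>
      (ht' _ q V (ev_momC h hD (b i) (P i)) hq hV).2.2 _ (continuous_indL j).measurable
        (abs_indL_le j)
    have h4 := h3 n hn π lab hD b P hc j c' hl
    rw [abs_sub_comm] at hc'
    exact (abs_sub_le _ c' _).trans (by linarith)

end

end Vale.Agent.P166
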