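import Vale.Agent.P166.Final

/-! P166 Extra: the objects in the statement are not junk values. -/

open MeasureTheory ProbabilityTheory Filter Topology Matrix Finset

namespace Vale.Agent.P166

noncomputable section

lemma measurable_arrO {N : ℕ} : Measurable fun (U : Og (Fin N)) (i j : Fin N) => U.1 i j :=
  measurable_pi_lambda _ fun i => measurable_pi_lambda _ fun j => measurable_entry i j

lemma exists_isHaarO (N : ℕ) : ∃ ν : Measure (Fin N → Fin N → ℝ), IsHaarO ν := by
  refine ⟨(haarO (Fin N)).map fun U i j => U.1 i j,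
    Measure.isProbabilityMeasure_map measurable_arrO.aemeasurable, ?_, fun V hV => ?_⟩
  · have hc : Continuous fun U : Fin N → Fin N → ℝ => Matrix.of U * (Matrix.of U)ᵀ :=
      Continuous.matrix_mul continuous_id (Continuous.matrix_transpose continuous_id)
    have hs : MeasurableSet {U : Fin N → Fin N → ℝ |
        Matrix.of U ∈ Matrix.orthogonalGroup (Fin N) ℝ} := by
      have : {U : Fin N → Fin N → ℝ | Matrix.of U ∈ Matrix.orthogonalGroup (Fin N) ℝ} =
          (fun U : Fin N → Fin N → ℝ => Matrix.of U * (Matrix.of U)ᵀ) ⁻¹' {1} := by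
        ext U
        exact Matrix.mem_orthogonalGroup_iff (Fin N) ℝ
      rw [this]
      exact (isClosed_singleton.preimage hc).measurableSet
    exact (ae_map_iff measurable_arrO.aemeasurable hs).2 (ae_of_all _ fun U => U.2)
  · have hm : Measurable fun (U : Fin N → Fin N → ℝ) (i j : Fin N) => (V * Matrix.of U) i j := by
      refine measurable_pi_lambda _ fun i => measurable_pi_lambda _ fun j => ?_
      simp only [Matrix.mul_apply, Matrix.of_apply]
      exact Finset.measurable_sum _ fun k _ => by fun_prop
    rw [Measure.map_map hm measurable_arrO]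
    have h := (haarO_left (ι := Fin N) ⟨V, hV⟩).map_eq
    conv_rhs => rw [← h]
    rw [Measure.map_map measurable_arrO (haarO_left (ι := Fin N) ⟨V, hV⟩).measurable]
    rfl

lemma Trial.bddAbove_ent (τ : Trial) : BddAbove (τ.ent '' {a | ∀ l, 0 ≤ a l}) :=
  ⟨τ.entropy, by rintro _ ⟨a, ha, rfl⟩; exact τ.ent_le_entropy ha⟩

lemma bddBelow_values {β : ℝ} (hβ : 0 < β) (μ : Measure ℝ) [IsProbabilityMeasure μ]
    (hμ : IsCompact μ.support) :
    BddBelow (Set.range fun τ : Trial => τ.energy β μ + τ.entropy) := by
  refine ⟨β / 2 * sInf μ.support, ?_⟩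
  rintro _ ⟨τ, rfl⟩
  have h1 : ∫ _ in (0 : ℝ)..1, sInf μ.support ≤ ∫ q in (0 : ℝ)..1, Rtr μ (β * τ.sus q) := by
    refine intervalIntegral.integral_mono_on_of_le_Ioo zero_le_one intervalIntegrable_const
      (intervalIntegrable_Rtr hμ τ hβ) fun q hq => ?_
    exact (Rtr_mem hμ (mul_pos hβ (τ.sus_pos hq.2))).1
  rw [intervalIntegral.integral_const, sub_zero, one_smul] at h1
  have h2 := τ.entropy_nonneg
  have h3 : β / 2 * sInf μ.support ≤ τ.energy β μ :=
    mul_le_mul_of_nonneg_left h1 (by positivity)
  show _ ≤ τ.energy β μ + τ.entropy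
  linarith

lemma integrable_pressure {N : ℕ} (β : ℝ) (lam : Fin N → ℝ) {ν : Measure (Fin N → Fin N → ℝ)}
    (h : IsHaarO ν) : Integrable (pressure β lam) ν := by
  rw [isHaarO_eq h]
  refine (integrable_map_measure (measurable_pressure β lam).aestronglyMeasurable
    measurable_arrO.aemeasurable).2 ?_
  rcases Nat.eq_zero_or_pos N with rfl | hN
  · have : (pressure β lam ∘ fun (U : Og (Fin 0)) i j => U.1 i j) = fun _ => 0 := by
      funext U; simp [pressure]
    rw [this]; exact integrable_const _
  · have : (pressure β lam ∘ fun (U : Og (Fin N)) i j => U.1 i j) = fun U =>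
        lz (fun σ => hY (fun i => β * lam i) (yv U σ)) / N - Real.log 2 :=
      funext fun U => pressure_eq hN β lam U
    rw [this]
    refine (Integrable.div_const ?_ _).sub (integrable_const _)
    refine integrable_lz (fun σ => ((YO (Fin N)).rm (fun i => β * lam i) ∅ N (by simp)).mh σ)
      fun σ => ?_
    exact Integrable.of_bound
      (((YO (Fin N)).rm (fun i => β * lam i) ∅ N (by simp)).mh σ).aestronglyMeasurable _
      (ae_of_all _ fun U => ((YO (Fin N)).rm (fun i => β * lam i) ∅ N (by simp)).bh U σ)

end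

end Vale.Agent.P166
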