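import Vale.Agent.P166.Orth

/-! P166 FgA: linear algebra and Gaussian matrices for the file Fg. -/

open MeasureTheory ProbabilityTheory Filter Topology Matrix Finset

namespace Vale.Agent.P166

noncomputable section

variable {F D : Type} [Fintype F] [Fintype D]

lemma fga_ext [DecidableEq F] [DecidableEq D] (e : F ↪ D) (W : Matrix F D ℝ) (hW : W * Wᵀ = 1) :
    ∃ B : Og D, ∀ f d, B.1 (e f) d = W f d := by
  have hv : Orthonormal ℝ ((Set.range e).domRestrict (Function.extend e
      (fun f => (WithLp.toLp 2 (W f) : EuclideanSpace ℝ D)) 0)) := by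
    rw [orthonormal_iff_ite]
    rintro ⟨_, f, rfl⟩ ⟨_, f', rfl⟩
    have h := congrFun (congrFun hW f) f'
    rw [Matrix.mul_apply, Matrix.one_apply] at h
    simp only [Set.domRestrict_apply, e.injective.extend_apply, PiLp.inner_apply,
      RCLike.inner_apply, conj_trivial]
    refine ((Finset.sum_congr rfl fun d _ => mul_comm _ _).trans h).trans ?_
    by_cases hf : f = f'
    · rw [if_pos hf, if_pos (Subtype.ext (congrArg e hf))]
    · rw [if_neg hf, if_neg fun h => hf (e.injective (congrArg Subtype.val h))]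
  obtain ⟨b, hb⟩ := hv.exists_orthonormalBasis_extension_of_card_eq (by simp)
  refine ⟨⟨Matrix.of fun d d' => b d d', ?_⟩, fun f d => ?_⟩
  · rw [Matrix.mem_orthogonalGroup_iff]
    ext d d'
    have h := orthonormal_iff_ite.1 b.orthonormal d d'
    rw [Matrix.mul_apply, Matrix.one_apply, ← h]
    simp only [PiLp.inner_apply, RCLike.inner_apply, conj_trivial, Matrix.of_apply,
      Matrix.transpose_apply]
    exact Finset.sum_congr rfl fun d _ => mul_comm _ _
  · show b (e f) d = _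
    rw [hb _ ⟨f, rfl⟩, e.injective.extend_apply]

open Classical in
/-- squared distance of the normalised Gram matrix from the identity -/
def fgaS (G : D → F → ℝ) : ℝ :=
  ∑ f, ∑ f', ((∑ d, G d f * G d f') / Fintype.card D - if f = f' then 1 else 0) ^ 2

lemma fgaS_nonneg (G : D → F → ℝ) : 0 ≤ fgaS G :=
  Finset.sum_nonneg fun _ _ => Finset.sum_nonneg fun _ _ => sq_nonneg _

lemma fga_root [DecidableEq D] (e : F ↪ D) (G : D → F → ℝ) {η : ℝ} (hη : 0 ≤ η) (hη1 : η < 1)
    (h : fgaS G ≤ η ^ 2) : ∃ (B : Og D) (L : (F → ℝ) → F → ℝ), Continuous L ∧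
      (∀ v, ∑ f, (L v f - v f) ^ 2 ≤ η ^ 2 * ∑ f, v f ^ 2) ∧
      ∀ x : D → ℝ, (L fun f => (B.1 *ᵥ x) (e f)) =
        fun f => ∑ d, x d / √(Fintype.card D) * G d f := by
  classical
  obtain ⟨a, ha⟩ : ∃ a : Matrix F D ℝ, a = Matrix.of fun f d => G d f / √(Fintype.card D) :=
    ⟨_, rfl⟩
  have hA : ∀ f f', (a * aᵀ) f f' = (∑ d, G d f * G d f') / Fintype.card D := fun f f' => by
    rw [Matrix.mul_apply, Finset.sum_div]
    refine Finset.sum_congr rfl fun d _ => ?_
    rw [ha, Matrix.transpose_apply, Matrix.of_apply, Matrix.of_apply, div_mul_div_comm,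
      Real.mul_self_sqrt (Nat.cast_nonneg _)]
  obtain ⟨L, h1, h2, h3⟩ := exists_root_near (a * aᵀ) (psd_gram a) hη hη1 fun v => by
    refine le_trans (Finset.sum_le_sum fun f _ => Finset.sum_mul_sq_le_sq_mul_sq _ _ _) ?_
    rw [← Finset.sum_mul]
    refine mul_le_mul_of_nonneg_right (le_trans (le_of_eq ?_) h)
      (Finset.sum_nonneg fun _ _ => sq_nonneg _)
    refine Finset.sum_congr rfl fun f _ => Finset.sum_congr rfl fun f' _ => ?_
    rw [Matrix.sub_apply, hA, Matrix.one_apply]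
  obtain ⟨B, hB⟩ := fga_ext e (L⁻¹ * a) (by
    rw [Matrix.transpose_mul, Matrix.mul_assoc, ← Matrix.mul_assoc a, ← h1,
      Matrix.mul_assoc L, ← Matrix.transpose_mul, Matrix.nonsing_inv_mul _ h2, Matrix.transpose_one,
      Matrix.mul_one, Matrix.nonsing_inv_mul _ h2])
  refine ⟨B, fun v => L *ᵥ v, continuous_const.matrix_mulVec continuous_id, fun v => ?_,
    fun x => ?_⟩
  · refine le_trans (le_of_eq ?_) (h3 v)
    rw [Matrix.sub_mulVec, Matrix.one_mulVec]
    rfl
  · have e1 : (fun f => (B.1 *ᵥ x) (e f)) = (L⁻¹ * a) *ᵥ x :=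
      funext fun f => Finset.sum_congr rfl fun d _ => congrArg (· * x d) (hB f d)
    show L *ᵥ _ = _
    rw [e1, Matrix.mulVec_mulVec, ← Matrix.mul_assoc, Matrix.mul_nonsing_inv _ h2, Matrix.one_mul,
      ha]
    refine funext fun f => Finset.sum_congr rfl fun d _ => ?_
    show G d f / √(Fintype.card D) * x d = _
    ring

lemma fga_id [DecidableEq F] : gam F = gK fun f f' : F => if f = f' then 1 else 0 := by
  have h := map_feat_gK fun f f' : F => if f = f' then (1 : ℝ) else 0
  have e1 : feat (fun f f' : F => if f = f' then (1 : ℝ) else 0) = id := by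
    funext g f
    simp [feat]
  have e2 : gram (fun f f' : F => if f = f' then (1 : ℝ) else 0) =
      fun f f' => if f = f' then 1 else 0 := by
    funext f f'
    simp [gram]
  rwa [e1, e2, Measure.map_id] at h

lemma fga_psd [DecidableEq F] : PSD fun f f' : F => if f = f' then (1 : ℝ) else 0 :=
  Matrix.PosSemidef.one

lemma fga_four (f : F) : Integrable (fun c : F → ℝ => c f ^ 4) (gam F) ∧
    ∫ c, c f ^ 4 ∂gam F = 3 := by
  classical
  rw [fga_id]
  refine ⟨(integrable_eval_pow f 4).congr (Eventually.of_forall fun c => ?_), ?_⟩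
  · exact Even.pow_abs (by decide) _
  · rw [integral_eval_four fga_psd, if_pos rfl]
    norm_num

lemma fga_pair (f f' : F) : MemLp (fun c : F → ℝ => c f * c f') 2 (gam F) ∧
    Var[fun c : F → ℝ => c f * c f'; gam F] ≤ 3 := by
  have hm : Measurable fun c : F → ℝ => c f * c f' := by fun_prop
  have hi := ((fga_four f).1.add (fga_four f').1).div_const 2
  have hle : ∀ c : F → ℝ, (c f * c f') ^ 2 ≤ (c f ^ 4 + c f' ^ 4) / 2 := fun c => by
    nlinarith [sq_nonneg (c f ^ 2 - c f' ^ 2)]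
  have h1 : Integrable (fun c : F → ℝ => (c f * c f') ^ 2) (gam F) :=
    hi.mono' (hm.pow_const 2).aestronglyMeasurable (Eventually.of_forall fun c => by
      rw [Real.norm_of_nonneg (sq_nonneg _)]
      exact hle c)
  refine ⟨(memLp_two_iff_integrable_sq hm.aestronglyMeasurable).2 h1,
    (variance_le_expectation_sq hm.aestronglyMeasurable).trans
      ((integral_mono h1 hi hle).trans (le_of_eq ?_))⟩
  simp only [Pi.add_apply]
  rw [integral_div, integral_add (fga_four f).1 (fga_four f').1, (fga_four f).2, (fga_four f').2]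
  norm_num

lemma fga_entry [DecidableEq F] (hD : 0 < Fintype.card D) (f f' : F) :
    Integrable (fun G : D → F → ℝ => ((∑ d, G d f * G d f') / Fintype.card D
      - if f = f' then 1 else 0) ^ 2) (Measure.pi fun _ => gam F) ∧
    ∫ G : D → F → ℝ, ((∑ d, G d f * G d f') / Fintype.card D - if f = f' then 1 else 0) ^ 2
      ∂(Measure.pi fun _ => gam F) ≤ 3 / (Fintype.card D : ℝ) := by
  have hN : (0 : ℝ) < Fintype.card D := Nat.cast_pos.2 hD
  have h1 : ∀ d, MemLp (fun G : D → F → ℝ => G d f * G d f') 2 (Measure.pi fun _ => gam F) :=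
    fun d => (fga_pair f f').1.comp_measurePreserving
      (measurePreserving_eval (fun _ : D => gam F) d)
  have h2 : MemLp (fun G : D → F → ℝ => ∑ d, G d f * G d f') 2 (Measure.pi fun _ => gam F) :=
    memLp_finsetSum _ fun d _ => h1 d
  have h3 := variance_sum_pi (μ := fun _ : D => gam F) (X := fun _ c => c f * c f')
    fun _ => (fga_pair f f').1
  rw [Finset.sum_fn, variance_eq_integral h2.aemeasurable,
    integral_finsetSum _ fun d _ => (h1 d).integrable one_le_two] at h3
  have h4 : ∀ d, ∫ G : D → F → ℝ, G d f * G d f' ∂(Measure.pi fun _ => gam F) =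
      if f = f' then 1 else 0 := fun d => by
    refine (integral_comp_eval (μ := fun _ : D => gam F) (f := fun c : F → ℝ => c f * c f') (i := d)
      (fga_pair f f').1.aestronglyMeasurable).trans ?_
    rw [fga_id, integral_eval_mul fga_psd]
  simp only [h4, Finset.sum_const, Finset.card_univ, nsmul_eq_mul] at h3
  have e : ∀ G : D → F → ℝ, ((∑ d, G d f * G d f') / Fintype.card D - if f = f' then 1 else 0) ^ 2
      = (∑ d, G d f * G d f' - Fintype.card D * if f = f' then 1 else 0) ^ 2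
        / (Fintype.card D : ℝ) ^ 2 := fun G => by
    field_simp
  simp only [e]
  have h5 : MemLp (fun G : D → F → ℝ => ∑ d, G d f * G d f' -
      Fintype.card D * if f = f' then 1 else 0) 2 (Measure.pi fun _ => gam F) :=
    h2.sub (memLp_const _ : MemLp (fun _ => (Fintype.card D : ℝ) * if f = f' then 1 else 0) 2 _)
  refine ⟨h5.integrable_sq.div_const _, ?_⟩
  rw [integral_div, h3, div_le_div_iff₀ (by positivity) hN]
  have := mul_le_mul_of_nonneg_left (fga_pair f f').2 (sq_nonneg (Fintype.card D : ℝ))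
  nlinarith

lemma fga_var (hD : 0 < Fintype.card D) :
    Integrable (fgaS : (D → F → ℝ) → ℝ) (Measure.pi fun _ => gam F) ∧
    ∫ G : D → F → ℝ, fgaS G ∂(Measure.pi fun _ => gam F) ≤
      3 * (Fintype.card F : ℝ) ^ 2 / Fintype.card D := by
  classical
  have h1 := fun f => integrable_finsetSum univ fun f' _ => (fga_entry (F := F) hD f f').1
  refine ⟨integrable_finsetSum _ fun f _ => h1 f, ?_⟩
  unfold fgaS
  rw [integral_finsetSum _ fun f _ => h1 f]
  refine (Finset.sum_le_sum fun f _ =>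
    (integral_finsetSum _ fun f' _ => (fga_entry hD f f').1).trans_le
      (Finset.sum_le_sum fun f' _ => (fga_entry hD f f').2)).trans (le_of_eq ?_)
  simp only [Finset.sum_const, Finset.card_univ, nsmul_eq_mul]
  ring

lemma fga_mp {n : ℕ} (a : Fin n → D → ℝ) :
    MeasurePreserving (fun (g : F → D → ℝ) f => feat a (g f)) (Measure.pi fun _ => gam D)
      (Measure.pi fun _ => gK (gram a)) :=
  measurePreserving_pi _ _ fun _ => ⟨measurable_feat a, map_feat_gK a⟩

lemma fga_gauss {n : ℕ} {Ψ : (Fin n → F → ℝ) → ℝ} (hΨ : Measurable Ψ) (a : Fin n → D → ℝ) :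
    ∫ G : D → F → ℝ, Ψ (fun l f => ∑ d, a l d * G d f) ∂(Measure.pi fun _ => gam F) =
      PsiG n Ψ (gram a) := by
  have h1 : MeasurePreserving (fun (g : D → F → ℝ) f d => g d f) (Measure.pi fun _ => gam F)
      (Measure.pi fun _ => gam D) :=
    ⟨by fun_prop, map_pi_swap fun _ _ => gaussianReal 0 1⟩
  have h2 := (fga_mp (F := F) a).comp h1
  have hm : Measurable fun G : F → Fin n → ℝ => Ψ fun l f => G f l := hΨ.comp (by fun_prop)
  rw [PsiG, ← h2.map_eq, integral_map h2.measurable.aemeasurable hm.aestronglyMeasurable]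
  rfl

lemma fga_unif {n : ℕ} {Ψ : (Fin n → F → ℝ) → ℝ} (hΨ : Continuous Ψ) {B : ℝ}
    (hB : ∀ y, |Ψ y| ≤ B) {ε c : ℝ} (hε : 0 < ε) (hc : 0 < c) :
    ∃ η : ℝ, 0 < η ∧ η < 1 ∧ ∀ Y Y' : Fin n → F → ℝ,
      (∀ l, ∑ f, (Y' l f - Y l f) ^ 2 ≤ η ^ 2 * ∑ f, Y l f ^ 2) →
      |Ψ Y' - Ψ Y| ≤ ε + c * ∑ l, ∑ f, (1 + Y l f ^ 4) := by
  have hB0 : 0 ≤ B := (abs_nonneg _).trans (hB 0)
  obtain ⟨R, hR, hR2⟩ : ∃ R : ℝ, 0 < R ∧ 2 * B ≤ c * R ^ 2 :=
    ⟨2 * B / c + 1, by positivity, by
      have h1 : 0 ≤ 2 * B / c := by positivity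
      have h2 : c * (2 * B / c) = 2 * B := by field_simp
      nlinarith⟩
  obtain ⟨δ, hδ, h⟩ := Metric.uniformContinuousOn_iff_le.1
    ((isCompact_closedBall (0 : Fin n → F → ℝ) (2 * R)).uniformContinuousOn_of_continuous
      hΨ.continuousOn) ε hε
  obtain ⟨η, h0, h1, h2⟩ : ∃ η : ℝ, 0 < η ∧ η < 1 ∧ η * R ≤ δ :=
    ⟨min (1 / 2) (δ / R), by positivity, (min_le_left _ _).trans_lt (by norm_num),
      (le_div_iff₀ hR).1 (min_le_right _ _)⟩
  refine ⟨η, h0, h1, fun Y Y' hY => ?_⟩
  have h3 : ∑ l, ∑ f, Y l f ^ 2 ≤ ∑ l, ∑ f, (1 + Y l f ^ 4) :=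
    Finset.sum_le_sum fun l _ => Finset.sum_le_sum fun f _ => by
      nlinarith [sq_nonneg (Y l f ^ 2 - 1), sq_nonneg (Y l f)]
  have h4 : ∀ l, 0 ≤ ∑ f, Y l f ^ 2 := fun l => Finset.sum_nonneg fun _ _ => sq_nonneg _
  by_cases hT : ∑ l, ∑ f, Y l f ^ 2 ≤ R ^ 2
  · have h5 : ∀ l, ∑ f, Y l f ^ 2 ≤ R ^ 2 := fun l =>
      (Finset.single_le_sum (fun l _ => h4 l) (Finset.mem_univ l)).trans hT
    have h6 : ‖Y‖ ≤ R := (pi_norm_le_iff_of_nonneg hR.le).2 fun l =>
      (pi_norm_le_iff_of_nonneg hR.le).2 fun f => abs_le_of_sq_le_sq' ((Finset.single_le_sum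
        (fun f _ => sq_nonneg (Y l f)) (Finset.mem_univ f)).trans (h5 l)) hR.le |> abs_le.2
    have h7 : ‖Y' - Y‖ ≤ η * R := (pi_norm_le_iff_of_nonneg (by positivity)).2 fun l =>
      (pi_norm_le_iff_of_nonneg (by positivity)).2 fun f => abs_le_of_sq_le_sq'
        ((Finset.single_le_sum (fun f _ => sq_nonneg (Y' l f - Y l f)) (Finset.mem_univ f)).trans
          ((hY l).trans ((mul_le_mul_of_nonneg_left (h5 l) (sq_nonneg η)).trans_eq
            (mul_pow _ _ _).symm))) (by positivity) |> abs_le.2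
    have h8 := h Y' (mem_closedBall_zero_iff.2 ((norm_le_insert' Y' Y).trans (by nlinarith))) Y
      (mem_closedBall_zero_iff.2 (by linarith)) ((dist_eq_norm _ _).trans_le (h7.trans h2))
    have h9 := mul_nonneg hc.le ((Finset.sum_nonneg fun l _ => h4 l).trans h3)
    rw [Real.dist_eq] at h8
    linarith
  · have h5 := mul_le_mul_of_nonneg_left ((not_le.1 hT).le.trans h3) hc.le
    have h6 := (abs_sub _ _).trans (add_le_add (hB Y') (hB Y))
    linarith

end

end Vale.Agent.P166
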