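import Vale.Agent.P166.RMB

/-! P166 Inv: invariance under rotations inside a block of equal eigenvalues, moments,
exchangeability, site symmetry, reindexing. -/

open MeasureTheory ProbabilityTheory Filter Topology Matrix Finset

namespace Vale.Agent.P166

noncomputable section

variable {ι K : Type} [Fintype ι] [DecidableEq ι] [Fintype K] [DecidableEq K]
  {r : ℕ} {b : ℕ → ℕ} {m : ℕ → ℝ} {P : Pr}

lemma inv_in (f : K ↪ ι) (B : Og K) (y : ι → ℝ) (k : K) :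
    ((emb f B).1 *ᵥ y) (f k) = (B.1 *ᵥ fun k' => y (f k')) k := embM_mulVec_in f B.1 y k

lemma dot_emb (f : K ↪ ι) (B : Og K) (y y' : ι → ℝ) :
    ∑ k, ((emb f B).1 *ᵥ y) (f k) * ((emb f B).1 *ᵥ y') (f k) = ∑ k, y (f k) * y' (f k) := by
  simp only [inv_in]
  exact orth_dot B _ _

lemma inv_wsum (f : K ↪ ι) (B : Og K) {w : ι → ℝ} {t : ℝ} (hw : ∀ k, w (f k) = t)
    (y y' : ι → ℝ) : ∑ i, w i * (((emb f B).1 *ᵥ y) i * ((emb f B).1 *ᵥ y') i)
      = ∑ i, w i * (y i * y' i) := by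
  rw [← sub_eq_zero, ← Finset.sum_sub_distrib, ← Fintype.sum_of_injective f f.injective
    (fun k => t * (((emb f B).1 *ᵥ y) (f k) * ((emb f B).1 *ᵥ y') (f k)) - t * (y (f k) * y' (f k)))
    _ (fun i hi => ?_) fun k => by rw [hw]]
  · rw [Finset.sum_sub_distrib, ← Finset.mul_sum, ← Finset.mul_sum, dot_emb, sub_self]
  · have hi' : ∀ k, f k ≠ i := fun k h => hi ⟨k, h⟩
    have e : ∀ v : ι → ℝ, ((emb f B).1 *ᵥ v) i = v i := fun v => embM_mulVec_out f B.1 v hi'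
    rw [e, e, sub_self]

lemma hY_emb (f : K ↪ ι) (B : Og K) {bb : ι → ℝ} {t : ℝ} (hb : ∀ k, bb (f k) = t) (y : ι → ℝ) :
    hY bb ((emb f B).1 *ᵥ y) = hY bb y := by
  simp only [hY, pow_two, inv_wsum f B hb]

lemma TY_emb (f : K ↪ ι) (B : Og K) {Top : Finset ι}
    (h : (∀ k, f k ∈ Top) ∨ ∀ k, f k ∉ Top) (N0 : ℝ) (y y' : ι → ℝ) :
    TY Top N0 ((emb f B).1 *ᵥ y) ((emb f B).1 *ᵥ y') = TY Top N0 y y' := by
  have e : ∀ u : ι → ℝ, ∑ i ∈ Top, u i = ∑ i, (if i ∈ Top then 1 else 0) * u i := fun u => by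
    simp
  unfold TY
  rw [e, e]
  rcases h with h | h
  · rw [inv_wsum f B (t := 1) fun k => if_pos (h k)]
  · rw [inv_wsum f B (t := 0) fun k => if_neg (h k)]

lemma YO_inv (f : K ↪ ι) : (YO ι).Inv f := fun B =>
  ⟨fun U => emb f B * U, haarO_left _, fun U σ => yv_mul _ U σ⟩

lemma YP_inv {J : Type} [Fintype J] [DecidableEq J] (f0 : J ↪ Option ι) (O : Og J) (f : K ↪ ι)
    (h : ∀ j k, f0 j ≠ some (f k)) :
    (YP ι (emb f0 O)).Inv (f.trans Function.Embedding.some) := fun B =>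
  ⟨fun U => emb f B * U, haarO_left _, fun U σ => by
    change yv (emb f0 O * emb Function.Embedding.some (emb f B * U)) σ = _ *ᵥ yv _ σ
    rw [← yv_mul, emb_mul, emb_emb, ← mul_assoc, ← mul_assoc,
      emb_comm f0 (f.trans Function.Embedding.some) h]⟩

lemma inv_rot {k k' : K} (hk : k' ≠ k) : ∃ B : Og K, ∀ y : K → ℝ,
    (B.1 *ᵥ y) k ^ 4 + (B.1 *ᵥ y) k' ^ 4
      = 2⁻¹ * (y k ^ 4 + y k' ^ 4) + 3 * (y k ^ 2 * y k' ^ 2) := by
  obtain ⟨c, hc⟩ : ∃ c : ℝ, c * c = 2⁻¹ := ⟨√(2⁻¹), Real.mul_self_sqrt (by norm_num)⟩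
  let g : Fin 2 ↪ K := ⟨![k, k'], fun i j h => by
    fin_cases i <;> fin_cases j <;> simp_all [hk.symm]⟩
  have hO : !![c, c; c, -c] ∈ Matrix.orthogonalGroup (Fin 2) ℝ := mem_orth_of_dot fun v w => by
    simp only [Fin.sum_univ_two, Matrix.mulVec, dotProduct, Matrix.of_apply, Matrix.cons_val',
      Matrix.cons_val_zero, Matrix.cons_val_one, Matrix.cons_val_fin_one]
    linear_combination (2 * v 0 * w 0 + 2 * v 1 * w 1) * hc
  refine ⟨emb g ⟨_, hO⟩, fun y => ?_⟩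
  have e0 : ((emb g ⟨_, hO⟩).1 *ᵥ y) k = c * y k + c * y k' := by
    refine (inv_in g ⟨_, hO⟩ y 0).trans ?_
    simp only [Matrix.mulVec, dotProduct, Fin.sum_univ_two]
    rfl
  have e1 : ((emb g ⟨_, hO⟩).1 *ᵥ y) k' = c * y k - c * y k' := by
    refine (inv_in g ⟨_, hO⟩ y 1).trans ?_
    simp only [Matrix.mulVec, dotProduct, Fin.sum_univ_two, sub_eq_add_neg, ← neg_mul]
    rfl
  rw [e0, e1]
  linear_combination (c * c + 2⁻¹) * (2 * y k ^ 4 + 12 * y k ^ 2 * y k' ^ 2 + 2 * y k' ^ 4) * hc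

/-- moments of a rotation invariant positive functional -/
lemma sm (E : ((K → ℝ) → ℝ) → ℝ)
    (hadd : ∀ φ ψ : (K → ℝ) → ℝ, Continuous φ → Continuous ψ →
      E (fun y => φ y + ψ y) = E φ + E ψ)
    (hmul : ∀ (c : ℝ) (φ : (K → ℝ) → ℝ), Continuous φ → E (fun y => c * φ y) = c * E φ)
    (hpos : ∀ φ : (K → ℝ) → ℝ, Continuous φ → (∀ y, 0 ≤ φ y) → 0 ≤ E φ)
    (hinv : ∀ (B : Og K) (φ : (K → ℝ) → ℝ), Continuous φ → E (fun y => φ (B.1 *ᵥ y)) = E φ)
    (k : K) :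
    (Fintype.card K : ℝ) * E (fun y => y k ^ 2) = E (fun y => ∑ k', y k' ^ 2) ∧
    (Fintype.card K : ℝ) ^ 2 * E (fun y => y k ^ 4) ≤ 3 * E (fun y => (∑ k', y k' ^ 2) ^ 2) ∧
    ∀ k', k' ≠ k → (Fintype.card K : ℝ) * (Fintype.card K - 1) * E (fun y => y k ^ 2 * y k' ^ 2) ≤
      E fun y => (∑ k', y k' ^ 2) ^ 2 := by
  have hsum : ∀ (s : Finset K) (φ : K → (K → ℝ) → ℝ), (∀ i, Continuous (φ i)) →
      E (fun y => ∑ i ∈ s, φ i y) = ∑ i ∈ s, E (φ i) := by
    intro s φ hφ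
    induction s using Finset.induction_on with
    | empty => simpa using hmul 0 (fun _ => 0) continuous_const
    | insert a s ha ih =>
      simp only [Finset.sum_insert ha]
      rw [hadd _ _ (hφ a) (continuous_finsetSum _ fun i _ => hφ i), ih]
  have hperm : ∀ (e : Equiv.Perm K) (φ : (K → ℝ) → ℝ), Continuous φ →
      E (fun y => φ fun i => y (e i)) = E φ := by
    intro e φ hφ
    obtain ⟨B, hB⟩ := exists_perm_orth e
    simpa only [hB] using hinv B φ hφ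
  have h1 : ∀ (n : ℕ) i, E (fun y => y i ^ n) = E fun y => y k ^ n := fun n i => by
    simpa using hperm (Equiv.swap k i) (fun y => y k ^ n) (by fun_prop)
  have h2 : ∀ k' i j, k' ≠ k → j ≠ i →
      E (fun y => y i ^ 2 * y j ^ 2) = E fun y => y k ^ 2 * y k' ^ 2 := by
    intro k' i j hk hj
    have hi : i ≠ Equiv.swap k i k' := fun h =>
      hk ((Equiv.swap k i).injective (h.symm.trans (Equiv.swap_apply_left k i).symm))
    simpa [Equiv.swap_apply_of_ne_of_ne hi hj.symm] using hperm ((Equiv.swap k i).trans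
      (Equiv.swap (Equiv.swap k i k') j)) (fun y => y k ^ 2 * y k' ^ 2) (by fun_prop)
  have hα : 0 ≤ E fun y => y k ^ 4 := hpos _ (by fun_prop) fun y => by positivity
  have h3 : ∀ β : ℝ, (∀ i j, j ≠ i → E (fun y => y i ^ 2 * y j ^ 2) = β) →
      E (fun y => (∑ k', y k' ^ 2) ^ 2) = Fintype.card K *
        (E (fun y => y k ^ 4) + (Fintype.card K - 1) * β) := by
    intro β hβ
    have e : (fun y : K → ℝ => (∑ k', y k' ^ 2) ^ 2) = fun y => ∑ i, ∑ j, y i ^ 2 * y j ^ 2 := by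
      funext y
      rw [pow_two, Finset.sum_mul_sum]
    rw [e, hsum _ _ fun i => by fun_prop, Finset.sum_congr rfl (g := fun _ =>
      E (fun y => y k ^ 4) + (Fintype.card K - 1) * β) fun i _ => ?_]
    · rw [Finset.sum_const, Finset.card_univ, nsmul_eq_mul]
    · have e2 : (fun y : K → ℝ => y i ^ 2 * y i ^ 2) = fun y => y i ^ 4 := by
        funext y
        ring
      rw [hsum _ _ fun j => by fun_prop, ← Finset.add_sum_erase _ _ (Finset.mem_univ i), e2, h1,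
        Finset.sum_congr rfl fun j hj => hβ i j (Finset.ne_of_mem_erase hj), Finset.sum_const,
        Finset.card_erase_of_mem (Finset.mem_univ i), nsmul_eq_mul, Finset.card_univ,
        Nat.cast_pred (Fintype.card_pos_iff.2 ⟨k⟩)]
  have n1 : (1 : ℝ) ≤ Fintype.card K := by exact_mod_cast Fintype.card_pos_iff.2 ⟨k⟩
  refine ⟨?_, ?_, fun k' hk => ?_⟩
  · rw [hsum _ _ fun j => by fun_prop]
    simp [h1 2]
  · obtain ⟨β, hβ, hβ'⟩ : ∃ β : ℝ, (∀ i j, j ≠ i → E (fun y => y i ^ 2 * y j ^ 2) = β) ∧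
        E (fun y => y k ^ 4) = 3 * β := by
      by_cases hk : ∃ k', k' ≠ k
      · obtain ⟨k', hk⟩ := hk
        obtain ⟨B, hB⟩ := inv_rot hk
        refine ⟨_, fun i j => h2 k' i j hk, ?_⟩
        have e := hinv B (fun y => y k ^ 4 + y k' ^ 4) (by fun_prop)
        simp only [hB] at e
        rw [hadd _ _ (by fun_prop) (by fun_prop), hmul _ _ (by fun_prop), hmul _ _ (by fun_prop),
          hadd _ _ (by fun_prop) (by fun_prop), h1 4 k'] at e
        linarith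
      · push Not at hk
        exact ⟨E (fun y => y k ^ 4) / 3, fun i j h => absurd ((hk j).trans (hk i).symm) h, by ring⟩
    rw [h3 β hβ, hβ']
    rw [hβ'] at hα
    nlinarith [mul_nonneg (zero_le_one.trans n1) hα]
  · rw [h3 _ fun i j => h2 k' i j hk]
    nlinarith

lemma inv_bdd {r : ℕ} {g : VV r → ℝ} (hg : Continuous g) : ∃ B, ∀ v, |g v| ≤ B := by
  obtain ⟨B, hB⟩ := isCompact_univ.exists_bound_of_continuousOn hg.continuousOn
  exact ⟨B, fun v => hB v trivial⟩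

omit [DecidableEq K] in
lemma inv_card (X : RM) (n : ℕ) (G : K → X.Ω → (Fin n → Cfg r b X.Sg) → ℝ)
    (hG : ∀ i σ, Measurable fun ω => G i ω σ) (B : ℝ) (hB : ∀ i ω σ, |G i ω σ| ≤ B) (k : K)
    (h : ∀ k', X.A r b m P n (G k') = X.A r b m P n (G k)) :
    (Fintype.card K : ℝ) * X.A r b m P n (G k) = X.A r b m P n fun ω σ => ∑ i, G i ω σ := by
  rw [X.A_sum univ n hG hB]
  simp [h]

namespace YD

variable (D : YD ι) {bb : ι → ℝ} {Top : Finset ι} {N0 : ℕ} (hN : Fintype.card ι ≤ N0)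

omit [DecidableEq ι] in
lemma inv_absY (ω : D.Ω) (σ : D.Sg) (i : ι) : |D.Y ω σ i| ≤ Fintype.card ι + 1 := by
  have h1 : D.Y ω σ i ^ 2 ≤ Fintype.card ι := by
    rw [← D.sq ω σ]
    exact Finset.single_le_sum (f := fun i => D.Y ω σ i ^ 2) (fun _ _ => sq_nonneg _)
      (Finset.mem_univ i)
  rw [abs_le]
  constructor <;> nlinarith [sq_nonneg (D.Y ω σ i + 1), sq_nonneg (D.Y ω σ i - 1)]

omit [DecidableEq ι] in
lemma inv_mRm (c c' : Cfg r b D.Sg) :
    Measurable fun ω => Rm r b ((D.rm bb Top N0 hN).T ω) c c' :=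
  (continuous_projIcc.measurable.comp ((D.rm bb Top N0 hN).mT _ _)).prodMk measurable_const

lemma A_inv {f : K ↪ ι} (hf : D.Inv f) {t : ℝ} (hb : ∀ k, bb (f k) = t)
    (hT : (∀ k, f k ∈ Top) ∨ ∀ k, f k ∉ Top) (B : Og K) (n : ℕ)
    (Ψ : (Fin n → Cfg r b D.Sg) → (Fin n → ι → ℝ) → ℝ) (hΨ : ∀ c, Measurable (Ψ c)) :
    (D.rm bb Top N0 hN).A r b m P n (fun ω c => Ψ c fun l => (emb f B).1 *ᵥ D.Y ω (c l).1) =
      (D.rm bb Top N0 hN).A r b m P n fun ω c => Ψ c fun l => D.Y ω (c l).1 := by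
  obtain ⟨τ, hτ, hY'⟩ := hf B
  have hm := (D.rm bb Top N0 hN).measurable_Am (r := r) (b := b) (m := m) (P := P) n
    (G := fun ω c => Ψ c fun l => D.Y ω (c l).1) fun c => (hΨ c).comp
      (measurable_pi_lambda _ fun l => measurable_pi_lambda _ fun i => D.mY _ i)
  have e := integral_map (μ := D.P) hτ.measurable.aemeasurable hm.aestronglyMeasurable
  rw [hτ.map_eq] at e
  refine Eq.trans ?_ e.symm
  refine integral_congr_ae (Eventually.of_forall fun ω => ?_)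
  simp only [hY', hY_emb f B hb, TY_emb f B hT, orth_dot]

lemma A_mom {f : K ↪ ι} (hf : D.Inv f) {t : ℝ} (hb : ∀ k, bb (f k) = t)
    (hT : (∀ k, f k ∈ Top) ∨ ∀ k, f k ∉ Top) (k : K) :
    (Fintype.card K : ℝ) * (D.rm bb Top N0 hN).A r b m P 1 (fun ω c => D.Y ω (c 0).1 (f k) ^ 2) =
      (D.rm bb Top N0 hN).A r b m P 1 (fun ω c => ∑ k', D.Y ω (c 0).1 (f k') ^ 2) ∧
    (Fintype.card K : ℝ) * (D.rm bb Top N0 hN).A r b m P 1 (fun ω c => D.Y ω (c 0).1 (f k) ^ 2) ≤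
      Fintype.card ι ∧
    (Fintype.card K : ℝ) ^ 2 *
      (D.rm bb Top N0 hN).A r b m P 1 (fun ω c => D.Y ω (c 0).1 (f k) ^ 4) ≤
      3 * (Fintype.card ι : ℝ) ^ 2 := by
  have hm : ∀ φ : (K → ℝ) → ℝ, Continuous φ → ∀ c : Fin 1 → Cfg r b D.Sg,
      Measurable fun ω => φ fun k => D.Y ω (c 0).1 (f k) := fun φ hφ c =>
    hφ.measurable.comp (measurable_pi_lambda _ fun k => D.mY _ _)
  have hB : ∀ φ : (K → ℝ) → ℝ, Continuous φ → ∃ B, ∀ ω (c : Fin 1 → Cfg r b D.Sg),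
      |φ fun k => D.Y ω (c 0).1 (f k)| ≤ B := fun φ hφ => by
    obtain ⟨B, hB⟩ := (isCompact_closedBall (0 : K → ℝ)
      (Fintype.card ι + 1)).exists_bound_of_continuousOn hφ.continuousOn
    exact ⟨B, fun ω c => hB _ (mem_closedBall_zero_iff.2
      ((pi_norm_le_iff_of_nonneg (by positivity)).2 fun k => D.inv_absY _ _ _))⟩
  obtain ⟨h1, h2, -⟩ := sm (fun φ => (D.rm bb Top N0 hN).A r b m P 1
    fun ω c => φ fun k => D.Y ω (c 0).1 (f k))
    (fun φ ψ hφ hψ => (D.rm bb Top N0 hN).A_add 1 (hm φ hφ) (hm ψ hψ) (hB φ hφ).choose_spec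
      (hB ψ hψ).choose_spec)
    (fun c φ _ => (D.rm bb Top N0 hN).A_mul_left 1 _ c)
    (fun φ hφ h0 => ((D.rm bb Top N0 hN).A_const 1 0).symm.trans_le
      ((D.rm bb Top N0 hN).A_mono 1 (fun _ => measurable_const) (hm φ hφ)
        (fun _ _ => abs_zero.le) (hB φ hφ).choose_spec fun _ _ => h0 _))
    (fun B φ hφ => by
      simpa only [inv_in] using D.A_inv hN hf hb hT B 1 (fun _ y => φ fun k => y 0 (f k))
        fun _ => hφ.measurable.comp (by fun_prop)) k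
  have hs : ∀ ω σ, 0 ≤ ∑ k', D.Y ω σ (f k') ^ 2 ∧ ∑ k', D.Y ω σ (f k') ^ 2 ≤ Fintype.card ι := by
    refine fun ω σ => ⟨by positivity, ?_⟩
    rw [← D.sq ω σ, ← Finset.sum_map univ f fun i => D.Y ω σ i ^ 2]
    exact Finset.sum_le_sum_of_subset_of_nonneg (Finset.subset_univ _) fun _ _ _ => sq_nonneg _
  refine ⟨h1, h1.trans_le ((le_abs_self _).trans ((D.rm bb Top N0 hN).abs_A_le 1 fun ω c => ?_)),
    h2.trans (mul_le_mul_of_nonneg_left ((le_abs_self _).trans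
      ((D.rm bb Top N0 hN).abs_A_le 1 fun ω c => ?_)) (by norm_num))⟩
  · rw [abs_of_nonneg (hs _ _).1]
    exact (hs _ _).2
  · rw [abs_of_nonneg (sq_nonneg _)]
    exact pow_le_pow_left₀ (hs _ _).1 (hs _ _).2 2

lemma A_exch {f : K ↪ ι} (hf : D.Inv f) {t : ℝ} (hb : ∀ k, bb (f k) = t)
    (hT : (∀ k, f k ∈ Top) ∨ ∀ k, f k ∉ Top) (k : K) {g : VV r → ℝ} (hg : Continuous g) :
    (Fintype.card K : ℝ) * (D.rm bb Top N0 hN).A r b m P 2 (fun ω c =>
        g (Rm r b ((D.rm bb Top N0 hN).T ω) (c 0) (c 1)) *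
          (D.Y ω (c 0).1 (f k) * D.Y ω (c 1).1 (f k))) =
      (D.rm bb Top N0 hN).A r b m P 2 fun ω c =>
        g (Rm r b ((D.rm bb Top N0 hN).T ω) (c 0) (c 1)) *
          ∑ k', D.Y ω (c 0).1 (f k') * D.Y ω (c 1).1 (f k') := by
  obtain ⟨Bg, hBg⟩ := inv_bdd hg
  simp only [Finset.mul_sum]
  refine inv_card (D.rm bb Top N0 hN) 2 (fun k ω c => g (Rm r b ((D.rm bb Top N0 hN).T ω) (c 0) (c 1))
    * (D.Y ω (c 0).1 (f k) * D.Y ω (c 1).1 (f k)))
    (fun k' c => (hg.measurable.comp (D.inv_mRm hN _ _)).mul ((D.mY _ _).mul (D.mY _ _)))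
    (Bg * ((Fintype.card ι + 1) * (Fintype.card ι + 1))) (fun k' ω c => ?_) k fun k' => ?_
  rotate_left
  · obtain ⟨B, hB⟩ := exists_perm_orth (Equiv.swap k k')
    have e := D.A_inv (m := m) (P := P) hN hf hb hT B 2 (fun c y =>
      g (Rm r b (fun _ _ => TY Top N0 (y 0) (y 1)) (c 0) (c 1)) * (y 0 (f k) * y 1 (f k)))
      fun c => (hg.measurable.comp ((continuous_projIcc.measurable.comp
        (by unfold TY; fun_prop)).prodMk measurable_const)).mul (by fun_prop)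
    simp only [inv_in, hB, TY_emb f B hT, Equiv.swap_apply_left] at e
    exact e
  · rw [abs_mul, abs_mul]
    have := (abs_nonneg _).trans (hBg (Rm r b ((D.rm bb Top N0 hN).T ω) (c 0) (c 1)))
    gcongr
    exacts [hBg _, D.inv_absY _ _ _, D.inv_absY _ _ _]

end YD

lemma A_site {bb : ι → ℝ} {Top : Finset ι} {N0 : ℕ} (hN : Fintype.card ι ≤ N0)
    (ha : ∀ l, 0 ≤ P.a l) (i : ι) {g : VV r → ℝ} (hg : Continuous g) :
    (Fintype.card ι : ℝ) * ((YO ι).rm bb Top N0 hN).A r b m P 2 (fun U c =>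
        g (Rm r b (((YO ι).rm bb Top N0 hN).T U) (c 0) (c 1)) *
          (spin ((c 0).1 i) * spin ((c 1).1 i))) =
      ((YO ι).rm bb Top N0 hN).A r b m P 2 fun U c =>
        g (Rm r b (((YO ι).rm bb Top N0 hN).T U) (c 0) (c 1)) *
          ((YO ι).rm bb Top N0 hN).Q U (c 0).1 (c 1).1 := by
  obtain ⟨Bg, hBg⟩ := inv_bdd hg
  refine (inv_card ((YO ι).rm bb Top N0 hN) 2 (fun j U c =>
    g (Rm r b (((YO ι).rm bb Top N0 hN).T U) (c 0) (c 1)) * (spin ((c 0).1 j) * spin ((c 1).1 j)))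
    (fun j c => (hg.measurable.comp ((YO ι).inv_mRm hN _ _)).mul_const _) Bg (fun j U c => ?_) i
    fun j => ?_).trans ?_
  · rw [abs_mul, abs_mul, abs_spin, abs_spin, mul_one, mul_one]
    exact hBg _
  rotate_left
  · congr 1
    funext U c
    rw [← Finset.mul_sum, ← yv_dot U]
  obtain ⟨B, hB⟩ := exists_perm_orth (Equiv.swap i j)
  let e : (ι → Bool) ≃ (ι → Bool) := (Equiv.swap i j).arrowCongr (Equiv.refl Bool)
  have he : ∀ U σ, yv (U * B) σ = yv U (e σ) := fun U σ => by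
    change (U.1 * B.1) *ᵥ _ = _
    rw [← Matrix.mulVec_mulVec, hB]
    rfl
  refine (integral_haarO_right B _).symm.trans (integral_congr_ae (Eventually.of_forall fun U => ?_))
  refine Eq.trans ?_ (Am_equiv e ha _ (((YO ι).rm bb Top N0 hN).pT U)
    (((YO ι).rm bb Top N0 hN).pQ U) 2 _)
  have e1 : ∀ σ, e σ i = σ j := fun σ => congrArg σ (Equiv.swap_apply_left i j)
  simp only [he, e1]
  rfl

section

variable {ι' : Type} [Fintype ι'] [DecidableEq ι'] (e : ι' ≃ ι)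

lemma inv_yv (U : Og ι') (σ : ι → Bool) (k : ι') :
    yv (emb e.toEmbedding U) σ (e k) = yv U (e.symm.arrowCongr (Equiv.refl Bool) σ) k :=
  inv_in e.toEmbedding U _ k

lemma inv_hY (bb : ι → ℝ) (U : Og ι') (σ : ι → Bool) : hY bb (yv (emb e.toEmbedding U) σ)
    = hY (fun i => bb (e i)) (yv U (e.symm.arrowCongr (Equiv.refl Bool) σ)) := by
  simp only [hY, ← inv_yv]
  rw [e.sum_comp fun i => bb i * yv (emb e.toEmbedding U) σ i ^ 2]

lemma inv_int {Φ : Og ι → ℝ} (h : Measurable Φ) :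
    ∫ U, Φ U ∂haarO ι = ∫ U, Φ (emb e.toEmbedding U) ∂haarO ι' := by
  rw [← map_haarO_emb_equiv e,
    integral_map (continuous_emb _).measurable.aemeasurable h.aestronglyMeasurable]

end

lemma F_reindex {ι' : Type} [Fintype ι'] [DecidableEq ι'] (e : ι' ≃ ι) (bb : ι → ℝ)
    (Top : Finset ι) {N0 : ℕ} (hN : Fintype.card ι ≤ N0) (hN' : Fintype.card ι' ≤ N0)
    (ha : ∀ l, 0 ≤ P.a l) :
    ((YO ι').rm (fun i => bb (e i)) (univ.filter fun i => e i ∈ Top) N0 hN').F r b m P =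
      ((YO ι).rm bb Top N0 hN).F r b m P := by
  refine Eq.trans ?_ (inv_int e ((YO ι).rm bb Top N0 hN).measurable_Fm).symm
  refine integral_congr_ae (Eventually.of_forall fun U => ?_)
  refine (Fm_equiv (e.symm.arrowCongr (Equiv.refl Bool)) ha _
    (((YO ι').rm (fun i => bb (e i)) (univ.filter fun i => e i ∈ Top) N0 hN').pT U)
    (((YO ι').rm (fun i => bb (e i)) (univ.filter fun i => e i ∈ Top) N0 hN').pQ U)).symm.trans ?_
  congr 1
  · funext σ
    exact (inv_hY e bb U σ).symm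
  · funext σ σ'
    simp only [TY, ← inv_yv]
    rw [Finset.sum_equiv e (t := Top)
      (g := fun i => yv (emb e.toEmbedding U) σ i * yv (emb e.toEmbedding U) σ' i) (by simp)
      fun _ _ => rfl]
  · funext σ σ'
    simp only [← inv_yv]
    exact e.sum_comp fun i => yv (emb e.toEmbedding U) σ i * yv (emb e.toEmbedding U) σ' i

lemma EL_reindex {ι' : Type} [Fintype ι'] [DecidableEq ι'] (e : ι' ≃ ι) (bb : ι → ℝ) :
    EL ι' (fun i => bb (e i)) = EL ι bb := by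
  refine Eq.trans ?_ (inv_int e (measurable_lz ((YO ι).rm bb ∅ _ le_rfl).mh)).symm
  refine integral_congr_ae (Eventually.of_forall fun U => ?_)
  simp only [inv_hY]
  exact (lz_equiv (e.symm.arrowCongr (Equiv.refl Bool)) _).symm

lemma F_eq_EL (hm : MOk r m) (bb : ι → ℝ) (Top : Finset ι) {N0 : ℕ} (hN : Fintype.card ι ≤ N0) :
    ((YO ι).rm bb Top N0 hN).F r b m (Pr0 fun _ => 0) = EL ι bb + Z0 r b m := by
  have hi := integrable_lz (P := haarO ι) ((YO ι).rm bb Top N0 hN).mh fun σ =>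
    Integrable.of_bound (((YO ι).rm bb Top N0 hN).mh σ).aestronglyMeasurable _
      (Eventually.of_forall fun U => ((YO ι).rm bb Top N0 hN).bh U σ)
  unfold RM.F
  simp only [Fm_zero hm]
  rw [integral_add hi (integrable_const _), integral_const, probReal_univ, one_smul]
  rfl

end

end Vale.Agent.P166
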