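import Vale.Agent.P166.Arr
import Vale.Agent.P166.Inv
import Vale.Agent.P166.FgA

/-! P166 Fg: the coordinates along a frame of a rotation invariant system are conditionally Gaussian.
Plan. PsiG n Psi C = integral of Psi (fun l f => feat (sqr C) (g f) l) against pi gam (Measure.pi_map_pi); continuity from continuousOn_sqr and dominated convergence.
mom: lemma sm (file Inv) with E phi = integral of av1 (H) (phi (x omega s)) (x is bounded since the sum of squares is card D * rho * T <= card D * rho, so everything is integrable; invariance from X.inv).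
fg: for a matrix Gm : F -> D -> R put A = Gm Gm^T / card D. If |(A-1)v| <= eta |v|, exists_root_near gives L with L L^T = A; the rows of L^(-1) Gm / sqrt(card D) are orthonormal, extend them to B in Og D with these rows at
the indices e f (Orthonormal.exists_orthonormalBasis_extension_of_card_eq). By X.inv B, E[f Psi(Gm x / sqrt card)] = E[f Psi(L y)], which is close to E[f Psi(y)] (uniform continuity of Psi on a ball, Chebyshev with mom).
Integrate over Gm ~ pi gam: the bad Gm have probability <= C / (eta^2 card D) (Chebyshev for the entries of A - 1), and for fixed omega, sigma the vectors (Gm x_l / sqrt card) f, f in F, are independent with law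
gK (rho T) (map_feat_gK, gram_x). cas_gauss: y is independent of H and R; for fixed leaves the field is feat of the marks (stt_add, anc_eq_iff, map_feat_eq, map_pi_swap), covariance sum of dt l over l <= lev = t lev. -/

open MeasureTheory ProbabilityTheory Filter Topology Matrix Finset

namespace Vale.Agent.P166

noncomputable section

variable {F : Type} [Fintype F]

lemma fg_rep (n : ℕ) {Ψ : (Fin n → F → ℝ) → ℝ} (hΨ : Measurable Ψ) (C : Fin n → Fin n → ℝ) :
    PsiG n Ψ C = ∫ g : F → Fin n → ℝ, Ψ (fun l f => feat (sqr C) (g f) l)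
      ∂(Measure.pi fun _ => gam (Fin n)) := by
  have h : MeasurePreserving (fun (g : F → Fin n → ℝ) f => feat (sqr C) (g f))
      (Measure.pi fun _ => gam (Fin n)) (Measure.pi fun _ => gK C) :=
    measurePreserving_pi _ _ fun _ => ⟨measurable_feat _, rfl⟩
  have hm : Measurable fun G : F → Fin n → ℝ => Ψ fun l f => G f l := hΨ.comp (by fun_prop)
  rw [PsiG, ← h.map_eq, integral_map h.measurable.aemeasurable hm.aestronglyMeasurable]

lemma abs_PsiG_le (n : ℕ) {Ψ : (Fin n → F → ℝ) → ℝ} {B : ℝ} (hB : ∀ y, |Ψ y| ≤ B)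
    (C : Fin n → Fin n → ℝ) : |PsiG n Ψ C| ≤ B := by
  have h := norm_integral_le_of_norm_le_const (μ := Measure.pi fun _ : F => gK C)
    (f := fun G : F → Fin n → ℝ => Ψ fun l f => G f l) (C := B)
    (Eventually.of_forall fun G => hB _)
  simpa only [probReal_univ, mul_one, Real.norm_eq_abs, PsiG] using h
lemma continuousOn_PsiG (n : ℕ) {Ψ : (Fin n → F → ℝ) → ℝ} (hΨ : Continuous Ψ) {B : ℝ}
    (hB : ∀ y, |Ψ y| ≤ B) : ContinuousOn (PsiG n Ψ) {C | PSD C} := by
  rw [funext (fg_rep n hΨ.measurable)]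
  refine continuousOn_of_dominated (bound := fun _ => B) (fun C _ => ?_)
    (fun C _ => Eventually.of_forall fun g => hB _) (integrable_const _)
    (Eventually.of_forall fun g => ?_)
  · exact (hΨ.measurable.comp (measurable_pi_lambda _ fun l => measurable_pi_lambda _ fun f =>
      (measurable_pi_apply l).comp ((measurable_feat (sqr C)).comp
        (measurable_pi_apply f)))).aestronglyMeasurable
  · exact hΨ.comp_continuousOn (continuousOn_pi.2 fun l => continuousOn_pi.2 fun f =>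
      continuousOn_finsetSum _ fun i _ =>
        (continuousOn_pi.1 (continuousOn_pi.1 continuousOn_sqr l) i).mul continuousOn_const)
lemma measurable_PsiG (n : ℕ) {Ψ : (Fin n → F → ℝ) → ℝ} (hΨ : Measurable Ψ) :
    Measurable (PsiG n Ψ) := by
  rw [funext (fg_rep n hΨ)]
  refine (StronglyMeasurable.integral_prod_right'
    (f := fun z : (Fin n → Fin n → ℝ) × (F → Fin n → ℝ) => Ψ fun l f => feat (sqr z.1) (z.2 f) l)
    (Measurable.stronglyMeasurable ?_)).measurable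
  exact hΨ.comp (measurable_pi_lambda _ fun l => measurable_pi_lambda _ fun f =>
    Finset.measurable_sum _ fun i _ => ((measurable_pi_apply i).comp ((measurable_pi_apply l).comp
      (measurable_sqr.comp measurable_fst))).mul (by fun_prop))

omit [Fintype F] in
lemma fg_mx {r : ℕ} (X : Cav r F) {n : ℕ} (σ : Fin n → X.S) :
    Measurable fun ω l => X.x ω (σ l) :=
  measurable_pi_lambda _ fun _ => measurable_pi_lambda _ fun d => X.mx _ d

omit [Fintype F] in
lemma fg_inv {r : ℕ} (X : Cav r F) (B : Og X.D) (n : ℕ)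
    {Φ : (Fin n → Fin n → VV r) × (Fin n → X.D → ℝ) → ℝ} (hΦ : Measurable Φ) :
    X.toSys.E n (fun ω σ => Φ (X.toSys.arr ω σ, fun l => B.1 *ᵥ X.x ω (σ l))) =
      X.toSys.E n fun ω σ => Φ (X.toSys.arr ω σ, fun l => X.x ω (σ l)) := by
  obtain ⟨τ, hτ, h⟩ := X.inv B
  have hm : Measurable fun ω => av n (X.H ω) fun σ => Φ (X.toSys.arr ω σ, fun l => X.x ω (σ l)) :=
    measurable_av n X.mH fun σ => hΦ.comp ((X.toSys.measurable_arr σ).prodMk (fg_mx X σ))
  have h1 := integral_map hτ.measurable.aemeasurable (hm.aestronglyMeasurable (μ := X.P.map τ))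
  rw [hτ.map_eq] at h1
  refine Eq.trans (integral_congr_ae (Eventually.of_forall fun ω => ?_)) h1.symm
  show av n (X.H ω) _ = av n (X.H (τ ω)) fun σ =>
    Φ (fun a a' => X.R (τ ω) (σ a) (σ a'), fun l => X.x (τ ω) (σ l))
  simp only [(h ω).1, (h ω).2.1, (h ω).2.2]
  rfl

omit [Fintype F] in
lemma fg_sq {r : ℕ} (X : Cav r F) (ω : X.Ω) (s : X.S) :
    ∑ d, X.x ω s d ^ 2 ≤ Fintype.card X.D * X.ϱ := by
  have h := X.gram_x ω s s
  have h1 := (X.R ω s s).1.2.2
  have h2 : 0 ≤ (Fintype.card X.D : ℝ) * X.ϱ := mul_nonneg (Nat.cast_nonneg _) X.ϱ_nonneg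
  simp only [pow_two]
  nlinarith

omit [Fintype F] in
lemma fg_bdd {r : ℕ} (X : Cav r F) {φ : (X.D → ℝ) → ℝ} (hφ : Continuous φ) :
    ∃ B, ∀ ω s, |φ (X.x ω s)| ≤ B := by
  obtain ⟨B, hB⟩ := (isCompact_closedBall (0 : X.D → ℝ)
    √(Fintype.card X.D * X.ϱ)).exists_bound_of_continuousOn hφ.continuousOn
  exact ⟨B, fun ω s => hB _ (mem_closedBall_zero_iff.2 ((pi_norm_le_iff_of_nonneg
    (Real.sqrt_nonneg _)).2 fun d => Real.abs_le_sqrt ((Finset.single_le_sum
      (fun d _ => sq_nonneg (X.x ω s d)) (mem_univ d)).trans (fg_sq X ω s))))⟩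

lemma Cav.mom {r : ℕ} (X : Cav r F) : X.ys.Mom (3 * X.ϱ ^ 2) := by
  intro f
  have hm : ∀ {φ : (X.D → ℝ) → ℝ}, Continuous φ → ∀ s, Measurable fun ω => φ (X.x ω s) :=
    fun hφ s => hφ.measurable.comp (measurable_pi_lambda _ fun d => X.mx s d)
  have h := (sm (fun φ => X.toSys.E 1 fun ω σ => φ (X.x ω (σ 0)))
    (fun φ ψ hφ hψ => X.toSys.E_add 1 (fun σ => hm hφ _) (fun σ => hm hψ _)
      (fun ω σ => (fg_bdd X hφ).choose_spec ω _) fun ω σ => (fg_bdd X hψ).choose_spec ω _)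
    (fun c φ _ => X.toSys.E_mul_left 1 _ c)
    (fun φ _ h => integral_nonneg fun ω =>
      (av_const 1 (X.H ω) 0).symm.trans_le (av_mono _ _ fun σ => h _))
    (fun B φ hφ => fg_inv X B 1 (Φ := fun z => φ (z.2 0)) (hφ.measurable.comp (by fun_prop)))
    (X.e f)).2.1
  have h1 := (le_abs_self _).trans (X.toSys.abs_E_le 1
    (F := fun ω σ => (∑ d, X.x ω (σ 0) d ^ 2) ^ 2) (B := (Fintype.card X.D * X.ϱ) ^ 2)
    fun ω σ => (abs_of_nonneg (sq_nonneg _)).trans_le (pow_le_pow_left₀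
      (Finset.sum_nonneg fun _ _ => sq_nonneg _) (fg_sq X ω _) 2))
  have h2 : (X.toSys.E 1 fun ω σ => X.x ω (σ 0) (X.e f) ^ 4) =
      ∫ ω, av1 (X.H ω) (fun s => X.x ω s (X.e f) ^ 4) ∂X.P :=
    integral_congr_ae (Eventually.of_forall fun ω => av_one _ fun s => X.x ω s (X.e f) ^ 4)
  have hN : (0 : ℝ) < Fintype.card X.D := Nat.cast_pos.2 (Fintype.card_pos_iff.2 ⟨X.e f⟩)
  have hc : Continuous fun y : X.D → ℝ => y (X.e f) ^ 4 := by fun_prop
  obtain ⟨B, hB⟩ := fg_bdd X hc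
  refine ⟨Integrable.of_bound (measurable_av1 X.mH (hm hc)).aestronglyMeasurable B
    (Eventually.of_forall fun ω => abs_av1_le_const _ (hB ω)), h2.symm.trans_le ?_⟩
  refine le_of_mul_le_mul_left (h.trans ?_) (pow_pos hN 2)
  linarith [mul_pow (Fintype.card X.D : ℝ) X.ϱ 2]

lemma Cav.psd {r : ℕ} (X : Cav r F) (h : 0 < X.ϱ) (hD : 0 < Fintype.card X.D) (ω : X.Ω) :
    PSD fun s s' => ((X.R ω s s').1 : ℝ) := by
  have hN : (0 : ℝ) < Fintype.card X.D * X.ϱ := mul_pos (Nat.cast_pos.2 hD) h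
  have e : (fun s s' => ((X.R ω s s').1 : ℝ)) =
      fun s s' => (Fintype.card X.D * X.ϱ)⁻¹ * gram (X.x ω) s s' := by
    funext s s'
    rw [gram, X.gram_x, inv_mul_cancel_left₀ hN.ne']
  rw [e]
  exact (psd_gram _).smul (inv_nonneg.2 hN.le)

lemma fg_close {r : ℕ} (Y : YS r F) {M : ℝ} (hM : Y.Mom M) (n : ℕ)
    {U V : Y.Ω → (Fin n → Y.S) → ℝ} (hU : ∀ σ, Measurable fun ω => U ω σ)
    (hV : ∀ σ, Measurable fun ω => V ω σ) {B : ℝ} (bU : ∀ ω σ, |U ω σ| ≤ B)
    (bV : ∀ ω σ, |V ω σ| ≤ B) {ε c : ℝ} (hc : 0 ≤ c)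
    (h : ∀ ω σ, |U ω σ - V ω σ| ≤ ε + c * ∑ l, ∑ f, (1 + Y.y ω (σ l) f ^ 4)) :
    |Y.toSys.E n U - Y.toSys.E n V| ≤ ε + c * (n * (Fintype.card F * (1 + M))) := by
  have h1 : ∀ f, Integrable (fun ω => 1 + av1 (Y.H ω) fun s => Y.y ω s f ^ 4) Y.P :=
    fun f => (integrable_const _).add (hM f).1
  have h2 := integrable_finsetSum univ fun f _ => h1 f
  have h3 : Integrable (fun ω => c * (n * ∑ f, (1 + av1 (Y.H ω) fun s => Y.y ω s f ^ 4))) Y.P :=
    (h2.const_mul _).const_mul _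
  have h4 : Integrable (fun ω =>
      ε + c * (n * ∑ f, (1 + av1 (Y.H ω) fun s => Y.y ω s f ^ 4))) Y.P :=
    (integrable_const _).add h3
  unfold Sys.E
  rw [← integral_sub (Y.toSys.integrable_av n hU bU) (Y.toSys.integrable_av n hV bV)]
  refine abs_integral_le_integral_abs.trans ((integral_mono_of_nonneg
    (Eventually.of_forall fun _ => abs_nonneg _) h4 (Eventually.of_forall fun ω => ?_)).trans ?_)
  · have e : ∀ l f, av n (Y.H ω) (fun σ => Y.y ω (σ l) f ^ 4) =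
        av1 (Y.H ω) fun s => Y.y ω s f ^ 4 := fun l f => av_eval n _ (fun s => Y.y ω s f ^ 4) l
    show |_ - _| ≤ _
    rw [← av_sub]
    refine (abs_av_le _ _ _).trans ((av_mono _ _ (h ω)).trans_eq ?_)
    simp only [av_add, av_const, av_mul_left, av_sum, e, Finset.sum_const, Finset.card_univ,
      Fintype.card_fin, nsmul_eq_mul]
  · rw [integral_add (integrable_const _) h3, integral_const_mul, integral_const_mul,
      integral_finsetSum _ fun f _ => h1 f, integral_const, probReal_univ, one_smul]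
    refine add_le_add le_rfl (mul_le_mul_of_nonneg_left (mul_le_mul_of_nonneg_left
      ((Finset.sum_le_card_nsmul _ _ (1 + M) fun f _ => ?_).trans_eq (nsmul_eq_mul _ _))
      (Nat.cast_nonneg _)) hc)
    rw [integral_add (integrable_const _) (hM f).1, integral_const, probReal_univ, one_smul]
    exact add_le_add le_rfl (hM f).2

lemma fg_swap {r : ℕ} (X : Cav r F) (hD : 0 < Fintype.card X.D) (n : ℕ)
    {Ψ : (Fin n → F → ℝ) → ℝ} (hΨ : Measurable Ψ) {B : ℝ} (hB : ∀ y, |Ψ y| ≤ B)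
    {f : (Fin n → Fin n → VV r) → ℝ} (hf : Measurable f) (hf1 : ∀ A, |f A| ≤ 1) :
    Integrable (fun G : X.D → F → ℝ => X.toSys.E n fun ω σ => f (X.toSys.arr ω σ) *
      Ψ fun l g => ∑ d, X.x ω (σ l) d / √(Fintype.card X.D) * G d g) (Measure.pi fun _ => gam F) ∧
    ∫ G : X.D → F → ℝ, (X.toSys.E n fun ω σ => f (X.toSys.arr ω σ) *
      Ψ fun l g => ∑ d, X.x ω (σ l) d / √(Fintype.card X.D) * G d g) ∂(Measure.pi fun _ => gam F) =
    X.toSys.E n fun ω σ => f (X.toSys.arr ω σ) *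
      PsiG n Ψ fun l l' => X.ϱ * ((X.toSys.arr ω σ l l').1 : ℝ) := by
  have hN : (0 : ℝ) < Fintype.card X.D := Nat.cast_pos.2 hD
  have h0 : ∀ σ : Fin n → X.S, Measurable fun z : (X.D → F → ℝ) × X.Ω =>
      Ψ fun l g => ∑ d, X.x z.2 (σ l) d / √(Fintype.card X.D) * z.1 d g := fun σ =>
    hΨ.comp (measurable_pi_lambda _ fun l => measurable_pi_lambda _ fun g =>
      Finset.measurable_sum _ fun d _ =>
        (((X.mx _ d).comp measurable_snd).div_const _).mul (by fun_prop))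
  have h1 : Integrable (Function.uncurry fun (G : X.D → F → ℝ) (ω : X.Ω) => av n (X.H ω)
      fun σ => f (X.toSys.arr ω σ) *
        Ψ fun l g => ∑ d, X.x ω (σ l) d / √(Fintype.card X.D) * G d g)
      ((Measure.pi fun _ => gam F).prod X.P) :=
    Integrable.of_bound (measurable_av n (fun s => (X.mH s).comp measurable_snd) fun σ =>
      (hf.comp ((X.toSys.measurable_arr σ).comp measurable_snd)).mul (h0 σ)).aestronglyMeasurable
      (1 * B) (Eventually.of_forall fun z => abs_av_le_const _ _ fun σ => (abs_mul _ _).trans_le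
        (mul_le_mul (hf1 _) (hB _) (abs_nonneg _) zero_le_one))
  refine ⟨h1.integral_prod_left, (integral_integral_swap h1).trans
    (integral_congr_ae (Eventually.of_forall fun ω => ?_))⟩
  have h2 : ∀ σ : Fin n → X.S, Integrable (fun G : X.D → F → ℝ =>
      Ψ fun l g => ∑ d, X.x ω (σ l) d / √(Fintype.card X.D) * G d g) (Measure.pi fun _ => gam F) :=
    fun σ => Integrable.of_bound ((h0 σ).comp measurable_prodMk_right).aestronglyMeasurable B
      (Eventually.of_forall fun _ => hB _)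
  refine (integral_finsetSum _ fun σ _ => ((h2 σ).const_mul _).const_mul _).trans
    (Finset.sum_congr rfl fun σ _ => ?_)
  rw [integral_const_mul, integral_const_mul,
    fga_gauss hΨ fun l d => X.x ω (σ l) d / √(Fintype.card X.D)]
  refine congrArg (fun C => _ * (_ * PsiG n Ψ C)) (funext fun l => funext fun l' => ?_)
  simp only [gram, div_mul_div_comm, Real.mul_self_sqrt hN.le]
  rw [← Finset.sum_div, X.gram_x, mul_assoc, mul_div_cancel_left₀ _ hN.ne']
  rfl

lemma fg_fix {r : ℕ} (X : Cav r F) (n : ℕ) {Ψ : (Fin n → F → ℝ) → ℝ} (hΨ : Continuous Ψ) {B : ℝ}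
    (hB : ∀ y, |Ψ y| ≤ B) {f : (Fin n → Fin n → VV r) → ℝ} (hf : Measurable f)
    (hf1 : ∀ A, |f A| ≤ 1) {ε c η : ℝ} (hε : 0 ≤ ε) (hc : 0 ≤ c) (h0 : 0 < η) (h1 : η < 1)
    (hη : ∀ Y Y' : Fin n → F → ℝ, (∀ l, ∑ f, (Y' l f - Y l f) ^ 2 ≤ η ^ 2 * ∑ f, Y l f ^ 2) →
      |Ψ Y' - Ψ Y| ≤ ε + c * ∑ l, ∑ f, (1 + Y l f ^ 4)) (G : X.D → F → ℝ) :
    |(X.toSys.E n fun ω σ => f (X.toSys.arr ω σ) *
      Ψ fun l g => ∑ d, X.x ω (σ l) d / √(Fintype.card X.D) * G d g) -
      X.toSys.E n fun ω σ => f (X.toSys.arr ω σ) * Ψ fun l => X.ys.y ω (σ l)| ≤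
      ε + c * (n * (Fintype.card F * (1 + 3 * X.ϱ ^ 2))) + 2 * B / η ^ 2 * fgaS G := by
  have hB0 : 0 ≤ B := (abs_nonneg _).trans (hB 0)
  have hb : ∀ A y, |f A * Ψ y| ≤ B := fun A y => (abs_mul _ _).trans_le
    ((mul_le_mul (hf1 _) (hB _) (abs_nonneg _) zero_le_one).trans_eq (one_mul _))
  by_cases hG : fgaS G ≤ η ^ 2
  · obtain ⟨O, L, hL, hL1, hL2⟩ := fga_root X.e G h0.le h1 hG
    have hm : Measurable fun v : Fin n → X.D → ℝ => Ψ fun l => L fun g => v l (X.e g) :=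
      (hΨ.comp (continuous_pi fun l => hL.comp (by fun_prop))).measurable
    have hm' : Measurable fun v : Fin n → X.D → ℝ => Ψ fun l g => v l (X.e g) :=
      (hΨ.comp (by fun_prop)).measurable
    have h2 := fg_inv X O n (Φ := fun z => f z.1 * Ψ fun l => L fun g => z.2 l (X.e g))
      ((hf.comp measurable_fst).mul (hm.comp measurable_snd))
    simp only [hL2] at h2
    have h3 := fg_close X.ys X.mom n
      (U := fun ω σ => f (X.toSys.arr ω σ) * Ψ fun l => L fun g => X.x ω (σ l) (X.e g))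
      (V := fun ω σ => f (X.toSys.arr ω σ) * Ψ fun l => X.ys.y ω (σ l))
      (fun σ => (hf.comp (X.toSys.measurable_arr σ)).mul (hm.comp (fg_mx X σ)))
      (fun σ => (hf.comp (X.toSys.measurable_arr σ)).mul (hm'.comp (fg_mx X σ)))
      (fun _ _ => hb _ _) (fun _ _ => hb _ _) hc fun ω σ => by
        rw [← mul_sub, abs_mul]
        exact (mul_le_of_le_one_left (abs_nonneg _) (hf1 _)).trans (hη _ _ fun l => hL1 _)
    rw [h2]
    exact h3.trans (le_add_of_nonneg_right (mul_nonneg (by positivity) (fgaS_nonneg G)))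
  · have h2 : 2 * B ≤ 2 * B / η ^ 2 * fgaS G := by
      rw [div_mul_eq_mul_div, le_div_iff₀ (by positivity)]
      exact mul_le_mul_of_nonneg_left (not_le.1 hG).le (by positivity)
    refine ((abs_sub _ _).trans (add_le_add (X.toSys.abs_E_le n fun _ _ => hb _ _)
      (X.toSys.abs_E_le n fun _ _ => hb _ _))).trans ?_
    have h3 : 0 ≤ c * (n * (Fintype.card F * (1 + 3 * X.ϱ ^ 2))) := by positivity
    linarith

theorem fg (n : ℕ) {Ψ : (Fin n → F → ℝ) → ℝ} (hΨ : Continuous Ψ) {B : ℝ} (hB : ∀ y, |Ψ y| ≤ B)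
    (ϱ0 : ℝ) {ε : ℝ} (hε : 0 < ε) :
    ∃ D0 : ℕ, ∀ {r : ℕ} (X : Cav r F), D0 ≤ Fintype.card X.D → X.ϱ ≤ ϱ0 →
      ∀ f : (Fin n → Fin n → VV r) → ℝ, Measurable f → (∀ A, |f A| ≤ 1) →
        |X.toSys.E n (fun ω σ => f (X.toSys.arr ω σ) * Ψ fun l => X.ys.y ω (σ l)) -
          X.toSys.E n (fun ω σ => f (X.toSys.arr ω σ) *
            PsiG n Ψ fun l l' => X.ϱ * ((X.toSys.arr ω σ l l').1 : ℝ))| ≤ ε := by
  have hB0 : 0 ≤ B := (abs_nonneg _).trans (hB 0)
  obtain ⟨K, hK⟩ : ∃ K : ℝ, K = n * (Fintype.card F * (1 + 3 * ϱ0 ^ 2)) := ⟨_, rfl⟩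
  have hK0 : 0 ≤ K := by rw [hK]; positivity
  obtain ⟨η, h0, h1, hη⟩ := fga_unif hΨ hB (ε := ε / 3) (c := ε / 3 / (K + 1)) (by positivity)
    (by positivity)
  obtain ⟨D0, hD0⟩ := exists_nat_gt (2 * B / η ^ 2 * (3 * (Fintype.card F : ℝ) ^ 2) / (ε / 3))
  refine ⟨D0 + 1, fun X hD hϱ f hf hf1 => ?_⟩
  have hD' : 0 < Fintype.card X.D := Nat.lt_of_lt_of_le (Nat.succ_pos _) hD
  have hN : (0 : ℝ) < Fintype.card X.D := Nat.cast_pos.2 hD'
  obtain ⟨h2, h3⟩ := fg_swap X hD' n hΨ.measurable hB hf hf1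
  obtain ⟨h4, h5⟩ := fga_var (F := F) hD'
  have h6 := abs_integral_le_integral_abs.trans (integral_mono_of_nonneg
    (Eventually.of_forall fun _ => abs_nonneg _) ((integrable_const _).fun_add (h4.const_mul _))
    (Eventually.of_forall (fg_fix X n hΨ hB hf hf1 (by positivity) (by positivity) h0 h1 hη)))
  rw [integral_sub h2 (integrable_const _), h3, integral_add (integrable_const _) (h4.const_mul _),
    integral_const_mul] at h6
  simp only [integral_const, probReal_univ, one_smul] at h6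
  rw [abs_sub_comm]
  refine h6.trans ?_
  have h7 : (n : ℝ) * (Fintype.card F * (1 + 3 * X.ϱ ^ 2)) ≤ K + 1 := by
    have := pow_le_pow_left₀ X.ϱ_nonneg hϱ 2
    refine le_trans ?_ (le_add_of_nonneg_right zero_le_one)
    rw [hK]
    gcongr
  have h8 := (mul_le_mul_of_nonneg_left h7 (by positivity : 0 ≤ ε / 3 / (K + 1))).trans_eq
    (div_mul_cancel₀ _ (by positivity))
  have h9 : 2 * B / η ^ 2 * (3 * (Fintype.card F : ℝ) ^ 2 / Fintype.card X.D) ≤ ε / 3 := by
    have : (D0 : ℝ) ≤ Fintype.card X.D := Nat.cast_le.2 (Nat.le_of_succ_le hD)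
    rw [← mul_div_assoc, div_le_iff₀ hN, ← div_le_iff₀' (by positivity)]
    exact hD0.le.trans this
  have h10 := mul_le_mul_of_nonneg_left h5 (by positivity : 0 ≤ 2 * B / η ^ 2)
  linarith

theorem fg_lim {r : ℕ} {X : ℕ → Cav r F} {G : GGA (VV r)} {ϱ d : ℝ} (h : IsLim X G ϱ d) (n : ℕ)
    {Ψ : (Fin n → F → ℝ) → ℝ} (hΨ : Continuous Ψ) {B : ℝ} (hB : ∀ y, |Ψ y| ≤ B)
    {f : (Fin n → Fin n → VV r) → ℝ} (hf : Continuous f) :
    Tendsto (fun i => (X i).toSys.E n fun ω σ =>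
        f ((X i).toSys.arr ω σ) * Ψ fun l => (X i).ys.y ω (σ l)) (hyperfilter ℕ)
      (𝓝 (∫ A, f A * PsiG n Ψ (fun l l' => ϱ * ((A l l').1 : ℝ)) ∂G.ν n)) := by
  have hc : Continuous fun (A : Fin n → Fin n → VV r) l l' => ((A l l').1 : ℝ) := by fun_prop
  have hd : ∀ᶠ i in hyperfilter ℕ, 0 < Fintype.card (X i).D := h.dim.eventually_gt_atTop 0
  have hp : ∀ᶠ i in hyperfilter ℕ, 0 < (X i).ϱ := h.rho.eventually (lt_mem_nhds h.pos)
  have hs : ∀ᶠ i in hyperfilter ℕ, ∀ ω (σ : Fin n → (X i).S),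
      PSD fun l l' => (((X i).toSys.arr ω σ l l').1 : ℝ) :=
    (hd.and hp).mono fun i hi ω σ => ((X i).psd hi.2 hi.1 ω).comp σ
  have h1 := h.conv.tendsto_on (s := {A | PSD fun l l' => ((A l l').1 : ℝ)})
    (isClosed_psd.preimage hc) hs
    (f := fun A => f A * PsiG n Ψ fun l l' => ϱ * ((A l l').1 : ℝ))
    (hf.continuousOn.mul ((continuousOn_PsiG n hΨ hB).comp (Continuous.continuousOn (by fun_prop))
      fun A hA => PSD.smul hA h.pos.le))
  refine h1.congr_dist (Metric.tendsto_nhds.2 fun ε hε => ?_)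
  obtain ⟨K, hK0, hK⟩ : ∃ K : ℝ, 0 < K ∧ ∀ A, |f A| ≤ K := by
    obtain ⟨K, hK⟩ := isCompact_univ.exists_bound_of_continuousOn hf.continuousOn
    exact ⟨|K| + 1, by positivity, fun A =>
      (hK A (Set.mem_univ _)).trans ((le_abs_self K).trans (lt_add_one _).le)⟩
  obtain ⟨D0, hD0⟩ := fg n hΨ hB (ϱ + 1) (ε := ε / 3 / K) (by positivity)
  obtain ⟨δ, hδ, hu⟩ := Metric.uniformContinuousOn_iff_le.1
    (((isCompact_closedBall (0 : Fin n → Fin n → ℝ) (ϱ + 1)).inter_left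
      isClosed_psd).uniformContinuousOn_of_continuous
      ((continuousOn_PsiG n hΨ hB).mono Set.inter_subset_left)) (ε / 3 / K) (by positivity)
  filter_upwards [hs, h.dim.eventually_ge_atTop D0, h.rho.eventually (gt_mem_nhds (lt_add_one ϱ)),
    Metric.tendsto_nhds.1 h.rho δ hδ] with i hi1 hi2 hi3 hi4
  have h2 := mul_le_mul_of_nonneg_left (hD0 (X i) hi2 hi3.le (fun A => K⁻¹ * f A)
    (hf.measurable.const_mul _) fun A => by
      rw [abs_mul, abs_of_pos (inv_pos.2 hK0), inv_mul_le_iff₀ hK0, mul_one]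
      exact hK A) hK0.le
  simp only [mul_assoc, Sys.E_mul_left] at h2
  rw [← mul_sub, abs_mul, abs_of_pos (inv_pos.2 hK0), mul_inv_cancel_left₀ hK0.ne',
    mul_div_cancel₀ _ hK0.ne'] at h2
  have hm : ∀ (c : ℝ) (σ : Fin n → (X i).S), Measurable fun ω => f ((X i).toSys.arr ω σ) *
      PsiG n Ψ fun l l' => c * (((X i).toSys.arr ω σ l l').1 : ℝ) := fun c σ =>
    (hf.measurable.mul ((measurable_PsiG n hΨ.measurable).comp
      (hc.const_smul c).measurable)).comp ((X i).toSys.measurable_arr σ)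
  have hb : ∀ A C, |f A * PsiG n Ψ C| ≤ K * B := fun A C => (abs_mul _ _).trans_le
    (mul_le_mul (hK _) (abs_PsiG_le n hB _) (abs_nonneg _) hK0.le)
  have hn : ∀ (A : Fin n → Fin n → VV r) (c e : ℝ), |c| ≤ e →
      ‖fun l l' => c * ((A l l').1 : ℝ)‖ ≤ e := fun A c e hce =>
    (pi_norm_le_iff_of_nonneg ((abs_nonneg _).trans hce)).2 fun l =>
      (pi_norm_le_iff_of_nonneg ((abs_nonneg _).trans hce)).2 fun l' => (abs_mul _ _).trans_le
        ((mul_le_of_le_one_right (abs_nonneg _) (abs_le.2 (A l l').1.2)).trans hce)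
  have h3 := (X i).toSys.abs_E_sub_le n (hm (X i).ϱ) (hm ϱ) (fun _ _ => hb _ _) (fun _ _ => hb _ _)
    (e := K * (ε / 3 / K)) fun ω σ => by
      rw [← mul_sub, abs_mul]
      refine mul_le_mul (hK _) (hu _ ⟨(hi1 ω σ).smul (X i).ϱ_nonneg, mem_closedBall_zero_iff.2
        (hn _ _ _ ((abs_of_nonneg (X i).ϱ_nonneg).trans_le hi3.le))⟩ _
        ⟨(hi1 ω σ).smul h.pos.le, mem_closedBall_zero_iff.2
          (hn _ _ _ ((abs_of_pos h.pos).trans_le (lt_add_one ϱ).le))⟩ ?_) (abs_nonneg _) hK0.le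
      refine (dist_eq_norm _ _).trans_le (le_trans (le_of_eq ?_)
        (hn ((X i).toSys.arr ω σ) _ _ hi4.le))
      exact congrArg _ (funext fun l => funext fun l' => (sub_mul _ _ _).symm)
  rw [mul_div_cancel₀ _ hK0.ne'] at h3
  rw [Real.dist_0_eq_abs, abs_of_nonneg dist_nonneg, Real.dist_eq, abs_sub_comm]
  linarith [abs_sub_le _ _ _ |>.trans (add_le_add h2 h3)]

end

end Vale.Agent.P166
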