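import Vale.Agent.P166.SeqP2A

/-! P166 SeqP2: self consistency of the added spin.
Plan. p_q: in the tilted base measure the mean of q is at most its mean in the base measure (lemma assoc on S x Bool, or the elementary bound through av1_tilt), which is bounded (Quad.qok, base_mom); use p_tf with n = 1 for the bounded observable min 1 ((1+q)/L) .
p_R: |T_X - T_B| <= C (2 + q + q') / N0 (T_P, uvec_sq_le, with O near O0 the vector O u has the same length as u), f is uniformly continuous on the compact space VV r, Markov with p_q. So in p_e and p_y one may replace Rm of X by Rm of the base, then p_tf with n = 2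
(sum over eps : Fin 2 -> Bool factorises into Vq * Vq). p_Q: Q is the sum over colours o' of the block sums of Y Y'; the block of o' is sec o' together with a set of indices some x; on that set the system is invariant (YP_inv with f0 = sec), it contains some (e (gI o')),
so A_exch, A_mom and truncation apply as in SeqS; the terms at sec o' are bounded by (|u|^2 + |u'|^2) / (N+1), small by p_q. p2: A_site at the site none says that Psi V = Am V (f eps eps') - Am V (f Q)/(N+1) has integral 0; apply str_main to Psi and to -Psi. -/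

open MeasureTheory ProbabilityTheory Filter Topology Matrix Finset

namespace Vale.Agent.P166

noncomputable section

lemma sp2_clip {M : ℝ} (hM : 0 < M) (y y' : ℝ) :
    |y * y' - clip M y * clip M y'| ≤ (2 * M)⁻¹ * (y ^ 2 + y ^ 4 + (y' ^ 2 + y' ^ 4)) := by
  have h1 := abs_sub_clip_le hM y
  have h2 := abs_sub_clip_le hM y'
  have h3 := abs_clip_le_abs hM.le y
  have h4 : |y * y' - clip M y * clip M y'| ≤ y ^ 2 / M * |y'| + |y| * (y' ^ 2 / M) := by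
    rw [show y * y' - clip M y * clip M y' = (y - clip M y) * y' + clip M y * (y' - clip M y') by
      ring]
    refine (abs_add_le _ _).trans ?_
    rw [abs_mul, abs_mul]
    gcongr
  have h5 : y ^ 2 * |y'| + |y| * y' ^ 2 ≤ (y ^ 2 + y ^ 4 + (y' ^ 2 + y' ^ 4)) / 2 := by
    nlinarith [sq_nonneg (y ^ 2 - |y'|), sq_nonneg (y' ^ 2 - |y|), sq_abs y, sq_abs y']
  refine h4.trans ?_
  have h6 := mul_le_mul_of_nonneg_left h5 (inv_pos.2 hM).le
  refine le_of_eq_of_le ?_ (h6.trans_eq ?_)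
  · field_simp
  · field_simp

lemma sp2_num {n c α M e1 e2 m2 m4 w wc cv : ℝ} (hn : 0 < n) (hα : 0 < α) (hM : 0 < M)
    (h1 : |c / n - α| ≤ α / 2) (h2 : |c / n - α| ≤ e1 / (M * M)) (h3 : c * m2 ≤ n)
    (h4 : c ^ 2 * m4 ≤ 3 * n ^ 2) (h5 : |w - wc| ≤ (m2 + m4) / M) (h6 : |wc| ≤ M * M)
    (h7 : |wc - cv| ≤ e2) : |c * w / n - α * cv| ≤ (1 + 6 / α) / M + e1 + α * e2 := by
  obtain ⟨a, rfl⟩ : ∃ a, c = a * n := ⟨c / n, by field_simp⟩
  rw [mul_div_cancel_right₀ _ hn.ne'] at h1 h2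
  have ha : α / 2 ≤ a := by linarith [(abs_le.1 h1).1]
  have ha0 : 0 < a := by linarith
  have k2 : a * m2 ≤ 1 := by nlinarith
  have k4 : a * (a * m4) ≤ 3 := by
    have : n ^ 2 * (a * (a * m4)) ≤ n ^ 2 * 3 := by nlinarith
    exact le_of_mul_le_mul_left this (by positivity)
  have k5 : a * m4 ≤ 6 / α := by
    rw [le_div_iff₀ hα]
    by_cases h : 0 ≤ a * m4
    · nlinarith
    · nlinarith
  have e : a * n * w / n - α * cv = a * (w - wc) + (a - α) * wc + α * (wc - cv) := by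
    field_simp
    ring
  rw [e]
  refine (abs_add_three _ _ _).trans (add_le_add (add_le_add ?_ ?_) ?_)
  · rw [abs_mul, abs_of_pos ha0]
    refine (mul_le_mul_of_nonneg_left h5 ha0.le).trans ?_
    rw [← mul_div_assoc]
    exact div_le_div_of_nonneg_right (by linarith) hM.le
  · rw [abs_mul]
    exact (mul_le_mul h2 h6 (abs_nonneg _) ((abs_nonneg _).trans h2)).trans_eq
      (div_mul_cancel₀ _ (by positivity))
  · rw [abs_mul, abs_of_pos hα]
    exact mul_le_mul_of_nonneg_left h7 hα.le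

lemma sp2_mul {x y B : ℝ} (hx : |x| ≤ 1) (hy : |y| ≤ B) : |x * y| ≤ B := by
  rw [abs_mul]
  exact (mul_le_mul hx hy (abs_nonneg _) zero_le_one).trans_eq (one_mul _)

namespace RM

variable (X : RM) {r : ℕ} {b : ℕ → ℕ} {m : ℕ → ℝ} {P : Pr}

lemma sp2_trunc {y : X.Ω → Cfg r b X.Sg → ℝ} (hy : ∀ c, Measurable fun ω => y ω c) {B : ℝ}
    (hB : ∀ ω c, |y ω c| ≤ B) {F : X.Ω → (Fin 2 → Cfg r b X.Sg) → ℝ}
    (hF : ∀ c, Measurable fun ω => F ω c) (bF : ∀ ω c, |F ω c| ≤ 1) {M : ℝ} (hM : 0 < M) :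
    |X.A r b m P 2 (fun ω c => F ω c * (y ω (c 0) * y ω (c 1))) -
      X.A r b m P 2 fun ω c => F ω c * (clip M (y ω (c 0)) * clip M (y ω (c 1)))| ≤
      (X.A r b m P 1 (fun ω c => y ω (c 0) ^ 2) + X.A r b m P 1 fun ω c => y ω (c 0) ^ 4) / M ∧
    |X.A r b m P 2 fun ω c => F ω c * (clip M (y ω (c 0)) * clip M (y ω (c 1)))| ≤ M * M := by
  have bp : ∀ (k : ℕ) ω c, |y ω c ^ k| ≤ B ^ k := fun k ω c => by
    rw [abs_pow]
    exact pow_le_pow_left₀ (abs_nonneg _) (hB ω c) k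
  have m1 : ∀ c : Fin 2 → Cfg r b X.Sg, Measurable fun ω => F ω c * (y ω (c 0) * y ω (c 1)) :=
    fun c => (hF c).mul ((hy _).mul (hy _))
  have mc : ∀ c, Measurable fun ω => clip M (y ω c) := fun c =>
    (continuous_clip M).measurable.comp (hy c)
  have m2 : ∀ c : Fin 2 → Cfg r b X.Sg,
      Measurable fun ω => F ω c * (clip M (y ω (c 0)) * clip M (y ω (c 1))) :=
    fun c => (hF c).mul ((mc _).mul (mc _))
  have b1 : ∀ ω (c : Fin 2 → Cfg r b X.Sg), |F ω c * (y ω (c 0) * y ω (c 1))| ≤ B * B :=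
    fun ω c => sp2_mul (bF ω c) (by
      rw [abs_mul]
      exact mul_le_mul (hB _ _) (hB _ _) (abs_nonneg _) ((abs_nonneg _).trans (hB ω (c 0))))
  have b2 : ∀ ω (c : Fin 2 → Cfg r b X.Sg),
      |F ω c * (clip M (y ω (c 0)) * clip M (y ω (c 1)))| ≤ M * M :=
    fun ω c => sp2_mul (bF ω c) (by
      rw [abs_mul]
      exact mul_le_mul (abs_clip_le hM.le _) (abs_clip_le hM.le _) (abs_nonneg _) hM.le)
  refine ⟨?_, X.abs_A_le 2 b2⟩
  have h := X.sp2_dom (m := m) (P := P) (g := fun ω c => y ω c ^ 2 + y ω c ^ 4)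
    (fun c => ((hy c).pow_const 2).add ((hy c).pow_const 4))
    (fun ω c => (abs_add_le _ _).trans (add_le_add (bp 2 ω c) (bp 4 ω c)))
    (G := fun ω c => F ω c * (y ω (c 0) * y ω (c 1)) -
      F ω c * (clip M (y ω (c 0)) * clip M (y ω (c 1)))) (fun c => (m1 c).sub (m2 c))
    (a := 0) (k := (2 * M)⁻¹) fun ω c => by
      rw [← mul_sub, zero_add]
      exact sp2_mul (bF ω c) (sp2_clip hM _ _)
  rw [X.sp2_sub 2 m1 m2 b1 b2, X.A_add 1 (G := fun ω c => y ω (c 0) ^ 2)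
    (G' := fun ω c => y ω (c 0) ^ 4) (fun c => (hy _).pow_const 2)
    (fun c => (hy _).pow_const 4) (fun ω c => bp 2 ω _) (fun ω c => bp 4 ω _)] at h
  refine h.trans_eq ?_
  field_simp
  ring

/-- the observable used for the site symmetry -/
def sp2G {Sg : Type} (r : ℕ) (b : ℕ → ℕ) (f : VV r → ℝ) (s : Sg → ℝ) (n : ℝ)
    (T Q : Sg → Sg → ℝ) (c : Fin 2 → Cfg r b Sg) : ℝ :=
  f (Rm r b T (c 0) (c 1)) * (s (c 0).1 * s (c 1).1) -
    n⁻¹ * (f (Rm r b T (c 0) (c 1)) * Q (c 0).1 (c 1).1)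

lemma sp2_G {f : VV r → ℝ} (hf : Continuous f) (bf : ∀ v, |f v| ≤ 1) {s : X.Sg → ℝ}
    (hs : ∀ σ, |s σ| ≤ 1) {n : ℝ} (hn : 0 < n) (hQ : ∀ ω σ σ', |X.Q ω σ σ'| ≤ n) :
    (∀ c, Measurable fun ω => sp2G r b f s n (X.T ω) (X.Q ω) c) ∧
    (∀ ω c, |sp2G r b f s n (X.T ω) (X.Q ω) c| ≤ 2) ∧
    X.A r b m P 2 (fun ω => sp2G r b f s n (X.T ω) (X.Q ω)) =
      X.A r b m P 2 (fun ω c => f (Rm r b (X.T ω) (c 0) (c 1)) * (s (c 0).1 * s (c 1).1)) -
      X.A r b m P 2 (fun ω c => f (Rm r b (X.T ω) (c 0) (c 1)) * X.Q ω (c 0).1 (c 1).1) / n := by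
  have m1 : ∀ c : Fin 2 → Cfg r b X.Sg,
      Measurable fun ω => f (Rm r b (X.T ω) (c 0) (c 1)) * (s (c 0).1 * s (c 1).1) :=
    fun c => (hf.measurable.comp (X.sp2_mRm _ _)).mul_const _
  have m2 : ∀ c : Fin 2 → Cfg r b X.Sg,
      Measurable fun ω => n⁻¹ * (f (Rm r b (X.T ω) (c 0) (c 1)) * X.Q ω (c 0).1 (c 1).1) :=
    fun c => ((hf.measurable.comp (X.sp2_mRm _ _)).mul (X.mQ _ _)).const_mul _
  have b1 : ∀ ω (c : Fin 2 → Cfg r b X.Sg),
      |f (Rm r b (X.T ω) (c 0) (c 1)) * (s (c 0).1 * s (c 1).1)| ≤ 1 :=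
    fun ω c => sp2_mul (bf _) (sp2_mul (hs _) (hs _))
  have b2 : ∀ ω (c : Fin 2 → Cfg r b X.Sg),
      |n⁻¹ * (f (Rm r b (X.T ω) (c 0) (c 1)) * X.Q ω (c 0).1 (c 1).1)| ≤ 1 := fun ω c => by
    rw [abs_mul, abs_of_pos (inv_pos.2 hn), inv_mul_le_iff₀ hn, mul_one]
    exact sp2_mul (bf _) (hQ _ _ _)
  refine ⟨fun c => (m1 c).sub (m2 c), fun ω c => (abs_sub _ _).trans
    ((add_le_add (b1 ω c) (b2 ω c)).trans_eq one_add_one_eq_two), ?_⟩
  have h := X.sp2_sub (m := m) (P := P) 2 m1 m2 b1 b2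
  rw [X.A_mul_left, ← div_eq_inv_mul] at h
  exact h

end RM

namespace YD

variable {ι : Type} [Fintype ι] (D : YD ι) {bb : ι → ℝ} {Top : Finset ι} {N0 : ℕ}
  (hN : Fintype.card ι ≤ N0) {r : ℕ} {b : ℕ → ℕ} {m : ℕ → ℝ} {P : Pr}

lemma sp2_sum {J : Type} [Fintype J] (φ : J → ι) {F : D.Ω → (Fin 2 → Cfg r b D.Sg) → ℝ}
    (hF : ∀ c, Measurable fun ω => F ω c) (bF : ∀ ω c, |F ω c| ≤ 1) :
    (D.rm bb Top N0 hN).A r b m P 2
        (fun ω c => F ω c * ∑ j, D.Y ω (c 0).1 (φ j) * D.Y ω (c 1).1 (φ j)) =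
      ∑ j, (D.rm bb Top N0 hN).A r b m P 2
        fun ω c => F ω c * (D.Y ω (c 0).1 (φ j) * D.Y ω (c 1).1 (φ j)) := by
  simp only [mul_sum]
  refine (D.rm bb Top N0 hN).A_sum univ 2
    (G := fun j ω c => F ω c * (D.Y ω (c 0).1 (φ j) * D.Y ω (c 1).1 (φ j)))
    (fun j c => (hF c).mul ((D.mY _ _).mul (D.mY _ _)))
    (B := (Fintype.card ι + 1) * (Fintype.card ι + 1)) fun j ω c => sp2_mul (bF ω c) ?_
  rw [abs_mul]
  exact mul_le_mul (D.inv_absY _ _ _) (D.inv_absY _ _ _) (abs_nonneg _) (by positivity)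

lemma sp2_le {J : Type} [Fintype J] (φ : J ↪ ι) (ω : D.Ω) (σ σ' : D.Sg) :
    |∑ j, D.Y ω σ (φ j) * D.Y ω σ' (φ j)| ≤ Fintype.card ι := by
  have hs : ∀ σ, ∑ j, D.Y ω σ (φ j) ^ 2 ≤ Fintype.card ι := fun σ => by
    rw [← D.sq ω σ, ← Finset.sum_map univ φ fun i => D.Y ω σ i ^ 2]
    exact Finset.sum_le_sum_of_subset_of_nonneg (Finset.subset_univ _) fun _ _ _ => sq_nonneg _
  linarith [Seq.sp2_dot (fun j => D.Y ω σ (φ j)) fun j => D.Y ω σ' (φ j), hs σ, hs σ']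

end YD

theorem sp2_str {J : Type} [Fintype J] [DecidableEq J] (O0 : Og J) (j0 : J)
    (hpos : ∀ o, 0 ≤ O0.1 o j0) {η ε : ℝ} (hη : 0 < η)
    (hε : 0 < ε) : ∃ η' > 0, ∃ N1 : ℕ, ∀ {ι : Type} [Fintype ι] [DecidableEq ι]
      (cp : Option ι → J) (sec : J ↪ Option ι), (∀ o, cp (sec o) = o) → sec j0 = none →
      N1 ≤ Fintype.card ι →
      (∀ o, |((univ.filter fun x => cp x = o).card : ℝ) / (Fintype.card ι + 1) -
        O0.1 o j0 ^ 2| ≤ η') →
      ∀ Ψ : Og (Option ι) → ℝ, Measurable Ψ → (∀ V, |Ψ V| ≤ 2) →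
        (∀ B V, IsBlk cp B → Ψ (B * V) = Ψ V) → ∫ V, Ψ V ∂haarO (Option ι) = 0 → ∀ d κ : ℝ,
        (∀ O : Og J, (∀ o o', |O.1 o o' - O0.1 o o'| ≤ η) →
          |∫ U, Ψ (emb sec O * emb Function.Embedding.some U) ∂haarO ι - d| ≤ κ) →
        |d| ≤ κ + 4 * ε := by
  obtain ⟨η', hη', N1, hs⟩ := str_main O0 j0 hpos hη hε
  refine ⟨η', hη', N1, fun {ι} _ _ cp sec h1 h2 h3 h4 => ?_⟩
  have key : ∀ Ψ : Og (Option ι) → ℝ, Measurable Ψ → (∀ V, |Ψ V| ≤ 2) →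
      (∀ B V, IsBlk cp B → Ψ (B * V) = Ψ V) → ∫ V, Ψ V ∂haarO (Option ι) = 0 → ∀ d κ : ℝ,
      (∀ O : Og J, (∀ o o', |O.1 o o' - O0.1 o o'| ≤ η) →
        |∫ U, Ψ (emb sec O * emb Function.Embedding.some U) ∂haarO ι - d| ≤ κ) →
      d ≤ κ + 4 * ε := by
    intro Ψ mΨ bΨ iΨ h0 d κ hd
    have hb := fun O : Og J => abs_le.1 (rmb_abs_integral_le (μ := haarO ι)
      fun U => bΨ (emb sec O * emb Function.Embedding.some U))
    have h5 := hs cp sec h1 h2 h3 h4 Ψ mΨ (rmb_integrable mΨ bΨ) iΨ (min (-2) (d - κ)) (d - κ)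
      (min_le_right _ _) (fun O => (min_le_left _ _).trans (hb O).1)
      fun O hO => by linarith [(abs_le.1 (hd O hO)).1]
    have h6 := (abs_le.1 (hd O0 fun o o' => by simpa using hη.le)).1
    have h7 : d - κ - min (-2) (d - κ) ≤ 4 := by
      rcases min_cases (-2) (d - κ) with h | h <;> rw [h.1] <;> linarith [(hb O0).2]
    have h8 := mul_le_mul_of_nonneg_left h7 hε.le
    linarith
  intro Ψ mΨ bΨ iΨ h0 d κ hd
  have k1 := key Ψ mΨ bΨ iΨ h0 d κ hd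
  have k2 := key (fun V => -Ψ V) mΨ.neg (fun V => by simpa using bΨ V)
    (fun B V h => by rw [iΨ B V h]) (by rw [integral_neg, h0, neg_zero]) (-d) κ fun O hO => by
      rw [integral_neg, neg_sub_neg, abs_sub_comm]
      exact hd O hO
  rw [abs_le]
  constructor <;> linarith

namespace Seq

variable {K : Type} [Fintype K] [DecidableEq K] {r : ℕ} (Z : Seq K r)
  {O0 : Og (Option K)} {o : Option K} {Q : Quad (Fr K)}

/-- indices of colour `o'` outside the section -/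
def sp2D (i : ℕ) (o o' : Option K) : Finset (Fin (Z.N i)) :=
  ((univ.map (Function.Embedding.inl.trans (Z.e i)))ᶜ).filter fun x => Z.cp i o (some x) = o'

/-- the corresponding embedding -/
def sp2E (i : ℕ) (o o' : Option K) : {x // x ∈ Z.sp2D i o o'} ↪ Option (Fin (Z.N i)) :=
  (Function.Embedding.subtype _).trans Function.Embedding.some

lemma sp2_mem {i : ℕ} {o o' : Option K} {x : Fin (Z.N i)} :
    x ∈ Z.sp2D i o o' ↔ (∀ k, Z.e i (Sum.inl k) ≠ x) ∧ Z.cp i o (some x) = o' := by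
  simp [sp2D]

lemma sp2_gI (i : ℕ) (o o' : Option K) : Z.e i (gI o') ∈ Z.sp2D i o o' :=
  Z.sp2_mem.2 ⟨fun _ h => Sum.inl_ne_inr ((Z.e i).injective h), Z.cp_gI i o o'⟩

lemma sp2_split (i : ℕ) (o : Option K) (g : Option (Fin (Z.N i)) → ℝ) :
    ∑ x, g x = ∑ o', g (Z.sec i o') + ∑ o', ∑ x, g (Z.sp2E i o o' x) := by
  have e : ∀ o', ∑ x, g (Z.sp2E i o o' x) = ∑ x ∈ Z.sp2D i o o', g (some x) := fun o' =>
    Finset.sum_coe_sort (Z.sp2D i o o') fun x => g (some x)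
  simp only [e]
  unfold sp2D
  rw [Finset.sum_fiberwise, Fintype.sum_option, Fintype.sum_option fun o' => g (Z.sec i o'),
    Orth_split (Function.Embedding.inl.trans (Z.e i)), add_assoc]
  rfl

lemma sp2_card (i : ℕ) (o o' : Option K) :
    ((blk (Z.cp i o) o').card : ℝ) = 1 + Fintype.card {x // x ∈ Z.sp2D i o o'} := by
  have h := Z.sp2_split i o fun x => if Z.cp i o x = o' then 1 else 0
  have e : ∀ o'' (x : {x // x ∈ Z.sp2D i o o''}), Z.cp i o (Z.sp2E i o o'' x) = o'' :=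
    fun o'' x => (Z.sp2_mem.1 x.2).2
  simp only [Z.cp_sec, e] at h
  simpa [blk] using h

lemma sp2_frac (o o' : Option K) : Tendsto
    (fun i => (Fintype.card {x // x ∈ Z.sp2D i o o'} : ℝ) / ((Z.N i : ℝ) + 1)) (hyperfilter ℕ)
      (𝓝 (Z.α o')) := by
  have h1 : Tendsto (fun i => (1 : ℝ) / ((Z.N i : ℝ) + 1)) (hyperfilter ℕ) (𝓝 0) :=
    tendsto_one_div_add_atTop_nhds_zero_nat.comp Z.N_lim
  have h2 := (Z.frac_cp o o').sub h1
  rw [sub_zero] at h2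
  refine h2.congr fun i => ?_
  rw [Z.sp2_card]
  ring

lemma sp2_blk (i : ℕ) (o o' : Option K) (O : Og (Option K)) :
    (YP (Fin (Z.N i)) (emb (Z.sec i) O)).Inv (Z.sp2E i o o') ∧
    (∀ x, ev Z.bb (Z.t i) (Z.cp i o) (Z.sp2E i o o' x) = o'.elim (Z.t i) Z.bb) ∧
    ((∀ x, Z.sp2E i o o' x ∈ blk (Z.cp i o) none) ∨ ∀ x, Z.sp2E i o o' x ∉ blk (Z.cp i o) none) := by
  have e : ∀ x : {x // x ∈ Z.sp2D i o o'}, Z.cp i o (Z.sp2E i o o' x) = o' :=
    fun x => (Z.sp2_mem.1 x.2).2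
  refine ⟨YP_inv _ O _ fun j x => ?_, fun x => by rw [ev, e], ?_⟩
  · cases j with
    | none => exact (Option.some_ne_none _).symm
    | some k => exact fun h => (Z.sp2_mem.1 x.2).1 k (Option.some.inj h)
  · by_cases h : o' = none
    · exact Or.inl fun x => mem_filter.2 ⟨mem_univ _, (e x).trans h⟩
    · exact Or.inr fun x hx => h ((e x).symm.trans (mem_filter.1 hx).2)

/-- decomposition of the overlap -/
lemma sp2_Q (i : ℕ) (o : Option K) (O : Og (Option K)) {f : VV r → ℝ} (hf : Continuous f)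
    (bf : ∀ v, |f v| ≤ 1) :
    Z.Av i (Z.Xp i o O) 2 (fun U c => f (Rm r (Z.b i) ((Z.Xp i o O).T U) (c 0) (c 1)) *
        (Z.Xp i o O).Q U (c 0).1 (c 1).1) =
      Z.Av i (Z.Xp i o O) 2 (fun U c => f (Rm r (Z.b i) ((Z.Xp i o O).T U) (c 0) (c 1)) *
        ∑ o', (YP (Fin (Z.N i)) (emb (Z.sec i) O)).Y U (c 0).1 (Z.sec i o') *
          (YP (Fin (Z.N i)) (emb (Z.sec i) O)).Y U (c 1).1 (Z.sec i o')) +
      ∑ o', Fintype.card {x // x ∈ Z.sp2D i o o'} *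
        Z.Av i (Z.Xp i o O) 2 fun U c => f (Rm r (Z.b i) ((Z.Xp i o O).T U) (c 0) (c 1)) *
          (Z.fy i U (c 0).1 (gI o') * Z.fy i U (c 1).1 (gI o')) := by
  have mX : ∀ c : Fin 2 → Cfg r (Z.b i) (Option (Fin (Z.N i)) → Bool),
      Measurable fun U => f (Rm r (Z.b i) ((Z.Xp i o O).T U) (c 0) (c 1)) := fun c =>
    hf.measurable.comp ((Z.Xp i o O).sp2_mRm _ _)
  have k := fun {J : Type} [Fintype J] (φ : J → Option (Fin (Z.N i))) =>
    (YP (Fin (Z.N i)) (emb (Z.sec i) O)).sp2_sum (bb := ev Z.bb (Z.t i) (Z.cp i o))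
      (Top := blk (Z.cp i o) none) (Z.card_le' i) (m := Z.m) (P := Z.P i) φ mX fun _ _ => bf _
  refine (k id).trans ((Z.sp2_split i o _).trans (congrArg₂ (· + ·) (k _).symm
    (sum_congr rfl fun o' _ => (k _).symm.trans ?_)))
  obtain ⟨h1, h2, h3⟩ := Z.sp2_blk i o o' O
  refine ((YP (Fin (Z.N i)) (emb (Z.sec i) O)).A_exch (Z.card_le' i) h1 h2 h3
    ⟨_, Z.sp2_gI i o o'⟩ hf).symm.trans ?_
  congr 2
  funext U c
  exact congrArg₂ (fun x y => _ * (x * y)) (Z.seqp_Yf i O U _ (Sum.inl o'))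
    (Z.seqp_Yf i O U _ (Sum.inl o'))

lemma sp2_mom (i : ℕ) (o o' : Option K) (O : Og (Option K)) :
    (Fintype.card {x // x ∈ Z.sp2D i o o'} : ℝ) *
      Z.Av i (Z.Xp i o O) 1 (fun U c => Z.fy i U (c 0).1 (gI o') ^ 2) ≤ (Z.N i : ℝ) + 1 ∧
    (Fintype.card {x // x ∈ Z.sp2D i o o'} : ℝ) ^ 2 *
      Z.Av i (Z.Xp i o O) 1 (fun U c => Z.fy i U (c 0).1 (gI o') ^ 4) ≤
        3 * ((Z.N i : ℝ) + 1) ^ 2 := by
  obtain ⟨h1, h2, h3⟩ := Z.sp2_blk i o o' O
  obtain ⟨-, h4, h5⟩ := (YP (Fin (Z.N i)) (emb (Z.sec i) O)).A_mom (r := r) (b := Z.b i) (m := Z.m)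
    (P := Z.P i) (Z.card_le' i) h1 h2 h3 ⟨_, Z.sp2_gI i o o'⟩
  have e : ∀ U σ, yv (emb (Z.sec i) O * emb Function.Embedding.some U) σ
      (Z.sp2E i o o' ⟨_, Z.sp2_gI i o o'⟩) = Z.fy i U σ (gI o') :=
    fun U σ => Z.seqp_Yf i O U σ (Sum.inl o')
  simp only [e, Fintype.card_option, Fintype.card_fin, Nat.cast_add, Nat.cast_one] at h4 h5
  exact ⟨h4, h5⟩

theorem p_Q (ha : ∀ i l, (Z.P i).a l = 0) (hQ : IsQP Z.α Z.bb Z.tl O0 o Q) :
    ∃ K0 : ℝ, ∀ M > 0, ∀ f : VV r → ℝ, Continuous f → (∀ v, |f v| ≤ 1) → ∀ e > 0,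
    ∃ η > 0, ∀ᶠ i in hyperfilter ℕ, ∀ O : Og (Option K), (∀ o o', |O.1 o o' - O0.1 o o'| ≤ η) →
      |Z.Av i (Z.Xp i o O) 2 (fun U c => f (Rm r (Z.b i) ((Z.Xp i o O).T U) (c 0) (c 1)) *
          (Z.Xp i o O).Q U (c 0).1 (c 1).1) / ((Z.N i : ℝ) + 1) -
        ∑ o', Z.α o' * (Z.base i).ys.cav2 Q.q (Vy M (gI o')) f| ≤ e + K0 / M := by
  refine ⟨∑ o', (1 + 6 / Z.α o'), fun M hM f hf bf e he => ?_⟩
  obtain ⟨η, hη, L, hL, hs⟩ := Z.sp2_small ha hQ (e := e / 3) (by positivity)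
  obtain ⟨C, hC, hT⟩ := Z.sp2_T hQ
  choose η' hη' hV using fun o' => Z.p_V ha hQ (V := Vy M (gI o')) hM
    ⟨fun _ => (continuous_clip M).comp (continuous_apply _), fun _ _ => abs_clip_le hM.le _⟩ hf bf
    (e := e / 3) (by positivity)
  obtain ⟨o1, ho1⟩ := Finite.exists_min η'
  have hK : (0 : ℝ) < Fintype.card (Option K) := by exact_mod_cast Fintype.card_pos
  have he1 : 0 < e / 3 / Fintype.card (Option K) / (M * M) := by positivity
  have hf1 : ∀ᶠ i in hyperfilter ℕ, ∀ o',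
      |(Fintype.card {x // x ∈ Z.sp2D i o o'} : ℝ) / ((Z.N i : ℝ) + 1) - Z.α o'| ≤
        min (Z.α o' / 2) (e / 3 / Fintype.card (Option K) / (M * M)) :=
    eventually_all.2 fun o' => ((Z.sp2_frac o o').eventually (Metric.closedBall_mem_nhds _
      (lt_min (half_pos (Z.α_pos o')) he1))).mono fun i hi => by
        simpa only [Real.dist_eq] using hi
  have hf2 : ∀ᶠ i in hyperfilter ℕ, C * L * (1 / ((Z.N i : ℝ) + 1)) ≤ e / 3 / 2 := by
    have h1 := (tendsto_one_div_add_atTop_nhds_zero_nat.comp Z.N_lim).const_mul (C * L)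
    rw [mul_zero] at h1
    exact h1.eventually (ge_mem_nhds (by positivity))
  refine ⟨min η (η' o1), lt_min hη (hη' o1), ?_⟩
  filter_upwards [hs, eventually_all.2 hV, hf1, hf2] with i hsi hVi h1 h2 O hO
  have hn : (0 : ℝ) < (Z.N i : ℝ) + 1 := by positivity
  have mX : ∀ c : Fin 2 → Cfg r (Z.b i) (Option (Fin (Z.N i)) → Bool),
      Measurable fun U => f (Rm r (Z.b i) ((Z.Xp i o O).T U) (c 0) (c 1)) := fun c =>
    hf.measurable.comp ((Z.Xp i o O).sp2_mRm _ _)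
  have h3 := hsi O (fun a a' => (hO a a').trans (min_le_left _ _))
    (fun U c => ((Z.N i : ℝ) + 1)⁻¹ * (f (Rm r (Z.b i) ((Z.Xp i o O).T U) (c 0) (c 1)) *
        ∑ o', (YP (Fin (Z.N i)) (emb (Z.sec i) O)).Y U (c 0).1 (Z.sec i o') *
          (YP (Fin (Z.N i)) (emb (Z.sec i) O)).Y U (c 1).1 (Z.sec i o')))
    (fun c => ((mX c).mul (Finset.measurable_sum _ fun o' _ =>
      ((YP _ _).mY _ _).mul ((YP _ _).mY _ _))).const_mul _)
    (fun U c => by
      have := (YP (Fin (Z.N i)) (emb (Z.sec i) O)).sp2_le (Z.sec i) U (c 0).1 (c 1).1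
      rw [Fintype.card_option, Fintype.card_fin, Nat.cast_add, Nat.cast_one] at this
      rw [abs_mul, abs_of_pos (inv_pos.2 hn), inv_mul_le_iff₀ hn]
      exact (sp2_mul (bf _) this).trans (by linarith))
    fun U c h0 h1 => by
      have k := (hT i O U _ _ L h0 h1).2
      simp only [← Z.Y_sec] at k
      rw [abs_mul, abs_of_pos (inv_pos.2 hn), mul_comm, ← one_div]
      exact (mul_le_mul_of_nonneg_right (sp2_mul (bf _) k) (by positivity)).trans h2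
  have h4 := fun o' => (Z.Xp i o O).sp2_trunc (m := Z.m) (P := Z.P i)
    (y := fun U c => Z.fy i U c.1 (gI o')) (fun c => (continuous_yv _ _).measurable)
    (fun U c => (YO (Fin (Z.N i))).inv_absY U _ _) mX (fun _ _ => bf _) hM
  have h5 := fun o' => sp2_num hn (Z.α_pos o') hM ((h1 o').trans (min_le_left _ _))
    ((h1 o').trans (min_le_right _ _)) (Z.sp2_mom i o o' O).1 (Z.sp2_mom i o o' O).2 (h4 o').1
    (h4 o').2 (hVi o' O fun a a' => (hO a a').trans ((min_le_right _ _).trans (ho1 o')))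
  have h6 := (abs_sum_le_sum_abs _ _).trans (sum_le_sum fun o' (_ : o' ∈ univ) => h5 o')
  rw [sum_sub_distrib, sum_add_distrib, sum_add_distrib, ← sum_div, ← sum_div, ← sum_mul, Z.α_sum,
    sum_const, card_univ, nsmul_eq_mul, mul_div_cancel₀ _ hK.ne'] at h6
  rw [Z.sp2_Q i o O hf bf, add_div, add_sub_assoc]
  unfold Av at h3
  rw [RM.A_mul_left, ← div_eq_inv_mul] at h3
  exact (abs_add_le _ _).trans ((add_le_add h3 h6).trans_eq (by ring))

theorem p2 (ha : ∀ i l, (Z.P i).a l = 0) (hQ : IsQP Z.α Z.bb Z.tl O0 o Q) :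
    ∃ K0 : ℝ, ∀ M > 0, ∀ f : VV r → ℝ, Continuous f → (∀ v, |f v| ≤ 1) → ∀ e > 0,
      ∀ᶠ i in hyperfilter ℕ, |(Z.base i).ys.cav2 Q.q Ve f -
        ∑ o', Z.α o' * (Z.base i).ys.cav2 Q.q (Vy M (gI o')) f| ≤ e + K0 / M := by
  obtain ⟨K0, hK⟩ := Z.p_Q ha hQ
  refine ⟨K0, fun M hM f hf bf e he => ?_⟩
  obtain ⟨η1, hη1, h1⟩ := hK M hM f hf bf (e / 4) (by positivity)
  obtain ⟨η2, hη2, h2⟩ := Z.p_e ha hQ hf bf (e := e / 4) (by positivity)
  obtain ⟨η', hη', N1, hs⟩ := sp2_str O0 none (fun o => by rw [hQ.od.col]; positivity)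
    (lt_min hη1 hη2) (ε := e / 8) (by positivity)
  have hf1 : ∀ᶠ i in hyperfilter ℕ, ∀ o',
      |((blk (Z.cp i o) o').card : ℝ) / ((Z.N i : ℝ) + 1) - Z.α o'| ≤ η' :=
    eventually_all.2 fun o' =>
      ((Z.frac_cp o o').eventually (Metric.closedBall_mem_nhds _ hη')).mono fun i hi => by
        simpa [Real.dist_eq] using hi
  filter_upwards [h1, h2, hf1, Z.N_lim.eventually_ge_atTop N1] with i h1 h2 hfi hNi
  have hn : (0 : ℝ) < (Z.N i : ℝ) + 1 := by positivity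
  have hb : ∀ (D : YD (Option (Fin (Z.N i)))) ω σ σ',
      |(Z.modp i o D).Q ω σ σ'| ≤ (Z.N i : ℝ) + 1 := fun D ω σ σ' => by
    have := D.sp2_le (Function.Embedding.refl _) ω σ σ'
    rwa [Fintype.card_option, Fintype.card_fin, Nat.cast_add, Nat.cast_one] at this
  obtain ⟨m1, b1, e1⟩ := (Z.Sp i o).sp2_G (b := Z.b i) (m := Z.m) (P := Z.P i) hf bf
    (s := fun σ => spin (σ none)) (fun _ => (abs_spin _).le) hn (hb _)
  have h3 := hs (Z.cp i o) (Z.sec i) (Z.cp_sec i o) rfl (by simpa using hNi) (fun o' => by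
      rw [hQ.od.col, Real.sq_sqrt (Z.α_pos o').le, Fintype.card_fin]
      exact hfi o')
    (fun V => Am r (Z.b i) Z.m (Z.P i) ((Z.Sp i o).h V) ((Z.Sp i o).T V) ((Z.Sp i o).Q V) 2
      (RM.sp2G r (Z.b i) f (fun σ => spin (σ none)) ((Z.N i : ℝ) + 1) ((Z.Sp i o).T V)
        ((Z.Sp i o).Q V)))
    ((Z.Sp i o).measurable_Am 2 m1)
    (fun V => rmb_abs_integral_le fun _ => abs_Avg_le 2 _ _ (b1 V))
    (fun B V hB => by
      obtain ⟨h1, h2, h3⟩ := hB.rm Z.bb (Z.t i) (Z.card_le' i) V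
      have k := congr (congr (congrArg (fun h T Q => Am r (Z.b i) Z.m (Z.P i) h T Q 2
        (RM.sp2G r (Z.b i) f (fun σ : Option (Fin (Z.N i)) → Bool => spin (σ none))
          ((Z.N i : ℝ) + 1) T Q)) h1) h2) h3
      exact k)
    (by
      have h4 := A_site (r := r) (b := Z.b i) (m := Z.m) (bb := ev Z.bb (Z.t i) (Z.cp i o))
        (Top := blk (Z.cp i o) none) (Z.card_le' i) (Z.ok i).a_nonneg none hf
      rw [Fintype.card_option, Fintype.card_fin, Nat.cast_add, Nat.cast_one] at h4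
      refine e1.trans ?_
      rw [← h4, mul_div_cancel_left₀ _ hn.ne', sub_self])
    ((Z.base i).ys.cav2 Q.q Ve f - ∑ o', Z.α o' * (Z.base i).ys.cav2 Q.q (Vy M (gI o')) f)
    (e / 4 + (e / 4 + K0 / M)) fun O hO => by
      obtain ⟨-, -, e2⟩ := (Z.Xp i o O).sp2_G (b := Z.b i) (m := Z.m) (P := Z.P i) hf bf
        (s := fun σ => spin (σ none)) (fun _ => (abs_spin _).le) hn (hb _)
      have h4 := h1 O fun a a' => (hO a a').trans (min_le_left _ _)
      have h5 := h2 O fun a a' => (hO a a').trans (min_le_right _ _)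
      refine le_of_eq_of_le (congrArg (fun x => |x - _|) e2) ?_
      rw [sub_sub_sub_comm]
      exact (abs_sub _ _).trans (add_le_add h5 h4)
  exact h3.trans_eq (by ring)

end Seq

end

end Vale.Agent.P166
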