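import Vale.Agent.P166.SeqS
import Vale.Agent.P166.SeqP2
import Vale.Agent.P166.AL

/-! P166 LE: adding a spin of random colour increases the free energy by at least log 2 + limitP.
Plan. exists_lim, exists_od, exists_isQP; al gives e1. tails: choose M large (p2 for o = none, 4 (1+rho)^2 / M), eq2e and eq2y (for each colour, b_gI) give functionals La_e, La_o; for n large, pi, lab with Disc and j <= pi.r approximate the indicator of j <= lab in L1(zeta)
by a continuous f (exists_cont_near, Disc.meas) and use p2 at one index i (Filter.Eventually.exists); tail is linear so the sum of alpha o * tail (cc (gap o)) is tail ptot. le: exists_disc with n large, exists_isOv (Disc.strict, mok', dh_nonneg), d_one, eq1 for qs and each Q o, s1, p1. -/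

open MeasureTheory ProbabilityTheory Filter Topology Matrix Finset

namespace Vale.Agent.P166

noncomputable section

lemma le_tail_ptot {K : Type} [Fintype K] (α : Option K → ℝ) (bb : K → ℝ) (t : ℝ) (π : Path)
    (j : ℕ) : tail π.r π.m (ptot α bb t π) j = ∑ o, α o * tail π.r π.m (π.cc (gap bb t o)) j := by
  simp only [tail, ptot, Finset.mul_sum]
  rw [Finset.sum_comm]
  exact Finset.sum_congr rfl fun o _ => Finset.sum_congr rfl fun i _ => by ring

lemma le_sum_le {J : Type} [Fintype J] {α a b : J → ℝ} (h0 : ∀ o, 0 < α o) (h1 : ∑ o, α o = 1)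
    {c : ℝ} (h : ∀ o, c + a o ≤ b o) : c + ∑ o, α o * a o ≤ ∑ o, α o * b o := by
  calc c + ∑ o, α o * a o = ∑ o, α o * (c + a o) := by
        simp only [mul_add, Finset.sum_add_distrib, ← Finset.sum_mul, h1, one_mul]
    _ ≤ _ := Finset.sum_le_sum fun o _ => mul_le_mul_of_nonneg_left (h o) (h0 o).le

lemma le_lip {C B I δ x : ℝ} (hI : 0 ≤ I) (hδ : I ≤ δ / B) (hB : 0 < B) (hC : |C| ≤ B)
    (h : x ≤ C * I) : x ≤ δ := by
  have h1 : C * I ≤ B * I := mul_le_mul_of_nonneg_right ((le_abs_self C).trans hC) hI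
  have h2 := (le_div_iff₀' hB).1 hδ
  linarith

namespace Seq

variable {K : Type} [Fintype K] [DecidableEq K] {r : ℕ} (Z : Seq K r)

theorem tails (ha : ∀ i l, (Z.P i).a l = 0) {O0 : Og (Option K)} {Q : Quad (Fr K)}
    (hQ : IsQP Z.α Z.bb Z.tl O0 none Q) {G : GGA (VV r)} {ϱ d : ℝ} (h : IsLim Z.base G ϱ d) {e : ℝ}
    (he : 0 < e) : ∃ n0 : ℕ, ∀ n ≥ n0, ∀ (π : Path) (lab : VV r → ℕ), Disc G ϱ d n π lab →
      ∀ Pv : ℕ → ℝ, IsOv π.r π.m (Q.dh π) Pv → ∀ j ≤ π.r,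
        |tail π.r π.m Pv j - tail π.r π.m (ptot Z.α Z.bb Z.tl π) j| ≤ e := by
  obtain ⟨K0, hK⟩ := Z.p2 ha hQ
  have he9 : 0 < e / 9 := by positivity
  obtain ⟨M, hM, hM1, hM2⟩ : ∃ M : ℝ, 0 < M ∧ K0 / M ≤ e / 9 ∧ 4 * (1 + ϱ) ^ 2 / M ≤ e / 9 := by
    have h1 : 0 < (|K0| + 4 * (1 + ϱ) ^ 2 + 1) / (e / 9) := by positivity
    have h2 := le_abs_self K0
    have h3 := abs_nonneg K0
    have h4 := sq_nonneg (1 + ϱ)
    refine ⟨_, h1, ?_, ?_⟩
    · rw [div_le_iff₀ h1, mul_div_cancel₀ _ he9.ne']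
      linarith
    · rw [div_le_iff₀ h1, mul_div_cancel₀ _ he9.ne']
      linarith
  obtain ⟨Λe, Ce, ne, e1, e2, e3⟩ := eq2e Q h he9
  choose Λ C n1 y1 y2 y3 using fun o : Option K => eq2y Q h (hQ.b_gI o).1 hM he9
  refine ⟨max ne (univ.sup n1), fun n hn π lab hD Pv hP j hj => ?_⟩
  have hf : Measurable fun v => if j ≤ lab v then (1 : ℝ) else 0 :=
    Measurable.ite (measurableSet_le measurable_const hD.meas) measurable_const measurable_const
  have bf : ∀ v, |if j ≤ lab v then (1 : ℝ) else 0| ≤ 1 := fun v => by split_ifs <;> simp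
  have hS : 0 ≤ ∑ o, |C o| := Finset.sum_nonneg fun _ _ => abs_nonneg _
  have hB : 0 < 1 + |Ce| + ∑ o, |C o| := by positivity
  obtain ⟨g, gc, gb, gn⟩ := exists_cont_near G.zeta hf bf (div_pos he9 hB)
  have hI : 0 ≤ ∫ v, |g v - if j ≤ lab v then (1 : ℝ) else 0| ∂G.zeta :=
    integral_nonneg fun _ => abs_nonneg _
  obtain ⟨i, i1, i2, i3⟩ := ((e1 g gc gb).and ((eventually_all.2 fun o => y1 o g gc gb).and
    (hK M hM g gc gb _ he9))).exists
  have a1 := abs_le.1 (e3 n (le_of_max_le_left hn) π lab hD Pv hP j hj)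
  have a2 := abs_le.1 (le_lip hI gn hB (by linarith) (e2 _ _ gc.measurable hf gb bf))
  have a3 := abs_le.1 i1
  have a4 := abs_le.1 i3
  have a5 : ∀ o, |(Z.base i).ys.cav2 Q.q (Vy M (gI o)) g -
      tail π.r π.m (π.cc (gap Z.bb Z.tl o)) j| ≤ 4 * (e / 9) := fun o => by
    have b1 := abs_le.1 (y3 o n ((Finset.le_sup (mem_univ o)).trans (le_of_max_le_right hn)) π lab
      hD j (hj.trans (Nat.le_succ _)))
    have b0 : |C o| ≤ ∑ o, |C o| :=
      Finset.single_le_sum (f := fun o => |C o|) (fun _ _ => abs_nonneg _) (mem_univ o)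
    have b2 := abs_le.1 (le_lip hI gn hB (by linarith [abs_nonneg Ce])
      (y2 o _ _ gc.measurable hf gb bf))
    have b3 := abs_le.1 (i2 o)
    rw [(hQ.b_gI o).2] at b1
    rw [abs_le]
    constructor <;> linarith [b1.1, b1.2, b2.1, b2.2, b3.1, b3.2]
  have a6 := le_sum_le (c := -(4 * (e / 9))) (a := fun o => (Z.base i).ys.cav2 Q.q (Vy M (gI o)) g)
    (b := fun o => tail π.r π.m (π.cc (gap Z.bb Z.tl o)) j) Z.α_pos Z.α_sum fun o => by
      linarith [(abs_le.1 (a5 o)).2]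
  have a7 := le_sum_le (c := -(4 * (e / 9))) (b := fun o => (Z.base i).ys.cav2 Q.q (Vy M (gI o)) g)
    (a := fun o => tail π.r π.m (π.cc (gap Z.bb Z.tl o)) j) Z.α_pos Z.α_sum fun o => by
      linarith [(abs_le.1 (a5 o)).1]
  rw [le_tail_ptot, abs_le]
  constructor <;> linarith [a1.1, a1.2, a2.1, a2.2, a3.1, a3.2, a4.1, a4.2]

theorem le (ha : ∀ i l, (Z.P i).a l = 0) {e : ℝ} (he : 0 < e) : ∀ᶠ i in hyperfilter ℕ,
    Real.log 2 + limitP 1 (dmu Z.α Z.bb Z.tl) - e ≤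
      ∑ o, Z.α o * Z.Fv i (Z.Sp i o) - Z.Fv i (Z.S i) := by
  have he5 : 0 < e / 5 := by positivity
  obtain ⟨G, ϱ, d, h⟩ := Z.exists_lim
  obtain ⟨O, hO⟩ := exists_od Z.sp
  choose Q hQ using exists_isQP Z.sp hO
  obtain ⟨e', he', hal⟩ := al Z.sp hQ he5
  obtain ⟨n1, h1⟩ := Z.tails ha (hQ none) h he'
  obtain ⟨n2, h2⟩ := Z.d_one h he'
  obtain ⟨n3, h3⟩ := eq1 Z.qs h he5
  choose n4 h4 using fun o => eq1 (Q o) h he5
  obtain ⟨π, lab, hD⟩ := exists_disc G h.gT h.gL h.pos.le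
    (n := n1 + n2 + n3 + univ.sup n4 + 1) (by omega)
  obtain ⟨Pv, hP⟩ := exists_isOv π.mok' hD.strict
    fun l hl => (Q none).dh_nonneg π (hl.trans (Nat.le_succ _))
  have a1 : limitP 1 (dmu Z.α Z.bb Z.tl) ≤ Z.tl / 2 + ∑ o, Z.α o * (Q o).X π - Z.qs.X π + e / 5 :=
    hal π Pv hP (h2 _ (by omega) π lab hD).1 (h1 _ (by omega) π lab hD Pv hP)
  filter_upwards [Z.s1.eventually (Iio_mem_nhds he5), h3 _ (by omega) π lab hD,
    eventually_all.2 fun o => h4 o _
      (((Finset.le_sup (mem_univ o)).trans (Nat.le_add_left _ _)).trans (Nat.le_succ _)) π lab hD,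
    eventually_all.2 fun o => Z.p1 ha (hQ o) he5] with i i1 i2 i3 i4
  have a2 := le_sum_le (c := Z.Fv i (Z.B i) + Real.log 2 + Z.tl / 2 - 2 * (e / 5))
    (a := fun o => (Q o).X π) (b := fun o => Z.Fv i (Z.Sp i o)) Z.α_pos Z.α_sum fun o => by
      linarith [(abs_le.1 (i3 o)).1, i4 o]
  have a3 : Z.Fv i (Z.S i) - Z.Fv i (Z.B i) - (Z.base i).ys.cav1 Z.qs.q < e / 5 := i1
  linarith [(abs_le.1 i2).2]

end Seq

end

end Vale.Agent.P166
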