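import Vale.Agent.P166.LOa
import Vale.Agent.P166.LE

/-! P166 LO: the lower bound.
Plan lef. By contradiction: along a sequence N0 i -> infinity there are n i, c i violating the inequality; for large N0 the counts satisfy |cnt/n - alpha| <= sqrt(C N0)/(delta N0) -> 0, so frames exist (add this to the frequent condition).
Build Z : Seq K 0 with m = m0, t i = tl = t, b = 0, P i = PL (N0 i) x0 x at the maximiser of exists_GM (flat_of_isMax), Lambda = 0, err b 1 0 = 0. Seq.le, then GM (cons o c) >= FL (cons o c) x0 x = FL (cp i o) x0 x (FL_cnt, cnt_cp), the penalties cancel since sum alpha = 1.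
Plan path: p = log 2 + limitP. g c = GM c - (p - 2 eps) n - eps qd c. Induction on n from n0 = ceil (delta N0) to N0: there is c : Fin n with g c >= g c0 (c0 from exists_qd_le); this forces eps qd c <= C' N0 (GM_le, le_GM, abs_EL_le, sN^2 <= N0), so lef applies with
C = C'/eps and the alpha average of g (cons o c) is >= g c (qd_step). Plan lo: path with delta small, GM_le (sN^2 = o(N)), EL_cnt between c N and the end point of the path (both counts are alpha N + o(N)). -/

open MeasureTheory ProbabilityTheory Filter Topology Matrix Finset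

namespace Vale.Agent.P166

noncomputable section

variable {K : Type} [Fintype K] [DecidableEq K] {α : Option K → ℝ} {bb : K → ℝ} {t : ℝ}

lemma LO_sqrt (C : ℝ) : Tendsto (fun N : ℕ => √(C * N) / N) atTop (𝓝 0) := by
  have h1 : Tendsto (fun N : ℕ => √C * (√(N : ℝ))⁻¹) atTop (𝓝 (√C * 0)) :=
    (tendsto_inv_atTop_zero.comp
      (Real.tendsto_sqrt_atTop.comp tendsto_natCast_atTop_atTop)).const_mul _
  rw [mul_zero] at h1
  refine h1.congr' ?_
  filter_upwards [eventually_gt_atTop 0] with N hN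
  have h2 : (0 : ℝ) < N := by exact_mod_cast hN
  have h3 : 0 < √(N : ℝ) := Real.sqrt_pos.2 h2
  rw [Real.sqrt_mul' _ h2.le]
  field_simp
  rw [Real.sq_sqrt h2.le]

lemma LO_sq (N : ℕ) : sN N ^ 2 = (N : ℝ) ^ (3 / 4 : ℝ) := by
  unfold sN
  rw [← Real.rpow_natCast, ← Real.rpow_mul (Nat.cast_nonneg N)]
  norm_num

lemma LO_quarter : Tendsto (fun N : ℕ => (N : ℝ) ^ (-(1 / 4 : ℝ))) atTop (𝓝 0) :=
  (tendsto_rpow_neg_atTop (by norm_num)).comp tendsto_natCast_atTop_atTop

lemma LO_small : Tendsto (fun N : ℕ => sN N ^ 2 / N) atTop (𝓝 0) := by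
  refine LO_quarter.congr' ?_
  filter_upwards [eventually_gt_atTop 0] with N hN
  have h2 : (0 : ℝ) < N := by exact_mod_cast hN
  rw [LO_sq, ← Real.rpow_sub_one h2.ne']
  norm_num

lemma LO_big : Tendsto (fun N : ℕ => √(N : ℝ) / sN N ^ 2) atTop (𝓝 0) := by
  refine LO_quarter.congr' ?_
  filter_upwards [eventually_gt_atTop 0] with N hN
  have h2 : (0 : ℝ) < N := by exact_mod_cast hN
  rw [LO_sq, Real.sqrt_eq_rpow, ← Real.rpow_sub h2]
  norm_num

lemma LO_sq_le (N : ℕ) : sN N ^ 2 ≤ N := by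
  rw [LO_sq]
  rcases Nat.eq_zero_or_pos N with h | h
  · subst h
    simp
  · have h1 : (1 : ℝ) ≤ N := by exact_mod_cast h
    calc (N : ℝ) ^ (3 / 4 : ℝ) ≤ (N : ℝ) ^ (1 : ℝ) :=
          Real.rpow_le_rpow_of_exponent_le h1 (by norm_num)
      _ = N := Real.rpow_one _

omit [Fintype K] [DecidableEq K] in
lemma LO_pos {N : ℕ} (h : 0 < N) : 0 < sN N := by
  unfold sN
  exact Real.rpow_pos_of_pos (by exact_mod_cast h) _

lemma LO_dev {n : ℕ} {c : Fin n → Option K} {B : ℝ} (h : qd α c ≤ B) (o : Option K) :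
    |(cnt c o : ℝ) - α o * n| ≤ √B := by
  refine Real.abs_le_sqrt (le_trans ?_ h)
  unfold qd
  exact Finset.single_le_sum (f := fun o => ((cnt c o : ℝ) - α o * n) ^ 2)
    (fun _ _ => sq_nonneg _) (Finset.mem_univ o)

lemma LO_frame (h : Sp α bb t) {δ : ℝ} (hδ : 0 < δ) (C : ℝ) :
    ∀ᶠ N0 : ℕ in atTop, ∀ n : ℕ, δ * N0 ≤ n → ∀ c : Fin n → Option K, qd α c ≤ C * N0 →
      ∃ e : Fr K ↪ Fin n, ∀ f, c (e f) = frc f := by
  have h1 : ∀ᶠ N0 : ℕ in atTop, ∀ o : Option K,
      √(C * N0) / N0 + (Fintype.card (Fr K) : ℝ) / N0 < α o * δ := by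
    refine eventually_all.2 fun o => ?_
    have h2 := (LO_sqrt C).add (tendsto_const_div_atTop_nhds_zero_nat (Fintype.card (Fr K) : ℝ))
    rw [add_zero] at h2
    exact h2.eventually (gt_mem_nhds (mul_pos (h.pos o) hδ))
  filter_upwards [h1, eventually_gt_atTop 0] with N0 h1 h0 n hn c hc
  refine exists_frame c fun o => ?_
  have h2 : (0 : ℝ) < N0 := by exact_mod_cast h0
  have h3 := h1 o
  rw [← add_div, div_lt_iff₀ h2] at h3
  have h4 := (abs_le.1 (LO_dev hc o)).1
  have h5 := mul_le_mul_of_nonneg_left hn (h.pos o).le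
  rw [cnt_eq_blk] at h4
  have h6 : (Fintype.card (Fr K) : ℝ) ≤ (blk c o).card := by nlinarith
  exact_mod_cast h6

lemma LO_frac {δ : ℝ} (hδ : 0 < δ) {C : ℝ} {N0 n : ℕ → ℕ} (hN : Tendsto N0 atTop atTop)
    (hn : ∀ i, δ * N0 i ≤ n i) {c : ∀ i, Fin (n i) → Option K}
    (hc : ∀ i, qd α (c i) ≤ C * N0 i) (o : Option K) :
    Tendsto (fun i => ((blk (c i) o).card : ℝ) / n i) atTop (𝓝 (α o)) := by
  rw [tendsto_iff_norm_sub_tendsto_zero]
  have h1 := ((LO_sqrt C).comp hN).mul_const δ⁻¹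
  rw [zero_mul] at h1
  refine squeeze_zero' (Eventually.of_forall fun _ => norm_nonneg _) ?_ h1
  filter_upwards [hN.eventually (eventually_gt_atTop 0)] with i hi
  have h2 : (0 : ℝ) < N0 i := by exact_mod_cast hi
  have h3 : (0 : ℝ) < n i := lt_of_lt_of_le (mul_pos hδ h2) (hn i)
  have h4 := LO_dev (hc i) o
  rw [cnt_eq_blk] at h4
  have h5 : ((blk (c i) o).card : ℝ) / n i - α o = (((blk (c i) o).card : ℝ) - α o * n i) / n i := by
    field_simp
  rw [Real.norm_eq_abs, h5, abs_div, abs_of_pos h3]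
  calc _ ≤ √(C * N0 i) / n i := by gcongr
    _ ≤ √(C * N0 i) / (δ * N0 i) := by gcongr; exact hn i
    _ = _ := by simp only [Function.comp]; field_simp

theorem lef (h : Sp α bb t) (hlt : ∀ k, bb k < t) {ε δ : ℝ} (hε : 0 < ε) (hδ : 0 < δ) (C : ℝ) :
    ∀ᶠ N0 : ℕ in atTop, ∀ n : ℕ, δ * N0 ≤ n → n + 1 ≤ N0 → ∀ c : Fin n → Option K,
      qd α c ≤ C * N0 → GM bb t N0 c + Real.log 2 + limitP 1 (dmu α bb t) - ε ≤
        ∑ o, α o * GM bb t N0 (Fin.cons o c : Fin (n + 1) → Option K) := by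
  by_contra hcon
  rw [not_eventually] at hcon
  obtain ⟨φ, hφ, hbad⟩ := extraction_of_frequently_atTop (hcon.and_eventually (LO_frame h hδ C))
  have hex : ∀ i, ∃ n : ℕ, δ * φ i ≤ n ∧ n + 1 ≤ φ i ∧ ∃ c : Fin n → Option K,
      qd α c ≤ C * φ i ∧ ∑ o, α o * GM bb t (φ i) (Fin.cons o c : Fin (n + 1) → Option K) <
        GM bb t (φ i) c + Real.log 2 + limitP 1 (dmu α bb t) - ε := fun i => by
    have h1 := (hbad i).1
    push Not at h1
    exact h1
  choose n hn1 hn2 c hc1 hc2 using hex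
  choose e he using fun i => (hbad i).2 (n i) (hn1 i) (c i) (hc1 i)
  have hcard : ∀ i, Fintype.card (Fin (n i)) ≤ φ i := fun i => by
    simpa using Nat.le_of_succ_le (hn2 i)
  choose x0 x hbox hGM hmax using fun i => exists_GM (bb := bb) (t := t) (hcard i) (c i)
  have hlim : Tendsto φ (hyperfilter ℕ) atTop :=
    hφ.tendsto_atTop.mono_left Nat.hyperfilter_le_atTop
  have hok : ∀ i, (PL (φ i) (x0 i) (x i)).Ok := fun i => ⟨fun _ => le_rfl, hbox i⟩
  have hs : ∀ i, 0 < (PL (φ i) (x0 i) (x i)).s := fun i => LO_pos (by have := hn2 i; omega)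
  let Z : Seq K 0 :=
    { m := m0
      mok := mok0
      α := α
      α_pos := h.pos
      α_sum := h.sum
      bb := bb
      t := fun _ => t
      tl := t
      t_lim := tendsto_const_nhds
      bb_lt := hlt
      bb_le := fun _ k => (hlt k).le
      N := n
      N0 := φ
      c := c
      frac := fun o =>
        (LO_frac hδ hφ.tendsto_atTop hn1 hc1 o).mono_left Nat.hyperfilter_le_atTop
      hN := hn2
      δ := δ
      δ_pos := hδ
      hδ := hn1
      N0_lim := hlim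
      b := fun _ _ => 0
      P := fun i => PL (φ i) (x0 i) (x i)
      ok := hok
      Λ := 0
      a_le := fun _ _ => le_rfl
      M_lim := hlim
      s_pos := hs
      s_small := LO_small.comp hlim
      s_big := LO_big.comp hlim
      err_lim := by
        simp only [err, zero_mul]
        exact tendsto_const_nhds
      e := e
      e_col := he
      flat := fun i => RM.flat_of_isMax _ mok0 (hok i) (hs i) fun y0 y hy =>
        (hmax i y0 y hy).trans (hGM i).le }
  obtain ⟨i, hi⟩ := (Z.le (fun _ _ => rfl) hε).exists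
  have h1 : Z.Fv i (Z.S i) = GM bb t (φ i) (c i) + pen 0 (φ i) (sN (φ i)) (x0 i) (x i) := by
    rw [hGM i]
    exact (sub_add_cancel _ _).symm
  have h2 : ∀ o, Z.Fv i (Z.Sp i o) ≤ GM bb t (φ i) (Fin.cons o (c i) : Fin (n i + 1) → Option K) +
      pen 0 (φ i) (sN (φ i)) (x0 i) (x i) := fun o => by
    have hc' : Fintype.card (Fin (n i + 1)) ≤ φ i := by simpa using hn2 i
    obtain ⟨-, -, -, -, h3⟩ := exists_GM (bb := bb) (t := t) hc'
      (Fin.cons o (c i) : Fin (n i + 1) → Option K)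
    have h4 := h3 _ _ (hbox i)
    rw [← FL_cnt hc' (Z.card_le' i) (cnt_cp Z i o)] at h4
    exact sub_le_iff_le_add.1 h4
  have h3 : ∑ o, α o * Z.Fv i (Z.Sp i o) ≤
      ∑ o, α o * GM bb t (φ i) (Fin.cons o (c i) : Fin (n i + 1) → Option K) +
        pen 0 (φ i) (sN (φ i)) (x0 i) (x i) := by
    calc _ ≤ ∑ o, α o * (GM bb t (φ i) (Fin.cons o (c i) : Fin (n i + 1) → Option K) +
          pen 0 (φ i) (sN (φ i)) (x0 i) (x i)) :=
          Finset.sum_le_sum fun o _ => mul_le_mul_of_nonneg_left (h2 o) (h.pos o).le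
      _ = _ := by
          simp only [mul_add]
          rw [Finset.sum_add_distrib, ← Finset.sum_mul, h.sum, one_mul]
  have h4 := hc2 i
  have h5 : Real.log 2 + limitP 1 (dmu α bb t) - ε ≤
      ∑ o, α o * Z.Fv i (Z.Sp i o) - Z.Fv i (Z.S i) := hi
  linarith

lemma LO_GM (bb : K → ℝ) (t : ℝ) : ∃ L : ℝ, 0 ≤ L ∧ ∀ N n : ℕ, n ≤ N → ∀ c : Fin n → Option K,
    -(L * n) ≤ GM bb t N c ∧ GM bb t N c ≤ L * N := by
  have hL : 0 ≤ |t| + ∑ k, |bb k| := by positivity
  refine ⟨6 + (|t| + ∑ k, |bb k|), by positivity, fun N n hn c => ?_⟩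
  have h1 : ∀ i, |ev bb t c i| ≤ |t| + ∑ k, |bb k| := fun i => by
    unfold ev
    cases c i with
    | none =>
      have : 0 ≤ ∑ k, |bb k| := by positivity
      simpa using this
    | some k =>
      have := Finset.single_le_sum (f := fun k => |bb k|) (fun _ _ => abs_nonneg _)
        (Finset.mem_univ k)
      have h2 := abs_nonneg t
      simp only [Option.elim]
      linarith
  have h2 := abs_le.1 (abs_EL_le h1)
  rw [Fintype.card_fin] at h2
  have h3 := GM_le (bb := bb) (t := t) hn c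
  have h4 := le_GM (bb := bb) (t := t) hn c
  have h5 := LO_sq_le N
  have h6 : (n : ℝ) ≤ N := by exact_mod_cast hn
  have h7 : (0 : ℝ) ≤ n := Nat.cast_nonneg n
  have h8 := mul_le_mul_of_nonneg_left h6 hL
  constructor <;> nlinarith [h2.1, h2.2]

theorem path (h : Sp α bb t) (hlt : ∀ k, bb k < t) {ε : ℝ} (hε : 0 < ε) :
    ∃ C : ℝ, ∀ᶠ N : ℕ in atTop, ∃ c : Fin N → Option K, qd α c ≤ C * N ∧
      N * (Real.log 2 + limitP 1 (dmu α bb t) - ε) ≤ GM bb t N c := by
  obtain ⟨L, hL0, hL⟩ := LO_GM bb t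
  set p := Real.log 2 + limitP 1 (dmu α bb t) with hp
  obtain ⟨η, hη, rfl⟩ : ∃ η : ℝ, 0 < η ∧ ε = 4 * η := ⟨ε / 4, by positivity, by ring⟩
  obtain ⟨A, hA⟩ : ∃ A : ℝ, A = L + |p| + 3 * η := ⟨_, rfl⟩
  have hp0 := abs_nonneg p
  have hp1 := le_abs_self p
  have hp2 := neg_abs_le p
  have hA0 : 0 < A := by rw [hA]; positivity
  have hδ : 0 < η / A := div_pos hη hA0
  have hδ1 : η / A ≤ 1 := (div_le_one hA0).2 (by rw [hA]; linarith)
  refine ⟨2 * A / η, ?_⟩
  have hev : ∀ᶠ N : ℕ in atTop, A / N < η :=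
    (tendsto_const_div_atTop_nhds_zero_nat A).eventually (gt_mem_nhds hη)
  filter_upwards [lef h hlt hη hδ (2 * A / η), hev, eventually_gt_atTop 0] with N hle hev hN0
  have hN : (0 : ℝ) < N := by exact_mod_cast hN0
  rw [div_lt_iff₀ hN] at hev
  obtain ⟨n0, hn0⟩ : ∃ n0 : ℕ, n0 = ⌈η / A * N⌉₊ := ⟨_, rfl⟩
  have h1 : η / A * N ≤ n0 := hn0 ▸ Nat.le_ceil _
  have h2 : (n0 : ℝ) < η / A * N + 1 := hn0 ▸ Nat.ceil_lt_add_one (by positivity)
  have h3 : n0 ≤ N := hn0 ▸ Nat.ceil_le.2 (by nlinarith)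
  have h3' : (n0 : ℝ) ≤ N := by exact_mod_cast h3
  have hq : ∀ n ≤ N, ∀ c : Fin n → Option K,
      -(A * n0) ≤ GM bb t N c - (p - 2 * η) * n - η * qd α c → qd α c ≤ 2 * A / η * N := by
    intro n hn c hc
    have h4 := (hL N n hn c).2
    have h5 : (n : ℝ) ≤ N := by exact_mod_cast hn
    have h6 : (0 : ℝ) ≤ n := Nat.cast_nonneg n
    have h7 : -((p - 2 * η) * n) ≤ (|p| + 2 * η) * N := by
      calc -((p - 2 * η) * n) ≤ (|p| + 2 * η) * n := by nlinarith
        _ ≤ _ := by gcongr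
    have h8 : A * n0 ≤ A * N := by gcongr
    rw [div_mul_eq_mul_div, le_div_iff₀ hη]
    have h9 : L * N + (|p| + 2 * η) * N ≤ A * N := by rw [hA]; nlinarith
    linarith
  have key : ∀ n, n0 ≤ n → n ≤ N → ∃ c : Fin n → Option K,
      -(A * n0) ≤ GM bb t N c - (p - 2 * η) * n - η * qd α c := by
    intro n hn
    induction n, hn using Nat.le_induction with
    | base =>
      intro _
      obtain ⟨c, hc⟩ := exists_qd_le (fun o => (h.pos o).le) h.sum n0
      refine ⟨c, ?_⟩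
      have h4 := (hL N n0 h3 c).1
      have h6 : (0 : ℝ) ≤ n0 := Nat.cast_nonneg n0
      have h7 := mul_le_mul_of_nonneg_left hc hη.le
      have h8 := mul_le_mul_of_nonneg_right hp1 h6
      have h9 := mul_nonneg hη.le h6
      rw [hA]
      nlinarith
    | succ n hn ih =>
      intro hn1
      obtain ⟨c, hc⟩ := ih (Nat.le_of_succ_le hn1)
      have h4 : (n0 : ℝ) ≤ n := by exact_mod_cast hn
      have h5 := hle n (h1.trans h4) hn1 c (hq n (Nat.le_of_succ_le hn1) c hc)
      have h6 := qd_step (fun o => (h.pos o).le) h.sum c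
      by_contra hcon
      push Not at hcon
      have h7 : ∑ o, α o * (GM bb t N (Fin.cons o c : Fin (n + 1) → Option K) -
          (p - 2 * η) * ((n + 1 : ℕ) : ℝ) - η * qd α (Fin.cons o c : Fin (n + 1) → Option K)) <
          ∑ o, α o * -(A * n0) :=
        Finset.sum_lt_sum_of_nonempty Finset.univ_nonempty fun o _ =>
          mul_lt_mul_of_pos_left (hcon _) (h.pos o)
      have h8 : ∑ o, α o * (GM bb t N (Fin.cons o c : Fin (n + 1) → Option K) -
          (p - 2 * η) * ((n + 1 : ℕ) : ℝ) - η * qd α (Fin.cons o c : Fin (n + 1) → Option K)) =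
          ∑ o, α o * GM bb t N (Fin.cons o c : Fin (n + 1) → Option K) -
            (p - 2 * η) * ((n : ℝ) + 1) -
            η * ∑ o, α o * qd α (Fin.cons o c : Fin (n + 1) → Option K) := by
        simp only [mul_sub (α _)]
        rw [Finset.sum_sub_distrib, Finset.sum_sub_distrib, ← Finset.sum_mul, h.sum, one_mul,
          Finset.mul_sum]
        push_cast
        congr 1
        exact Finset.sum_congr rfl fun o _ => by ring
      rw [h8, ← Finset.sum_mul, h.sum, one_mul] at h7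
      have h9 := mul_le_mul_of_nonneg_left h6 hη.le
      have h10 : GM bb t N c + p - η ≤
          ∑ o, α o * GM bb t N (Fin.cons o c : Fin (n + 1) → Option K) := by
        rw [hp]; linarith
      nlinarith
  obtain ⟨c, hc⟩ := key N h3 le_rfl
  refine ⟨c, hq N le_rfl c hc, ?_⟩
  have h4 : 0 ≤ qd α c := Finset.sum_nonneg fun _ _ => sq_nonneg _
  have h5 := mul_nonneg hη.le h4
  have h6 : A * n0 ≤ η * N + A := by
    calc A * n0 ≤ A * (η / A * N + 1) := by gcongr
      _ = η * N + A := by field_simp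
  nlinarith

theorem lo_bound (h : Sp α bb t) (hlt : ∀ k, bb k < t) (c : ∀ N, Fin N → Option K)
    (hc : ∀ o, Tendsto (fun N => ((blk (c N) o).card : ℝ) / N) atTop (𝓝 (α o))) {ε : ℝ}
    (hε : 0 < ε) : ∀ᶠ N : ℕ in atTop,
      N * (Real.log 2 + limitP 1 (dmu α bb t) - ε) ≤ EL (Fin N) (ev bb t (c N)) := by
  obtain ⟨C, hC⟩ := path h hlt (half_pos hε)
  obtain ⟨Bd, hB0, hBd⟩ : ∃ Bd : ℝ, 0 ≤ Bd ∧ ∀ k, t - bb k ≤ Bd :=
    ⟨∑ k, (t - bb k), Finset.sum_nonneg fun k _ => sub_nonneg.2 (h.le k), fun k =>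
      Finset.single_le_sum (f := fun k => t - bb k) (fun k _ => sub_nonneg.2 (h.le k))
        (Finset.mem_univ k)⟩
  have h1 : Tendsto (fun N : ℕ => ∑ o, (|((blk (c N) o).card : ℝ) / N - α o| + √(C * N) / N))
      atTop (𝓝 (∑ _o : Option K, (0 : ℝ))) := by
    refine tendsto_finsetSum _ fun o _ => ?_
    have h2 := (((hc o).sub_const (α o)).abs).add (LO_sqrt C)
    simpa using h2
  have h2 := (((h1.const_mul Bd).mul ((hc none).inv₀ (h.pos none).ne')).add
    (LO_small.const_mul 5))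
  simp only [Finset.sum_const_zero, mul_zero, zero_mul, add_zero] at h2
  filter_upwards [hC, h2.eventually (gt_mem_nhds (half_pos hε)), eventually_gt_atTop 0,
    (hc none).eventually (lt_mem_nhds (h.pos none))] with N hN hu hN0 hT
  obtain ⟨c', hq, hG⟩ := hN
  have hN : (0 : ℝ) < N := by exact_mod_cast hN0
  have hT' : (0 : ℝ) < (blk (c N) none).card := (div_pos_iff_of_pos_right hN).1 hT
  have hne : (blk (c N) none).Nonempty := Finset.card_pos.1 (by exact_mod_cast hT')
  have h3 := (abs_le.1 (EL_cnt h.le hBd hB0 (c N) c' hne)).1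
  have h4 := GM_le (bb := bb) (t := t) le_rfl c'
  rw [Fintype.card_fin] at h3
  have h5 : ∑ o, |(cnt (c N) o : ℝ) - cnt c' o| ≤
      N * ∑ o, (|((blk (c N) o).card : ℝ) / N - α o| + √(C * N) / N) := by
    rw [Finset.mul_sum]
    refine Finset.sum_le_sum fun o _ => ?_
    have h6 := LO_dev hq o
    have h7 : (N : ℝ) * |((blk (c N) o).card : ℝ) / N - α o| = |(cnt (c N) o : ℝ) - α o * N| := by
      rw [cnt_eq_blk, ← abs_of_pos hN, ← abs_mul, abs_of_pos hN]
      congr 1
      field_simp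
    rw [mul_add, h7, mul_div_cancel₀ _ hN.ne']
    have h8 := abs_sub_le (cnt (c N) o : ℝ) (α o * N) (cnt c' o)
    rw [abs_sub_comm (α o * N)] at h8
    linarith
  have h6 : Bd * (∑ o, |(cnt (c N) o : ℝ) - cnt c' o|) * ((N : ℝ) / (blk (c N) none).card) ≤
      N * (Bd * (∑ o, (|((blk (c N) o).card : ℝ) / N - α o| + √(C * N) / N)) *
        (((blk (c N) none).card : ℝ) / N)⁻¹) := by
    rw [inv_div]
    calc _ ≤ Bd * (N * ∑ o, (|((blk (c N) o).card : ℝ) / N - α o| + √(C * N) / N)) *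
          ((N : ℝ) / (blk (c N) none).card) := by gcongr
      _ = _ := by ring
  have h7 := mul_lt_mul_of_pos_left hu hN
  have h8 : (N : ℝ) * (5 * (sN N ^ 2 / N)) = 5 * sN N ^ 2 := by field_simp
  rw [mul_add, h8] at h7
  nlinarith

end

end Vale.Agent.P166
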