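import Vale.Agent.P166.US
import Vale.Agent.P166.LO

/-! P166 FinC: the theorem for finitely many eigenvalues.
Plan. t = largest value of ell, merged colouring mrg ell t (ev_mrg, dmu_mrg, frac_mrg): lo_bound, up, and eso0 with Top = blk none (card Top / N -> weight > 0). -/

open MeasureTheory ProbabilityTheory Filter Topology Matrix Finset

namespace Vale.Agent.P166

noncomputable section

variable {J : Type} [Fintype J] [DecidableEq J] {α : J → ℝ}

omit [DecidableEq J] in
lemma finc_top (h1 : ∑ j, α j = 1) (ℓ : J → ℝ) : ∃ t, (∀ j, ℓ j ≤ t) ∧ ∃ j, t ≤ ℓ j := by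
  have := nonempty_of_sum h1
  obtain ⟨j, hj⟩ := Finite.exists_max ℓ
  exact ⟨ℓ j, hj, j, le_rfl⟩

omit [Fintype J] [DecidableEq J] in
lemma finc_ite {ℓ : J → ℝ} {t : ℝ} (h : ∀ j, ℓ j ≤ t) (j : J) :
    (if ℓ j < t then ℓ j else t) = ℓ j := by
  split_ifs with h'
  · rfl
  · exact le_antisymm (not_lt.1 h') (h j)

lemma finc_int {ι : Type} [Fintype ι] [DecidableEq ι] (bb : ι → ℝ) :
    Continuous fun U : Og ι => lz fun σ => hY bb (yv U σ) := by
  refine continuous_lz.comp (continuous_pi fun σ => ?_)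
  unfold hY
  exact (continuous_finsetSum _ fun i _ =>
    continuous_const.mul ((continuous_yv σ i).pow 2)).div_const _

theorem fin_mean (h0 : ∀ j, 0 < α j) (h1 : ∑ j, α j = 1) (ℓ : J → ℝ) (c : ∀ N, Fin N → J)
    (hc : ∀ j, Tendsto (fun N => (cnt (c N) j : ℝ) / N) atTop (𝓝 (α j))) :
    Tendsto (fun N : ℕ => EL (Fin N) (fun i => ℓ (c N i)) / N) atTop
      (𝓝 (Real.log 2 + limitP 1 (dm α ℓ))) := by
  obtain ⟨t, ht, ht'⟩ := finc_top h1 ℓ
  have hS : Sp (mrgW α ℓ t) (fun k : Low ℓ t => ℓ k.1) t :=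
    ⟨mrgW_pos h0 ht', (sum_mrgW α ℓ t).trans h1, fun k => ht _⟩
  have he : ∀ N, ev (fun k : Low ℓ t => ℓ k.1) t (fun i => mrg ℓ t (c N i)) =
      fun i => ℓ (c N i) := fun N =>
    funext fun i => (ev_mrg ℓ t t (c N) i).trans (finc_ite ht _)
  have hd : dmu (mrgW α ℓ t) (fun k : Low ℓ t => ℓ k.1) t = dm α ℓ := by
    rw [dmu_mrg h0]
    simp only [finc_ite ht]
  rw [Metric.tendsto_nhds]
  intro ε hε
  have hl := lo_bound hS (fun k => k.2) (fun N i => mrg ℓ t (c N i)) (frac_mrg ℓ t c hc)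
    (half_pos hε)
  filter_upwards [hl, up h0 h1 ℓ c hc (half_pos hε), eventually_gt_atTop 0] with N h2 h3 h4
  rw [he, hd] at h2
  have hN : (0 : ℝ) < N := by exact_mod_cast h4
  have h5 := (le_div_iff₀' hN).2 h2
  have h6 := (div_le_iff₀' hN).2 h3
  rw [Real.dist_eq, abs_lt]
  constructor <;> linarith

theorem fin_dev (h0 : ∀ j, 0 < α j) (h1 : ∑ j, α j = 1) (ℓ : J → ℝ) (c : ∀ N, Fin N → J)
    (hc : ∀ j, Tendsto (fun N => (cnt (c N) j : ℝ) / N) atTop (𝓝 (α j))) :
    Tendsto (fun N : ℕ => ∫ U, |lz (fun σ => hY (fun i => ℓ (c N i)) (yv U σ)) / N -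
      (Real.log 2 + limitP 1 (dm α ℓ))| ∂haarO (Fin N)) atTop (𝓝 0) := by
  obtain ⟨t, ht, ht'⟩ := finc_top h1 ℓ
  have hw := mrgW_pos h0 ht' none
  have hf := frac_mrg ℓ t c hc none
  have hB : ∀ j, t - ℓ j ≤ ∑ j, (t - ℓ j) := fun j =>
    Finset.single_le_sum (f := fun j => t - ℓ j) (fun j _ => sub_nonneg.2 (ht j)) (mem_univ j)
  have hs : Tendsto (fun N : ℕ => (√(N : ℝ))⁻¹) atTop (𝓝 0) :=
    tendsto_inv_atTop_zero.comp (Real.tendsto_sqrt_atTop.comp tendsto_natCast_atTop_atTop)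
  have h2 := (((hf.inv₀ hw.ne').const_mul (3 * ∑ j, (t - ℓ j))).mul hs).add
    ((fin_mean h0 h1 ℓ c hc).sub_const (Real.log 2 + limitP 1 (dm α ℓ))).abs
  rw [mul_zero, sub_self, abs_zero, add_zero] at h2
  refine squeeze_zero' (Eventually.of_forall fun N => integral_nonneg fun U => abs_nonneg _) ?_ h2
  filter_upwards [hf.eventually (lt_mem_nhds hw), eventually_gt_atTop 0] with N h3 h4
  have hN : (0 : ℝ) < N := by exact_mod_cast h4
  have hne : (blk (fun i => mrg ℓ t (c N i)) none).Nonempty := by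
    rw [← Finset.card_pos]
    have := (div_pos_iff_of_pos_right hN).1 h3
    exact_mod_cast this
  have h5 := eso0 (bb := fun i => ℓ (c N i)) hne (fun i => ht _) (fun i hi => by
    have h6 : mrg ℓ t (c N i) = none := (Finset.mem_filter.1 hi).2
    refine le_antisymm (ht _) (not_lt.1 fun h7 => ?_)
    simp [mrg, h7] at h6) (fun i => hB (c N i))
  have hi : Integrable (fun U : Og (Fin N) => lz fun σ => hY (fun i => ℓ (c N i)) (yv U σ))
      (haarO (Fin N)) :=
    (finc_int _).integrable_of_hasCompactSupport (HasCompactSupport.of_compactSpace _)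
  have hi1 : Integrable (fun U : Og (Fin N) => |lz (fun σ => hY (fun i => ℓ (c N i)) (yv U σ)) -
      EL (Fin N) fun i => ℓ (c N i)| / N) (haarO (Fin N)) :=
    (hi.sub (integrable_const (EL (Fin N) fun i => ℓ (c N i)))).abs.div_const (N : ℝ)
  rw [Fintype.card_fin] at h5
  calc _ ≤ ∫ U, (|lz (fun σ => hY (fun i => ℓ (c N i)) (yv U σ)) -
          EL (Fin N) fun i => ℓ (c N i)| / N + |EL (Fin N) (fun i => ℓ (c N i)) / N -
          (Real.log 2 + limitP 1 (dm α ℓ))|) ∂haarO (Fin N) := by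
        refine integral_mono ((hi.div_const _).sub (integrable_const _)).abs
          (hi1.add (integrable_const _)) fun U => ?_
        have h7 := abs_sub_le (lz (fun σ => hY (fun i => ℓ (c N i)) (yv U σ)) / N)
          (EL (Fin N) (fun i => ℓ (c N i)) / N) (Real.log 2 + limitP 1 (dm α ℓ))
        rwa [← sub_div, abs_div, abs_of_pos hN] at h7
    _ ≤ _ := by
        rw [integral_add hi1 (integrable_const _), integral_div, integral_const, probReal_univ,
          one_smul]
        refine add_le_add ((div_le_div_of_nonneg_right h5 hN.le).trans_eq ?_) le_rfl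
        rw [inv_div, mul_div_assoc, Real.sqrt_div_self']
        simp

end

end Vale.Agent.P166
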