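import Vale.Agent.P166.Defs2

/-! P166 Frame: counting lemmas for colourings.
Plan. exists_frame: for each colour o choose an injective map from Fin 3 (or from the fibre of frc over o, of cardinality <= card (Fr K)) into blk c o (Function.Embedding.nonempty_of_card_le on subtypes), glue over the fibres of frc.
exists_equiv_of_cnt: Equiv.ofFiberEquiv with Fintype.equivOfCardEq on the fibres. exists_perm_near: induction on the sum of |cnt - cnt'|: if the counts differ, some colour o has cnt c o > cnt c' o and some o' has the reverse; recolour one index of c from o to o'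
(alternatively build c'' with the counts of c' that differs from c at few indices, then use exists_equiv_of_cnt). qd_step: expand the squares, the cross term vanishes since sum alpha = 1, and sum_o alpha o |e_o - alpha|^2 = 1 - sum alpha^2 <= 1. -/

open MeasureTheory ProbabilityTheory Filter Topology Matrix Finset

namespace Vale.Agent.P166

noncomputable section

variable {J : Type} [Fintype J] [DecidableEq J]

/-- number of indices of colour `o` -/
def cnt {ι : Type} [Fintype ι] (c : ι → J) (o : J) : ℕ := (univ.filter fun i => c i = o).card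

/-- squared distance of the counts to the proportions `α` -/
def qd (α : J → ℝ) {n : ℕ} (c : Fin n → J) : ℝ := ∑ o, ((cnt c o : ℝ) - α o * n) ^ 2

lemma cnt_eq_blk {K ι : Type} [Fintype ι] [DecidableEq K] (c : ι → Option K) (o : Option K) :
    cnt c o = (blk c o).card := rfl

lemma sum_cnt {ι : Type} [Fintype ι] (c : ι → J) : ∑ o, cnt c o = Fintype.card ι :=
  (card_eq_sum_card_fiberwise (s := univ) (t := univ) (f := c) fun _ _ => mem_univ _).symm

lemma cnt_cons {n : ℕ} (c : Fin n → J) (o o' : J) :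
    cnt (Fin.cons o c : Fin (n + 1) → J) o' = cnt c o' + if o = o' then 1 else 0 := by
  simp only [cnt, card_filter, Fin.sum_univ_succ, Fin.cons_zero, Fin.cons_succ]
  exact add_comm _ _

omit [Fintype J] in
lemma exists_sel {ι : Type} [Fintype ι] (c : ι → J) (β : J → Type) [∀ o, Fintype (β o)]
    (h : ∀ o, Fintype.card (β o) ≤ cnt c o) : ∃ f : (Σ o, β o) ↪ ι, ∀ a, c (f a) = a.1 := by
  have g : ∀ o, β o ↪ {i // c i = o} := fun o =>
    (Function.Embedding.nonempty_of_card_le ((h o).trans_eq (Fintype.card_subtype _).symm)).some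
  exact ⟨((Function.Embedding.refl J).sigmaMap g).trans (Equiv.sigmaFiberEquiv c).toEmbedding,
    fun a => (g a.1 a.2).2⟩

lemma exists_frame {K ι : Type} [Fintype K] [DecidableEq K] [Fintype ι] (c : ι → Option K)
    (h : ∀ o, Fintype.card (Fr K) ≤ (blk c o).card) :
    ∃ e : Fr K ↪ ι, ∀ f, c (e f) = frc f := by
  obtain ⟨f, hf⟩ := exists_sel c (fun o => {f : Fr K // frc f = o})
    fun o => (Fintype.card_subtype_le _).trans (h o)
  exact ⟨(Equiv.sigmaFiberEquiv frc).symm.toEmbedding.trans f, fun x => hf _⟩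

lemma exists_equiv_of_cnt {ι ι' : Type} [Fintype ι] [Fintype ι'] {c : ι → J} {c' : ι' → J}
    (h : ∀ o, cnt c' o = cnt c o) : ∃ e : ι' ≃ ι, ∀ i, c (e i) = c' i :=
  ⟨Equiv.ofFiberEquiv fun o => Fintype.equivOfCardEq
    ((Fintype.card_subtype _).trans ((h o).trans (Fintype.card_subtype _).symm)),
    fun _ => Equiv.ofFiberEquiv_map _ _⟩

lemma exists_perm_near {ι : Type} [Fintype ι] (c c' : ι → J) : ∃ e : ι ≃ ι,
    ((univ.filter fun i => c (e i) ≠ c' i).card : ℝ) ≤ ∑ o, |(cnt c o : ℝ) - cnt c' o| := by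
  classical
  obtain ⟨f, hf⟩ := exists_sel c (fun o => Fin (min (cnt c o) (cnt c' o))) fun o => by simp
  obtain ⟨g, hg⟩ := exists_sel c' (fun o => Fin (min (cnt c o) (cnt c' o))) fun o => by simp
  obtain ⟨e, he⟩ := Equiv.Perm.exists_extending_pair g f g.injective f.injective
  refine ⟨e, ?_⟩
  have h1 : (univ.filter fun i => c (e i) ≠ c' i) ⊆ (univ.map g)ᶜ := fun i hi => by
    rw [mem_compl, Finset.mem_map]
    rintro ⟨a, -, rfl⟩
    exact (mem_filter.1 hi).2 (by rw [he, hf, hg])
  have h2 := card_le_card h1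
  have h3 := card_add_card_compl (univ.map g)
  rw [card_map, card_univ, Fintype.card_sigma, ← sum_cnt c] at h3
  simp only [Fintype.card_fin] at h3
  have h4 : (((univ.map g)ᶜ.card : ℕ) : ℝ) =
      ∑ o, ((cnt c o : ℝ) - (min (cnt c o) (cnt c' o) : ℕ)) := by
    rw [sum_sub_distrib, ← Nat.cast_sum, ← Nat.cast_sum, ← h3, Nat.cast_add, add_sub_cancel_left]
  refine (Nat.cast_le.2 h2).trans (h4.trans_le (sum_le_sum fun o _ => ?_))
  rw [Nat.cast_min]
  rcases le_total (cnt c o : ℝ) (cnt c' o) with h | h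
  · rw [min_eq_left h, sub_self]
    exact abs_nonneg _
  · rw [min_eq_right h]
    exact le_abs_self _

lemma qd_step {α : J → ℝ} (h0 : ∀ o, 0 ≤ α o) (h1 : ∑ o, α o = 1) {n : ℕ} (c : Fin n → J) :
    ∑ o, α o * qd α (Fin.cons o c : Fin (n + 1) → J) ≤ qd α c + 1 := by
  simp only [qd, cnt_cons, mul_sum]
  rw [sum_comm, ← h1, ← sum_add_distrib]
  refine sum_le_sum fun o' _ => ?_
  have e : ∀ o, α o * (((cnt c o' + if o = o' then 1 else 0 : ℕ) : ℝ) - α o' * (n + 1 : ℕ)) ^ 2 =
      α o * ((cnt c o' : ℝ) - α o' * (n + 1)) ^ 2 +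
        if o = o' then α o' * (2 * ((cnt c o' : ℝ) - α o' * (n + 1)) + 1) else 0 := fun o => by
    split_ifs with h
    · subst h
      push_cast
      ring
    · push_cast
      ring
  simp only [e, sum_add_distrib, sum_ite_eq', mem_univ, if_true, ← sum_mul, h1]
  nlinarith [sq_nonneg (α o')]

lemma exists_qd_le {α : J → ℝ} (h0 : ∀ o, 0 ≤ α o) (h1 : ∑ o, α o = 1) (n : ℕ) :
    ∃ c : Fin n → J, qd α c ≤ n := by
  induction n with
  | zero => exact ⟨Fin.elim0, by simp [qd, cnt]⟩
  | succ n ih =>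
    obtain ⟨c, hc⟩ := ih
    obtain ⟨o, -, ho⟩ := exists_min_image univ
      (fun o => qd α (Fin.cons o c : Fin (n + 1) → J))
      (nonempty_of_sum_ne_zero (h1.trans_ne one_ne_zero))
    refine ⟨Fin.cons o c, ?_⟩
    have h2 := sum_le_sum fun o' (ho' : o' ∈ univ) => mul_le_mul_of_nonneg_left (ho o' ho') (h0 o')
    rw [← sum_mul, h1, one_mul] at h2
    have h3 := qd_step h0 h1 c
    push_cast
    linarith

lemma cnt_cp {K : Type} [Fintype K] [DecidableEq K] {r : ℕ} (Z : Seq K r) (i : ℕ)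
    (o o' : Option K) :
    cnt (Z.cp i o) o' = cnt (Fin.cons o (Z.c i) : Fin (Z.N i + 1) → Option K) o' := by
  rw [cnt_cons]
  simp only [cnt, card_filter, Fintype.sum_option]
  have hx := mem_univ (Z.e i (Sum.inr (Sum.inr ())))
  rw [← add_sum_erase _ _ hx, ← add_sum_erase _ _ hx, Z.e_col,
    sum_congr rfl fun x hx => by rw [Seq.cp, if_neg (ne_of_mem_erase hx)]]
  simp only [Seq.cp, frc, if_true]
  exact (add_left_comm _ _ _).trans ((add_comm _ _).trans (congrArg (· + _) rfl))

/-- colours below the level `t` -/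
abbrev Low (ℓ : J → ℝ) (t : ℝ) : Type := {j : J // ℓ j < t}

/-- merge the colours that are not below `t` -/
def mrg (ℓ : J → ℝ) (t : ℝ) (j : J) : Option (Low ℓ t) := if h : ℓ j < t then some ⟨j, h⟩ else none

/-- weights after merging -/
def mrgW (α ℓ : J → ℝ) (t : ℝ) : Option (Low ℓ t) → ℝ
  | none => ∑ j ∈ univ.filter fun j => ¬ ℓ j < t, α j
  | some k => α k.1

lemma mrgW_pos {α ℓ : J → ℝ} {t : ℝ} (h0 : ∀ j, 0 < α j) (ht : ∃ j, t ≤ ℓ j) (o : Option (Low ℓ t)) :
    0 < mrgW α ℓ t o := by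
  cases o with
  | none =>
    obtain ⟨j, hj⟩ := ht
    exact sum_pos (fun j _ => h0 j) ⟨j, mem_filter.2 ⟨mem_univ _, not_lt.2 hj⟩⟩
  | some k => exact h0 _
omit [DecidableEq J] in
lemma sum_low {M : Type} [AddCommMonoid M] (ℓ : J → ℝ) (t : ℝ) (g : J → M) :
    ∑ j ∈ univ.filter (fun j => ¬ ℓ j < t), g j + ∑ k : Low ℓ t, g k.1 = ∑ j, g j := by
  rw [← sum_subtype (univ.filter fun j => ℓ j < t) (by simp), sum_filter_not_add_sum_filter]

lemma sum_mrgW (α ℓ : J → ℝ) (t : ℝ) : ∑ o, mrgW α ℓ t o = ∑ j, α j :=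
  (Fintype.sum_option _).trans (sum_low ℓ t α)
lemma ev_mrg {ι : Type} (ℓ : J → ℝ) (t t' : ℝ) (c : ι → J) (i : ι) :
    ev (fun k : Low ℓ t => ℓ k.1) t' (fun i => mrg ℓ t (c i)) i =
      if ℓ (c i) < t then ℓ (c i) else t' := by
  unfold ev mrg
  beta_reduce
  split_ifs <;> rfl
lemma dmu_mrg {α : J → ℝ} (h0 : ∀ j, 0 < α j) (ℓ : J → ℝ) (t t' : ℝ) :
    dmu (mrgW α ℓ t) (fun k : Low ℓ t => ℓ k.1) t' =
      dm α fun j => if ℓ j < t then ℓ j else t' := by
  rw [dmu, dm, dm, Fintype.sum_option, ← sum_low ℓ t]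
  congr 1
  · rw [mrgW, ENNReal.ofReal_sum_of_nonneg fun j _ => (h0 j).le, sum_smul]
    exact sum_congr rfl fun j hj => by rw [if_neg (mem_filter.1 hj).2]; rfl
  · exact sum_congr rfl fun k _ => by rw [if_pos k.2]; rfl
lemma frac_mrg {α : J → ℝ} (ℓ : J → ℝ) (t : ℝ) (c : ∀ N, Fin N → J)
    (hc : ∀ j, Tendsto (fun N => (cnt (c N) j : ℝ) / N) atTop (𝓝 (α j))) (o : Option (Low ℓ t)) :
    Tendsto (fun N => ((blk (fun i => mrg ℓ t (c N i)) o).card : ℝ) / N) atTop
      (𝓝 (mrgW α ℓ t o)) := by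
  cases o with
  | none =>
    refine (tendsto_finsetSum _ fun j _ => hc j).congr fun N => ?_
    rw [← sum_div, ← Nat.cast_sum]
    simp only [cnt, sum_card_fiberwise_eq_card_filter, blk]
    congr 3
    exact filter_congr fun i _ => by simp [mrg]
  | some k =>
    refine (hc k.1).congr fun N => ?_
    simp only [cnt, blk]
    congr 4
    funext i
    refine propext ⟨fun h => ?_, fun h => ?_⟩
    · rw [h, mrg, dif_pos k.2]
    · rw [mrg] at h
      split_ifs at h
      exact congrArg Subtype.val (Option.some.inj h)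

end

end Vale.Agent.P166
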