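import Vale.Agent.P166.Alg1
import Vale.Agent.P166.Frame

/-! P166 Round: rounding the spectrum.
Plan. lo = sInf, hi = sSup of the support. The atoms of mu are countable (Measure.countable_meas_pos_of_disjoint_iUnion or countable_not_noAtoms lemmas: Set.Countable {x | 0 < mu {x}}), so there is u in (0, eta/2) such that no point
g k = lo - u + k eta/2, k natural, is an atom or equal to hi (choose u outside a countable set). Cells (g k, g (k+1)], k < n with g n > hi, g (n-1) < hi. J = cells of positive mass, alpha = mass; the first and the last cell belong to J (lo, hi are in the support, interior points or use neighbourhoods).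
up j = g (k+1), dn j = g k. cu N i = the first cell of J with lam N i <= up, cd N i = the last cell of J with dn < lam N i (junk if none); eventually g 0 < lam N i < g n for all i (ciInf_le, le_ciSup on Fin N).
Proportions: the fraction of i with lam N i <= g k tends to mu (Iic (g k)) (portmanteau, ProbabilityMeasure.tendsto_measure_of_null_frontier_of_tendsto, or squeeze between two Lipschitz functions), the counts are differences of these.
The limitP inequalities come from limitP_le_add, integral_dm and a cell by cell comparison of the Stieltjes transforms. -/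

open MeasureTheory ProbabilityTheory Filter Topology Matrix Finset

namespace Vale.Agent.P166

noncomputable section

/-- portmanteau for the empirical measures -/
lemma round_tendsto (μ : Measure ℝ) [IsProbabilityMeasure μ] (lam : (N : ℕ) → Fin N → ℝ)
    (hw : ∀ f : BoundedContinuousFunction ℝ ℝ,
      Tendsto (fun N : ℕ => (N : ℝ)⁻¹ * ∑ i, f (lam N i)) atTop (𝓝 (∫ x, f x ∂μ)))
    {n : ℕ} {c : ℝ → Fin n} (hc : Measurable c) (j : Fin n) (h0 : μ (frontier (c ⁻¹' {j})) = 0) :
    Tendsto (fun N => (cnt (fun i => c (lam N i)) j : ℝ) / N) atTop (𝓝 (μ.real (c ⁻¹' {j}))) := by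
  have hp : ∀ (N : ℕ) (_ : Fin (N + 1)), (0 : ℝ) < ((N + 1 : ℕ) : ℝ)⁻¹ := fun N _ => by positivity
  have h1 : ∀ N : ℕ, ∑ _i : Fin (N + 1), ((N + 1 : ℕ) : ℝ)⁻¹ = 1 := fun N => by
    rw [sum_const, card_univ, Fintype.card_fin, nsmul_eq_mul, mul_inv_cancel₀ (by positivity)]
  let ν : ℕ → ProbabilityMeasure ℝ := fun N =>
    ⟨dm (fun _ => ((N + 1 : ℕ) : ℝ)⁻¹) (lam (N + 1)), dm_prob (hp N) (h1 N) _⟩
  have h2 : Tendsto ν atTop (𝓝 (⟨μ, inferInstance⟩ : ProbabilityMeasure ℝ)) := by
    refine ProbabilityMeasure.tendsto_iff_forall_integral_tendsto.2 fun f => ?_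
    refine ((tendsto_add_atTop_iff_nat 1).2 (hw f)).congr fun N => ?_
    rw [mul_sum]
    exact (integral_dm (hp N) (lam (N + 1)) f).symm
  have h3 := (ENNReal.tendsto_toReal (measure_ne_top μ _)).comp
    (ProbabilityMeasure.tendsto_measure_of_null_frontier_of_tendsto' h2 (E := c ⁻¹' {j}) h0)
  refine (tendsto_add_atTop_iff_nat 1).1 (h3.congr fun N => ?_)
  have h4 := integral_dm (hp N) (lam (N + 1)) ((c ⁻¹' {j}).indicator 1)
  rw [integral_indicator_one (hc (measurableSet_singleton j)), ← mul_sum] at h4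
  refine Eq.trans h4 ?_
  rw [cnt, card_filter, div_eq_inv_mul, Nat.cast_sum]
  refine congrArg _ (sum_congr rfl fun i _ => ?_)
  by_cases h : c (lam (N + 1) i) = j
  · rw [if_pos h, Set.indicator_of_mem (by exact h), Nat.cast_one, Pi.one_apply]
  · rw [if_neg h, Set.indicator_of_notMem (by exact h), Nat.cast_zero]

lemma round_integral (μ : Measure ℝ) [IsProbabilityMeasure μ] {n : ℕ} {c : ℝ → Fin n}
    (hc : Measurable c) (F : Fin n → ℝ) :
    ∫ x, F (c x) ∂μ = ∑ j, μ.real (c ⁻¹' {j}) * F j := by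
  rw [← integral_map hc.aemeasurable (measurable_of_finite F).aestronglyMeasurable,
    integral_fintype Integrable.of_finite]
  exact sum_congr rfl fun j _ => by
    rw [map_measureReal_apply hc (measurableSet_singleton j), smul_eq_mul]

/-- moving the mass by at most `δ` changes the limit by at most `δ / 2` -/
lemma round_cmp (μ : Measure ℝ) [IsProbabilityMeasure μ] (hμ : IsCompact μ.support) {n : ℕ}
    {c : ℝ → Fin n} (hc : Measurable c) {α ℓ : Fin n → ℝ} (hα : ∀ j, μ.real (c ⁻¹' {j}) = α j)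
    (h0 : ∀ j, 0 < α j) {δ : ℝ} (h : ∀ᵐ x ∂μ, |ℓ (c x) - x| ≤ δ) :
    limitP 1 (dm α ℓ) ≤ limitP 1 μ + δ / 2 ∧ limitP 1 μ ≤ limitP 1 (dm α ℓ) + δ / 2 := by
  have hI : ∀ F : Fin n → ℝ, ∫ x, F (c x) ∂μ = ∑ j, α j * F j := fun F => by
    simp only [round_integral μ hc F, hα]
  have h1 : ∑ j, α j = 1 := by simpa using (hI fun _ => 1).symm
  have := dm_prob h0 h1 ℓ
  have := nonempty_of_sum h1
  have hb : ∀ j, ℓ j ≤ sSup (dm α ℓ).support := fun j => by
    rw [support_dm h0]
    exact le_csSup (Set.finite_range _).bddAbove ⟨j, rfl⟩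
  have hS : ∀ z, stieltjes (dm α ℓ) z = ∫ x, (z - ℓ (c x))⁻¹ ∂μ := fun z => by
    rw [stieltjes, integral_dm h0, hI fun j => (z - ℓ j)⁻¹]
  have h2 := h.and (ae_mem_supp hμ)
  constructor
  · refine limitP_le_add (isCompact_support_dm h0 ℓ) hμ ?_ fun z hz => ?_
    · rw [support_dm h0]
      refine csSup_le (Set.range_nonempty _) (Set.forall_mem_range.2 fun j => ?_)
      have h3 : μ (c ⁻¹' {j}) ≠ 0 := fun h4 => (h0 j).ne' (by rw [← hα, measureReal_def, h4]; rfl)
      obtain ⟨x, hx, h5, h6⟩ := Measure.exists_mem_of_measure_ne_zero_of_ae h3 (ae_restrict_of_ae h2)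
      have hx' : c x = j := hx
      rw [hx'] at h5
      linarith [(abs_le.1 h5).2, h6.2]
    · rw [hS, stieltjes]
      refine integral_mono_of_nonneg ?_ (Integrable.of_bound
        (Measurable.aestronglyMeasurable (by fun_prop)) (z - sSup μ.support)⁻¹ ?_) ?_
      · filter_upwards [h2] with x hx
        exact inv_nonneg.2 (by linarith [(abs_le.1 hx.1).2, hx.2.2])
      · filter_upwards [h2] with x hx
        rw [Real.norm_of_nonneg (inv_nonneg.2 (by linarith [hx.2.2]))]
        exact inv_anti₀ (sub_pos.2 hz) (by linarith [hx.2.2])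
      · filter_upwards [h2] with x hx
        exact inv_anti₀ (by linarith [hx.2.2]) (by linarith [(abs_le.1 hx.1).2])
  · refine limitP_le_add hμ (isCompact_support_dm h0 ℓ) ?_ fun z hz => ?_
    · refine csSup_le (Measure.nonempty_support (IsProbabilityMeasure.ne_zero μ))
        (Measure.support_subset_of_isClosed isClosed_Iic ?_)
      filter_upwards [h] with x hx
      exact Set.mem_Iic.2 (by linarith [(abs_le.1 hx).1, hb (c x)])
    · rw [hS, stieltjes]
      refine integral_mono_of_nonneg ?_ ((integrable_map_measure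
        (measurable_of_finite fun j => (z - ℓ j)⁻¹).aestronglyMeasurable hc.aemeasurable).1
          Integrable.of_finite) ?_
      · filter_upwards [h] with x hx
        exact inv_nonneg.2 (by linarith [(abs_le.1 hx).1, hb (c x)])
      · filter_upwards [h] with x hx
        exact inv_anti₀ (by linarith [hb (c x)]) (by linarith [(abs_le.1 hx).1])

/-- number of the cell `(u + (k - 1) δ, u + k δ]` containing `x` -/
def roundIdx (u δ x : ℝ) : ℤ := ⌈(x - u) / δ⌉

lemma roundIdx_spec {u δ : ℝ} (hδ : 0 < δ) (x : ℝ) :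
    u + roundIdx u δ x * δ - δ < x ∧ x ≤ u + roundIdx u δ x * δ := by
  have h1 := Int.ceil_lt_add_one ((x - u) / δ)
  have h2 := Int.le_ceil ((x - u) / δ)
  rw [← sub_lt_iff_lt_add, lt_div_iff₀ hδ] at h1
  rw [div_le_iff₀ hδ] at h2
  unfold roundIdx
  constructor <;> linarith

lemma roundIdx_mono {u δ : ℝ} (hδ : 0 < δ) : Monotone (roundIdx u δ) := fun _ _ h =>
  Int.ceil_mono (div_le_div_of_nonneg_right (sub_le_sub_right h u) hδ.le)

lemma roundIdx_loc {u δ : ℝ} (hδ : 0 < δ) {x : ℝ} (hx : ∀ k : ℤ, x ≠ u + k * δ) :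
    ∀ᶠ y in 𝓝 x, roundIdx u δ y = roundIdx u δ x := by
  obtain ⟨h1, h2⟩ := roundIdx_spec (u := u) hδ x
  filter_upwards [Ioo_mem_nhds h1 (h2.lt_of_ne (hx _))] with y hy
  refine Int.ceil_eq_iff.2 ⟨?_, ?_⟩
  · rw [lt_div_iff₀ hδ]
    linarith [hy.1]
  · rw [div_le_iff₀ hδ]
    linarith [hy.2]

lemma round_offset (μ : Measure ℝ) [IsProbabilityMeasure μ] (a b δ : ℝ) :
    ∃ u : ℝ, ∀ k : ℤ, μ {u + k * δ} = 0 ∧ a ≠ u + k * δ ∧ b ≠ u + k * δ := by
  have h1 : (insert a (insert b {t : ℝ | 0 < μ {x | id x = t}})).Countable :=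
    ((Measure.countable_meas_level_set_pos measurable_id).insert b).insert a
  obtain ⟨u, hu⟩ := ((Set.countable_iUnion fun k : ℤ =>
    h1.image fun t => t - k * δ).dense_compl ℝ).nonempty
  refine ⟨u, fun k => ?_⟩
  have h2 : u + k * δ ∉ insert a (insert b {t : ℝ | 0 < μ {x | id x = t}}) := fun h =>
    hu (Set.mem_iUnion.2 ⟨k, _, h, add_sub_cancel_right _ _⟩)
  simp only [Set.mem_insert_iff, not_or] at h2
  exact ⟨not_lt.1 h2.2.2 |> nonpos_iff_eq_zero.1, Ne.symm h2.1, Ne.symm h2.2.1⟩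

theorem exists_round (μ : Measure ℝ) [IsProbabilityMeasure μ] (hμ : IsCompact μ.support)
    (lam : (N : ℕ) → Fin N → ℝ)
    (hw : ∀ f : BoundedContinuousFunction ℝ ℝ,
      Tendsto (fun N : ℕ => (N : ℝ)⁻¹ * ∑ i, f (lam N i)) atTop (𝓝 (∫ x, f x ∂μ)))
    (hi : Tendsto (fun N => ⨅ i, lam N i) atTop (𝓝 (sInf μ.support)))
    (hs : Tendsto (fun N => ⨆ i, lam N i) atTop (𝓝 (sSup μ.support))) {η : ℝ} (hη : 0 < η) :
    ∃ (n : ℕ) (α up dn : Fin n → ℝ) (cu cd : ∀ N, Fin N → Fin n),
      (∀ j, 0 < α j) ∧ ∑ j, α j = 1 ∧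
      (∀ j, Tendsto (fun N => (cnt (cu N) j : ℝ) / N) atTop (𝓝 (α j))) ∧
      (∀ j, Tendsto (fun N => (cnt (cd N) j : ℝ) / N) atTop (𝓝 (α j))) ∧
      (∀ᶠ N in atTop, ∀ i, dn (cd N i) ≤ lam N i ∧ lam N i ≤ up (cu N i)) ∧
      limitP 1 (dm α up) ≤ limitP 1 μ + η ∧ limitP 1 μ ≤ limitP 1 (dm α dn) + η ∧
      limitP 1 (dm α dn) ≤ limitP 1 μ + η ∧ limitP 1 μ ≤ limitP 1 (dm α up) + η := by
  classical
  obtain ⟨u, hu⟩ := round_offset μ (sInf μ.support) (sSup μ.support) η
  have hne := Measure.nonempty_support (IsProbabilityMeasure.ne_zero μ)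
  have hm : Measurable (roundIdx u η) := (roundIdx_mono hη).measurable
  obtain ⟨J, hJ⟩ : ∃ J : Finset ℤ, ∀ k, k ∈ J ↔ μ (roundIdx u η ⁻¹' {k}) ≠ 0 := by
    refine ⟨(Icc (roundIdx u η (sInf μ.support)) (roundIdx u η (sSup μ.support))).filter
      fun k => μ (roundIdx u η ⁻¹' {k}) ≠ 0, fun k => ⟨fun h => (mem_filter.1 h).2, fun h => ?_⟩⟩
    obtain ⟨x, hx, h1⟩ := Measure.exists_mem_of_measure_ne_zero_of_ae h
      (ae_restrict_of_ae (ae_mem_supp hμ))
    have hx' : roundIdx u η x = k := hx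
    exact mem_filter.2 ⟨mem_Icc.2 ⟨hx' ▸ roundIdx_mono hη h1.1, hx' ▸ roundIdx_mono hη h1.2⟩, h⟩
  have hae : ∀ᵐ x ∂μ, roundIdx u η x ∈ J := by
    refine measure_mono_null (t := ⋃ k : {k // k ∉ J}, roundIdx u η ⁻¹' {k.1})
      (fun x hx => Set.mem_iUnion.2 ⟨⟨_, hx⟩, rfl⟩) (measure_iUnion_null fun k => ?_)
    exact not_not.1 fun h => k.2 ((hJ k.1).2 h)
  have hin : ∀ x ∈ μ.support, (∀ k : ℤ, x ≠ u + k * η) → roundIdx u η x ∈ J := fun x hx h =>
    (hJ _).2 ((Measure.mem_support_iff_forall x).1 hx _ (roundIdx_loc hη h)).ne'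
  let e := J.equivFin
  let c : Fin J.card → ℝ → Fin J.card := fun d x =>
    if h : roundIdx u η x ∈ J then e ⟨_, h⟩ else d
  have hc : ∀ d, Measurable (c d) := fun d =>
    (measurable_of_countable fun k : ℤ => if h : k ∈ J then e ⟨k, h⟩ else d).comp hm
  have hce : ∀ d x, roundIdx u η x ∈ J → (e.symm (c d x)).1 = roundIdx u η x := fun d x h => by
    simp only [c, dif_pos h, Equiv.symm_apply_apply]
  have hα : ∀ d j, μ.real (c d ⁻¹' {j}) = μ.real (roundIdx u η ⁻¹' {(e.symm j).1}) := by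
    intro d j
    refine measureReal_congr ?_
    filter_upwards [hae] with x hx
    refine propext ⟨fun h => ?_, fun h => ?_⟩
    · have h' : c d x = j := h
      exact (hce d x hx).symm.trans (by rw [h'])
    · exact e.symm.injective (Subtype.ext ((hce d x hx).trans h))
  have h0 : ∀ j, 0 < μ.real (roundIdx u η ⁻¹' {(e.symm j).1}) := fun j =>
    ENNReal.toReal_pos ((hJ _).1 (e.symm j).2) (measure_ne_top _ _)
  have hfr : ∀ d j, μ (frontier (c d ⁻¹' {j})) = 0 := by
    intro d j
    refine measure_mono_null (t := ⋃ k : ℤ, {u + k * η}) (fun x hx => ?_)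
      (measure_iUnion_null fun k => (hu k).1)
    by_contra hn
    have h1 : ∀ᶠ y in 𝓝 x, c d y = c d x := by
      filter_upwards [roundIdx_loc hη fun k h => hn (Set.mem_iUnion.2 ⟨k, h⟩)] with y hy
      simp only [c, hy]
    obtain ⟨y, h2, h3⟩ := ((mem_closure_iff_frequently.1 hx.1).and_eventually h1).exists
    refine hx.2 (mem_interior_iff_mem_nhds.2 (h1.mono fun y' h4 => ?_))
    exact h4.trans (h3.symm.trans h2)
  have htop := hin _ (hμ.isClosed.csSup_mem hne hμ.bddAbove) fun k => (hu k).2.2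
  have hbot := hin _ (hμ.isClosed.csInf_mem hne hμ.bddBelow) fun k => (hu k).2.1
  have hU := round_cmp μ hμ (hc (e ⟨_, htop⟩)) (ℓ := fun j => u + (e.symm j).1 * η) (hα _) h0
    (δ := η) (by
      filter_upwards [hae] with x hx
      obtain ⟨h1, h2⟩ := roundIdx_spec (u := u) hη x
      rw [hce _ x hx, abs_le]
      constructor <;> linarith)
  have hD := round_cmp μ hμ (hc (e ⟨_, htop⟩)) (ℓ := fun j => u + (e.symm j).1 * η - η) (hα _) h0
    (δ := η) (by
      filter_upwards [hae] with x hx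
      obtain ⟨h1, h2⟩ := roundIdx_spec (u := u) hη x
      rw [hce _ x hx, abs_le]
      constructor <;> linarith)
  refine ⟨J.card, fun j => μ.real (roundIdx u η ⁻¹' {(e.symm j).1}),
    fun j => u + (e.symm j).1 * η, fun j => u + (e.symm j).1 * η - η,
    fun N i => c (e ⟨_, htop⟩) (lam N i), fun N i => c (e ⟨_, hbot⟩) (lam N i), h0, ?_,
    fun j => (round_tendsto μ lam hw (hc _) j (hfr _ j)).trans_eq (congrArg _ (hα _ j)),
    fun j => (round_tendsto μ lam hw (hc _) j (hfr _ j)).trans_eq (congrArg _ (hα _ j)), ?_,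
    by linarith [hU.1], by linarith [hD.2], by linarith [hD.1], by linarith [hU.2]⟩
  · simpa [hα] using (round_integral μ (hc (e ⟨_, htop⟩)) fun _ => 1).symm
  · filter_upwards [hi.eventually (lt_mem_nhds (roundIdx_spec (u := u) hη _).1),
      hs.eventually (gt_mem_nhds ((roundIdx_spec (u := u) hη _).2.lt_of_ne (hu _).2.2))]
      with N h1 h2 i
    obtain ⟨h3, h4⟩ := roundIdx_spec (u := u) hη (lam N i)
    by_cases h : roundIdx u η (lam N i) ∈ J
    · rw [hce _ _ h, hce _ _ h]
      exact ⟨h3.le, h4⟩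
    · simp only [c, dif_neg h, Equiv.symm_apply_apply]
      exact ⟨h1.le.trans (ciInf_le (Set.finite_range _).bddBelow i),
        (le_ciSup (Set.finite_range _).bddAbove i).trans h2.le⟩

end

end Vale.Agent.P166
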