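import Vale.Agent.P166.FinC
import Vale.Agent.P166.Round

/-! P166 Final: the main theorem.
Plan. pressure_eq: sigma . (U^T diag(lam) U) sigma = sum lam i (U sigma i)^2 (Matrix.dotProduct_mulVec, mulVec_mulVec), log of a product. dev_one: sandwich by exists_round (lz_mono): |x - p| <= |x_up - p_up| + |x_dn - p_dn| + 2 eta pointwise, fin_dev.
main: replace lam by beta lam and mu by its image (limitP_map_mul, support_map_mul, integral_map, Real.mul_iInf_of_nonneg); isHaarO_eq, integral_map (pressure is measurable in the array), the mean converges since |E x - p| <= E |x - p|,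
the probability by Markov (mul_meas_ge_le_integral_of_nonneg). -/

open MeasureTheory ProbabilityTheory Filter Topology Matrix Finset

namespace Vale.Agent.P166

noncomputable section

lemma pressure_eq {N : ℕ} (hN : 0 < N) (β : ℝ) (lam : Fin N → ℝ) (U : Og (Fin N)) :
    pressure β lam (fun i j => U.1 i j) =
      lz (fun σ => hY (fun i => β * lam i) (yv U σ)) / N - Real.log 2 := by
  have h : ∀ σ : Fin N → Bool, β / 2 * ((fun i => spin (σ i)) ⬝ᵥ
      (((Matrix.of fun i j => U.1 i j)ᵀ * Matrix.diagonal lam * Matrix.of fun i j => U.1 i j) *ᵥ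
        (fun i => spin (σ i)))) = hY (fun i => β * lam i) (yv U σ) := fun σ => by
    change β / 2 * ((fun i => spin (σ i)) ⬝ᵥ ((U.1ᵀ * Matrix.diagonal lam * U.1) *ᵥ
        (fun i => spin (σ i)))) = _
    rw [← Matrix.mulVec_mulVec, ← Matrix.mulVec_mulVec, Matrix.dotProduct_mulVec,
      Matrix.vecMul_transpose, hY, dotProduct, mul_sum, sum_div]
    refine sum_congr rfl fun i _ => ?_
    rw [Matrix.mulVec_diagonal, yv]
    ring
  have h0 : (N : ℝ) ≠ 0 := Nat.cast_ne_zero.2 hN.ne'
  rw [pressure, sum_congr rfl fun σ _ => congrArg Real.exp (h σ),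
    Real.log_mul (by positivity) (gibbs_Z_pos _).ne', Real.log_pow, Real.log_inv, lz]
  field_simp
  ring

lemma measurable_pressure {N : ℕ} (β : ℝ) (lam : Fin N → ℝ) : Measurable (pressure β lam) := by
  refine (Measurable.log (Measurable.const_mul (Finset.measurable_sum _ fun σ _ =>
    (Continuous.measurable ?_).exp) _)).const_mul _
  simp only [dotProduct, Matrix.mulVec, Matrix.mul_apply, Matrix.transpose_apply, Matrix.of_apply]
  fun_prop

lemma final_int {N : ℕ} (l : Fin N → ℝ) (p : ℝ) :
    Integrable (fun U => lz (fun σ => hY l (yv U σ)) / N - p) (haarO (Fin N)) := by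
  refine Continuous.integrable_of_hasCompactSupport ?_ (HasCompactSupport.of_compactSpace _)
  refine ((continuous_lz.comp (continuous_pi fun σ => ?_)).div_const _).sub continuous_const
  exact (continuous_finsetSum _ fun i _ =>
    continuous_const.mul ((continuous_yv σ i).pow 2)).div_const _

lemma final_mono {N : ℕ} {l l' : Fin N → ℝ} (h : ∀ i, l i ≤ l' i) (U : Og (Fin N)) :
    lz (fun σ => hY l (yv U σ)) / N ≤ lz (fun σ => hY l' (yv U σ)) / N :=
  div_le_div_of_nonneg_right (lz_mono fun _ => div_le_div_of_nonneg_right
    (sum_le_sum fun i _ => mul_le_mul_of_nonneg_right (h i) (sq_nonneg _)) zero_le_two)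
    (Nat.cast_nonneg _)

theorem dev_one (μ : Measure ℝ) [IsProbabilityMeasure μ] (hμ : IsCompact μ.support)
    (lam : (N : ℕ) → Fin N → ℝ)
    (hw : ∀ f : BoundedContinuousFunction ℝ ℝ,
      Tendsto (fun N : ℕ => (N : ℝ)⁻¹ * ∑ i, f (lam N i)) atTop (𝓝 (∫ x, f x ∂μ)))
    (hi : Tendsto (fun N => ⨅ i, lam N i) atTop (𝓝 (sInf μ.support)))
    (hs : Tendsto (fun N => ⨆ i, lam N i) atTop (𝓝 (sSup μ.support))) :
    Tendsto (fun N : ℕ => ∫ U, |lz (fun σ => hY (lam N) (yv U σ)) / N -
      (Real.log 2 + limitP 1 μ)| ∂haarO (Fin N)) atTop (𝓝 0) := by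
  refine tendsto_order.2 ⟨fun a ha => Eventually.of_forall fun N =>
    ha.trans_le (integral_nonneg fun _ => abs_nonneg _), fun a ha => ?_⟩
  obtain ⟨n, α, up, dn, cu, cd, h0, h1, h2, h3, h4, h5, h6, -, -⟩ :=
    exists_round μ hμ lam hw hi hs (half_pos ha)
  have h7 := (fin_dev h0 h1 up cu h2).add (fin_dev h0 h1 dn cd h3)
  rw [add_zero] at h7
  filter_upwards [h4, h7.eventually_lt_const (half_pos ha)] with N g1 g2
  have i1 := (final_int (fun i => up (cu N i)) (Real.log 2 + limitP 1 (dm α up))).abs
  have i2 := (final_int (fun i => dn (cd N i)) (Real.log 2 + limitP 1 (dm α dn))).abs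
  have g3 := integral_mono (final_int (lam N) (Real.log 2 + limitP 1 μ)).abs
    ((i1.add i2).add (integrable_const (a / 2))) fun U => by
      have k1 := final_mono (fun i => (g1 i).1) U
      have k2 := final_mono (fun i => (g1 i).2) U
      have k3 := le_abs_self (lz (fun σ => hY (fun i => up (cu N i)) (yv U σ)) / N -
        (Real.log 2 + limitP 1 (dm α up)))
      have k4 := neg_le_abs (lz (fun σ => hY (fun i => dn (cd N i)) (yv U σ)) / N -
        (Real.log 2 + limitP 1 (dm α dn)))
      have k5 := abs_nonneg (lz (fun σ => hY (fun i => up (cu N i)) (yv U σ)) / N -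
        (Real.log 2 + limitP 1 (dm α up)))
      have k6 := abs_nonneg (lz (fun σ => hY (fun i => dn (cd N i)) (yv U σ)) / N -
        (Real.log 2 + limitP 1 (dm α dn)))
      simp only [Pi.add_apply]
      rw [abs_le]
      constructor <;> linarith
  have g4 := integral_add' (i1.add i2) (integrable_const (μ := haarO (Fin N)) (a / 2))
  rw [integral_add' i1 i2, integral_const, probReal_univ, one_smul] at g4
  linarith

theorem main : MainStmt := by
  intro β hβ μ _ hμ lam hw hi hs ν hν
  have he : MeasurableEmbedding fun x => β * x := (Homeomorph.mulLeft₀ β hβ.ne').measurableEmbedding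
  have : IsProbabilityMeasure (μ.map fun x => β * x) :=
    Measure.isProbabilityMeasure_map he.measurable.aemeasurable
  have h1 := dev_one (μ.map fun x => β * x)
    (by rw [support_map_mul μ hβ]; exact hμ.image (continuous_const_mul β))
    (fun N i => β * lam N i)
    (fun f => by
      rw [he.integral_map]
      exact hw (f.compContinuous ⟨fun x => β * x, continuous_const_mul β⟩))
    (by
      have h2 : sInf (μ.map fun x => β * x).support = β * sInf μ.support := by
        rw [support_map_mul μ hβ]
        exact Real.sInf_smul_of_nonneg hβ.le _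
      simp only [h2, ← Real.mul_iInf_of_nonneg hβ.le]
      exact hi.const_mul β)
    (by
      have h2 : sSup (μ.map fun x => β * x).support = β * sSup μ.support := by
        rw [support_map_mul μ hβ]
        exact Real.sSup_smul_of_nonneg hβ.le _
      simp only [h2, ← Real.mul_iSup_of_nonneg hβ.le]
      exact hs.const_mul β)
  rw [← limitP_map_mul hμ hβ] at h1
  have hc : ∀ N, Measurable fun (U : Og (Fin N)) (i j : Fin N) => U.1 i j := fun N =>
    measurable_pi_lambda _ fun i => measurable_pi_lambda _ fun j => measurable_entry i j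
  have h2 : ∀ N, 0 < N → ∀ U : Og (Fin N), pressure β (lam N) (fun i j => U.1 i j) - limitP β μ =
      lz (fun σ => hY (fun i => β * lam N i) (yv U σ)) / N - (Real.log 2 + limitP β μ) :=
    fun N hN U => by rw [pressure_eq hN, sub_sub]
  have h3 : ∀ N, 0 < N → Integrable (fun U => pressure β (lam N) U - limitP β μ) (ν N) :=
    fun N hN => by
      rw [isHaarO_eq (hν N), integrable_map_measure
        ((measurable_pressure β (lam N)).sub_const _).aestronglyMeasurable (hc N).aemeasurable]
      exact (final_int _ _).congr (Eventually.of_forall fun U => (h2 N hN U).symm)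
  have h4 : Tendsto (fun N => ∫ U, |pressure β (lam N) U - limitP β μ| ∂ν N) atTop (𝓝 0) := by
    refine h1.congr' ((eventually_gt_atTop 0).mono fun N hN => ?_)
    dsimp only
    rw [isHaarO_eq (hν N), integral_map (hc N).aemeasurable
      ((measurable_pressure β (lam N)).sub_const _).abs.aestronglyMeasurable]
    exact integral_congr_ae (Eventually.of_forall fun U => congrArg abs (h2 N hN U).symm)
  refine ⟨tendsto_sub_nhds_zero_iff.1 (squeeze_zero_norm' ((eventually_gt_atTop 0).mono
    fun N hN => ?_) h4), fun ε hε => ?_⟩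
  · have := (hν N).1
    have h5 := integral_add (h3 N hN) (integrable_const (limitP β μ))
    simp only [sub_add_cancel, integral_const, probReal_univ, one_smul] at h5
    rw [h5, add_sub_cancel_right, Real.norm_eq_abs]
    exact abs_integral_le_integral_abs
  · have h5 := h4.div_const ε
    rw [zero_div] at h5
    refine squeeze_zero' (Eventually.of_forall fun _ => measureReal_nonneg)
      ((eventually_gt_atTop 0).mono fun N hN => ?_) h5
    have := (hν N).1
    rw [le_div_iff₀' hε]
    refine le_trans (mul_le_mul_of_nonneg_left (measureReal_mono fun U hU => ?_) hε.le)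
      (mul_meas_ge_le_integral_of_nonneg (Eventually.of_forall fun _ => abs_nonneg _)
        (h3 N hN).abs ε)
    exact le_of_lt (show ε < |pressure β (lam N) U - limitP β μ| from hU)

end

end Vale.Agent.P166
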