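import Vale.Agent.P166.Cmp
import Vale.Agent.P157.Conc

/-! P166 Pisier: Gaussian concentration (L1) of the free energy, and the derivative in the covariance.
Plan pisier (Maurey-Pisier): f g = lz(H + feat a g), a = sqr C. |f g - E f| <= E_g' |f g - f g'|; g_t = cos t g' + sin t g, t in [0, pi/2];
d/dt f(g_t) = <feat a (g_t')> with g_t' = -sin t g' + cos t g (hasDerivAt_lz-type chain rule); (g_t, g_t') has the law of (g, g')
(map_feat_eq on the index type S (+) S, or map_gam_orth); conditionally on g_t the variable <feat a g''> = sum_i <a_i> g''_i is centred Gaussian with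
variance sum_i <a_i>^2 <= <sum_i a_i^2> <= V, so its L1 norm is <= sqrt V. Total (pi/2) sqrt V <= 2 sqrt V.
Plan dcov: gK_add, gK_smul: Phi H (C + c xi) - Phi H C = E_y E_z log <exp(sqrt c z)>_(H+y), z ~ gK xi. taylor2 with B = norm z:
E <z> = 0, E <z^2> = <xi s s>, E <z>^2 = <xi(s0,s1)> (integral_eval_mul), E norm z ^3 <= K (norm^3 <= 6 exp norm, integral_exp_norm_le). -/

open MeasureTheory ProbabilityTheory Filter Topology Matrix Finset

namespace Vale.Agent.P166

noncomputable section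

variable {S : Type} [Fintype S] [Nonempty S]

lemma pisier_lZ [MeasurableSpace S] [MeasurableSingletonClass S] (h : S → ℝ) :
    P157.lZ (PMF.uniformOfFintype S).toMeasure h = lz h - Real.log (Fintype.card S) := by
  have hc : (0 : ℝ) < Fintype.card S := Nat.cast_pos.2 Fintype.card_pos
  have hs : 0 < ∑ s, Real.exp (h s) :=
    Finset.sum_pos (fun s _ => Real.exp_pos _) Finset.univ_nonempty
  unfold P157.lZ lz
  rw [PMF.integral_eq_sum, ← Real.log_div hs.ne' hc.ne', Finset.sum_div]
  congr 1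
  refine Finset.sum_congr rfl fun s _ => ?_
  simp [PMF.uniformOfFintype_apply, div_eq_inv_mul]

omit [Nonempty S] in
lemma pisier_meas (H : S → ℝ) : Measurable fun y : S → ℝ => lz (H + y) :=
  measurable_lz (H := fun y : S → ℝ => H + y) fun s => by
    simp only [Pi.add_apply]
    fun_prop

lemma pisier (H : S → ℝ) {C : S → S → ℝ} (hC : PSD C) {V : ℝ} (hV : ∀ s, C s s ≤ V) :
    ∫ y, |lz (H + y) - Phi H C| ∂gK C ≤ 2 * √V := by
  let _ : MeasurableSpace S := ⊤
  have hm := pisier_meas H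
  have h1 := P157.Fluct_gauss (μ := (PMF.uniformOfFintype S).toMeasure) (H₀ := H)
    (measurable_from_top) (C := ∑ s, |H s|)
    (fun s => Finset.single_le_sum (f := fun s => |H s|) (fun s _ => abs_nonneg _)
      (Finset.mem_univ s)) (A := sqr C) (V := V)
    ⟨fun c => (measurable_from_top (f := fun s => sqr C s c)).comp measurable_snd,
      ∑ s, ∑ c, |sqr C s c|, fun _ s c => by
        refine le_trans ?_ (Finset.single_le_sum (f := fun s => ∑ c, |sqr C s c|)
          (fun s _ => Finset.sum_nonneg fun c _ => abs_nonneg _) (Finset.mem_univ s))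
        exact Finset.single_le_sum (f := fun c => |sqr C s c|) (fun c _ => abs_nonneg _)
          (Finset.mem_univ c)⟩
    (fun s => by
      have := congrFun (congrFun (gram_sqr hC) s) s
      exact le_trans (le_of_eq this) (hV s))
  have e1 : ∀ g : S → ℝ, (fun σ => H σ + sqr C σ ⬝ᵥ g) = H + feat (sqr C) g := fun g => rfl
  have hi : Integrable (fun g => lz (H + feat (sqr C) g)) (gam S) :=
    (integrable_lz_gK H C).comp_measurable (measurable_feat _)
  unfold P157.Fluct P157.FE at h1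
  simp only [pisier_lZ, e1] at h1
  rw [integral_sub hi (integrable_const _), integral_const] at h1
  simp only [probReal_univ, smul_eq_mul, one_mul, sub_sub_sub_cancel_right] at h1
  rw [integral_gK C (hm.sub_const _).abs, Phi, integral_gK C hm]
  exact h1

omit [Nonempty S] in
lemma pisier_int_mul (ξ : S → S → ℝ) (s s' : S) :
    Integrable (fun z : S → ℝ => z s * z s') (gK ξ) := by
  refine ((integrable_eval_pow (C := ξ) s 2).add (integrable_eval_pow (C := ξ) s' 2)).mono'
    ((measurable_pi_apply s).mul (measurable_pi_apply s')).aestronglyMeasurable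
    (ae_of_all _ fun z => ?_)
  rw [Real.norm_eq_abs, abs_mul]
  simp only [Pi.add_apply]
  nlinarith [sq_nonneg (|z s| - |z s'|), abs_nonneg (z s), abs_nonneg (z s')]

lemma pisier_cube {ξ : S → S → ℝ} (hξ : PSD ξ) {V : ℝ} (hV : ∀ s, ξ s s ≤ V) :
    Integrable (fun z : S → ℝ => ‖z‖ ^ 3) (gK ξ) ∧
      ∫ z, ‖z‖ ^ 3 ∂gK ξ ≤ 12 * Fintype.card S * Real.exp (V / 2) := by
  have hb : ∀ z : S → ℝ, ‖z‖ ^ 3 ≤ 6 * Real.exp (1 * ‖z‖) := fun z => by
    have := Real.pow_div_factorial_le_exp ‖z‖ (norm_nonneg z) 3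
    rw [one_mul]
    simp only [Nat.factorial, Nat.succ_eq_add_one] at this
    push_cast at this
    linarith
  have hi := (integrable_exp_norm ξ 1).const_mul 6
  have hi' : Integrable (fun z : S → ℝ => ‖z‖ ^ 3) (gK ξ) :=
    hi.mono' (measurable_norm.pow_const 3).aestronglyMeasurable (ae_of_all _ fun z => by
      rw [Real.norm_eq_abs, abs_of_nonneg (by positivity)]; exact hb z)
  refine ⟨hi', (integral_mono hi' hi hb).trans ?_⟩
  rw [integral_const_mul]
  have := integral_exp_norm_le hξ (c := 1) zero_le_one hV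
  simp only [one_pow, one_mul] at this ⊢
  linarith

omit [Nonempty S] in
lemma pisier_m1 (H : S → ℝ) (ξ : S → S → ℝ) :
    Integrable (fun z => av1 H z) (gK ξ) ∧ ∫ z, av1 H z ∂gK ξ = 0 := by
  unfold av1
  have hi : ∀ s, Integrable (fun z : S → ℝ => gw H s * z s) (gK ξ) := fun s =>
    (integrable_eval s).const_mul _
  refine ⟨integrable_finsetSum _ fun s _ => hi s, ?_⟩
  rw [integral_finsetSum _ fun s _ => hi s]
  simp [integral_const_mul, integral_eval]

omit [Nonempty S] in
lemma pisier_m2 (H : S → ℝ) {ξ : S → S → ℝ} (hξ : PSD ξ) :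
    Integrable (fun z : S → ℝ => av1 H fun s => z s ^ 2) (gK ξ) ∧
      ∫ z, av1 H (fun s => z s ^ 2) ∂gK ξ = av1 H fun s => ξ s s := by
  unfold av1
  simp only [sq]
  have hi : ∀ s, Integrable (fun z : S → ℝ => gw H s * (z s * z s)) (gK ξ) := fun s =>
    (pisier_int_mul ξ s s).const_mul _
  refine ⟨integrable_finsetSum _ fun s _ => hi s, ?_⟩
  rw [integral_finsetSum _ fun s _ => hi s]
  simp [integral_const_mul, integral_eval_mul hξ]

omit [Nonempty S] in
lemma pisier_m3 (H : S → ℝ) {ξ : S → S → ℝ} (hξ : PSD ξ) :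
    Integrable (fun z : S → ℝ => av1 H z ^ 2) (gK ξ) ∧
      ∫ z, av1 H z ^ 2 ∂gK ξ = av 2 H fun σ => ξ (σ 0) (σ 1) := by
  have e : (fun z : S → ℝ => av1 H z ^ 2) =
      fun z => ∑ σ : Fin 2 → S, (∏ l, gw H (σ l)) * (z (σ 0) * z (σ 1)) := by
    funext z
    rw [sq, ← av_two_mul]
    rfl
  have hi : ∀ σ : Fin 2 → S, Integrable
      (fun z : S → ℝ => (∏ l, gw H (σ l)) * (z (σ 0) * z (σ 1))) (gK ξ) := fun σ =>
    (pisier_int_mul ξ _ _).const_mul _
  rw [e]
  refine ⟨integrable_finsetSum _ fun σ _ => hi σ, ?_⟩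
  rw [integral_finsetSum _ fun σ _ => hi σ]
  unfold av
  simp only [integral_const_mul, integral_eval_mul hξ]

lemma pisier_one (H : S → ℝ) {ξ : S → S → ℝ} (hξ : PSD ξ) {V c : ℝ}
    (hV : ∀ s, ξ s s ≤ V) (hc : 0 ≤ c) :
    |Phi H (fun s s' => c * ξ s s') - lz H -
      c / 2 * (av1 H (fun s => ξ s s) - av 2 H fun σ => ξ (σ 0) (σ 1))| ≤
      24 * Fintype.card S * Real.exp (V / 2) * (c * √c) := by
  obtain ⟨t, ht⟩ : ∃ t : ℝ, t = √c := ⟨_, rfl⟩
  have ht0 : 0 ≤ t := ht ▸ Real.sqrt_nonneg c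
  have htc : t ^ 2 = c := ht ▸ Real.sq_sqrt hc
  have hm := pisier_meas H
  have hsm : Measurable fun (y : S → ℝ) s => t * y s :=
    measurable_pi_lambda _ fun s => by fun_prop
  have hg := gK_smul hξ t
  rw [htc] at hg
  have i0 : Integrable (fun z : S → ℝ => lz (H + fun s => t * z s)) (gK ξ) := by
    have := integrable_lz_gK H fun s s' => c * ξ s s'
    rw [← hg] at this
    exact this.comp_measurable hsm
  have e0 : Phi H (fun s s' => c * ξ s s') = ∫ z, lz (H + fun s => t * z s) ∂gK ξ := by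
    unfold Phi
    rw [← hg, integral_map hsm.aemeasurable hm.aestronglyMeasurable]
  obtain ⟨i1, e1⟩ := pisier_m1 H ξ
  obtain ⟨i2, e2⟩ := pisier_m2 H hξ
  obtain ⟨i3, e3⟩ := pisier_m3 H hξ
  obtain ⟨i4, e4⟩ := pisier_cube hξ hV
  have i5 : Integrable (fun z : S → ℝ => lz (H + fun s => t * z s) - lz H) (gK ξ) :=
    i0.sub (integrable_const _)
  have i6 : Integrable (fun z : S → ℝ => lz (H + fun s => t * z s) - lz H - t * av1 H z) (gK ξ) :=
    i5.sub (i1.const_mul t)
  have i7 : Integrable (fun z : S → ℝ => av1 H (fun s => z s ^ 2) - av1 H z ^ 2) (gK ξ) :=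
    i2.sub i3
  have e5 : Phi H (fun s s' => c * ξ s s') - lz H -
      c / 2 * (av1 H (fun s => ξ s s) - av 2 H fun σ => ξ (σ 0) (σ 1)) =
      ∫ z, (lz (H + fun s => t * z s) - lz H - t * av1 H z -
        t ^ 2 / 2 * (av1 H (fun s => z s ^ 2) - av1 H z ^ 2)) ∂gK ξ := by
    rw [integral_sub i6 (i7.const_mul _), integral_sub i5 (i1.const_mul t),
      integral_sub i0 (integrable_const _), integral_const_mul, integral_const_mul,
      integral_sub i2 i3, e1, e2, e3, e0, htc]
    simp
  rw [e5]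
  refine abs_integral_le_integral_abs.trans ((integral_mono (i6.sub (i7.const_mul _)).abs
    (i4.const_mul (2 * t ^ 3)) fun z => ?_).trans ?_)
  · have h1 := taylor2 H z (B := ‖z‖) (fun s => norm_le_pi_norm z s) t
    rw [abs_of_nonneg ht0] at h1
    simp only [Pi.sub_apply, lz_add, add_sub_cancel_left]
    exact h1
  · rw [integral_const_mul, ← ht, ← htc]
    have := mul_le_mul_of_nonneg_left e4 (show 0 ≤ 2 * t ^ 3 by positivity)
    linarith

lemma pisier_add (H : S → ℝ) {C C' : S → S → ℝ} (hC : PSD C) (hC' : PSD C') :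
    Integrable (fun y => Phi (H + y) C') (gK C) ∧
      Phi H (fun s s' => C s s' + C' s s') = ∫ y, Phi (H + y) C' ∂gK C := by
  have hm := pisier_meas H
  have ha : Measurable fun p : (S → ℝ) × (S → ℝ) => p.1 + p.2 := measurable_fst.add measurable_snd
  have hi := integrable_lz_gK H fun s s' => C s s' + C' s s'
  rw [← gK_add hC hC'] at hi
  have hi' : Integrable (fun p : (S → ℝ) × (S → ℝ) => lz (H + (p.1 + p.2))) ((gK C).prod (gK C')) :=
    hi.comp_measurable ha
  unfold Phi
  simp only [add_assoc]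
  refine ⟨hi'.integral_prod_left, ?_⟩
  rw [← gK_add hC hC', integral_map ha.aemeasurable hm.aestronglyMeasurable, integral_prod _ hi']

lemma dcov (H : S → ℝ) {C ξ : S → S → ℝ} (hC : PSD C) (hξ : PSD ξ) {V c : ℝ}
    (hV : ∀ s, ξ s s ≤ V) (hc : 0 ≤ c) :
    |Phi H (fun s s' => C s s' + c * ξ s s') - Phi H C -
      c / 2 * (Avg1 H C (fun s => ξ s s) - Avg 2 H C fun σ => ξ (σ 0) (σ 1))| ≤
      24 * Fintype.card S * Real.exp (V / 2) * (c * √c) := by
  obtain ⟨i0, e0⟩ := pisier_add H hC (hξ.smul hc)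
  have i1 := integrable_lz_gK H C
  have i2 := integrable_av1_gK H C fun s => ξ s s
  have i3 := integrable_av_gK 2 H C fun σ => ξ (σ 0) (σ 1)
  have i4 : Integrable (fun y => Phi (H + y) (fun s s' => c * ξ s s') - lz (H + y)) (gK C) :=
    i0.sub i1
  have i5 : Integrable (fun y => av1 (H + y) (fun s => ξ s s) -
      av 2 (H + y) fun σ => ξ (σ 0) (σ 1)) (gK C) := i2.sub i3
  have e1 : Phi H (fun s s' => C s s' + c * ξ s s') - Phi H C -
      c / 2 * (Avg1 H C (fun s => ξ s s) - Avg 2 H C fun σ => ξ (σ 0) (σ 1)) =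
      ∫ y, (Phi (H + y) (fun s s' => c * ξ s s') - lz (H + y) - c / 2 *
        (av1 (H + y) (fun s => ξ s s) - av 2 (H + y) fun σ => ξ (σ 0) (σ 1))) ∂gK C := by
    rw [integral_sub i4 (i5.const_mul _), integral_sub i0 i1, integral_const_mul,
      integral_sub i2 i3, e0]
    rfl
  rw [e1]
  have h1 := norm_integral_le_of_norm_le_const (μ := gK C) (ae_of_all _ fun y =>
    (Real.norm_eq_abs _).trans_le (pisier_one (H + y) hξ hV hc))
  simpa using h1

end

end Vale.Agent.P166
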