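import Vale.Agent.P166.Defs1
import Vale.Agent.P166.Cmp
import Vale.Agent.P166.TreeLaw
import Vale.Agent.P166.Pisier

/-! P166 RMB: basic properties of the model (positivity, measurability, monotone comparison, concentration, derivative in the field).
Plan. psd_Cm: sum over l of (Cl composed with fst) * (psd_lev composed with snd). sum (1/4)^p * 4 <= 16/3 <= 6. Measurability: measurable_integral_gK and StronglyMeasurable.integral_prod_right.
Integrability: abs_Phi_le and integrable_lw. sys_E / sys_F: integral_prod twice and integral_gK. Fm_le: Phi_mono, Phi_le_add, Phi_sub_diag_le pointwise in u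
(the difference of the kernels is PSD, x'^2 - x^2 <= 4 (x' - x), lev alpha alpha = r). dev_le: triangle inequality through Phi (pisier), then through Fm: for fixed field y,
lz over Sg x Leaf is lz over leaves of lw u + X with X alpha = lz over sigma (lz_prod), tree_dev and tree_mean, Fubini. F_da: dcov with xi = Q * 1[j <= lev], integrate. -/

open MeasureTheory ProbabilityTheory Filter Topology Matrix Finset

namespace Vale.Agent.P166

noncomputable section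

section rmbAux

variable {S Ω : Type} [Fintype S] [MeasurableSpace Ω]

lemma rmb_abs_integral_le {μ : Measure Ω} [IsProbabilityMeasure μ] {f : Ω → ℝ} {B : ℝ}
    (h : ∀ x, |f x| ≤ B) : |∫ x, f x ∂μ| ≤ B := by
  simpa using norm_integral_le_of_norm_le_const (μ := μ) (f := f) (C := B)
    (Eventually.of_forall h)

lemma rmb_integral_le {μ : Measure Ω} [IsProbabilityMeasure μ] {f : Ω → ℝ} {B : ℝ}
    (h0 : ∀ x, 0 ≤ f x) (h : ∀ x, f x ≤ B) : ∫ x, f x ∂μ ≤ B :=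
  (le_abs_self _).trans (rmb_abs_integral_le fun x => by rw [abs_of_nonneg (h0 x)]; exact h x)

lemma rmb_integrable {μ : Measure Ω} [IsProbabilityMeasure μ] {f : Ω → ℝ} {B : ℝ}
    (hf : Measurable f) (h : ∀ x, |f x| ≤ B) : Integrable f μ :=
  Integrable.of_bound hf.aestronglyMeasurable B (Eventually.of_forall h)

lemma rmb_comb {μ : Measure Ω} [IsProbabilityMeasure μ] {f1 f2 f3 : Ω → ℝ} {c B K : ℝ}
    (h1 : Integrable f1 μ) (h2 : Integrable f2 μ) (h3 : Integrable f3 μ)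
    (h : ∀ x, |f1 x - f2 x - c * (B - f3 x)| ≤ K) :
    |∫ x, f1 x ∂μ - ∫ x, f2 x ∂μ - c * (B - ∫ x, f3 x ∂μ)| ≤ K := by
  have h4 := rmb_abs_integral_le (μ := μ) h
  have h5 : Integrable (fun x => f1 x - f2 x) μ := h1.sub h2
  have h6 : Integrable (fun x => c * (B - f3 x)) μ := ((integrable_const B).sub h3).const_mul c
  rw [integral_sub h5 h6, integral_sub h1 h2,
    integral_const_mul, integral_sub (integrable_const B) h3] at h4
  simpa using h4

lemma rmb_dev {Ω' : Type} [MeasurableSpace Ω'] {μ : Measure Ω} {ν : Measure Ω'}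
    [IsProbabilityMeasure μ] [IsProbabilityMeasure ν] {f : Ω × Ω' → ℝ}
    (hf : Integrable f (μ.prod ν)) {c : ℝ}
    (h : ∀ y, ∫ u, |f (u, y) - ∫ u', f (u', y) ∂μ| ∂μ ≤ c) :
    ∫ u, |∫ y, f (u, y) ∂ν - ∫ u', ∫ y, f (u', y) ∂ν ∂μ| ∂μ ≤ c := by
  have hM := hf.integral_prod_right
  have hg : Integrable (fun z : Ω × Ω' => |f z - ∫ u', f (u', z.2) ∂μ|) (μ.prod ν) :=
    (hf.sub (hM.comp_snd μ)).abs
  have e : ∫ u', ∫ y, f (u', y) ∂ν ∂μ = ∫ y, ∫ u', f (u', y) ∂μ ∂ν :=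
    (integral_prod f hf).symm.trans (integral_prod_symm f hf)
  calc ∫ u, |∫ y, f (u, y) ∂ν - ∫ u', ∫ y, f (u', y) ∂ν ∂μ| ∂μ
      ≤ ∫ u, ∫ y, |f (u, y) - ∫ u', f (u', y) ∂μ| ∂ν ∂μ := by
        refine integral_mono_of_nonneg (Eventually.of_forall fun u => abs_nonneg _)
          hg.integral_prod_left ?_
        filter_upwards [hf.prod_right_ae] with u hu
        rw [e, ← integral_sub hu hM]
        exact abs_integral_le_integral_abs
    _ = ∫ y, ∫ u, |f (u, y) - ∫ u', f (u', y) ∂μ| ∂μ ∂ν :=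
        (integral_prod _ hg).symm.trans (integral_prod_symm _ hg)
    _ ≤ c := rmb_integral_le (fun y => integral_nonneg fun u => abs_nonneg _) h

lemma rmb_three {Ω' Ω'' : Type} [MeasurableSpace Ω'] [MeasurableSpace Ω''] {μ : Measure Ω}
    {ν : Measure Ω'} {ξ : Measure Ω''} [IsProbabilityMeasure μ] [IsProbabilityMeasure ν]
    [IsProbabilityMeasure ξ] {f : (Ω × Ω') × Ω'' → ℝ} {g : Ω × Ω' → ℝ} {k : Ω → ℝ}
    (hf : Integrable f ((μ.prod ν).prod ξ)) (hg : Integrable g (μ.prod ν)) (hk : Integrable k μ)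
    (F : ℝ) {c c' : ℝ} (h1 : ∀ w, ∫ y, |f (w, y) - g w| ∂ξ ≤ c)
    (h2 : ∀ ω, ∫ u, |g (ω, u) - k ω| ∂ν ≤ c') :
    ∫ z, |f z - F| ∂(μ.prod ν).prod ξ ≤ c + c' + ∫ ω, |k ω - F| ∂μ := by
  have j1 : Integrable (fun z => |f z - g z.1|) ((μ.prod ν).prod ξ) :=
    (hf.sub (hg.comp_fst _)).abs
  have j2 : Integrable (fun w => |g w - k w.1|) (μ.prod ν) := (hg.sub (hk.comp_fst _)).abs
  have j3 : Integrable (fun ω => |k ω - F|) μ := (hk.sub (integrable_const F)).abs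
  have j0 : Integrable (fun z => |f z - F|) ((μ.prod ν).prod ξ) :=
    (hf.sub (integrable_const F)).abs
  have k1 : ∫ z, |f z - g z.1| ∂(μ.prod ν).prod ξ ≤ c :=
    (integral_prod _ j1).le.trans
      (rmb_integral_le (fun w => integral_nonneg fun y => abs_nonneg _) h1)
  have k2 : ∫ w, |g w - k w.1| ∂μ.prod ν ≤ c' :=
    (integral_prod _ j2).le.trans
      (rmb_integral_le (fun w => integral_nonneg fun y => abs_nonneg _) h2)
  have j2' := j2.comp_fst ξ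
  have j3' := (j3.comp_fst ν).comp_fst ξ
  have j4 : Integrable (fun z => |f z - g z.1| + |g z.1 - k z.1.1|) ((μ.prod ν).prod ξ) :=
    j1.add j2'
  have j5 : Integrable (fun z => |f z - g z.1| + |g z.1 - k z.1.1| + |k z.1.1 - F|)
      ((μ.prod ν).prod ξ) := j4.add j3'
  have k4 := integral_mono j0 j5
    fun z => (abs_sub_le _ _ _).trans (add_le_add (abs_sub_le _ _ _) le_rfl)
  rw [integral_add j4 j3', integral_add j1 j2', integral_fun_fst fun w => |g w - k w.1|,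
    integral_fun_fst fun w : Ω × Ω' => |k w.1 - F|, integral_fun_fst fun ω => |k ω - F|] at k4
  simp only [probReal_univ, one_smul] at k4
  linarith

lemma rmb_measurable_Phi {H : Ω → S → ℝ} {C : Ω → S → S → ℝ}
    (hH : ∀ s, Measurable fun ω => H ω s) (hC : ∀ s s', Measurable fun ω => C ω s s') :
    Measurable fun ω => Phi (H ω) (C ω) :=
  measurable_integral_gK hC (f := fun ω y => lz (H ω + y)) (measurable_lz fun s =>
    ((hH s).comp measurable_fst).add ((measurable_pi_apply s).comp measurable_snd))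

lemma rmb_measurable_Avg (n : ℕ) {H : Ω → S → ℝ} {C : Ω → S → S → ℝ}
    {F : Ω → (Fin n → S) → ℝ} (hH : ∀ s, Measurable fun ω => H ω s)
    (hC : ∀ s s', Measurable fun ω => C ω s s') (hF : ∀ σ, Measurable fun ω => F ω σ) :
    Measurable fun ω => Avg n (H ω) (C ω) (F ω) :=
  measurable_integral_gK hC (f := fun ω y => av n (H ω + y) (F ω)) (measurable_av n (fun s =>
    ((hH s).comp measurable_fst).add ((measurable_pi_apply s).comp measurable_snd))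
    fun σ => (hF σ).comp measurable_fst)

lemma rmb_sandwich [Nonempty S] {H H' : S → ℝ} {C C' : S → S → ℝ} (hC : PSD C)
    (hE : PSD fun s s' => C' s s' - C s s') {K : ℝ} (h1 : ∀ s, H s ≤ H' s)
    (h2 : ∀ s, H' s + (C' s s - C s s) / 2 ≤ H s + K) :
    Phi H C ≤ Phi H' C' ∧ Phi H' C' ≤ Phi H C + K := by
  refine ⟨(Phi_le_add H hC hE).trans (Phi_mono h1 C'), ?_⟩
  have h3 := Phi_mono (H := H') (H' := fun s => H s - (C' s s - C s s) / 2 + K)
    (fun s => by linarith [h2 s]) C'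
  rw [Phi_add_const] at h3
  linarith [Phi_sub_diag_le H hC hE]

lemma rmb_sum_quarter (M : ℕ) : ∑ p ∈ range M, (1 / 4 : ℝ) ^ p ≤ 4 / 3 := by
  have h : ∑ p ∈ range M, (1 / 4 : ℝ) ^ p = 4 / 3 - 4 / 3 * (1 / 4) ^ M := by
    induction M with
    | zero => simp
    | succ M ih =>
      rw [sum_range_succ, ih]
      ring
  have : (0 : ℝ) ≤ (1 / 4) ^ M := by positivity
  linarith

lemma rmb_pow_le {t : ℝ} (h : |t| ≤ 1) (p : ℕ) : t ^ p ≤ 1 :=
  (le_abs_self _).trans (by rw [abs_pow]; exact pow_le_one₀ (abs_nonneg _) h)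

end rmbAux

variable {Sg : Type} [Fintype Sg] {r : ℕ} {b : ℕ → ℕ} {m : ℕ → ℝ} {P : Pr}

lemma rmb_psd_lev {D : ℕ → Sg → Sg → ℝ} (h : ∀ l ∈ range (r + 1), PSD (D l)) :
    PSD fun c c' : Cfg r b Sg => ∑ l ∈ range (r + 1),
      if l ≤ lev 1 r c.2 c'.2 then D l c.1 c'.1 else 0 := by
  refine psd_sum (C := fun l (c c' : Cfg r b Sg) =>
    if l ≤ lev 1 r c.2 c'.2 then D l c.1 c'.1 else 0) _ fun l hl => ?_
  have h1 := ((psd_lev (b := b) 1 r l).comp (Prod.snd : Cfg r b Sg → _)).mul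
    ((h l hl).comp (Prod.fst : Cfg r b Sg → _))
  simpa only [ite_mul, one_mul, zero_mul] using h1

lemma rmb_pert_le (hP : P.Ok) {t : ℝ} (ht : |t| ≤ 1) (l : ℕ) :
    P.s ^ 2 * ∑ p ∈ range P.M, (1 / 4 : ℝ) ^ p * P.x (p, l) ^ 2 * t ^ p ≤ 6 * P.s ^ 2 := by
  rw [mul_comm 6]
  refine mul_le_mul_of_nonneg_left ?_ (sq_nonneg _)
  have h1 : ∑ p ∈ range P.M, (1 / 4 : ℝ) ^ p * P.x (p, l) ^ 2 * t ^ p ≤
      ∑ p ∈ range P.M, (1 / 4 : ℝ) ^ p * 4 := sum_le_sum fun p _ => by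
    obtain ⟨h2, h3⟩ := hP.box.2 (p, l)
    refine (mul_le_of_le_one_right (by positivity) (rmb_pow_le ht p)).trans ?_
    exact mul_le_mul_of_nonneg_left (by nlinarith) (by positivity)
  rw [← sum_mul] at h1
  linarith [rmb_sum_quarter P.M]

lemma rmb_measurable_Hm (h : Sg → ℝ) (T : Sg → Sg → ℝ) (c : Cfg r b Sg) :
    Measurable fun u => Hm r b m P h T u c :=
  measurable_const.add (continuous_lw m 1 r c.2).measurable

lemma rmb_integrable_Hm (hm : MOk r m) (h : Sg → ℝ) (T : Sg → Sg → ℝ) (c : Cfg r b Sg) :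
    Integrable (fun u => Hm r b m P h T u c) (Pu b m 1 r) :=
  (integrable_const _).add (integrable_lw hm c.2)

lemma psd_Cl (ha : ∀ l, 0 ≤ P.a l) {T Q : Sg → Sg → ℝ} (hT : PSD T) (hQ : PSD Q) (l : ℕ) :
    PSD (Cl P T Q l) :=
  (hQ.smul (ha l)).add ((psd_sum (C := fun p σ σ' => (1 / 4 : ℝ) ^ p * P.x (p, l) ^ 2 * T σ σ' ^ p)
    _ fun p _ => (hT.pow p).smul (by positivity)).smul (sq_nonneg _))
lemma psd_Cm (ha : ∀ l, 0 ≤ P.a l) {T Q : Sg → Sg → ℝ} (hT : PSD T) (hQ : PSD Q) :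
    PSD (Cm r b P T Q) :=
  rmb_psd_lev fun l _ => psd_Cl ha hT hQ l
lemma Cl_diag_le (hP : P.Ok) {T Q : Sg → Sg → ℝ} (hT : ∀ σ σ', |T σ σ'| ≤ 1) {BQ : ℝ}
    (hQ : ∀ σ, Q σ σ ≤ BQ) (l : ℕ) (σ : Sg) : Cl P T Q l σ σ ≤ P.a l * BQ + 6 * P.s ^ 2 :=
  add_le_add (mul_le_mul_of_nonneg_left (hQ σ) (hP.a_nonneg l)) (rmb_pert_le hP (hT σ σ) l)
lemma Cm_diag (T Q : Sg → Sg → ℝ) (c : Cfg r b Sg) :
    Cm r b P T Q c c = ∑ l ∈ range (r + 1), Cl P T Q l c.1 c.1 :=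
  sum_congr rfl fun l hl => by rw [lev_self, if_pos (Nat.lt_succ_iff.1 (mem_range.1 hl))]
lemma Pr0_ok {a : ℕ → ℝ} (ha : ∀ l, 0 ≤ a l) : (Pr0 a).Ok :=
  ⟨ha, ⟨le_rfl, one_le_two⟩, fun _ => ⟨le_rfl, one_le_two⟩⟩
lemma Rm_fst {T : Sg → Sg → ℝ} (hT : ∀ σ σ', |T σ σ'| ≤ 1) (c c' : Cfg r b Sg) :
    ((Rm r b T c c').1 : ℝ) = T c.1 c'.1 := by
  unfold Rm
  rw [Set.projIcc_of_mem _ (abs_le.1 (hT c.1 c'.1))]
lemma Rm_snd (T : Sg → Sg → ℝ) (c c' : Cfg r b Sg) :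
    ((Rm r b T c c').2 : ℕ) = lev 1 r c.2 c'.2 :=
  min_eq_left (lev_le 1 r c.2 c'.2)

lemma integrable_Phi_Hm [Nonempty Sg] (hm : MOk r m) (ha : ∀ l, 0 ≤ P.a l) (h : Sg → ℝ)
    {T Q : Sg → Sg → ℝ} (hT : PSD T) (hQ : PSD Q) :
    Integrable (fun u => Phi (Hm r b m P h T u) (Cm r b P T Q)) (Pu b m 1 r) := by
  have hg : Integrable (fun u => Real.log (Fintype.card (Cfg r b Sg)) +
      ∑ c, |Hm r b m P h T u c| + ∑ c, (1 + Cm r b P T Q c c)) (Pu b m 1 r) :=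
    ((integrable_const _).add (integrable_finsetSum _ fun c _ =>
      (rmb_integrable_Hm hm h T c).abs)).add (integrable_const _)
  have hf : Measurable fun u => Phi (Hm r b m P h T u) (Cm r b P T Q) :=
    rmb_measurable_Phi (rmb_measurable_Hm h T) fun _ _ => measurable_const
  exact hg.mono' hf.aestronglyMeasurable
    (Eventually.of_forall fun u => abs_Phi_le _ (psd_Cm ha hT hQ))

lemma rmb_Fm_sandwich [Nonempty Sg] (hm : MOk r m) {P P' : Pr} (ha : ∀ l, 0 ≤ P.a l)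
    (ha' : ∀ l, 0 ≤ P'.a l) {h h' : Sg → ℝ} {T Q : Sg → Sg → ℝ} (hT : PSD T) (hQ : PSD Q)
    (hE : ∀ l ∈ range (r + 1), PSD fun σ σ' => Cl P' T Q l σ σ' - Cl P T Q l σ σ') {K : ℝ}
    (h1 : ∀ σ, h σ + P.s ^ 2 * P.x0 * T σ σ ≤ h' σ + P'.s ^ 2 * P'.x0 * T σ σ)
    (h2 : ∀ σ, h' σ + P'.s ^ 2 * P'.x0 * T σ σ +
      (∑ l ∈ range (r + 1), (Cl P' T Q l σ σ - Cl P T Q l σ σ)) / 2 ≤
        h σ + P.s ^ 2 * P.x0 * T σ σ + K) :
    Fm r b m P h T Q ≤ Fm r b m P' h' T Q ∧ Fm r b m P' h' T Q ≤ Fm r b m P h T Q + K := by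
  have hE' : PSD fun c c' : Cfg r b Sg => Cm r b P' T Q c c' - Cm r b P T Q c c' := by
    have h3 := rmb_psd_lev (b := b) hE
    have e : (fun c c' : Cfg r b Sg => Cm r b P' T Q c c' - Cm r b P T Q c c') =
        fun c c' : Cfg r b Sg => ∑ l ∈ range (r + 1), if l ≤ lev 1 r c.2 c'.2 then
          Cl P' T Q l c.1 c'.1 - Cl P T Q l c.1 c'.1 else 0 := by
      funext c c'
      unfold Cm
      rw [← sum_sub_distrib]
      exact sum_congr rfl fun l _ => by split_ifs <;> simp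
    rw [e]
    exact h3
  have key := fun u => rmb_sandwich (H := Hm r b m P h T u) (H' := Hm r b m P' h' T u)
    (psd_Cm ha hT hQ) hE' (K := K) (fun c => by unfold Hm; linarith [h1 c.1]) fun c => by
      rw [Cm_diag, Cm_diag, ← sum_sub_distrib]
      unfold Hm
      linarith [h2 c.1]
  have i1 := integrable_Phi_Hm (b := b) hm ha h hT hQ
  have i2 := integrable_Phi_Hm (b := b) hm ha' h' hT hQ
  refine ⟨integral_mono i1 i2 fun u => (key u).1, ?_⟩
  have h3 := integral_mono i2 (i1.add (integrable_const K)) fun u => (key u).2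
  simp only [Pi.add_apply] at h3
  rw [integral_add i1 (integrable_const K)] at h3
  simpa [Fm] using h3

/-- monotone comparison in all the parameters -/
lemma Fm_le [Nonempty Sg] (hm : MOk r m) {P P' : Pr} (hP : P.Ok) (hP' : P'.Ok) (hs : P'.s = P.s)
    (hM : P'.M = P.M) (ha : ∀ l ≤ r, P.a l ≤ P'.a l) (h0 : P.x0 ≤ P'.x0)
    (hx : ∀ p < P.M, ∀ j ≤ r, P.x (p, j) ≤ P'.x (p, j)) {h h' : Sg → ℝ} {T Q : Sg → Sg → ℝ}
    (hT : PSD T) (hQ : PSD Q) (bT : ∀ σ σ', |T σ σ'| ≤ 1) {BQ B : ℝ} (bQ : ∀ σ, Q σ σ ≤ BQ)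
    (hh : ∀ σ, h σ ≤ h' σ ∧ h' σ ≤ h σ + B) :
    Fm r b m P h T Q ≤ Fm r b m P' h' T Q ∧
    Fm r b m P' h' T Q ≤ Fm r b m P h T Q + B + P.s ^ 2 * (P'.x0 - P.x0) +
      (∑ l ∈ range (r + 1), (P'.a l - P.a l)) * BQ / 2 +
      2 * P.s ^ 2 * ∑ p ∈ range P.M, ∑ j ∈ range (r + 1),
        (1 / 4 : ℝ) ^ p * (P'.x (p, j) - P.x (p, j)) := by
  have e : ∀ l σ σ', Cl P' T Q l σ σ' - Cl P T Q l σ σ' = (P'.a l - P.a l) * Q σ σ' +
      P.s ^ 2 * ∑ p ∈ range P.M,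
        (1 / 4 : ℝ) ^ p * (P'.x (p, l) ^ 2 - P.x (p, l) ^ 2) * T σ σ' ^ p := by
    intro l σ σ'
    unfold Cl
    rw [hs, hM]
    simp only [mul_sub, sub_mul, sum_sub_distrib]
    ring
  have hx2 : ∀ p ∈ range P.M, ∀ l ∈ range (r + 1), 0 ≤ P'.x (p, l) ^ 2 - P.x (p, l) ^ 2 ∧
      P'.x (p, l) ^ 2 - P.x (p, l) ^ 2 ≤ 4 * (P'.x (p, l) - P.x (p, l)) := by
    intro p hp l hl
    have h1 := hx p (mem_range.1 hp) l (Nat.lt_succ_iff.1 (mem_range.1 hl))
    obtain ⟨h2, h3⟩ := hP.box.2 (p, l)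
    obtain ⟨h4, h5⟩ := hP'.box.2 (p, l)
    constructor <;> nlinarith
  have hT0 := hT.diag_nonneg
  have key := rmb_Fm_sandwich (b := b) hm hP.a_nonneg hP'.a_nonneg (h := h) (h' := h') hT hQ
    (K := B + P.s ^ 2 * (P'.x0 - P.x0) + (∑ l ∈ range (r + 1), (P'.a l - P.a l)) * BQ / 2 +
      2 * P.s ^ 2 * ∑ p ∈ range P.M, ∑ j ∈ range (r + 1),
        (1 / 4 : ℝ) ^ p * (P'.x (p, j) - P.x (p, j))) (fun l hl => ?_) (fun σ => ?_) fun σ => ?_
  · exact ⟨key.1, by linarith [key.2]⟩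
  · simp only [e]
    exact (hQ.smul (sub_nonneg.2 (ha l (Nat.lt_succ_iff.1 (mem_range.1 hl))))).add
      ((psd_sum (C := fun p σ σ' =>
        (1 / 4 : ℝ) ^ p * (P'.x (p, l) ^ 2 - P.x (p, l) ^ 2) * T σ σ' ^ p) _ fun p hp =>
          (hT.pow p).smul (mul_nonneg (by positivity) (hx2 p hp l hl).1)).smul (sq_nonneg _))
  · rw [hs]
    exact add_le_add (hh σ).1 (mul_le_mul_of_nonneg_right
      (mul_le_mul_of_nonneg_left h0 (sq_nonneg _)) (hT0 σ))
  · have h1 : ∑ l ∈ range (r + 1), (Cl P' T Q l σ σ - Cl P T Q l σ σ) ≤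
        ∑ l ∈ range (r + 1), ((P'.a l - P.a l) * BQ + P.s ^ 2 * ∑ p ∈ range P.M,
          4 * ((1 / 4 : ℝ) ^ p * (P'.x (p, l) - P.x (p, l)))) := by
      refine sum_le_sum fun l hl => ?_
      rw [e]
      refine add_le_add (mul_le_mul_of_nonneg_left (bQ σ)
        (sub_nonneg.2 (ha l (Nat.lt_succ_iff.1 (mem_range.1 hl)))))
        (mul_le_mul_of_nonneg_left (sum_le_sum fun p hp => ?_) (sq_nonneg _))
      refine (mul_le_of_le_one_right (mul_nonneg (by positivity) (hx2 p hp l hl).1)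
        (rmb_pow_le (bT σ σ) p)).trans ?_
      rw [mul_left_comm]
      exact mul_le_mul_of_nonneg_left (hx2 p hp l hl).2 (by positivity)
    rw [sum_add_distrib, ← sum_mul, ← mul_sum, sum_comm] at h1
    simp only [← mul_sum _ _ (4 : ℝ)] at h1
    have h2 : P.s ^ 2 * (P'.x0 - P.x0) * T σ σ ≤ P.s ^ 2 * (P'.x0 - P.x0) :=
      mul_le_of_le_one_right (mul_nonneg (sq_nonneg _) (sub_nonneg.2 h0))
        ((le_abs_self _).trans (bT σ σ))
    rw [hs]
    linarith [(hh σ).2]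

/-- the perturbation changes the free energy by `O(s²)` -/
lemma Fm_pert [Nonempty Sg] (hm : MOk r m) (hP : P.Ok) (h : Sg → ℝ) {T T' Q : Sg → Sg → ℝ}
    (hT : PSD T) (hQ : PSD Q) (bT : ∀ σ σ', |T σ σ'| ≤ 1) :
    Fm r b m (Pr0 P.a) h T' Q ≤ Fm r b m P h T Q ∧
    Fm r b m P h T Q ≤ Fm r b m (Pr0 P.a) h T' Q + (3 * r + 5) * P.s ^ 2 := by
  have e0 : Fm r b m (Pr0 P.a) h T' Q = Fm r b m (Pr0 P.a) h T Q := by
    unfold Fm Hm Cm Cl Pr0
    simp
  have e : ∀ l σ σ', Cl P T Q l σ σ' - Cl (Pr0 P.a) T Q l σ σ' =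
      P.s ^ 2 * ∑ p ∈ range P.M, (1 / 4 : ℝ) ^ p * P.x (p, l) ^ 2 * T σ σ' ^ p := by
    intro l σ σ'
    simp [Cl, Pr0]
  obtain ⟨h1, h2⟩ := hP.box.1
  have hT0 := hT.diag_nonneg
  rw [e0]
  refine rmb_Fm_sandwich hm (P := Pr0 P.a) hP.a_nonneg hP.a_nonneg hT hQ (fun l _ => ?_)
    (fun σ => ?_) fun σ => ?_
  · simp only [e]
    exact (psd_sum (C := fun p σ σ' => (1 / 4 : ℝ) ^ p * P.x (p, l) ^ 2 * T σ σ' ^ p)
      _ fun p _ => (hT.pow p).smul (by positivity)).smul (sq_nonneg _)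
  · have := hT0 σ
    have h3 : 0 ≤ P.s ^ 2 * P.x0 * T σ σ := by positivity
    simpa [Pr0] using h3
  · have h3 : ∑ l ∈ range (r + 1), (Cl P T Q l σ σ - Cl (Pr0 P.a) T Q l σ σ) ≤
        ∑ _l ∈ range (r + 1), 6 * P.s ^ 2 :=
      sum_le_sum fun l _ => by rw [e]; exact rmb_pert_le hP (bT σ σ) l
    rw [sum_const, card_range, nsmul_eq_mul] at h3
    push_cast at h3
    have h4 : P.s ^ 2 * P.x0 * T σ σ ≤ P.s ^ 2 * 2 :=
      (mul_le_of_le_one_right (by positivity) ((le_abs_self _).trans (bT σ σ))).trans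
        (mul_le_mul_of_nonneg_left h2 (sq_nonneg _))
    have h5 : (Pr0 P.a).s ^ 2 * (Pr0 P.a).x0 * T σ σ = 0 := by simp [Pr0]
    rw [h5]
    linarith

lemma Fm_zero [Nonempty Sg] (hm : MOk r m) (h : Sg → ℝ) (T Q : Sg → Sg → ℝ) :
    Fm r b m (Pr0 fun _ => 0) h T Q = lz h + Z0 r b m := by
  have e : Cm r b (Pr0 fun _ => 0) T Q = fun _ _ => 0 := by
    funext c c'
    simp [Cm, Cl, Pr0]
  have e1 : ∀ u, lz (Hm r b m (Pr0 fun _ => 0) h T u) = lz h + lz (lw m 1 r u) := by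
    intro u
    have e2 := lz_prod fun (σ : Sg) (α : Leaf b 1 r) => h σ + lw m 1 r u α
    simp only [lz_add_const, add_comm (lz h)] at e2
    rw [add_comm, ← e2]
    congr 1
    funext c
    simp [Hm, Pr0]
  unfold Fm Z0
  simp only [e, Phi_zero, e1]
  rw [integral_add (integrable_const _) (integrable_lz
    (fun α => (continuous_lw m 1 r α).measurable) (integrable_lw hm))]
  simp

lemma Z0_zero (b : ℕ → ℕ) (m : ℕ → ℝ) : Z0 0 b m = 0 := by
  have e : ∀ u : Nd b 1 0 → ℝ, lz (lw m 1 0 u) = 0 := fun u => by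
    change Real.log (∑ _s : Unit, Real.exp 0) = 0
    simp
  simp only [Z0, e, integral_zero]

lemma Fm_equiv {Sg' : Type} [Fintype Sg'] [Nonempty Sg] (e : Sg' ≃ Sg) (ha : ∀ l, 0 ≤ P.a l)
    (h : Sg → ℝ) {T Q : Sg → Sg → ℝ} (hT : PSD T) (hQ : PSD Q) :
    Fm r b m P (fun σ => h (e σ)) (fun σ σ' => T (e σ) (e σ')) (fun σ σ' => Q (e σ) (e σ')) =
      Fm r b m P h T Q :=
  integral_congr_ae (Eventually.of_forall fun u =>
    Phi_equiv (e.prodCongr (Equiv.refl (Leaf b 1 r))) (Hm r b m P h T u) (psd_Cm ha hT hQ))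

lemma Am_equiv {Sg' : Type} [Fintype Sg'] [Nonempty Sg] (e : Sg' ≃ Sg) (ha : ∀ l, 0 ≤ P.a l)
    (h : Sg → ℝ) {T Q : Sg → Sg → ℝ} (hT : PSD T) (hQ : PSD Q) (n : ℕ)
    (G : (Fin n → Cfg r b Sg) → ℝ) :
    Am r b m P (fun σ => h (e σ)) (fun σ σ' => T (e σ) (e σ')) (fun σ σ' => Q (e σ) (e σ')) n
      (fun c => G fun l => (e (c l).1, (c l).2)) = Am r b m P h T Q n G :=
  integral_congr_ae (Eventually.of_forall fun u =>
    Avg_equiv (e.prodCongr (Equiv.refl (Leaf b 1 r))) n (Hm r b m P h T u) (psd_Cm ha hT hQ) G)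

lemma rmb_Fm_dev [Nonempty Sg] (hm : MOk r m) (h : Sg → ℝ) (T Q : Sg → Sg → ℝ) :
    ∫ u, |Phi (Hm r b m P h T u) (Cm r b P T Q) - Fm r b m P h T Q| ∂Pu b m 1 r ≤
      cdev (m 1) := by
  refine rmb_dev (ν := gK (Cm r b P T Q)) (f := fun z => lz (Hm r b m P h T z.1 + z.2))
    (integrable_lz (fun c => ((rmb_measurable_Hm h T c).comp measurable_fst).add
      ((measurable_pi_apply c).comp measurable_snd)) fun c =>
        ((rmb_integrable_Hm hm h T c).comp_fst _).add ((integrable_eval c).comp_snd _))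
    fun y => le_of_eq ?_
  have e : ∀ u, lz (Hm r b m P h T u + y) = lz fun α => lw m 1 r u α +
      lz fun σ => h σ + P.s ^ 2 * P.x0 * T σ σ + y (σ, α) := by
    intro u
    have e1 := lz_prod fun (σ : Sg) (α : Leaf b 1 r) =>
      h σ + P.s ^ 2 * P.x0 * T σ σ + y (σ, α) + lw m 1 r u α
    simp only [lz_add_const] at e1
    simp only [add_comm (lw m 1 r u _)]
    rw [← e1]
    congr 1
    funext c
    simp only [Pi.add_apply, Hm]
    ring
  simp only [e, tree_mean hm]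
  exact tree_dev hm _

lemma rmb_Fm_da [Nonempty Sg] (hm : MOk r m) (ha : ∀ l, 0 ≤ P.a l) (h : Sg → ℝ)
    {T Q : Sg → Sg → ℝ} (hT : PSD T) (hQ : PSD Q) {BQ : ℝ} (hd : ∀ σ, Q σ σ = BQ) {j : ℕ}
    (hj : j ≤ r) {c : ℝ} (hc : 0 ≤ c) {B : ℝ} (hB : ∀ σ σ', |Q σ σ'| ≤ B)
    (ha' : ∀ l, 0 ≤ Function.update P.a j (P.a j + c) l) :
    |Fm r b m (P.wa (Function.update P.a j (P.a j + c))) h T Q - Fm r b m P h T Q -
      c / 2 * (BQ - Am r b m P h T Q 2 fun σ =>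
        (if j ≤ lev 1 r (σ 0).2 (σ 1).2 then 1 else 0) * Q (σ 0).1 (σ 1).1)| ≤
      24 * Fintype.card (Cfg r b Sg) * Real.exp (BQ / 2) * (c * √c) := by
  have hξ := ((psd_lev (b := b) 1 r j).comp (Prod.snd : Cfg r b Sg → _)).mul
    (hQ.comp (Prod.fst : Cfg r b Sg → _))
  have hd' : ∀ s : Cfg r b Sg, (if j ≤ lev 1 r s.2 s.2 then (1 : ℝ) else 0) * Q s.1 s.1 = BQ :=
    fun s => by rw [lev_self, if_pos hj, one_mul, hd]
  have e : Cm r b (P.wa (Function.update P.a j (P.a j + c))) T Q = fun s s' =>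
      Cm r b P T Q s s' + c * ((if j ≤ lev 1 r s.2 s'.2 then (1 : ℝ) else 0) * Q s.1 s'.1) := by
    funext s s'
    have e1 : c * ((if j ≤ lev 1 r s.2 s'.2 then (1 : ℝ) else 0) * Q s.1 s'.1) =
        ∑ l ∈ range (r + 1), if l = j then
          c * ((if j ≤ lev 1 r s.2 s'.2 then (1 : ℝ) else 0) * Q s.1 s'.1) else 0 := by
      rw [sum_ite_eq', if_pos (mem_range.2 (by omega))]
    rw [e1, Cm, Cm, ← sum_add_distrib]
    refine sum_congr rfl fun l _ => ?_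
    unfold Cl Pr.wa
    by_cases hl : l = j
    · subst hl
      simp only [Function.update_self, if_true]
      split_ifs <;> ring
    · simp only [Function.update_of_ne hl, if_neg hl, add_zero]
  have hG : ∀ σ : Fin 2 → Cfg r b Sg,
      |(if j ≤ lev 1 r (σ 0).2 (σ 1).2 then (1 : ℝ) else 0) * Q (σ 0).1 (σ 1).1| ≤ B := by
    intro σ
    have := hB (σ 0).1 (σ 1).1
    split_ifs
    · rwa [one_mul]
    · rw [zero_mul, abs_zero]
      exact (abs_nonneg _).trans this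
  refine rmb_comb (integrable_Phi_Hm hm (P := P.wa _) ha' h hT hQ) (integrable_Phi_Hm hm ha h hT hQ)
    (rmb_integrable (rmb_measurable_Avg 2 (rmb_measurable_Hm h T) (fun _ _ => measurable_const)
      fun _ => measurable_const) fun u => abs_Avg_le 2 _ _ hG) fun u => ?_
  have h1 := dcov (Hm r b m P h T u) (psd_Cm (r := r) (b := b) ha hT hQ) hξ
    (fun s => (hd' s).le) hc
  simp only [hd', Avg1, av1_const, integral_const, probReal_univ, one_smul] at h1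
  rw [e]
  exact h1

namespace RM

variable (X : RM)

lemma rmb_measurable_Phi : Measurable fun w : X.Ω × (Nd b 1 r → ℝ) =>
    Phi (Hm r b m P (X.h w.1) (X.T w.1) w.2) (Cm r b P (X.T w.1) (X.Q w.1)) :=
  P166.rmb_measurable_Phi (X.measurable_Hm r b m P) fun c c' =>
    (X.measurable_Cm r b P c c').comp measurable_fst

lemma rmb_diag (hP : P.Ok) (ω : X.Ω) (c : Cfg r b X.Sg) : Cm r b P (X.T ω) (X.Q ω) c c ≤
    ∑ l ∈ range (r + 1), (P.a l * X.BQ + 6 * P.s ^ 2) := by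
  rw [Cm_diag]
  exact sum_le_sum fun l _ => Cl_diag_le hP (X.bT ω) (X.bQ ω) l c.1

lemma rmb_abs_det (hP : P.Ok) (ω : X.Ω) (σ : X.Sg) :
    |X.h ω σ + P.s ^ 2 * P.x0 * X.T ω σ σ| ≤ X.Bh + P.s ^ 2 * 2 := by
  obtain ⟨h1, h2⟩ := hP.box.1
  refine (abs_add_le _ _).trans (add_le_add (X.bh ω σ) ?_)
  rw [abs_mul, abs_of_nonneg (by positivity : 0 ≤ P.s ^ 2 * P.x0)]
  exact (mul_le_of_le_one_right (by positivity) (X.bT ω σ σ)).trans
    (mul_le_mul_of_nonneg_left h2 (sq_nonneg _))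

lemma rmb_abs_Fm (hm : MOk r m) (hP : P.Ok) :
    ∃ B, ∀ ω, |Fm r b m P (X.h ω) (X.T ω) (X.Q ω)| ≤ B := by
  have hg : Integrable (fun u => Real.log (Fintype.card (Cfg r b X.Sg)) +
      ∑ c : Cfg r b X.Sg, (X.Bh + P.s ^ 2 * 2 + |lw m 1 r u c.2|) +
      ∑ _c : Cfg r b X.Sg, (1 + ∑ l ∈ range (r + 1), (P.a l * X.BQ + 6 * P.s ^ 2)))
      (Pu b m 1 r) :=
    ((integrable_const _).add (integrable_finsetSum _ fun c _ =>
      (integrable_const _).add (integrable_lw hm c.2).abs)).add (integrable_const _)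
  refine ⟨_, fun ω => (Real.norm_eq_abs _).symm.trans_le (norm_integral_le_of_norm_le
    (f := fun u => Phi (Hm r b m P (X.h ω) (X.T ω) u) (Cm r b P (X.T ω) (X.Q ω))) hg
    (Eventually.of_forall fun u => ?_))⟩
  refine (abs_Phi_le _ (psd_Cm hP.a_nonneg (X.pT ω) (X.pQ ω))).trans ?_
  refine add_le_add (add_le_add le_rfl (sum_le_sum fun c _ => ?_))
    (sum_le_sum fun c _ => add_le_add le_rfl (X.rmb_diag hP ω c))
  exact (abs_add_le _ _).trans (add_le_add (X.rmb_abs_det hP ω c.1) le_rfl)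

lemma measurable_Fm : Measurable fun ω => Fm r b m P (X.h ω) (X.T ω) (X.Q ω) :=
  X.rmb_measurable_Phi.stronglyMeasurable.integral_prod_right'.measurable
lemma integrable_Fm (hm : MOk r m) (hP : P.Ok) :
    Integrable (fun ω => Fm r b m P (X.h ω) (X.T ω) (X.Q ω)) X.P := by
  obtain ⟨B, hB⟩ := X.rmb_abs_Fm (b := b) hm hP
  exact rmb_integrable X.measurable_Fm hB
lemma memLp_Fm (hm : MOk r m) (hP : P.Ok) :
    MemLp (fun ω => Fm r b m P (X.h ω) (X.T ω) (X.Q ω)) 2 X.P := by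
  obtain ⟨B, hB⟩ := X.rmb_abs_Fm (b := b) hm hP
  exact MemLp.of_bound X.measurable_Fm.aestronglyMeasurable B (Eventually.of_forall hB)
lemma measurable_Am (n : ℕ) {G : X.Ω → (Fin n → Cfg r b X.Sg) → ℝ}
    (hG : ∀ σ, Measurable fun ω => G ω σ) :
    Measurable fun ω => Am r b m P (X.h ω) (X.T ω) (X.Q ω) n (G ω) :=
  (rmb_measurable_Avg n (F := fun w : X.Ω × (Nd b 1 r → ℝ) => G w.1) (X.measurable_Hm r b m P)
    (fun c c' => (X.measurable_Cm r b P c c').comp measurable_fst)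
    fun σ => (hG σ).comp measurable_fst).stronglyMeasurable.integral_prod_right'.measurable
lemma integrable_sysH (hm : MOk r m) (hP : P.Ok) (c : Cfg r b X.Sg) :
    Integrable (fun z => (X.sys r b m P).H z c) (X.sys r b m P).P := by
  have h1 : Integrable (fun w : X.Ω × (Nd b 1 r → ℝ) => Hm r b m P (X.h w.1) (X.T w.1) w.2 c)
      (X.P.prod (Pu b m 1 r)) :=
    ((rmb_integrable ((X.mh c.1).add ((X.mT c.1 c.1).const_mul _))
      fun ω => X.rmb_abs_det hP ω c.1).comp_fst _).add ((integrable_lw hm c.2).comp_snd _)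
  refine (h1.comp_fst _).add (integrable_finsetSum univ fun i _ => ?_)
  have h2 : Measurable fun ω => sqr (Cm r b P (X.T ω) (X.Q ω)) c i :=
    (measurable_pi_apply i).comp ((measurable_pi_apply c).comp (measurable_sqr.comp
      (measurable_pi_lambda _ fun c => measurable_pi_lambda _ fun c' =>
        X.measurable_Cm r b P c c')))
  refine Integrable.bdd_mul (c := 1 + ∑ l ∈ range (r + 1), (P.a l * X.BQ + 6 * P.s ^ 2))
    ((MeasureTheory.integrable_eval IsGaussian.integrable_id).comp_snd _)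
    (h2.comp (measurable_fst.comp measurable_fst)).aestronglyMeasurable
    (Eventually.of_forall fun z => ?_)
  have h3 := X.rmb_diag hP z.1.1 c
  rw [← gram_sqr (psd_Cm hP.a_nonneg (X.pT z.1.1) (X.pQ z.1.1))] at h3
  have h4 := single_le_sum (f := fun i => sqr (Cm r b P (X.T z.1.1) (X.Q z.1.1)) c i *
    sqr (Cm r b P (X.T z.1.1) (X.Q z.1.1)) c i) (fun i _ => mul_self_nonneg _) (mem_univ i)
  have h5 := h4.trans h3
  rw [Real.norm_eq_abs, abs_le]
  constructor <;> nlinarith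
lemma rmb_integrable_lz (hm : MOk r m) (hP : P.Ok) :
    Integrable (fun z => lz ((X.sys r b m P).H z)) (X.sys r b m P).P :=
  integrable_lz (X.sys r b m P).mH (X.integrable_sysH hm hP)

lemma rmb_inner {f : (Cfg r b X.Sg → ℝ) → ℝ} (hf : Measurable f) (w : X.Ω × (Nd b 1 r → ℝ)) :
    ∫ g, f ((X.sys r b m P).H (w, g)) ∂gam (Cfg r b X.Sg) =
      ∫ y, f (Hm r b m P (X.h w.1) (X.T w.1) w.2 + y) ∂gK (Cm r b P (X.T w.1) (X.Q w.1)) :=
  (integral_gK (Cm r b P (X.T w.1) (X.Q w.1))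
    (f := fun y => f (Hm r b m P (X.h w.1) (X.T w.1) w.2 + y))
    (hf.comp (measurable_const.add measurable_id))).symm

lemma rmb_integrable_Phi (hm : MOk r m) (hP : P.Ok) :
    Integrable (fun w : X.Ω × (Nd b 1 r → ℝ) =>
      Phi (Hm r b m P (X.h w.1) (X.T w.1) w.2) (Cm r b P (X.T w.1) (X.Q w.1)))
      (X.P.prod (Pu b m 1 r)) :=
  (X.rmb_integrable_lz hm hP).integral_prod_left.congr
    (Eventually.of_forall fun w => X.rmb_inner continuous_lz.measurable w)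

lemma rmb_integrable_av (n : ℕ) {G : X.Ω → (Fin n → Cfg r b X.Sg) → ℝ}
    (hG : ∀ σ, Measurable fun ω => G ω σ) {B : ℝ} (hB : ∀ ω σ, |G ω σ| ≤ B) :
    Integrable (fun z => av n ((X.sys r b m P).H z) (G z.1.1)) (X.sys r b m P).P :=
  rmb_integrable (measurable_av n (X.sys r b m P).mH fun σ =>
    (hG σ).comp (measurable_fst.comp measurable_fst)) fun z => abs_av_le_const n _ (hB z.1.1)

lemma sys_F (hm : MOk r m) (hP : P.Ok) :
    ∫ z, lz ((X.sys r b m P).H z) ∂(X.sys r b m P).P = X.F r b m P := by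
  refine (integral_prod _ (X.rmb_integrable_lz (b := b) hm hP)).trans ?_
  simp only [X.rmb_inner continuous_lz.measurable]
  exact integral_prod _ (X.rmb_integrable_Phi (b := b) hm hP)
lemma sys_E (n : ℕ) {G : X.Ω → (Fin n → Cfg r b X.Sg) → ℝ} (hG : ∀ σ, Measurable fun ω => G ω σ)
    {B : ℝ} (hB : ∀ ω σ, |G ω σ| ≤ B) :
    (X.sys r b m P).E n (fun z σ => G z.1.1 σ) = X.A r b m P n G := by
  have h1 := X.rmb_integrable_av (m := m) (P := P) n hG hB
  have e : ∀ w : X.Ω × (Nd b 1 r → ℝ),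
      ∫ g, av n ((X.sys r b m P).H (w, g)) (G w.1) ∂gam (Cfg r b X.Sg) =
        Avg n (Hm r b m P (X.h w.1) (X.T w.1) w.2) (Cm r b P (X.T w.1) (X.Q w.1)) (G w.1) :=
    fun w => X.rmb_inner (f := fun H => av n H (G w.1))
      (measurable_av n measurable_pi_apply fun _ => measurable_const) w
  refine (integral_prod _ h1).trans ?_
  simp only [e]
  exact integral_prod _ (h1.integral_prod_left.congr (Eventually.of_forall e))
lemma abs_A_le (n : ℕ) {G : X.Ω → (Fin n → Cfg r b X.Sg) → ℝ} {B : ℝ} (hB : ∀ ω σ, |G ω σ| ≤ B) :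
    |X.A r b m P n G| ≤ B :=
  rmb_abs_integral_le fun ω => rmb_abs_integral_le fun _ => abs_Avg_le n _ _ (hB ω)
lemma A_add (n : ℕ) {G G' : X.Ω → (Fin n → Cfg r b X.Sg) → ℝ}
    (hG : ∀ σ, Measurable fun ω => G ω σ) (hG' : ∀ σ, Measurable fun ω => G' ω σ) {B B' : ℝ}
    (hB : ∀ ω σ, |G ω σ| ≤ B) (hB' : ∀ ω σ, |G' ω σ| ≤ B') :
    X.A r b m P n (fun ω σ => G ω σ + G' ω σ) = X.A r b m P n G + X.A r b m P n G' := by
  rw [← X.sys_E n hG hB, ← X.sys_E n hG' hB', ← X.sys_E n (G := fun ω σ => G ω σ + G' ω σ)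
    (fun σ => (hG σ).add (hG' σ)) (B := B + B') fun ω σ => (abs_add_le _ _).trans (add_le_add (hB ω σ) (hB' ω σ))]
  unfold Sys.E
  simp only [av_add]
  exact integral_add (X.rmb_integrable_av n hG hB) (X.rmb_integrable_av n hG' hB')
lemma A_mul_left (n : ℕ) (G : X.Ω → (Fin n → Cfg r b X.Sg) → ℝ) (c : ℝ) :
    X.A r b m P n (fun ω σ => c * G ω σ) = c * X.A r b m P n G := by
  simp only [A, Am, Avg, av_mul_left, integral_const_mul]
lemma A_const (n : ℕ) (c : ℝ) : X.A r b m P n (fun _ _ => c) = c := by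
  simp only [A, Am, Avg, av_const, integral_const, probReal_univ, one_smul]
lemma A_sum {ι : Type} (t : Finset ι) (n : ℕ) {G : ι → X.Ω → (Fin n → Cfg r b X.Sg) → ℝ}
    (hG : ∀ i σ, Measurable fun ω => G i ω σ) {B : ℝ} (hB : ∀ i ω σ, |G i ω σ| ≤ B) :
    X.A r b m P n (fun ω σ => ∑ i ∈ t, G i ω σ) = ∑ i ∈ t, X.A r b m P n (G i) := by
  rw [← X.sys_E n (fun σ => Finset.measurable_sum t fun i _ => hG i σ) (B := ∑ _i ∈ t, B)
    fun ω σ => (abs_sum_le_sum_abs _ _).trans (sum_le_sum fun i _ => hB i ω σ)]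
  simp only [← fun i => X.sys_E (m := m) (P := P) n (hG i) (hB i)]
  unfold Sys.E
  simp only [av_sum]
  exact integral_finsetSum t fun i _ => X.rmb_integrable_av n (hG i) (hB i)
lemma A_mono (n : ℕ) {G G' : X.Ω → (Fin n → Cfg r b X.Sg) → ℝ}
    (hG : ∀ σ, Measurable fun ω => G ω σ) (hG' : ∀ σ, Measurable fun ω => G' ω σ) {B B' : ℝ}
    (hB : ∀ ω σ, |G ω σ| ≤ B) (hB' : ∀ ω σ, |G' ω σ| ≤ B') (h : ∀ ω σ, G ω σ ≤ G' ω σ) :
    X.A r b m P n G ≤ X.A r b m P n G' := by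
  rw [← X.sys_E n hG hB, ← X.sys_E n hG' hB']
  exact integral_mono (X.rmb_integrable_av n hG hB) (X.rmb_integrable_av n hG' hB')
    fun z => av_mono n _ (h z.1.1)
lemma A_comp_inj {n n' : ℕ} (e : Fin n → Fin n') (he : Function.Injective e)
    (G : X.Ω → (Fin n → Cfg r b X.Sg) → ℝ) :
    X.A r b m P n' (fun ω σ => G ω fun l => σ (e l)) = X.A r b m P n G := by
  simp only [A, Am, Avg, av_comp_inj e he]

lemma dev_le (hm : MOk r m) (hP : P.Ok) :
    X.dev r b m P ≤ 2 * √(∑ l ∈ range (r + 1), (P.a l * X.BQ + 6 * P.s ^ 2)) + cdev (m 1) +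
      ∫ ω, |Fm r b m P (X.h ω) (X.T ω) (X.Q ω) - X.F r b m P| ∂X.P := by
  refine rmb_three (f := fun z => lz ((X.sys r b m P).H z))
    (g := fun w => Phi (Hm r b m P (X.h w.1) (X.T w.1) w.2) (Cm r b P (X.T w.1) (X.Q w.1)))
    (X.rmb_integrable_lz hm hP) (X.rmb_integrable_Phi hm hP) (X.integrable_Fm hm hP) _
    (fun w => ?_) fun ω => rmb_Fm_dev (b := b) (P := P) hm (X.h ω) (X.T ω) (X.Q ω)
  refine (X.rmb_inner (f := fun H => |lz H - Phi (Hm r b m P (X.h w.1) (X.T w.1) w.2)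
    (Cm r b P (X.T w.1) (X.Q w.1))|) (continuous_lz.measurable.sub_const _).abs w).le.trans ?_
  exact pisier _ (psd_Cm hP.a_nonneg (X.pT w.1) (X.pQ w.1)) (X.rmb_diag hP w.1)

lemma F_da (hm : MOk r m) (hP : P.Ok) (hQ : ∀ ω σ, X.Q ω σ σ = X.BQ) {j : ℕ} (hj : j ≤ r) {c : ℝ}
    (hc : 0 ≤ c) :
    |X.F r b m (P.wa (Function.update P.a j (P.a j + c))) - X.F r b m P -
      c / 2 * (X.BQ - X.A r b m P 2 fun ω σ =>
        (if j ≤ lev 1 r (σ 0).2 (σ 1).2 then 1 else 0) * X.Q ω (σ 0).1 (σ 1).1)| ≤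
      24 * Fintype.card (Cfg r b X.Sg) * Real.exp (X.BQ / 2) * (c * √c) := by
  have ha' : ∀ l, 0 ≤ Function.update P.a j (P.a j + c) l := fun l => by
    by_cases hl : l = j
    · subst hl
      rw [Function.update_self]
      exact add_nonneg (hP.a_nonneg l) hc
    · rw [Function.update_of_ne hl]
      exact hP.a_nonneg l
  have hB : ∀ ω σ σ', |X.Q ω σ σ'| ≤ |X.BQ| := fun ω σ σ' => by
    have h1 := (X.pQ ω).sq_le σ σ'
    rw [hQ, hQ, ← sq] at h1
    exact sq_le_sq.1 h1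
  have hG : ∀ ω (σ : Fin 2 → Cfg r b X.Sg),
      |(if j ≤ lev 1 r (σ 0).2 (σ 1).2 then (1 : ℝ) else 0) * X.Q ω (σ 0).1 (σ 1).1| ≤ |X.BQ| := by
    intro ω σ
    split_ifs
    · rw [one_mul]
      exact hB ω _ _
    · rw [zero_mul, abs_zero]
      exact abs_nonneg _
  exact rmb_comb (X.integrable_Fm hm (P := P.wa _) ⟨ha', hP.box⟩) (X.integrable_Fm hm hP)
    (rmb_integrable (X.measurable_Am 2 fun σ => (X.mQ _ _).const_mul _) fun ω =>
      rmb_abs_integral_le fun _ => abs_Avg_le 2 _ _ (hG ω))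
    fun ω => rmb_Fm_da hm hP.a_nonneg _ (X.pT ω) (X.pQ ω) (hQ ω) hj hc (hB ω) ha'

end RM

end

end Vale.Agent.P166
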