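import Vale.Agent.P166.Ibp

/-! P166 SD: concentration from small second differences, approximate Ghirlanda-Guerra identities.
Plan sd: phi(x') = lz(H + x' K) is convex in x' with derivative <K> at x (lz_jensen gives (phi(x)-phi(x-d))/d <= <K> <= (phi(x+d)-phi(x))/d).
Thermal part: lemma thermal, integrate. Disorder part: both <K> and its mean lie between the difference quotients, so
d |<K> - E<K>| <= D + |e(x+d)| + |e(x)| + |e(x-d)|, e = phi - E phi (D >= 0 follows from convexity).
Plan gg1: realise the field on Omega x (S -> R) x (S -> R) as feat (sqr C0) g + x' * c * feat (sqr xi) g' (for each omega its law is gK (C0 + x'^2 c^2 xi):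
gK_add, gK_smul, integral_gK), apply sd with K = c * feat (sqr xi) g', then gibp (features x c sqr xi, H + feat (sqr C0) g fixed) for F and for F = 1, n = 0:
E<F h(s0)> = x c E[<F sum_l xi(s0,sl)> - (n+1) <F xi(s0,s_last)>], h = feat (sqr xi) g'; |E<F h> - E<F> E<h>| <= E<|h - E<h>|>; divide by x c >= c. -/

open MeasureTheory ProbabilityTheory Filter Topology Matrix Finset

namespace Vale.Agent.P166

noncomputable section

variable {S Ω : Type} [Fintype S] [Nonempty S] [MeasurableSpace Ω]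

lemma SD_gw_le (H : S → ℝ) (s : S) : gw H s ≤ 1 := by
  rw [← sum_gw H]
  exact single_le_sum (fun t _ => gw_nonneg H t) (mem_univ s)

lemma SD_int_av1 {P : Measure Ω} {H f : Ω → S → ℝ} (mH : ∀ s, Measurable fun ω => H ω s)
    (hf : ∀ s, Integrable (fun ω => f ω s) P) : Integrable (fun ω => av1 (H ω) (f ω)) P := by
  refine integrable_finsetSum _ fun s _ => (hf s).bdd_mul (c := 1)
    (measurable_gw mH s).aestronglyMeasurable (ae_of_all _ fun ω => ?_)
  rw [Real.norm_eq_abs, abs_of_nonneg (gw_nonneg _ _)]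
  exact SD_gw_le _ _

lemma SD_int_av {P : Measure Ω} (n : ℕ) {H : Ω → S → ℝ} {F : Ω → (Fin n → S) → ℝ}
    (mH : ∀ s, Measurable fun ω => H ω s) (hF : ∀ σ, Integrable (fun ω => F ω σ) P) :
    Integrable (fun ω => av n (H ω) (F ω)) P := by
  refine integrable_finsetSum _ fun σ _ => (hF σ).bdd_mul (c := 1)
    (Finset.measurable_prod _ fun l _ => measurable_gw mH (σ l)).aestronglyMeasurable
    (ae_of_all _ fun ω => ?_)
  rw [Real.norm_eq_abs, abs_of_nonneg (prod_nonneg fun l _ => gw_nonneg _ _)]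
  exact prod_le_one (fun l _ => gw_nonneg _ _) fun l _ => SD_gw_le _ _

lemma SD_up (H K : S → ℝ) (x d : ℝ) :
    lz (fun s => H s + x * K s) + d * av1 (fun s => H s + x * K s) K ≤
      lz fun s => H s + (x + d) * K s := by
  have h := lz_jensen (fun s => H s + x * K s) fun s => d * K s
  rw [av1_mul_left] at h
  refine h.trans (le_of_eq (congrArg lz (funext fun s => ?_)))
  simp only [Pi.add_apply]
  ring

lemma SD_point (H K : S → ℝ) {x δ : ℝ} (hδ : 0 < δ) (M : ℝ) :
    δ * av1 (fun s => H s + x * K s) (fun s => |K s - M|) ≤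
      1 + (lz (fun s => H s + (x + δ) * K s) + lz (fun s => H s + (x - δ) * K s) -
        2 * lz fun s => H s + x * K s) + δ * |av1 (fun s => H s + x * K s) K - M| := by
  have h := thermal (fun s => H s + x * K s) K hδ.le
  have e1 : (fun s => H s + x * K s + δ * K s) = fun s => H s + (x + δ) * K s :=
    funext fun s => by ring
  have e2 : (fun s => H s + x * K s - δ * K s) = fun s => H s + (x - δ) * K s :=
    funext fun s => by ring
  rw [e1, e2] at h
  have h2 : av1 (fun s => H s + x * K s) (fun s => |K s - M|) ≤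
      av1 (fun s => H s + x * K s) (fun s => |K s - av1 (fun s => H s + x * K s) K|) +
        |av1 (fun s => H s + x * K s) K - M| := by
    rw [← av1_const (fun s => H s + x * K s) |av1 (fun s => H s + x * K s) K - M|, ← av1_add]
    exact av1_mono _ fun s => abs_sub_le _ _ _
  nlinarith [mul_le_mul_of_nonneg_left h2 hδ.le]

lemma sd (P : Measure Ω) [IsProbabilityMeasure P] {H K : Ω → S → ℝ}
    (mH : ∀ s, Measurable fun ω => H ω s) (mK : ∀ s, Measurable fun ω => K ω s)
    (iH : ∀ s, Integrable (fun ω => H ω s) P) (iK : ∀ s, Integrable (fun ω => K ω s) P)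
    {x δ D v : ℝ} (hδ : 0 < δ) (Φ : ℝ → ℝ)
    (hΦ : ∀ x', Φ x' = ∫ ω, lz (fun s => H ω s + x' * K ω s) ∂P)
    (hD : Φ (x + δ) + Φ (x - δ) - 2 * Φ x ≤ D)
    (hv : ∀ x' ∈ ({x - δ, x, x + δ} : Set ℝ),
      ∫ ω, |lz (fun s => H ω s + x' * K ω s) - Φ x'| ∂P ≤ v) :
    ∫ ω, av1 (fun s => H ω s + x * K ω s) (fun s => |K ω s -
      ∫ ω', av1 (fun s => H ω' s + x * K ω' s) (K ω') ∂P|) ∂P ≤ 3 * (D + v + 1) / δ := by
  have mT : ∀ (t : ℝ) s, Measurable fun ω => H ω s + t * K ω s := fun t s =>
    (mH s).add ((mK s).const_mul t)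
  have iL : ∀ t : ℝ, Integrable (fun ω => lz fun s => H ω s + t * K ω s) P := fun t =>
    integrable_lz (mT t) fun s => (iH s).add ((iK s).const_mul t)
  have iM : Integrable (fun ω => av1 (fun s => H ω s + x * K ω s) (K ω)) P :=
    SD_int_av1 (mT x) iK
  set M := ∫ ω', av1 (fun s => H ω' s + x * K ω' s) (K ω') ∂P with hM
  have hup : ∀ d : ℝ, Φ x + d * M ≤ Φ (x + d) := fun d => by
    rw [hΦ, hΦ, hM, ← integral_const_mul, ← integral_add (iL x) (iM.const_mul d)]
    exact integral_mono ((iL x).add (iM.const_mul d)) (iL _) fun ω => SD_up _ _ _ _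
  have h1 := hup δ
  have h2 := hup (-δ)
  rw [← sub_eq_add_neg] at h2
  have iE : ∀ t : ℝ, Integrable (fun ω => |lz (fun s => H ω s + t * K ω s) - Φ t|) P := fun t =>
    ((iL t).sub (integrable_const _)).abs
  have hpt : ∀ ω, δ * av1 (fun s => H ω s + x * K ω s) (fun s => |K ω s - M|) ≤
      (1 + D + (lz (fun s => H ω s + (x + δ) * K ω s) + lz (fun s => H ω s + (x - δ) * K ω s) -
        2 * lz fun s => H ω s + x * K ω s)) +
      (|lz (fun s => H ω s + (x - δ) * K ω s) - Φ (x - δ)| +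
        |lz (fun s => H ω s + x * K ω s) - Φ x| +
        |lz (fun s => H ω s + (x + δ) * K ω s) - Φ (x + δ)|) := fun ω => by
    have a0 := SD_point (H ω) (K ω) (x := x) hδ M
    have a1 := SD_up (H ω) (K ω) x δ
    have a2 := SD_up (H ω) (K ω) x (-δ)
    rw [← sub_eq_add_neg] at a2
    have b1 := abs_le.1 (le_refl |lz (fun s => H ω s + (x - δ) * K ω s) - Φ (x - δ)|)
    have b2 := abs_le.1 (le_refl |lz (fun s => H ω s + x * K ω s) - Φ x|)
    have b3 := abs_le.1 (le_refl |lz (fun s => H ω s + (x + δ) * K ω s) - Φ (x + δ)|)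
    have c1 := abs_nonneg (lz (fun s => H ω s + (x - δ) * K ω s) - Φ (x - δ))
    have c3 := abs_nonneg (lz (fun s => H ω s + (x + δ) * K ω s) - Φ (x + δ))
    have e : δ * |av1 (fun s => H ω s + x * K ω s) (K ω) - M| =
        |δ * av1 (fun s => H ω s + x * K ω s) (K ω) - δ * M| := by
      rw [← mul_sub, abs_mul, abs_of_pos hδ]
    rw [e] at a0
    refine a0.trans ?_
    have : |δ * av1 (fun s => H ω s + x * K ω s) (K ω) - δ * M| ≤ D +
        (|lz (fun s => H ω s + (x - δ) * K ω s) - Φ (x - δ)| +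
        |lz (fun s => H ω s + x * K ω s) - Φ x| +
        |lz (fun s => H ω s + (x + δ) * K ω s) - Φ (x + δ)|) := by
      rw [abs_le]
      constructor <;> linarith [b1.1, b1.2, b2.1, b2.2, b3.1, b3.2]
    linarith
  have iA : Integrable (fun ω => av1 (fun s => H ω s + x * K ω s) fun s => |K ω s - M|) P :=
    SD_int_av1 (mT x) fun s => ((iK s).sub (integrable_const _)).abs
  have i1 : Integrable (fun ω => lz (fun s => H ω s + (x + δ) * K ω s) +
      lz fun s => H ω s + (x - δ) * K ω s) P := (iL _).add (iL _)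
  have i2 : Integrable (fun ω => lz (fun s => H ω s + (x + δ) * K ω s) +
      lz (fun s => H ω s + (x - δ) * K ω s) - 2 * lz fun s => H ω s + x * K ω s) P :=
    i1.sub ((iL x).const_mul 2)
  have i3 : Integrable (fun ω => 1 + D + (lz (fun s => H ω s + (x + δ) * K ω s) +
      lz (fun s => H ω s + (x - δ) * K ω s) - 2 * lz fun s => H ω s + x * K ω s)) P :=
    (integrable_const _).add i2
  have i4 : Integrable (fun ω => |lz (fun s => H ω s + (x - δ) * K ω s) - Φ (x - δ)| +
      |lz (fun s => H ω s + x * K ω s) - Φ x|) P := (iE _).add (iE _)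
  have i5 : Integrable (fun ω => |lz (fun s => H ω s + (x - δ) * K ω s) - Φ (x - δ)| +
      |lz (fun s => H ω s + x * K ω s) - Φ x| +
      |lz (fun s => H ω s + (x + δ) * K ω s) - Φ (x + δ)|) P := i4.add (iE _)
  have hI := integral_mono (iA.const_mul δ) (i3.add i5) hpt
  rw [integral_const_mul, integral_add' i3 i5, integral_add (integrable_const _) i2,
    integral_sub i1 ((iL x).const_mul 2), integral_add (iL _) (iL _), integral_const_mul,
    integral_add i4 (iE _), integral_add (iE _) (iE _), ← hΦ, ← hΦ, ← hΦ] at hI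
  have v1 := hv (x - δ) (by simp)
  have v2 := hv x (by simp)
  have v3 := hv (x + δ) (by simp)
  rw [le_div_iff₀ hδ]
  simp only [integral_const, probReal_univ, smul_eq_mul, one_mul] at hI
  linarith

omit [Nonempty S] in
/-- the two independent fields realise the law `gK (C0 + t^2 c^2 ξ)` -/
lemma SD_law (H : S → ℝ) {C0 ξ C : S → S → ℝ} (pC : PSD C0) (pξ : PSD ξ) (t c : ℝ)
    (hC : ∀ s s', C s s' = C0 s s' + t ^ 2 * c ^ 2 * ξ s s') {f : (S → ℝ) → ℝ}
    (hf : Measurable f) : ∫ y, f (H + y) ∂gK C =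
      ∫ z : (S → ℝ) × (S → ℝ), f (fun s => (H s + feat (sqr C0) z.1 s) +
        t * (c * feat (sqr ξ) z.2 s)) ∂(gam S).prod (gam S) := by
  have e : C = fun s s' => C0 s s' + (fun s s' => (t * c) ^ 2 * ξ s s') s s' := by
    funext s s'
    rw [hC, mul_pow]
  have m1 : Measurable fun (y : S → ℝ) s => t * c * y s := by fun_prop
  have m2 : Measurable fun p : (S → ℝ) × (S → ℝ) => p.1 + p.2 := by fun_prop
  have m3 : Measurable fun y : S → ℝ => f (H + y) := hf.comp (by fun_prop)
  rw [e, ← gK_add pC (pξ.smul (sq_nonneg _)), ← gK_smul pξ, gK, gK,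
    Measure.map_map m1 (measurable_feat _),
    Measure.map_prod_map _ _ (measurable_feat _) (m1.comp (measurable_feat _)),
    Measure.map_map m2 ((measurable_feat _).prodMap (m1.comp (measurable_feat _))),
    integral_map (m2.comp ((measurable_feat _).prodMap
      (m1.comp (measurable_feat _)))).aemeasurable m3.aestronglyMeasurable]
  refine integral_congr_ae (ae_of_all _ fun z => congrArg f (funext fun s => ?_))
  simp only [Pi.add_apply, Function.comp_apply, Prod.map_fst, Prod.map_snd]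
  ring

omit [Nonempty S] in
lemma SD_meas {A : Type} [MeasurableSpace A] {C : A → S → S → ℝ} {g : A → S → ℝ}
    (mC : ∀ s s', Measurable fun a => C a s s') (mg : ∀ s, Measurable fun a => g a s) (s : S) :
    Measurable fun a => feat (sqr (C a)) (g a) s := by
  have h : Measurable fun a => sqr (C a) :=
    measurable_sqr.comp (measurable_pi_lambda _ fun s => measurable_pi_lambda _ fun s' => mC s s')
  exact Finset.measurable_sum _ fun i _ =>
    ((measurable_pi_apply i).comp ((measurable_pi_apply s).comp h)).mul (mg i)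

omit [Nonempty S] in
lemma SD_int {A : Type} [MeasurableSpace A] {μ : Measure A} {C : A → S → S → ℝ} {g : A → S → ℝ}
    (mC : ∀ s s', Measurable fun a => C a s s') (pC : ∀ a, PSD (C a)) {V : ℝ}
    (bC : ∀ a s, C a s s ≤ V) (ig : ∀ s, Integrable (fun a => g a s) μ) (s : S) :
    Integrable (fun a => feat (sqr (C a)) (g a) s) μ := by
  have h : Measurable fun a => sqr (C a) :=
    measurable_sqr.comp (measurable_pi_lambda _ fun s => measurable_pi_lambda _ fun s' => mC s s')
  refine integrable_finsetSum _ fun i _ => (ig i).bdd_mul (c := 1 + V)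
    ((measurable_pi_apply i).comp ((measurable_pi_apply s).comp h)).aestronglyMeasurable
    (ae_of_all _ fun a => ?_)
  have h1 : sqr (C a) s i * sqr (C a) s i ≤ gram (sqr (C a)) s s :=
    single_le_sum (f := fun i => sqr (C a) s i * sqr (C a) s i)
      (fun j _ => mul_self_nonneg _) (mem_univ i)
  rw [gram_sqr (pC a)] at h1
  have h2 := bC a s
  rw [Real.norm_eq_abs, abs_le]
  constructor <;> nlinarith [sq_nonneg (sqr (C a) s i - 1), sq_nonneg (sqr (C a) s i + 1),
    mul_self_nonneg (sqr (C a) s i)]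

omit [Nonempty S] in
lemma SD_int_gam (s : S) : Integrable (fun g : S → ℝ => g s) (gam S) :=
  MeasureTheory.integrable_eval IsGaussian.integrable_id

/-- integration by parts in the second field -/
lemma SD_ibp (H : S → ℝ) {C0 ξ C : S → S → ℝ} (pC : PSD C0) (pξ : PSD ξ) {x : ℝ} (hx : x ≠ 0)
    (c : ℝ) (hC : ∀ s s', C s s' = C0 s s' + x ^ 2 * c ^ 2 * ξ s s') (n : ℕ)
    (F : (Fin (n + 1) → S) → ℝ) :
    ∫ z : (S → ℝ) × (S → ℝ), av (n + 1) (fun s => (H s + feat (sqr C0) z.1 s) +
        x * (c * feat (sqr ξ) z.2 s)) (fun σ => F σ * (c * feat (sqr ξ) z.2 (σ 0)))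
        ∂(gam S).prod (gam S) =
      x * c ^ 2 * (Avg (n + 1) H C (fun σ => F σ * ∑ l, ξ (σ 0) (σ l)) - ((n : ℝ) + 1) *
        Avg (n + 2) H C fun σ => F (fun l => σ l.castSucc) * ξ (σ 0) (σ (Fin.last _))) := by
  have mav : ∀ (k : ℕ) (G : (Fin k → S) → ℝ), Measurable fun y : S → ℝ => av k y G := fun k G =>
    measurable_av k (fun s => measurable_pi_apply s) fun _ => measurable_const
  have mH : ∀ s, Measurable fun z : (S → ℝ) × (S → ℝ) => (H s + feat (sqr C0) z.1 s) +
      x * (c * feat (sqr ξ) z.2 s) := fun s =>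
    (measurable_const.add ((measurable_pi_apply s).comp
      ((measurable_feat _).comp measurable_fst))).add ((((measurable_pi_apply s).comp
      ((measurable_feat _).comp measurable_snd)).const_mul c).const_mul x)
  have iav : ∀ (k : ℕ) (G : (Fin k → S) → ℝ), Integrable (fun z : (S → ℝ) × (S → ℝ) =>
      av k (fun s => (H s + feat (sqr C0) z.1 s) + x * (c * feat (sqr ξ) z.2 s)) G)
      ((gam S).prod (gam S)) := fun k G => SD_int_av k mH fun _ => integrable_const _
  have iK : ∀ s, Integrable (fun z : (S → ℝ) × (S → ℝ) => feat (sqr ξ) z.2 s)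
      ((gam S).prod (gam S)) := fun s =>
    integrable_finsetSum _ fun i _ => ((SD_int_gam i).comp_snd _).const_mul _
  have iL := SD_int_av (n + 1) (F := fun (z : (S → ℝ) × (S → ℝ)) σ =>
    F σ * (c * feat (sqr ξ) z.2 (σ 0))) mH fun σ => ((iK (σ 0)).const_mul c).const_mul (F σ)
  unfold Avg
  rw [SD_law H pC pξ x c hC (mav _ _), SD_law H pC pξ x c hC (mav _ _), ← integral_const_mul,
    ← integral_sub (iav _ _) ((iav _ _).const_mul _), ← integral_const_mul, integral_prod _ iL]
  refine Eq.trans ?_ (integral_prod _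
    (((iav _ _).sub ((iav _ _).const_mul _)).const_mul _)).symm
  refine integral_congr_ae (ae_of_all _ fun g => ?_)
  have h := gibp n (fun s => H s + feat (sqr C0) g s) (fun s i => x * c * sqr ξ s i) F
  have e1 : ∀ g' s, feat (fun s i => x * c * sqr ξ s i) g' s = x * (c * feat (sqr ξ) g' s) :=
    fun g' s => by
      simp only [feat, mul_sum]
      exact sum_congr rfl fun i _ => by ring
  have e2 : ∀ s s', gram (fun s i => x * c * sqr ξ s i) s s' = (x * (x * c ^ 2)) * ξ s s' :=
    fun s s' => by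
      conv_rhs => rw [← gram_sqr pξ]
      simp only [gram, mul_sum]
      exact sum_congr rfl fun i _ => by ring
  have e3 : ∀ g', (fun s => H s + feat (sqr C0) g s) + feat (fun s i => x * c * sqr ξ s i) g' =
      fun s => (H s + feat (sqr C0) g s) + x * (c * feat (sqr ξ) g' s) := fun g' =>
    funext fun s => by rw [Pi.add_apply, e1]
  simp only [e3, e1, e2] at h
  apply mul_left_cancel₀ hx
  simp only []
  rw [← integral_const_mul, ← integral_const_mul]
  refine Eq.trans (integral_congr_ae (ae_of_all _ fun g' => ?_))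
    (h.trans (integral_congr_ae (ae_of_all _ fun g' => ?_)))
  · simp only []
    rw [← av_mul_left]
    exact congrArg _ (funext fun σ => by ring)
  · simp only [← mul_sum, Pi.sub_apply, mul_left_comm _ (x * (x * c ^ 2)), av_mul_left]
    ring

lemma gg1 (P : Measure Ω) [IsProbabilityMeasure P] {H : Ω → S → ℝ} {C0 ξ : Ω → S → S → ℝ}
    (mH : ∀ s, Measurable fun ω => H ω s) (iH : ∀ s, Integrable (fun ω => H ω s) P)
    (mC : ∀ s s', Measurable fun ω => C0 ω s s') (mξ : ∀ s s', Measurable fun ω => ξ ω s s')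
    (pC : ∀ ω, PSD (C0 ω)) (pξ : ∀ ω, PSD (ξ ω)) {V : ℝ} (bC : ∀ ω s, C0 ω s s ≤ V)
    (bξ : ∀ ω s s', |ξ ω s s'| ≤ 1) {c x δ D v : ℝ} (hc : 0 < c) (hx : 1 ≤ x) (hδ : 0 < δ)
    (C : ℝ → Ω → S → S → ℝ) (hC : ∀ x' ω s s', C x' ω s s' = C0 ω s s' + x' ^ 2 * c ^ 2 * ξ ω s s')
    (Φ : ℝ → ℝ) (hΦ : ∀ x', Φ x' = ∫ ω, Phi (H ω) (C x' ω) ∂P)
    (hD : Φ (x + δ) + Φ (x - δ) - 2 * Φ x ≤ D)
    (hv : ∀ x' ∈ ({x - δ, x, x + δ} : Set ℝ),
      ∫ ω, ∫ y, |lz (H ω + y) - Φ x'| ∂gK (C x' ω) ∂P ≤ v)
    (n : ℕ) (F : Ω → (Fin (n + 1) → S) → ℝ) (mF : ∀ σ, Measurable fun ω => F ω σ)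
    (bF : ∀ ω σ, |F ω σ| ≤ 1) :
    |((n : ℝ) + 1) * ∫ ω, Avg (n + 2) (H ω) (C x ω)
          (fun σ => F ω (fun l => σ l.castSucc) * ξ ω (σ 0) (σ (Fin.last _))) ∂P -
        ∫ ω, Avg (n + 1) (H ω) (C x ω) (fun σ => F ω σ * ∑ l, ξ ω (σ 0) (σ l)) ∂P +
        (∫ ω, Avg (n + 1) (H ω) (C x ω) (F ω) ∂P) *
          (∫ ω, Avg1 (H ω) (C x ω) (fun s => ξ ω s s) ∂P -
            ∫ ω, Avg 2 (H ω) (C x ω) (fun σ => ξ ω (σ 0) (σ 1)) ∂P)| ≤
      3 * (D + v + 1) / (δ * c ^ 2) := by
  have hx0 : 0 < x := by linarith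
  set Q : Measure (Ω × (S → ℝ) × (S → ℝ)) := P.prod ((gam S).prod (gam S)) with hQ
  set H' : Ω × (S → ℝ) × (S → ℝ) → S → ℝ := fun z s =>
    H z.1 s + feat (sqr (C0 z.1)) z.2.1 s with hH'
  set K : Ω × (S → ℝ) × (S → ℝ) → S → ℝ := fun z s => c * feat (sqr (ξ z.1)) z.2.2 s with hK
  have mH' : ∀ s, Measurable fun z => H' z s := fun s =>
    ((mH s).comp measurable_fst).add (SD_meas (fun s s' => (mC s s').comp measurable_fst)
      (fun s => (measurable_pi_apply s).comp measurable_snd.fst) s)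
  have mK : ∀ s, Measurable fun z => K z s := fun s =>
    (SD_meas (fun s s' => (mξ s s').comp measurable_fst)
      (fun s => (measurable_pi_apply s).comp measurable_snd.snd) s).const_mul c
  have iH' : ∀ s, Integrable (fun z => H' z s) Q := fun s =>
    ((iH s).comp_fst _).add (SD_int (fun s s' => (mC s s').comp measurable_fst)
      (fun z => pC z.1) (fun z => bC z.1) (fun s => ((SD_int_gam s).comp_fst _).comp_snd _) s)
  have iK : ∀ s, Integrable (fun z => K z s) Q := fun s =>
    (SD_int (V := 1) (fun s s' => (mξ s s').comp measurable_fst) (fun z => pξ z.1)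
      (fun z s => (abs_le.1 (bξ z.1 s s)).2)
      (fun s => ((SD_int_gam s).comp_snd _).comp_snd _) s).const_mul c
  have mT : ∀ (t : ℝ) s, Measurable fun z => H' z s + t * K z s := fun t s =>
    (mH' s).add ((mK s).const_mul t)
  have iL : ∀ t : ℝ, Integrable (fun z => lz fun s => H' z s + t * K z s) Q := fun t =>
    integrable_lz (mT t) fun s => (iH' s).add ((iK s).const_mul t)
  have mlz : Measurable (lz : (S → ℝ) → ℝ) := continuous_lz.measurable
  have hsd := sd Q mH' mK iH' iK (x := x) (D := D) (v := v) hδ Φ (fun t => by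
      rw [hΦ, hQ, integral_prod _ (iL t)]
      exact integral_congr_ae (ae_of_all _ fun ω =>
        SD_law (H ω) (pC ω) (pξ ω) t c (hC t ω) mlz)) hD (fun t ht => by
      refine le_of_eq_of_le ?_ (hv t ht)
      refine (integral_prod _ ((iL t).sub (integrable_const (Φ t))).abs).trans ?_
      exact integral_congr_ae (ae_of_all _ fun ω => (SD_law (H ω) (pC ω) (pξ ω) t c (hC t ω)
        (f := fun y => |lz y - Φ t|) (mlz.sub_const _).abs).symm))
  have mCx : ∀ s s', Measurable fun ω => C x ω s s' := fun s s' => by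
    simp only [hC]
    exact (mC s s').add ((mξ s s').const_mul _)
  have iAvg : ∀ (k : ℕ) (G : Ω → (Fin k → S) → ℝ) (B : ℝ), (∀ σ, Measurable fun ω => G ω σ) →
      (∀ ω σ, |G ω σ| ≤ B) → Integrable (fun ω => Avg k (H ω) (C x ω) (G ω)) P :=
    fun k G B mG bG => by
      refine Integrable.of_bound (C := B) (measurable_integral_gK mCx
        (f := fun ω y => av k (H ω + y) (G ω)) (measurable_av k (fun s => ?_)
          fun σ => (mG σ).comp measurable_fst)).aestronglyMeasurable
        (ae_of_all _ fun ω => abs_Avg_le k _ _ (bG ω))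
      exact ((mH s).comp measurable_fst).add ((measurable_pi_apply s).comp measurable_snd)
  have key : ∀ (k : ℕ) (G : Ω → (Fin (k + 1) → S) → ℝ), (∀ σ, Measurable fun ω => G ω σ) →
      (∀ ω σ, |G ω σ| ≤ 1) →
      Integrable (fun z => av (k + 1) (fun s => H' z s + x * K z s)
        fun σ => G z.1 σ * K z (σ 0)) Q ∧
      ∫ z, av (k + 1) (fun s => H' z s + x * K z s) (fun σ => G z.1 σ * K z (σ 0)) ∂Q =
        x * c ^ 2 * (∫ ω, Avg (k + 1) (H ω) (C x ω) (fun σ => G ω σ * ∑ l, ξ ω (σ 0) (σ l)) ∂P -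
          ((k : ℝ) + 1) * ∫ ω, Avg (k + 2) (H ω) (C x ω)
            (fun σ => G ω (fun l => σ l.castSucc) * ξ ω (σ 0) (σ (Fin.last _))) ∂P) :=
    fun k G mG bG => by
      have i0 : Integrable (fun z => av (k + 1) (fun s => H' z s + x * K z s)
          fun σ => G z.1 σ * K z (σ 0)) Q :=
        SD_int_av _ (mT x) fun σ => (iK (σ 0)).bdd_mul (c := 1)
          ((mG σ).comp measurable_fst).aestronglyMeasurable (ae_of_all _ fun z => bG z.1 σ)
      have i1 := iAvg (k + 1) (fun ω σ => G ω σ * ∑ l, ξ ω (σ 0) (σ l)) (k + 1)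
        (fun σ => (mG σ).mul (Finset.measurable_sum _ fun l _ => mξ _ _)) (fun ω σ => by
          rw [abs_mul]
          have h1 : |∑ l, ξ ω (σ 0) (σ l)| ≤ k + 1 := by
            refine (abs_sum_le_sum_abs _ _).trans ((sum_le_sum fun l _ => bξ ω _ _).trans ?_)
            simp
          nlinarith [bG ω σ, abs_nonneg (G ω σ), abs_nonneg (∑ l, ξ ω (σ 0) (σ l))])
      have i2 := iAvg (k + 2)
        (fun ω σ => G ω (fun l => σ l.castSucc) * ξ ω (σ 0) (σ (Fin.last _))) 1
        (fun σ => (mG _).mul (mξ _ _)) (fun ω σ => by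
          rw [abs_mul]
          exact mul_le_one₀ (bG _ _) (abs_nonneg _) (bξ _ _ _))
      refine ⟨i0, ?_⟩
      rw [hQ, integral_prod _ i0, ← integral_const_mul, ← integral_sub i1 (i2.const_mul _),
        ← integral_const_mul]
      exact integral_congr_ae (ae_of_all _ fun ω =>
        SD_ibp (H ω) (pC ω) (pξ ω) hx0.ne' c (hC x ω) k (G ω))
  obtain ⟨iF, eF⟩ := key n F mF bF
  obtain ⟨-, e1⟩ := key 0 (fun _ _ => 1) (fun _ => measurable_const) (fun _ _ => by simp)
  set M := ∫ z, av1 (fun s => H' z s + x * K z s) (K z) ∂Q with hM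
  have eM : M = x * c ^ 2 * (∫ ω, Avg1 (H ω) (C x ω) (fun s => ξ ω s s) ∂P -
      ∫ ω, Avg 2 (H ω) (C x ω) (fun σ => ξ ω (σ 0) (σ 1)) ∂P) := by
    simp only [one_mul, Nat.cast_zero, zero_add] at e1
    refine Eq.trans (integral_congr_ae (ae_of_all _ fun z => (av_one _ (K z)).symm))
      (e1.trans ?_)
    congr 2
    refine integral_congr_ae (ae_of_all _ fun ω =>
      Eq.trans ?_ (Avg_one (H ω) (C x ω) fun s => ξ ω s s))
    exact congrArg (Avg 1 (H ω) (C x ω)) (funext fun σ => Fin.sum_univ_one _)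
  have iE : Integrable (fun z : Ω × (S → ℝ) × (S → ℝ) =>
      av (n + 1) (fun s => H' z s + x * K z s) (F z.1)) Q :=
    SD_int_av _ (mT x) fun σ => Integrable.of_bound (C := 1)
      ((mF σ).comp measurable_fst).aestronglyMeasurable (ae_of_all _ fun z => bF z.1 σ)
  have eE : ∫ ω, Avg (n + 1) (H ω) (C x ω) (F ω) ∂P =
      ∫ z, av (n + 1) (fun s => H' z s + x * K z s) (F z.1) ∂Q := by
    rw [hQ, integral_prod _ iE]
    exact integral_congr_ae (ae_of_all _ fun ω => SD_law (H ω) (pC ω) (pξ ω) x c (hC x ω)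
      (f := fun y => av (n + 1) y (F ω))
      (measurable_av _ (fun s => measurable_pi_apply s) fun _ => measurable_const))
  have iA : Integrable (fun z => av1 (fun s => H' z s + x * K z s) fun s => |K z s - M|) Q :=
    SD_int_av1 (mT x) fun s => ((iK s).sub (integrable_const _)).abs
  have hb : |∫ z, av (n + 1) (fun s => H' z s + x * K z s) (fun σ => F z.1 σ * K z (σ 0)) ∂Q -
      M * ∫ z, av (n + 1) (fun s => H' z s + x * K z s) (F z.1) ∂Q| ≤ 3 * (D + v + 1) / δ := by
    rw [← integral_const_mul, ← integral_sub iF (iE.const_mul M)]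
    refine le_trans ?_ hsd
    refine abs_integral_le_integral_abs.trans (integral_mono (iF.sub (iE.const_mul M)).abs iA
      fun z => ?_)
    simp only []
    rw [← av_mul_left, ← av_sub, ← av_eval (n + 1) _ (fun s => |K z s - M|) 0]
    refine (abs_av_le _ _ _).trans (av_mono _ _ fun σ => ?_)
    rw [show F z.1 σ * K z (σ 0) - M * F z.1 σ = F z.1 σ * (K z (σ 0) - M) by ring, abs_mul]
    exact mul_le_of_le_one_left (abs_nonneg _) (bF _ _)
  rw [eF, ← eE, eM] at hb
  have hc2 : 0 < c ^ 2 := by positivity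
  rw [← div_div, le_div_iff₀ hc2]
  refine le_trans ?_ hb
  rw [mul_assoc (x * c ^ 2), ← mul_sub, abs_mul, abs_of_pos (mul_pos hx0 hc2), ← abs_neg]
  rw [mul_comm]
  refine mul_le_mul (by nlinarith) (le_of_eq (congrArg _ (by ring))) (abs_nonneg _) (by positivity)

end

end Vale.Agent.P166
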