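import Vale.Agent.P166.Arr
import Vale.Agent.P166.RMB
import Vale.Agent.P166.SD

/-! P166 GGlim: flat points of the perturbation give Ghirlanda-Guerra limits.
Plan. Self overlap: apply sd on the space of X.sys with K = s^2 T(sigma,sigma), x = x0 (H z at x0' is H z at x0 plus (x0'-x0) K; sys_F, dev): E<|T11 - d_i|> <= 48 delta + 3 (D+v+1)/(delta s^2), d_i = E<T11> in [0,1],
d = limit along the ultrafilter. Direction (p,j), p < M: gg1 on X.Omega x (Nd -> R) with xi = T^p 1[j <= lev], c^2 = s^2 (1/4)^p, C0 = Cm at x(p,j) = 0 (psd_Cm), x = x(p,j) >= 1, giving an error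
<= 48 delta + 4^p 3 (D+v+1)/(delta s^2); the diagonal terms of gg1 cancel up to 2 p E<|T11 - d_i|> (|T^p - d^p| <= p |T - d|, lev alpha alpha = r). Rm_fst, Rm_snd, sys_E. Then exists_gga and Conv.gram
(the level kernel is the sum over 1 <= l <= r of psd_lev). It is convenient to prove finite bounds (one system) first. -/

open MeasureTheory ProbabilityTheory Filter Topology Matrix Finset

namespace Vale.Agent.P166

noncomputable section

section Abstract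

variable {V : Type} [MeasurableSpace V] (Y : Sys V)

lemma ggl_abs_E_le (n : ℕ) {F G : Y.Ω → (Fin n → Y.S) → ℝ} (hG : ∀ σ, Measurable fun ω => G ω σ)
    {B : ℝ} (hB : ∀ ω σ, |G ω σ| ≤ B) (h : ∀ ω σ, |F ω σ| ≤ G ω σ) : |Y.E n F| ≤ Y.E n G :=
  abs_integral_le_integral_abs.trans (integral_mono_of_nonneg
    (Eventually.of_forall fun _ => abs_nonneg _) (Y.integrable_av n hG hB)
    (Eventually.of_forall fun ω => (abs_av_le n _ _).trans (av_mono n _ (h ω))))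

lemma ggl_E_one (f : Y.Ω → Y.S → ℝ) :
    Y.E 1 (fun ω σ => f ω (σ 0)) = ∫ ω, av1 (Y.H ω) (f ω) ∂Y.P := by
  simp only [Sys.E, av_one]

lemma ggl_diag (n : ℕ) {F : Y.Ω → (Fin (n + 1) → Y.S) → ℝ} (mF : ∀ σ, Measurable fun ω => F ω σ)
    (bF : ∀ ω σ, |F ω σ| ≤ 1) {g t : Y.Ω → Y.S → ℝ} (mg : ∀ s, Measurable fun ω => g ω s)
    (bg : ∀ ω s, |g ω s| ≤ 1) (mt : ∀ s, Measurable fun ω => t ω s) {B : ℝ}
    (bt : ∀ ω s, |t ω s| ≤ B) (a : ℝ) (h : ∀ ω s, |g ω s - a| ≤ t ω s) :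
    |Y.E (n + 1) (fun ω σ => F ω σ * g ω (σ 0)) - a * Y.E (n + 1) F| ≤
      Y.E 1 fun ω σ => t ω (σ 0) := by
  have e1 := Y.E_add (n + 1) (F := fun ω σ => F ω σ * g ω (σ 0)) (G := fun ω σ => -a * F ω σ)
    (fun σ => (mF σ).mul (mg _)) (fun σ => (mF σ).const_mul _) (B := 1) (B' := |a|)
    (fun ω σ => by
      rw [abs_mul]; exact mul_le_one₀ (bF ω σ) (abs_nonneg _) (bg ω _))
    (fun ω σ => by
      rw [abs_mul, abs_neg]; exact mul_le_of_le_one_right (abs_nonneg _) (bF ω σ))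
  rw [Y.E_mul_left] at e1
  have e2 := Y.E_comp_inj (fun _ : Fin 1 => (0 : Fin (n + 1)))
    (fun _ _ _ => Subsingleton.elim _ _) fun ω σ => t ω (σ 0)
  rw [← e2, sub_eq_add_neg, ← neg_mul, ← e1]
  refine ggl_abs_E_le Y (n + 1) (fun σ => mt _) (fun ω σ => bt ω _) fun ω σ => ?_
  have e3 : F ω σ * g ω (σ 0) + -a * F ω σ = F ω σ * (g ω (σ 0) - a) := by ring
  rw [e3, abs_mul]
  exact (mul_le_of_le_one_left (abs_nonneg _) (bF ω σ)).trans (h ω _)

lemma ggl_E_sum {ι : Type} (t : Finset ι) (n : ℕ) {G : ι → Y.Ω → (Fin n → Y.S) → ℝ}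
    (hG : ∀ i σ, Measurable fun ω => G i ω σ) {B : ℝ} (hB : ∀ i ω σ, |G i ω σ| ≤ B) :
    Y.E n (fun ω σ => ∑ i ∈ t, G i ω σ) = ∑ i ∈ t, Y.E n (G i) := by
  unfold Sys.E
  simp only [av_sum]
  exact integral_finsetSum t fun i _ => Y.integrable_av n (hG i) (hB i)

end Abstract

lemma ggl_lim {l : Filter ℕ} {a q g : ℕ → ℝ} {K : ℝ} (hq : Tendsto q l (𝓝 0))
    (hg : Tendsto g l (𝓝 0))
    (h : ∀ δ : ℝ, 0 < δ → δ ≤ 1 / 4 → ∀ᶠ i in l, |a i| ≤ 48 * δ + K / δ * q i + g i) :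
    Tendsto a l (𝓝 0) := by
  rw [Metric.tendsto_nhds]
  intro ε hε
  have h0 : 0 < min (1 / 4 : ℝ) (ε / 100) := lt_min (by norm_num) (by linarith)
  have h1 : Tendsto (fun i => K / min (1 / 4 : ℝ) (ε / 100) * q i + g i) l (𝓝 0) := by
    simpa using (hq.const_mul (K / min (1 / 4 : ℝ) (ε / 100))).add hg
  filter_upwards [h _ h0 (min_le_left _ _), h1.eventually (gt_mem_nhds (half_pos hε))] with i e1 e2
  rw [Real.dist_eq, sub_zero]
  linarith [min_le_right (1 / 4 : ℝ) (ε / 100)]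

section Finite

variable {r : ℕ} {b : ℕ → ℕ} {m : ℕ → ℝ} {P : Pr}

lemma ggl_Cl {Sg : Type} (T Q : Sg → Sg → ℝ) {p : ℕ} (hp : p < P.M) (j : ℕ) (x' : ℝ) (l : ℕ)
    (σ σ' : Sg) :
    Cl (P.wx P.x0 (Function.update P.x (p, j) x')) T Q l σ σ' =
      Cl (P.wx P.x0 (Function.update P.x (p, j) 0)) T Q l σ σ' +
        if l = j then x' ^ 2 * (P.s * (1 / 2) ^ p) ^ 2 * T σ σ' ^ p else 0 := by
  simp only [Cl, Pr.wx]
  have h1 : ∀ q ∈ range P.M, (1 / 4 : ℝ) ^ q * Function.update P.x (p, j) x' (q, l) ^ 2 * T σ σ' ^ q =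
      (1 / 4 : ℝ) ^ q * Function.update P.x (p, j) 0 (q, l) ^ 2 * T σ σ' ^ q +
        if q = p then (if l = j then (1 / 4 : ℝ) ^ p * x' ^ 2 * T σ σ' ^ p else 0) else 0 := by
    intro q _
    by_cases h2 : (q, l) = (p, j)
    · obtain ⟨rfl, rfl⟩ := Prod.mk.inj h2
      simp
    · rw [Function.update_of_ne h2, Function.update_of_ne h2]
      by_cases h3 : q = p
      · have h4 : l ≠ j := fun h4 => h2 (by rw [h3, h4])
        simp [h4]
      · simp [h3]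
  rw [sum_congr rfl h1, sum_add_distrib, sum_ite_eq', if_pos (mem_range.2 hp)]
  have h5 : (1 / 4 : ℝ) ^ p = ((1 / 2) ^ p) ^ 2 := by
    rw [← pow_mul, mul_comm, pow_mul]; norm_num
  split_ifs
  · rw [h5]; ring
  · ring

lemma ggl_Cm {Sg : Type} (T Q : Sg → Sg → ℝ) {p : ℕ} (hp : p < P.M) {j : ℕ} (hj : j ≤ r) (x' : ℝ)
    (c c' : Cfg r b Sg) :
    Cm r b (P.wx P.x0 (Function.update P.x (p, j) x')) T Q c c' =
      Cm r b (P.wx P.x0 (Function.update P.x (p, j) 0)) T Q c c' +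
        x' ^ 2 * (P.s * (1 / 2) ^ p) ^ 2 *
          (T c.1 c'.1 ^ p * if j ≤ lev 1 r c.2 c'.2 then 1 else 0) := by
  unfold Cm
  have h1 : ∀ l ∈ range (r + 1), (if l ≤ lev 1 r c.2 c'.2 then
      Cl (P.wx P.x0 (Function.update P.x (p, j) x')) T Q l c.1 c'.1 else 0) =
      (if l ≤ lev 1 r c.2 c'.2 then
        Cl (P.wx P.x0 (Function.update P.x (p, j) 0)) T Q l c.1 c'.1 else 0) +
      if l = j then x' ^ 2 * (P.s * (1 / 2) ^ p) ^ 2 *
          (T c.1 c'.1 ^ p * if j ≤ lev 1 r c.2 c'.2 then 1 else 0) else 0 := by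
    intro l _
    rw [ggl_Cl T Q hp j x']
    by_cases h2 : l = j
    · subst h2
      split_ifs <;> simp
    · simp [h2]
  rw [sum_congr rfl h1, sum_add_distrib, sum_ite_eq', if_pos (mem_range.2 (Nat.lt_succ_of_le hj))]

variable (X : RM)

lemma ggl_E (n : ℕ) {G : X.Ω × (Nd b 1 r → ℝ) → (Fin n → Cfg r b X.Sg) → ℝ}
    (hG : ∀ σ, Measurable fun w => G w σ) {B : ℝ} (hB : ∀ w σ, |G w σ| ≤ B) :
    ∫ w, Avg n (Hm r b m P (X.h w.1) (X.T w.1) w.2) (Cm r b P (X.T w.1) (X.Q w.1)) (G w)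
      ∂X.P.prod (Pu b m 1 r) = (X.sys r b m P).E n (fun z σ => G z.1 σ) := by
  have h1 := (X.sys r b m P).integrable_av n (F := fun z σ => G z.1 σ)
    (fun σ => (hG σ).comp measurable_fst) fun z σ => hB z.1 σ
  refine Eq.trans ?_ (integral_prod _ h1).symm
  refine integral_congr_ae (Eventually.of_forall fun w => ?_)
  exact (X.rmb_inner (f := fun H => av n H (G w))
    (measurable_av n measurable_pi_apply fun _ => measurable_const) w).symm

lemma ggl_F (hm : MOk r m) (hP : P.Ok) :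
    ∫ w, Phi (Hm r b m P (X.h w.1) (X.T w.1) w.2) (Cm r b P (X.T w.1) (X.Q w.1))
      ∂X.P.prod (Pu b m 1 r) = X.F r b m P :=
  integral_prod _ (X.rmb_integrable_Phi (b := b) hm hP)

lemma ggl_dev (hm : MOk r m) (hP : P.Ok) :
    ∫ w, ∫ y, |lz (Hm r b m P (X.h w.1) (X.T w.1) w.2 + y) - X.F r b m P|
      ∂gK (Cm r b P (X.T w.1) (X.Q w.1)) ∂X.P.prod (Pu b m 1 r) = X.dev r b m P := by
  have h1 := ((X.rmb_integrable_lz (b := b) hm hP).sub (integrable_const (X.F r b m P))).abs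
  refine Eq.trans ?_ (integral_prod _ h1).symm
  refine integral_congr_ae (Eventually.of_forall fun w => ?_)
  exact (X.rmb_inner (f := fun H => |lz H - X.F r b m P|)
    (continuous_lz.sub continuous_const).abs.measurable w).symm

/-- mean self overlap -/
def gglD (r : ℕ) (b : ℕ → ℕ) (m : ℕ → ℝ) (P : Pr) : ℝ :=
  (X.sys r b m P).E 1 fun z σ => X.T z.1.1 (σ 0).1 (σ 0).1

/-- mean deviation of the self overlap from `d` -/
def gglE (r : ℕ) (b : ℕ → ℕ) (m : ℕ → ℝ) (P : Pr) (d : ℝ) : ℝ :=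
  (X.sys r b m P).E 1 fun z σ => |X.T z.1.1 (σ 0).1 (σ 0).1 - d|

lemma ggl_mT (c c' : Cfg r b X.Sg) :
    Measurable fun z : (X.sys r b m P).Ω => X.T z.1.1 c.1 c'.1 :=
  (X.mT _ _).comp (measurable_fst.comp measurable_fst)

lemma ggl_bdev (ω : X.Ω) (σ : X.Sg) (d : ℝ) : |(|X.T ω σ σ - d|)| ≤ 1 + |d| := by
  rw [abs_abs]
  exact (abs_sub _ _).trans (by linarith [X.bT ω σ σ])

lemma ggl_D_le : |gglD X r b m P| ≤ 1 := Sys.abs_E_le _ 1 fun z _ => X.bT z.1.1 _ _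

lemma ggl_E_tri (d d' : ℝ) : |gglE X r b m P d| ≤ gglE X r b m P d' + |d' - d| := by
  have e1 := (X.sys r b m P).E_add 1 (F := fun z σ => |X.T z.1.1 (σ 0).1 (σ 0).1 - d'|)
    (G := fun _ _ => |d' - d|) (fun σ => ((ggl_mT X _ _).sub_const _).abs)
    (fun _ => measurable_const) (fun z σ => ggl_bdev X _ _ _) (fun _ _ => le_rfl)
  rw [Sys.E_const] at e1
  unfold gglE
  rw [← e1]
  refine ggl_abs_E_le _ 1 (fun σ => ((ggl_mT X _ _).sub_const _).abs.add_const _)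
    (B := 1 + |d'| + |d' - d|) (fun z σ => ?_) fun z σ => ?_
  · refine (abs_add_le _ _).trans ?_
    rw [abs_abs (d' - d)]
    linarith [ggl_bdev X z.1.1 (σ 0).1 d']
  · rw [abs_abs]
    exact abs_sub_le _ _ _

lemma ggl_self (hm : MOk r m) (hP : P.Ok) (hs : 0 < P.s) {D v : ℝ}
    (hflat : Flat r P.M P.s (fun x0 x => X.F r b m (P.wx x0 x)) P.x0 P.x D)
    (hdev : ∀ x0 x, InBox x0 x → X.dev r b m (P.wx x0 x) ≤ v) {δ : ℝ} (hδ : 0 < δ)
    (hδ' : δ ≤ 1 / 4) :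
    gglE X r b m P (gglD X r b m P) ≤ 48 * δ + 3 / δ * ((D + v + 1) / P.s ^ 2) := by
  have hs2 : 0 < P.s ^ 2 := by positivity
  let K : (X.sys r b m P).Ω → Cfg r b X.Sg → ℝ := fun z c => P.s ^ 2 * X.T z.1.1 c.1 c.1
  let H : (X.sys r b m P).Ω → Cfg r b X.Sg → ℝ := fun z c => (X.sys r b m P).H z c - P.x0 * K z c
  have mK : ∀ c, Measurable fun z => K z c := fun c => (ggl_mT X c c).const_mul _
  have iK : ∀ c, Integrable (fun z => K z c) (X.sys r b m P).P := fun c =>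
    (rmb_integrable (ggl_mT X c c) fun z => X.bT z.1.1 _ _).const_mul _
  have hH : ∀ x' z, (fun c => H z c + x' * K z c) = (X.sys r b m (P.wx x' P.x)).H z := by
    intro x' z
    funext c
    change Hm r b m P (X.h z.1.1) (X.T z.1.1) z.1.2 c +
      feat (sqr (Cm r b P (X.T z.1.1) (X.Q z.1.1))) z.2 c - P.x0 * K z c + x' * K z c =
      Hm r b m (P.wx x' P.x) (X.h z.1.1) (X.T z.1.1) z.1.2 c +
      feat (sqr (Cm r b P (X.T z.1.1) (X.Q z.1.1))) z.2 c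
    simp only [Hm, Pr.wx, K]
    ring
  have hbox : ∀ x' ∈ ({P.x0 - δ, P.x0, P.x0 + δ} : Set ℝ), InBox x' P.x := by
    intro x' hx'
    have h1 := hflat.m0.1
    have h2 := hflat.m0.2
    refine ⟨?_, hP.box.2⟩
    rcases hx' with rfl | rfl | rfl <;> constructor <;> linarith
  have hΦ : ∀ x' ∈ ({P.x0 - δ, P.x0, P.x0 + δ} : Set ℝ),
      ∫ z, lz (fun c => H z c + x' * K z c) ∂(X.sys r b m P).P = X.F r b m (P.wx x' P.x) := by
    intro x' hx'
    simp only [hH]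
    exact X.sys_F (P := P.wx x' P.x) hm ⟨hP.a_nonneg, hbox x' hx'⟩
  have key := sd (X.sys r b m P).P (H := H) (K := K)
    (fun c => ((X.sys r b m P).mH c).sub ((mK c).const_mul _)) mK
    (fun c => (X.integrable_sysH hm hP c).sub ((iK c).const_mul _)) iK (x := P.x0)
    (D := 16 * P.s ^ 2 * δ ^ 2 + D) (v := v) hδ
    (fun x' => ∫ z, lz (fun c => H z c + x' * K z c) ∂(X.sys r b m P).P) (fun _ => rfl)
    (by
      rw [hΦ _ (by simp), hΦ _ (by simp), hΦ _ (by simp)]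
      exact hflat.d0 δ ⟨hδ.le, hδ'⟩)
    (fun x' hx' => by
      rw [hΦ x' hx']
      simp only [hH]
      exact hdev x' P.x (hbox x' hx'))
  simp only [hH] at key
  have e0 : ∫ z, av1 ((X.sys r b m (P.wx P.x0 P.x)).H z) (K z) ∂(X.sys r b m P).P =
      P.s ^ 2 * gglD X r b m P := by
    unfold gglD
    rw [ggl_E_one (X.sys r b m P) fun z c => X.T z.1.1 c.1 c.1, ← integral_const_mul]
    exact integral_congr_ae (Eventually.of_forall fun z => av1_mul_left _ _ _)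
  rw [e0] at key
  have e1 : ∫ z, av1 ((X.sys r b m (P.wx P.x0 P.x)).H z)
      (fun c => |K z c - P.s ^ 2 * gglD X r b m P|) ∂(X.sys r b m P).P =
      P.s ^ 2 * gglE X r b m P (gglD X r b m P) := by
    unfold gglE
    rw [ggl_E_one (X.sys r b m P) fun z c => |X.T z.1.1 c.1 c.1 - gglD X r b m P|,
      ← integral_const_mul]
    refine integral_congr_ae (Eventually.of_forall fun z => ?_)
    have : (fun c => |K z c - P.s ^ 2 * gglD X r b m P|) =
        fun c => P.s ^ 2 * |X.T z.1.1 c.1 c.1 - gglD X r b m P| := by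
      funext c
      simp only [K]
      rw [← mul_sub, abs_mul, abs_of_pos hs2]
    simp only [this]
    exact av1_mul_left _ _ _
  rw [e1] at key
  have e2 : 48 * δ + 3 / δ * ((D + v + 1) / P.s ^ 2) =
      3 * (16 * P.s ^ 2 * δ ^ 2 + D + v + 1) / δ / P.s ^ 2 := by
    field_simp
    ring
  rw [e2, le_div_iff₀ hs2]
  linarith

lemma ggl_dir (hm : MOk r m) (hP : P.Ok) (hs : 0 < P.s) {D v : ℝ}
    (hflat : Flat r P.M P.s (fun x0 x => X.F r b m (P.wx x0 x)) P.x0 P.x D)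
    (hdev : ∀ x0 x, InBox x0 x → X.dev r b m (P.wx x0 x) ≤ v) {δ : ℝ} (hδ : 0 < δ)
    (hδ' : δ ≤ 1 / 4) {p j : ℕ} (hp : p < P.M) (hj : j ≤ r) (n : ℕ)
    {f : (Fin (n + 1) → Fin (n + 1) → VV r) → ℝ} (hf : Measurable f) (hb : ∀ A, |f A| ≤ 1)
    {d : ℝ} (hd : |d| ≤ 1) :
    |(X.sys r b m P).defect n f fun v => (v.1 : ℝ) ^ p * indL j v| ≤
      48 * δ + 3 * 4 ^ p / δ * ((D + v + 1) / P.s ^ 2) + 2 * p * gglE X r b m P d := by
  have hs2 : 0 < P.s ^ 2 := by positivity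
  let ξ : X.Ω × (Nd b 1 r → ℝ) → Cfg r b X.Sg → Cfg r b X.Sg → ℝ := fun w c c' =>
    X.T w.1 c.1 c'.1 ^ p * if j ≤ lev 1 r c.2 c'.2 then 1 else 0
  let F : X.Ω × (Nd b 1 r → ℝ) → (Fin (n + 1) → Cfg r b X.Sg) → ℝ := fun w σ =>
    f fun a a' => Rm r b (X.T w.1) (σ a) (σ a')
  let C : ℝ → X.Ω × (Nd b 1 r → ℝ) → Cfg r b X.Sg → Cfg r b X.Sg → ℝ := fun x' w =>
    Cm r b (P.wx P.x0 (Function.update P.x (p, j) x')) (X.T w.1) (X.Q w.1)
  have mξ : ∀ c c', Measurable fun w => ξ w c c' := fun c c' =>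
    (((X.mT _ _).comp measurable_fst).pow_const p).mul_const _
  have pξ : ∀ w, PSD (ξ w) := fun w =>
    (((X.pT w.1).pow p).comp Prod.fst).mul ((psd_lev 1 r j).comp Prod.snd)
  have bξ : ∀ w c c', |ξ w c c'| ≤ 1 := fun w c c' => by
    simp only [ξ]
    rw [abs_mul, abs_pow]
    refine mul_le_one₀ (pow_le_one₀ (abs_nonneg _) (X.bT _ _ _)) (abs_nonneg _) ?_
    split_ifs <;> simp
  have mF : ∀ σ, Measurable fun w => F w σ := fun σ =>
    hf.comp (measurable_pi_lambda _ fun a => measurable_pi_lambda _ fun a' =>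
      ((continuous_projIcc.measurable).comp ((X.mT _ _).comp measurable_fst)).prodMk
        measurable_const)
  have bF : ∀ w σ, |F w σ| ≤ 1 := fun w σ => hb _
  have hC : ∀ x' w c c', C x' w c c' = C 0 w c c' + x' ^ 2 * (P.s * (1 / 2) ^ p) ^ 2 * ξ w c c' :=
    fun x' w c c' => ggl_Cm _ _ hp hj x' c c'
  have hCx : ∀ w, C (P.x (p, j)) w = Cm r b P (X.T w.1) (X.Q w.1) := fun w => by
    simp only [C, Function.update_eq_self]
    rfl
  have hbox : ∀ x' ∈ ({P.x (p, j) - δ, P.x (p, j), P.x (p, j) + δ} : Set ℝ),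
      InBox P.x0 (Function.update P.x (p, j) x') := by
    intro x' hx'
    have h1 := (hflat.m1 p hp j hj).1
    have h2 := (hflat.m1 p hp j hj).2
    refine ⟨hP.box.1, fun k => ?_⟩
    by_cases hk : k = (p, j)
    · rw [hk, Function.update_self]
      rcases hx' with rfl | rfl | rfl <;> constructor <;> linarith
    · rw [Function.update_of_ne hk]
      exact hP.box.2 k
  have hΦ : ∀ x' ∈ ({P.x (p, j) - δ, P.x (p, j), P.x (p, j) + δ} : Set ℝ),
      ∫ w, Phi (Hm r b m P (X.h w.1) (X.T w.1) w.2) (C x' w) ∂X.P.prod (Pu b m 1 r) =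
        X.F r b m (P.wx P.x0 (Function.update P.x (p, j) x')) := fun x' hx' =>
    ggl_F (P := P.wx P.x0 (Function.update P.x (p, j) x')) X hm ⟨hP.a_nonneg, hbox x' hx'⟩
  have key := gg1 (X.P.prod (Pu b m 1 r)) (H := fun w => Hm r b m P (X.h w.1) (X.T w.1) w.2)
    (C0 := C 0) (ξ := ξ) (X.measurable_Hm r b m P)
    (fun c => ((rmb_integrable ((X.mh c.1).add ((X.mT c.1 c.1).const_mul _))
      fun ω => X.rmb_abs_det hP ω c.1).comp_fst _).add ((integrable_lw hm c.2).comp_snd _))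
    (fun c c' => (X.measurable_Cm r b _ c c').comp measurable_fst) mξ
    (fun w => psd_Cm (P := P.wx P.x0 (Function.update P.x (p, j) 0)) hP.a_nonneg (X.pT _) (X.pQ _))
    pξ (V := ∑ l ∈ range (r + 1), (P.a l * X.BQ + 6 * P.s ^ 2))
    (fun w c => by
      have h1 := hC (P.x (p, j)) w c c
      have h2 := X.rmb_diag hP w.1 c
      have h3 := mul_nonneg (mul_nonneg (sq_nonneg (P.x (p, j))) (sq_nonneg (P.s * (1 / 2) ^ p)))
        ((pξ w).diag_nonneg c)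
      rw [hCx] at h1
      linarith)
    bξ (c := P.s * (1 / 2) ^ p) (x := P.x (p, j)) (δ := δ)
    (D := 16 * P.s ^ 2 * (1 / 4 : ℝ) ^ p * δ ^ 2 + D) (v := v) (by positivity)
    (hP.box.2 _).1 hδ C hC
    (fun x' => ∫ w, Phi (Hm r b m P (X.h w.1) (X.T w.1) w.2) (C x' w) ∂X.P.prod (Pu b m 1 r))
    (fun _ => rfl)
    (by
      rw [hΦ _ (by simp), hΦ _ (by simp), hΦ _ (by simp), Function.update_eq_self]
      exact hflat.d1 p hp j hj δ ⟨hδ.le, hδ'⟩)
    (fun x' hx' => by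
      rw [hΦ x' hx']
      exact (ggl_dev (P := P.wx P.x0 (Function.update P.x (p, j) x')) X hm
        ⟨hP.a_nonneg, hbox x' hx'⟩).le.trans (hdev _ _ (hbox x' hx')))
    n F mF bF
  have bFξ : ∀ w σ c c', |F w σ * ξ w c c'| ≤ 1 := fun w σ c c' => by
    rw [abs_mul]; exact mul_le_one₀ (bF _ _) (abs_nonneg _) (bξ _ _ _)
  have mFξ : ∀ σ c c', Measurable fun w => F w σ * ξ w c c' := fun σ c c' => (mF _).mul (mξ _ _)
  have bS : ∀ w (σ : Fin (n + 1) → Cfg r b X.Sg),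
      |∑ l : Fin n, F w σ * ξ w (σ 0) (σ l.succ)| ≤ ∑ _l : Fin n, (1 : ℝ) := fun w σ =>
    (abs_sum_le_sum_abs _ _).trans (sum_le_sum fun l _ => bFξ _ _ _ _)
  have mS : ∀ σ : Fin (n + 1) → Cfg r b X.Sg,
      Measurable fun w => ∑ l : Fin n, F w σ * ξ w (σ 0) (σ l.succ) := fun σ =>
    Finset.measurable_sum _ fun l _ => mFξ _ _ _
  have r1 := ggl_E (m := m) (P := P) X (n + 2)
    (G := fun w σ => F w (fun l => σ l.castSucc) * ξ w (σ 0) (σ (Fin.last _)))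
    (fun σ => mFξ _ _ _) (fun w σ => bFξ _ _ _ _)
  have r2 := ggl_E (m := m) (P := P) X (n + 1) mF bF
  have r3 := ggl_E (m := m) (P := P) X 1 (G := fun w σ => ξ w (σ 0) (σ 0))
    (fun σ => mξ _ _) (fun w σ => bξ _ _ _)
  have r4 := ggl_E (m := m) (P := P) X 2 (G := fun w σ => ξ w (σ 0) (σ 1))
    (fun σ => mξ _ _) (fun w σ => bξ _ _ _)
  have r5 := ggl_E (m := m) (P := P) X (n + 1)
    (G := fun w σ => F w σ * ξ w (σ 0) (σ 0) + ∑ l : Fin n, F w σ * ξ w (σ 0) (σ l.succ))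
    (fun σ => (mFξ _ _ _).add (mS σ))
    (fun w σ => (abs_add_le _ _).trans (add_le_add (bFξ _ _ _ _) (bS w σ)))
  have r6 := (X.sys r b m P).E_add (n + 1) (F := fun z σ => F z.1 σ * ξ z.1 (σ 0) (σ 0))
    (G := fun z σ => ∑ l : Fin n, F z.1 σ * ξ z.1 (σ 0) (σ l.succ))
    (fun σ => (mFξ _ _ _).comp measurable_fst) (fun σ => (mS σ).comp measurable_fst)
    (fun z σ => bFξ _ _ _ _) (fun z σ => bS _ _)
  have r7 := ggl_E_sum (X.sys r b m P) univ (n + 1)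
    (G := fun (l : Fin n) z σ => F z.1 σ * ξ z.1 (σ 0) (σ l.succ))
    (fun l σ => (mFξ _ _ _).comp measurable_fst) (fun l z σ => bFξ _ _ _ _)
  have r8 : ∀ w, (fun σ : Fin (n + 1) → Cfg r b X.Sg => F w σ * ∑ l, ξ w (σ 0) (σ l)) =
      fun σ => F w σ * ξ w (σ 0) (σ 0) + ∑ l : Fin n, F w σ * ξ w (σ 0) (σ l.succ) := fun w => by
    funext σ
    rw [Fin.sum_univ_succ, mul_add, mul_sum]
  simp only [hCx, ← Avg_one, r8] at key
  rw [r1, r2, r3, r4, r5, r6, r7] at key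
  have hψ : ∀ (z : (X.sys r b m P).Ω) c c', (((X.sys r b m P).R z c c').1 : ℝ) ^ p *
      indL j ((X.sys r b m P).R z c c') = ξ z.1 c c' := fun z c c' => by
    change ((Rm r b (X.T z.1.1) c c').1 : ℝ) ^ p * indL j (Rm r b (X.T z.1.1) c c') = _
    rw [Rm_fst (X.bT _), indL, Rm_snd]
  have hdiag : ∀ (z : (X.sys r b m P).Ω) c, |ξ z.1 c c - d ^ p| ≤ p * |X.T z.1.1 c.1 c.1 - d| := by
    intro z c
    simp only [ξ, lev_self, if_pos hj, mul_one]
    refine (abs_pow_sub_pow_le _ _ _).trans ?_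
    rw [mul_comm |X.T z.1.1 c.1 c.1 - d|]
    exact mul_le_of_le_one_right (by positivity)
      (pow_le_one₀ (le_max_of_le_left (abs_nonneg _)) (max_le (X.bT _ _ _) hd))
  have bt : ∀ (z : (X.sys r b m P).Ω) (c : Cfg r b X.Sg),
      |(p : ℝ) * (|X.T z.1.1 c.1 c.1 - d|)| ≤ p * (1 + |d|) := fun z c => by
    rw [abs_mul, Nat.abs_cast]
    exact mul_le_mul_of_nonneg_left (ggl_bdev X _ _ _) (Nat.cast_nonneg _)
  have d1 := ggl_diag (X.sys r b m P) n (F := fun z σ => F z.1 σ) (g := fun z c => ξ z.1 c c)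
    (fun σ => (mF σ).comp measurable_fst) (fun z σ => bF _ _)
    (fun c => (mξ c c).comp measurable_fst) (fun z c => bξ _ _ _)
    (fun c => ((ggl_mT X c c).sub_const d).abs.const_mul _) bt (d ^ p) hdiag
  have d2 := ggl_diag (X.sys r b m P) 0 (F := fun _ _ => 1) (g := fun z c => ξ z.1 c c)
    (fun σ => measurable_const) (fun z σ => by simp)
    (fun c => (mξ c c).comp measurable_fst) (fun z c => bξ _ _ _)
    (fun c => ((ggl_mT X c c).sub_const d).abs.const_mul _) bt (d ^ p) hdiag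
  have d0 : (X.sys r b m P).E 1 (fun z σ => (p : ℝ) * |X.T z.1.1 (σ 0).1 (σ 0).1 - d|) =
      p * gglE X r b m P d := Sys.E_mul_left _ _ _ _
  rw [d0] at d1 d2
  simp only [one_mul, Sys.E_const, mul_one] at d2
  have d3 : |(X.sys r b m P).E (n + 1) fun z σ => F z.1 σ| ≤ 1 := Sys.abs_E_le _ _ fun z σ => bF _ _
  have e2 : 48 * δ + 3 * 4 ^ p / δ * ((D + v + 1) / P.s ^ 2) =
      3 * (16 * P.s ^ 2 * (1 / 4 : ℝ) ^ p * δ ^ 2 + D + v + 1) / (δ * (P.s * (1 / 2) ^ p) ^ 2) := by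
    have h5 : (4 : ℝ) ^ p = (2 ^ p) ^ 2 := by
      rw [← pow_mul, mul_comm, pow_mul]; norm_num
    simp only [one_div, inv_pow, h5]
    field_simp
    ring
  unfold Sys.defect
  simp only [hψ]
  rw [e2]
  change |((n : ℝ) + 1) * (X.sys r b m P).E (n + 2)
      (fun z σ => F z.1 (fun l => σ l.castSucc) * ξ z.1 (σ 0) (σ (Fin.last _))) -
    (X.sys r b m P).E (n + 1) (fun z σ => F z.1 σ) *
      (X.sys r b m P).E 2 (fun z σ => ξ z.1 (σ 0) (σ 1)) -
    ∑ l : Fin n, (X.sys r b m P).E (n + 1) fun z σ => F z.1 σ * ξ z.1 (σ 0) (σ l.succ)| ≤ _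
  change |(X.sys r b m P).E 1 (fun z σ => ξ z.1 (σ 0) (σ 0)) - d ^ p| ≤ _ at d2
  generalize (X.sys r b m P).E (n + 2)
      (fun z σ => F z.1 (fun l => σ l.castSucc) * ξ z.1 (σ 0) (σ (Fin.last _))) = a1 at *
  generalize (X.sys r b m P).E (n + 1) (fun z σ => F z.1 σ) = a2 at *
  generalize (X.sys r b m P).E 2 (fun z σ => ξ z.1 (σ 0) (σ 1)) = a3 at *
  generalize (∑ l : Fin n, (X.sys r b m P).E (n + 1)
    fun z σ => F z.1 σ * ξ z.1 (σ 0) (σ l.succ)) = a4 at *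
  generalize (X.sys r b m P).E (n + 1) (fun z σ => F z.1 σ * ξ z.1 (σ 0) (σ 0)) = a5 at *
  generalize (X.sys r b m P).E 1 (fun z σ => ξ z.1 (σ 0) (σ 0)) = a6 at *
  have d4 : |a2 * (a6 - d ^ p)| ≤ p * gglE X r b m P d := by
    rw [abs_mul]
    exact (mul_le_of_le_one_left (abs_nonneg _) d3).trans d2
  have e3 : ((n : ℝ) + 1) * a1 - a2 * a3 - a4 = (((n : ℝ) + 1) * a1 - (a5 + a4) + a2 * (a6 - a3)) +
      (a5 - d ^ p * a2) - a2 * (a6 - d ^ p) := by ring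
  rw [e3]
  have t1 := abs_sub ((((n : ℝ) + 1) * a1 - (a5 + a4) + a2 * (a6 - a3)) + (a5 - d ^ p * a2))
    (a2 * (a6 - d ^ p))
  have t2 := abs_add_le (((n : ℝ) + 1) * a1 - (a5 + a4) + a2 * (a6 - a3)) (a5 - d ^ p * a2)
  linarith

end Finite

theorem gg_lim {r : ℕ} (X : ℕ → RM) {m : ℕ → ℝ} (hm : MOk r m) (b : ℕ → ℕ → ℕ) (P : ℕ → Pr)
    (hP : ∀ i, (P i).Ok) (hs : ∀ i, 0 < (P i).s) (D v : ℕ → ℝ)
    (hflat : ∀ i, Flat r (P i).M (P i).s (fun x0 x => (X i).F r (b i) m ((P i).wx x0 x))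
      (P i).x0 (P i).x (D i))
    (hdev : ∀ i x0 x, InBox x0 x → (X i).dev r (b i) m ((P i).wx x0 x) ≤ v i)
    (hM : Tendsto (fun i => (P i).M) (hyperfilter ℕ) atTop)
    (hlim : Tendsto (fun i => (D i + v i + 1) / (P i).s ^ 2) (hyperfilter ℕ) (𝓝 0)) :
    ∃ (G : GGA (VV r)) (d : ℝ), Conv (fun i => (X i).sys r (b i) m (P i)) G ∧
      G.Gram (fun v => (v.1 : ℝ)) d ∧ G.Gram (fun v => ((v.2 : ℕ) : ℝ)) r := by
  obtain ⟨d, hd, hdl⟩ := isCompact_Icc.ultrafilter_le_nhds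
    ((hyperfilter ℕ).map fun i => gglD (X i) r (b i) m (P i)) (s := Set.Icc (-1 : ℝ) 1) (by
      rw [Ultrafilter.coe_map, ← Tendsto, tendsto_principal]
      exact Eventually.of_forall fun i => abs_le.1 (ggl_D_le (X i)))
  have hd1 : |d| ≤ 1 := abs_le.2 hd
  have hdl' : Tendsto (fun i => gglD (X i) r (b i) m (P i)) (hyperfilter ℕ) (𝓝 d) := hdl
  have h1 : Tendsto (fun i => |gglD (X i) r (b i) m (P i) - d|) (hyperfilter ℕ) (𝓝 0) := by
    simpa using (hdl'.sub_const d).abs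
  have hE : Tendsto (fun i => gglE (X i) r (b i) m (P i) d) (hyperfilter ℕ) (𝓝 0) :=
    ggl_lim (K := 3) hlim h1 fun δ hδ hδ' => Eventually.of_forall fun i =>
      (ggl_E_tri (X i) d _).trans (add_le_add_left
        (ggl_self (X i) hm (hP i) (hs i) (hflat i) (hdev i) hδ hδ') _)
  obtain ⟨G, hG⟩ := exists_gga (fun i => (X i).sys r (b i) m (P i)) fun n p j f hj hf hb => by
    have h2 : Tendsto (fun i => 2 * p * gglE (X i) r (b i) m (P i) d) (hyperfilter ℕ) (𝓝 0) := by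
      simpa using hE.const_mul (2 * (p : ℝ))
    refine ggl_lim (K := 3 * 4 ^ p) hlim h2 fun δ hδ hδ' => ?_
    filter_upwards [hM.eventually (eventually_gt_atTop p)] with i hi
    exact ggl_dir (X i) hm (hP i) (hs i) (hflat i) (hdev i) hδ hδ' hi hj n hf.measurable hb hd1
  have hR : ∀ i (ω : (X i).Ω) (c c' : Cfg r (b i) (X i).Sg),
      ((Rm r (b i) ((X i).T ω) c c').1 : ℝ) = (X i).T ω c.1 c'.1 :=
    fun i ω c c' => Rm_fst ((X i).bT _) c c'
  refine ⟨G, d, hG, hG.gram (φ := fun v => (v.1 : ℝ))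
    (continuous_subtype_val.comp continuous_fst) (fun i z => ?_) ?_,
    hG.gram (φ := fun v => ((v.2 : ℕ) : ℝ))
      (continuous_of_discreteTopology.comp continuous_lvl) (fun i z => ?_) ?_⟩
  · simp only [hR]
    exact ((X i).pT _).comp Prod.fst
  · simp only [hR]
    exact hE
  · simp only [Rm_snd]
    have h3 := (psd_sum (range r) fun l _ => psd_lev (b := b i) 1 r (l + 1)).comp
      (Prod.snd : Cfg r (b i) (X i).Sg → _)
    have h4 : ∀ a : ℕ, a ≤ r → ∑ l ∈ range r, (if l + 1 ≤ a then (1 : ℝ) else 0) = a := by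
      intro a ha
      rw [← sum_filter, sum_const, nsmul_eq_mul, mul_one]
      congr 1
      have : (range r).filter (fun l => l + 1 ≤ a) = range a := by
        ext l
        simp only [mem_filter, mem_range]
        omega
      rw [this, card_range]
    simp only [h4 _ (lev_le _ _ _ _)] at h3
    exact h3
  · simp only [Rm_snd, lev_self, sub_self, abs_zero, Sys.E_const]
    exact tendsto_const_nhds


end

end Vale.Agent.P166
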