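import Vale.Agent.P166.Cmp

/-! P166 Ibp: Gaussian integration by parts for Gibbs averages.
Plan. ibp1: one dimensional, integral against the density, integral_mul_deriv_eq_deriv_mul_of_integrable (or
integral_of_hasDerivAt_of_tendsto for F * density). ibp: split off coordinate i with Measure.pi (MeasurableEquiv.piEquivPiSubtypeProd or
integral over Function.update: measurePreserving of (g,t) -> update g i t, or marginal integrals), Fubini, ibp1.
gibp: feat a g (sigma 0) = sum_i a (sigma 0) i g_i; apply ibp to G_i g = av (H + feat a g) (F * a (sigma 0) i), whose derivative in g_i is given by hasDerivAt_av with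
K = a . i; sum over i; av (n+1) F a(s0) i * av1 (a . i) = av (n+2) (...) by av_append (k = 1) or av_comp_inj and av_prod. -/

open MeasureTheory ProbabilityTheory Filter Topology Matrix Finset

namespace Vale.Agent.P166

noncomputable section

lemma ibp_int {f : ℝ → ℝ} (hf : Integrable f (gaussianReal 0 1)) :
    Integrable fun x => f x * gaussianPDFReal 0 1 x := by
  rw [gaussianReal_of_var_ne_zero _ one_ne_zero, integrable_withDensity_iff
    (measurable_gaussianPDF _ _) (ae_of_all _ fun _ => gaussianPDF_lt_top)] at hf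
  simpa only [toReal_gaussianPDF] using hf

lemma ibp_pdf (x : ℝ) :
    HasDerivAt (gaussianPDFReal 0 1) (-x * gaussianPDFReal 0 1 x) x := by
  rw [gaussianPDFReal_def]
  have h := ((((hasDerivAt_id x).sub_const 0).pow 2).neg.div_const
    (2 * ((1 : NNReal) : ℝ))).exp.const_mul (√(2 * Real.pi * ((1 : NNReal) : ℝ)))⁻¹
  refine h.congr_deriv ?_
  simp only [id, NNReal.coe_one, Pi.neg_apply, Pi.pow_apply]
  ring

lemma ibp_id : Integrable (fun x : ℝ => x) (gaussianReal 0 1) :=
  (memLp_id_gaussianReal' 1 (by simp)).integrable le_rfl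

lemma ibp1 {F F' : ℝ → ℝ} (hF : ∀ t, HasDerivAt F (F' t) t) (hm : Measurable F') {B : ℝ}
    (hb : ∀ t, |F t| ≤ B) (hb' : ∀ t, |F' t| ≤ B) :
    ∫ t, t * F t ∂gaussianReal 0 1 = ∫ t, F' t ∂gaussianReal 0 1 := by
  have hc : Measurable F :=
    (continuous_iff_continuousAt.2 fun x => (hF x).continuousAt).measurable
  have i0 : Integrable F (gaussianReal 0 1) :=
    Integrable.of_bound hc.aestronglyMeasurable B (ae_of_all _ hb)
  have i1 : Integrable F' (gaussianReal 0 1) :=
    Integrable.of_bound hm.aestronglyMeasurable B (ae_of_all _ hb')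
  have i2 : Integrable (fun x => x * F x) (gaussianReal 0 1) :=
    ibp_id.mul_bdd hc.aestronglyMeasurable (ae_of_all _ hb)
  have key := integral_eq_zero_of_hasDerivAt_of_integrable
    (f' := fun x => (F' x - x * F x) * gaussianPDFReal 0 1 x)
    (fun x => ((hF x).mul (ibp_pdf x)).congr_deriv (by ring)) (ibp_int (i1.sub i2)) (ibp_int i0)
  rw [eq_comm, ← sub_eq_zero, ← integral_sub i1 i2,
    integral_gaussianReal_eq_integral_smul one_ne_zero]
  simpa only [smul_eq_mul, mul_comm] using key

lemma ibp_mix {ι : Type} [Fintype ι] (r : ι → Prop) [DecidablePred r] :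
    MeasurePreserving (fun p : (ι → ℝ) × (ι → ℝ) => fun c => if r c then p.2 c else p.1 c)
      ((gam ι).prod (gam ι)) (gam ι) := by
  have hm : Measurable (fun p : (ι → ℝ) × (ι → ℝ) => fun c => if r c then p.2 c else p.1 c) := by
    refine measurable_pi_lambda _ fun c => ?_
    split_ifs <;> fun_prop
  refine ⟨hm, (Measure.pi_eq fun s hs => ?_).symm⟩
  rw [Measure.map_apply hm (MeasurableSet.univ_pi hs)]
  have e : (fun p : (ι → ℝ) × (ι → ℝ) => fun c => if r c then p.2 c else p.1 c) ⁻¹'
      Set.pi Set.univ s = (Set.pi Set.univ fun c => if r c then Set.univ else s c) ×ˢ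
        (Set.pi Set.univ fun c => if r c then s c else Set.univ) := by
    ext p
    simp only [Set.mem_preimage, Set.mem_pi, Set.mem_univ, true_imp_iff, Set.mem_prod,
      ← forall_and]
    refine forall_congr' fun c => ?_
    split_ifs <;> simp
  rw [e, Measure.prod_prod, Measure.pi_pi, Measure.pi_pi, ← Finset.prod_mul_distrib]
  refine Finset.prod_congr rfl fun c _ => ?_
  split_ifs <;> simp

lemma ibp_upd {ι : Type} [Fintype ι] [DecidableEq ι] (c : ι) :
    MeasurePreserving (fun p : (ι → ℝ) × ℝ => Function.update p.1 c p.2)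
      ((gam ι).prod (gaussianReal 0 1)) (gam ι) := by
  have h1 := (MeasurePreserving.id (gam ι)).prod
    (measurePreserving_eval (fun _ : ι => gaussianReal 0 1) c)
  have hm : Measurable fun p : (ι → ℝ) × ℝ => Function.update p.1 c p.2 := measurable_update'
  refine ⟨hm, ?_⟩
  have e : (fun p : (ι → ℝ) × ℝ => Function.update p.1 c p.2) ∘ Prod.map id (Function.eval c) =
      fun p : (ι → ℝ) × (ι → ℝ) => fun i => if i = c then p.2 i else p.1 i := by
    funext p i
    simp only [Function.comp, Prod.map, id, Function.update_apply, Function.eval]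
    split_ifs with h
    · rw [h]
    · rfl
  rw [← h1.map_eq, Measure.map_map hm h1.measurable, e]
  exact (ibp_mix (· = c)).map_eq

lemma ibp_resample {ι : Type} [Fintype ι] [DecidableEq ι] (c : ι) {f : (ι → ℝ) → ℝ}
    (hf : Integrable f (gam ι)) :
    ∫ g, f g ∂(gam ι) = ∫ g, ∫ t, f (Function.update g c t) ∂(gaussianReal 0 1) ∂(gam ι) := by
  have h := ibp_upd (ι := ι) c
  refine Eq.trans ?_ (integral_prod _ (h.integrable_comp_of_integrable hf))
  conv_lhs => rw [← h.map_eq]
  exact integral_map h.measurable.aemeasurable (by rw [h.map_eq]; exact hf.aestronglyMeasurable)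

lemma ibp_coord {ι : Type} [Fintype ι] (c : ι) : Integrable (fun g : ι → ℝ => g c) (gam ι) :=
  (measurePreserving_eval (fun _ : ι => gaussianReal 0 1) c).integrable_comp_of_integrable ibp_id

lemma ibp {I : Type} [Fintype I] [DecidableEq I] (i : I) {F F' : (I → ℝ) → ℝ}
    (hF : ∀ g t, HasDerivAt (fun t => F (Function.update g i t)) (F' (Function.update g i t)) t)
    (hm : Measurable F) (hm' : Measurable F') {B : ℝ} (hb : ∀ g, |F g| ≤ B) (hb' : ∀ g, |F' g| ≤ B) :
    ∫ g, g i * F g ∂gam I = ∫ g, F' g ∂gam I := by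
  rw [ibp_resample i ((ibp_coord i).mul_bdd hm.aestronglyMeasurable (ae_of_all _ hb)),
    ibp_resample i (Integrable.of_bound hm'.aestronglyMeasurable B (ae_of_all _ hb'))]
  refine integral_congr_ae (ae_of_all _ fun g => ?_)
  simp only [Function.update_self]
  exact ibp1 (hF g) (hm'.comp (measurable_update g)) (fun x => hb _) fun x => hb' _

lemma ibp_av_bd {S : Type} [Fintype S] [Nonempty S] (n : ℕ) (F : (Fin n → S) → ℝ) (H : S → ℝ) :
    |av n H F| ≤ ∑ σ, |F σ| :=
  abs_av_le_const n H fun σ =>
    Finset.single_le_sum (f := fun σ => |F σ|) (fun _ _ => abs_nonneg _) (mem_univ σ)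

lemma ibp_av_meas {S I : Type} [Fintype S] [Fintype I] (n : ℕ) (H : S → ℝ) (a : S → I → ℝ)
    (F : (Fin n → S) → ℝ) : Measurable fun g => av n (H + feat a g) F :=
  measurable_av n (fun s => measurable_const.add ((measurable_pi_apply s).comp (measurable_feat a)))
    fun _ => measurable_const

lemma ibp_av_int {S I : Type} [Fintype S] [Nonempty S] [Fintype I] (n : ℕ) (H : S → ℝ)
    (a : S → I → ℝ) (F : (Fin n → S) → ℝ) :
    Integrable (fun g => av n (H + feat a g) F) (gam I) :=
  Integrable.of_bound (ibp_av_meas n H a F).aestronglyMeasurable _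
    (ae_of_all _ fun _ => ibp_av_bd n F _)

lemma ibp_av_snoc {S : Type} [Fintype S] (n : ℕ) (H : S → ℝ) (F : (Fin n → S) → ℝ) (g : S → ℝ) :
    av (n + 1) H (fun σ => F (fun l => σ l.castSucc) * g (σ (Fin.last _))) =
      av n H F * av1 H g := by
  have h := av_append n 1 H F g
  rw [pow_one] at h
  rw [← h]
  simp only [Fin.prod_univ_one]
  rfl

lemma ibp_feat_update {S I : Type} [Fintype I] [DecidableEq I] (H : S → ℝ) (a : S → I → ℝ)
    (g : I → ℝ) (i : I) (t : ℝ) : H + feat a (Function.update g i t) =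
      fun s => (H s + ∑ j ∈ univ.erase i, a s j * g j) + t * a s i := by
  funext s
  rw [Pi.add_apply, feat, ← Finset.add_sum_erase _ _ (mem_univ i), Function.update_self,
    Finset.sum_congr rfl fun j hj => by rw [Function.update_of_ne (ne_of_mem_erase hj)]]
  ring

lemma ibp_av {S I : Type} [Fintype S] [Nonempty S] [Fintype I] (n : ℕ) (H : S → ℝ)
    (a : S → I → ℝ) (G : (Fin n → S) → ℝ) (i : I) :
    ∫ g, g i * av n (H + feat a g) G ∂gam I =
      ∫ g, (av n (H + feat a g) (fun σ => G σ * ∑ l, a (σ l) i) - (n : ℝ) *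
        av (n + 1) (H + feat a g) fun σ => G (fun l => σ l.castSucc) * a (σ (Fin.last _)) i)
          ∂gam I := by
  classical
  refine ibp i (B := ∑ σ, |G σ| + (∑ σ : Fin n → S, |G σ * ∑ l, a (σ l) i| + (n : ℝ) *
    ∑ σ : Fin (n + 1) → S, |G (fun l => σ l.castSucc) * a (σ (Fin.last _)) i|)) (fun g t => ?_)
    (ibp_av_meas n H a G) ((ibp_av_meas n H a _).sub ((ibp_av_meas _ H a _).const_mul _))
    (fun g => (ibp_av_bd n G _).trans (le_add_of_nonneg_right (by positivity))) fun g => ?_
  · simp only [ibp_feat_update]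
    rw [ibp_av_snoc n _ G fun s => a s i, ← mul_assoc]
    exact hasDerivAt_av n _ (fun s => a s i) G t
  · refine (abs_sub _ _).trans (le_add_of_nonneg_of_le (by positivity)
      (add_le_add (ibp_av_bd n _ _) ?_))
    rw [abs_mul, Nat.abs_cast]
    exact mul_le_mul_of_nonneg_left (ibp_av_bd _ _ _) (Nat.cast_nonneg n)

lemma gibp {S I : Type} [Fintype S] [Nonempty S] [Fintype I] (n : ℕ) (H : S → ℝ) (a : S → I → ℝ)
    (F : (Fin (n + 1) → S) → ℝ) :
    ∫ g, av (n + 1) (H + feat a g) (fun σ => F σ * feat a g (σ 0)) ∂gam I =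
      ∫ g, (av (n + 1) (H + feat a g) (fun σ => F σ * ∑ l, gram a (σ 0) (σ l)) -
        ((n : ℝ) + 1) * av (n + 2) (H + feat a g)
          (fun σ => F (fun l => σ l.castSucc) * gram a (σ 0) (σ (Fin.last _)))) ∂gam I := by
  have e1 : ∀ g, av (n + 1) (H + feat a g) (fun σ => F σ * feat a g (σ 0)) =
      ∑ i, g i * av (n + 1) (H + feat a g) (fun σ => F σ * a (σ 0) i) := fun g => by
    simp only [← av_mul_left, ← av_sum]
    congr 1
    funext σ
    rw [feat, Finset.mul_sum]
    exact Finset.sum_congr rfl fun i _ => by ring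
  simp only [e1]
  rw [integral_finsetSum _ fun i _ => (ibp_coord i).mul_bdd
    (ibp_av_meas _ H a _).aestronglyMeasurable (ae_of_all _ fun _ => ibp_av_bd _ _ _),
    Finset.sum_congr rfl fun i _ => ibp_av (n + 1) H a (fun σ => F σ * a (σ 0) i) i,
    ← integral_finsetSum]
  swap
  · exact fun i _ => (ibp_av_int _ H a _).sub ((ibp_av_int _ H a _).const_mul _)
  refine integral_congr_ae (ae_of_all _ fun g => ?_)
  simp only [Finset.sum_sub_distrib, ← Finset.mul_sum, ← av_sum, Nat.cast_add, Nat.cast_one]
  congr 2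
  · funext σ
    simp only [gram, Finset.mul_sum]
    rw [Finset.sum_comm]
    exact Finset.sum_congr rfl fun l _ => Finset.sum_congr rfl fun i _ => by ring
  · congr 1
    funext σ
    simp only [gram, Finset.mul_sum, Fin.castSucc_zero]
    exact Finset.sum_congr rfl fun i _ => by ring

end

end Vale.Agent.P166
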