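import Vale.Agent.P166.Frame
import Vale.Agent.P166.Cont
import Vale.Agent.P166.Th

/-! P166 LOa: the perturbed free energy without tree and field, used in the lower bound.
Plan. FL_cnt: exists_equiv_of_cnt and F_reindex (the filter is the block of the reindexed colouring). exists_GM: RM.exists_max, IsGreatest.csSup_eq. GM_le, le_GM: F_pert with r = 0, pen_nonneg, pen_mid, F_eq_EL, Z0_zero.
EL_bounds: lz_mono with the constant energies +- L n / 2 (yv_sq), lz of a constant is log (2^n) + constant. EL_swap: promote the indices where c and c' differ to the top colour (c''); F_eq_EL, F_mono, F_tangent and A_mom along the top block of c''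
(which contains the top block of c) give 0 <= EL c'' - EL c' <= (Bd/2) card D * N / card Top, and the same for c. -/

open MeasureTheory ProbabilityTheory Filter Topology Matrix Finset

namespace Vale.Agent.P166

noncomputable section

variable {K : Type} [Fintype K] [DecidableEq K]

/-- cascade parameters of the trivial tree -/
def m0 (l : ℕ) : ℝ := if l = 0 then 0 else 1

/-- size of the perturbation -/
def sN (N0 : ℕ) : ℝ := (N0 : ℝ) ^ (3 / 8 : ℝ)

/-- parameters without field -/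
def PL (N0 : ℕ) (x0 : ℝ) (x : ℕ × ℕ → ℝ) : Pr := ⟨fun _ => 0, sN N0, N0, x0, x⟩

/-- penalised free energy -/
def FL (bb : K → ℝ) (t : ℝ) (N0 : ℕ) {ι : Type} [Fintype ι] [DecidableEq ι]
    (hN : Fintype.card ι ≤ N0) (c : ι → Option K) (x0 : ℝ) (x : ℕ × ℕ → ℝ) : ℝ :=
  ((YO ι).rm (ev bb t c) (blk c none) N0 hN).F 0 (fun _ => 0) m0 (PL N0 x0 x) -
    pen 0 N0 (sN N0) x0 x

/-- its maximum over the box -/
def GM (bb : K → ℝ) (t : ℝ) (N0 : ℕ) {n : ℕ} (c : Fin n → Option K) : ℝ :=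
  if h : Fintype.card (Fin n) ≤ N0 then
    sSup ((fun z : ℝ × (ℕ × ℕ → ℝ) => FL bb t N0 h c z.1 z.2) '' {z | InBox z.1 z.2}) else 0

lemma mok0 : MOk 0 m0 :=
  ⟨if_pos rfl, by simp [m0], fun j hj => by simp [m0, Nat.le_zero.1 hj], by simp [m0]⟩

variable {bb : K → ℝ} {t : ℝ} {N0 : ℕ}

lemma FL_cnt {ι ι' : Type} [Fintype ι] [DecidableEq ι] [Fintype ι'] [DecidableEq ι']
    (hN : Fintype.card ι ≤ N0) (hN' : Fintype.card ι' ≤ N0) {c : ι → Option K} {c' : ι' → Option K}
    (h : ∀ o, cnt c' o = cnt c o) (x0 : ℝ) (x : ℕ × ℕ → ℝ) :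
    FL bb t N0 hN' c' x0 x = FL bb t N0 hN c x0 x := by
  obtain ⟨e, he⟩ := exists_equiv_of_cnt h
  obtain rfl : (fun i => c (e i)) = c' := funext he
  have e1 : blk (fun i => c (e i)) none = univ.filter fun i => e i ∈ blk c none :=
    filter_congr fun i _ => by simp [blk]
  rw [FL, FL, ← F_reindex e _ _ hN hN' fun _ => le_rfl, e1]
  rfl

lemma PL_ok {x0 : ℝ} {x : ℕ × ℕ → ℝ} (h : InBox x0 x) : (PL N0 x0 x).Ok := ⟨fun _ => le_rfl, h⟩

lemma box_mid : InBox (3 / 2) fun _ => 3 / 2 :=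
  ⟨⟨by norm_num, by norm_num⟩, fun _ => ⟨by norm_num, by norm_num⟩⟩

lemma F0_eq {ι : Type} [Fintype ι] [DecidableEq ι] (l : ι → ℝ) (Top : Finset ι)
    (hN : Fintype.card ι ≤ N0) :
    ((YO ι).rm l Top N0 hN).F 0 (fun _ => 0) m0 (Pr0 fun _ => 0) = EL ι l := by
  rw [F_eq_EL mok0, Z0_zero, add_zero]

lemma exists_GM {n : ℕ} (hN : Fintype.card (Fin n) ≤ N0) (c : Fin n → Option K) :
    ∃ x0 x, InBox x0 x ∧ GM bb t N0 c = FL bb t N0 hN c x0 x ∧
      ∀ x0' x', InBox x0' x' → FL bb t N0 hN c x0' x' ≤ GM bb t N0 c := by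
  obtain ⟨x0, x, hb, hm⟩ := ((YO (Fin n)).rm (ev bb t c) (blk c none) N0 hN).exists_max
    (b := fun _ => 0) mok0 (PL_ok (N0 := N0) box_mid)
  have e : GM bb t N0 c = FL bb t N0 hN c x0 x := by
    rw [GM, dif_pos hN]
    refine IsGreatest.csSup_eq ⟨⟨(x0, x), hb, rfl⟩, ?_⟩
    rintro _ ⟨z, hz, rfl⟩
    exact hm _ _ hz
  exact ⟨x0, x, hb, e, fun x0' x' h => e ▸ hm _ _ h⟩

lemma GM_le {n : ℕ} (hN : n ≤ N0) (c : Fin n → Option K) :
    GM bb t N0 c ≤ EL (Fin n) (ev bb t c) + 5 * sN N0 ^ 2 := by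
  have hN' := (Fintype.card_fin n).trans_le hN
  obtain ⟨x0, x, hb, e, -⟩ := exists_GM (bb := bb) (t := t) hN' c
  have h := ((YO (Fin n)).F_pert (b := fun _ => 0) mok0 (PL_ok (N0 := N0) hb) (ev bb t c)
    (blk c none) (blk c none) hN' hN').2
  rw [e, ← F0_eq (ev bb t c) (blk c none) hN']
  refine (sub_le_self _ (pen_nonneg _ _ _ _ _)).trans (h.trans_eq ?_)
  rw [Nat.cast_zero, mul_zero, zero_add]
  rfl

lemma le_GM {n : ℕ} (hN : n ≤ N0) (c : Fin n → Option K) :
    EL (Fin n) (ev bb t c) ≤ GM bb t N0 c := by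
  have hN' := (Fintype.card_fin n).trans_le hN
  obtain ⟨x0, x, -, -, hm⟩ := exists_GM (bb := bb) (t := t) hN' c
  refine le_trans ?_ (hm _ _ box_mid)
  rw [FL, pen_mid, sub_zero, ← F0_eq (ev bb t c) (blk c none) hN']
  exact ((YO (Fin n)).F_pert (b := fun _ => 0) mok0 (PL_ok (N0 := N0) box_mid) (ev bb t c)
    (blk c none) (blk c none) hN' hN').1

lemma EL_mono {ι : Type} [Fintype ι] [DecidableEq ι] {l l' : ι → ℝ} (h : ∀ i, l i ≤ l' i) :
    EL ι l ≤ EL ι l' := by
  rw [← F0_eq l ∅ le_rfl, ← F0_eq l' ∅ le_rfl]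
  exact (YO ι).F_mono mok0 (Pr0_ok fun _ => le_rfl) h ∅ le_rfl

lemma abs_EL_le {ι : Type} [Fintype ι] [DecidableEq ι] {l : ι → ℝ} {L : ℝ} (h : ∀ i, |l i| ≤ L) :
    |EL ι l| ≤ Fintype.card ι * (1 + L) := by
  refine rmb_abs_integral_le fun U => ?_
  have h1 : ∀ σ, |hY l (yv U σ) - hY (fun _ => 0) (yv U σ)| ≤ L * Fintype.card ι / 2 := fun σ =>
    abs_hY_sub_le (fun i => by simpa using h i) (yv_sq U σ)
  have h2 := abs_le.1 (abs_lz_sub_le h1)
  have h3 : (lz fun σ => hY (fun _ => 0) (yv U σ)) = Fintype.card ι * Real.log 2 := by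
    simp [lz, hY]
  have h4 := (abs_nonneg _).trans (h1 fun _ => true)
  have h5 := Real.log_nonneg one_le_two
  have h6 := Real.log_le_sub_one_of_pos two_pos
  have h7 : (0 : ℝ) ≤ Fintype.card ι := Nat.cast_nonneg _
  rw [h3] at h2
  exact abs_le.2 ⟨by nlinarith [h2.1], by nlinarith [h2.2]⟩

lemma loa_mom {ι : Type} [Fintype ι] [DecidableEq ι] {l : ι → ℝ} {Top D : Finset ι}
    (hD : D ⊆ Top) (hT : ∀ i ∈ Top, l i = t) :
    ((YO ι).rm l Top _ le_rfl).A 0 (fun _ => 0) m0 (Pr0 fun _ => 0) 1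
      (fun U c => ∑ i ∈ D, (YO ι).Y U (c 0).1 i ^ 2) ≤ D.card * (Fintype.card ι / Top.card) := by
  have hb : ∀ U σ i, |(YO ι).Y U σ i ^ 2| ≤ ((Fintype.card ι : ℝ) + 1) ^ 2 := fun U σ i => by
    rw [abs_pow]
    exact pow_le_pow_left₀ (abs_nonneg _) ((YO ι).inv_absY U σ i) 2
  refine (RM.A_sum ((YO ι).rm l Top _ le_rfl) D 1
    (G := fun i U c => (YO ι).Y U (c 0).1 i ^ 2) (fun i c => ((YO ι).mY (c 0).1 i).pow_const 2)
    fun i U c => hb U (c 0).1 i).trans_le
    ((sum_le_card_nsmul D _ _ fun i hi => ?_).trans_eq (nsmul_eq_mul _ _))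
  have h3 := ((YO ι).A_mom (r := 0) (b := fun _ => 0) (m := m0) (P := Pr0 fun _ => 0) le_rfl
    (YO_inv (Function.Embedding.subtype fun x => x ∈ Top)) (fun k => hT k.1 k.2)
    (Or.inl fun k => k.2) ⟨i, hD hi⟩).2.1
  rw [Fintype.card_coe] at h3
  exact (le_div_iff₀' (Nat.cast_pos.2 (card_pos.2 ⟨i, hD hi⟩))).2 h3

lemma EL_drop {ι : Type} [Fintype ι] [DecidableEq ι] {l l' : ι → ℝ} {Top D : Finset ι}
    (hD : D ⊆ Top) (hT : ∀ i ∈ Top, l i = t) {Bd : ℝ} (hB0 : 0 ≤ Bd)
    (h : ∀ i, l i - (if i ∈ D then Bd else 0) ≤ l' i) :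
    EL ι l ≤ EL ι l' + Bd / 2 * (D.card * (Fintype.card ι / Top.card)) := by
  have h1 := (YO ι).F_tangent (b := fun _ => 0) mok0 (Pr0_ok fun _ => le_rfl) l
    (fun i => l i - if i ∈ D then Bd else 0) Top le_rfl
  have e : ∀ y : ι → ℝ, hY (fun i => l i - if i ∈ D then Bd else 0) y - hY l y =
      -(Bd / 2) * ∑ i ∈ D, y i ^ 2 := fun y => by
    simp only [hY, sub_mul, sum_sub_distrib, ite_mul, zero_mul, sum_ite_mem, univ_inter, ← mul_sum]
    ring
  simp only [e] at h1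
  rw [F0_eq, F0_eq, RM.A_mul_left, neg_mul, ← sub_eq_add_neg] at h1
  exact (sub_le_iff_le_add.1 h1).trans (add_le_add (EL_mono h)
    (mul_le_mul_of_nonneg_left (loa_mom hD hT) (div_nonneg hB0 zero_le_two)))

lemma EL_swap {ι : Type} [Fintype ι] [DecidableEq ι] (hb : ∀ k, bb k ≤ t) {Bd : ℝ}
    (hBd : ∀ k, t - bb k ≤ Bd) (hB0 : 0 ≤ Bd) (c c' : ι → Option K) (hne : (blk c none).Nonempty) :
    |EL ι (ev bb t c) - EL ι (ev bb t c')| ≤
      Bd * (univ.filter fun i => c i ≠ c' i).card * (Fintype.card ι / (blk c none).card) := by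
  have hle : ∀ o : Option K, o.elim t bb ≤ t ∧ t - Bd ≤ o.elim t bb := fun o => by
    cases o with
    | none => exact ⟨le_rfl, sub_le_self _ hB0⟩
    | some k => exact ⟨hb k, sub_le_comm.1 (hBd k)⟩
  have key : ∀ d d' : ι → Option K, (∀ i, c i = c' i → d i = c i) →
      (∀ i, c i = c' i → d' i = c i) → EL ι (ev bb t d) - EL ι (ev bb t d') ≤
      Bd * (univ.filter fun i => c i ≠ c' i).card * (Fintype.card ι / (blk c none).card) :=
    fun d d' hd hd' => by
    have h1 : EL ι (ev bb t d) ≤ EL ι (ev bb t fun i => if c i = c' i then c i else none) :=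
      EL_mono fun i => by
        unfold ev
        beta_reduce
        split_ifs with h
        · rw [hd i h]
        · exact (hle _).1
    have h2 := EL_drop (t := t) (l := ev bb t fun i => if c i = c' i then c i else none)
      (l' := ev bb t d') (Top := blk (fun i => if c i = c' i then c i else none) none)
      (D := univ.filter fun i => c i ≠ c' i)
      (fun i hi => mem_filter.2 ⟨mem_univ _, if_neg (mem_filter.1 hi).2⟩)
      (fun i hi => congrArg (·.elim t bb) (mem_filter.1 hi).2) hB0 fun i => by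
        unfold ev
        beta_reduce
        by_cases h : c i = c' i
        · rw [if_pos h, if_neg (by simp [h]), hd' i h, sub_zero]
        · rw [if_neg h, if_pos (by simp [h])]
          exact (hle _).2
    have h3 : (Fintype.card ι : ℝ) / (blk (fun i => if c i = c' i then c i else none) none).card ≤
        Fintype.card ι / (blk c none).card :=
      div_le_div_of_nonneg_left (Nat.cast_nonneg _) (Nat.cast_pos.2 hne.card_pos)
        (Nat.cast_le.2 (card_le_card fun i hi => mem_filter.2 ⟨mem_univ _, by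
          beta_reduce
          rw [(mem_filter.1 hi).2, ite_self]⟩))
    have h4 := mul_le_mul (half_le_self hB0) (mul_le_mul_of_nonneg_left h3
      (Nat.cast_nonneg (univ.filter fun i => c i ≠ c' i).card)) (by positivity) hB0
    rw [mul_assoc]
    linarith
  exact abs_sub_le_iff.2 ⟨key c c' (fun _ _ => rfl) fun _ h => h.symm,
    key c' c (fun _ h => h.symm) fun _ _ => rfl⟩

lemma EL_cnt {ι : Type} [Fintype ι] [DecidableEq ι] (hb : ∀ k, bb k ≤ t) {Bd : ℝ}
    (hBd : ∀ k, t - bb k ≤ Bd) (hB0 : 0 ≤ Bd) (c c' : ι → Option K) (hne : (blk c none).Nonempty) :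
    |EL ι (ev bb t c) - EL ι (ev bb t c')| ≤
      Bd * (∑ o, |(cnt c o : ℝ) - cnt c' o|) * (Fintype.card ι / (blk c none).card) := by
  obtain ⟨e, he⟩ := exists_perm_near c' c
  rw [← EL_reindex e (ev bb t c')]
  refine (EL_swap hb hBd hB0 c (fun i => c' (e i)) hne).trans
    (mul_le_mul_of_nonneg_right (mul_le_mul_of_nonneg_left ?_ hB0) (by positivity))
  rw [filter_congr fun i _ => ne_comm]
  exact he.trans_eq (sum_congr rfl fun o _ => abs_sub_comm _ _)

end

end Vale.Agent.P166
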