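import Vale.Agent.P166.Orth

/-! P166 OdA: reflections, diagonalisation and an arrowhead determinant (helpers for Od). -/

open MeasureTheory ProbabilityTheory Filter Topology Matrix Finset

namespace Vale.Agent.P166

noncomputable section

variable {J : Type} [Fintype J] [DecidableEq J]

/-- reflection in the hyperplane orthogonal to `w` -/
def OdA_rf (w : J → ℝ) : Matrix J J ℝ :=
  Matrix.of fun i j => (if i = j then 1 else 0) - 2 / (∑ l, w l ^ 2) * w i * w j

lemma OdA_rf_mulVec (w v : J → ℝ) (i : J) :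
    (OdA_rf w *ᵥ v) i = v i - 2 / (∑ l, w l ^ 2) * (∑ l, w l * v l) * w i := by
  simp only [OdA_rf, Matrix.mulVec, dotProduct, Matrix.of_apply, sub_mul, Finset.sum_sub_distrib,
    ite_mul, one_mul, zero_mul, Finset.sum_ite_eq, Finset.mem_univ, if_true, Finset.mul_sum,
    Finset.sum_mul]
  congr 1
  exact Finset.sum_congr rfl fun j _ => by ring

lemma OdA_rf_mem (w : J → ℝ) : OdA_rf w ∈ Matrix.orthogonalGroup J ℝ := by
  refine mem_orth_of_dot fun v v' => ?_
  simp only [OdA_rf_mulVec]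
  obtain ⟨c, hc⟩ : ∃ c, c = 2 / ∑ l, w l ^ 2 := ⟨_, rfl⟩
  obtain ⟨p, hp⟩ : ∃ p, p = ∑ l, w l * v l := ⟨_, rfl⟩
  obtain ⟨p', hp'⟩ : ∃ p, p = ∑ l, w l * v' l := ⟨_, rfl⟩
  have h1 : c * c * ∑ l, w l ^ 2 = 2 * c := by
    rcases eq_or_ne (∑ l, w l ^ 2) 0 with h | h
    · rw [hc, h]; simp
    · rw [hc]; field_simp
  rw [← hc, ← hp, ← hp']
  have h2 : ∀ i, (v i - c * p * w i) * (v' i - c * p' * w i) =
      v i * v' i - c * p' * (w i * v i) - c * p * (w i * v' i) + c * c * p * p' * w i ^ 2 :=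
    fun i => by ring
  simp only [h2, Finset.sum_add_distrib, Finset.sum_sub_distrib, ← Finset.mul_sum]
  rw [← hp, ← hp']
  linear_combination p * p' * h1

/-- the reflection as an element of the group -/
def OdA_H (w : J → ℝ) : Og J := ⟨OdA_rf w, OdA_rf_mem w⟩

lemma OdA_H_map {a b : J → ℝ} (h : ∑ j, a j ^ 2 = ∑ j, b j ^ 2) :
    (OdA_H (a - b)).1 *ᵥ b = a := by
  funext i
  change (OdA_rf (a - b) *ᵥ b) i = a i
  rw [OdA_rf_mulVec]
  have h1 : ∑ l, (a - b) l ^ 2 = -2 * ∑ l, (a - b) l * b l := by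
    have h2 : ∀ l, (a - b) l ^ 2 = -2 * ((a - b) l * b l) + (a l ^ 2 - b l ^ 2) := fun l => by
      simp only [Pi.sub_apply]; ring
    simp only [h2, Finset.sum_add_distrib, Finset.sum_sub_distrib, ← Finset.mul_sum, h]
    ring
  rcases eq_or_ne (∑ l, (a - b) l ^ 2) 0 with h0 | h0
  · have h3 : (a - b) i ^ 2 = 0 :=
      (Finset.sum_eq_zero_iff_of_nonneg fun l _ => sq_nonneg ((a - b) l)).1 h0 i (Finset.mem_univ i)
    have h4 : (a - b) i = 0 := pow_eq_zero_iff two_ne_zero |>.1 h3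
    rw [h4]
    simp only [Pi.sub_apply] at h4
    linarith
  · have h3 : 2 / (∑ l, (a - b) l ^ 2) * (∑ l, (a - b) l * b l) = -1 := by
      field_simp
      linarith
    rw [h3]
    simp

lemma OdA_entry (U : Og J) (i j : J) : U.1 i j = (U.1 *ᵥ Pi.single j 1) i := by
  simp

lemma OdA_single_sq (j0 : J) : ∑ j, (Pi.single j0 1 : J → ℝ) j ^ 2 = 1 := by
  simp [Pi.single_apply]

lemma OdA_col (j0 : J) {a : J → ℝ} (ha : ∑ j, a j ^ 2 = 1) : ∃ O : Og J, ∀ j, O.1 j j0 = a j :=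
  ⟨OdA_H (a - Pi.single j0 1), fun j => by
    rw [OdA_entry, OdA_H_map (by rw [ha, OdA_single_sq])]⟩

lemma OdA_sq (U : Og J) (v : J → ℝ) : ∑ i, (U.1 *ᵥ v) i ^ 2 = ∑ i, v i ^ 2 := by
  simp only [sq]; exact orth_dot U v v

lemma OdA_col_sq (U : Og J) (j0 : J) : ∑ j, U.1 j j0 ^ 2 = 1 := by
  have h := OdA_sq U (Pi.single j0 1)
  rw [OdA_single_sq] at h
  simpa using h

lemma OdA_H_H {a : J → ℝ} (ha : ∑ j, a j ^ 2 = 1) : OdA_H (a - -a) * OdA_H (-a - a) = 1 := by
  refine Orth_ext fun v i => ?_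
  rw [Orth_mul]
  change (OdA_rf _ *ᵥ (OdA_rf _ *ᵥ v)) i = ((1 : Matrix J J ℝ) *ᵥ v) i
  rw [Matrix.one_mulVec]
  have h1 : ∑ l, (a - -a) l ^ 2 = 4 := by
    have : ∀ l, (a - -a) l ^ 2 = 4 * a l ^ 2 := fun l => by simp; ring
    simp only [this, ← Finset.mul_sum, ha]; norm_num
  have h2 : ∑ l, (-a - a) l ^ 2 = 4 := by
    have : ∀ l, (-a - a) l ^ 2 = 4 * a l ^ 2 := fun l => by simp; ring
    simp only [this, ← Finset.mul_sum, ha]; norm_num
  obtain ⟨p, hp⟩ : ∃ p, p = ∑ l, a l * v l := ⟨_, rfl⟩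
  have h3 : ∑ l, (-a - a) l * v l = -2 * p := by
    rw [hp, Finset.mul_sum]; exact Finset.sum_congr rfl fun l _ => by simp; ring
  have h4 : ∀ l, (OdA_rf (-a - a) *ᵥ v) l = v l - 2 * p * a l := fun l => by
    rw [OdA_rf_mulVec, h2, h3]; simp; ring
  have h5 : ∑ l, (a - -a) l * (OdA_rf (-a - a) *ᵥ v) l = -2 * p := by
    have : ∀ l, (a - -a) l * (OdA_rf (-a - a) *ᵥ v) l = 2 * (a l * v l) - 4 * p * a l ^ 2 :=
      fun l => by rw [h4]; simp; ring
    simp only [this, Finset.sum_sub_distrib, ← Finset.mul_sum, ha, ← hp]; ring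
  rw [OdA_rf_mulVec, h1, h5, h4]
  simp; ring

lemma OdA_near (O0 : Og J) (j0 : J) {η : ℝ}
    (hη : 0 < η) : ∃ η' > 0, ∀ a : J → ℝ, ∑ j, a j ^ 2 = 1 → (∀ j, |a j - O0.1 j j0| ≤ η') →
      ∃ O : Og J, (∀ j, O.1 j j0 = a j) ∧ ∀ j j', |O.1 j j' - O0.1 j j'| ≤ η := by
  obtain ⟨a0, ha0⟩ : ∃ a0 : J → ℝ, a0 = fun j => O0.1 j j0 := ⟨_, rfl⟩
  have h0 : ∑ j, a0 j ^ 2 = 1 := by rw [ha0]; exact OdA_col_sq O0 j0
  obtain ⟨V, hV⟩ : ∃ V : Og J, V = OdA_H (-a0 - a0) * O0 := ⟨_, rfl⟩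
  have hV0 : OdA_H (a0 - -a0) * V = O0 := by rw [hV, ← mul_assoc, OdA_H_H h0, one_mul]
  have hVc : V.1 *ᵥ Pi.single j0 1 = -a0 := by
    have : O0.1 *ᵥ Pi.single j0 1 = a0 := by funext j; rw [← OdA_entry, ha0]
    rw [hV, Orth_mul, this, OdA_H_map (by simp)]
  have h4 : ∑ l, (a0 - -a0) l ^ 2 ≠ 0 := by
    have : ∀ l, (a0 - -a0) l ^ 2 = 4 * a0 l ^ 2 := fun l => by simp; ring
    simp only [this, ← Finset.mul_sum, h0]; norm_num
  have hc : ∀ j j', ContinuousAt (fun a : J → ℝ => (OdA_H (a - -a0) * V).1 j j') a0 := by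
    intro j j'
    have e : (fun a : J → ℝ => (OdA_H (a - -a0) * V).1 j j') = fun a =>
        V.1 j j' - 2 / (∑ l, (a - -a0) l ^ 2) * (∑ l, (a - -a0) l * V.1 l j') * (a - -a0) j := by
      funext a
      rw [OdA_entry, Orth_mul]
      change (OdA_rf _ *ᵥ _) j = _
      rw [OdA_rf_mulVec]
      simp only [← OdA_entry]
    rw [e]
    have c1 : ∀ l, Continuous fun a : J → ℝ => (a - -a0) l := fun l => by fun_prop
    have c2 : Continuous fun a : J → ℝ => ∑ l, (a - -a0) l ^ 2 :=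
      continuous_finsetSum _ fun l _ => (c1 l).pow 2
    have c3 : Continuous fun a : J → ℝ => ∑ l, (a - -a0) l * V.1 l j' :=
      continuous_finsetSum _ fun l _ => (c1 l).mul continuous_const
    exact continuousAt_const.sub
      (((continuousAt_const.div c2.continuousAt h4).mul c3.continuousAt).mul (c1 j).continuousAt)
  have hev : ∀ᶠ a in 𝓝 a0, ∀ j j', |(OdA_H (a - -a0) * V).1 j j' - O0.1 j j'| ≤ η := by
    refine Filter.eventually_all.2 fun j => Filter.eventually_all.2 fun j' => ?_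
    have h5 := Metric.tendsto_nhds.1 (hc j j') η hη
    simp only [hV0, Real.dist_eq] at h5
    exact h5.mono fun a h => h.le
  obtain ⟨e, he, hb⟩ := Metric.eventually_nhds_iff.1 hev
  refine ⟨e / 2, by positivity, fun a ha hn => ⟨OdA_H (a - -a0) * V, fun j => ?_, hb ?_⟩⟩
  · rw [OdA_entry, Orth_mul, hVc, OdA_H_map (by simp [ha, h0])]
  · refine lt_of_le_of_lt ((dist_pi_le_iff (by positivity : 0 ≤ e / 2)).2 fun j => ?_) (by linarith)
    rw [Real.dist_eq, ha0]; exact hn j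

lemma OdA_diag (M : Matrix J J ℝ) (hM : ∀ i j, M i j = M j i) :
    ∃ W : Og J, ∀ k k', k ≠ k' → ∑ i, ∑ j, W.1 i k * M i j * W.1 j k' = 0 := by
  have hH : M.IsHermitian := by
    ext i j; simp [hM i j]
  refine ⟨hH.eigenvectorUnitary, fun k k' hk => ?_⟩
  have h1 : ∀ i, ∑ j, M i j * (hH.eigenvectorUnitary).1 j k' =
      hH.eigenvalues k' * (hH.eigenvectorUnitary).1 i k' := fun i =>
    congrFun (hH.mulVec_eigenvectorBasis k') i
  have h2 := orth_dot (hH.eigenvectorUnitary : Og J) (Pi.single k 1) (Pi.single k' 1)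
  simp only [← OdA_entry] at h2
  have h3 : ∑ i, (Pi.single k 1 : J → ℝ) i * (Pi.single k' 1 : J → ℝ) i = 0 := by
    simp [Pi.single_apply, hk.symm]
  rw [h3] at h2
  simp only [mul_assoc, ← Finset.mul_sum, h1]
  have h4 : ∀ i, (hH.eigenvectorUnitary).1 i k * (hH.eigenvalues k' * (hH.eigenvectorUnitary).1 i k')
      = hH.eigenvalues k' * ((hH.eigenvectorUnitary).1 i k * (hH.eigenvectorUnitary).1 i k') :=
    fun i => by ring
  simp only [h4, ← Finset.mul_sum, h2, mul_zero]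

lemma OdA_det (U : Og J) (d : J → ℝ) :
    (Matrix.of fun j j' => ∑ o, d o * U.1 o j * U.1 o j').det = ∏ o, d o := by
  have h : U.1ᵀ * U.1 = 1 := (Matrix.mem_orthogonalGroup_iff' J ℝ).1 U.2
  have e : (Matrix.of fun j j' => ∑ o, d o * U.1 o j * U.1 o j') =
      U.1ᵀ * Matrix.diagonal d * U.1 := by
    ext j j'
    rw [Matrix.mul_apply, Matrix.of_apply]
    refine Finset.sum_congr rfl fun o _ => ?_
    rw [Matrix.mul_diagonal, Matrix.transpose_apply]; ring
  have h2 := congrArg Matrix.det h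
  rw [Matrix.det_mul, Matrix.det_one] at h2
  rw [e, Matrix.det_mul, Matrix.det_mul, Matrix.det_diagonal]
  linear_combination (∏ o, d o) * h2

lemma OdA_arrow {K : Type} [Fintype K] [DecidableEq K] (A : Matrix (Option K) (Option K) ℝ)
    (d : K → ℝ) (hd : ∀ k, d k ≠ 0) (hA : ∀ k k', A (some k) (some k') = if k = k' then d k else 0)
    (x : Option K → ℝ) (hx : ∀ j, ∑ i, x i * A j i = (Pi.single none 1 : Option K → ℝ) j) :
    x none * A.det = ∏ k, d k := by
  have h1 := Matrix.det_updateCol_sum A none x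
  simp only [smul_eq_mul, hx] at h1
  obtain ⟨D, hD⟩ : ∃ D : Option K → ℝ, D = fun o => o.elim 1 d := ⟨_, rfl⟩
  obtain ⟨c, hc⟩ : ∃ c : Option K → ℝ, c = fun o => o.elim 1 fun k => A none (some k) / d k :=
    ⟨_, rfl⟩
  have h2 := Matrix.det_updateRow_sum (Matrix.diagonal D) none c
  have h3 : A.updateCol none (fun k => (Pi.single none 1 : Option K → ℝ) k) =
      (Matrix.diagonal D).updateRow none (∑ k, c k • Matrix.diagonal D k) := by
    ext j j'
    cases j with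
    | none =>
      rw [Matrix.updateRow_self]
      simp only [Finset.sum_apply, Pi.smul_apply, smul_eq_mul, Matrix.diagonal_apply, mul_ite,
        mul_zero, Finset.sum_ite_eq', Finset.mem_univ, if_true]
      cases j' with
      | none => simp [hc, hD]
      | some k' => simp [hc, hD, hd k']
    | some k =>
      rw [Matrix.updateRow_ne (by simp)]
      cases j' with
      | none => simp
      | some k' => simp [hA, hD, Matrix.diagonal_apply]
  rw [← h1, h3, h2, Matrix.det_diagonal, Fintype.prod_option]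
  simp [hc, hD]

end

end Vale.Agent.P166
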