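import Vale.Agent.P166.Defs2
import Vale.Agent.P166.Alg2
import Vale.Agent.P166.OdA

/-! P166 Od: the orthogonal matrix of the spin cavity and its Schur complement identities.
Plan. exists_od: extend the unit vector sqrt alpha to an orthogonal O1 with this column at none (orthonormal basis extension); the symmetric K x K matrix sum_o gap o O1 o k O1 o k' is diagonalised by W in Og K
(Matrix.IsHermitian.spectral_theorem, eigenvectorUnitary); O = O1 * emb some W. q_eq: expand the squares (OD.diag, col, spin_sq). exists_isQP: q_nonneg from the same expansion.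
Schur identities: M = O^T diag(gap) O is an arrowhead matrix with entries QPA (inl k), QPb (inl k), c. (1 + tau M) x = e_none is solved by x = O^T diag(1/(1 + tau gap)) O e_none, x none = gg tau; eliminate x (some k) to get schur1.
det (1 + tau M) = prod (1 + tau gap o) = prod_k (1 + tau Ahat k) (1 + tau c - tau beta) (multiply by the unipotent matrix that clears the column none, or Matrix.det_fromBlocks, or cofactor: the (none,none) entry of the inverse is the minor over det), this gives schur2.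
exists_near: with reflections H w = 1 - 2 w w^T / (w . w), R = H (a + a0) * H a0 maps a0 to a and is close to 1 (continuity at a = a0 of a -> R a); O = R * O0. -/

open MeasureTheory ProbabilityTheory Filter Topology Matrix Finset

namespace Vale.Agent.P166

noncomputable section

variable {K : Type} [Fintype K] [DecidableEq K] {α : Option K → ℝ} {bb : K → ℝ} {t : ℝ}

theorem exists_od (h : Sp α bb t) : ∃ O, OD α bb t O := by
  obtain ⟨O1, hO1⟩ := OdA_col (none : Option K) (a := fun o => √(α o)) (by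
    simp only [fun o => Real.sq_sqrt (h.pos o).le, h.sum])
  obtain ⟨W, hW⟩ := OdA_diag
    (Matrix.of fun i j => ∑ o, gap bb t o * O1.1 o (some i) * O1.1 o (some j))
    fun i j => Finset.sum_congr rfl fun o _ => by ring
  have e0 : (emb Function.Embedding.some W).1 *ᵥ Pi.single none 1 = Pi.single none 1 := by
    funext o
    cases o with
    | none => exact Orth_out _ _ _ fun k => by simp
    | some k =>
      have := Orth_in Function.Embedding.some W (Pi.single none 1) k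
      simp only [Function.Embedding.some_apply] at this
      rw [this]
      simp [Matrix.mulVec, dotProduct]
  have e1 : ∀ k o, (O1 * emb Function.Embedding.some W).1 o (some k) =
      ∑ i, O1.1 o (some i) * W.1 i k := by
    intro k o
    rw [OdA_entry, Orth_mul]
    change ∑ o', O1.1 o o' * ((emb Function.Embedding.some W).1 *ᵥ Pi.single (some k) 1) o' = _
    rw [Fintype.sum_option, Orth_out _ _ _ fun k => by simp]
    have h3 : ∀ i, ((emb Function.Embedding.some W).1 *ᵥ Pi.single (some k) 1) (some i) =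
        W.1 i k := fun i => by
      have := Orth_in Function.Embedding.some W (Pi.single (some k) 1) i
      simp only [Function.Embedding.some_apply] at this
      rw [this]
      simp [Matrix.mulVec, dotProduct, Pi.single_apply]
    simp only [h3]
    simp
  refine ⟨O1 * emb Function.Embedding.some W, fun o => ?_, fun k k' hk => ?_⟩
  · rw [OdA_entry, Orth_mul, e0, ← OdA_entry, hO1]
  · rw [← hW k k' hk]
    simp only [e1, Matrix.of_apply, Finset.mul_sum, Finset.sum_mul]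
    rw [Finset.sum_comm]
    symm
    rw [Finset.sum_comm]
    refine Finset.sum_congr rfl fun j _ => ?_
    rw [Finset.sum_comm]
    refine Finset.sum_congr rfl fun o _ => Finset.sum_congr rfl fun i _ => by ring

/-- the vector on which the small orthogonal matrix acts -/
def uvec (y : Fr K → ℝ) (ε : Bool) : Option K → ℝ := fun o => o.elim (spin ε) fun k => y (Sum.inl k)

/-- cavity energy for a general orthogonal matrix -/
def qO (bb : K → ℝ) (t : ℝ) (O : Og (Option K)) (o0 : Option K) (y : Fr K → ℝ) (ε : Bool) : ℝ :=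
  (∑ o, gap bb t o * (O.1 *ᵥ uvec y ε) o ^ 2) / 2 + (∑ o, gap bb t o * y (gI o) ^ 2) / 2 +
    gap bb t o0 * y (Sum.inr (Sum.inr ())) ^ 2 / 2

lemma Od_mulVec (O : Og (Option K)) (v : Option K → ℝ) (o : Option K) :
    (O.1 *ᵥ v) o = ∑ j, O.1 o j * v j := rfl

lemma Od_ent (h : Sp α bb t) {O : Og (Option K)} (hO : OD α bb t O) :
    (∑ o, gap bb t o * O.1 o none * O.1 o none = ∑ o, gap bb t o * α o) ∧
    (∀ k, ∑ o, gap bb t o * O.1 o none * O.1 o (some k) = QPb bb t O (Sum.inl k)) ∧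
    (∀ k, ∑ o, gap bb t o * O.1 o (some k) * O.1 o none = QPb bb t O (Sum.inl k)) ∧
    ∀ k k', ∑ o, gap bb t o * O.1 o (some k) * O.1 o (some k') =
      if k = k' then QPA bb t O none (Sum.inl k) else 0 := by
  refine ⟨Finset.sum_congr rfl fun o _ => ?_, fun k => Finset.sum_congr rfl fun o _ => by ring,
    fun k => rfl, fun k k' => ?_⟩
  · rw [hO.col, mul_assoc, Real.mul_self_sqrt (h.pos o).le]
  · split_ifs with hk
    · subst hk; exact Finset.sum_congr rfl fun o _ => by ring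
    · exact hO.diag k k' hk

lemma Od_bil (h : Sp α bb t) {O : Og (Option K)} (hO : OD α bb t O) (v w : Option K → ℝ) :
    ∑ o, gap bb t o * (O.1 *ᵥ v) o * (O.1 *ᵥ w) o =
      (∑ o, gap bb t o * α o) * v none * w none +
        ∑ k, QPb bb t O (Sum.inl k) * (v none * w (some k) + v (some k) * w none) +
        ∑ k, QPA bb t O none (Sum.inl k) * v (some k) * w (some k) := by
  obtain ⟨h1, h2, h3, h4⟩ := Od_ent h hO
  have e : ∑ o, gap bb t o * (O.1 *ᵥ v) o * (O.1 *ᵥ w) o =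
      ∑ j, ∑ j', (∑ o, gap bb t o * O.1 o j * O.1 o j') * v j * w j' := by
    simp only [Od_mulVec, Finset.mul_sum, Finset.sum_mul]
    rw [Finset.sum_comm]
    symm
    rw [Finset.sum_comm]
    refine Finset.sum_congr rfl fun j _ => ?_
    rw [Finset.sum_comm]
    refine Finset.sum_congr rfl fun o _ => Finset.sum_congr rfl fun i _ => by ring
  rw [e]
  obtain ⟨M, hM⟩ : ∃ M : Option K → Option K → ℝ,
      ∀ j j', ∑ o, gap bb t o * O.1 o j * O.1 o j' = M j j' := ⟨_, fun _ _ => rfl⟩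
  simp only [hM] at h1 h2 h3 h4 ⊢
  rw [← h1]
  simp only [Fintype.sum_option, h2, h3, h4, ite_mul, zero_mul, Finset.sum_ite_eq,
    Finset.mem_univ, if_true, Finset.sum_add_distrib, mul_add, mul_assoc]
  ring

lemma Od_q (h : Sp α bb t) {O : Og (Option K)} (hO : OD α bb t O) (o0 : Option K)
    (y : Fr K → ℝ) (ε : Bool) :
    (∑ f, QPA bb t O o0 f * y f ^ 2) / 2 + spin ε * (∑ f, QPb bb t O f * y f) +
      (∑ o, gap bb t o * α o) / 2 = qO bb t O o0 y ε := by
  have h1 := Od_bil h hO (uvec y ε) (uvec y ε)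
  have h2 : spin ε * spin ε = 1 := by rw [← sq, spin_sq]
  have h3 : ∑ o, gap bb t o * (O.1 *ᵥ uvec y ε) o ^ 2 =
      ∑ o, gap bb t o * (O.1 *ᵥ uvec y ε) o * (O.1 *ᵥ uvec y ε) o :=
    Finset.sum_congr rfl fun o _ => by ring
  have h4 : ∑ k, QPb bb t O (Sum.inl k) * (uvec y ε none * uvec y ε (some k) +
      uvec y ε (some k) * uvec y ε none) =
      2 * (spin ε * ∑ k, QPb bb t O (Sum.inl k) * y (Sum.inl k)) := by
    rw [Finset.mul_sum, Finset.mul_sum]
    exact Finset.sum_congr rfl fun k _ => by simp only [uvec, Option.elim]; ring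
  have h5 : ∑ k, QPA bb t O none (Sum.inl k) * uvec y ε (some k) * uvec y ε (some k) =
      ∑ k, QPA bb t O o0 (Sum.inl k) * y (Sum.inl k) ^ 2 :=
    Finset.sum_congr rfl fun k _ => by simp only [uvec, Option.elim, QPA]; ring
  have h6 : uvec y ε none = spin ε := rfl
  have h7 : ∑ f, QPb bb t O f * y f = ∑ k, QPb bb t O (Sum.inl k) * y (Sum.inl k) := by
    rw [Fintype.sum_sum_type]
    simp [QPb]
  have h8 : ∑ f, QPA bb t O o0 f * y f ^ 2 = ∑ k, QPA bb t O o0 (Sum.inl k) * y (Sum.inl k) ^ 2 +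
      (∑ o, gap bb t o * y (gI o) ^ 2 + gap bb t o0 * y (Sum.inr (Sum.inr ())) ^ 2) := by
    rw [Fintype.sum_sum_type, Fintype.sum_sum_type, Fintype.sum_unique (ι := Unit)]
    rfl
  rw [h4, h5, h6, mul_assoc, h2] at h1
  unfold qO
  rw [h3, h1, h7, h8]
  ring

lemma Od_parts (h : Sp α bb t) (O : Og (Option K)) (o0 : Option K) (y : Fr K → ℝ) (ε : Bool) :
    0 ≤ ∑ o, gap bb t o * (O.1 *ᵥ uvec y ε) o ^ 2 ∧ 0 ≤ ∑ o, gap bb t o * y (gI o) ^ 2 ∧
      0 ≤ gap bb t o0 * y (Sum.inr (Sum.inr ())) ^ 2 :=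
  ⟨Finset.sum_nonneg fun o _ => mul_nonneg (gap_nonneg h.le o) (sq_nonneg _),
    Finset.sum_nonneg fun o _ => mul_nonneg (gap_nonneg h.le o) (sq_nonneg _),
    mul_nonneg (gap_nonneg h.le o0) (sq_nonneg _)⟩

lemma Od_q_nonneg (h : Sp α bb t) (O : Og (Option K)) (o0 : Option K) (y : Fr K → ℝ) (ε : Bool) :
    0 ≤ qO bb t O o0 y ε := by
  obtain ⟨h1, h2, h3⟩ := Od_parts h O o0 y ε
  unfold qO
  linarith

lemma Od_A_nonneg (h : Sp α bb t) (O : Og (Option K)) (o0 : Option K) (f : Fr K) :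
    0 ≤ QPA bb t O o0 f := by
  rcases f with k | o | u
  · exact Finset.sum_nonneg fun o _ => mul_nonneg (gap_nonneg h.le o) (sq_nonneg _)
  · exact gap_nonneg h.le o
  · exact gap_nonneg h.le o0

theorem exists_isQP (h : Sp α bb t) {O : Og (Option K)} (hO : OD α bb t O) (o0 : Option K) :
    ∃ Q, IsQP α bb t O o0 Q := by
  exact ⟨⟨QPA bb t O o0, QPb bb t O, ∑ o, gap bb t o * α o, Od_A_nonneg h O o0, fun y ε => by
    rw [Od_q h hO]; exact Od_q_nonneg h O o0 y ε⟩, hO, rfl, rfl, rfl⟩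

lemma IsQP.q_eq (h : Sp α bb t) {O : Og (Option K)} {o0 : Option K} {Q : Quad (Fr K)}
    (hQ : IsQP α bb t O o0 Q) (y : Fr K → ℝ) (ε : Bool) : Q.q y ε = qO bb t O o0 y ε := by
  rw [← Od_q h hQ.od, Quad.q, hQ.A, hQ.b, hQ.c]

lemma IsQP.b_gI {O : Og (Option K)} {o0 : Option K} {Q : Quad (Fr K)} (hQ : IsQP α bb t O o0 Q)
    (o : Option K) : Q.b (gI o) = 0 ∧ Q.A (gI o) = gap bb t o := by
  rw [hQ.A, hQ.b]
  exact ⟨rfl, rfl⟩

lemma IsQP.dh_eq {O : Og (Option K)} {o0 o1 : Option K} {Q Q' : Quad (Fr K)}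
    (hQ : IsQP α bb t O o0 Q) (hQ' : IsQP α bb t O o1 Q') (π : Path) : Q.dh π = Q'.dh π := by
  funext l
  unfold Quad.dh
  rw [hQ.A, hQ.b, hQ'.A, hQ'.b]
  refine Finset.sum_congr rfl fun f _ => ?_
  rcases f with k | o | u
  · rfl
  · rfl
  · simp [QPb]

/-- the energy controls the vector -/
lemma uvec_sq_le (h : Sp α bb t) (hlt : ∀ k, bb k < t) {O : Og (Option K)} (hO : OD α bb t O) :
    ∃ C : ℝ, 0 < C ∧ ∀ o0 y ε, ∑ o, uvec y ε o ^ 2 ≤ C * (1 + qO bb t O o0 y ε) ∧
      (∀ k, y (gI (some k)) ^ 2 ≤ C * (1 + qO bb t O o0 y ε)) ∧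
      (o0 ≠ none → y (Sum.inr (Sum.inr ())) ^ 2 ≤ C * (1 + qO bb t O o0 y ε)) := by
  obtain ⟨G, hG⟩ : ∃ G, G = ∑ k, (t - bb k)⁻¹ := ⟨_, rfl⟩
  have hp : ∀ k, 0 < t - bb k := fun k => sub_pos.2 (hlt k)
  have hG0 : 0 ≤ G := by rw [hG]; exact Finset.sum_nonneg fun k _ => (inv_pos.2 (hp k)).le
  have hGk : ∀ k, (t - bb k)⁻¹ ≤ G := fun k => by
    rw [hG]
    exact Finset.single_le_sum (f := fun k => (t - bb k)⁻¹) (fun k _ => (inv_pos.2 (hp k)).le)
      (Finset.mem_univ k)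
  have ha := h.pos none
  have hai : 0 < (α none)⁻¹ := inv_pos.2 ha
  have key : ∀ k (z q : ℝ), (t - bb k) * z ^ 2 ≤ 2 * q → z ^ 2 ≤ 2 * q * (t - bb k)⁻¹ := by
    intro k z q hz
    rw [← div_eq_mul_inv, le_div_iff₀ (hp k)]; linarith
  refine ⟨(2 + 4 * G) * (α none)⁻¹ + 2 * G, by positivity, fun o0 y ε => ?_⟩
  obtain ⟨h1, h2, h3⟩ := Od_parts h O o0 y ε
  have hq := Od_q_nonneg h O o0 y ε
  obtain ⟨q, hq'⟩ : ∃ q, q = qO bb t O o0 y ε := ⟨_, rfl⟩
  rw [← hq'] at hq ⊢
  have fin : ∀ k (z : ℝ), (t - bb k) * z ^ 2 ≤ 2 * q →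
      z ^ 2 ≤ ((2 + 4 * G) * (α none)⁻¹ + 2 * G) * (1 + q) := by
    intro k z hz
    have h4 := key k z q hz
    have h5 := mul_le_mul_of_nonneg_left (hGk k) (by positivity : 0 ≤ 2 * q)
    have h6 : 0 ≤ (2 + 4 * G) * (α none)⁻¹ * (1 + q) := by positivity
    nlinarith
  unfold qO at hq'
  refine ⟨?_, fun k => fin k _ ?_, fun ho => ?_⟩
  · obtain ⟨z, hz⟩ : ∃ z, z = O.1 *ᵥ uvec y ε := ⟨_, rfl⟩
    rw [← OdA_sq O, ← hz, Fintype.sum_option]
    rw [← hz] at hq' h1
    have h4 : ∀ k, z (some k) ^ 2 ≤ 2 * q * (t - bb k)⁻¹ := fun k => key k _ _ (by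
      have := Finset.single_le_sum (f := fun o => gap bb t o * z o ^ 2)
        (fun o _ => mul_nonneg (gap_nonneg h.le o) (sq_nonneg _)) (Finset.mem_univ (some k))
      change (t - bb k) * z (some k) ^ 2 ≤ _ at this
      linarith)
    have h5 : ∑ k, z (some k) ^ 2 ≤ 2 * q * G := by
      rw [hG, Finset.mul_sum]; exact Finset.sum_le_sum fun k _ => h4 k
    have h6 := orth_dot O (Pi.single none 1) (uvec y ε)
    simp only [← OdA_entry, ← hz, hO.col] at h6
    have h7 : ∑ i, (Pi.single none 1 : Option K → ℝ) i * uvec y ε i = spin ε := by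
      simp [Pi.single_apply, uvec]
    rw [h7, Fintype.sum_option] at h6
    have h8 := Finset.sum_mul_sq_le_sq_mul_sq Finset.univ (fun k => √(α (some k)))
      fun k => z (some k)
    simp only [fun o => Real.sq_sqrt (h.pos o).le] at h8
    have h9 : ∑ k, α (some k) ≤ 1 := by
      have := h.sum
      rw [Fintype.sum_option] at this
      linarith
    have h10 : 0 ≤ ∑ k, z (some k) ^ 2 := Finset.sum_nonneg fun k _ => sq_nonneg _
    have h11 := mul_le_mul_of_nonneg_right h9 h10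
    have h12 : α none * z none ^ 2 = (spin ε - ∑ k, √(α (some k)) * z (some k)) ^ 2 := by
      rw [← h6, add_sub_cancel_right, mul_pow, Real.sq_sqrt ha.le]
    have h13 : α none * z none ^ 2 ≤ 2 + 4 * q * G := by
      rw [h12]
      nlinarith [spin_sq ε, sq_nonneg (spin ε + ∑ k, √(α (some k)) * z (some k))]
    have h14 : z none ^ 2 ≤ (2 + 4 * q * G) * (α none)⁻¹ := by
      rw [← div_eq_mul_inv, le_div_iff₀ ha]; linarith
    have h15 : 0 ≤ (2 * q + 4 * G) * (α none)⁻¹ := by positivity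
    nlinarith
  · have := Finset.single_le_sum (f := fun o => gap bb t o * y (gI o) ^ 2)
      (fun o _ => mul_nonneg (gap_nonneg h.le o) (sq_nonneg _)) (Finset.mem_univ (some k))
    change (t - bb k) * y (gI (some k)) ^ 2 ≤ _ at this
    linarith
  · obtain ⟨k, rfl⟩ := Option.ne_none_iff_exists'.1 ho
    refine fin k _ ?_
    change 0 ≤ (t - bb k) * _ at h3
    change q = _ + (t - bb k) * _ / 2 at hq'
    linarith

lemma Od_sq_near {O O' : Og (Option K)} {η : ℝ} (hη : 0 < η)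
    (hn : ∀ o o', |O'.1 o o' - O.1 o o'| ≤ η) (u : Option K → ℝ) (o : Option K) :
    |(O'.1 *ᵥ u) o ^ 2 - (O.1 *ᵥ u) o ^ 2| ≤
      η * ((Fintype.card (Option K) : ℝ) + 4) / 2 * ∑ o, u o ^ 2 := by
  have b : ∀ V : Og (Option K), (V.1 *ᵥ u) o ^ 2 ≤ ∑ o, u o ^ 2 := fun V => by
    rw [← OdA_sq V u]
    exact Finset.single_le_sum (f := fun o => (V.1 *ᵥ u) o ^ 2) (fun _ _ => sq_nonneg _)
      (Finset.mem_univ o)
  have h1 : (O'.1 *ᵥ u) o - (O.1 *ᵥ u) o = ∑ j, (O'.1 o j - O.1 o j) * u j := by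
    simp only [Od_mulVec, sub_mul, Finset.sum_sub_distrib]
  have h2 := Finset.sum_mul_sq_le_sq_mul_sq Finset.univ (fun j => O'.1 o j - O.1 o j) u
  have h3 : ∑ j, (O'.1 o j - O.1 o j) ^ 2 ≤ (Fintype.card (Option K) : ℝ) * η ^ 2 := by
    have : ∀ j, (O'.1 o j - O.1 o j) ^ 2 ≤ η ^ 2 := fun j => by
      rw [← sq_abs]; exact pow_le_pow_left₀ (abs_nonneg _) (hn o j) 2
    refine (Finset.sum_le_sum fun j _ => this j).trans (le_of_eq ?_)
    simp
  have hU : 0 ≤ ∑ o, u o ^ 2 := Finset.sum_nonneg fun _ _ => sq_nonneg _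
  have h4 := mul_le_mul_of_nonneg_right h3 hU
  rw [← h1] at h2
  have b1 := b O
  have b2 := b O'
  generalize (O'.1 *ᵥ u) o = a' at *
  generalize (O.1 *ᵥ u) o = a at *
  generalize ∑ o, u o ^ 2 = U at *
  generalize (Fintype.card (Option K) : ℝ) = n at *
  have h5 : (a' - a) ^ 2 ≤ n * η ^ 2 * U := h2.trans h4
  have h6 : (a' + a) ^ 2 ≤ 4 * U := by nlinarith [sq_nonneg (a' - a)]
  have h7 := mul_le_mul_of_nonneg_left h6 (sq_nonneg η)
  rw [abs_le]
  constructor
  · refine le_of_mul_le_mul_left ?_ hη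
    nlinarith [sq_nonneg (a' - a + η * (a' + a))]
  · refine le_of_mul_le_mul_left ?_ hη
    nlinarith [sq_nonneg (a' - a - η * (a' + a))]

lemma Od_gap_near {t' η : ℝ} (ht : |t' - t| ≤ η) (o : Option K) {z B : ℝ} (hB : 0 ≤ B)
    (hz : o ≠ none → z ^ 2 ≤ B) : |gap bb t' o * z ^ 2 - gap bb t o * z ^ 2| ≤ η * B := by
  have hη : 0 ≤ η := (abs_nonneg _).trans ht
  cases o with
  | none => simpa [gap] using mul_nonneg hη hB
  | some k =>
    have : gap bb t' (some k) * z ^ 2 - gap bb t (some k) * z ^ 2 = (t' - t) * z ^ 2 := by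
      simp only [gap, Option.elim]; ring
    rw [this, abs_mul, abs_of_nonneg (sq_nonneg z)]
    exact mul_le_mul ht (hz (by simp)) (sq_nonneg z) hη

/-- the energy depends continuously on `t` and `O`, relative to `1 + q` -/
lemma qO_near (h : Sp α bb t) (hlt : ∀ k, bb k < t) {O : Og (Option K)} (hO : OD α bb t O) {θ : ℝ}
    (hθ : 0 < θ) : ∃ η > 0, ∀ (t' : ℝ) (O' : Og (Option K)), |t' - t| ≤ η →
      (∀ o o', |O'.1 o o' - O.1 o o'| ≤ η) → ∀ o0 y ε,
        |qO bb t' O' o0 y ε - qO bb t O o0 y ε| ≤ θ * (1 + qO bb t O o0 y ε) := by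
  obtain ⟨C, hC, hb⟩ := uvec_sq_le h hlt hO
  obtain ⟨n, hn⟩ : ∃ n, n = (Fintype.card (Option K) : ℝ) := ⟨_, rfl⟩
  obtain ⟨S, hS⟩ : ∃ S, S = ∑ o, gap bb t o := ⟨_, rfl⟩
  have hn0 : 0 ≤ n := by rw [hn]; positivity
  have hS0 : 0 ≤ S := by rw [hS]; exact Finset.sum_nonneg fun o _ => gap_nonneg h.le o
  obtain ⟨L, hL⟩ : ∃ L, L = (2 * n + 1 + S * ((n + 4) / 2)) * C := ⟨_, rfl⟩
  have hL0 : 0 < L := by rw [hL]; positivity
  refine ⟨θ / L, by positivity, fun t' O' ht hO' o0 y ε => ?_⟩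
  obtain ⟨η, hη⟩ : ∃ η, η = θ / L := ⟨_, rfl⟩
  have hη0 : 0 < η := by rw [hη]; positivity
  have hθ' : θ = η * L := by rw [hη]; field_simp
  rw [← hη] at ht hO'
  obtain ⟨b1, b2, b3⟩ := hb o0 y ε
  have hq := Od_q_nonneg h O o0 y ε
  obtain ⟨B, hB⟩ : ∃ B, B = C * (1 + qO bb t O o0 y ε) := ⟨_, rfl⟩
  have hB0 : 0 ≤ B := by rw [hB]; positivity
  have e : θ * (1 + qO bb t O o0 y ε) = η * (2 * n + 1 + S * ((n + 4) / 2)) * B := by
    rw [hθ', hL, hB]; ring
  rw [e]
  rw [← hB] at b1 b2 b3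
  have s1 : |∑ o, gap bb t' o * (O'.1 *ᵥ uvec y ε) o ^ 2 -
      ∑ o, gap bb t o * (O.1 *ᵥ uvec y ε) o ^ 2| ≤ n * (η * B) + S * (η * (n + 4) / 2 * B) := by
    rw [← Finset.sum_sub_distrib]
    refine (Finset.abs_sum_le_sum_abs _ _).trans ((Finset.sum_le_sum
      (g := fun o => η * B + gap bb t o * (η * (n + 4) / 2 * B)) fun o _ => ?_).trans (le_of_eq ?_))
    · have a1 := Od_gap_near (bb := bb) ht o hB0 (z := (O'.1 *ᵥ uvec y ε) o) fun _ => by
        refine le_trans ?_ b1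
        rw [← OdA_sq O']
        exact Finset.single_le_sum (f := fun o => (O'.1 *ᵥ uvec y ε) o ^ 2)
          (fun _ _ => sq_nonneg _) (Finset.mem_univ o)
      have a2 := Od_sq_near hη0 hO' (uvec y ε) o
      rw [← hn] at a2
      have a3 := a2.trans (mul_le_mul_of_nonneg_left b1 (by positivity))
      have a4 := mul_le_mul_of_nonneg_left a3 (gap_nonneg h.le o)
      rw [← abs_of_nonneg (gap_nonneg h.le o), ← abs_mul, abs_of_nonneg (gap_nonneg h.le o),
        mul_sub] at a4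
      exact (abs_sub_le _ _ _).trans (add_le_add a1 a4)
    · rw [Finset.sum_add_distrib, ← Finset.sum_mul _ (gap bb t), ← hS, Finset.sum_const,
        Finset.card_univ, nsmul_eq_mul, ← hn]
  have s2 : |∑ o, gap bb t' o * y (gI o) ^ 2 - ∑ o, gap bb t o * y (gI o) ^ 2| ≤ n * (η * B) := by
    rw [← Finset.sum_sub_distrib]
    refine (Finset.abs_sum_le_sum_abs _ _).trans ((Finset.sum_le_sum
      (g := fun _ => η * B) fun o _ => ?_).trans (le_of_eq ?_))
    · refine Od_gap_near ht o hB0 fun ho => ?_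
      obtain ⟨k, rfl⟩ := Option.ne_none_iff_exists'.1 ho
      exact b2 k
    · rw [hn]; simp
  have s3 := Od_gap_near (bb := bb) ht o0 hB0 b3
  have p1 : 0 ≤ n * (η * B) := by positivity
  have p2 : 0 ≤ S * (η * (n + 4) / 2 * B) := by positivity
  have p3 : 0 ≤ η * B := by positivity
  have e2 : η * (2 * n + 1 + S * ((n + 4) / 2)) * B =
      2 * (n * (η * B)) + η * B + S * (η * (n + 4) / 2 * B) := by ring
  rw [e2]
  unfold qO
  rw [abs_le] at s1 s2 s3 ⊢
  constructor <;> linarith [s1.1, s1.2, s2.1, s2.2, s3.1, s3.2]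

/-- `β(τ)` -/
def bet (bb : K → ℝ) (t : ℝ) (O : Og (Option K)) (τ : ℝ) : ℝ :=
  ∑ k, QPb bb t O (Sum.inl k) ^ 2 * τ / (1 + QPA bb t O none (Sum.inl k) * τ)

lemma Od_sol (h : Sp α bb t) {O : Og (Option K)} (hO : OD α bb t O) {τ : ℝ} (hτ : 0 ≤ τ) :
    ∃ x : Option K → ℝ, x none = gg α bb t τ ∧ ∀ w : Option K → ℝ,
      ∑ o, (1 + gap bb t o * τ) * (O.1 *ᵥ x) o * (O.1 *ᵥ w) o = w none := by
  have hp : ∀ o, 0 < 1 + gap bb t o * τ := fun o => by
    have := mul_nonneg (gap_nonneg h.le o) hτ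
    linarith
  have h1 : O.1 * O.1ᵀ = 1 := (Matrix.mem_orthogonalGroup_iff (Option K) ℝ).1 O.2
  refine ⟨O.1ᵀ *ᵥ fun o => √(α o) / (1 + gap bb t o * τ), ?_, fun w => ?_⟩
  · change ∑ o, O.1 o none * _ = _
    refine Finset.sum_congr rfl fun o _ => ?_
    rw [hO.col, ← mul_div_assoc, Real.mul_self_sqrt (h.pos o).le]
  · rw [Matrix.mulVec_mulVec, h1, Matrix.one_mulVec]
    have h6 := orth_dot O (Pi.single none 1) w
    simp only [← OdA_entry, hO.col] at h6
    have h7 : ∑ i, (Pi.single none 1 : Option K → ℝ) i * w i = w none := by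
      simp [Pi.single_apply]
    rw [← h7, ← h6]
    refine Finset.sum_congr rfl fun o _ => ?_
    rw [mul_div_cancel₀ _ (hp o).ne']

lemma Od_split (O : Og (Option K)) (τ : ℝ) (x w : Option K → ℝ) :
    ∑ o, (1 + gap bb t o * τ) * (O.1 *ᵥ x) o * (O.1 *ᵥ w) o =
      ∑ o, x o * w o + τ * ∑ o, gap bb t o * (O.1 *ᵥ x) o * (O.1 *ᵥ w) o := by
  rw [← orth_dot O x w, Finset.mul_sum, ← Finset.sum_add_distrib]
  exact Finset.sum_congr rfl fun o _ => by ring

theorem schur1 (h : Sp α bb t) {O : Og (Option K)} (hO : OD α bb t O) {τ : ℝ} (hτ : 0 ≤ τ) :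
    gg α bb t τ * (1 + τ * (∑ o, gap bb t o * α o) - τ * bet bb t O τ) = 1 := by
  obtain ⟨x, hx, hw⟩ := Od_sol h hO hτ
  simp only [Od_split, Od_bil h hO] at hw
  have hp : ∀ k, 0 < 1 + QPA bb t O none (Sum.inl k) * τ := fun k => by
    have := mul_nonneg (Od_A_nonneg h O none (Sum.inl k)) hτ
    linarith
  have h1 := hw (Pi.single none 1)
  have h2 : ∀ k, x (some k) =
      -(τ * QPb bb t O (Sum.inl k) * x none) / (1 + QPA bb t O none (Sum.inl k) * τ) := fun k => by
    have := hw (Pi.single (some k) 1)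
    simp [Pi.single_apply] at this
    rw [eq_div_iff (hp k).ne']
    linarith
  simp only [Pi.single_apply, mul_ite, mul_one, mul_zero, Finset.sum_ite_eq', Finset.mem_univ,
    if_true, reduceCtorEq, if_false, zero_add, Finset.sum_const_zero, add_zero] at h1
  have h3 : ∑ k, QPb bb t O (Sum.inl k) * x (some k) = -(bet bb t O τ * x none) := by
    unfold bet
    rw [Finset.sum_mul, ← Finset.sum_neg_distrib]
    refine Finset.sum_congr rfl fun k _ => ?_
    rw [h2]; ring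
  rw [h3] at h1
  rw [← hx]
  linarith

theorem schur2 (h : Sp α bb t) {O : Og (Option K)} (hO : OD α bb t O) {τ : ℝ} (hτ : 0 ≤ τ) :
    ∏ k, (1 + QPA bb t O none (Sum.inl k) * τ) =
      gg α bb t τ * ∏ k, (1 + gap bb t (some k) * τ) := by
  obtain ⟨x, hx, hw⟩ := Od_sol h hO hτ
  have hp : ∀ k, 0 < 1 + QPA bb t O none (Sum.inl k) * τ := fun k => by
    have := mul_nonneg (Od_A_nonneg h O none (Sum.inl k)) hτ
    linarith
  have h1 := OdA_arrow (Matrix.of fun j j' => ∑ o, (1 + gap bb t o * τ) * O.1 o j * O.1 o j')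
    (fun k => 1 + QPA bb t O none (Sum.inl k) * τ) (fun k => (hp k).ne') (fun k k' => by
      have h2 := Od_split (bb := bb) (t := t) O τ (Pi.single (some k) 1) (Pi.single (some k') 1)
      simp only [← OdA_entry, (Od_ent h hO).2.2.2] at h2
      rw [Matrix.of_apply, h2]
      by_cases hk : k = k'
      · subst hk; simp [Pi.single_apply]; ring
      · simp [Pi.single_apply, hk, Ne.symm hk]) x (fun j => by
      have h2 := hw (Pi.single j 1)
      simp only [← OdA_entry] at h2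
      have h3 : (Pi.single j 1 : Option K → ℝ) none = (Pi.single none 1 : Option K → ℝ) j := by
        simp [Pi.single_apply, eq_comm]
      rw [← h3, ← h2]
      simp only [Matrix.of_apply, Od_mulVec, Finset.mul_sum, Finset.sum_mul]
      rw [Finset.sum_comm]
      exact Finset.sum_congr rfl fun o _ => Finset.sum_congr rfl fun i _ => by ring)
  rw [OdA_det, Fintype.prod_option, hx] at h1
  rw [← h1]
  simp [gap]

theorem exists_near {J : Type} [Fintype J] [DecidableEq J] (O0 : Og J) (j0 : J) {η : ℝ}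
    (hη : 0 < η) : ∃ η' > 0, ∀ a : J → ℝ, ∑ j, a j ^ 2 = 1 → (∀ j, |a j - O0.1 j j0| ≤ η') →
      ∃ O : Og J, (∀ j, O.1 j j0 = a j) ∧ ∀ j j', |O.1 j j' - O0.1 j j'| ≤ η := by
  exact OdA_near O0 j0 hη

theorem exists_col {J : Type} [Fintype J] [DecidableEq J] (j0 : J) {a : J → ℝ}
    (ha : ∑ j, a j ^ 2 = 1) : ∃ O : Og J, ∀ j, O.1 j j0 = a j := by
  exact OdA_col j0 ha

end

end Vale.Agent.P166
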