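import Vale.Agent.P166.Gauss

/-! P166 Orth: Haar measure of the orthogonal group and block embeddings.
Plan. Compactness: closed (continuity of U * U^T) and entries in [-1,1], isCompact_univ_pi / IsCompact.of_isClosed_subset, isCompact_iff_compactSpace.
Right invariance: for a left invariant probability mu and its image mu' under inversion (right invariant), int f dmu = int int f(x y) dmu(y) dmu'(x) = int f dmu' (Fubini).
isHaarO_eq: the same trick with nu. embM: compute mulVec entries (embM_mulVec_in / out), orthogonality from preservation of sum of squares or embM_mul and embM_transpose. -/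

open MeasureTheory ProbabilityTheory Filter Topology Matrix Finset

namespace Vale.Agent.P166

noncomputable section

variable {ι K : Type} [Fintype ι] [DecidableEq ι] [Fintype K] [DecidableEq K]

instance : CompactSpace (Og ι) := by
  have h1 : IsCompact (Set.univ.pi fun _ : ι => Set.univ.pi fun _ : ι => Set.Icc (-1 : ℝ) 1) :=
    isCompact_univ_pi fun _ => isCompact_univ_pi fun _ => isCompact_Icc
  have h2 : IsClosed (Matrix.orthogonalGroup ι ℝ : Set (Matrix ι ι ℝ)) := isClosed_unitary
  have h3 : IsCompact (Matrix.orthogonalGroup ι ℝ : Set (Matrix ι ι ℝ)) := by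
    refine IsCompact.of_isClosed_subset (s := Set.univ.pi fun _ : ι => Set.univ.pi fun _ : ι =>
      Set.Icc (-1 : ℝ) 1) h1 h2 fun U hU i _ j _ => ?_
    exact abs_le.1 (entry_norm_bound_of_unitary (𝕜 := ℝ) hU i j)
  exact isCompact_iff_compactSpace.1 h3

/-- Haar probability measure -/
def haarO (ι : Type) [Fintype ι] [DecidableEq ι] : Measure (Og ι) := Measure.haarMeasure ⊤

instance : IsProbabilityMeasure (haarO ι) := ⟨by
  have h := Measure.haarMeasure_self (G := Og ι) (K₀ := ⊤)
  rwa [TopologicalSpace.PositiveCompacts.coe_top] at h⟩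

instance Orth_left : (haarO ι).IsMulLeftInvariant := by
  unfold haarO
  infer_instance

instance Orth_second : SecondCountableTopology (Og ι) :=
  haveI : SecondCountableTopology (Matrix ι ι ℝ) :=
    inferInstanceAs (SecondCountableTopology (ι → ι → ℝ))
  inferInstanceAs (SecondCountableTopology ↥(Matrix.orthogonalGroup ι ℝ : Set (Matrix ι ι ℝ)))

lemma Orth_unique (μ : Measure (Og ι)) [IsProbabilityMeasure μ] [μ.IsMulLeftInvariant] :
    μ = haarO ι := by
  have h := Measure.haarMeasure_unique μ (⊤ : TopologicalSpace.PositiveCompacts (Og ι))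
  rwa [TopologicalSpace.PositiveCompacts.coe_top, measure_univ, one_smul] at h

instance Orth_right : (haarO ι).IsMulRightInvariant := ⟨fun V => by
  have : IsProbabilityMeasure ((haarO ι).map (· * V)) :=
    Measure.isProbabilityMeasure_map (measurable_mul_const V).aemeasurable
  exact Orth_unique _⟩

lemma haarO_left (V : Og ι) : MeasurePreserving (fun U => V * U) (haarO ι) (haarO ι) :=
  measurePreserving_mul_left _ V
lemma haarO_right (V : Og ι) : MeasurePreserving (fun U => U * V) (haarO ι) (haarO ι) :=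
  measurePreserving_mul_right _ V
lemma integral_haarO_left (V : Og ι) (f : Og ι → ℝ) :
    ∫ U, f (V * U) ∂haarO ι = ∫ U, f U ∂haarO ι := integral_mul_left_eq_self f V
lemma integral_haarO_right (V : Og ι) (f : Og ι → ℝ) :
    ∫ U, f (U * V) ∂haarO ι = ∫ U, f U ∂haarO ι := integral_mul_right_eq_self f V
lemma continuous_entry (i j : ι) : Continuous fun U : Og ι => U.1 i j :=
  continuous_subtype_val.matrix_elem i j
lemma measurable_entry (i j : ι) : Measurable fun U : Og ι => U.1 i j :=
  (continuous_entry i j).measurable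
lemma isHaarO_eq {N : ℕ} {ν : Measure (Fin N → Fin N → ℝ)} (h : IsHaarO ν) :
    ν = (haarO (Fin N)).map fun U i j => U.1 i j := by
  obtain ⟨h1, h2, h3⟩ := h
  set c : Og (Fin N) → Fin N → Fin N → ℝ := fun U i j => U.1 i j with hc
  have hcc : Continuous c := continuous_pi fun i => continuous_pi fun j => continuous_entry i j
  have hinj : Function.Injective c := fun U V hUV => Subtype.ext hUV
  have hme : MeasurableEmbedding c := (hcc.isClosedEmbedding hinj).measurableEmbedding
  have h4 : (ν.comap c).map c = ν := by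
    rw [hme.map_comap]
    refine Measure.restrict_eq_self_of_ae_mem ?_
    filter_upwards [h2] with U hU
    exact ⟨⟨Matrix.of U, hU⟩, rfl⟩
  have : IsProbabilityMeasure (ν.comap c) := ⟨by
    have h5 := congrArg (fun μ : Measure (Fin N → Fin N → ℝ) => μ Set.univ) h4
    simpa [hme.map_apply] using h5⟩
  have : (ν.comap c).IsMulLeftInvariant := ⟨fun V => by
    apply hme.map_injective
    have h6 : Measurable fun (U : Fin N → Fin N → ℝ) (i j : Fin N) => (V.1 * Matrix.of U) i j := by
      refine Continuous.measurable (continuous_pi fun i => continuous_pi fun j => ?_)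
      simp only [Matrix.mul_apply, Matrix.of_apply]
      fun_prop
    have h7 := h3 V.1 V.2
    change ((ν.comap c).map fun U => V * U).map c = (ν.comap c).map c
    rw [Measure.map_map hme.measurable (measurable_const_mul V), h4]
    conv_rhs => rw [← h7, ← h4]
    rw [Measure.map_map h6 hme.measurable]
    rfl⟩
  rw [← h4, Orth_unique (ν.comap c)]

lemma orth_dot (U : Og ι) (v w : ι → ℝ) :
    ∑ i, (U.1 *ᵥ v) i * (U.1 *ᵥ w) i = ∑ i, v i * w i := by
  have h : U.1ᵀ * U.1 = 1 := (Matrix.mem_orthogonalGroup_iff' ι ℝ).1 U.2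
  change (U.1 *ᵥ v) ⬝ᵥ (U.1 *ᵥ w) = v ⬝ᵥ w
  rw [Matrix.dotProduct_mulVec, Matrix.vecMul_mulVec, h, Matrix.vecMul_one]
lemma mem_orth_of_dot {M : Matrix ι ι ℝ}
    (h : ∀ v w : ι → ℝ, ∑ i, (M *ᵥ v) i * (M *ᵥ w) i = ∑ i, v i * w i) :
    M ∈ Matrix.orthogonalGroup ι ℝ := by
  rw [Matrix.mem_orthogonalGroup_iff']
  ext i j
  have h1 := h (Pi.single i 1) (Pi.single j 1)
  simp only [Matrix.mulVec_single_one, Matrix.col_apply] at h1
  rw [Matrix.mul_apply, Matrix.one_apply]
  simp only [Matrix.transpose_apply]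
  rw [h1]
  simp [Pi.single_apply, eq_comm]
lemma continuous_yv (σ : ι → Bool) (i : ι) : Continuous fun U : Og ι => yv U σ i := by
  simp only [yv, Matrix.mulVec, dotProduct]
  exact continuous_finsetSum _ fun j _ => (continuous_entry i j).mul continuous_const
lemma yv_dot (U : Og ι) (σ σ' : ι → Bool) :
    ∑ i, yv U σ i * yv U σ' i = ∑ i, spin (σ i) * spin (σ' i) := orth_dot U _ _
lemma yv_sq (U : Og ι) (σ : ι → Bool) : ∑ i, yv U σ i ^ 2 = Fintype.card ι := by
  have h : ∀ b, spin b * spin b = 1 := fun b => by cases b <;> simp [spin]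
  simp only [sq, yv_dot, h]
  simp
lemma yv_mul (V U : Og ι) (σ : ι → Bool) : yv (V * U) σ = V.1 *ᵥ yv U σ :=
  (Matrix.mulVec_mulVec _ _ _).symm

lemma Orth_ext {U V : Og ι} (h : ∀ v i, (U.1 *ᵥ v) i = (V.1 *ᵥ v) i) : U = V :=
  Subtype.ext (Matrix.mulVec_injective (funext fun v => funext (h v)))

lemma Orth_mul (U V : Og ι) (v : ι → ℝ) : (U * V).1 *ᵥ v = U.1 *ᵥ (V.1 *ᵥ v) :=
  (Matrix.mulVec_mulVec _ _ _).symm

lemma Orth_embM (f : K ↪ ι) (O : Matrix K K ℝ) (v : ι → ℝ) (i : ι) :
    (embM f O *ᵥ v) i =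
      v i + ∑ k, if f k = i then (O *ᵥ fun k' => v (f k')) k - v (f k) else 0 := by
  simp only [embM, Matrix.mulVec, dotProduct, Matrix.of_apply, add_mul, Finset.sum_add_distrib,
    Finset.sum_mul]
  congr 1
  · simp
  · rw [Finset.sum_comm]
    refine Finset.sum_congr rfl fun k _ => ?_
    rw [Finset.sum_comm]
    by_cases hk : f k = i
    · simp [hk, sub_mul, Finset.sum_sub_distrib]
    · simp [hk]

omit [DecidableEq K] in
lemma Orth_split (f : K ↪ ι) (g : ι → ℝ) :
    ∑ i, g i = ∑ k, g (f k) + ∑ i ∈ (univ.map f)ᶜ, g i := by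
  rw [← Finset.sum_add_sum_compl (univ.map f), Finset.sum_map]

omit [Fintype ι] [DecidableEq ι] [Fintype K] [DecidableEq K] in
lemma Orth_cases (f : K ↪ ι) (i : ι) : (∃ k, f k = i) ∨ ∀ k, f k ≠ i := by
  by_cases h : ∃ k, f k = i
  · exact Or.inl h
  · exact Or.inr fun k hk => h ⟨k, hk⟩

lemma embM_mulVec_in (f : K ↪ ι) (O : Matrix K K ℝ) (v : ι → ℝ) (k : K) :
    (embM f O *ᵥ v) (f k) = (O *ᵥ fun k' => v (f k')) k := by
  rw [Orth_embM]
  simp
lemma embM_mulVec_out (f : K ↪ ι) (O : Matrix K K ℝ) (v : ι → ℝ) {i : ι} (hi : ∀ k, f k ≠ i) :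
    (embM f O *ᵥ v) i = v i := by
  rw [Orth_embM]
  simp [hi]
lemma embM_mem (f : K ↪ ι) (O : Og K) : embM f O.1 ∈ Matrix.orthogonalGroup ι ℝ := by
  refine mem_orth_of_dot fun v w => ?_
  rw [Orth_split f, Orth_split f fun i => v i * w i]
  congr 1
  · simp only [embM_mulVec_in]
    exact orth_dot O _ _
  · refine Finset.sum_congr rfl fun i hi => ?_
    have h : ∀ k, f k ≠ i := by simpa using hi
    rw [embM_mulVec_out f _ _ h, embM_mulVec_out f _ _ h]

/-- embedding of a smaller orthogonal group -/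
def emb (f : K ↪ ι) (O : Og K) : Og ι := ⟨embM f O.1, embM_mem f O⟩

lemma Orth_in (f : K ↪ ι) (O : Og K) (v : ι → ℝ) (k : K) :
    ((emb f O).1 *ᵥ v) (f k) = (O.1 *ᵥ fun k' => v (f k')) k := embM_mulVec_in f _ v k
lemma Orth_out (f : K ↪ ι) (O : Og K) (v : ι → ℝ) {i : ι} (hi : ∀ k, f k ≠ i) :
    ((emb f O).1 *ᵥ v) i = v i := embM_mulVec_out f _ v hi

lemma emb_mul (f : K ↪ ι) (O O' : Og K) : emb f (O * O') = emb f O * emb f O' := by
  refine Orth_ext fun v i => ?_
  rw [Orth_mul]
  rcases Orth_cases f i with ⟨k, rfl⟩ | hi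
  · simp only [Orth_in, Orth_mul]
  · simp only [Orth_out f _ _ hi]
lemma emb_one (f : K ↪ ι) : emb f 1 = 1 := by
  refine Orth_ext fun v i => ?_
  rcases Orth_cases f i with ⟨k, rfl⟩ | hi
  · rw [Orth_in]
    simp
  · rw [Orth_out f _ _ hi]
    simp
lemma emb_emb {J : Type} [Fintype J] [DecidableEq J] (f : J ↪ K) (g : K ↪ ι) (O : Og J) :
    emb g (emb f O) = emb (f.trans g) O := by
  refine Orth_ext fun v i => ?_
  rcases Orth_cases g i with ⟨k, rfl⟩ | hi
  · rw [Orth_in]
    rcases Orth_cases f k with ⟨j, rfl⟩ | hk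
    · rw [Orth_in]
      exact (Orth_in (f.trans g) O v j).symm
    · rw [Orth_out f _ _ hk, Orth_out (f.trans g) _ _ fun j hj => hk j (g.injective hj)]
  · rw [Orth_out g _ _ hi, Orth_out (f.trans g) _ _ fun j hj => hi (f j) hj]
lemma emb_comm {J : Type} [Fintype J] [DecidableEq J] (f : J ↪ ι) (g : K ↪ ι)
    (h : ∀ j k, f j ≠ g k) (O : Og J) (O' : Og K) : emb f O * emb g O' = emb g O' * emb f O := by
  refine Orth_ext fun v i => ?_
  rw [Orth_mul, Orth_mul]
  have h1 : ∀ (w : ι → ℝ) j, ((emb g O').1 *ᵥ w) (f j) = w (f j) := fun w j =>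
    Orth_out g _ _ fun k hk => h j k hk.symm
  have h2 : ∀ (w : ι → ℝ) k, ((emb f O).1 *ᵥ w) (g k) = w (g k) := fun w k =>
    Orth_out f _ _ fun j hj => h j k hj
  rcases Orth_cases f i with ⟨j, rfl⟩ | hi
  · rw [h1, Orth_in, Orth_in]
    simp only [h1]
  · rcases Orth_cases g i with ⟨k, rfl⟩ | hi'
    · rw [h2, Orth_in, Orth_in]
      simp only [h2]
    · rw [Orth_out f _ _ hi, Orth_out g _ _ hi', Orth_out g _ _ hi', Orth_out f _ _ hi]
lemma continuous_emb (f : K ↪ ι) : Continuous (emb f) := by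
  refine Continuous.subtype_mk (continuous_matrix fun i j => ?_) _
  simp only [embM, Matrix.of_apply]
  refine continuous_const.add (continuous_finsetSum _ fun k _ =>
    continuous_finsetSum _ fun k' _ => ?_)
  split_ifs
  · exact (continuous_entry k k').sub continuous_const
  · exact (continuous_entry k k').sub continuous_const
  · exact continuous_const
lemma exists_perm_orth (e : Equiv.Perm ι) :
    ∃ B : Og ι, ∀ v : ι → ℝ, B.1 *ᵥ v = fun i => v (e i) := by
  have h : ∀ v : ι → ℝ, (Matrix.of fun i j => if e i = j then (1 : ℝ) else 0) *ᵥ v =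
      fun i => v (e i) := fun v => by
    funext i
    simp [Matrix.mulVec, dotProduct]
  refine ⟨⟨_, mem_orth_of_dot fun v w => ?_⟩, h⟩
  rw [h, h]
  exact Equiv.sum_comp e fun i => v i * w i
lemma map_haarO_emb_equiv (e : K ≃ ι) : (haarO K).map (emb e.toEmbedding) = haarO ι := by
  have hm : Measurable (emb e.toEmbedding) := (continuous_emb _).measurable
  have : IsProbabilityMeasure ((haarO K).map (emb e.toEmbedding)) :=
    Measure.isProbabilityMeasure_map hm.aemeasurable
  have : ((haarO K).map (emb e.toEmbedding)).IsMulLeftInvariant := ⟨fun V => by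
    have h1 : emb e.toEmbedding (emb e.symm.toEmbedding V) = V := by
      rw [emb_emb]
      refine Orth_ext fun v i => ?_
      have h2 := Orth_in (e.symm.toEmbedding.trans e.toEmbedding) V v i
      simpa using h2
    have h3 := (haarO_left (emb e.symm.toEmbedding V)).map_eq
    conv_rhs => rw [← h3]
    rw [Measure.map_map (measurable_const_mul V) hm,
      Measure.map_map hm (measurable_const_mul _)]
    congr 1
    funext U
    simp only [Function.comp_apply, emb_mul, h1]⟩
  exact Orth_unique _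

end

end Vale.Agent.P166
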