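import Vale.Agent.P166.Defs2
import Vale.Agent.P166.Es3
import Vale.Agent.P166.GGlim
import Vale.Agent.P166.Th
import Vale.Agent.P166.Fg
import Vale.Agent.P166.Alg2

/-! P166 SeqB: the base systems of a sequence have a Ghirlanda-Guerra limit.
Plan. Counting: cb and cp differ from c at at most card (Fr K) + 1 indices. F_S_B: Fm_crude (pointwise in U, T_B - T_S = sum over the frame indices of colour <> none of y y' / N0, h_B - h_S = sum gap y^2 / 2, rho = (max gap + (2r+8) s^2/N0) sum y_f^2) and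
A_mom in the base system along the top block (E y_f^2 <= N / card Top). exists_lim: gg_lim with D i = 4 * (bound of F_S_B) (Flat.transfer), v i from dev_le and eso (Bd = sum of |t i - bb k|); all these explicit quantities divided by s^2 tend to 0
(s_big, s_small, N <= N0, card Top / N -> alpha none > 0, s^2 -> infinity since sqrt N0 / s^2 -> 0 and N0 >= 1). rho i = N0 / card Top is in [1, C] eventually, take the limit along the ultrafilter. lev_mass: lev_lim, sys_E, tendsto_zeta with indL j. -/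

open MeasureTheory ProbabilityTheory Filter Topology Matrix Finset

namespace Vale.Agent.P166

noncomputable section

lemma sqb_lim {l : Filter ℕ} {a a' n : ℕ → ℝ} {α C : ℝ} (h : Tendsto (fun i => a i / n i) l (𝓝 α))
    (hn : Tendsto n l atTop) (hC : ∀ i, |a' i - a i| ≤ C) :
    Tendsto (fun i => a' i / n i) l (𝓝 α) := by
  refine h.congr_dist (squeeze_zero' (Eventually.of_forall fun _ => dist_nonneg) ?_
    (hn.const_div_atTop C))
  filter_upwards [hn.eventually_gt_atTop 0] with i hi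
  rw [Real.dist_eq, ← sub_div, abs_div, abs_of_pos hi, abs_sub_comm]
  exact div_le_div_of_nonneg_right (hC i) hi.le

lemma sqb_card {ι : Type} [DecidableEq ι] {s t u : Finset ι} (h : ∀ x, x ∉ u → (x ∈ s ↔ x ∈ t)) :
    |(s.card : ℝ) - t.card| ≤ u.card := by
  have h1 : ∀ s t : Finset ι, (∀ x, x ∉ u → x ∈ s → x ∈ t) → (s.card : ℝ) ≤ t.card + u.card :=
    fun s t h => by
      exact_mod_cast (Finset.card_le_card fun x hx => Finset.mem_union.2
        ((em (x ∈ u)).elim Or.inr fun hu => Or.inl (h x hu hx))).trans (Finset.card_union_le t u)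
  have h2 := h1 s t fun x hx => (h x hx).1
  have h3 := h1 t s fun x hx => (h x hx).2
  exact abs_le.2 ⟨by linarith, by linarith⟩

namespace Seq

variable {K : Type} [Fintype K] [DecidableEq K] {r : ℕ} (Z : Seq K r)

lemma sp : Vale.Agent.P166.Sp Z.α Z.bb Z.tl := ⟨Z.α_pos, Z.α_sum, fun k => (Z.bb_lt k).le⟩

/-- cavity energy of the `N` spin system at the limiting top eigenvalue -/
def qs : Quad (Fr K) := QS Z.bb Z.tl Z.sp.le

lemma N_lim : Tendsto Z.N (hyperfilter ℕ) atTop :=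
  (tendsto_natCast_atTop_iff (R := ℝ)).1 (tendsto_atTop_mono Z.hδ
    ((tendsto_natCast_atTop_atTop.comp Z.N0_lim).const_mul_atTop Z.δ_pos))
lemma sqb_N : Tendsto (fun i => (Z.N i : ℝ)) (hyperfilter ℕ) atTop :=
  tendsto_natCast_atTop_atTop.comp Z.N_lim
lemma sqb_out (i : ℕ) {x : Fin (Z.N i)} (hx : x ∉ univ.map (Z.e i)) : Z.cb i x = Z.c i x :=
  if_neg fun ⟨f, hf⟩ => hx (Finset.mem_map.2 ⟨f, mem_univ _, hf⟩)
lemma sqb_in (i : ℕ) (f : Fr K) : Z.cb i (Z.e i f) = none := if_pos ⟨f, rfl⟩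
lemma frac_cb (o : Option K) :
    Tendsto (fun i => ((blk (Z.cb i) o).card : ℝ) / Z.N i) (hyperfilter ℕ) (𝓝 (Z.α o)) :=
  sqb_lim (Z.frac o) Z.sqb_N (C := Fintype.card (Fr K)) fun i =>
    (sqb_card (u := univ.map (Z.e i)) fun x hx => by
      simp only [blk, mem_filter, Z.sqb_out i hx]).trans_eq (by rw [card_map, card_univ])
lemma frac_cp (o0 o : Option K) :
    Tendsto (fun i => ((blk (Z.cp i o0) o).card : ℝ) / ((Z.N i : ℝ) + 1)) (hyperfilter ℕ)
      (𝓝 (Z.α o)) := by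
  have h1 := sqb_lim (a' := fun i => ((blk (Z.cp i o0) o).card : ℝ)) (Z.frac o) Z.sqb_N (C := 2)
    fun i => by
      rw [← card_map Function.Embedding.some (s := blk (Z.c i) o)]
      refine (sqb_card (u := {none, some (Z.e i (Sum.inr (Sum.inr ())))}) ?_).trans
        (by exact_mod_cast Finset.card_le_two)
      rintro (_ | x) hx
      · exact absurd (mem_insert_self _ _) hx
      · have e : Z.cp i o0 (some x) = Z.c i x := if_neg fun h => hx (by simp [h])
        refine Iff.trans ?_ (Finset.mem_map' Function.Embedding.some).symm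
        simp only [blk, mem_filter, mem_univ, e]
  have h2 := sqb_lim (a' := fun i => (Z.N i : ℝ) + 1) (a := fun i => (Z.N i : ℝ)) (C := 1)
    (tendsto_const_nhds.congr' ((Z.sqb_N.eventually_gt_atTop 0).mono fun i hi =>
      (div_self hi.ne').symm)) Z.sqb_N fun i => by simp
  have h3 := h1.div h2 one_ne_zero
  rw [div_one] at h3
  refine h3.congr' ((Z.sqb_N.eventually_gt_atTop 0).mono fun i hi => ?_)
  exact div_div_div_cancel_right₀ hi.ne' _ _
lemma cp_sec (i : ℕ) (o0 o : Option K) : Z.cp i o0 (Z.sec i o) = o := by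
  cases o with
  | none => rfl
  | some k =>
    exact (if_neg fun h => Sum.inl_ne_inr ((Z.e i).injective h)).trans (Z.e_col i (Sum.inl k))
lemma cp_gI (i : ℕ) (o0 o : Option K) : Z.cp i o0 (some (Z.e i (gI o))) = o :=
  (if_neg fun h => Sum.inl_ne_inr (Sum.inr_injective ((Z.e i).injective h))).trans
    (Z.e_col i (gI o))

lemma sqb_top (i : ℕ) : (0 : ℝ) < (blk (Z.cb i) none).card :=
  Nat.cast_pos.2 (Finset.card_pos.2 ⟨_, Z.e_mem i (Sum.inr (Sum.inr ()))⟩)

lemma sqb_ev (i : ℕ) : ∀ x ∈ blk (Z.cb i) none, ev Z.bb (Z.t i) (Z.cb i) x = Z.t i := fun x hx => by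
  rw [ev, (mem_filter.1 hx).2]
  rfl

lemma sqb_mom (i : ℕ) (P : Pr) (f : Fr K) :
    (Z.B i).A r (Z.b i) Z.m P 1 (fun U c => yv U (c 0).1 (Z.e i f) ^ 2) ≤
      Z.N i / (blk (Z.cb i) none).card ∧
    (Z.B i).A r (Z.b i) Z.m P 1 (fun U c => yv U (c 0).1 (Z.e i f) ^ 4) ≤
      3 * (Z.N i / (blk (Z.cb i) none).card) ^ 2 := by
  obtain ⟨-, h1, h2⟩ := (YO (Fin (Z.N i))).A_mom (r := r) (b := Z.b i) (m := Z.m) (P := P)
    (Z.card_le i) (YO_inv (Function.Embedding.subtype fun x => x ∈ blk (Z.cb i) none))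
    (fun k => Z.sqb_ev i k.1 k.2) (Or.inl fun k => k.2) ⟨Z.e i f, Z.e_mem i f⟩
  rw [Fintype.card_coe, Fintype.card_fin] at h1 h2
  rw [div_pow, ← mul_div_assoc]
  exact ⟨(le_div_iff₀' (Z.sqb_top i)).2 h1, (le_div_iff₀' (pow_pos (Z.sqb_top i) 2)).2 h2⟩

lemma sqb_ratio : Tendsto (fun i => (Z.N i : ℝ) / (blk (Z.cb i) none).card) (hyperfilter ℕ)
    (𝓝 (Z.α none)⁻¹) :=
  ((Z.frac_cb none).inv₀ (Z.α_pos none).ne').congr fun _ => inv_div _ _

lemma sqb_gap (i : ℕ) (o : Option K) : gap Z.bb (Z.t i) o ≤ ∑ k, (Z.t i - Z.bb k) := by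
  cases o with
  | none => exact Finset.sum_nonneg fun k _ => sub_nonneg.2 (Z.bb_le i k)
  | some k => exact Finset.single_le_sum (fun k _ => sub_nonneg.2 (Z.bb_le i k)) (mem_univ k)

lemma sqb_evgap (i : ℕ) (c : Fin (Z.N i) → Option K) (x : Fin (Z.N i)) :
    ev Z.bb (Z.t i) c x = Z.t i - gap Z.bb (Z.t i) (c x) := by
  unfold ev gap
  cases c x <;> simp

/-- second and fourth moments of the frame coordinates in the base system, at any parameters -/
lemma base_mom : ∃ C : ℝ, ∀ᶠ i in hyperfilter ℕ, ∀ (P : Pr) (f : Fr K),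
    (Z.B i).A r (Z.b i) Z.m P 1 (fun U c => yv U (c 0).1 (Z.e i f) ^ 2) ≤ C ∧
    (Z.B i).A r (Z.b i) Z.m P 1 (fun U c => yv U (c 0).1 (Z.e i f) ^ 4) ≤ C := by
  refine ⟨(Z.α none)⁻¹ + 1 + 3 * ((Z.α none)⁻¹ + 1) ^ 2, ?_⟩
  filter_upwards [Z.sqb_ratio.eventually (gt_mem_nhds (lt_add_one _))] with i hi P f
  have h0 : (0 : ℝ) ≤ Z.N i / (blk (Z.cb i) none).card := by positivity
  have h1 := pow_le_pow_left₀ h0 hi.le 2
  have h2 := Z.sqb_mom i P f
  exact ⟨by linarith [h2.1, sq_nonneg ((Z.α none)⁻¹ + 1)], by linarith [h2.2]⟩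

lemma h_S_B (i : ℕ) (U : Og (Fin (Z.N i))) (σ : Fin (Z.N i) → Bool) :
    (Z.S i).h U σ = (Z.B i).h U σ -
      (∑ f, gap Z.bb (Z.t i) (frc f) * yv U σ (Z.e i f) ^ 2) / 2 := by
  show hY _ (yv U σ) = hY _ (yv U σ) - _
  rw [hY, hY, ← sub_div, Orth_split (Z.e i), Orth_split (Z.e i), add_sub_right_comm,
    ← Finset.sum_sub_distrib]
  refine congrArg (· / 2) (congrArg₂ (· + ·) (Finset.sum_congr rfl fun f _ => ?_)
    (Finset.sum_congr rfl fun x hx => ?_))
  · rw [Z.sqb_ev i _ (Z.e_mem i f), Z.sqb_evgap, Z.e_col, sub_mul]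
  · rw [ev, ev, Z.sqb_out i (mem_compl.1 hx)]

lemma T_S_B (i : ℕ) (U : Og (Fin (Z.N i))) (σ σ' : Fin (Z.N i) → Bool) :
    (Z.B i).T U σ σ' - (Z.S i).T U σ σ' =
      (∑ f ∈ univ.filter fun f => frc f ≠ none, yv U σ (Z.e i f) * yv U σ' (Z.e i f)) / Z.N0 i := by
  show TY _ _ (yv U σ) (yv U σ') - TY _ _ (yv U σ) (yv U σ') = _
  rw [TY, TY, ← sub_div, blk, blk, sum_filter, sum_filter, sum_filter, ← Finset.sum_sub_distrib,
    Orth_split (Z.e i), Finset.sum_eq_zero (s := (univ.map (Z.e i))ᶜ) fun x hx => by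
      rw [Z.sqb_out i (mem_compl.1 hx), sub_self], add_zero]
  refine congrArg (· / (Z.N0 i : ℝ)) (Finset.sum_congr rfl fun f _ => ?_)
  rw [if_pos (Z.sqb_in i f), Z.e_col]
  by_cases h : frc f = none <;> simp [h]

lemma F_S_B (i : ℕ) {P : Pr} (hP : P.Ok) :
    |(Z.S i).F r (Z.b i) Z.m P - (Z.B i).F r (Z.b i) Z.m P| ≤
      3 / 2 * (∑ k, (Z.t i - Z.bb k) + (2 * r + 8) * P.s ^ 2 / Z.N0 i) * Fintype.card (Fr K) *
        (Z.N i / (blk (Z.cb i) none).card) := by
  obtain ⟨c0, hc0⟩ : ∃ c0, c0 = ∑ k, (Z.t i - Z.bb k) + (2 * r + 8) * P.s ^ 2 / Z.N0 i := ⟨_, rfl⟩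
  have g0 : 0 ≤ ∑ k, (Z.t i - Z.bb k) := Z.sqb_gap i none
  have g1 : 0 ≤ (2 * r + 8) * P.s ^ 2 / Z.N0 i := by positivity
  have hm : ∀ (f : Fr K) (c : Fin 1 → Cfg r (Z.b i) (Z.B i).Sg),
      Measurable fun U => yv U (c 0).1 (Z.e i f) ^ 2 :=
    fun f c => (continuous_yv _ _).measurable.pow_const 2
  have hb : ∀ (f : Fr K) U (c : Fin 1 → Cfg r (Z.b i) (Z.B i).Sg),
      |yv U (c 0).1 (Z.e i f) ^ 2| ≤ (Fintype.card (Fin (Z.N i)) + 1) ^ 2 := fun f U c =>
    (abs_pow _ _).trans_le (pow_le_pow_left₀ (abs_nonneg _) ((YO _).inv_absY U _ _) 2)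
  have h := fun U => Fm_crude (b := Z.b i) Z.mok hP (h := (Z.B i).h U) (h' := (Z.S i).h U)
    (ρ := fun σ => c0 * ∑ f, yv U σ (Z.e i f) ^ 2) (T := (Z.B i).T U) ((Z.S i).pT U) ((Z.B i).pQ U)
    (by
      simp only [Z.T_S_B, div_eq_inv_mul]
      exact (psd_sum _ fun f _ => psd_rank_one fun σ => yv U σ (Z.e i f)).smul (by positivity))
    (fun σ => (le_abs_self _).trans ((Z.B i).bT U σ σ))
    (fun σ => (Z.h_S_B i U σ).trans_le (sub_le_self _ (div_nonneg (Finset.sum_nonneg fun f _ =>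
      mul_nonneg (gap_nonneg (Z.bb_le i) _) (sq_nonneg _)) zero_le_two)))
    (fun σ => by
      rw [Z.h_S_B, Finset.mul_sum]
      exact sub_le_sub_left (div_le_div_of_nonneg_right (Finset.sum_le_sum fun f _ =>
        mul_le_mul_of_nonneg_right (by linarith [Z.sqb_gap i (frc f)]) (sq_nonneg _)) zero_le_two) _)
    (fun σ => by
      rw [Z.T_S_B, mul_div_assoc', mul_div_right_comm]
      refine mul_le_mul (by linarith) ?_ (Finset.sum_nonneg fun _ _ => mul_self_nonneg _)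
        (by linarith)
      simp only [pow_two]
      exact Finset.sum_le_sum_of_subset_of_nonneg (filter_subset _ _) fun _ _ _ => mul_self_nonneg _)
  have iS := (Z.S i).integrable_Fm (b := Z.b i) Z.mok hP
  have iB := (Z.B i).integrable_Fm (b := Z.b i) Z.mok hP
  have iA : Integrable (fun U => 3 / 2 * Am r (Z.b i) Z.m P ((Z.B i).h U) ((Z.B i).T U)
      ((Z.B i).Q U) 1 fun c => c0 * ∑ f, yv U (c 0).1 (Z.e i f) ^ 2) (Z.B i).P :=
    (rmb_integrable ((Z.B i).measurable_Am 1 fun c =>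
      (Finset.measurable_sum _ fun f _ => hm f c).const_mul c0) fun U =>
      rmb_abs_integral_le fun u => abs_Avg_le _ _ _ fun c => (abs_mul _ _).trans_le
        (mul_le_mul_of_nonneg_left ((abs_sum_le_sum_abs _ _).trans
          (Finset.sum_le_sum fun f _ => hb f U c)) (abs_nonneg _))).const_mul _
  have h1 : (Z.S i).F r (Z.b i) Z.m P ≤ (Z.B i).F r (Z.b i) Z.m P :=
    integral_mono iS iB fun U => (h U).1
  have h2 := (integral_sub iB iA).symm.trans_le (integral_mono (iB.sub iA) iS fun U => (h U).2)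
  rw [integral_const_mul] at h2
  have h3 := (((Z.B i).A_mul_left (m := Z.m) (P := P) 1 _ c0).trans
    (congrArg _ ((Z.B i).A_sum univ 1 hm hb))).trans_le (mul_le_mul_of_nonneg_left
      (Finset.sum_le_card_nsmul _ _ _ fun f _ => (Z.sqb_mom i P f).1) (by linarith))
  rw [nsmul_eq_mul, card_univ] at h3
  rw [← hc0, abs_sub_comm, abs_of_nonneg (sub_nonneg.2 h1)]
  unfold RM.A at h3
  unfold RM.F
  linarith

theorem exists_lim : ∃ (G : GGA (VV r)) (ϱ d : ℝ), IsLim Z.base G ϱ d := by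
  have hN0 : ∀ i, (Z.N i : ℝ) + 1 ≤ Z.N0 i := fun i => by exact_mod_cast Z.hN i
  have hs : ∀ i, 0 < (Z.P i).s ^ 2 := fun i => pow_pos (Z.s_pos i) 2
  have l1 : Tendsto (fun i => 1 / (Z.P i).s ^ 2) (hyperfilter ℕ) (𝓝 0) :=
    squeeze_zero (fun i => by positivity) (fun i => div_le_div_of_nonneg_right
      (Real.one_le_sqrt.2 (by linarith [hN0 i, (Z.N i).cast_nonneg (α := ℝ)])) (hs i).le) Z.s_big
  have l2 : Tendsto (fun i => √(Z.N i) / (Z.P i).s ^ 2) (hyperfilter ℕ) (𝓝 0) :=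
    squeeze_zero (fun i => by positivity) (fun i => div_le_div_of_nonneg_right
      (Real.sqrt_le_sqrt (by linarith [hN0 i])) (hs i).le) Z.s_big
  have l3 := (tendsto_finsetSum univ fun k _ => Z.t_lim.sub_const (Z.bb k)).add
    (Z.s_small.const_mul (2 * (r : ℝ) + 8))
  have l4 := ((((l2.pow 2).const_mul Z.Λ).add (l1.const_mul 6)).const_mul ((r : ℝ) + 1)).sqrt
  have l5 := (((((((l3.const_mul (3 / 2)).mul_const (Fintype.card (Fr K) : ℝ)).mul
    Z.sqb_ratio).const_mul 4).add_const (cdev (Z.m 1) + 1)).mul l1).add (l4.const_mul 2)).add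
    (((l3.const_mul 3).mul Z.sqb_ratio).mul l2)
  obtain ⟨G, d, h1, h2, h3⟩ := gg_lim Z.B Z.mok Z.b Z.P Z.ok Z.s_pos
    (fun i => 0 + 4 * (3 / 2 * (∑ k, (Z.t i - Z.bb k) + (2 * r + 8) * (Z.P i).s ^ 2 / Z.N0 i) *
      Fintype.card (Fr K) * (Z.N i / (blk (Z.cb i) none).card)))
    (fun i => 2 * √(((r : ℝ) + 1) * (Z.Λ * Z.N i + 6 * (Z.P i).s ^ 2)) + cdev (Z.m 1) +
      3 * (∑ k, (Z.t i - Z.bb k) + (2 * r + 8) * (Z.P i).s ^ 2 / Z.N0 i) *
        (Z.N i / (blk (Z.cb i) none).card) * √(Z.N i))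
    (fun i => (Z.flat i).transfer fun x0 x hx =>
      Z.F_S_B i (P := (Z.P i).wx x0 x) ⟨(Z.ok i).a_nonneg, hx⟩)
    (fun i x0 x hx => by
      have hP : ((Z.P i).wx x0 x).Ok := ⟨(Z.ok i).a_nonneg, hx⟩
      have e1 := eso (b := Z.b i) Z.mok hP ⟨_, Z.e_mem i (Sum.inr (Sum.inr ()))⟩
        (fun x => (Z.sqb_evgap i _ x).trans_le (sub_le_self _ (gap_nonneg (Z.bb_le i) _)))
        (Z.sqb_ev i) (fun x => by rw [Z.sqb_evgap, sub_sub_cancel]; exact Z.sqb_gap i _)
        (Z.card_le i)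
      refine ((Z.B i).dev_le Z.mok hP).trans (add_le_add (add_le_add (mul_le_mul_of_nonneg_left
        (Real.sqrt_le_sqrt ((Finset.sum_le_card_nsmul _ _ (Z.Λ * Z.N i + 6 * (Z.P i).s ^ 2)
          fun l _ => add_le_add (mul_le_mul (Z.a_le i l) (by simp) (Nat.cast_nonneg _)
            (((Z.ok i).a_nonneg l).trans (Z.a_le i l))) le_rfl).trans_eq
              (by rw [nsmul_eq_mul, card_range, Nat.cast_succ]))) zero_le_two)
        le_rfl) (e1.trans_eq ?_))
      rw [Fintype.card_fin]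
      rfl)
    Z.M_lim (by
      simp only [mul_zero, add_zero, ne_eq, OfNat.ofNat_ne_zero, not_false_eq_true, zero_pow,
        Real.sqrt_zero] at l5
      refine l5.congr fun i => ?_
      have e1 : √(((r : ℝ) + 1) * (Z.Λ * (√(Z.N i) / (Z.P i).s ^ 2) ^ 2 + 6 * (1 / (Z.P i).s ^ 2))) =
          √(((r : ℝ) + 1) * (Z.Λ * Z.N i + 6 * (Z.P i).s ^ 2)) / (Z.P i).s ^ 2 := by
        rw [eq_div_iff (hs i).ne', ← Real.sqrt_sq (hs i).le, ← Real.sqrt_mul' _ (sq_nonneg _),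
          Real.sqrt_sq (hs i).le, div_pow, Real.sq_sqrt (Nat.cast_nonneg _)]
        have := (Z.s_pos i).ne'
        congr 1
        field_simp
      rw [e1]
      ring)
  have hev := Z.sqb_ratio.eventually (gt_mem_nhds (lt_add_one _))
  have hC : 0 < (Z.α none)⁻¹ + 1 := by linarith [inv_pos.2 (Z.α_pos none)]
  obtain ⟨ϱ, hϱ, h4⟩ := (isCompact_Icc (a := (1 : ℝ)) (b := ((Z.α none)⁻¹ + 1) / Z.δ)).ultrafilter_le_nhds
    ((hyperfilter ℕ).map fun i => (Z.base i).ϱ) (le_principal_iff.2 (hev.mono fun i hi => by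
      have e1 : ((blk (Z.cb i) none).card : ℝ) ≤ Z.N i := by
        exact_mod_cast (card_le_univ _).trans_eq (Fintype.card_fin _)
      refine ⟨(one_le_div (Z.sqb_top i)).2 (by linarith [hN0 i]), (le_div_iff₀' Z.δ_pos).2 ?_⟩
      exact (mul_div_assoc' _ _ _).trans_le
        ((div_le_div_of_nonneg_right (Z.hδ i) (Z.sqb_top i).le).trans hi.le)))
  refine ⟨G, ϱ, d, h1, (tendsto_natCast_atTop_iff (R := ℝ)).1
    (tendsto_atTop_mono' _ (hev.mono fun i hi => ?_) (Z.sqb_N.atTop_div_const hC)), h4,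
    zero_lt_one.trans_le hϱ.1, h2, h3⟩
  exact ((div_le_comm₀ hC (Z.sqb_top i)).2 hi.le).trans_eq (congrArg _ (Fintype.card_coe _).symm)

theorem lev_mass {G : GGA (VV r)} {ϱ d : ℝ} (h : IsLim Z.base G ϱ d) {j : ℕ} (hj : j ≤ r) :
    G.zeta.real {v | (v.2 : ℕ) < j} = Z.m j := by
  have h1 := lev_lim Z.B Z.mok Z.b Z.P Z.ok (fun i => Z.Λ * Z.N i + 6 * (Z.P i).s ^ 2)
    (fun i l _ => add_le_add (mul_le_mul (Z.a_le i l) (by simp) (Nat.cast_nonneg _)
      (((Z.ok i).a_nonneg l).trans (Z.a_le i l))) le_rfl)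
    (Z.err_lim.congr fun i => by simp) hj
  have e : ∀ i, (((Z.B i).sys r (Z.b i) Z.m (Z.P i)).E 2 fun z σ =>
      indL j (Rm r (Z.b i) ((Z.B i).T z.1.1) (σ 0) (σ 1))) = (Z.B i).A r (Z.b i) Z.m (Z.P i) 2
      fun _ c => if j ≤ lev 1 r (c 0).2 (c 1).2 then 1 else 0 := fun i => by
    simp only [indL, Rm_snd]
    exact (Z.B i).sys_E 2 (G := fun _ c => if j ≤ lev 1 r (c 0).2 (c 1).2 then 1 else 0)
      (fun _ => measurable_const) (B := 1) fun _ _ => by split_ifs <;> simp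
  have h2 := tendsto_nhds_unique ((h.conv.tendsto_zeta (continuous_indL j)).congr e) h1
  have hs : MeasurableSet {v : VV r | (v.2 : ℕ) < j} :=
    measurableSet_lt continuous_lvl.measurable measurable_const
  have h3 : (indL j : VV r → ℝ) = {v : VV r | (v.2 : ℕ) < j}ᶜ.indicator 1 := by
    funext v
    simp only [indL, Set.indicator, Set.mem_compl_iff, Set.mem_ofPred_eq, not_lt, Pi.one_apply]
  rw [h3, integral_indicator_one hs.compl, probReal_compl_eq_one_sub hs] at h2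
  linarith

end Seq

end

end Vale.Agent.P166
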