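import Vale.Agent.P166.Od

/-! P166 Str: structure of the Haar measure of O(N+1) for block invariant functions.
Plan. str_decomp: v = column none of V. For each colour o choose an orthogonal map of the block of o sending the block part of v to acol o * e_(sec o) (exists_col on the subtype and transpose, or a reflection; emb along the subtype embedding),
B = product over the colours, or more simply build B directly: a block diagonal matrix from orthogonal matrices on the fibres. Then C = (emb sec O)^(-1) B V fixes e_none, so it is emb some U0 with U0 the restriction (orthogonality kills the row none).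
str_avg: haarO_right for each U and Fubini ((V,U) -> V * emb some U is measure preserving onto haarO). str_fix: str_decomp, emb_mul, integral_haarO_left. acol_var: sm for the functional phi -> integral of phi (column none of V).
str_main: exists_near gives eta1; the bad set {exists o, |acol - O0 o j0| > eta1} has measure <= eps by Chebyshev (|a - a0|^2 <= |a^2 - a0^2| for a, a0 >= 0); on the good set use str_fix with the O of exists_near, elsewhere with the O of exists_col. -/

open MeasureTheory ProbabilityTheory Filter Topology Matrix Finset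

namespace Vale.Agent.P166

noncomputable section

variable {ι J : Type} [Fintype ι] [DecidableEq ι] [Fintype J] [DecidableEq J]

/-- norms of the block parts of the column `none` -/
def acol (cp : Option ι → J) (V : Og (Option ι)) (o : J) : ℝ :=
  √(∑ x ∈ univ.filter fun x => cp x = o, V.1 x none ^ 2)

/-- block diagonal matrices -/
def IsBlk {ι J : Type} [Fintype ι] [DecidableEq ι] (c : ι → J) (B : Og ι) : Prop :=
  ∀ x x', c x ≠ c x' → B.1 x x' = 0

lemma IsBlk.dot {c : ι → J} {B : Og ι} (h : IsBlk c B) (o : J) (y y' : ι → ℝ) :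
    ∑ x ∈ univ.filter fun x => c x = o, (B.1 *ᵥ y) x * (B.1 *ᵥ y') x =
      ∑ x ∈ univ.filter fun x => c x = o, y x * y' x := by
  have key : ∀ (z : ι → ℝ) (x : ι), (B.1 *ᵥ fun x' => if c x' = o then z x' else 0) x =
      if c x = o then (B.1 *ᵥ z) x else 0 := fun z x => by
    simp only [Matrix.mulVec, dotProduct]
    split_ifs with hx
    · refine Finset.sum_congr rfl fun x' _ => ?_
      split_ifs with hx'
      · rfl
      · rw [h x x' (by rw [hx]; exact fun e => hx' e.symm), zero_mul, zero_mul]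
    · refine Finset.sum_eq_zero fun x' _ => ?_
      split_ifs with hx'
      · rw [h x x' (by rw [hx']; exact hx), zero_mul]
      · exact mul_zero _
  have h1 := orth_dot B (fun x' => if c x' = o then y x' else 0) fun x' => if c x' = o then y' x' else 0
  simp only [key, ite_zero_mul_ite_zero, and_self] at h1
  rw [Finset.sum_filter, Finset.sum_filter, h1]


lemma IsBlk.rm {K : Type} [Fintype K] [DecidableEq K] {c : ι → Option K} {B : Og ι}
    (h : IsBlk c B) (bb : K → ℝ) (t : ℝ) {N0 : ℕ} (hN : Fintype.card ι ≤ N0) (V : Og ι) :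
    ((YO ι).rm (ev bb t c) (blk c none) N0 hN).h (B * V) =
        ((YO ι).rm (ev bb t c) (blk c none) N0 hN).h V ∧
      ((YO ι).rm (ev bb t c) (blk c none) N0 hN).T (B * V) =
        ((YO ι).rm (ev bb t c) (blk c none) N0 hN).T V ∧
      ((YO ι).rm (ev bb t c) (blk c none) N0 hN).Q (B * V) =
        ((YO ι).rm (ev bb t c) (blk c none) N0 hN).Q V := by
  have e : ∀ y : ι → ℝ, hY (ev bb t c) y =
      (∑ o, o.elim t bb * ∑ x ∈ univ.filter fun x => c x = o, y x * y x) / 2 := fun y => by
    rw [hY, ← Finset.sum_fiberwise univ c]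
    congr 1
    refine Finset.sum_congr rfl fun o _ => ?_
    rw [Finset.mul_sum]
    exact Finset.sum_congr rfl fun x hx => by rw [ev, (mem_filter.1 hx).2, sq]
  refine ⟨funext fun σ => ?_, funext fun σ => funext fun σ' => ?_,
    funext fun σ => funext fun σ' => ?_⟩
  · show hY (ev bb t c) (yv (B * V) σ) = hY (ev bb t c) (yv V σ)
    simp only [e, yv_mul, h.dot]
  · show TY (blk c none) N0 (yv (B * V) σ) (yv (B * V) σ') = TY (blk c none) N0 (yv V σ) (yv V σ')
    simp only [TY, blk, yv_mul, h.dot]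
  · show ∑ i, yv (B * V) σ i * yv (B * V) σ' i = ∑ i, yv V σ i * yv V σ' i
    simp only [yv_dot]


omit [Fintype J] in
lemma str_acol_sq (cp : Option ι → J) (V : Og (Option ι)) (o : J) :
    acol cp V o ^ 2 = ∑ x ∈ univ.filter fun x => cp x = o, V.1 x none ^ 2 :=
  Real.sq_sqrt (sum_nonneg fun _ _ => sq_nonneg _)

lemma str_col (V : Og ι) (j : ι) : ∑ x, V.1 x j ^ 2 = 1 := by
  have h := orth_dot V (Pi.single j 1) (Pi.single j 1)
  simp only [Matrix.mulVec_single_one, Matrix.col_apply, ← sq] at h
  rw [h]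
  simp [Pi.single_apply]

lemma str_int {f : Og ι → ℝ} (hf : Continuous f) : Integrable f (haarO ι) :=
  hf.integrable_of_hasCompactSupport (HasCompactSupport.of_compactSpace f)

/-- block reflections -/
lemma str_refl (c : ι → J) {v w : ι → ℝ}
    (h : ∀ o, ∑ x ∈ univ.filter fun x => c x = o, v x ^ 2 =
      ∑ x ∈ univ.filter fun x => c x = o, w x ^ 2) :
    ∃ B : Og ι, IsBlk c B ∧ B.1 *ᵥ v = w := by
  obtain ⟨D, hD⟩ : ∃ D : (ι → ℝ) → J → ℝ,
      D = fun y o => ∑ x ∈ univ.filter fun x => c x = o, (v x - w x) * y x := ⟨_, rfl⟩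
  obtain ⟨M, hM⟩ : ∃ M : Matrix ι ι ℝ, M = Matrix.of fun x x' => (if x = x' then 1 else 0) -
      if c x' = c x then 2 * (v x - w x) / D (v - w) (c x) * (v x' - w x') else 0 := ⟨_, rfl⟩
  have e : ∀ y x, (M *ᵥ y) x = y x - 2 * (v x - w x) / D (v - w) (c x) * D y (c x) := fun y x => by
    simp only [hM, Matrix.mulVec, dotProduct, Matrix.of_apply, sub_mul, Finset.sum_sub_distrib,
      ite_mul, one_mul, zero_mul, Finset.sum_ite_eq, mem_univ, if_true]
    congr 1
    rw [← Finset.sum_filter]
    conv_rhs => rw [hD, Finset.mul_sum]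
    exact Finset.sum_congr rfl fun x' _ => by rw [hD]; ring
  refine ⟨⟨M, mem_orth_of_dot fun y y' => ?_⟩, fun x x' hx => ?_, funext fun x => ?_⟩
  · rw [← Finset.sum_fiberwise univ c, ← Finset.sum_fiberwise univ c fun i => y i * y' i]
    refine Finset.sum_congr rfl fun o _ => ?_
    rw [Finset.sum_congr rfl (g := fun x => y x * y' x -
      2 / D (v - w) o * D y' o * ((v x - w x) * y x) - 2 / D (v - w) o * D y o * ((v x - w x) * y' x)
      + (2 / D (v - w) o) ^ 2 * D y o * D y' o * ((v x - w x) * (v - w) x)) fun x hx => by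
        rw [e, e, (mem_filter.1 hx).2, Pi.sub_apply]
        ring]
    simp only [Finset.sum_add_distrib, Finset.sum_sub_distrib, ← Finset.mul_sum]
    have e2 : ∀ y, ∑ x ∈ univ.filter fun x => c x = o, (v x - w x) * y x = D y o := fun y => by
      rw [hD]
    rw [e2, e2, e2]
    by_cases h0 : D (v - w) o = 0
    · rw [h0]
      ring
    · field_simp
      ring
  · show M x x' = 0
    rw [hM, Matrix.of_apply, if_neg fun e => hx (by rw [e]), if_neg fun e => hx e.symm, sub_zero]
  · show (M *ᵥ v) x = w x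
    have e2 : D (v - w) (c x) = 2 * D v (c x) := by
      have h1 := h (c x)
      rw [hD, ← sub_eq_zero] at *
      rw [← neg_eq_zero, ← h1, Finset.mul_sum, ← Finset.sum_sub_distrib, ← Finset.sum_sub_distrib,
        ← Finset.sum_neg_distrib]
      exact Finset.sum_congr rfl fun x' _ => by rw [Pi.sub_apply]; ring
    rw [e]
    by_cases h0 : D (v - w) (c x) = 0
    · have h1 : (v x - w x) * (v x - w x) = 0 := by
        rw [hD] at h0
        exact (Finset.sum_eq_zero_iff_of_nonneg fun x' _ => mul_self_nonneg (v x' - w x')).1 h0 x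
          (mem_filter.2 ⟨mem_univ _, rfl⟩)
      rw [h0, div_zero, zero_mul, sub_zero]
      exact sub_eq_zero.1 (mul_self_eq_zero.1 h1)
    · have h1 : D v (c x) ≠ 0 := fun h1 => h0 (by rw [e2, h1, mul_zero])
      rw [e2]
      field_simp
      ring

lemma str_fix_none {C : Og (Option ι)} (h : C.1 *ᵥ Pi.single none 1 = Pi.single none 1) :
    ∃ U : Og ι, emb Function.Embedding.some U = C := by
  have h1 : ∀ v, (C.1 *ᵥ v) none = v none := fun v => by
    have h2 := orth_dot C v (Pi.single none 1)
    rw [h] at h2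
    simpa [Pi.single_apply] using h2
  have h2 : ∀ v i, (C.1 *ᵥ v) (some i) =
      ((Matrix.of fun i j => C.1 (some i) (some j)) *ᵥ fun j => v (some j)) i := fun v i => by
    have h3 := congrFun h (some i)
    rw [Matrix.mulVec_single_one, Matrix.col_apply, Pi.single_eq_of_ne (by simp)] at h3
    simp only [Matrix.mulVec, dotProduct, Fintype.sum_option, h3, zero_mul, zero_add,
      Matrix.of_apply]
  refine ⟨⟨Matrix.of fun i j => C.1 (some i) (some j), mem_orth_of_dot fun v w => ?_⟩,
    Orth_ext fun v x => ?_⟩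
  · have h3 := orth_dot C (fun x => x.elim 0 v) fun x => x.elim 0 w
    simpa only [Fintype.sum_option, h1, h2, Option.elim, add_right_inj] using h3
  · cases x with
    | none => rw [h1, Orth_out _ _ _ fun k => Option.some_ne_none k]
    | some i => exact (Orth_in Function.Embedding.some _ v i).trans (h2 v i).symm

lemma sum_acol_sq (cp : Option ι → J) (V : Og (Option ι)) : ∑ o, acol cp V o ^ 2 = 1 := by
  simp only [str_acol_sq]
  rw [Finset.sum_fiberwise univ cp fun x => V.1 x none ^ 2, str_col]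


theorem str_decomp {cp : Option ι → J} {sec : J ↪ Option ι} (hsec : ∀ o, cp (sec o) = o) {j0 : J}
    (h0 : sec j0 = none) (V : Og (Option ι)) (O : Og J) (hO : ∀ o, O.1 o j0 = acol cp V o) :
    ∃ (B : Og (Option ι)) (U0 : Og ι), IsBlk cp B ∧
      B * V = emb sec O * emb Function.Embedding.some U0 := by
  have hw : ∀ x, (∀ o, sec o ≠ x) → ((emb sec O).1 *ᵥ Pi.single none 1) x = 0 := fun x hx => by
    rw [Orth_out sec O _ hx, Pi.single_eq_of_ne fun e => hx j0 (h0.trans e.symm)]
  have hw' : ∀ o, ((emb sec O).1 *ᵥ Pi.single none 1) (sec o) = acol cp V o := fun o => by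
    have e : (fun k => (Pi.single none 1 : Option ι → ℝ) (sec k)) = Pi.single j0 1 := by
      funext k
      simp only [← h0, Pi.single_apply, sec.apply_eq_iff_eq]
    rw [Orth_in, e, Matrix.mulVec_single_one, ← hO, Matrix.col_apply]
  obtain ⟨B, hB, hv⟩ := str_refl cp (v := V.1 *ᵥ Pi.single none 1)
    (w := (emb sec O).1 *ᵥ Pi.single none 1) fun o => by
      rw [Finset.sum_eq_single_of_mem (f := fun x => ((emb sec O).1 *ᵥ Pi.single none 1) x ^ 2)
        (sec o) (mem_filter.2 ⟨mem_univ _, hsec o⟩) fun x hx hne => ?_, hw', str_acol_sq,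
        Matrix.mulVec_single_one]
      · rfl
      · rw [hw x fun o' e => hne ?_, zero_pow two_ne_zero]
        rw [← e, ← (mem_filter.1 hx).2, ← e, hsec]
  obtain ⟨U0, hU⟩ := str_fix_none (C := (emb sec O)⁻¹ * (B * V)) (by
    rw [Orth_mul, Orth_mul, hv, ← Orth_mul, inv_mul_cancel]
    exact Matrix.one_mulVec _)
  exact ⟨B, U0, hB, by rw [hU, mul_inv_cancel_left]⟩


theorem str_avg {Ψ : Og (Option ι) → ℝ} (hm : Measurable Ψ) (hi : Integrable Ψ (haarO _)) :
    Integrable (fun V => ∫ U, Ψ (V * emb Function.Embedding.some U) ∂haarO ι) (haarO (Option ι)) ∧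
    ∫ V, Ψ V ∂haarO (Option ι) =
      ∫ V, ∫ U, Ψ (V * emb Function.Embedding.some U) ∂haarO ι ∂haarO (Option ι) := by
  have hf : Measurable fun p : Og (Option ι) × Og ι => p.1 * emb Function.Embedding.some p.2 :=
    (continuous_fst.mul ((continuous_emb _).comp continuous_snd)).measurable
  have : IsProbabilityMeasure (((haarO (Option ι)).prod (haarO ι)).map
      fun p => p.1 * emb Function.Embedding.some p.2) :=
    Measure.isProbabilityMeasure_map hf.aemeasurable
  have : (((haarO (Option ι)).prod (haarO ι)).map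
      fun p => p.1 * emb Function.Embedding.some p.2).IsMulLeftInvariant := ⟨fun W => by
    have h3 := ((haarO_left W).prod (MeasurePreserving.id (haarO ι))).map_eq
    conv_rhs => rw [← h3]
    rw [Measure.map_map (measurable_const_mul W) hf,
      Measure.map_map hf ((measurable_const_mul W).prodMap measurable_id)]
    congr 1
    funext p
    simp only [Function.comp_apply, Prod.map, id, mul_assoc]⟩
  have hp : MeasurePreserving
      (fun p : Og (Option ι) × Og ι => p.1 * emb Function.Embedding.some p.2)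
      ((haarO (Option ι)).prod (haarO ι)) (haarO (Option ι)) := ⟨hf, Orth_unique _⟩
  have h1 : Integrable (fun p : Og (Option ι) × Og ι => Ψ (p.1 * emb Function.Embedding.some p.2))
      ((haarO (Option ι)).prod (haarO ι)) := hp.integrable_comp_of_integrable hi
  refine ⟨h1.integral_prod_left, Eq.trans ?_ (integral_prod _ h1)⟩
  have h2 := integral_map (μ := (haarO (Option ι)).prod (haarO ι)) hf.aemeasurable
    hm.aestronglyMeasurable
  rwa [hp.map_eq] at h2


theorem str_fix {cp : Option ι → J} {sec : J ↪ Option ι} (hsec : ∀ o, cp (sec o) = o) {j0 : J}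
    (h0 : sec j0 = none) {Ψ : Og (Option ι) → ℝ} (hinv : ∀ B V, IsBlk cp B → Ψ (B * V) = Ψ V)
    (V : Og (Option ι)) (O : Og J) (hO : ∀ o, O.1 o j0 = acol cp V o) :
    ∫ U, Ψ (V * emb Function.Embedding.some U) ∂haarO ι =
      ∫ U, Ψ (emb sec O * emb Function.Embedding.some U) ∂haarO ι := by
  obtain ⟨B, U0, hB, h⟩ := str_decomp hsec h0 V O hO
  rw [← integral_haarO_left U0 fun U => Ψ (emb sec O * emb Function.Embedding.some U)]
  congr 1
  funext U
  rw [← hinv B _ hB, ← mul_assoc, h, emb_mul, mul_assoc]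


lemma acol_var (cp : Option ι → J) (o : J) :
    ∫ V, (acol cp V o ^ 2 - ((univ.filter fun x => cp x = o).card : ℝ) / (Fintype.card ι + 1)) ^ 2
      ∂haarO (Option ι) ≤ 3 / ((Fintype.card ι : ℝ) + 1) := by
  have hc : Continuous fun (V : Og (Option ι)) x => V.1 x none :=
    continuous_pi fun x => continuous_entry x none
  have hI : ∀ φ : (Option ι → ℝ) → ℝ, Continuous φ →
      Integrable (fun V : Og (Option ι) => φ fun x => V.1 x none) (haarO _) := fun φ hφ =>
    str_int (hφ.comp hc)
  have hs := sm (fun φ => ∫ V : Og (Option ι), φ (fun x => V.1 x none) ∂haarO _)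
    (fun φ ψ hφ hψ => integral_add (hI φ hφ) (hI ψ hψ)) (fun c φ _ => integral_const_mul _ _)
    (fun φ _ h => integral_nonneg fun _ => h _)
    fun B φ _ => integral_haarO_left B fun V => φ fun x => V.1 x none
  simp only [str_col, one_pow, integral_const, probReal_univ, one_smul, mul_one, Fintype.card_option,
    Nat.cast_add, Nat.cast_one] at hs
  obtain ⟨S, hS⟩ : ∃ S, S = univ.filter fun x => cp x = o := ⟨_, rfl⟩
  obtain ⟨n, hn⟩ : ∃ n : ℝ, n = Fintype.card ι + 1 := ⟨_, rfl⟩
  have n1 : 1 ≤ n := by rw [hn]; exact le_add_of_nonneg_left (Nat.cast_nonneg _)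
  have n0 : 0 < n := by linarith
  have hSn : (S.card : ℝ) ≤ n := by
    have := Finset.card_le_univ S
    rw [Fintype.card_option] at this
    rw [hn]
    exact_mod_cast this
  simp only [str_acol_sq, ← hS, ← hn] at hs ⊢
  have e1 : ∫ V : Og (Option ι), ∑ x ∈ S, V.1 x none ^ 2 ∂haarO _ = S.card / n := by
    rw [integral_finsetSum _ fun x _ => hI (fun y => y x ^ 2) (by fun_prop),
      Finset.sum_congr rfl (g := fun _ => n⁻¹) fun x _ => eq_inv_of_mul_eq_one_right (hs x).1,
      Finset.sum_const, nsmul_eq_mul, div_eq_mul_inv]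
  have e2 : ∫ V : Og (Option ι), (∑ x ∈ S, V.1 x none ^ 2) ^ 2 ∂haarO _ ≤
      S.card * (3 / n ^ 2 + S.card / n ^ 2) := by
    simp only [pow_two (∑ x ∈ S, _), Finset.sum_mul_sum]
    rw [integral_finsetSum _ fun x _ => hI (fun y => ∑ x' ∈ S, y x ^ 2 * y x' ^ 2) (by fun_prop),
      ← nsmul_eq_mul]
    refine Finset.sum_le_card_nsmul _ _ _ fun x hx => ?_
    rw [integral_finsetSum _ fun x' _ => hI (fun y => y x ^ 2 * y x' ^ 2) (by fun_prop),
      ← Finset.add_sum_erase _ _ hx]
    refine add_le_add ?_ ?_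
    · simp only [← pow_add]
      rw [le_div_iff₀' (by positivity)]
      exact (hs x).2.1
    · rcases (S.erase x).eq_empty_or_nonempty with h | ⟨x1, h⟩
      · rw [h, Finset.sum_empty]
        positivity
      · have h2 : (2 : ℝ) ≤ n := le_trans (by
          exact_mod_cast Finset.one_lt_card.2 ⟨x1, mem_of_mem_erase h, x, hx, ne_of_mem_erase h⟩) hSn
        have h3 : 0 < n * (n - 1) := mul_pos n0 (by linarith)
        refine (Finset.sum_le_card_nsmul _ _ (1 / (n * (n - 1))) fun x' hx' =>
          (le_div_iff₀' h3).2 ((hs x).2.2 x' (ne_of_mem_erase hx'))).trans ?_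
        rw [Finset.card_erase_of_mem hx, nsmul_eq_mul, Nat.cast_pred (card_pos.2 ⟨x, hx⟩),
          mul_one_div, div_le_div_iff₀ h3 (by positivity)]
        nlinarith [mul_nonneg n0.le (sub_nonneg.2 hSn)]
  have i1 := hI (fun y => ∑ x ∈ S, y x ^ 2) (by fun_prop)
  have i2 := hI (fun y => (∑ x ∈ S, y x ^ 2) ^ 2) (by fun_prop)
  have e3 : ∀ u : ℝ, (u - S.card / n) ^ 2 = u ^ 2 - 2 * (S.card / n) * u + (S.card / n) ^ 2 :=
    fun u => by ring
  simp only [e3]
  rw [integral_add (f := fun V : Og (Option ι) => (∑ x ∈ S, V.1 x none ^ 2) ^ 2 -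
      2 * (S.card / n) * ∑ x ∈ S, V.1 x none ^ 2) (i2.sub (i1.const_mul _)) (integrable_const _),
    integral_sub i2 (i1.const_mul _), integral_const_mul, e1, integral_const, probReal_univ,
    one_smul]
  have e4 : (S.card : ℝ) * (3 / n ^ 2 + S.card / n ^ 2) = S.card / n * (3 / n) + (S.card / n) ^ 2 := by
    field_simp
  have e5 : (S.card : ℝ) / n * (3 / n) ≤ 3 / n :=
    mul_le_of_le_one_left (by positivity) ((div_le_one n0).2 hSn)
  nlinarith


theorem str_main (O0 : Og J) (j0 : J) (hpos : ∀ o, 0 ≤ O0.1 o j0) {η ε : ℝ} (hη : 0 < η)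
    (hε : 0 < ε) : ∃ η' > 0, ∃ N1 : ℕ, ∀ {ι : Type} [Fintype ι] [DecidableEq ι]
      (cp : Option ι → J) (sec : J ↪ Option ι), (∀ o, cp (sec o) = o) → sec j0 = none →
      N1 ≤ Fintype.card ι →
      (∀ o, |((univ.filter fun x => cp x = o).card : ℝ) / (Fintype.card ι + 1) -
        O0.1 o j0 ^ 2| ≤ η') →
      ∀ Ψ : Og (Option ι) → ℝ, Measurable Ψ → Integrable Ψ (haarO _) →
        (∀ B V, IsBlk cp B → Ψ (B * V) = Ψ V) → ∀ lo c : ℝ, lo ≤ c →
        (∀ O, lo ≤ ∫ U, Ψ (emb sec O * emb Function.Embedding.some U) ∂haarO ι) →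
        (∀ O : Og J, (∀ o o', |O.1 o o' - O0.1 o o'| ≤ η) →
          c ≤ ∫ U, Ψ (emb sec O * emb Function.Embedding.some U) ∂haarO ι) →
        c - ε * (c - lo) ≤ ∫ V, Ψ V ∂haarO (Option ι) := by
  obtain ⟨η1, h1, hnear⟩ := exists_near O0 j0 hη
  obtain ⟨δ, hδ⟩ : ∃ δ, δ = η1 ^ 2 / 2 := ⟨_, rfl⟩
  have hδ0 : 0 < δ := by rw [hδ]; positivity
  obtain ⟨N1, hN1⟩ := exists_nat_ge (3 * Fintype.card J / (δ ^ 2 * ε))
  refine ⟨δ, hδ0, N1, fun {ι} _ _ cp sec hsec h0 hN hfr Ψ hm hi hinv lo c hlo hL hC => ?_⟩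
  obtain ⟨i1, e1⟩ := str_avg hm hi
  have hint : ∀ o, Integrable (fun V => (acol cp V o ^ 2 -
      ((univ.filter fun x => cp x = o).card : ℝ) / (Fintype.card ι + 1)) ^ 2) (haarO (Option ι)) :=
    fun o => by
      simp only [str_acol_sq]
      exact str_int (((continuous_finsetSum _ fun x _ => (continuous_entry x none).pow 2).sub
        continuous_const).pow 2)
  have hpt : ∀ V, c - (c - lo) / δ ^ 2 * ∑ o, (acol cp V o ^ 2 -
      ((univ.filter fun x => cp x = o).card : ℝ) / (Fintype.card ι + 1)) ^ 2 ≤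
      ∫ U, Ψ (V * emb Function.Embedding.some U) ∂haarO ι := fun V => by
    have p0 : 0 ≤ (c - lo) / δ ^ 2 := div_nonneg (sub_nonneg.2 hlo) (sq_nonneg _)
    by_cases h : ∀ o, |acol cp V o ^ 2 -
        ((univ.filter fun x => cp x = o).card : ℝ) / (Fintype.card ι + 1)| ≤ δ
    · obtain ⟨O, hO, hO'⟩ := hnear (acol cp V) (sum_acol_sq cp V) fun o => by
        have a1 := abs_le.1 (h o)
        have a2 := abs_le.1 (hfr o)
        have a3 : 0 ≤ acol cp V o := Real.sqrt_nonneg _
        have a4 := hpos o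
        refine abs_le_of_sq_le_sq' ?_ h1.le |> abs_le.2
        rcases le_total (acol cp V o) (O0.1 o j0) with a5 | a5 <;> nlinarith [a1.1, a1.2, a2.1, a2.2]
      rw [str_fix hsec h0 hinv V O hO]
      exact (sub_le_self _ (mul_nonneg p0 (sum_nonneg fun _ _ => sq_nonneg _))).trans (hC O hO')
    · obtain ⟨O, hO⟩ := exists_col j0 (sum_acol_sq cp V)
      obtain ⟨o, ho⟩ := not_forall.1 h
      rw [str_fix hsec h0 hinv V O hO]
      refine le_trans ?_ (hL O)
      have a1 := (pow_le_pow_left₀ hδ0.le (not_le.1 ho).le 2).trans ((sq_abs _).trans_le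
        (Finset.single_le_sum (f := fun o => (acol cp V o ^ 2 -
          ((univ.filter fun x => cp x = o).card : ℝ) / (Fintype.card ι + 1)) ^ 2)
          (fun _ _ => sq_nonneg _) (mem_univ o)))
      have a2 := mul_le_mul_of_nonneg_left a1 p0
      rw [div_mul_cancel₀ _ (by positivity)] at a2
      linarith
  have i2 := (integrable_finsetSum univ fun o _ => hint o).const_mul ((c - lo) / δ ^ 2)
  have h2 := integral_mono ((integrable_const c).sub i2) i1 hpt
  simp only [Pi.sub_apply] at h2
  rw [← e1, integral_sub (integrable_const c) i2, integral_const, probReal_univ, one_smul,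
    integral_const_mul, integral_finsetSum _ fun o _ => hint o] at h2
  refine le_trans (sub_le_sub_left ?_ c) h2
  have h3 := Finset.sum_le_card_nsmul univ _ _ fun o _ => acol_var cp o
  rw [Finset.card_univ, nsmul_eq_mul] at h3
  have h4 : (Fintype.card J : ℝ) * (3 / ((Fintype.card ι : ℝ) + 1)) ≤ δ ^ 2 * ε := by
    have : (N1 : ℝ) ≤ Fintype.card ι := by exact_mod_cast hN
    rw [div_le_iff₀ (by positivity)] at hN1
    rw [← mul_div_assoc, div_le_iff₀ (by positivity)]
    nlinarith [mul_pos (pow_pos hδ0 2) hε]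
  refine (mul_le_mul_of_nonneg_left (h3.trans h4)
    (div_nonneg (sub_nonneg.2 hlo) (sq_nonneg _))).trans_eq ?_
  field_simp


end

end Vale.Agent.P166
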