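import Vale.Agent.P166.SeqB
import Vale.Agent.P166.Tf
import Vale.Agent.P166.Str
import Vale.Agent.P166.Tr

/-! P166 SeqP: the N+1 spin system seen from the base system (no field).
Plan. X = Z.Xp i o O has coordinates Y = emb sec O * emb some U applied to the spins: Y (sec o') = (O * uvec y eps) o' with y = frame coordinates of yv U (sigma restricted to some), eps = sigma none, and Y (some x) = yv U .. x for x outside the indices e (inl k)
(yv_mul, embM_mulVec_in/out). h_P: sum of Y^2 is N+1. T0 = overlap over the indices x with cb x = none, x not of the form e (inl k), e (gI (some k)), and x <> e g' unless o = none; T_P0, T_B0 give the PSD differences (psd_rank_one, psd_sum).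
p_crude: tf0 with E = Bool, e = Equiv.piOptionEquivProd composed with the swap, rho = C (1 + sum y_f^2) (|O u|^2 = |u|^2), base_mom. p_tf: tf with q = (Q o).q (y, eps) = qO tl O0 (q_eq), kappa = tl/2 (|t i - tl|/2 goes into the error), qO_near, uvec_sq_le,
s^2/N0 -> 0; Mq from Quad.qok and base_mom. p1: str_main for Psi V = Fm at V (IsBlk.rm, measurable_Fm, integrable_Fm), frac_cp, cp_sec, lo = min (..) c; note cav1 <= 0. -/

open MeasureTheory ProbabilityTheory Filter Topology Matrix Finset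

namespace Vale.Agent.P166

noncomputable section

namespace Seq

variable {K : Type} [Fintype K] [DecidableEq K] {r : ℕ} (Z : Seq K r)

/-- the `N+1` spin system with a fixed small rotation -/
@[reducible] def Xp (i : ℕ) (o : Option K) (O : Og (Option K)) : RM :=
  Z.modp i o (YP (Fin (Z.N i)) (emb (Z.sec i) O))

/-- frame coordinates of the old spins -/
def fy (i : ℕ) (U : Og (Fin (Z.N i))) (σ : Option (Fin (Z.N i)) → Bool) (f : Fr K) : ℝ :=
  yv U (fun x => σ (some x)) (Z.e i f)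

/-- join old spins and the new spin -/
def jn {ι : Type} (σ : ι → Bool) (ε : Bool) : Option ι → Bool := fun x => x.elim ε σ

lemma seqp_v (i : ℕ) (U : Og (Fin (Z.N i))) (σ : Option (Fin (Z.N i)) → Bool)
    (x : Fin (Z.N i)) :
    yv (emb Function.Embedding.some U) σ (some x) = yv U (fun x => σ (some x)) x :=
  Orth_in Function.Embedding.some U (fun i => spin (σ i)) x

lemma seqp_v0 (i : ℕ) (U : Og (Fin (Z.N i))) (σ : Option (Fin (Z.N i)) → Bool) :
    yv (emb Function.Embedding.some U) σ none = spin (σ none) :=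
  Orth_out Function.Embedding.some U (fun i => spin (σ i)) (fun _ => Option.some_ne_none _)

lemma Y_sec (i : ℕ) (O : Og (Option K)) (U : Og (Fin (Z.N i))) (σ : Option (Fin (Z.N i)) → Bool)
    (o : Option K) : (YP (Fin (Z.N i)) (emb (Z.sec i) O)).Y U σ (Z.sec i o) =
      (O.1 *ᵥ uvec (Z.fy i U σ) (σ none)) o := by
  show yv (emb (Z.sec i) O * emb Function.Embedding.some U) σ (Z.sec i o) = _
  rw [yv_mul, Orth_in]
  congr 2
  funext o'
  cases o' with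
  | none => exact Z.seqp_v0 i U σ
  | some k => exact Z.seqp_v i U σ _

lemma Y_out (i : ℕ) (O : Og (Option K)) (U : Og (Fin (Z.N i))) (σ : Option (Fin (Z.N i)) → Bool)
    {x : Fin (Z.N i)} (hx : ∀ k, Z.e i (Sum.inl k) ≠ x) :
    (YP (Fin (Z.N i)) (emb (Z.sec i) O)).Y U σ (some x) = yv U (fun x => σ (some x)) x := by
  show yv (emb (Z.sec i) O * emb Function.Embedding.some U) σ (some x) = _
  rw [yv_mul, Orth_out, Z.seqp_v]
  intro o
  cases o with
  | none => exact (Option.some_ne_none _).symm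
  | some k => exact fun h => hx k (Option.some.inj h)

lemma seqp_Yf (i : ℕ) (O : Og (Option K)) (U : Og (Fin (Z.N i)))
    (σ : Option (Fin (Z.N i)) → Bool) (g : Option K ⊕ Unit) :
    (YP (Fin (Z.N i)) (emb (Z.sec i) O)).Y U σ (some (Z.e i (Sum.inr g))) =
      Z.fy i U σ (Sum.inr g) :=
  Z.Y_out i O U σ fun _ h => Sum.inl_ne_inr ((Z.e i).injective h)

/-- weighted block sums in the `N+1` spin system -/
lemma seqp_sumP (i : ℕ) (o0 : Option K) (O : Og (Option K)) (U : Og (Fin (Z.N i)))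
    (σ σ' : Option (Fin (Z.N i)) → Bool) (w : Option K → ℝ) :
    ∑ x, w (Z.cp i o0 x) * ((YP (Fin (Z.N i)) (emb (Z.sec i) O)).Y U σ x *
      (YP (Fin (Z.N i)) (emb (Z.sec i) O)).Y U σ' x) =
    ∑ o, w o * ((O.1 *ᵥ uvec (Z.fy i U σ) (σ none)) o * (O.1 *ᵥ uvec (Z.fy i U σ') (σ' none)) o) +
      ∑ o, w o * (Z.fy i U σ (gI o) * Z.fy i U σ' (gI o)) +
      w o0 * (Z.fy i U σ (Sum.inr (Sum.inr ())) * Z.fy i U σ' (Sum.inr (Sum.inr ()))) +
      ∑ x ∈ (univ.map (Z.e i))ᶜ, w (Z.c i x) *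
        (yv U (fun x => σ (some x)) x * yv U (fun x => σ' (some x)) x) := by
  have h0 : ∀ o, w (Z.cp i o0 (Z.sec i o)) * ((YP (Fin (Z.N i)) (emb (Z.sec i) O)).Y U σ (Z.sec i o) *
      (YP (Fin (Z.N i)) (emb (Z.sec i) O)).Y U σ' (Z.sec i o)) =
      w o * ((O.1 *ᵥ uvec (Z.fy i U σ) (σ none)) o * (O.1 *ᵥ uvec (Z.fy i U σ') (σ' none)) o) := by
    intro o
    rw [Z.cp_sec, Z.Y_sec, Z.Y_sec]
  have h1 : ∀ o, w (Z.cp i o0 (some (Z.e i (Sum.inr (Sum.inl o))))) *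
      ((YP (Fin (Z.N i)) (emb (Z.sec i) O)).Y U σ (some (Z.e i (Sum.inr (Sum.inl o)))) *
      (YP (Fin (Z.N i)) (emb (Z.sec i) O)).Y U σ' (some (Z.e i (Sum.inr (Sum.inl o))))) =
      w o * (Z.fy i U σ (gI o) * Z.fy i U σ' (gI o)) := by
    intro o
    rw [Z.seqp_Yf, Z.seqp_Yf]
    exact congrArg (fun t => w t * _) (Z.cp_gI i o0 o)
  have h2 : Z.cp i o0 (some (Z.e i (Sum.inr (Sum.inr ())))) = o0 := if_pos rfl
  have h3 : ∑ x ∈ (univ.map (Z.e i))ᶜ, w (Z.cp i o0 (some x)) *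
      ((YP (Fin (Z.N i)) (emb (Z.sec i) O)).Y U σ (some x) *
      (YP (Fin (Z.N i)) (emb (Z.sec i) O)).Y U σ' (some x)) =
      ∑ x ∈ (univ.map (Z.e i))ᶜ, w (Z.c i x) *
        (yv U (fun x => σ (some x)) x * yv U (fun x => σ' (some x)) x) := by
    refine Finset.sum_congr rfl fun x hx => ?_
    have hx' : ∀ f, Z.e i f ≠ x := fun f h =>
      Finset.mem_compl.1 hx (Finset.mem_map.2 ⟨f, Finset.mem_univ _, h⟩)
    have h4 : Z.cp i o0 (some x) = Z.c i x := if_neg (hx' _).symm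
    rw [h4, Z.Y_out i O U σ fun k => hx' _, Z.Y_out i O U σ' fun k => hx' _]
  rw [Fintype.sum_option, Orth_split (Z.e i), h3, Fintype.sum_sum_type, Fintype.sum_sum_type,
    Finset.sum_congr rfl fun o _ => h1 o, Fintype.sum_subsingleton (ι := Unit) _ (), h2, Z.seqp_Yf, Z.seqp_Yf,
    ← Finset.sum_congr rfl fun o _ => h0 o, Fintype.sum_option (fun o => w (Z.cp i o0 (Z.sec i o)) * _)]
  have e1 : Z.sec i none = none := rfl
  have e2 : ∀ k, Z.sec i (some k) = some (Z.e i (Sum.inl k)) := fun _ => rfl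
  simp only [e1, e2]
  ring

/-- weighted block sums in the base system -/
lemma seqp_sumB (i : ℕ) (y y' : Fin (Z.N i) → ℝ) (w : Option K → ℝ) :
    ∑ x, w (Z.cb i x) * (y x * y' x) =
      w none * ∑ f, y (Z.e i f) * y' (Z.e i f) +
        ∑ x ∈ (univ.map (Z.e i))ᶜ, w (Z.c i x) * (y x * y' x) := by
  rw [Orth_split (Z.e i), Finset.mul_sum]
  congr 1
  · refine Finset.sum_congr rfl fun f _ => ?_
    have : Z.cb i (Z.e i f) = none := if_pos ⟨f, rfl⟩
    rw [this]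
  · refine Finset.sum_congr rfl fun x hx => ?_
    have : Z.cb i x = Z.c i x := if_neg fun ⟨f, h⟩ =>
      Finset.mem_compl.1 hx (Finset.mem_map.2 ⟨f, Finset.mem_univ _, h⟩)
    rw [this]

omit [DecidableEq K] in
lemma seqp_fr (g : Fr K → ℝ) : ∑ f, g f = ∑ k, g (Sum.inl k) + g (gI none) +
    ∑ k, g (gI (some k)) + g (Sum.inr (Sum.inr ())) := by
  rw [Fintype.sum_sum_type, Fintype.sum_sum_type, Fintype.sum_option,
    Fintype.sum_subsingleton (ι := Unit) _ ()]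
  simp only [gI]
  ring

lemma seqp_norm (O : Og (Option K)) (y : Fr K → ℝ) (ε : Bool) :
    ∑ o, (O.1 *ᵥ uvec y ε) o * (O.1 *ᵥ uvec y ε) o = 1 + ∑ k, y (Sum.inl k) * y (Sum.inl k) := by
  rw [orth_dot, Fintype.sum_option]
  congr 1
  show spin ε * spin ε = 1
  rw [← sq, spin_sq]

lemma h_P (i : ℕ) (o : Option K) (O : Og (Option K)) (U : Og (Fin (Z.N i)))
    (σ : Option (Fin (Z.N i)) → Bool) :
    (Z.Xp i o O).h U σ = (Z.B i).h U (fun x => σ (some x)) + Z.t i / 2 -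
      qO Z.bb (Z.t i) O o (Z.fy i U σ) (σ none) := by
  have h1 := Z.seqp_sumP i o O U σ σ fun o => o.elim (Z.t i) Z.bb
  have h2 := Z.seqp_sumB i (yv U fun x => σ (some x)) (yv U fun x => σ (some x))
    fun o => o.elim (Z.t i) Z.bb
  have h3 := seqp_norm O (Z.fy i U σ) (σ none)
  have h4 := seqp_fr fun f => Z.fy i U σ f * Z.fy i U σ f
  have hg : ∀ o : Option K, o.elim (Z.t i) Z.bb = Z.t i - gap Z.bb (Z.t i) o := by
    intro o
    cases o <;> simp [gap]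
  have h5 : ∀ g : Option K → ℝ, ∑ o : Option K, o.elim (Z.t i) Z.bb * g o =
      Z.t i * ∑ o, g o - ∑ o, gap Z.bb (Z.t i) o * g o := by
    intro g
    rw [Finset.mul_sum, ← Finset.sum_sub_distrib]
    exact Finset.sum_congr rfl fun o _ => by rw [hg]; ring
  have h6 := Fintype.sum_option fun o => Z.fy i U σ (gI o) * Z.fy i U σ (gI o)
  rw [h5, h5, hg o, h3, h6] at h1
  show hY _ _ = hY _ _ + _ - _
  simp only [hY, qO, ev, sq]
  rw [h1, h2]
  have h7 : ∑ f, yv U (fun x => σ (some x)) (Z.e i f) * yv U (fun x => σ (some x)) (Z.e i f) =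
      ∑ f, Z.fy i U σ f * Z.fy i U σ f := rfl
  rw [h7, h4]
  simp only [Option.elim_none]
  ring

omit [Fintype K] in
lemma seqp_TY {ι : Type} [Fintype ι] (c : ι → Option K) (N0 : ℝ) (y y' : ι → ℝ) :
    TY (blk c none) N0 y y' = (∑ x, (if c x = none then 1 else 0) * (y x * y' x)) / N0 := by
  unfold TY blk
  rw [Finset.sum_filter]
  congr 1
  exact Finset.sum_congr rfl fun x _ => by split_ifs <;> simp

/-- difference of the top overlaps -/
lemma T_P (i : ℕ) (o : Option K) (O : Og (Option K)) (U : Og (Fin (Z.N i)))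
    (σ σ' : Option (Fin (Z.N i)) → Bool) :
    (Z.Xp i o O).T U σ σ' - (Z.B i).T U (fun x => σ (some x)) (fun x => σ' (some x)) =
      ((O.1 *ᵥ uvec (Z.fy i U σ) (σ none)) none * (O.1 *ᵥ uvec (Z.fy i U σ') (σ' none)) none -
        ∑ k, Z.fy i U σ (Sum.inl k) * Z.fy i U σ' (Sum.inl k) -
        ∑ k, Z.fy i U σ (gI (some k)) * Z.fy i U σ' (gI (some k)) -
        if o = none then 0 else
          Z.fy i U σ (Sum.inr (Sum.inr ())) * Z.fy i U σ' (Sum.inr (Sum.inr ()))) / Z.N0 i := by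
  have h1 := Z.seqp_sumP i o O U σ σ' fun o => if o = none then 1 else 0
  have h2 := Z.seqp_sumB i (yv U fun x => σ (some x)) (yv U fun x => σ' (some x))
    fun o => if o = none then 1 else 0
  have h4 := seqp_fr fun f => Z.fy i U σ f * Z.fy i U σ' f
  have h7 : ∑ f, yv U (fun x => σ (some x)) (Z.e i f) * yv U (fun x => σ' (some x)) (Z.e i f) =
      ∑ f, Z.fy i U σ f * Z.fy i U σ' f := rfl
  show TY _ _ _ _ - TY _ _ _ _ = _
  rw [seqp_TY, seqp_TY, ← sub_div]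
  congr 1
  rw [h1, h2, h7, h4, Fintype.sum_option, Fintype.sum_option]
  simp only [if_true, reduceCtorEq, if_false, zero_mul, Finset.sum_const_zero]
  split_ifs <;> ring

/-- splitting off the new spin -/
def seqp_e (ι : Type) : (Option ι → Bool) ≃ (ι → Bool) × Bool where
  toFun σ := (fun x => σ (some x), σ none)
  invFun p := jn p.1 p.2
  left_inv σ := by
    funext x
    cases x <;> rfl
  right_inv _ := rfl

/-- common part of the top overlaps -/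
def seqp_T0 (i : ℕ) (o : Option K) (O : Og (Option K)) (U : Og (Fin (Z.N i)))
    (σ σ' : Option (Fin (Z.N i)) → Bool) : ℝ :=
  TY ((blk (Z.cp i o) none).erase none) (Z.N0 i) ((YP (Fin (Z.N i)) (emb (Z.sec i) O)).Y U σ)
    ((YP (Fin (Z.N i)) (emb (Z.sec i) O)).Y U σ')

lemma seqp_d1 (i : ℕ) (o : Option K) (O : Og (Option K)) (U : Og (Fin (Z.N i)))
    (σ σ' : Option (Fin (Z.N i)) → Bool) :
    (Z.Xp i o O).T U σ σ' - Z.seqp_T0 i o O U σ σ' = (Z.N0 i : ℝ)⁻¹ *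
      ((O.1 *ᵥ uvec (Z.fy i U σ) (σ none)) none * (O.1 *ᵥ uvec (Z.fy i U σ') (σ' none)) none) := by
  have hm : none ∈ blk (Z.cp i o) none := Finset.mem_filter.2 ⟨Finset.mem_univ _, rfl⟩
  show TY _ _ _ _ - TY _ _ _ _ = _
  unfold TY
  rw [← sub_div, ← Finset.add_sum_erase _ _ hm, add_sub_cancel_right, ← Z.Y_sec, ← Z.Y_sec,
    div_eq_inv_mul]
  rfl

lemma seqp_d2 (i : ℕ) (o : Option K) (O : Og (Option K)) (U : Og (Fin (Z.N i)))
    (σ σ' : Option (Fin (Z.N i)) → Bool) :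
    (Z.B i).T U (fun x => σ (some x)) (fun x => σ' (some x)) - Z.seqp_T0 i o O U σ σ' =
      (Z.N0 i : ℝ)⁻¹ * (∑ k, Z.fy i U σ (Sum.inl k) * Z.fy i U σ' (Sum.inl k) +
        ∑ k, Z.fy i U σ (gI (some k)) * Z.fy i U σ' (gI (some k)) +
        (if o = none then 0 else 1) *
          (Z.fy i U σ (Sum.inr (Sum.inr ())) * Z.fy i U σ' (Sum.inr (Sum.inr ())))) := by
  have h1 := Z.T_P i o O U σ σ'
  have h2 := Z.seqp_d1 i o O U σ σ'
  rw [div_eq_inv_mul] at h1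
  split_ifs at h1 ⊢
  · linear_combination h2 - h1
  · linear_combination h2 - h1

lemma seqp_com (i : ℕ) (o : Option K) (O : Og (Option K)) {P : Pr} (ha : ∀ l, P.a l = 0) :
    Com (P := P) (Z.B i) (Z.Xp i o O) id (seqp_e _) (Z.seqp_T0 i o O) where
  mp := MeasurePreserving.id _
  hQ l _ _ _ := by rw [ha, zero_mul, zero_mul]
  p0 _ := psd_TY _ _ _
  p1 U := by
    have h := (psd_rank_one fun σ : Option (Fin (Z.N i)) → Bool =>
      (O.1 *ᵥ uvec (Z.fy i U σ) (σ none)) none).smul (c := (Z.N0 i : ℝ)⁻¹) (by positivity)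
    exact (funext₂ fun σ σ' => Z.seqp_d1 i o O U σ σ') ▸ h
  p2 U := by
    have h := (((psd_sum univ fun k _ => psd_rank_one fun σ => Z.fy i U σ (Sum.inl k)).add
      (psd_sum univ fun k _ => psd_rank_one fun σ => Z.fy i U σ (gI (some k)))).add
      ((psd_rank_one fun σ => Z.fy i U σ (Sum.inr (Sum.inr ()))).smul
        (c := if o = none then 0 else 1) (by split_ifs <;> norm_num))).smul
        (c := (Z.N0 i : ℝ)⁻¹) (by positivity)
    exact (funext₂ fun σ σ' => Z.seqp_d2 i o O U σ σ') ▸ h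

lemma seqp_sq_le (i : ℕ) (U : Og (Fin (Z.N i))) (σ : Fin (Z.N i) → Bool) :
    ∑ f, yv U σ (Z.e i f) ^ 2 ≤ Z.N i := by
  have h1 := yv_sq U σ
  rw [Orth_split (Z.e i), Fintype.card_fin] at h1
  have h2 : 0 ≤ ∑ x ∈ (univ.map (Z.e i))ᶜ, yv U σ x ^ 2 := sum_nonneg fun _ _ => sq_nonneg _
  linarith

lemma seqp_meas (i : ℕ) (σ : Fin (Z.N i) → Bool) (c : ℝ) :
    Measurable fun U : Og (Fin (Z.N i)) => c * (1 + ∑ f, yv U σ (Z.e i f) ^ 2) :=
  ((Finset.measurable_sum _ fun _ _ =>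
    (continuous_yv σ _).measurable.pow_const 2).const_add 1).const_mul c

lemma seqp_abs (i : ℕ) {c : ℝ} (hc : 0 ≤ c) (U : Og (Fin (Z.N i))) (σ : Fin (Z.N i) → Bool) :
    |c * (1 + ∑ f, yv U σ (Z.e i f) ^ 2)| ≤ c * (1 + Z.N i) := by
  rw [abs_of_nonneg (by positivity)]
  exact mul_le_mul_of_nonneg_left (by linarith [Z.seqp_sq_le i U σ]) hc

lemma seqp_mom : ∃ C : ℝ, 0 ≤ C ∧ ∀ᶠ i in hyperfilter ℕ, ∀ (P : Pr) (c : ℝ), 0 ≤ c →
    (Z.B i).A r (Z.b i) Z.m P 1 (fun U σ => c * (1 + ∑ f, yv U (σ 0).1 (Z.e i f) ^ 2)) ≤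
      c * C := by
  obtain ⟨C, hC⟩ := Z.base_mom
  refine ⟨1 + Fintype.card (Fr K) * |C|, by positivity, ?_⟩
  filter_upwards [hC] with i hi P c hc
  have hb : ∀ (f : Fr K) (U : Og (Fin (Z.N i))) (σ : Fin (Z.N i) → Bool),
      |yv U σ (Z.e i f) ^ 2| ≤ Z.N i := fun f U σ => by
    rw [abs_of_nonneg (sq_nonneg _)]
    exact (single_le_sum (f := fun f => yv U σ (Z.e i f) ^ 2) (fun _ _ => sq_nonneg _)
      (mem_univ f)).trans (Z.seqp_sq_le i U σ)
  have hm : ∀ (f : Fr K) (σ : Fin (Z.N i) → Bool),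
      Measurable fun U : Og (Fin (Z.N i)) => yv U σ (Z.e i f) ^ 2 := fun f σ =>
    (continuous_yv σ _).measurable.pow_const 2
  rw [RM.A_mul_left, RM.A_add (Z.B i) 1 (G := fun _ _ => 1)
    (G' := fun U σ => ∑ f, yv U (σ 0).1 (Z.e i f) ^ 2) (fun _ => measurable_const)
    (fun σ => Finset.measurable_sum _ fun f _ => hm f _) (B := 1) (B' := Z.N i)
    (fun _ _ => by simp) (fun U σ => by
      rw [abs_of_nonneg (by positivity)]; exact Z.seqp_sq_le i U _), RM.A_const,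
    RM.A_sum (Z.B i) univ 1 (G := fun f U σ => yv U (σ 0).1 (Z.e i f) ^ 2)
      (fun f σ => hm f _) (fun f U σ => hb f U _)]
  refine mul_le_mul_of_nonneg_left (add_le_add le_rfl ?_) hc
  refine (sum_le_card_nsmul _ _ |C| fun f _ => ((hi P f).1.trans (le_abs_self C))).trans ?_
  simp

lemma seqp_qO_le {bb : K → ℝ} {t Γ : ℝ} (h : ∀ o, gap bb t o ≤ Γ) (O : Og (Option K))
    (o0 : Option K) (y : Fr K → ℝ) (ε : Bool) :
    2 * qO bb t O o0 y ε ≤ Γ * (1 + ∑ f, y f ^ 2) := by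
  have h1 : ∀ g : Option K → ℝ, ∑ o, gap bb t o * g o ^ 2 ≤ Γ * ∑ o, g o * g o := fun g => by
    rw [mul_sum]
    exact sum_le_sum fun o _ => by
      rw [← sq]
      exact mul_le_mul_of_nonneg_right (h o) (sq_nonneg _)
  have h2 := h1 (O.1 *ᵥ uvec y ε)
  have h3 := h1 fun o => y (gI o)
  have h4 := mul_le_mul_of_nonneg_right (h o0) (sq_nonneg (y (Sum.inr (Sum.inr ()))))
  rw [seqp_norm] at h2
  rw [Fintype.sum_option fun o => y (gI o) * y (gI o)] at h3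
  rw [seqp_fr]
  unfold qO
  simp only [sq] at *
  linarith

lemma seqp_t {η : ℝ} (hη : 0 < η) : ∀ᶠ i in hyperfilter ℕ, |Z.t i - Z.tl| ≤ η :=
  (Z.t_lim.eventually (Metric.closedBall_mem_nhds _ hη)).mono fun i hi => by
    simpa [Real.dist_eq] using hi

lemma seqp_s (c : ℝ) {η : ℝ} (hη : 0 < η) :
    ∀ᶠ i in hyperfilter ℕ, c * ((Z.P i).s ^ 2 * (Z.N0 i : ℝ)⁻¹) ≤ η := by
  have h := Z.s_small.const_mul c
  rw [mul_zero] at h
  exact (h.eventually (ge_mem_nhds hη)).mono fun i hi => by rwa [div_eq_mul_inv] at hi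

theorem p_crude (ha : ∀ i l, (Z.P i).a l = 0) : ∃ C : ℝ, ∀ᶠ i in hyperfilter ℕ, ∀ o O,
    Z.Fv i (Z.B i) - C ≤ Z.Fv i (Z.Xp i o O) := by
  obtain ⟨C, hC0, hC⟩ := Z.seqp_mom
  have hΓ0 : 0 ≤ ∑ k, (Z.tl + 1 - Z.bb k) := sum_nonneg fun k _ => by linarith [Z.bb_lt k]
  obtain ⟨Γ, hΓ⟩ : ∃ Γ, Γ = ∑ k, (Z.tl + 1 - Z.bb k) := ⟨_, rfl⟩
  rw [← hΓ] at hΓ0
  refine ⟨3 / 2 * ((Γ + (|Z.tl| + 1)) * C), ?_⟩
  filter_upwards [hC, Z.seqp_t one_pos, Z.seqp_s (2 * r + 8) one_pos] with i hCi hti hsi o O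
  have hc : 0 ≤ Γ + (|Z.tl| + 1) := by positivity
  have hg : ∀ o, gap Z.bb (Z.t i) o ≤ Γ := by
    intro o
    cases o with
    | none => exact hΓ0
    | some k =>
      have h1 : Z.tl + 1 - Z.bb k ≤ Γ := hΓ ▸ single_le_sum (f := fun k => Z.tl + 1 - Z.bb k)
        (fun k _ => by linarith [Z.bb_lt k]) (mem_univ k)
      have h2 := (abs_le.1 hti).2
      show Z.t i - Z.bb k ≤ Γ
      linarith
  have h := tf0 (b := Z.b i) (Z.B i) (Z.Xp i o O) id (seqp_e _) (Z.seqp_T0 i o O) Z.mok (Z.ok i)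
    (Z.seqp_com i o O (ha i))
    (ρ := fun U σ => (Γ + (|Z.tl| + 1)) * (1 + ∑ f, yv U σ (Z.e i f) ^ 2))
    (fun σ => Z.seqp_meas i σ _) (Z.seqp_abs i hc) (fun U σ => ?_) (fun U σ => ?_)
  · have h2 := hCi (Z.P i) _ hc
    unfold Fv
    linarith
  · have h1 := Z.h_P i o O U σ
    have h2 := seqp_qO_le hg O o (Z.fy i U σ) (σ none)
    have h3 : 0 ≤ ∑ f, Z.fy i U σ f ^ 2 := sum_nonneg fun _ _ => sq_nonneg _
    have h4 := (abs_le.1 hti).1
    have h5 := neg_abs_le Z.tl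
    have h6 : 0 ≤ (|Z.tl| + 1) * ∑ f, Z.fy i U σ f ^ 2 := by positivity
    show (Z.B i).h U (fun x => σ (some x)) -
      (Γ + (|Z.tl| + 1)) * (1 + ∑ f, Z.fy i U σ f ^ 2) / 2 ≤ (Z.Xp i o O).h U σ
    rw [h1]
    linarith
  · show (2 * r + 8) * (Z.P i).s ^ 2 * ((Z.B i).T U (fun x => σ (some x)) (fun x => σ (some x)) -
      Z.seqp_T0 i o O U σ σ) ≤ (Γ + (|Z.tl| + 1)) * (1 + ∑ f, Z.fy i U σ f ^ 2)
    rw [Z.seqp_d2]
    have h3 : 0 ≤ ∑ f, Z.fy i U σ f ^ 2 := sum_nonneg fun _ _ => sq_nonneg _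
    have h1 : ∑ k, Z.fy i U σ (Sum.inl k) * Z.fy i U σ (Sum.inl k) +
        ∑ k, Z.fy i U σ (gI (some k)) * Z.fy i U σ (gI (some k)) +
        (if o = none then 0 else 1) *
          (Z.fy i U σ (Sum.inr (Sum.inr ())) * Z.fy i U σ (Sum.inr (Sum.inr ()))) ≤
        ∑ f, Z.fy i U σ f ^ 2 := by
      rw [seqp_fr]
      simp only [sq]
      split_ifs <;>
        linarith [mul_self_nonneg (Z.fy i U σ (gI none)),
          mul_self_nonneg (Z.fy i U σ (Sum.inr (Sum.inr ())))]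
    have h2 := mul_le_mul_of_nonneg_left h1
      (by positivity : 0 ≤ (2 * r + 8) * ((Z.P i).s ^ 2 * (Z.N0 i : ℝ)⁻¹))
    have h4 := mul_le_mul_of_nonneg_right hsi h3
    have h5 : 0 ≤ (Γ + |Z.tl|) * ∑ f, Z.fy i U σ f ^ 2 := by positivity
    linarith

variable {O0 : Og (Option K)} {o : Option K} {Q : Quad (Fr K)}

theorem p_tf (ha : ∀ i l, (Z.P i).a l = 0) (hQ : IsQP Z.α Z.bb Z.tl O0 o Q) (n : ℕ) {e : ℝ}
    (he : 0 < e) : ∃ η > 0, ∀ᶠ i in hyperfilter ℕ, ∀ O : Og (Option K),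
      (∀ o o', |O.1 o o' - O0.1 o o'| ≤ η) →
      |Z.Fv i (Z.Xp i o O) - Z.Fv i (Z.B i) - Real.log 2 - Z.tl / 2 -
        (Z.base i).ys.cav1 Q.q| ≤ e ∧
      ∀ G : Og (Fin (Z.N i)) → (Fin n → Cfg r (Z.b i) (Option (Fin (Z.N i)) → Bool)) → ℝ,
        (∀ c, Measurable fun U => G U c) → (∀ U c, |G U c| ≤ 1) →
        |Z.Av i (Z.Xp i o O) n G - ∫ z, av n ((Z.base i).H z) (fun c => (∑ ε : Fin n → Bool,
              G z.1.1 (fun l => (jn (c l).1 (ε l), (c l).2)) *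
                ∏ l, Real.exp (-Q.q ((Z.base i).ys.y z (c l)) (ε l))) / 2 ^ n) /
            (av1 ((Z.base i).H z) fun c => Wq Q.q ((Z.base i).ys.y z c)) ^ n ∂(Z.base i).P| ≤ e := by
  obtain ⟨C, hC0, hC⟩ := Z.seqp_mom
  obtain ⟨Cq, hq⟩ := Q.qok
  have hCq : 0 ≤ Cq := by simpa using (hq.nonneg 0 true).trans (hq.le 0 true)
  obtain ⟨Cu, hCu, hu⟩ := uvec_sq_le Z.sp Z.bb_lt hQ.od
  obtain ⟨θ, hθ, hθ1, hθ2, hθ3⟩ : ∃ θ : ℝ, 0 < θ ∧ θ ≤ 1 / 4 ∧ 2 * θ * (1 + Cq * C) ≤ e ∧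
      15 * n * 1 * √(θ * (1 + Cq * C)) ≤ e := by
    have hc : Continuous fun θ : ℝ => (2 * θ * (1 + Cq * C), 15 * n * 1 * √(θ * (1 + Cq * C))) := by
      fun_prop
    have h1 : Tendsto (fun θ : ℝ => 2 * θ * (1 + Cq * C)) (𝓝[>] 0) (𝓝 0) := by
      have := (continuous_fst.comp hc).tendsto' 0 0 (by simp)
      exact this.mono_left nhdsWithin_le_nhds
    have h2 : Tendsto (fun θ : ℝ => 15 * n * 1 * √(θ * (1 + Cq * C))) (𝓝[>] 0) (𝓝 0) := by
      have := (continuous_snd.comp hc).tendsto' 0 0 (by simp)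
      exact this.mono_left nhdsWithin_le_nhds
    have h3 : ∀ᶠ θ : ℝ in 𝓝[>] 0, θ ≤ 1 / 4 :=
      nhdsWithin_le_nhds (ge_mem_nhds (by norm_num))
    exact (((eventually_mem_nhdsWithin (a := (0 : ℝ)) (s := Set.Ioi 0)).and (h3.and
      ((h1.eventually (ge_mem_nhds he)).and (h2.eventually (ge_mem_nhds he))))).exists)
  obtain ⟨η, hη, hn⟩ := qO_near Z.sp Z.bb_lt hQ.od (θ := θ / 4) (by positivity)
  refine ⟨η, hη, ?_⟩
  filter_upwards [hC, Z.seqp_t hη, Z.seqp_t (half_pos hθ),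
    Z.seqp_s ((2 * r + 8) * (Cu * (2 + Fintype.card K))) hθ] with i hCi ht1 ht2 hsi O hO
  have hqe := hQ.q_eq Z.sp
  have hs0 : 0 ≤ (2 * r + 8) * ((Z.P i).s ^ 2 * (Z.N0 i : ℝ)⁻¹) := by positivity
  have mq : ∀ (σ : Fin (Z.N i) → Bool) (ε : Bool),
      Measurable fun U : Og (Fin (Z.N i)) => Q.q (fun f => yv U σ (Z.e i f)) ε := fun σ ε =>
    ((hq.cont ε).comp (continuous_pi fun f => continuous_yv σ _)).measurable
  have bq : ∀ (U : Og (Fin (Z.N i))) (σ : Fin (Z.N i) → Bool) (ε : Bool),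
      Q.q (fun f => yv U σ (Z.e i f)) ε ≤ Cq * (1 + Z.N i) := fun U σ ε =>
    (hq.le _ ε).trans ((le_abs_self _).trans (Z.seqp_abs i hCq U σ))
  have h := tf (b := Z.b i) (Z.B i) (Z.Xp i o O) id (seqp_e _) (Z.seqp_T0 i o O) Z.mok (Z.ok i)
    (Z.seqp_com i o O (ha i)) (q := fun U σ ε => Q.q (fun f => yv U σ (Z.e i f)) ε) mq
    (fun U σ ε => ⟨hq.nonneg _ ε, bq U σ ε⟩) (κ := Z.tl / 2) (Mq := Cq * C) hθ.le hθ1
    (fun U σ => ?_) (fun U σ => ?_) (fun U σ => ?_) ?_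
  · simp only [Fintype.card_bool, Fintype.sum_bool, Nat.cast_ofNat] at h
    exact ⟨h.1.trans hθ2, fun G mG bG => (h.2 n G 1 mG bG).trans hθ3⟩
  · show |(Z.Xp i o O).h U σ - ((Z.B i).h U (fun x => σ (some x)) - Q.q (Z.fy i U σ) (σ none) +
      Z.tl / 2)| ≤ θ / 2 * (1 + Q.q (Z.fy i U σ) (σ none))
    have h1 := abs_le.1 (hn (Z.t i) O ht1 hO o (Z.fy i U σ) (σ none))
    have h2 := abs_le.1 ht2
    have h3 := mul_nonneg hθ.le (hq.nonneg (Z.fy i U σ) (σ none))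
    rw [← hqe] at h1
    rw [Z.h_P, abs_le]
    constructor <;> linarith [h1.1, h1.2, h2.1, h2.2]
  · show (2 * r + 8) * (Z.P i).s ^ 2 * ((Z.Xp i o O).T U σ σ - Z.seqp_T0 i o O U σ σ) ≤
      θ * (1 + Q.q (Z.fy i U σ) (σ none))
    rw [Z.seqp_d1]
    have h0 := hq.nonneg (Z.fy i U σ) (σ none)
    have h1 := (hu o (Z.fy i U σ) (σ none)).1
    rw [← hqe] at h1
    have h2 := single_le_sum (f := fun o' => (O.1 *ᵥ uvec (Z.fy i U σ) (σ none)) o' *
      (O.1 *ᵥ uvec (Z.fy i U σ) (σ none)) o') (fun _ _ => mul_self_nonneg _) (mem_univ none)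
    rw [orth_dot] at h2
    simp only [sq] at h1
    have h3 : Cu * (1 + Q.q (Z.fy i U σ) (σ none)) ≤
        Cu * (2 + Fintype.card K) * (1 + Q.q (Z.fy i U σ) (σ none)) := by
      have : 0 ≤ Cu * (1 + Fintype.card K) * (1 + Q.q (Z.fy i U σ) (σ none)) := by positivity
      linarith
    have h4 := mul_le_mul_of_nonneg_left ((h2.trans h1).trans h3) hs0
    have h5 := mul_le_mul_of_nonneg_right hsi (by linarith : 0 ≤ 1 + Q.q (Z.fy i U σ) (σ none))
    linarith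
  · show (2 * r + 8) * (Z.P i).s ^ 2 * ((Z.B i).T U (fun x => σ (some x)) (fun x => σ (some x)) -
      Z.seqp_T0 i o O U σ σ) ≤ θ * (1 + Q.q (Z.fy i U σ) (σ none))
    rw [Z.seqp_d2]
    have h0 := hq.nonneg (Z.fy i U σ) (σ none)
    obtain ⟨h1, h2, h3⟩ := hu o (Z.fy i U σ) (σ none)
    rw [← hqe] at h1 h2 h3
    rw [Fintype.sum_option] at h1
    have h4 := sum_le_card_nsmul univ _ _ fun k _ => h2 k
    rw [nsmul_eq_mul, card_univ] at h4
    have h5 : (if o = none then 0 else 1) *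
        (Z.fy i U σ (Sum.inr (Sum.inr ())) * Z.fy i U σ (Sum.inr (Sum.inr ()))) ≤
        Cu * (1 + Q.q (Z.fy i U σ) (σ none)) := by
      split_ifs with ho
      · rw [zero_mul]
        positivity
      · rw [one_mul, ← sq]
        exact h3 ho
    have h6 : ∑ k, uvec (Z.fy i U σ) (σ none) (some k) ^ 2 =
        ∑ k, Z.fy i U σ (Sum.inl k) * Z.fy i U σ (Sum.inl k) :=
      sum_congr rfl fun k _ => sq _
    have h7 := sq_nonneg (uvec (Z.fy i U σ) (σ none) none)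
    simp only [sq (Z.fy i U σ _)] at h4
    have h8 : ∑ k, Z.fy i U σ (Sum.inl k) * Z.fy i U σ (Sum.inl k) +
        ∑ k, Z.fy i U σ (gI (some k)) * Z.fy i U σ (gI (some k)) +
        (if o = none then 0 else 1) *
          (Z.fy i U σ (Sum.inr (Sum.inr ())) * Z.fy i U σ (Sum.inr (Sum.inr ()))) ≤
        Cu * (2 + Fintype.card K) * (1 + Q.q (Z.fy i U σ) (σ none)) := by
      linarith
    have h9 := mul_le_mul_of_nonneg_left h8 hs0
    have h10 := mul_le_mul_of_nonneg_right hsi (by linarith : 0 ≤ 1 + Q.q (Z.fy i U σ) (σ none))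
    linarith
  · refine le_trans (RM.A_mono (Z.B i) 1 (fun σ => (Finset.measurable_sum _ fun ε _ =>
      mq _ ε).div_const _) (fun σ => Z.seqp_meas i (σ 0).1 Cq) (B := Cq * (1 + Z.N i))
      (fun U σ => ?_) (fun U σ => Z.seqp_abs i hCq U _) (fun U σ => ?_)) (hCi _ _ hCq)
    · simp only [Fintype.card_bool, Fintype.sum_bool, Nat.cast_ofNat]
      have h1 := bq U (σ 0).1
      have h2 := hq.nonneg (fun f => yv U (σ 0).1 (Z.e i f))
      rw [abs_le]
      constructor <;> linarith [h1 true, h1 false, h2 true, h2 false]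
    · simp only [Fintype.card_bool, Fintype.sum_bool, Nat.cast_ofNat]
      have h1 := hq.le (fun f => yv U (σ 0).1 (Z.e i f))
      linarith [h1 true, h1 false]

lemma seqp_cav1 {F : Type} [Fintype F] (X : YS r F) (Q : Quad F) : X.cav1 Q.q ≤ 0 := by
  refine integral_nonpos fun ω => Real.log_nonpos (av1_nonneg _ fun s => (Wq_pos _ _).le) ?_
  refine (av1_mono _ (g := fun _ => 1) fun s => ?_).trans (av1_const _ _).le
  have h : ∀ ε, Real.exp (-Q.q (X.y ω s) ε) ≤ 1 := fun ε =>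
    Real.exp_le_one_iff.2 (neg_nonpos.2 (Q.q_nonneg _ ε))
  unfold Wq
  linarith [h true, h false]

theorem p1 (ha : ∀ i l, (Z.P i).a l = 0) (hQ : IsQP Z.α Z.bb Z.tl O0 o Q) {e : ℝ} (he : 0 < e) :
    ∀ᶠ i in hyperfilter ℕ, Z.Fv i (Z.B i) + Real.log 2 + Z.tl / 2 + (Z.base i).ys.cav1 Q.q - e ≤
      Z.Fv i (Z.Sp i o) := by
  obtain ⟨C, hC⟩ := Z.p_crude ha
  obtain ⟨η, hη, ht⟩ := Z.p_tf ha hQ 0 (half_pos he)
  obtain ⟨D, hD⟩ : ∃ D, D = |Real.log 2 + Z.tl / 2 + C| + 1 := ⟨_, rfl⟩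
  have hD0 : 0 < D := by rw [hD]; positivity
  obtain ⟨η', hη', N1, hs⟩ := str_main O0 none (fun o => by rw [hQ.od.col]; positivity) hη
    (ε := e / 2 / D) (by positivity)
  have hf : ∀ᶠ i in hyperfilter ℕ, ∀ o',
      |((blk (Z.cp i o) o').card : ℝ) / ((Z.N i : ℝ) + 1) - Z.α o'| ≤ η' :=
    eventually_all.2 fun o' =>
      ((Z.frac_cp o o').eventually (Metric.closedBall_mem_nhds _ hη')).mono fun i hi => by
        simpa [Real.dist_eq] using hi
  filter_upwards [hC, ht, hf, Z.N_lim.eventually_ge_atTop N1] with i hCi hti hfi hNi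
  have hc := seqp_cav1 (Z.base i).ys Q
  have h := hs (Z.cp i o) (Z.sec i) (Z.cp_sec i o) rfl (by simpa using hNi) (fun o' => by
      rw [hQ.od.col, Real.sq_sqrt (Z.α_pos o').le, Fintype.card_fin]
      exact hfi o')
    (fun V => Fm r (Z.b i) Z.m (Z.P i) ((Z.Sp i o).h V) ((Z.Sp i o).T V) ((Z.Sp i o).Q V))
    (Z.Sp i o).measurable_Fm ((Z.Sp i o).integrable_Fm Z.mok (Z.ok i))
    (fun B V hB => by
      obtain ⟨h1, h2, h3⟩ := hB.rm Z.bb (Z.t i) (Z.card_le' i) V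
      exact congr (congr (congrArg (Fm r (Z.b i) Z.m (Z.P i)) h1) h2) h3)
    (min (Z.Fv i (Z.B i) - C)
      (Z.Fv i (Z.B i) + Real.log 2 + Z.tl / 2 + (Z.base i).ys.cav1 Q.q - e / 2))
    (Z.Fv i (Z.B i) + Real.log 2 + Z.tl / 2 + (Z.base i).ys.cav1 Q.q - e / 2) (min_le_right _ _)
    (fun O => (min_le_left _ _).trans (hCi o O)) (fun O hO => by
      have h1 := (abs_le.1 (hti O hO).1).1
      show _ ≤ Z.Fv i (Z.Xp i o O)
      linarith)
  have h2 : Z.Fv i (Z.B i) + Real.log 2 + Z.tl / 2 + (Z.base i).ys.cav1 Q.q - e / 2 -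
      min (Z.Fv i (Z.B i) - C)
        (Z.Fv i (Z.B i) + Real.log 2 + Z.tl / 2 + (Z.base i).ys.cav1 Q.q - e / 2) ≤ D := by
    have h3 := le_abs_self (Real.log 2 + Z.tl / 2 + C)
    rcases min_cases (Z.Fv i (Z.B i) - C)
      (Z.Fv i (Z.B i) + Real.log 2 + Z.tl / 2 + (Z.base i).ys.cav1 Q.q - e / 2) with h4 | h4 <;>
      rw [h4.1] <;> linarith
  have h3 := mul_le_mul_of_nonneg_left h2 (by positivity : 0 ≤ e / 2 / D)
  rw [div_mul_cancel₀ _ hD0.ne'] at h3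
  refine le_trans ?_ h
  linarith

end Seq

end

end Vale.Agent.P166
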