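import Vale.Agent.P166.SeqP
import Vale.Agent.P166.Tr

/-! P166 SeqP2A: first half of SeqP2 (p_q, p_R, p_e). -/

open MeasureTheory ProbabilityTheory Filter Topology Matrix Finset

namespace Vale.Agent.P166

noncomputable section

lemma sp2_assoc {S : Type} [Fintype S] [Nonempty S] (H : S → ℝ) (q : S → Bool → ℝ) :
    av1 H (fun s => (∑ ε, q s ε * Real.exp (-q s ε)) / 2) ≤
      (av1 H fun s => (∑ ε, q s ε) / 2) * av1 H fun s => (∑ ε, Real.exp (-q s ε)) / 2 := by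
  have h := assoc (fun s' : S × Bool => H s'.1) fun s' => q s'.1 s'.2
  rw [sub_eq_add_neg, av1_tilt] at h
  have e : ∀ f : S × Bool → ℝ, av1 (fun s' : S × Bool => H s'.1) f =
      av1 H fun s => (∑ ε, f (s, ε)) / 2 := fun f => by
    simpa using tf_av1 (Equiv.refl (S × Bool)) H f
  rw [e, e, e, div_le_iff₀ (av1_pos _ fun s => by positivity)] at h
  exact h

lemma sp2_ratio {S : Type} [Fintype S] [Nonempty S] (H : S → ℝ) {q : S → Bool → ℝ} {ρ : S → ℝ}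
    (h0 : ∀ s ε, 0 ≤ q s ε) (hρ : ∀ s ε, q s ε ≤ ρ s) {L : ℝ} (hL : 0 < L) :
    0 ≤ av 1 H (fun c => (∑ ε : Fin 1 → Bool, min 1 ((1 + q (c 0) (ε 0)) / L) *
        ∏ l, Real.exp (-q (c l) (ε l))) / 2 ^ 1) /
      (av1 H fun s => (Real.exp (-q s true) + Real.exp (-q s false)) / 2) ^ 1 ∧
    av 1 H (fun c => (∑ ε : Fin 1 → Bool, min 1 ((1 + q (c 0) (ε 0)) / L) *
        ∏ l, Real.exp (-q (c l) (ε l))) / 2 ^ 1) /
      (av1 H fun s => (Real.exp (-q s true) + Real.exp (-q s false)) / 2) ^ 1 ≤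
      L⁻¹ * (1 + av 1 H fun c => ρ (c 0)) := by
  have e : (fun c : Fin 1 → S => (∑ ε : Fin 1 → Bool, min 1 ((1 + q (c 0) (ε 0)) / L) *
      ∏ l, Real.exp (-q (c l) (ε l))) / 2 ^ 1) =
      fun c => (∑ ε, min 1 ((1 + q (c 0) ε) / L) * Real.exp (-q (c 0) ε)) / 2 := by
    funext c
    have := gibbs_sum_prod (n := 1)
      fun l ε => min 1 ((1 + q (c l) ε) / L) * Real.exp (-q (c l) ε)
    simp only [Fin.prod_univ_one] at this ⊢
    rw [this, pow_one]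
  have hW : 0 < av1 H fun s => (Real.exp (-q s true) + Real.exp (-q s false)) / 2 :=
    av1_pos _ fun s => by positivity
  rw [e, av_one H fun s => (∑ ε, min 1 ((1 + q s ε) / L) * Real.exp (-q s ε)) / 2, av_one, pow_one]
  refine ⟨div_nonneg (av1_nonneg _ fun s => div_nonneg (sum_nonneg fun ε _ => ?_) two_pos.le) hW.le,
    ?_⟩
  · have := h0 s ε
    positivity
  have h1 := sp2_assoc H q
  have h2 : (av1 H fun s => (∑ ε, q s ε) / 2) ≤ av1 H ρ := av1_mono _ fun s => by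
    rw [Fintype.sum_bool]; linarith [hρ s true, hρ s false]
  have h3 : av1 H (fun s => (∑ ε, min 1 ((1 + q s ε) / L) * Real.exp (-q s ε)) / 2) ≤
      av1 H fun s => L⁻¹ * ((∑ ε, Real.exp (-q s ε)) / 2 +
        (∑ ε, q s ε * Real.exp (-q s ε)) / 2) := av1_mono _ fun s => by
    have k : ∀ ε, min 1 ((1 + q s ε) / L) * Real.exp (-q s ε) ≤
        L⁻¹ * (Real.exp (-q s ε) + q s ε * Real.exp (-q s ε)) := fun ε =>
      (mul_le_mul_of_nonneg_right (min_le_right _ _) (Real.exp_pos _).le).trans_eq (by ring)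
    simp only [Fintype.sum_bool]
    linarith [k true, k false]
  rw [av1_mul_left, av1_add] at h3
  simp only [Fintype.sum_bool] at h1 h2 h3 ⊢
  rw [div_le_iff₀ hW]
  refine h3.trans ?_
  rw [mul_assoc]
  refine mul_le_mul_of_nonneg_left ?_ (inv_pos.2 hL).le
  nlinarith [mul_le_mul_of_nonneg_right h2 hW.le]

lemma sp2_unif {r : ℕ} {f : VV r → ℝ} (hf : Continuous f) {e : ℝ} (he : 0 < e) :
    ∃ δ > 0, ∀ v v' : VV r, v.2 = v'.2 → |(v.1 : ℝ) - v'.1| < δ → |f v - f v'| ≤ e := by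
  have hg : Continuous fun (t : Set.Icc (-1 : ℝ) 1) (j : Fin (r + 1)) => f (t, j) :=
    continuous_pi fun j => hf.comp (continuous_id.prodMk continuous_const)
  obtain ⟨δ, hδ, hu⟩ := Metric.uniformContinuous_iff.1
    (CompactSpace.uniformContinuous_of_continuous hg) e he
  refine ⟨δ, hδ, ?_⟩
  rintro ⟨t, j⟩ ⟨t', j'⟩ rfl h
  exact (dist_le_pi_dist _ _ j).trans (hu (a := t) (b := t') h).le

namespace RM

variable (X : RM) {r : ℕ} {b : ℕ → ℕ} {m : ℕ → ℝ} {P : Pr}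

lemma sp2_sub (n : ℕ) {G G' : X.Ω → (Fin n → Cfg r b X.Sg) → ℝ}
    (hG : ∀ σ, Measurable fun ω => G ω σ) (hG' : ∀ σ, Measurable fun ω => G' ω σ) {B B' : ℝ}
    (hB : ∀ ω σ, |G ω σ| ≤ B) (hB' : ∀ ω σ, |G' ω σ| ≤ B') :
    X.A r b m P n (fun ω σ => G ω σ - G' ω σ) = X.A r b m P n G - X.A r b m P n G' := by
  have h := X.A_add (m := m) (P := P) n (G' := fun ω σ => -1 * G' ω σ) hG
    (fun σ => (hG' σ).const_mul _) hB (B' := B') fun ω σ => by simpa using hB' ω σ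
  rw [X.A_mul_left] at h
  simpa only [neg_one_mul, ← sub_eq_add_neg] using h

lemma sp2_abs (n : ℕ) {G G' : X.Ω → (Fin n → Cfg r b X.Sg) → ℝ}
    (hG : ∀ σ, Measurable fun ω => G ω σ) (hG' : ∀ σ, Measurable fun ω => G' ω σ) {B' : ℝ}
    (hB' : ∀ ω σ, |G' ω σ| ≤ B') (h : ∀ ω σ, |G ω σ| ≤ G' ω σ) :
    |X.A r b m P n G| ≤ X.A r b m P n G' := by
  have hB : ∀ ω σ, |G ω σ| ≤ B' := fun ω σ => (h ω σ).trans ((le_abs_self _).trans (hB' ω σ))
  have h1 := X.A_mono (m := m) (P := P) n hG hG' hB hB' fun ω σ => (le_abs_self _).trans (h ω σ)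
  have h2 := X.A_mono (m := m) (P := P) n (G := fun ω σ => -1 * G ω σ)
    (fun σ => (hG σ).const_mul _) hG' (B := B') (fun ω σ => by simpa using hB ω σ) hB'
    fun ω σ => by linarith [neg_abs_le (G ω σ), h ω σ]
  rw [X.A_mul_left] at h2
  rw [abs_le]
  constructor <;> linarith

/-- a sum of one replica observables -/
lemma sp2_two {g : X.Ω → Cfg r b X.Sg → ℝ} (hg : ∀ c, Measurable fun ω => g ω c) {B : ℝ}
    (hB : ∀ ω c, |g ω c| ≤ B) :
    X.A r b m P 2 (fun ω c => g ω (c 0) + g ω (c 1)) = 2 * X.A r b m P 1 fun ω c => g ω (c 0) := by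
  have e : ∀ l : Fin 2, X.A r b m P 2 (fun ω c => g ω (c l)) =
      X.A r b m P 1 fun ω c => g ω (c 0) := fun l =>
    X.A_comp_inj (fun _ : Fin 1 => l) (fun _ _ _ => Subsingleton.elim _ _) fun ω c => g ω (c 0)
  rw [X.A_add 2 (fun c => hg (c 0)) (fun c => hg (c 1)) (fun ω c => hB ω (c 0))
    (fun ω c => hB ω (c 1)), e, e, two_mul]

lemma sp2_dom {g : X.Ω → Cfg r b X.Sg → ℝ} (hg : ∀ c, Measurable fun ω => g ω c) {B : ℝ}
    (hB : ∀ ω c, |g ω c| ≤ B) {G : X.Ω → (Fin 2 → Cfg r b X.Sg) → ℝ}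
    (hG : ∀ σ, Measurable fun ω => G ω σ) {a k : ℝ}
    (h : ∀ ω c, |G ω c| ≤ a + k * (g ω (c 0) + g ω (c 1))) :
    |X.A r b m P 2 G| ≤ a + k * (2 * X.A r b m P 1 fun ω c => g ω (c 0)) := by
  have m2 : ∀ c : Fin 2 → Cfg r b X.Sg, Measurable fun ω => k * (g ω (c 0) + g ω (c 1)) :=
    fun c => ((hg (c 0)).add (hg (c 1))).const_mul k
  have b2 : ∀ ω (c : Fin 2 → Cfg r b X.Sg), |k * (g ω (c 0) + g ω (c 1))| ≤ |k| * (B + B) :=
    fun ω c => by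
      rw [abs_mul]
      exact mul_le_mul_of_nonneg_left ((abs_add_le _ _).trans (add_le_add (hB _ _) (hB _ _)))
        (abs_nonneg _)
  have h1 := X.sp2_abs (m := m) (P := P) 2 hG
    (G' := fun ω c => a + k * (g ω (c 0) + g ω (c 1))) (fun c => (m2 c).const_add a)
    (fun ω c => (abs_add_le _ _).trans (add_le_add le_rfl (b2 ω c))) h
  rwa [X.A_add 2 (fun _ => measurable_const) m2 (fun _ _ => le_rfl) b2, X.A_const,
    X.A_mul_left, X.sp2_two hg hB] at h1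

lemma sp2_swap (n : ℕ) {F F' W : X.Ω → (Fin n → Cfg r b X.Sg) → ℝ}
    (hF : ∀ σ, Measurable fun ω => F ω σ) (hF' : ∀ σ, Measurable fun ω => F' ω σ)
    (hW : ∀ σ, Measurable fun ω => W ω σ) {B : ℝ} (bF : ∀ ω σ, |F ω σ| ≤ 1)
    (bF' : ∀ ω σ, |F' ω σ| ≤ 1) (hB : 0 ≤ B) (bW : ∀ ω σ, |W ω σ| ≤ B) :
    |X.A r b m P n (fun ω σ => F ω σ * W ω σ) - X.A r b m P n fun ω σ => F' ω σ * W ω σ| ≤
      B * X.A r b m P n fun ω σ => |F ω σ - F' ω σ| := by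
  have k : ∀ x y : ℝ, |x| ≤ 1 → |y| ≤ B → |x * y| ≤ B := fun x y hx hy => by
    rw [abs_mul]
    exact (mul_le_mul hx hy (abs_nonneg _) zero_le_one).trans_eq (one_mul _)
  rw [← X.sp2_sub n (G := fun ω σ => F ω σ * W ω σ) (G' := fun ω σ => F' ω σ * W ω σ)
    (fun σ => (hF σ).mul (hW σ)) (fun σ => (hF' σ).mul (hW σ))
    (fun ω σ => k _ _ (bF ω σ) (bW ω σ)) (fun ω σ => k _ _ (bF' ω σ) (bW ω σ)), ← X.A_mul_left]
  refine X.sp2_abs n (fun σ => ((hF σ).mul (hW σ)).sub ((hF' σ).mul (hW σ)))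
    (fun σ => (((hF σ).sub (hF' σ)).abs).const_mul B) (B' := B * 2) (fun ω σ => ?_) fun ω σ => ?_
  · rw [abs_mul, abs_abs, abs_of_nonneg hB]
    exact mul_le_mul_of_nonneg_left ((abs_sub _ _).trans
      ((add_le_add (bF _ _) (bF' _ _)).trans_eq one_add_one_eq_two)) hB
  · rw [← sub_mul, abs_mul, mul_comm]
    exact mul_le_mul_of_nonneg_right (bW ω σ) (abs_nonneg _)

lemma sp2_mRm (c c' : Cfg r b X.Sg) : Measurable fun ω => Rm r b (X.T ω) c c' :=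
  (continuous_projIcc.measurable.comp (X.mT _ _)).prodMk measurable_const

end RM

namespace Seq

variable {K : Type} [Fintype K] [DecidableEq K] {r : ℕ} (Z : Seq K r)
  {O0 : Og (Option K)} {o : Option K} {Q : Quad (Fr K)}

lemma sp2_mV (i : ℕ) {V : (Fr K → ℝ) → ℝ} (hV : Continuous V)
    (σ : Option (Fin (Z.N i)) → Bool) : Measurable fun U => V (Z.fy i U σ) :=
  (hV.comp (continuous_pi fun _ => continuous_yv _ _)).measurable

lemma sp2_mg (i : ℕ) (Q : Quad (Fr K)) (L : ℝ) (σ : Option (Fin (Z.N i)) → Bool) :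
    Measurable fun U => min 1 ((1 + Q.q (Z.fy i U σ) (σ none)) / L) :=
  measurable_const.min
    (((Z.sp2_mV i (Q.qok.choose_spec.cont (σ none)) σ).const_add 1).div_const L)

omit [DecidableEq K] in
lemma sp2_bg (Q : Quad (Fr K)) {L : ℝ} (hL : 0 < L) (y : Fr K → ℝ) (ε : Bool) :
    0 ≤ min 1 ((1 + Q.q y ε) / L) ∧ |min 1 ((1 + Q.q y ε) / L)| ≤ 1 := by
  have h0 : 0 ≤ Q.q y ε := Q.q_nonneg y ε
  have h1 : 0 ≤ min 1 ((1 + Q.q y ε) / L) := by positivity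
  exact ⟨h1, by rw [abs_of_nonneg h1]; exact min_le_left _ _⟩

/-- `(1+q)/L` is small on average in the `N+1` spin system -/
theorem p_q (ha : ∀ i l, (Z.P i).a l = 0) (hQ : IsQP Z.α Z.bb Z.tl O0 o Q) {e : ℝ} (he : 0 < e) :
    ∃ η > 0, ∃ L > 0, ∀ᶠ i in hyperfilter ℕ, ∀ O : Og (Option K),
      (∀ o o', |O.1 o o' - O0.1 o o'| ≤ η) →
      Z.Av i (Z.Xp i o O) 1 (fun U c =>
        min 1 ((1 + Q.q (Z.fy i U (c 0).1) ((c 0).1 none)) / L)) ≤ e := by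
  obtain ⟨C, hC0, hC⟩ := Z.seqp_mom
  obtain ⟨Cq, hq⟩ := Q.qok
  have hCq : 0 ≤ Cq := by simpa using (hq.nonneg 0 true).trans (hq.le 0 true)
  obtain ⟨η, hη, ht⟩ := Z.p_tf ha hQ 1 (half_pos he)
  obtain ⟨L, hL, hL'⟩ : ∃ L : ℝ, 0 < L ∧ L⁻¹ * (1 + Cq * C) = e / 2 :=
    ⟨2 * (1 + Cq * C) / e, by positivity, by field_simp⟩
  refine ⟨η, hη, L, hL, ?_⟩
  filter_upwards [hC, ht] with i hCi hti O hO
  have h1 := (abs_le.1 ((hti O hO).2
    (fun U c => min 1 ((1 + Q.q (Z.fy i U (c 0).1) ((c 0).1 none)) / L))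
    (fun c => Z.sp2_mg i Q L _) fun U c => (sp2_bg Q hL _ _).2)).2
  have mG := fun σ : Fin 1 → Cfg r (Z.b i) (Fin (Z.N i) → Bool) => Z.seqp_meas i (σ 0).1 Cq
  have bG := fun U (σ : Fin 1 → Cfg r (Z.b i) (Fin (Z.N i) → Bool)) => Z.seqp_abs i hCq U (σ 0).1
  have i1 := (Z.B i).rmb_integrable_av (m := Z.m) (P := Z.P i) 1 mG bG
  have e1 := (Z.B i).sys_E (m := Z.m) (P := Z.P i) 1 mG bG
  have k := fun z : (Z.base i).Ω => sp2_ratio ((Z.base i).H z)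
    (q := fun c ε => Q.q ((Z.base i).ys.y z c) ε)
    (ρ := fun c => Cq * (1 + ∑ f, yv z.1.1 c.1 (Z.e i f) ^ 2))
    (fun _ _ => hq.nonneg _ _) (fun _ _ => hq.le _ _) hL
  have h2 := integral_mono_of_nonneg (μ := (Z.base i).P) (ae_of_all _ fun z => (k z).1)
    (((integrable_const 1).add i1).const_mul L⁻¹) (ae_of_all _ fun z => (k z).2)
  rw [integral_const_mul, integral_add' (integrable_const 1) i1, integral_const] at h2
  have h3 := mul_le_mul_of_nonneg_left (add_le_add (le_refl (1 : ℝ)) (e1.trans_le (hCi _ _ hCq)))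
    (inv_pos.2 hL).le
  simp only [probReal_univ, smul_eq_mul, one_mul] at h2
  have h4 := h2.trans (h3.trans_eq hL')
  exact (sub_le_iff_le_add.1 h1).trans ((add_le_add le_rfl h4).trans_eq (add_halves e))

/-- observables that are small when the cavity energies are bounded -/
lemma sp2_small (ha : ∀ i l, (Z.P i).a l = 0) (hQ : IsQP Z.α Z.bb Z.tl O0 o Q) {e : ℝ}
    (he : 0 < e) : ∃ η > 0, ∃ L > 0, ∀ᶠ i in hyperfilter ℕ, ∀ O : Og (Option K),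
      (∀ o o', |O.1 o o' - O0.1 o o'| ≤ η) →
      ∀ G : Og (Fin (Z.N i)) → (Fin 2 → Cfg r (Z.b i) (Option (Fin (Z.N i)) → Bool)) → ℝ,
        (∀ c, Measurable fun U => G U c) → (∀ U c, |G U c| ≤ 2) →
        (∀ U c, 1 + Q.q (Z.fy i U (c 0).1) ((c 0).1 none) ≤ L →
          1 + Q.q (Z.fy i U (c 1).1) ((c 1).1 none) ≤ L → |G U c| ≤ e / 2) →
        |Z.Av i (Z.Xp i o O) 2 G| ≤ e := by
  obtain ⟨η, hη, L, hL, h⟩ := Z.p_q ha hQ (e := e / 8) (by positivity)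
  refine ⟨η, hη, L, hL, h.mono fun i hi O hO G mG bG hG => ?_⟩
  have mg := fun c : Cfg r (Z.b i) (Option (Fin (Z.N i)) → Bool) => Z.sp2_mg i Q L c.1
  have bg := fun U (c : Cfg r (Z.b i) (Option (Fin (Z.N i)) → Bool)) =>
    sp2_bg Q hL (Z.fy i U c.1) (c.1 none)
  have h1 := (Z.Xp i o O).sp2_dom (m := Z.m) (P := Z.P i) mg (fun U c => (bg U c).2) mG
    (a := e / 2) (k := 2) fun U c => by
      have h0 := (bg U (c 0)).1
      have h1 := (bg U (c 1)).1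
      have k : ∀ x : ℝ, ¬ x ≤ L → min 1 (x / L) = 1 := fun x hx =>
        min_eq_left ((one_le_div hL).2 (not_le.1 hx).le)
      by_cases c0 : 1 + Q.q (Z.fy i U (c 0).1) ((c 0).1 none) ≤ L
      · by_cases c1 : 1 + Q.q (Z.fy i U (c 1).1) ((c 1).1 none) ≤ L
        · linarith [hG U c c0 c1]
        · rw [k _ c1]; linarith [bG U c]
      · rw [k _ c0]; linarith [bG U c]
  have h2 := hi O hO
  unfold Av at h2 ⊢
  linarith

omit [DecidableEq K] in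
lemma sp2_dot {J : Type} [Fintype J] (y y' : J → ℝ) :
    |∑ j, y j * y' j| ≤ (∑ j, y j ^ 2 + ∑ j, y' j ^ 2) / 2 := by
  rw [← sum_add_distrib, sum_div]
  refine (abs_sum_le_sum_abs _ _).trans (sum_le_sum fun j _ => ?_)
  rw [abs_le]
  constructor <;> nlinarith [sq_nonneg (y j + y' j), sq_nonneg (y j - y' j)]

/-- the frame terms are controlled by the cavity energy -/
lemma sp2_T (hQ : IsQP Z.α Z.bb Z.tl O0 o Q) : ∃ C > 0, ∀ (i : ℕ) (O : Og (Option K))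
    (U : Og (Fin (Z.N i))) (σ σ' : Option (Fin (Z.N i)) → Bool) (L : ℝ),
    1 + Q.q (Z.fy i U σ) (σ none) ≤ L → 1 + Q.q (Z.fy i U σ') (σ' none) ≤ L →
    |(Z.Xp i o O).T U σ σ' - (Z.B i).T U (fun x => σ (some x)) (fun x => σ' (some x))| ≤
      C * L / Z.N0 i ∧
    |∑ o', (O.1 *ᵥ uvec (Z.fy i U σ) (σ none)) o' * (O.1 *ᵥ uvec (Z.fy i U σ') (σ' none)) o'| ≤
      C * L := by
  obtain ⟨Cu, hCu, hu⟩ := uvec_sq_le Z.sp Z.bb_lt hQ.od
  refine ⟨Cu * (3 + Fintype.card K), by positivity, fun i O U σ σ' L hL hL' => ?_⟩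
  have k : ∀ (y : Fr K → ℝ) (ε : Bool), 1 + Q.q y ε ≤ L →
      ∑ o', (O.1 *ᵥ uvec y ε) o' ^ 2 ≤ Cu * L ∧ (O.1 *ᵥ uvec y ε) none ^ 2 ≤ Cu * L ∧
      ∑ k, y (Sum.inl k) ^ 2 ≤ Cu * L ∧ ∑ k, y (gI (some k)) ^ 2 ≤ Fintype.card K * (Cu * L) ∧
      (o ≠ none → y (Sum.inr (Sum.inr ())) ^ 2 ≤ Cu * L) := fun y ε h => by
    obtain ⟨h1, h2, h3⟩ := hu o y ε
    rw [← hQ.q_eq Z.sp] at h1 h2 h3
    have h4 := mul_le_mul_of_nonneg_left h hCu.le
    have h5 : ∑ o', (O.1 *ᵥ uvec y ε) o' ^ 2 ≤ Cu * L := by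
      simp only [sq] at h1 ⊢
      rw [orth_dot]
      exact h1.trans h4
    refine ⟨h5, (single_le_sum (f := fun o' => (O.1 *ᵥ uvec y ε) o' ^ 2)
      (fun _ _ => sq_nonneg _) (mem_univ none)).trans h5, ?_, ?_, fun h => (h3 h).trans h4⟩
    · rw [Fintype.sum_option] at h1
      have h6 : ∑ k, uvec y ε (some k) ^ 2 = ∑ k, y (Sum.inl k) ^ 2 := rfl
      linarith [sq_nonneg (uvec y ε none)]
    · have h6 := sum_le_card_nsmul univ _ _ fun k _ => (h2 k).trans h4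
      rwa [nsmul_eq_mul, card_univ] at h6
  obtain ⟨a0, a1, a2, a3, a4⟩ := k _ _ hL
  obtain ⟨b0, b1, b2, b3, b4⟩ := k _ _ hL'
  have h0 : 0 ≤ Cu * L := (sq_nonneg _).trans a1
  have h1 : 0 ≤ Fintype.card K * (Cu * L) := by positivity
  constructor
  · rw [Z.T_P, abs_div, Nat.abs_cast]
    refine div_le_div_of_nonneg_right ?_ (Nat.cast_nonneg _)
    have c2 := abs_le.1 (sp2_dot (fun k => Z.fy i U σ (Sum.inl k)) fun k => Z.fy i U σ' (Sum.inl k))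
    have c3 := abs_le.1 (sp2_dot (fun k => Z.fy i U σ (gI (some k)))
      fun k => Z.fy i U σ' (gI (some k)))
    have c4 : |if o = none then 0 else
        Z.fy i U σ (Sum.inr (Sum.inr ())) * Z.fy i U σ' (Sum.inr (Sum.inr ()))| ≤ Cu * L := by
      split_ifs with ho
      · simpa using h0
      · have d1 := a4 ho
        have d2 := b4 ho
        rw [abs_le]
        constructor <;> nlinarith [sq_nonneg (Z.fy i U σ (Sum.inr (Sum.inr ())) +
          Z.fy i U σ' (Sum.inr (Sum.inr ()))), sq_nonneg (Z.fy i U σ (Sum.inr (Sum.inr ())) -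
          Z.fy i U σ' (Sum.inr (Sum.inr ())))]
    have c5 := abs_le.1 c4
    generalize (O.1 *ᵥ uvec (Z.fy i U σ) (σ none)) none = x at a1 ⊢
    generalize (O.1 *ᵥ uvec (Z.fy i U σ') (σ' none)) none = x' at b1 ⊢
    rw [abs_le]
    constructor <;> nlinarith [sq_nonneg (x + x'), sq_nonneg (x - x'), c2.1, c2.2, c3.1, c3.2,
      c5.1, c5.2]
  · refine (sp2_dot _ _).trans ?_
    nlinarith

lemma sp2_div (c : ℝ) {η : ℝ} (hη : 0 < η) : ∀ᶠ i in hyperfilter ℕ, c / Z.N0 i < η :=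
  (tendsto_const_nhds.div_atTop (tendsto_natCast_atTop_atTop.comp Z.N0_lim)).eventually
    (gt_mem_nhds hη)

theorem p_R (ha : ∀ i l, (Z.P i).a l = 0) (hQ : IsQP Z.α Z.bb Z.tl O0 o Q) {f : VV r → ℝ}
    (hf : Continuous f) (bf : ∀ v, |f v| ≤ 1) {e : ℝ} (he : 0 < e) :
    ∃ η > 0, ∀ᶠ i in hyperfilter ℕ, ∀ O : Og (Option K), (∀ o o', |O.1 o o' - O0.1 o o'| ≤ η) →
      Z.Av i (Z.Xp i o O) 2 (fun U c => |f (Rm r (Z.b i) ((Z.Xp i o O).T U) (c 0) (c 1)) -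
        f (Rm r (Z.b i) ((Z.B i).T U) (fun x => (c 0).1 (some x), (c 0).2)
          (fun x => (c 1).1 (some x), (c 1).2))|) ≤ e := by
  obtain ⟨η, hη, L, hL, h⟩ := Z.sp2_small ha hQ he
  obtain ⟨C, hC, hT⟩ := Z.sp2_T hQ
  obtain ⟨δ, hδ, hu⟩ := sp2_unif hf (half_pos he)
  refine ⟨η, hη, ?_⟩
  filter_upwards [h, Z.sp2_div (C * L) hδ] with i hi hN O hO
  refine (le_abs_self _).trans (hi O hO _ (fun c => ((hf.measurable.comp
    ((Z.Xp i o O).sp2_mRm _ _)).sub (hf.measurable.comp ((Z.B i).sp2_mRm _ _))).abs)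
    (fun U c => ?_) fun U c h0 h1 => ?_)
  · rw [abs_abs]
    exact (abs_sub _ _).trans ((add_le_add (bf _) (bf _)).trans_eq one_add_one_eq_two)
  · rw [abs_abs]
    refine hu _ _ rfl ?_
    rw [Rm_fst ((Z.Xp i o O).bT U), Rm_fst ((Z.B i).bT U)]
    exact (hT i O U _ _ L h0 h1).1.trans_lt hN

lemma sp2_fac {E : Type} (q V : E → Bool → ℝ) (y : Fin 2 → E) (a : ℝ) :
    (∑ ε : Fin 2 → Bool, a * (V (y 0) (ε 0) * V (y 1) (ε 1)) *
      ∏ l, Real.exp (-q (y l) (ε l))) / 2 ^ 2 = a * Vq q V (y 0) * Vq q V (y 1) := by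
  have := gibbs_sum_prod (n := 2) fun l ε => V (y l) ε * Real.exp (-q (y l) ε)
  simp only [Fin.prod_univ_two, Fintype.sum_bool] at this ⊢
  have e : ∀ ε : Fin 2 → Bool, a * (V (y 0) (ε 0) * V (y 1) (ε 1)) *
      (Real.exp (-q (y 0) (ε 0)) * Real.exp (-q (y 1) (ε 1))) =
      a * (V (y 0) (ε 0) * Real.exp (-q (y 0) (ε 0)) *
        (V (y 1) (ε 1) * Real.exp (-q (y 1) (ε 1)))) := fun ε => by ring
  simp only [e]
  rw [← mul_sum, this]
  unfold Vq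
  ring

/-- two replica observables of the frame and the new spin -/
theorem p_V (ha : ∀ i l, (Z.P i).a l = 0) (hQ : IsQP Z.α Z.bb Z.tl O0 o Q)
    {V : (Fr K → ℝ) → Bool → ℝ} {B : ℝ} (hB : 0 < B) (hV : VOk V B) {f : VV r → ℝ}
    (hf : Continuous f) (bf : ∀ v, |f v| ≤ 1) {e : ℝ} (he : 0 < e) :
    ∃ η > 0, ∀ᶠ i in hyperfilter ℕ, ∀ O : Og (Option K), (∀ o o', |O.1 o o' - O0.1 o o'| ≤ η) →
      |Z.Av i (Z.Xp i o O) 2 (fun U c => f (Rm r (Z.b i) ((Z.Xp i o O).T U) (c 0) (c 1)) *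
          (V (Z.fy i U (c 0).1) ((c 0).1 none) * V (Z.fy i U (c 1).1) ((c 1).1 none))) -
        (Z.base i).ys.cav2 Q.q V f| ≤ e := by
  have hB2 : 0 < B * B := by positivity
  obtain ⟨η, hη, h⟩ := Z.p_R ha hQ hf bf (e := e / 2 / (B * B)) (by positivity)
  obtain ⟨η', hη', h'⟩ := Z.p_tf ha hQ 2 (e := e / 2 / (B * B)) (by positivity)
  refine ⟨min η η', lt_min hη hη', ?_⟩
  filter_upwards [h, h'] with i hi hi' O hO
  have h1 := hi O fun a a' => (hO a a').trans (min_le_left _ _)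
  have mV : ∀ c : Fin 2 → Cfg r (Z.b i) (Option (Fin (Z.N i)) → Bool), Measurable fun U =>
      V (Z.fy i U (c 0).1) ((c 0).1 none) * V (Z.fy i U (c 1).1) ((c 1).1 none) := fun c =>
    (Z.sp2_mV i (hV.cont _) _).mul (Z.sp2_mV i (hV.cont _) _)
  have bV : ∀ U (c : Fin 2 → Cfg r (Z.b i) (Option (Fin (Z.N i)) → Bool)),
      |V (Z.fy i U (c 0).1) ((c 0).1 none) * V (Z.fy i U (c 1).1) ((c 1).1 none)| ≤ B * B :=
    fun U c => by
      rw [abs_mul]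
      exact mul_le_mul (hV.bdd _ _) (hV.bdd _ _) (abs_nonneg _) hB.le
  have bfV : ∀ (v : VV r) (x : ℝ), |x| ≤ B * B → |f v * x| ≤ B * B := fun v x hx => by
    rw [abs_mul]
    exact (mul_le_mul (bf v) hx (abs_nonneg _) zero_le_one).trans_eq (one_mul _)
  have mX : ∀ c : Fin 2 → Cfg r (Z.b i) (Option (Fin (Z.N i)) → Bool),
      Measurable fun U => f (Rm r (Z.b i) ((Z.Xp i o O).T U) (c 0) (c 1)) := fun c =>
    hf.measurable.comp ((Z.Xp i o O).sp2_mRm _ _)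
  have mB : ∀ c : Fin 2 → Cfg r (Z.b i) (Option (Fin (Z.N i)) → Bool),
      Measurable fun U => f (Rm r (Z.b i) ((Z.B i).T U) (fun x => (c 0).1 (some x), (c 0).2)
        (fun x => (c 1).1 (some x), (c 1).2)) := fun c =>
    hf.measurable.comp ((Z.B i).sp2_mRm _ _)
  have h2 := (hi' O fun a a' => (hO a a').trans (min_le_right _ _)).2
    (fun U c => (B * B)⁻¹ * (f (Rm r (Z.b i) ((Z.B i).T U) (fun x => (c 0).1 (some x), (c 0).2)
      (fun x => (c 1).1 (some x), (c 1).2)) *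
      (V (Z.fy i U (c 0).1) ((c 0).1 none) * V (Z.fy i U (c 1).1) ((c 1).1 none))))
    (fun c => ((mB c).mul (mV c)).const_mul _) fun U c => by
      rw [abs_mul, abs_of_pos (inv_pos.2 hB2), inv_mul_le_iff₀ hB2, mul_one]
      exact bfV _ _ (bV U c)
  have e1 : ∀ (z : (Z.base i).Ω) (c : Fin 2 → (Z.base i).S), (∑ ε : Fin 2 → Bool,
      (B * B)⁻¹ * (f (Rm r (Z.b i) ((Z.B i).T z.1.1) (c 0) (c 1)) *
      (V ((Z.base i).ys.y z (c 0)) (ε 0) * V ((Z.base i).ys.y z (c 1)) (ε 1))) *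
        ∏ l, Real.exp (-Q.q ((Z.base i).ys.y z (c l)) (ε l))) / 2 ^ 2 =
      (B * B)⁻¹ * (f (Rm r (Z.b i) ((Z.B i).T z.1.1) (c 0) (c 1)) *
        Vq Q.q V ((Z.base i).ys.y z (c 0)) * Vq Q.q V ((Z.base i).ys.y z (c 1))) := fun z c => by
    simp only [← mul_assoc ((B * B)⁻¹)]
    exact sp2_fac Q.q V (fun l => (Z.base i).ys.y z (c l)) _
  have h3 : |Z.Av i (Z.Xp i o O) 2 (fun U c => (B * B)⁻¹ *
      (f (Rm r (Z.b i) ((Z.B i).T U) (fun x => (c 0).1 (some x), (c 0).2)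
        (fun x => (c 1).1 (some x), (c 1).2)) *
      (V (Z.fy i U (c 0).1) ((c 0).1 none) * V (Z.fy i U (c 1).1) ((c 1).1 none)))) -
      (B * B)⁻¹ * (Z.base i).ys.cav2 Q.q V f| ≤ e / 2 / (B * B) := by
    refine le_of_eq_of_le ?_ h2
    congr 2
    unfold YS.cav2
    rw [← integral_const_mul]
    refine integral_congr_ae (ae_of_all _ fun z => ?_)
    exact ((congrArg (· / _) ((congrArg (av 2 _) (funext (e1 z))).trans
      (av_mul_left 2 _ _ _))).trans (mul_div_assoc _ _ _)).symm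
  unfold Av at h1 h3 ⊢
  rw [RM.A_mul_left, ← mul_sub, abs_mul, abs_of_pos (inv_pos.2 hB2), inv_mul_le_iff₀ hB2,
    mul_div_cancel₀ _ hB2.ne'] at h3
  have h4 := (Z.Xp i o O).sp2_swap (m := Z.m) (P := Z.P i) 2 mX mB mV (fun _ _ => bf _)
    (fun _ _ => bf _) hB2.le bV
  have h5 := mul_le_mul_of_nonneg_left h1 hB2.le
  rw [mul_div_cancel₀ _ hB2.ne'] at h5
  exact (abs_sub_le _ _ _).trans ((add_le_add (h4.trans h5) h3).trans_eq (add_halves e))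

theorem p_e (ha : ∀ i l, (Z.P i).a l = 0) (hQ : IsQP Z.α Z.bb Z.tl O0 o Q) {f : VV r → ℝ}
    (hf : Continuous f) (bf : ∀ v, |f v| ≤ 1) {e : ℝ} (he : 0 < e) :
    ∃ η > 0, ∀ᶠ i in hyperfilter ℕ, ∀ O : Og (Option K), (∀ o o', |O.1 o o' - O0.1 o o'| ≤ η) →
      |Z.Av i (Z.Xp i o O) 2 (fun U c => f (Rm r (Z.b i) ((Z.Xp i o O).T U) (c 0) (c 1)) *
          (spin ((c 0).1 none) * spin ((c 1).1 none))) - (Z.base i).ys.cav2 Q.q Ve f| ≤ e :=
  Z.p_V ha hQ (V := Ve) one_pos ⟨fun _ => continuous_const, fun _ ε => (abs_spin ε).le⟩ hf bf he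

end Seq

end

end Vale.Agent.P166
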