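import Vale.Agent.P166.SeqB
import Vale.Agent.P166.Tf
import Vale.Agent.P166.Eq

/-! P166 SeqSA: helper lemmas for SeqS (averages of continuous observables, blocks, transfer). -/

open MeasureTheory ProbabilityTheory Filter Topology Matrix Finset

namespace Vale.Agent.P166

noncomputable section

section gen

variable {ι : Type} [Fintype ι] [DecidableEq ι]

lemma seqS_bdd {J C : Type} [Fintype J] [Fintype C] {G : J → Og ι → C → ℝ}
    (hG : ∀ j c, Continuous fun U => G j U c) : ∃ B, ∀ j U c, |G j U c| ≤ B := by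
  have h : Continuous fun U : Og ι => ∑ j, ∑ c, |G j U c| :=
    continuous_finsetSum _ fun j _ => continuous_finsetSum _ fun c _ => (hG j c).abs
  obtain ⟨B, hB⟩ := (isCompact_range h).bddAbove
  refine ⟨B, fun j U c => le_trans ?_ (hB ⟨U, rfl⟩)⟩
  calc |G j U c| ≤ ∑ c, |G j U c| :=
        single_le_sum (f := fun c => |G j U c|) (fun _ _ => abs_nonneg _) (mem_univ c)
    _ ≤ _ := single_le_sum (f := fun j => ∑ c, |G j U c|)
        (fun _ _ => sum_nonneg fun _ _ => abs_nonneg _) (mem_univ j)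

lemma seqS_bdd1 {C : Type} [Fintype C] {G : Og ι → C → ℝ}
    (hG : ∀ c, Continuous fun U => G U c) : ∃ B, ∀ U c, |G U c| ≤ B := by
  obtain ⟨B, hB⟩ := seqS_bdd (J := Unit) (G := fun _ => G) fun _ => hG
  exact ⟨B, hB ()⟩

variable {r : ℕ} {b : ℕ → ℕ} {m : ℕ → ℝ} {P : Pr} {bb : ι → ℝ} {Top : Finset ι} {N0 : ℕ}
  (hN : Fintype.card ι ≤ N0)

lemma seqS_sum {J : Type} [Fintype J] (n : ℕ)
    {G : J → Og ι → (Fin n → Cfg r b (ι → Bool)) → ℝ} (hG : ∀ j c, Continuous fun U => G j U c) :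
    ((YO ι).rm bb Top N0 hN).A r b m P n (fun U c => ∑ j, G j U c) =
      ∑ j, ((YO ι).rm bb Top N0 hN).A r b m P n (G j) := by
  obtain ⟨B, hB⟩ := seqS_bdd hG
  exact RM.A_sum _ univ n (fun j c => (hG j c).measurable) hB

lemma seqS_add (n : ℕ) {G G' : Og ι → (Fin n → Cfg r b (ι → Bool)) → ℝ}
    (hG : ∀ c, Continuous fun U => G U c) (hG' : ∀ c, Continuous fun U => G' U c) :
    ((YO ι).rm bb Top N0 hN).A r b m P n (fun U c => G U c + G' U c) =
      ((YO ι).rm bb Top N0 hN).A r b m P n G + ((YO ι).rm bb Top N0 hN).A r b m P n G' := by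
  obtain ⟨B, hB⟩ := seqS_bdd1 hG
  obtain ⟨B', hB'⟩ := seqS_bdd1 hG'
  exact RM.A_add _ n (fun c => (hG c).measurable) (fun c => (hG' c).measurable) hB hB'

lemma seqS_mono (n : ℕ) {G G' : Og ι → (Fin n → Cfg r b (ι → Bool)) → ℝ}
    (hG : ∀ c, Continuous fun U => G U c) (hG' : ∀ c, Continuous fun U => G' U c)
    (h : ∀ U c, G U c ≤ G' U c) :
    ((YO ι).rm bb Top N0 hN).A r b m P n G ≤ ((YO ι).rm bb Top N0 hN).A r b m P n G' := by
  obtain ⟨B, hB⟩ := seqS_bdd1 hG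
  obtain ⟨B', hB'⟩ := seqS_bdd1 hG'
  exact RM.A_mono _ n (fun c => (hG c).measurable) (fun c => (hG' c).measurable) hB hB' h

lemma seqS_diff (n : ℕ) {G G' D : Og ι → (Fin n → Cfg r b (ι → Bool)) → ℝ}
    (hG : ∀ c, Continuous fun U => G U c) (hG' : ∀ c, Continuous fun U => G' U c)
    (hD : ∀ c, Continuous fun U => D U c) (h : ∀ U c, |G U c - G' U c| ≤ D U c) :
    |((YO ι).rm bb Top N0 hN).A r b m P n G - ((YO ι).rm bb Top N0 hN).A r b m P n G'| ≤
      ((YO ι).rm bb Top N0 hN).A r b m P n D := by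
  have h1 := seqS_mono (m := m) (P := P) (bb := bb) (Top := Top) hN n hG
    (G' := fun U c => G' U c + D U c) (fun c => (hG' c).add (hD c))
    fun U c => by linarith [(abs_le.1 (h U c)).2]
  have h2 := seqS_mono (m := m) (P := P) (bb := bb) (Top := Top) hN n hG'
    (G' := fun U c => G U c + D U c) (fun c => (hG c).add (hD c))
    fun U c => by linarith [(abs_le.1 (h U c)).1]
  rw [seqS_add hN n hG' hD] at h1
  rw [seqS_add hN n hG hD] at h2
  exact abs_le.2 ⟨by linarith, by linarith⟩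

lemma seqS_clip {M : ℝ} (hM : 0 < M) (y y' : ℝ) :
    |y * y' - clip M y * clip M y'| ≤ (2 * M)⁻¹ * ((y ^ 4 + y ^ 2) + (y' ^ 4 + y' ^ 2)) := by
  have h1 := abs_sub_clip_le hM y
  have h2 := abs_sub_clip_le hM y'
  have h3 := abs_clip_le_abs hM.le y
  have e : y * y' - clip M y * clip M y' =
      (y - clip M y) * y' + clip M y * (y' - clip M y') := by ring
  have h4 : |y * y' - clip M y * clip M y'| ≤ y ^ 2 / M * |y'| + |y| * (y' ^ 2 / M) := by
    rw [e]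
    refine (abs_add_le _ _).trans (add_le_add ?_ ?_)
    · rw [abs_mul]; exact mul_le_mul_of_nonneg_right h1 (abs_nonneg _)
    · rw [abs_mul]; exact mul_le_mul h3 h2 (abs_nonneg _) (abs_nonneg _)
  refine h4.trans ?_
  have h5 : 2 * (y ^ 2 * |y'| + |y| * y' ^ 2) ≤ (y ^ 4 + y ^ 2) + (y' ^ 4 + y' ^ 2) := by
    nlinarith [sq_nonneg (y ^ 2 - |y'|), sq_nonneg (y' ^ 2 - |y|), sq_abs y, sq_abs y']
  have e2 : y ^ 2 / M * |y'| + |y| * (y' ^ 2 / M) =
      (2 * M)⁻¹ * (2 * (y ^ 2 * |y'| + |y| * y' ^ 2)) := by field_simp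
  rw [e2]
  exact mul_le_mul_of_nonneg_left h5 (by positivity)

lemma seqS_m42 (x : ι) :
    ((YO ι).rm bb Top N0 hN).A r b m P 1 (fun U c => yv U (c 0).1 x ^ 4 + yv U (c 0).1 x ^ 2) =
      ((YO ι).rm bb Top N0 hN).A r b m P 1 (fun U c => yv U (c 0).1 x ^ 4) +
        ((YO ι).rm bb Top N0 hN).A r b m P 1 (fun U c => yv U (c 0).1 x ^ 2) :=
  seqS_add hN 1 (fun _ => (continuous_yv _ _).pow 4) fun _ => (continuous_yv _ _).pow 2

lemma seqS_tr2 (x : ι) {g : (Fin 2 → Cfg r b (ι → Bool)) → ℝ} (hg : ∀ c, |g c| ≤ 1) {M : ℝ}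
    (hM : 0 < M) :
    |((YO ι).rm bb Top N0 hN).A r b m P 2 (fun U c => g c * (yv U (c 0).1 x * yv U (c 1).1 x)) -
      ((YO ι).rm bb Top N0 hN).A r b m P 2 (fun U c =>
        g c * (clip M (yv U (c 0).1 x) * clip M (yv U (c 1).1 x)))| ≤
      (((YO ι).rm bb Top N0 hN).A r b m P 1 (fun U c => yv U (c 0).1 x ^ 4) +
        ((YO ι).rm bb Top N0 hN).A r b m P 1 (fun U c => yv U (c 0).1 x ^ 2)) / M := by
  have c4 : ∀ σ : ι → Bool, Continuous fun U : Og ι => yv U σ x ^ 4 + yv U σ x ^ 2 := fun σ =>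
    ((continuous_yv σ x).pow 4).add ((continuous_yv σ x).pow 2)
  have cc : ∀ σ : ι → Bool, Continuous fun U : Og ι => clip M (yv U σ x) := fun σ =>
    (continuous_clip M).comp (continuous_yv σ x)
  refine (seqS_diff hN 2 (D := fun U c => (2 * M)⁻¹ *
    ((yv U (c 0).1 x ^ 4 + yv U (c 0).1 x ^ 2) + (yv U (c 1).1 x ^ 4 + yv U (c 1).1 x ^ 2)))
    (fun c => continuous_const.mul ((continuous_yv _ _).mul (continuous_yv _ _)))
    (fun c => continuous_const.mul ((cc _).mul (cc _)))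
    (fun c => continuous_const.mul ((c4 _).add (c4 _))) fun U c => ?_).trans (le_of_eq ?_)
  · show |g c * _ - g c * _| ≤ _
    rw [← mul_sub, abs_mul]
    exact (mul_le_of_le_one_left (abs_nonneg _) (hg c)).trans (seqS_clip hM _ _)
  · have h0 := RM.A_comp_inj (r := r) (b := b) (m := m) (P := P) ((YO ι).rm bb Top N0 hN)
      (fun _ : Fin 1 => (0 : Fin 2)) (Function.injective_of_subsingleton _)
      (fun U c => yv U (c 0).1 x ^ 4 + yv U (c 0).1 x ^ 2)
    have h1 := RM.A_comp_inj (r := r) (b := b) (m := m) (P := P) ((YO ι).rm bb Top N0 hN)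
      (fun _ : Fin 1 => (1 : Fin 2)) (Function.injective_of_subsingleton _)
      (fun U c => yv U (c 0).1 x ^ 4 + yv U (c 0).1 x ^ 2)
    rw [seqS_m42] at h0 h1
    rw [RM.A_mul_left, seqS_add hN 2 (fun c => c4 _) (fun c => c4 _), h0, h1]
    field_simp
    ring

lemma seqS_tr1 (x : ι) {M : ℝ} (hM : 0 < M) :
    |((YO ι).rm bb Top N0 hN).A r b m P 1 (fun U c => yv U (c 0).1 x ^ 2) -
      ((YO ι).rm bb Top N0 hN).A r b m P 1 (fun U c => clip M (yv U (c 0).1 x) ^ 2)| ≤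
      (((YO ι).rm bb Top N0 hN).A r b m P 1 (fun U c => yv U (c 0).1 x ^ 4) +
        ((YO ι).rm bb Top N0 hN).A r b m P 1 (fun U c => yv U (c 0).1 x ^ 2)) / M := by
  refine (seqS_diff hN 1 (D := fun U c => M⁻¹ * (yv U (c 0).1 x ^ 4 + yv U (c 0).1 x ^ 2))
    (fun c => (continuous_yv _ _).pow 2)
    (fun c => ((continuous_clip M).comp (continuous_yv _ _)).pow 2)
    (fun c => continuous_const.mul (((continuous_yv _ x).pow 4).add ((continuous_yv _ x).pow 2)))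
    fun U c => ?_).trans (le_of_eq ?_)
  · show |yv U (c 0).1 x ^ 2 - clip M (yv U (c 0).1 x) ^ 2| ≤ _
    rw [pow_two, pow_two (clip _ _)]
    refine (seqS_clip hM _ _).trans (le_of_eq ?_)
    field_simp
    ring
  · rw [RM.A_mul_left, seqS_m42, div_eq_inv_mul]

end gen

section blocks

variable {ι K : Type} [Fintype ι] [DecidableEq ι] [Fintype K] [DecidableEq K]
  {r : ℕ} {b : ℕ → ℕ} {m : ℕ → ℝ} {P : Pr} (bb : K → ℝ) (t : ℝ) (c : ι → Option K) {N0 : ℕ}
  (hN : Fintype.card ι ≤ N0)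

omit [DecidableEq ι] [Fintype K] in
lemma seqS_hb (o : Option K) (k : {x // x ∈ blk c o}) :
    ev bb t c (Function.Embedding.subtype (fun x => x ∈ blk c o) k) = o.elim t bb := by
  have : c k.1 = o := (mem_filter.1 k.2).2
  show (c k.1).elim t bb = _
  rw [this]

omit [DecidableEq ι] [Fintype K] in
lemma seqS_hT (o : Option K) :
    (∀ k, Function.Embedding.subtype (fun x => x ∈ blk c o) k ∈ blk c none) ∨
      ∀ k, Function.Embedding.subtype (fun x => x ∈ blk c o) k ∉ blk c none := by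
  cases o with
  | none => exact Or.inl fun k => k.2
  | some k0 =>
    refine Or.inr fun k hk => ?_
    have h1 : c k.1 = some k0 := (mem_filter.1 k.2).2
    have h2 : c k.1 = none := (mem_filter.1 hk).2
    rw [h1] at h2
    cases h2

omit [Fintype K] in
lemma seqS_mom {x : ι} {o : Option K} (hx : c x = o) :
    ((blk c o).card : ℝ) * ((YO ι).rm (ev bb t c) (blk c none) N0 hN).A r b m P 1
        (fun U s => yv U (s 0).1 x ^ 2) =
      ((YO ι).rm (ev bb t c) (blk c none) N0 hN).A r b m P 1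
        (fun U s => ∑ x' ∈ blk c o, yv U (s 0).1 x' ^ 2) ∧
    ((blk c o).card : ℝ) * ((YO ι).rm (ev bb t c) (blk c none) N0 hN).A r b m P 1
        (fun U s => yv U (s 0).1 x ^ 2) ≤ Fintype.card ι ∧
    ((blk c o).card : ℝ) ^ 2 * ((YO ι).rm (ev bb t c) (blk c none) N0 hN).A r b m P 1
        (fun U s => yv U (s 0).1 x ^ 4) ≤ 3 * (Fintype.card ι : ℝ) ^ 2 := by
  have h := YD.A_mom (r := r) (b := b) (m := m) (P := P) (YO ι) hN
    (YO_inv (Function.Embedding.subtype fun x => x ∈ blk c o)) (seqS_hb bb t c o) (seqS_hT c o)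
    ⟨x, mem_filter.2 ⟨mem_univ _, hx⟩⟩
  rw [Fintype.card_coe] at h
  refine ⟨h.1.trans ?_, h.2⟩
  congr 1
  funext U s
  exact sum_coe_sort (blk c o) fun x' => yv U (s 0).1 x' ^ 2

omit [Fintype K] in
lemma seqS_exch {x : ι} {o : Option K} (hx : c x = o) (j : ℕ) :
    ((blk c o).card : ℝ) * ((YO ι).rm (ev bb t c) (blk c none) N0 hN).A r b m P 2
        (fun U s => (if j ≤ lev 1 r (s 0).2 (s 1).2 then 1 else 0) *
          (yv U (s 0).1 x * yv U (s 1).1 x)) =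
      ((YO ι).rm (ev bb t c) (blk c none) N0 hN).A r b m P 2
        (fun U s => (if j ≤ lev 1 r (s 0).2 (s 1).2 then 1 else 0) *
          ∑ x' ∈ blk c o, yv U (s 0).1 x' * yv U (s 1).1 x') := by
  have h := YD.A_exch (r := r) (b := b) (m := m) (P := P) (YO ι) hN
    (YO_inv (Function.Embedding.subtype fun x => x ∈ blk c o)) (seqS_hb bb t c o) (seqS_hT c o)
    ⟨x, mem_filter.2 ⟨mem_univ _, hx⟩⟩ (continuous_indL j)
  rw [Fintype.card_coe] at h
  simp only [indL, Rm_snd] at h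
  refine h.trans ?_
  congr 1
  funext U s
  congr 1
  exact sum_coe_sort (blk c o) fun x' => yv U (s 0).1 x' * yv U (s 1).1 x'

end blocks

namespace Seq

variable {K : Type} [Fintype K] [DecidableEq K] {r : ℕ} (Z : Seq K r)

lemma seqS_q (y : Fr K → ℝ) (ε : Bool) :
    Z.qs.q y ε = (∑ f, gap Z.bb Z.tl (frc f) * y f ^ 2) / 2 := by
  simp [Quad.q, qs, QS]

lemma seqS_W (y : Fr K → ℝ) :
    Wq Z.qs.q y = Real.exp (-((∑ f, gap Z.bb Z.tl (frc f) * y f ^ 2) / 2)) := by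
  simp only [Wq, seqS_q]; ring

lemma seqS_g : ∃ g > 0, ∀ k, g ≤ Z.tl - Z.bb k := by
  have h : ∀ᶠ g in 𝓝[>] (0 : ℝ), ∀ k, g ≤ Z.tl - Z.bb k := eventually_all.2 fun k =>
    mem_nhdsWithin_of_mem_nhds (Iic_mem_nhds (sub_pos.2 (Z.bb_lt k)))
  obtain ⟨g, h1, h2⟩ := (h.and self_mem_nhdsWithin).exists
  exact ⟨g, h2, h1⟩

lemma seqS_gap (o : Option K) : 0 ≤ gap Z.bb Z.tl o := gap_nonneg Z.sp.le o

lemma seqS_com (i : ℕ) :
    Com (P := Z.P i) (Z.B i) (Z.S i) id (Equiv.prodPUnit _).symm (Z.S i).T := by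
  refine ⟨MeasurePreserving.id _, fun _ _ _ _ => rfl, (Z.S i).pT, fun U => ?_, fun U => ?_⟩
  · simpa only [id, sub_self] using psd_zero
  · have h := psd_TY (univ.filter fun f : Fr K => frc f ≠ none) (Z.N0 i)
      fun (σ : Fin (Z.N i) → Bool) f => yv U σ (Z.e i f)
    have e : (fun σ σ' : Fin (Z.N i) → Bool => (Z.B i).T U σ σ' - (Z.S i).T U σ σ') = _ :=
      funext fun σ => funext fun σ' => Z.T_S_B i U σ σ'
    exact e ▸ h

lemma seqS_core : ∃ Mq : ℝ, 0 ≤ Mq ∧ ∀ θ : ℝ, 0 < θ → θ ≤ 1 / 4 → ∀ᶠ i in hyperfilter ℕ,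
    |Z.Fv i (Z.S i) - Z.Fv i (Z.B i) - (Z.base i).ys.cav1 Z.qs.q| ≤ 2 * θ * (1 + Mq) ∧
    ∀ (n : ℕ) (G : Og (Fin (Z.N i)) → (Fin n → Cfg r (Z.b i) (Fin (Z.N i) → Bool)) → ℝ) (B : ℝ),
      (∀ c, Measurable fun U => G U c) → (∀ U c, |G U c| ≤ B) →
      |Z.Av i (Z.S i) n G - ∫ z, av n ((Z.base i).H z)
          (fun c => G z.1.1 c * ∏ l, Wq Z.qs.q ((Z.base i).ys.y z (c l))) /
        (av1 ((Z.base i).H z) fun c => Wq Z.qs.q ((Z.base i).ys.y z c)) ^ n ∂(Z.base i).P| ≤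
        15 * n * B * √(θ * (1 + Mq)) := by
  obtain ⟨C, hC⟩ := Z.base_mom
  obtain ⟨g, hg, hgk⟩ := Z.seqS_g
  refine ⟨(∑ f : Fr K, gap Z.bb Z.tl (frc f) * |C|) / 2,
    div_nonneg (sum_nonneg fun f _ => mul_nonneg (Z.seqS_gap _) (abs_nonneg _)) zero_le_two,
    fun θ h0 h1 => ?_⟩
  have e1 : ∀ᶠ i in hyperfilter ℕ, |Z.t i - Z.tl| ≤ θ * g / 2 := by
    have := (Z.t_lim.sub_const Z.tl).abs
    rw [sub_self, abs_zero] at this
    exact this.eventually (eventually_le_nhds (by positivity))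
  have e2 : ∀ᶠ i in hyperfilter ℕ, (2 * r + 8) * ((Z.P i).s ^ 2 / Z.N0 i) ≤ θ * g / 2 := by
    have := Z.s_small.const_mul (2 * r + 8 : ℝ)
    rw [mul_zero] at this
    exact this.eventually (eventually_le_nhds (by positivity))
  filter_upwards [hC, e1, e2] with i hC e1 e2
  have cq : ∀ σ : Fin (Z.N i) → Bool, Continuous fun U : Og (Fin (Z.N i)) =>
      (∑ f, gap Z.bb Z.tl (frc f) * yv U σ (Z.e i f) ^ 2) / 2 := fun σ =>
    (continuous_finsetSum _ fun f _ => continuous_const.mul ((continuous_yv _ _).pow 2)).div_const 2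
  have q0 : ∀ y : Fr K → ℝ, 0 ≤ (∑ f, gap Z.bb Z.tl (frc f) * y f ^ 2) / 2 := fun y =>
    div_nonneg (sum_nonneg fun f _ => mul_nonneg (Z.seqS_gap _) (sq_nonneg _)) zero_le_two
  obtain ⟨Bq, hBq⟩ := seqS_bdd1 cq
  have h := tf (r := r) (b := Z.b i) (m := Z.m) (Z.B i) (Z.S i) id (Equiv.prodPUnit _).symm
    (Z.S i).T Z.mok (Z.ok i) (Z.seqS_com i)
    (q := fun U σ _ => (∑ f, gap Z.bb Z.tl (frc f) * yv U σ (Z.e i f) ^ 2) / 2)
    (fun σ _ => (cq σ).measurable) (Bq := Bq)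
    (fun U σ _ => ⟨q0 _, (le_abs_self _).trans (hBq U σ)⟩) (κ := 0) (θ := θ)
    (Mq := (∑ f : Fr K, gap Z.bb Z.tl (frc f) * |C|) / 2) h0.le h1 ?_ ?_ ?_ ?_
  · simp only [Fintype.card_unique, Nat.cast_one, Real.log_one, sub_zero, Fintype.sum_unique,
      div_one, one_pow] at h
    simp only [YS.cav1, seqS_W]
    exact h
  · intro U σ
    show |(Z.S i).h U σ - ((Z.B i).h U σ -
      (∑ f, gap Z.bb Z.tl (frc f) * yv U σ (Z.e i f) ^ 2) / 2 + 0)| ≤
      θ / 2 * (1 + (∑ f, gap Z.bb Z.tl (frc f) * yv U σ (Z.e i f) ^ 2) / 2)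
    rw [Z.h_S_B]
    have h2 : |∑ f, gap Z.bb Z.tl (frc f) * yv U σ (Z.e i f) ^ 2 -
        ∑ f, gap Z.bb (Z.t i) (frc f) * yv U σ (Z.e i f) ^ 2| ≤
        θ / 2 * ∑ f, gap Z.bb Z.tl (frc f) * yv U σ (Z.e i f) ^ 2 := by
      rw [← sum_sub_distrib, mul_sum]
      refine (abs_sum_le_sum_abs _ _).trans (sum_le_sum fun f _ => ?_)
      rw [← sub_mul, abs_mul, abs_of_nonneg (sq_nonneg (yv U σ (Z.e i f))), ← mul_assoc]
      refine mul_le_mul_of_nonneg_right ?_ (sq_nonneg _)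
      cases frc f with
      | none => simp [gap]
      | some k =>
        have e3 : gap Z.bb Z.tl (some k) - gap Z.bb (Z.t i) (some k) = Z.tl - Z.t i := by
          simp [gap]
        rw [e3, abs_sub_comm]
        have : θ * g ≤ θ * (Z.tl - Z.bb k) := mul_le_mul_of_nonneg_left (hgk k) h0.le
        show _ ≤ θ / 2 * (Z.tl - Z.bb k)
        linarith
    have := abs_le.1 h2
    exact abs_le.2 ⟨by linarith, by linarith⟩
  · intro U σ
    show (2 * r + 8) * (Z.P i).s ^ 2 * ((Z.S i).T U σ σ - (Z.S i).T U σ σ) ≤ _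
    rw [sub_self, mul_zero]
    exact mul_nonneg h0.le (add_nonneg zero_le_one (q0 _))
  · intro U σ
    show (2 * r + 8) * (Z.P i).s ^ 2 * ((Z.B i).T U σ σ - (Z.S i).T U σ σ) ≤
      θ * (1 + (∑ f, gap Z.bb Z.tl (frc f) * yv U σ (Z.e i f) ^ 2) / 2)
    rw [Z.T_S_B]
    have h2 : g * ∑ f ∈ univ.filter fun f => frc f ≠ none, yv U σ (Z.e i f) * yv U σ (Z.e i f) ≤
        ∑ f, gap Z.bb Z.tl (frc f) * yv U σ (Z.e i f) ^ 2 := by
      rw [mul_sum]
      refine le_trans (sum_le_sum fun f hf => ?_) (sum_le_sum_of_subset_of_nonneg (subset_univ _)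
        fun f _ _ => mul_nonneg (Z.seqS_gap _) (sq_nonneg _))
      rw [← pow_two]
      refine mul_le_mul_of_nonneg_right ?_ (sq_nonneg _)
      obtain ⟨k, hk⟩ := Option.ne_none_iff_exists'.1 (mem_filter.1 hf).2
      rw [hk]
      exact hgk k
    have h3 : 0 ≤ ∑ f ∈ univ.filter fun f => frc f ≠ none, yv U σ (Z.e i f) * yv U σ (Z.e i f) :=
      sum_nonneg fun f _ => mul_self_nonneg _
    have h4 := mul_le_mul_of_nonneg_right e2 h3
    have h5 := mul_le_mul_of_nonneg_left h2 h0.le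
    calc _ = (2 * r + 8) * ((Z.P i).s ^ 2 / Z.N0 i) *
          ∑ f ∈ univ.filter fun f => frc f ≠ none, yv U σ (Z.e i f) * yv U σ (Z.e i f) := by ring
      _ ≤ _ := by linarith
  · simp only [Fintype.card_unique, Nat.cast_one, Fintype.sum_unique, div_one]
    have e : (Z.B i).A r (Z.b i) Z.m (Z.P i) 1 (fun U c =>
        (∑ f, gap Z.bb Z.tl (frc f) * yv U (c 0).1 (Z.e i f) ^ 2) / 2) =
        (∑ f, gap Z.bb Z.tl (frc f) * (Z.B i).A r (Z.b i) Z.m (Z.P i) 1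
          fun U c => yv U (c 0).1 (Z.e i f) ^ 2) / 2 := by
      simp only [div_eq_inv_mul]
      rw [RM.A_mul_left, seqS_sum (Z.card_le i) 1
        (G := fun f U c => gap Z.bb Z.tl (frc f) * yv U (c 0).1 (Z.e i f) ^ 2)
        fun f c => continuous_const.mul ((continuous_yv _ _).pow 2)]
      simp only [RM.A_mul_left]
    refine e.trans_le (div_le_div_of_nonneg_right (sum_le_sum fun f _ => ?_) zero_le_two)
    exact mul_le_mul_of_nonneg_left ((hC _ f).1.trans (le_abs_self _)) (Z.seqS_gap _)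

end Seq

end

end Vale.Agent.P166
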