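import Vale.Agent.P166.SeqB
import Vale.Agent.P166.Tf
import Vale.Agent.P166.Eq
import Vale.Agent.P166.DiscE
import Vale.Agent.P166.SeqSA

/-! P166 SeqS: the N spin system seen from the base system.
Plan. s_tf: tf with X = B, X' = S, phi = id, E = Unit, e = (Equiv.prodPUnit _).symm, T0 = T of S, q = qs.q (y), kappa = 0, theta i -> 0: with g > 0 the smallest gap at tl, |h_S - (h_B - q)| <= |t i - tl| q / g (h_S_B) and T_B - T_S <= 2 q /(g N0) on the diagonal (T_S_B); Mq from base_mom.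
qs.q does not depend on the spin, so Wq q y = exp(-q) and Vq q V y = V y exp(-q). s2, s3: Q is the sum over the colours o of the block sums; A_exch / A_mom in S along the embedding of blk (c i) o (YO_inv) replace the block sum by card * (coordinate e (gI o));
truncation by abs_sub_clip_le and A_mom in S (E y^2 <= N/card, E y^4 <= 3 (N/card)^2, card/N -> alpha o > 0); then s_tf. d_one: s3, eq3 (A (gI o) = gap o, cc_zero), the block sums add up to N (yv_sq); choose M large first.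
se: exists_lim, n large, exists_disc, Disc.cut (replace j' by min j' (pi.r+1), Disc.near), lev_mass and Disc.mass, eq2y with f = indL j which agrees almost surely with the indicator of j' <= lab. -/

open MeasureTheory ProbabilityTheory Filter Topology Matrix Finset

namespace Vale.Agent.P166

noncomputable section

lemma seqS_theta {φ : ℝ → ℝ} (hφ : Continuous φ) (h0 : φ 0 = 0) {e : ℝ} (he : 0 < e) :
    ∃ θ : ℝ, 0 < θ ∧ θ ≤ 1 / 4 ∧ φ θ ≤ e := by
  have h1 : ∀ᶠ θ in 𝓝 (0 : ℝ), φ θ ≤ e :=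
    (hφ.tendsto' 0 0 h0).eventually (eventually_le_nhds he)
  have h2 : ∀ᶠ θ in 𝓝 (0 : ℝ), θ ≤ 1 / 4 := eventually_le_nhds (by norm_num)
  obtain ⟨θ, h3, h4⟩ := (((h2.and h1).filter_mono
    (nhdsWithin_le_nhds (s := Set.Ioi (0 : ℝ)))).and self_mem_nhdsWithin).exists
  exact ⟨θ, h4, h3.1, h3.2⟩

lemma seqS_M (a b : ℝ) {e : ℝ} (he : 0 < e) : ∃ M > 0, a / M ≤ e ∧ b / M ≤ e := by
  have h : 0 < (|a| + |b| + 1) / e := by positivity
  refine ⟨_, h, ?_, ?_⟩ <;> rw [div_le_iff₀ h, mul_div_cancel₀ _ he.ne'] <;>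
    linarith [le_abs_self a, le_abs_self b, abs_nonneg a, abs_nonneg b]

lemma seqS_fin {n N α a aM cv m2 m4 M B e : ℝ} (hN : 0 < N) (hα : 0 < α) (hα1 : α ≤ 1)
    (hM : 0 < M) (h1 : α / 2 ≤ n / N) (h2 : n * m2 ≤ N) (h4 : n ^ 2 * m4 ≤ 3 * N ^ 2)
    (h5 : |a - aM| ≤ (m4 + m2) / M) (h6 : |aM| ≤ B) (h7 : |n / N - α| * B ≤ e / 2)
    (h8 : |aM - cv| ≤ e / 2) : |n * a / N - α * cv| ≤ e + (1 + 6 / α) / M := by
  obtain ⟨β, rfl⟩ : ∃ β, n = β * N := ⟨n / N, (div_mul_cancel₀ _ hN.ne').symm⟩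
  rw [mul_div_cancel_right₀ _ hN.ne'] at h1 h7
  have hβ : 0 < β := by linarith
  have e1 : β * N * a / N - α * cv = β * (a - aM) + (β - α) * aM + α * (aM - cv) := by
    field_simp; ring
  have g2 : β * m2 ≤ 1 := le_of_mul_le_mul_right (by linarith) hN
  have g4 : β ^ 2 * m4 ≤ 3 := le_of_mul_le_mul_right (by linarith) (pow_pos hN 2)
  have g5 : β * m4 ≤ 6 / α := by
    refine le_trans (b := 3 / β) ?_ ?_
    · rw [le_div_iff₀ hβ]; linarith
    · rw [div_le_div_iff₀ hβ hα]; linarith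
  have t1 : |β * (a - aM)| ≤ (1 + 6 / α) / M := by
    rw [abs_mul, abs_of_pos hβ]
    refine (mul_le_mul_of_nonneg_left h5 hβ.le).trans ?_
    rw [← mul_div_assoc]
    exact div_le_div_of_nonneg_right (by linarith) hM.le
  have t2 : |(β - α) * aM| ≤ e / 2 := by
    rw [abs_mul]; exact (mul_le_mul_of_nonneg_left h6 (abs_nonneg _)).trans h7
  have t3 : |α * (aM - cv)| ≤ e / 2 := by
    rw [abs_mul, abs_of_pos hα]; exact (mul_le_of_le_one_left (abs_nonneg _) hα1).trans h8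
  rw [e1]
  linarith [abs_add_three (β * (a - aM)) ((β - α) * aM) (α * (aM - cv))]

lemma seqS_Vq {E : Type} (q : E → Bool → ℝ) (v : E → ℝ) (y : E) :
    Vq q (fun y _ => v y) y = v y * Wq q y := by
  unfold Vq Wq; ring

lemma seqS_tail {J : Type} [Fintype J] (r : ℕ) (m : ℕ → ℝ) (α : J → ℝ) (p : J → ℕ → ℝ) (j : ℕ) :
    tail r m (fun i => ∑ o, α o * p o i) j = ∑ o, α o * tail r m (p o) j := by
  simp only [tail, mul_sum]
  rw [sum_comm]
  exact sum_congr rfl fun _ _ => sum_congr rfl fun _ _ => by ring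

namespace Seq

variable {K : Type} [Fintype K] [DecidableEq K] {r : ℕ} (Z : Seq K r)

lemma seqS_N (i : ℕ) : (0 : ℝ) < Z.N i := by exact_mod_cast (Z.e i (gI none)).pos

lemma seqS_α (o : Option K) : Z.α o ≤ 1 :=
  Z.α_sum ▸ single_le_sum (f := Z.α) (fun o _ => (Z.α_pos o).le) (mem_univ o)

lemma seqS_frac (B : ℝ) {e : ℝ} (he : 0 < e) : ∀ᶠ i in hyperfilter ℕ, ∀ o,
    Z.α o / 2 ≤ ((blk (Z.c i) o).card : ℝ) / Z.N i ∧
      |((blk (Z.c i) o).card : ℝ) / Z.N i - Z.α o| * B ≤ e := by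
  refine eventually_all.2 fun o =>
    ((Z.frac o).eventually (eventually_ge_nhds (half_lt_self (Z.α_pos o)))).and ?_
  have := ((Z.frac o).sub_const (Z.α o)).abs.mul_const B
  rw [sub_self, abs_zero, zero_mul] at this
  exact this.eventually (eventually_le_nhds he)

lemma seqS_tf (n : ℕ) (B : ℝ) {e : ℝ} (he : 0 < e) : ∀ᶠ i in hyperfilter ℕ,
    ∀ G : Og (Fin (Z.N i)) → (Fin n → Cfg r (Z.b i) (Fin (Z.N i) → Bool)) → ℝ,
      (∀ c, Measurable fun U => G U c) → (∀ U c, |G U c| ≤ B) →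
      |Z.Av i (Z.S i) n G - ∫ z, av n ((Z.base i).H z)
          (fun c => G z.1.1 c * ∏ l, Wq Z.qs.q ((Z.base i).ys.y z (c l))) /
        (av1 ((Z.base i).H z) fun c => Wq Z.qs.q ((Z.base i).ys.y z c)) ^ n ∂(Z.base i).P| ≤ e := by
  obtain ⟨Mq, -, h⟩ := Z.seqS_core
  obtain ⟨θ, h0, h1, h2⟩ := seqS_theta (φ := fun θ => 15 * n * B * √(θ * (1 + Mq)))
    (by fun_prop) (by simp) he
  filter_upwards [h θ h0 h1] with i hi G hG hB
  exact (hi.2 n G B hG hB).trans h2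

theorem s1 : Tendsto (fun i => Z.Fv i (Z.S i) - Z.Fv i (Z.B i) - (Z.base i).ys.cav1 Z.qs.q)
    (hyperfilter ℕ) (𝓝 0) := by
  obtain ⟨Mq, -, h⟩ := Z.seqS_core
  refine Metric.tendsto_nhds.2 fun e he => ?_
  obtain ⟨θ, h0, h1, h2⟩ := seqS_theta (φ := fun θ => 2 * θ * (1 + Mq))
    (by fun_prop) (by simp) (half_pos he)
  filter_upwards [h θ h0 h1] with i hi
  rw [Real.dist_eq, sub_zero]
  exact (hi.1.trans h2).trans_lt (half_lt_self he)

theorem s_tf (n : ℕ) {e : ℝ} (he : 0 < e) : ∀ᶠ i in hyperfilter ℕ,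
    ∀ G : Og (Fin (Z.N i)) → (Fin n → Cfg r (Z.b i) (Fin (Z.N i) → Bool)) → ℝ,
      (∀ c, Measurable fun U => G U c) → (∀ U c, |G U c| ≤ 1) →
      |Z.Av i (Z.S i) n G - ∫ z, av n ((Z.base i).H z)
          (fun c => G z.1.1 c * ∏ l, Wq Z.qs.q ((Z.base i).ys.y z (c l))) /
        (av1 ((Z.base i).H z) fun c => Wq Z.qs.q ((Z.base i).ys.y z c)) ^ n ∂(Z.base i).P| ≤ e :=
  Z.seqS_tf n 1 he

lemma seqS_two (M : ℝ) (hM : 0 < M) (j : ℕ) {e : ℝ} (he : 0 < e) : ∀ᶠ i in hyperfilter ℕ, ∀ o,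
    |Z.Av i (Z.S i) 2 (fun U c => (if j ≤ lev 1 r (c 0).2 (c 1).2 then 1 else 0) *
        ∑ x ∈ blk (Z.c i) o, yv U (c 0).1 x * yv U (c 1).1 x) / Z.N i -
      Z.α o * (Z.base i).ys.cav2 Z.qs.q (Vy M (gI o)) (indL j)| ≤ e + (1 + 6 / Z.α o) / M := by
  filter_upwards [Z.seqS_frac (M * M) (half_pos he), Z.seqS_tf 2 (M * M) (half_pos he)]
    with i hf ht o
  have hx : Z.c i (Z.e i (gI o)) = o := Z.e_col i _
  have hm := seqS_mom (r := r) (b := Z.b i) (m := Z.m) (P := Z.P i) Z.bb (Z.t i) (Z.c i)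
    (Z.card_le i) hx
  rw [Fintype.card_fin] at hm
  have hg : ∀ c : Fin 2 → Cfg r (Z.b i) (Fin (Z.N i) → Bool),
      |(if j ≤ lev 1 r (c 0).2 (c 1).2 then (1 : ℝ) else 0)| ≤ 1 := fun c => by
    split_ifs <;> simp
  have hB : ∀ (U : Og (Fin (Z.N i))) (c : Fin 2 → Cfg r (Z.b i) (Fin (Z.N i) → Bool)),
      |(if j ≤ lev 1 r (c 0).2 (c 1).2 then (1 : ℝ) else 0) *
        (clip M (yv U (c 0).1 (Z.e i (gI o))) * clip M (yv U (c 1).1 (Z.e i (gI o))))| ≤
        M * M := fun U c => by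
    rw [abs_mul, abs_mul]
    exact (mul_le_of_le_one_left (by positivity) (hg c)).trans
      (mul_le_mul (abs_clip_le hM.le _) (abs_clip_le hM.le _) (abs_nonneg _) hM.le)
  have cc : ∀ σ, Measurable fun U : Og (Fin (Z.N i)) => clip M (yv U σ (Z.e i (gI o))) := fun σ =>
    ((continuous_clip M).comp (continuous_yv σ _)).measurable
  have h8 := ht _ (fun c => measurable_const.mul ((cc _).mul (cc _))) hB
  have ec : (Z.base i).ys.cav2 Z.qs.q (Vy M (gI o)) (indL j) = ∫ z, av 2 ((Z.base i).H z)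
      (fun c => (if j ≤ lev 1 r (c 0).2 (c 1).2 then (1 : ℝ) else 0) *
        (clip M (yv z.1.1 (c 0).1 (Z.e i (gI o))) * clip M (yv z.1.1 (c 1).1 (Z.e i (gI o)))) *
          ∏ l, Wq Z.qs.q ((Z.base i).ys.y z (c l))) /
        (av1 ((Z.base i).H z) fun c => Wq Z.qs.q ((Z.base i).ys.y z c)) ^ 2 ∂(Z.base i).P := by
    unfold YS.cav2
    congr 1
    funext z
    congr 2
    funext c
    have e1 : ∀ y, Vq Z.qs.q (Vy M (gI o)) y = clip M (y (gI o)) * Wq Z.qs.q y := fun y =>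
      seqS_Vq _ (fun y => clip M (y (gI o))) y
    have e2 : indL j ((Z.base i).ys.R z (c 0) (c 1)) =
        if j ≤ lev 1 r (c 0).2 (c 1).2 then (1 : ℝ) else 0 := by
      show indL j (Rm r (Z.b i) _ _ _) = _
      rw [indL, Rm_snd]
    rw [e1, e1, e2, Fin.prod_univ_two]
    show _ * (clip M (yv z.1.1 (c 0).1 (Z.e i (gI o))) * _) *
      (clip M (yv z.1.1 (c 1).1 (Z.e i (gI o))) * _) = _
    ring
  rw [ec]
  unfold Av
  rw [← seqS_exch Z.bb (Z.t i) (Z.c i) (Z.card_le i) hx j]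
  exact seqS_fin (Z.seqS_N i) (Z.α_pos o) (Z.seqS_α o) hM (hf o).1 hm.2.1 hm.2.2
    (seqS_tr2 (Z.card_le i) _ hg hM) (RM.abs_A_le _ 2 hB) (hf o).2 h8

lemma seqS_K (o : Option K) : 0 ≤ 1 + 6 / Z.α o := by have := Z.α_pos o; positivity

theorem s2 : ∃ K0 : ℝ, ∀ M > 0, ∀ (j : ℕ), ∀ e > 0, ∀ᶠ i in hyperfilter ℕ,
    |Z.Av i (Z.S i) 2 (fun U c => (if j ≤ lev 1 r (c 0).2 (c 1).2 then 1 else 0) *
        (Z.S i).Q U (c 0).1 (c 1).1) / Z.N i -
      ∑ o, Z.α o * (Z.base i).ys.cav2 Z.qs.q (Vy M (gI o)) (indL j)| ≤ e + K0 / M := by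
  refine ⟨∑ o, (1 + 6 / Z.α o), fun M hM j e he => ?_⟩
  have hc : (0 : ℝ) < Fintype.card (Option K) := by exact_mod_cast Fintype.card_pos
  filter_upwards [Z.seqS_two M hM j (div_pos he hc)] with i hi
  have e1 : Z.Av i (Z.S i) 2 (fun U c => (if j ≤ lev 1 r (c 0).2 (c 1).2 then 1 else 0) *
      (Z.S i).Q U (c 0).1 (c 1).1) = ∑ o, Z.Av i (Z.S i) 2 (fun U c =>
        (if j ≤ lev 1 r (c 0).2 (c 1).2 then 1 else 0) *
          ∑ x ∈ blk (Z.c i) o, yv U (c 0).1 x * yv U (c 1).1 x) := by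
    refine Eq.trans ?_ (seqS_sum (Z.card_le i) 2 (G := fun o U c =>
      (if j ≤ lev 1 r (c 0).2 (c 1).2 then 1 else 0) *
        ∑ x ∈ blk (Z.c i) o, yv U (c 0).1 x * yv U (c 1).1 x) fun o c => continuous_const.mul
          (continuous_finsetSum _ fun x _ => (continuous_yv _ _).mul (continuous_yv _ _)))
    unfold Av
    congr 1
    funext U c
    rw [← mul_sum]
    congr 1
    exact (sum_fiberwise univ (Z.c i) fun x => yv U (c 0).1 x * yv U (c 1).1 x).symm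
  rw [e1, sum_div, ← sum_sub_distrib]
  refine (abs_sum_le_sum_abs _ _).trans ((sum_le_sum fun o _ => hi o).trans (le_of_eq ?_))
  rw [sum_add_distrib, ← sum_div, ← sum_div, sum_const, card_univ, nsmul_eq_mul,
    mul_div_cancel_left₀ _ hc.ne']

theorem s3 : ∃ K0 : ℝ, ∀ M > 0, ∀ e > 0, ∀ᶠ i in hyperfilter ℕ, ∀ o,
    |Z.Av i (Z.S i) 1 (fun U c => ∑ x ∈ blk (Z.c i) o, yv U (c 0).1 x ^ 2) / Z.N i -
      Z.α o * (Z.base i).ys.cav3 Z.qs.q (Vy2 M (gI o))| ≤ e + K0 / M := by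
  refine ⟨∑ o, (1 + 6 / Z.α o), fun M hM e he => ?_⟩
  filter_upwards [Z.seqS_frac (M ^ 2) (half_pos he), Z.seqS_tf 1 (M ^ 2) (half_pos he)]
    with i hf ht o
  have hx : Z.c i (Z.e i (gI o)) = o := Z.e_col i _
  have hm := seqS_mom (r := r) (b := Z.b i) (m := Z.m) (P := Z.P i) Z.bb (Z.t i) (Z.c i)
    (Z.card_le i) hx
  rw [Fintype.card_fin] at hm
  have hB : ∀ (U : Og (Fin (Z.N i))) (c : Fin 1 → Cfg r (Z.b i) (Fin (Z.N i) → Bool)),
      |clip M (yv U (c 0).1 (Z.e i (gI o))) ^ 2| ≤ M ^ 2 := fun U c => by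
    rw [abs_pow]
    exact pow_le_pow_left₀ (abs_nonneg _) (abs_clip_le hM.le _) 2
  have h8 := ht _ (fun c => (((continuous_clip M).comp (continuous_yv _ _)).pow 2).measurable) hB
  have ec : (Z.base i).ys.cav3 Z.qs.q (Vy2 M (gI o)) = ∫ z, av 1 ((Z.base i).H z)
      (fun c => clip M (yv z.1.1 (c 0).1 (Z.e i (gI o))) ^ 2 *
          ∏ l, Wq Z.qs.q ((Z.base i).ys.y z (c l))) /
        (av1 ((Z.base i).H z) fun c => Wq Z.qs.q ((Z.base i).ys.y z c)) ^ 1 ∂(Z.base i).P := by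
    unfold YS.cav3
    congr 1
    funext z
    rw [pow_one, ← av_one]
    congr 2
    funext c
    rw [Fin.prod_univ_one]
    exact seqS_Vq Z.qs.q (fun y => clip M (y (gI o)) ^ 2) _
  rw [ec]
  unfold Av
  rw [← hm.1]
  refine (seqS_fin (Z.seqS_N i) (Z.α_pos o) (Z.seqS_α o) hM (hf o).1 hm.2.1 hm.2.2
    (seqS_tr1 (Z.card_le i) _ hM) (RM.abs_A_le _ 1 hB) (hf o).2 h8).trans ?_
  exact add_le_add le_rfl (div_le_div_of_nonneg_right (single_le_sum
    (f := fun o => 1 + 6 / Z.α o) (fun o _ => Z.seqS_K o) (mem_univ o)) hM.le)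

lemma seqS_tot (i : ℕ) :
    ∑ o, Z.Av i (Z.S i) 1 (fun U c => ∑ x ∈ blk (Z.c i) o, yv U (c 0).1 x ^ 2) / Z.N i = 1 := by
  rw [← sum_div, div_eq_one_iff_eq (Z.seqS_N i).ne']
  refine (seqS_sum (Z.card_le i) 1 (G := fun o U c => ∑ x ∈ blk (Z.c i) o, yv U (c 0).1 x ^ 2)
    fun o c => continuous_finsetSum _ fun x _ => (continuous_yv _ _).pow 2).symm.trans ?_
  refine Eq.trans ?_ (RM.A_const (r := r) (b := Z.b i) (m := Z.m) (P := Z.P i) (Z.S i) 1 _)
  congr 1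
  funext U c
  refine (sum_fiberwise univ (Z.c i) fun x => yv U (c 0).1 x ^ 2).trans ?_
  rw [yv_sq, Fintype.card_fin]

theorem d_one {G : GGA (VV r)} {ϱ d : ℝ} (h : IsLim Z.base G ϱ d) {e : ℝ} (he : 0 < e) :
    ∃ n0 : ℕ, ∀ n ≥ n0, ∀ (π : Path) (lab : VV r → ℕ), Disc G ϱ d n π lab →
      |ptot Z.α Z.bb Z.tl π (π.r + 1) - 1| ≤ e ∧ ∀ᶠ i in hyperfilter ℕ,
        |Z.Av i (Z.S i) 1 (fun U c => ∑ x ∈ blk (Z.c i) none, yv U (c 0).1 x ^ 2) / Z.N i -
          Z.α none * π.t (π.r + 1)| ≤ e := by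
  have hc : (1 : ℝ) ≤ Fintype.card (Option K) := by exact_mod_cast Fintype.card_pos
  have he' : 0 < e / Fintype.card (Option K) / 4 := by positivity
  obtain ⟨K0, hK⟩ := Z.s3
  obtain ⟨M, hM, hM1, hM2⟩ := seqS_M K0 (4 * (1 + ϱ) ^ 2) he'
  choose n0 hn0 using fun o : Option K => eq3 Z.qs h (f0 := gI o) rfl hM he'
  refine ⟨univ.sup n0, fun n hn π lab hD => ?_⟩
  have key : ∀ᶠ i in hyperfilter ℕ, ∀ o,
      |Z.Av i (Z.S i) 1 (fun U c => ∑ x ∈ blk (Z.c i) o, yv U (c 0).1 x ^ 2) / Z.N i -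
        Z.α o * π.cc (gap Z.bb Z.tl o) (π.r + 1)| ≤ e / Fintype.card (Option K) := by
    filter_upwards [hK M hM _ he', eventually_all.2 fun o =>
      hn0 o n ((le_sup (f := n0) (mem_univ o)).trans hn) π lab hD] with i h1 h2 o
    have h3 : |Z.α o * (Z.base i).ys.cav3 Z.qs.q (Vy2 M (gI o)) -
        Z.α o * π.cc (gap Z.bb Z.tl o) (π.r + 1)| ≤
        e / Fintype.card (Option K) / 4 + 4 * (1 + ϱ) ^ 2 / M := by
      rw [← mul_sub, abs_mul, abs_of_pos (Z.α_pos o)]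
      exact (mul_le_of_le_one_left (abs_nonneg _) (Z.seqS_α o)).trans (h2 o)
    refine (abs_sub_le _ _ _).trans ((add_le_add (h1 o) h3).trans ?_)
    linarith
  constructor
  · obtain ⟨i, hi⟩ := key.exists
    rw [← Z.seqS_tot i, abs_sub_comm, ptot, ← sum_sub_distrib]
    refine (abs_sum_le_sum_abs _ _).trans ((sum_le_sum fun o _ => hi o).trans (le_of_eq ?_))
    rw [sum_const, card_univ, nsmul_eq_mul, mul_div_cancel₀ _ (by linarith)]
  · filter_upwards [key] with i hi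
    rw [← π.cc_zero]
    exact (hi none).trans (div_le_self he.le hc)

theorem se {e : ℝ} (he : 0 < e) : ∃ π : Path,
    |ptot Z.α Z.bb Z.tl π (π.r + 1) - 1| ≤ e ∧
    (∀ᶠ i in hyperfilter ℕ,
      |Z.Av i (Z.S i) 1 (fun U c => ∑ x ∈ blk (Z.c i) none, yv U (c 0).1 x ^ 2) / Z.N i -
        Z.α none * π.t (π.r + 1)| ≤ e) ∧
    ∀ j ≤ r, ∃ j' ≤ π.r + 1, π.m j' = Z.m j ∧ ∀ᶠ i in hyperfilter ℕ,
      |Z.Av i (Z.S i) 2 (fun U c => (if j ≤ lev 1 r (c 0).2 (c 1).2 then 1 else 0) *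
          (Z.S i).Q U (c 0).1 (c 1).1) / Z.N i -
        tail π.r π.m (ptot Z.α Z.bb Z.tl π) j'| ≤ e := by
  obtain ⟨G, ϱ, d, h⟩ := Z.exists_lim
  obtain ⟨n1, hn1⟩ := Z.d_one h he
  have he' : 0 < e / 5 := by positivity
  obtain ⟨K0, hK⟩ := Z.s2
  obtain ⟨M, hM, hM1, hM2⟩ := seqS_M K0 (4 * (1 + ϱ) ^ 2) he'
  choose Λ C n0 hΛ1 hΛ2 hΛ3 using fun o : Option K => eq2y Z.qs h (f0 := gI o) rfl hM he'
  obtain ⟨π, lab, hD⟩ := exists_disc G h.gT h.gL h.pos.le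
    (n := max (max n1 (univ.sup n0)) 1) (le_max_right _ _)
  obtain ⟨g1, g2⟩ := hn1 _ ((le_max_left _ _).trans (le_max_left _ _)) π lab hD
  refine ⟨π, g1, g2, fun j hj => ?_⟩
  obtain ⟨j0, hj0⟩ := hD.cut j
  have hj' : ∀ᵐ v ∂G.zeta, (j ≤ (v.2 : ℕ) ↔ min j0 (π.r + 1) ≤ lab v) := by
    filter_upwards [hj0, hD.near] with v h1 h2
    rw [h1]
    have := h2.1
    omega
  refine ⟨min j0 (π.r + 1), min_le_right _ _, ?_, ?_⟩
  · rw [hD.mass, ← Z.lev_mass h hj]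
    refine measureReal_congr ?_
    filter_upwards [hj'] with v hv
    exact propext ⟨fun h1 => not_le.1 fun h2 => absurd (hv.1 h2) (not_le.2 h1),
      fun h1 => not_le.1 fun h2 => absurd (hv.2 h2) (not_le.2 h1)⟩
  · have hz : ∀ o, Λ o (indL j) = Λ o fun v => if min j0 (π.r + 1) ≤ lab v then 1 else 0 := by
      intro o
      have h1 := hΛ2 o (indL j) (fun v => if min j0 (π.r + 1) ≤ lab v then 1 else 0)
        (continuous_indL j).measurable
        (Measurable.ite (hD.meas measurableSet_Ici) measurable_const measurable_const)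
        (abs_indL_le j) fun v => by split_ifs <;> simp
      have h2 : ∫ v, |indL j v - if min j0 (π.r + 1) ≤ lab v then 1 else 0| ∂G.zeta = 0 := by
        refine integral_eq_zero_of_ae ?_
        filter_upwards [hj'] with v hv
        simp only [indL, hv, sub_self, abs_zero, Pi.zero_apply]
      rw [h2, mul_zero] at h1
      exact sub_eq_zero.1 (abs_nonpos_iff.1 h1)
    filter_upwards [hK M hM j _ he', eventually_all.2 fun o =>
      hΛ1 o (indL j) (continuous_indL j) (abs_indL_le j)] with i h1 h2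
    have h3 : |∑ o, Z.α o * (Z.base i).ys.cav2 Z.qs.q (Vy M (gI o)) (indL j) -
        tail π.r π.m (ptot Z.α Z.bb Z.tl π) (min j0 (π.r + 1))| ≤ 3 * (e / 5) := by
      have e1 := seqS_tail π.r π.m Z.α (fun o => π.cc (gap Z.bb Z.tl o)) (min j0 (π.r + 1))
      rw [show tail π.r π.m (ptot Z.α Z.bb Z.tl π) (min j0 (π.r + 1)) = _ from e1,
        ← sum_sub_distrib]
      refine (abs_sum_le_sum_abs _ _).trans ((sum_le_sum (g := fun o => Z.α o * (3 * (e / 5)))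
        fun o _ => ?_).trans (le_of_eq ?_))
      · rw [← mul_sub, abs_mul, abs_of_pos (Z.α_pos o)]
        refine mul_le_mul_of_nonneg_left ?_ (Z.α_pos o).le
        have h4 := hΛ3 o _ (((le_sup (f := n0) (mem_univ o)).trans (le_max_right _ _)).trans
          (le_max_left _ _)) π lab hD _ (min_le_right j0 _)
        rw [← hz] at h4
        refine (abs_sub_le _ _ _).trans ((add_le_add (h2 o) h4).trans ?_)
        linarith
      · rw [← sum_mul, Z.α_sum, one_mul]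
    refine (abs_sub_le _ _ _).trans ((add_le_add h1 h3).trans ?_)
    linarith

end Seq

end

end Vale.Agent.P166
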