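import Vale.Agent.P166.Defs0
import Vale.Agent.P157.Stab

/-! P166 StEx: existence of positive stable laws.
Plan. rho = 1: dirac 0. 0 < rho < 1: let P be Pareto, P(P > x) = x^(-rho) on [1,oo) (e.g. U^(-1/rho), U uniform on (0,1]). With c = int_0^oo (1 - exp(-y)) rho y^(-1-rho) dy in (0,oo),
n (1 - E exp(-s k n^(-1/rho) P)) = (s k)^rho int_(s k n^(-1/rho))^oo (1 - exp(-y)) rho y^(-1-rho) dy -> s^rho for k = c^(-1/rho). So the law mu_n on [0,1] of
v = exp(- k n^(-1/rho) (P_1 + ... + P_n)) has int v^s -> exp(-s^rho) for s > 0. Take a cluster point mu in the compact space ProbabilityMeasure (Set.Icc 0 1);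
v -> v^s is continuous; s -> 0 gives mu {0} = 0 and s -> oo gives mu {1} = 0 (dominated convergence). The law of log(-log v) works.
Any other construction is fine (for instance a Sibuya or Poisson series). -/

open MeasureTheory ProbabilityTheory Filter Topology Matrix Finset

namespace Vale.Agent.P166

noncomputable section

theorem exists_isLogSt {ρ : ℝ} (h0 : 0 < ρ) (h1 : ρ ≤ 1) : ∃ μ, IsLogSt ρ μ := by
  rcases h1.lt_or_eq with h1 | rfl
  · obtain ⟨ν, hν⟩ := P157.exists_stab h0 h1
    exact ⟨ν, hν.prob, hν.lap⟩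
  · refine ⟨Measure.dirac 0, inferInstance, fun s _ => ?_⟩
    simp

end

end Vale.Agent.P166
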