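import Vale.Agent.P166.StEx
import Vale.Agent.P166.Gibbs

/-! P166 Stable: calculus of positive stable laws.
Plan. ext_laplace: push forward by u -> exp(-exp u) into [0,1]; moments (s = natural numbers) determine a finite measure on [0,1] (Weierstrass,
exists_polynomial_near_continuousMap, ext_of_forall_integral_eq_of_IsFiniteMeasure), the map is a measurable embedding.
logSt_sum: Laplace transform of sum exp(X c + u c) is prod exp(-(s exp X c)^rho) (integral_fintype_prod_eq_prod). logSt_mul: Fubini,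
E exp(-s exp(u/r') exp v) = E exp(-s^r' exp u) = exp(-(s^r')^(r/r')). integrable_logSt: tails: P(exp u > x) (1 - exp(-1)) <= 1 - exp(-x^(-rho)) <= x^(-rho), and
P(exp u < x) <= e * exp(-x^(-rho)) (Markov for exp(-exp u / x)); so P(|u| > t) <= C exp(-rho t); layer cake or a sum over integer t. -/

open MeasureTheory ProbabilityTheory Filter Topology Matrix Finset

namespace Vale.Agent.P166

noncomputable section

lemma isLogSt_logSt {ρ : ℝ} (h0 : 0 < ρ) (h1 : ρ ≤ 1) : IsLogSt ρ (logSt ρ) :=
by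
  have h := exists_isLogSt h0 h1
  rw [logSt, dif_pos h]
  exact h.choose_spec

lemma stable_le_one {s : ℝ} (hs : 0 ≤ s) (u : ℝ) : Real.exp (-(s * Real.exp u)) ≤ 1 :=
  Real.exp_le_one_iff.2 (neg_nonpos.2 (mul_nonneg hs (Real.exp_pos u).le))

lemma stable_integrable {Ω : Type} [MeasurableSpace Ω] (μ : Measure Ω) [IsFiniteMeasure μ]
    {f : Ω → ℝ} (hf : Measurable f) {s : ℝ} (hs : 0 ≤ s) :
    Integrable (fun ω => Real.exp (-(s * Real.exp (f ω)))) μ :=
  Integrable.of_bound (Measurable.aestronglyMeasurable (by fun_prop)) 1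
    (Eventually.of_forall fun ω => by
      rw [Real.norm_of_nonneg (Real.exp_pos _).le]; exact stable_le_one hs _)

lemma stable_map {Ω : Type} [MeasurableSpace Ω] (μ : Measure Ω) {f : Ω → ℝ} (hf : Measurable f)
    (s : ℝ) : ∫ u, Real.exp (-(s * Real.exp u)) ∂μ.map f =
      ∫ ω, Real.exp (-(s * Real.exp (f ω))) ∂μ :=
  integral_map hf.aemeasurable (Measurable.aestronglyMeasurable (by fun_prop))

lemma stable_shift {ρ : ℝ} (h0 : 0 < ρ) (h1 : ρ ≤ 1) {s : ℝ} (hs : 0 ≤ s) (a : ℝ) :
    ∫ u, Real.exp (-(s * Real.exp (a + u))) ∂logSt ρ = Real.exp (-(s ^ ρ * Real.exp (ρ * a))) := by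
  have h := (isLogSt_logSt h0 h1).2 (s * Real.exp a) (by positivity)
  rw [Real.mul_rpow hs (Real.exp_pos a).le, ← Real.exp_mul, mul_comm a] at h
  simp only [Real.exp_add, ← mul_assoc, h]

/-- the bounded function `exp (- exp u)` -/
def stableB : BoundedContinuousFunction ℝ ℝ :=
  BoundedContinuousFunction.ofNormedAddCommGroup (fun u => Real.exp (-Real.exp u)) (by fun_prop) 1
    fun u => by
      rw [Real.norm_of_nonneg (Real.exp_pos _).le]
      simpa using stable_le_one zero_le_one u

lemma stableB_apply (u : ℝ) : stableB u = Real.exp (-Real.exp u) := rfl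

lemma ext_laplace {μ ν : Measure ℝ} [IsProbabilityMeasure μ] [IsProbabilityMeasure ν]
    (h : ∀ s : ℝ, 0 ≤ s →
      ∫ u, Real.exp (-(s * Real.exp u)) ∂μ = ∫ u, Real.exp (-(s * Real.exp u)) ∂ν) : μ = ν :=
by
  let A : StarSubalgebra ℝ (BoundedContinuousFunction ℝ ℝ) :=
    { (Polynomial.aeval (R := ℝ) stableB).range with
      star_mem' := fun {g} hg => by
        have e : star g = g := by ext x; simp
        rwa [e] }
  refine ext_of_forall_mem_subalgebra_integral_eq_of_polish (𝕜 := ℝ) (A := A) ?_ ?_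
  · intro x y hxy
    refine ⟨_, ⟨_, ⟨stableB, ⟨Polynomial.X, by simp⟩, rfl⟩, rfl⟩, fun e => hxy ?_⟩
    have e' : Real.exp (-Real.exp x) = Real.exp (-Real.exp y) := e
    exact Real.exp_injective (neg_injective (Real.exp_injective e'))
  · rintro _ ⟨P, rfl⟩
    change ∫ x, Polynomial.aeval stableB P x ∂μ = ∫ x, Polynomial.aeval stableB P x ∂ν
    induction P using Polynomial.induction_on' with
    | add P Q hP hQ =>
      simp only [map_add, BoundedContinuousFunction.add_apply]
      rw [integral_add (BoundedContinuousFunction.integrable _ _)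
        (BoundedContinuousFunction.integrable _ _), integral_add
        (BoundedContinuousFunction.integrable _ _) (BoundedContinuousFunction.integrable _ _),
        hP, hQ]
    | monomial n a =>
      have e : ∀ x, Polynomial.aeval stableB (Polynomial.monomial n a) x =
          a * Real.exp (-(n * Real.exp x)) := fun x => by
        rw [Polynomial.aeval_monomial, ← Algebra.smul_def, ← mul_neg, Real.exp_nat_mul,
          ← stableB_apply]
        simp
      simp only [e, integral_const_mul, h n (Nat.cast_nonneg n)]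

lemma logSt_one : logSt 1 = Measure.dirac 0 :=
by
  refine ext_laplace fun s hs => ?_
  rw [(isLogSt_logSt one_pos le_rfl).2 s hs]
  simp

lemma logSt_sum {ρ : ℝ} (h0 : 0 < ρ) (h1 : ρ ≤ 1) {C : Type} [Fintype C] [Nonempty C] (X : C → ℝ) :
    (Measure.pi fun _ : C => logSt ρ).map (fun u => lz fun c => X c + u c) =
      (logSt ρ).map fun u => u + ρ⁻¹ * Real.log (∑ c, Real.exp (ρ * X c)) :=
by
  have hm : Measurable fun u : C → ℝ => lz fun c => X c + u c :=
    measurable_lz fun c => by fun_prop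
  have hm' : Measurable fun u : ℝ => u + ρ⁻¹ * Real.log (∑ c, Real.exp (ρ * X c)) := by fun_prop
  have := Measure.isProbabilityMeasure_map (μ := Measure.pi fun _ : C => logSt ρ) hm.aemeasurable
  have := Measure.isProbabilityMeasure_map (μ := logSt ρ) hm'.aemeasurable
  refine ext_laplace fun s hs => ?_
  have hpos : ∀ Y : C → ℝ, 0 < ∑ c, Real.exp (Y c) := fun Y =>
    sum_pos (fun _ _ => Real.exp_pos _) univ_nonempty
  have e : ∀ u : C → ℝ, Real.exp (-(s * Real.exp (lz fun c => X c + u c))) =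
      ∏ c, Real.exp (-(s * Real.exp (X c + u c))) := fun u => by
    rw [lz, Real.exp_log (hpos _), mul_sum, ← sum_neg_distrib, Real.exp_sum]
  rw [stable_map _ hm, stable_map _ hm']
  simp only [e, add_comm _ (ρ⁻¹ * _)]
  rw [integral_fintype_prod_eq_prod (fun c v => Real.exp (-(s * Real.exp (X c + v)))),
    stable_shift h0 h1 hs, mul_inv_cancel_left₀ h0.ne', Real.exp_log (hpos _), mul_sum,
    ← sum_neg_distrib, Real.exp_sum]
  exact prod_congr rfl fun c _ => stable_shift h0 h1 hs _

lemma logSt_mul {ρ ρ' : ℝ} (h0 : 0 < ρ) (h : ρ ≤ ρ') (h1 : ρ' ≤ 1) :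
    ((logSt (ρ / ρ')).prod (logSt ρ')).map (fun z => z.1 / ρ' + z.2) = logSt ρ :=
by
  have h0' : 0 < ρ' := h0.trans_le h
  have hm : Measurable fun z : ℝ × ℝ => z.1 / ρ' + z.2 := by fun_prop
  have := Measure.isProbabilityMeasure_map (μ := (logSt (ρ / ρ')).prod (logSt ρ')) hm.aemeasurable
  refine ext_laplace fun s hs => ?_
  rw [stable_map _ hm, integral_prod _ (stable_integrable _ hm hs)]
  simp only [stable_shift h0' h1 hs, mul_div_cancel₀ _ h0'.ne']
  rw [(isLogSt_logSt (div_pos h0 h0') ((div_le_one h0').2 h)).2 _ (Real.rpow_nonneg hs _),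
    (isLogSt_logSt h0 (h.trans h1)).2 s hs, ← Real.rpow_mul hs, mul_div_cancel₀ _ h0'.ne']

lemma integrable_logSt {ρ : ℝ} (h0 : 0 < ρ) (h1 : ρ ≤ 1) : Integrable (fun u => u) (logSt ρ) :=
by
  let g : ℕ → ℝ → ℝ := fun n u =>
    3 * (Real.exp (-(1 * Real.exp (n + u))) + (1 - Real.exp (-(1 * Real.exp (-n + u)))))
  have hg0 : ∀ n u, 0 ≤ g n u := fun n u => by
    have := stable_le_one zero_le_one (-n + u)
    have := (Real.exp_pos (-(1 * Real.exp (n + u)))).le
    simp only [g]; linarith
  have he : (1 : ℝ) / 3 ≤ Real.exp (-1) := by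
    rw [Real.exp_neg, one_div]
    exact inv_anti₀ (Real.exp_pos 1) Real.exp_one_lt_three.le
  have he' : Real.exp (-1) ≤ 1 / 2 := by
    rw [Real.exp_neg, one_div]
    exact inv_anti₀ two_pos (by linarith [Real.add_one_le_exp (1 : ℝ)])
  have hg1 : ∀ (n : ℕ) (u : ℝ), (n : ℝ) ≤ |u| → 1 ≤ g n u := fun n u hn => by
    have a1 := stable_le_one zero_le_one (-n + u)
    have a2 := (Real.exp_pos (-(1 * Real.exp (n + u)))).le
    rcases le_abs.1 hn with h | h
    · have a3 : Real.exp (-(1 * Real.exp (-n + u))) ≤ Real.exp (-1) :=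
        Real.exp_le_exp.2 (by linarith [Real.one_le_exp (x := -n + u) (by linarith)])
      simp only [g]; linarith
    · have a3 : Real.exp (-1) ≤ Real.exp (-(1 * Real.exp (n + u))) :=
        Real.exp_le_exp.2 (by linarith [Real.exp_le_one_iff.2 (show n + u ≤ 0 by linarith)])
      simp only [g]; linarith
  have i1 : ∀ a : ℝ, Integrable (fun u => Real.exp (-(1 * Real.exp (a + u)))) (logSt ρ) :=
    fun a => stable_integrable _ (by fun_prop) zero_le_one
  have i2 : ∀ a : ℝ, Integrable (fun u => 1 - Real.exp (-(1 * Real.exp (a + u)))) (logSt ρ) :=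
    fun a => (integrable_const 1).sub (i1 a)
  have hi : ∀ n, Integrable (g n) (logSt ρ) := fun n => ((i1 _).add (i2 _)).const_mul 3
  have hb : ∀ n : ℕ, ∫ u, g n u ∂logSt ρ ≤ 6 * Real.exp (-ρ) ^ n := fun n => by
    simp only [g]
    rw [integral_const_mul, integral_add (i1 _) (i2 _),
      integral_sub (integrable_const 1) (i1 _), stable_shift h0 h1 zero_le_one,
      stable_shift h0 h1 zero_le_one, ← Real.exp_nat_mul, Real.one_rpow, one_mul, one_mul]
    have a1 : Real.exp (-Real.exp (ρ * n)) ≤ Real.exp (n * -ρ) :=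
      Real.exp_le_exp.2 (by linarith [Real.add_one_le_exp (ρ * n)])
    have a2 := Real.add_one_le_exp (-Real.exp (ρ * -n))
    have a3 : Real.exp (ρ * -n) = Real.exp (n * -ρ) := by congr 1; ring
    simp only [integral_const, probReal_univ, smul_eq_mul, mul_one]
    linarith
  have hs : Summable fun n : ℕ => 6 * Real.exp (-ρ) ^ n :=
    (summable_geometric_of_lt_one (Real.exp_pos _).le
      (Real.exp_lt_one_iff.2 (neg_neg_of_pos h0))).mul_left 6
  refine ⟨measurable_id.aestronglyMeasurable, ?_⟩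
  calc ∫⁻ u, ‖u‖ₑ ∂logSt ρ ≤ ∫⁻ u, ∑' n, ENNReal.ofReal (g n u) ∂logSt ρ := by
        refine lintegral_mono fun u => le_trans ?_ (ENNReal.sum_le_tsum (range ⌈|u|⌉₊))
        rw [← ENNReal.ofReal_sum_of_nonneg fun n _ => hg0 n u, Real.enorm_eq_ofReal_abs]
        refine ENNReal.ofReal_le_ofReal ((Nat.le_ceil _).trans ?_)
        have := card_nsmul_le_sum (range ⌈|u|⌉₊) (fun n => g n u) 1
          fun n hn => hg1 n u (Nat.lt_ceil.1 (mem_range.1 hn)).le
        simpa using this
    _ = ∑' n, ENNReal.ofReal (∫ u, g n u ∂logSt ρ) := by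
        rw [lintegral_tsum fun n => (hi n).aemeasurable.ennreal_ofReal]
        exact tsum_congr fun n =>
          (ofReal_integral_eq_lintegral_ofReal (hi n) (Eventually.of_forall (hg0 n))).symm
    _ ≤ ∑' n, ENNReal.ofReal (6 * Real.exp (-ρ) ^ n) :=
        ENNReal.tsum_le_tsum fun n => ENNReal.ofReal_le_ofReal (hb n)
    _ < ⊤ := by
        rw [← ENNReal.ofReal_tsum_of_nonneg (fun n => by positivity) hs]
        exact ENNReal.ofReal_lt_top

lemma cdev_nonneg (ρ : ℝ) : 0 ≤ cdev ρ :=
integral_nonneg fun _ => abs_nonneg _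

end

end Vale.Agent.P166
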