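import Mathlib

/-! P166: the definitions used in the statement. -/

open MeasureTheory ProbabilityTheory Filter Topology Matrix

namespace Vale.Agent.P166

noncomputable section

/-- Ising spin values. -/
def spin (b : Bool) : ℝ := if b then 1 else -1

/-- Haar probability measure of the orthogonal group, as a measure on arrays. -/
def IsHaarO {N : ℕ} (ν : Measure (Fin N → Fin N → ℝ)) : Prop :=
  IsProbabilityMeasure ν ∧ (∀ᵐ U ∂ν, Matrix.of U ∈ Matrix.orthogonalGroup (Fin N) ℝ) ∧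
    ∀ V ∈ Matrix.orthogonalGroup (Fin N) ℝ,
      ν.map (fun (U : Fin N → Fin N → ℝ) (i j : Fin N) => (V * Matrix.of U) i j) = ν

/-- The pressure `P_N(β)` for `J = Uᵀ diag(lam) U`. -/
def pressure {N : ℕ} (β : ℝ) (lam : Fin N → ℝ) (U : Fin N → Fin N → ℝ) : ℝ :=
  (N : ℝ)⁻¹ * Real.log ((2 : ℝ)⁻¹ ^ N * ∑ σ : Fin N → Bool,
    Real.exp (β / 2 * ((fun i => spin (σ i)) ⬝ᵥ
      (((Matrix.of U)ᵀ * Matrix.diagonal lam * Matrix.of U) *ᵥ (fun i => spin (σ i))))))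

/-- Cauchy-Stieltjes transform. -/
def stieltjes (μ : Measure ℝ) (z : ℝ) : ℝ := ∫ x, (z - x)⁻¹ ∂μ

/-- Inverse of the Cauchy-Stieltjes transform to the right of the support (equal to the right
edge once `w` exceeds the value at the edge). -/
def Kinv (μ : Measure ℝ) (w : ℝ) : ℝ := sInf {z | sSup μ.support < z ∧ stieltjes μ z ≤ w}

/-- The (extended) R-transform. -/
def Rtr (μ : Measure ℝ) (w : ℝ) : ℝ := Kinv μ w - w⁻¹

/-- One step of the Parisi recursion. -/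
def gstep (m a : ℝ) (f : ℝ → ℝ) (y : ℝ) : ℝ :=
  if m = 0 then ∫ z, f (y + √a * z) ∂gaussianReal 0 1
  else m⁻¹ * Real.log (∫ z, Real.exp (m * f (y + √a * z)) ∂gaussianReal 0 1)

/-- Parisi recursion through the levels `j, …, j+k-1`, terminal value `log cosh`. -/
def parisi (m a : ℕ → ℝ) : ℕ → ℕ → ℝ → ℝ
  | _, 0 => fun y => Real.log (Real.cosh y)
  | j, k + 1 => gstep (m j) (a j) (parisi m a (j + 1) k)

/-- A finitely supported Parisi measure: mass `m (j+1) - m j` at the point `p j`, `j ≤ r`. -/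
structure Trial where
  r : ℕ
  m : ℕ → ℝ
  p : ℕ → ℝ
  m_zero : m 0 = 0
  m_pos : 0 < m 1
  m_mono : ∀ j ≤ r, m j ≤ m (j + 1)
  m_lt : m r < 1
  m_top : m (r + 1) = 1
  p_nonneg : 0 ≤ p 0
  p_mono : ∀ j < r, p j ≤ p (j + 1)
  p_lt : p r < 1

/-- `∫_q^1 ζ([0,s]) ds`. -/
def Trial.sus (τ : Trial) (q : ℝ) : ℝ :=
  ∑ j ∈ Finset.range (τ.r + 1), (τ.m (j + 1) - τ.m j) * (1 - max q (τ.p j))

/-- Energy term. -/
def Trial.energy (τ : Trial) (β : ℝ) (μ : Measure ℝ) : ℝ :=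
  β / 2 * ∫ q in (0 : ℝ)..1, Rtr μ (β * τ.sus q)

/-- The value whose supremum over field increments `a ≥ 0` is the entropy term. -/
def Trial.ent (τ : Trial) (a : ℕ → ℝ) : ℝ :=
  parisi τ.m a 0 (τ.r + 1) 0 - (∑ l ∈ Finset.range (τ.r + 1), a l) / 2 +
    (∑ j ∈ Finset.range (τ.r + 1),
      (τ.m (j + 1) - τ.m j) * τ.p j * ∑ l ∈ Finset.range (j + 1), a l) / 2

/-- Entropy term. -/
def Trial.entropy (τ : Trial) : ℝ := sSup (τ.ent '' {a | ∀ l, 0 ≤ a l})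

/-- The limiting pressure. -/
def limitP (β : ℝ) (μ : Measure ℝ) : ℝ := ⨅ τ : Trial, (τ.energy β μ + τ.entropy)

/-- The statement. -/
def MainStmt : Prop :=
  ∀ (β : ℝ), 0 < β → ∀ (μ : Measure ℝ) [IsProbabilityMeasure μ], IsCompact μ.support →
  ∀ (lam : (N : ℕ) → Fin N → ℝ),
    (∀ f : BoundedContinuousFunction ℝ ℝ,
      Tendsto (fun N : ℕ => (N : ℝ)⁻¹ * ∑ i, f (lam N i)) atTop (𝓝 (∫ x, f x ∂μ))) →
    Tendsto (fun N => ⨅ i, lam N i) atTop (𝓝 (sInf μ.support)) →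
    Tendsto (fun N => ⨆ i, lam N i) atTop (𝓝 (sSup μ.support)) →
  ∀ (ν : (N : ℕ) → Measure (Fin N → Fin N → ℝ)), (∀ N, IsHaarO (ν N)) →
    Tendsto (fun N => ∫ U, pressure β (lam N) U ∂ν N) atTop (𝓝 (limitP β μ)) ∧
    ∀ ε > 0, Tendsto (fun N => (ν N).real {U | ε < |pressure β (lam N) U - limitP β μ|})
      atTop (𝓝 0)

end

end Vale.Agent.P166
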