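import Vale.Agent.P166.USa
import Vale.Agent.P166.Frame
import Vale.Agent.P166.SeqS
import Vale.Agent.P166.AU

/-! P166 US: the upper bound.
Plan us. By contradiction (not_eventually, and_eventually with N large enough for exists_frame and N >= 1, extraction_of_frequently_atTop gives N i). At N = N i apply us_max with s = N^(3/8), e1 = eps / (2 (t2 - t1) + 1), En t = energy (dmu alpha bb t)
(energy_dm_le both ways). (i) forces t i - t1 >= eps/4 for large N (include this in the eventual condition), (iv) and hLam force a j < Lambda for j <= r. Build Z : Seq K tau.r with N0 = N+1, delta = 1/2, tl = limit of t i along hyperfilter (exists_ulim;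
Nat.hyperfilter_le_atTop transfers the limits; KK is monotone in V and s^2 <= N). au with e = e1/4, delta1 = eps/8 gives delta, e'; se with a tolerance below e'/2 and e1/4; at a suitable i, (ii), (iii) contradict au.
Plan up_G0: induction on the number of values of ell (card of the image); one value: G0_const, energy_dm_const; otherwise t2 = largest value, t1 = second largest, us for the merged colouring (mrg ell t2), induction hypothesis for min ell t1.
Plan up: exists_trial_lt, Trial.coercive with B = L+1, trees b N from exists_err_le, EL_le_G0. -/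

open MeasureTheory ProbabilityTheory Filter Topology Matrix Finset

namespace Vale.Agent.P166

noncomputable section

lemma us_s : ∃ s : ℕ → ℝ, (∀ N : ℕ, 1 ≤ N → 0 < s N ∧ s N ^ 2 ≤ N) ∧
    Tendsto (fun N : ℕ => s N ^ 2 / N) atTop (𝓝 0) ∧
    Tendsto (fun N : ℕ => √((N + 1 : ℕ) : ℝ) / s N ^ 2) atTop (𝓝 0) := by
  have hw : Tendsto (fun N : ℕ => (√(√(N : ℝ)))⁻¹) atTop (𝓝 0) :=
    tendsto_inv_atTop_zero.comp (Real.tendsto_sqrt_atTop.comp
      (Real.tendsto_sqrt_atTop.comp tendsto_natCast_atTop_atTop))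
  have h1 : ∀ N : ℕ, √(√(√(N : ℝ)) ^ 3) ^ 2 = √(√(N : ℝ)) ^ 3 := fun N =>
    Real.sq_sqrt (by positivity)
  have h2 : ∀ N : ℕ, √(√(N : ℝ)) ^ 4 = N := fun N => by
    rw [show 4 = 2 * 2 from rfl, pow_mul, Real.sq_sqrt (Real.sqrt_nonneg _),
      Real.sq_sqrt (Nat.cast_nonneg _)]
  have h3 : ∀ N : ℕ, 1 ≤ N → 1 ≤ √(√(N : ℝ)) := fun N hN =>
    Real.one_le_sqrt.2 (Real.one_le_sqrt.2 (by exact_mod_cast hN))
  refine ⟨fun N => √(√(√(N : ℝ)) ^ 3), fun N hN => ⟨?_, ?_⟩, ?_, ?_⟩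
  · have := h3 N hN
    positivity
  · rw [h1]
    exact (pow_le_pow_right₀ (h3 N hN) (by norm_num)).trans (h2 N).le
  · refine hw.congr' ((eventually_ge_atTop 1).mono fun N hN => ?_)
    have h4 := h3 N hN
    have h5 := h2 N
    simp only [h1]
    generalize √(√(N : ℝ)) = w at *
    rw [← h5]
    field_simp
  · refine squeeze_zero' (Eventually.of_forall fun N => by positivity)
      ((eventually_ge_atTop 1).mono fun N hN => ?_) (by simpa using hw.const_mul 2)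
    have h4 := h3 N hN
    have h5 := h2 N
    have h6 : √((N + 1 : ℕ) : ℝ) ≤ 2 * √(√(N : ℝ)) ^ 2 := by
      refine Real.sqrt_le_iff.2 ⟨by positivity, ?_⟩
      have h7 : (1 : ℝ) ≤ N := by exact_mod_cast hN
      rw [mul_pow, ← pow_mul, h5]
      push_cast
      linarith
    simp only [h1]
    generalize √(√(N : ℝ)) = w at *
    rw [div_le_iff₀ (by positivity)]
    refine h6.trans (le_of_eq ?_)
    field_simp

lemma us_KK (n : ℕ) {V V' : ℝ} (h : V ≤ V') : KK n V 0 ≤ KK n V' 0 := by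
  unfold KK
  gcongr

lemma us_KK0 (n : ℕ) (V : ℝ) : 0 ≤ KK n V 0 := by
  unfold KK
  positivity

lemma us_err {r : ℕ} {Λ m : ℝ} {b : ℕ → ℕ → ℕ} (hm : 0 < m)
    (hb' : Tendsto (fun N : ℕ => err (b N) 1 r * KK (2 ^ N) (Λ * N + 6 * N) 0) atTop (𝓝 0))
    {ε : ℝ} (hε : 0 < ε) : ∀ᶠ N : ℕ in atTop, err (b N) 1 r * KK (2 ^ N) (Λ * N) 0 / m ≤ ε := by
  filter_upwards [hb'.eventually (ge_mem_nhds (mul_pos hε hm))] with N hN
  rw [div_le_iff₀ hm]
  exact (mul_le_mul_of_nonneg_left (us_KK _ (le_add_of_nonneg_right (by positivity)))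
    (err_nonneg _ _)).trans hN

lemma us_lip {K : Type} [Fintype K] (τ : Trial) {α : Option K → ℝ} (bb : K → ℝ)
    (h0 : ∀ o, 0 < α o) (h1 : ∑ o, α o = 1) (t t' : ℝ) :
    |τ.energy 1 (dmu α bb t) - τ.energy 1 (dmu α bb t')| ≤ |t - t'| / 2 := by
  have h2 : ∀ t t', τ.energy 1 (dmu α bb t) ≤ τ.energy 1 (dmu α bb t') + |t - t'| / 2 :=
    fun t t' => energy_dm_le h0 h1 (fun o => by
      cases o with
      | none => exact sub_le_iff_le_add'.1 (le_abs_self _)
      | some k => exact le_add_of_nonneg_right (abs_nonneg _)) τ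
  have h3 := h2 t t'
  have h4 := h2 t' t
  rw [abs_sub_comm] at h4
  rw [abs_le]
  constructor <;> linarith

/-- the contradiction along a sequence -/
lemma us_seq {K : Type} [Fintype K] [DecidableEq K] (τ : Trial) (Z : Seq K τ.r) (hm : Z.m = τ.m)
    {e1 ρ : ℝ} (he : 0 < e1) (hρ : 0 < ρ) (hN : ∀ i, 1 ≤ Z.N i)
    (h2 : ∀ i, ∀ δ > 0, δ ≤ ρ → Z.N i * (τ.energy 1 (dmu Z.α Z.bb (Z.t i)) -
      τ.energy 1 (dmu Z.α Z.bb (Z.t i - δ)) + e1 * δ) ≤
        δ / 2 * Z.Av i (Z.S i) 1 fun U c => ∑ x ∈ blk (Z.c i) none, yv U (c 0).1 x ^ 2)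
    (h3 : ∀ i, ∀ j ≤ τ.r, Z.N i * tail τ.r τ.m τ.p j ≤ Z.Av i (Z.S i) 2 fun U c =>
      (if j ≤ lev 1 τ.r (c 0).2 (c 1).2 then 1 else 0) * (Z.S i).Q U (c 0).1 (c 1).1) : False := by
  obtain ⟨δ, hδ, e', he', hau⟩ := au τ ⟨Z.α_pos, Z.α_sum, fun k => (Z.bb_lt k).le⟩ Z.bb_lt
    (e := e1 / 4) (by positivity) hρ
  obtain ⟨π, p1, p2, p3⟩ := Z.se (e := min e' (e1 / 4)) (by positivity)
  have hN' : ∀ i, (0 : ℝ) < Z.N i := fun i => by exact_mod_cast hN i
  obtain ⟨i, q1, q2⟩ := (p2.and (Z.t_lim.eventually (Metric.closedBall_mem_nhds _ he'))).exists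
  have q3 := hau (Z.t i) q2 π (p1.trans (min_le_left _ _)) fun j hj => by
    obtain ⟨j', a1, a2, a3⟩ := p3 j hj
    obtain ⟨i', a4⟩ := a3.exists
    refine ⟨j', a1, a2.trans (congrFun hm j), ?_⟩
    have a5 := (le_div_iff₀' (hN' i')).2 (h3 i' j hj)
    linarith [(abs_le.1 a4).2, min_le_left e' (e1 / 4)]
  have q4 := (le_div_iff₀' (hN' i)).2 (h2 i δ hδ.1 hδ.2)
  rw [mul_div_assoc] at q4
  have q5 := mul_le_mul_of_nonneg_left ((abs_le.1 q1).2.trans (min_le_right _ _)) hδ.1.le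
  nlinarith [mul_pos he hδ.1]

theorem us {K : Type} [Fintype K] [DecidableEq K] (τ : Trial) {α : Option K → ℝ} {bb : K → ℝ}
    {t1 t2 L Λ : ℝ} (h : Sp α bb t1) (h12 : t1 ≤ t2) (hb : ∀ k, |bb k| ≤ L) (h1 : |t1| ≤ L)
    (h2 : |t2| ≤ L) (hΛ0 : 0 < Λ)
    (hΛ : ∀ a : ℕ → ℝ, (∀ l, 0 ≤ a l) → (∃ j ≤ τ.r, Λ ≤ a j) → τ.ent a < -(L + 1))
    (c : ∀ N, Fin N → Option K)
    (hc : ∀ o, Tendsto (fun N => ((blk (c N) o).card : ℝ) / N) atTop (𝓝 (α o))) (b : ℕ → ℕ → ℕ)
    (hb' : Tendsto (fun N : ℕ => err (b N) 1 τ.r * KK (2 ^ N) (Λ * N + 6 * N) 0) atTop (𝓝 0))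
    {ε : ℝ} (hε : 0 < ε) :
    ∀ᶠ N : ℕ in atTop, G0 τ Λ (b N) N (ev bb t2 (c N)) - N * τ.energy 1 (dmu α bb t2) ≤
      G0 τ Λ (b N) N (ev bb t1 (c N)) - N * τ.energy 1 (dmu α bb t1) + ε * N := by
  obtain ⟨s, hs1, hs2, hs3⟩ := us_s
  have hd : 0 < 2 * (t2 - t1) + 1 := by linarith
  obtain ⟨e1, he1⟩ : ∃ e1, e1 = ε / (2 * (t2 - t1) + 1) := ⟨_, rfl⟩
  have he : 0 < e1 := he1 ▸ div_pos hε hd
  have he' : e1 * (t2 - t1) ≤ ε / 2 := by
    rw [he1, div_mul_eq_mul_div, div_le_iff₀ hd]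
    nlinarith
  have hA : (0 : ℝ) < 3 * τ.r + 5 := by positivity
  have E1 : ∀ᶠ N : ℕ in atTop, ∀ o, Fintype.card (Fr K) ≤ (blk (c N) o).card := by
    refine eventually_all.2 fun o => ?_
    have h3 := ((hc o).pos_mul_atTop (h.pos o) tendsto_natCast_atTop_atTop).eventually_ge_atTop
      (Fintype.card (Fr K) : ℝ)
    filter_upwards [h3, eventually_ge_atTop 1] with N h4 h5
    rw [div_mul_cancel₀ _ (by exact_mod_cast (by omega : N ≠ 0))] at h4
    exact_mod_cast h4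
  have E2 := hs2.eventually (ge_mem_nhds (div_pos (lt_min (by positivity : 0 < ε / 4)
    (by norm_num : (0 : ℝ) < 1 / 2)) hA))
  have E3 := us_err τ.m_pos hb' (by norm_num : (0 : ℝ) < 1 / 4)
  by_contra hcon
  obtain ⟨φ, hφ, hP⟩ := extraction_of_frequently_atTop ((not_eventually.1 hcon).and_eventually
    ((eventually_ge_atTop 1).and (E1.and (E2.and E3))))
  have hN : ∀ i, (1 : ℝ) ≤ φ i := fun i => by exact_mod_cast (hP i).2.1
  choose e he2 using fun i => exists_frame (c (φ i)) (hP i).2.2.1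
  choose t ht P p1 p2 p3 p4 p5 p6 p7 p8 p9 using fun i => us_max τ h12 hb h1 h2 hΛ0.le
    (hs1 _ (hP i).2.1).1 he.le (us_lip τ bb h.pos h.sum) (b (φ i)) (c (φ i))
    (by simp : Fintype.card (Fin (φ i)) ≤ φ i + 1)
  have hs4 : ∀ i, (3 * τ.r + 5) * s (φ i) ^ 2 ≤ min (ε / 4) (1 / 2) * φ i := fun i => by
    have h3 := (hP i).2.2.2.1
    rwa [div_le_div_iff₀ (by linarith [hN i]) hA, mul_comm] at h3
  have ht1 : ∀ i, t1 + ε / 4 ≤ t i := fun i => by
    have h3 := not_le.1 (hP i).1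
    have h4 := p6 i
    have h5 := (hs4 i).trans (mul_le_mul_of_nonneg_right (min_le_left _ _) (Nat.cast_nonneg _))
    have h6 := mul_le_mul_of_nonneg_left he' (Nat.cast_nonneg (α := ℝ) (φ i))
    by_contra h7
    have h8 := mul_le_mul_of_nonneg_left (not_le.1 h7).le (Nat.cast_nonneg (α := ℝ) (φ i))
    linarith
  have ha : ∀ i, ∀ j ≤ τ.r, (P i).a j < Λ := fun i j hj => by
    by_contra h3
    have h4 := hΛ _ (p1 i).a_nonneg ⟨j, hj, not_lt.1 h3⟩
    have h5 := (hs4 i).trans (mul_le_mul_of_nonneg_right (min_le_right _ _) (Nat.cast_nonneg _))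
    have h6 := mul_lt_mul_of_pos_left h4 (by linarith [hN i] : (0 : ℝ) < φ i)
    linarith [p9 i, (hP i).2.2.2.2, hN i]
  obtain ⟨tl, -, htl⟩ := exists_ulim (u := t) (B := L) fun i => abs_le.2
    ⟨(abs_le.1 h1).1.trans (ht i).1, (ht i).2.trans (abs_le.1 h2).2⟩
  have hf : Tendsto φ (hyperfilter ℕ) atTop :=
    hφ.tendsto_atTop.mono_left Nat.hyperfilter_le_atTop
  refine us_seq τ
    { m := τ.m
      mok := τ.mok
      α := α
      α_pos := h.pos
      α_sum := h.sum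
      bb := bb
      t := t
      tl := tl
      t_lim := htl
      bb_lt := fun k => by linarith [h.le k, ge_of_tendsto' htl ht1]
      bb_le := fun i k => (h.le k).trans (ht i).1
      N := φ
      N0 := fun i => φ i + 1
      c := fun i => c (φ i)
      frac := fun o => (hc o).comp hf
      hN := fun i => le_rfl
      δ := 1 / 2
      δ_pos := by norm_num
      hδ := fun i => by
        push_cast
        linarith [hN i]
      N0_lim := (tendsto_add_atTop_nat 1).comp hf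
      b := fun i => b (φ i)
      P := P
      ok := p1
      Λ := Λ
      a_le := p4
      M_lim := hf.congr fun i => (p3 i).symm
      s_pos := fun i => p2 i ▸ (hs1 _ (hP i).2.1).1
      s_small := squeeze_zero (fun i => by positivity) (fun i => by
        rw [p2]
        exact div_le_div_of_nonneg_left (sq_nonneg _) (by linarith [hN i])
          (Nat.cast_le.2 (Nat.le_succ _))) (hs2.comp hf)
      s_big := (hs3.comp hf).congr fun i => by rw [p2]; rfl
      err_lim := squeeze_zero (fun i => mul_nonneg (err_nonneg _ _) (us_KK0 _ _)) (fun i => by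
        refine mul_le_mul_of_nonneg_left (us_KK _ ?_) (err_nonneg _ _)
        rw [p2]
        linarith [(hs1 _ (hP i).2.1).2]) (hb'.comp hf)
      e := e
      e_col := he2
      flat := p5 } rfl he (ρ := ε / 4) (by positivity) (fun i => (hP i).2.1)
    (fun i δ d1 d2 => p7 i δ d1 (by linarith [ht1 i])) fun i j hj => p8 i j hj (ha i j hj)

variable {J : Type} [Fintype J] [DecidableEq J] {α : J → ℝ}

theorem up_G0 (τ : Trial) (h0 : ∀ j, 0 < α j) (h1 : ∑ j, α j = 1) {L Λ : ℝ} (hΛ0 : 0 < Λ)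
    (hΛ : ∀ a : ℕ → ℝ, (∀ l, 0 ≤ a l) → (∃ j ≤ τ.r, Λ ≤ a j) → τ.ent a < -(L + 1))
    (c : ∀ N, Fin N → J) (hc : ∀ j, Tendsto (fun N => (cnt (c N) j : ℝ) / N) atTop (𝓝 (α j)))
    (b : ℕ → ℕ → ℕ)
    (hb' : Tendsto (fun N : ℕ => err (b N) 1 τ.r * KK (2 ^ N) (Λ * N + 6 * N) 0) atTop (𝓝 0))
    (ℓ : J → ℝ) (hℓ : ∀ j, |ℓ j| ≤ L) {ε : ℝ} (hε : 0 < ε) :
    ∀ᶠ N : ℕ in atTop, G0 τ Λ (b N) N (fun i => ℓ (c N i)) ≤
      N * (Real.log 2 + τ.energy 1 (dm α ℓ) + τ.entropy + ε) := by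
  classical
  have := nonempty_of_sum h1
  obtain ⟨n, hn⟩ : ∃ n, (univ.image ℓ).card ≤ n := ⟨_, le_rfl⟩
  induction n generalizing ℓ ε with
  | zero => exact absurd hn (not_le.2 (univ_nonempty.image ℓ).card_pos)
  | succ n ih =>
    obtain ⟨j2, -, hj2⟩ := exists_max_image univ ℓ univ_nonempty
    by_cases hc2 : (univ.filter fun j => ℓ j < ℓ j2).Nonempty
    · obtain ⟨j1, hj1, hj1'⟩ := exists_max_image _ ℓ hc2
      have h12 : ℓ j1 < ℓ j2 := (mem_filter.1 hj1).2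
      have e2 : (fun j => if ℓ j < ℓ j2 then ℓ j else ℓ j2) = ℓ := funext fun j => by
        split_ifs with h
        · rfl
        · exact le_antisymm (not_lt.1 h) (hj2 j (mem_univ j))
      have k1 := us τ (α := mrgW α ℓ (ℓ j2)) (bb := fun k : Low ℓ (ℓ j2) => ℓ k.1)
        ⟨mrgW_pos h0 ⟨j2, le_rfl⟩, (sum_mrgW α ℓ _).trans h1,
          fun k => hj1' k.1 (mem_filter.2 ⟨mem_univ _, k.2⟩)⟩ h12.le (fun k => hℓ k.1) (hℓ j1)
        (hℓ j2) hΛ0 hΛ (fun N i => mrg ℓ (ℓ j2) (c N i)) (frac_mrg ℓ _ c hc) b hb' (half_pos hε)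
      have k2 := ih (fun j => if ℓ j < ℓ j2 then ℓ j else ℓ j1)
        (fun j => by split_ifs; exacts [hℓ j, hℓ j1]) (half_pos hε) (by
          have k3 : (univ.image fun j => if ℓ j < ℓ j2 then ℓ j else ℓ j1) ⊆
              (univ.image ℓ).erase (ℓ j2) := by
            refine image_subset_iff.2 fun j _ => ?_
            split_ifs with h
            · exact mem_erase.2 ⟨h.ne, mem_image_of_mem _ (mem_univ _)⟩
            · exact mem_erase.2 ⟨h12.ne, mem_image_of_mem _ (mem_univ _)⟩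
          have k4 := card_le_card k3
          rw [card_erase_of_mem (mem_image_of_mem _ (mem_univ _))] at k4
          omega)
      filter_upwards [k1, k2] with N a1 a2
      rw [dmu_mrg h0, dmu_mrg h0, e2, funext (ev_mrg ℓ (ℓ j2) (ℓ j2) (c N)),
        funext (ev_mrg ℓ (ℓ j2) (ℓ j1) (c N)), funext fun i => congrFun e2 (c N i)] at a1
      linarith
    · have e2 : ℓ = fun _ => ℓ j2 := funext fun j => le_antisymm (hj2 j (mem_univ j))
        (not_lt.1 fun h => hc2 ⟨j, mem_filter.2 ⟨mem_univ _, h⟩⟩)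
      filter_upwards [us_err τ.m_pos hb' hε, eventually_ge_atTop 1] with N a1 a2
      have a3 := G0_const τ hΛ0.le (b N) N (ℓ j2)
      have a4 : ε ≤ N * ε := le_mul_of_one_le_left hε.le (by exact_mod_cast a2)
      rw [e2, energy_dm_const h0 h1]
      linarith

theorem up (h0 : ∀ j, 0 < α j) (h1 : ∑ j, α j = 1) (ℓ : J → ℝ) (c : ∀ N, Fin N → J)
    (hc : ∀ j, Tendsto (fun N => (cnt (c N) j : ℝ) / N) atTop (𝓝 (α j))) {ε : ℝ} (hε : 0 < ε) :
    ∀ᶠ N : ℕ in atTop, EL (Fin N) (fun i => ℓ (c N i)) ≤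
      N * (Real.log 2 + limitP 1 (dm α ℓ) + ε) := by
  obtain ⟨τ, hτ⟩ := exists_trial_lt (dm α ℓ) (half_pos hε)
  obtain ⟨Λ, hΛ0, hΛ⟩ := τ.coercive (∑ j, |ℓ j| + 1)
  have hK : ∀ N : ℕ, 0 < KK (2 ^ N) (Λ * N + 6 * N) 0 := fun N => by
    unfold KK
    positivity
  choose b hb using fun N : ℕ => exists_err_le 1 τ.r
    (ε := (1 / ((N : ℝ) + 1)) / KK (2 ^ N) (Λ * N + 6 * N) 0) (div_pos (by positivity) (hK N))
  filter_upwards [up_G0 τ h0 h1 hΛ0 hΛ c hc b (squeeze_zero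
    (fun N => mul_nonneg (err_nonneg _ _) (hK N).le) (fun N => (le_div_iff₀ (hK N)).1 (hb N))
    tendsto_one_div_add_atTop_nhds_zero_nat) ℓ (fun j => single_le_sum (f := fun j => |ℓ j|)
      (fun _ _ => abs_nonneg _) (mem_univ j)) (half_pos hε)] with N hN
  exact ((EL_le_G0 τ hΛ0.le (b N) N _).trans hN).trans
    (mul_le_mul_of_nonneg_left (by linarith) (Nat.cast_nonneg _))

end

end Vale.Agent.P166
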