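import Vale.Agent.P166.Defs2
import Vale.Agent.P166.Cont
import Vale.Agent.P166.Th
import Vale.Agent.P166.Alg2

/-! P166 USa: one stage of the upper bound at finite N (a maximisation).
Plan. Gv_eq: ent_eq, entv. bddAbove: F_mono to constant eigenvalues, end0, or F_lip on the box. us_max: Psi (t,a,x0,x) = F(ev bb t c; a, s, N, x0, x) + N lin a - pen - N (En t + e1 t) is continuous on the compact set [t1,t2] x (product of [0,Lambda]) x box
(YD.F_lip, isCompact_univ_pi, isCompact_box; only a l with l <= r matter); take a maximiser. Flat: RM.flat_of_isMax. (i) compare with (t2, a, mid) for every a (F_pert, pen_mid, csSup_le) and move t to t1 (F_lip with eta = t - t1, F_pert, pen_nonneg, le_csSup).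
(ii) compare with t - delta and use F_tangent (hY (ev (t - delta)) - hY (ev t) = - delta/2 * top block sum). (iii) compare with a + c e_j, F_da, let c -> 0. (iv) compare with (t, 0, mid), F_mono to the constant eigenvalues L and -L, F_pert, end0, parisi_zero. -/

open MeasureTheory ProbabilityTheory Filter Topology Matrix Finset

namespace Vale.Agent.P166

noncomputable section

variable {K : Type} [Fintype K] [DecidableEq K]

/-- linear part of the entropy functional -/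
def lin (τ : Trial) (a : ℕ → ℝ) : ℝ :=
  (∑ l ∈ range (τ.r + 1), a l * (tail τ.r τ.m τ.p l - 1)) / 2

lemma ent_sub_parisi (τ : Trial) (a : ℕ → ℝ) :
    τ.ent a - parisi τ.m a 0 (τ.r + 1) 0 = lin τ a := by
  rw [τ.ent_eq, entv, lin]
  simp only [mul_sub, sum_sub_distrib, mul_one]
  ring

lemma usa_Gv (τ : Trial) (b : ℕ → ℕ) (N : ℕ) (bb : Fin N → ℝ) (a : ℕ → ℝ) :
    Gv τ b N bb a = ((YO (Fin N)).rm bb ∅ N (by simp)).F τ.r b τ.m (Pr0 a) - Z0 τ.r b τ.m +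
      N * lin τ a := by
  rw [Gv, ent_sub_parisi]

lemma usa_Gv_le (τ : Trial) {Λ L : ℝ} (b : ℕ → ℕ) {N : ℕ} {bb : Fin N → ℝ} (h : ∀ i, bb i ≤ L)
    {a : ℕ → ℝ} (ha : ∀ l, a l ∈ Set.Icc 0 Λ) :
    Gv τ b N bb a ≤ N * (Real.log 2 + L / 2 + τ.ent a) +
      err b 1 τ.r * KK (2 ^ N) (Λ * N) 0 / τ.m 1 := by
  have h1 := (YO (Fin N)).F_mono (b := b) τ.mok (Pr0_ok fun l => (ha l).1) (bb' := fun _ => L) h ∅
    (N0 := N) (by simp)
  have h2 := (abs_le.1 (end0 (b := b) (ι := Fin N) τ.mok ha L ∅ (N0 := N) (by simp))).2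
  simp only [Fintype.card_fin] at h2
  rw [Gv]
  linarith

lemma usa_le_Gv (τ : Trial) {Λ L : ℝ} (b : ℕ → ℕ) {N : ℕ} {bb : Fin N → ℝ} (h : ∀ i, L ≤ bb i)
    {a : ℕ → ℝ} (ha : ∀ l, a l ∈ Set.Icc 0 Λ) :
    N * (Real.log 2 + L / 2 + τ.ent a) - err b 1 τ.r * KK (2 ^ N) (Λ * N) 0 / τ.m 1 ≤
      Gv τ b N bb a := by
  have h1 := (YO (Fin N)).F_mono (b := b) τ.mok (Pr0_ok fun l => (ha l).1) (bb := fun _ => L) h ∅
    (N0 := N) (by simp)
  have h2 := (abs_le.1 (end0 (b := b) (ι := Fin N) τ.mok ha L ∅ (N0 := N) (by simp))).1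
  simp only [Fintype.card_fin] at h2
  rw [Gv]
  linarith

lemma bddAbove_Gv (τ : Trial) (Λ : ℝ) (b : ℕ → ℕ) (N : ℕ) (bb : Fin N → ℝ) :
    BddAbove (Gv τ b N bb '' {a | ∀ l, a l ∈ Set.Icc 0 Λ}) := by
  refine ⟨N * (Real.log 2 + (∑ i, |bb i|) / 2 + τ.entropy) +
    err b 1 τ.r * KK (2 ^ N) (Λ * N) 0 / τ.m 1, ?_⟩
  rintro _ ⟨a, ha, rfl⟩
  refine (usa_Gv_le τ b (L := ∑ i, |bb i|) (fun i => (le_abs_self _).trans
    (single_le_sum (f := fun i => |bb i|) (fun _ _ => abs_nonneg _) (mem_univ i))) ha).trans ?_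
  have := mul_le_mul_of_nonneg_left (τ.ent_le_entropy fun l => (ha l).1) (Nat.cast_nonneg N)
  linarith

lemma usa_lin_zero (τ : Trial) : lin τ (fun _ => 0) = 0 := by simp [lin]

lemma EL_le_G0 (τ : Trial) {Λ : ℝ} (hΛ : 0 ≤ Λ) (b : ℕ → ℕ) (N : ℕ) (bb : Fin N → ℝ) :
    EL (Fin N) bb ≤ G0 τ Λ b N bb := by
  refine le_csSup (bddAbove_Gv τ Λ b N bb) ⟨fun _ => 0, fun _ => ⟨le_rfl, hΛ⟩, ?_⟩
  rw [usa_Gv, F_eq_EL τ.mok, usa_lin_zero]
  ring

lemma G0_const (τ : Trial) {Λ : ℝ} (hΛ : 0 ≤ Λ) (b : ℕ → ℕ) (N : ℕ) (t0 : ℝ) :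
    G0 τ Λ b N (fun _ => t0) ≤ N * (Real.log 2 + t0 / 2 + τ.entropy) +
      err b 1 τ.r * KK (2 ^ N) (Λ * N) 0 / τ.m 1 := by
  refine csSup_le ⟨_, fun _ => 0, fun _ => ⟨le_rfl, hΛ⟩, rfl⟩ ?_
  rintro _ ⟨a, ha, rfl⟩
  refine (usa_Gv_le τ b (L := t0) (fun _ => le_rfl) ha).trans ?_
  have := mul_le_mul_of_nonneg_left (τ.ent_le_entropy fun l => (ha l).1) (Nat.cast_nonneg N)
  linarith

omit [Fintype K] [DecidableEq K] in
lemma usa_ev_sub {ι : Type} (bb : K → ℝ) (t t' : ℝ) (c : ι → Option K) (i : ι) :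
    |ev bb t c i - ev bb t' c i| ≤ |t - t'| := by
  unfold ev
  cases c i with
  | none => exact le_rfl
  | some k => simp

omit [Fintype K] [DecidableEq K] in
lemma usa_ev_abs {ι : Type} {bb : K → ℝ} {t L : ℝ} (hb : ∀ k, |bb k| ≤ L) (ht : |t| ≤ L)
    (c : ι → Option K) (i : ι) : |ev bb t c i| ≤ L := by
  unfold ev
  cases c i with
  | none => exact ht
  | some k => exact hb k

omit [Fintype K] in
lemma usa_hY {ι : Type} [Fintype ι] (bb : K → ℝ) (t δ : ℝ) (c : ι → Option K) (y : ι → ℝ) :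
    hY (ev bb (t - δ) c) y - hY (ev bb t c) y = -(δ / 2) * ∑ i ∈ blk c none, y i ^ 2 := by
  rw [hY, hY, ← sub_div, ← sum_sub_distrib, blk, sum_filter, mul_sum, sum_div]
  refine sum_congr rfl fun i _ => ?_
  unfold ev
  cases c i with
  | none => simp; ring
  | some k => simp

lemma usa_lin_update (τ : Trial) (a : ℕ → ℝ) {j : ℕ} (hj : j ≤ τ.r) (c : ℝ) :
    lin τ (Function.update a j (a j + c)) = lin τ a + c * (tail τ.r τ.m τ.p j - 1) / 2 := by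
  have e : ∀ l, Function.update a j (a j + c) l * (tail τ.r τ.m τ.p l - 1) =
      a l * (tail τ.r τ.m τ.p l - 1) + if l = j then c * (tail τ.r τ.m τ.p j - 1) else 0 := by
    intro l
    by_cases h : l = j
    · subst h
      rw [Function.update_self, if_pos rfl, add_mul]
    · rw [Function.update_of_ne h, if_neg h, add_zero]
  simp only [lin, e, sum_add_distrib, sum_ite_eq', mem_range, Nat.lt_succ_iff, hj, if_true]
  ring

omit [Fintype K] in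
lemma usa_exists (τ : Trial) (bb : K → ℝ) {t1 t2 Λ : ℝ} (s : ℝ) (h12 : t1 ≤ t2) (hΛ : 0 ≤ Λ)
    {W : ℝ → ℝ} (hW : Continuous W) (b : ℕ → ℕ) {N : ℕ} (c : Fin N → Option K)
    (hN : Fintype.card (Fin N) ≤ N + 1) :
    ∃ t ∈ Set.Icc t1 t2, ∃ a : ℕ → ℝ, (∀ l, a l ∈ Set.Icc 0 Λ) ∧ ∃ x0 x, InBox x0 x ∧
      ∀ t' ∈ Set.Icc t1 t2, ∀ a' : ℕ → ℝ, (∀ l, a' l ∈ Set.Icc 0 Λ) → ∀ x0' x', InBox x0' x' →
        ((YO (Fin N)).rm (ev bb t' c) (blk c none) (N + 1) hN).F τ.r b τ.m ⟨a', s, N, x0', x'⟩ +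
          N * lin τ a' - pen τ.r N s x0' x' - W t' ≤
        ((YO (Fin N)).rm (ev bb t c) (blk c none) (N + 1) hN).F τ.r b τ.m ⟨a, s, N, x0, x⟩ +
          N * lin τ a - pen τ.r N s x0 x - W t := by
  let S : Set (ℝ × (ℕ → ℝ) × ℝ × (ℕ × ℕ → ℝ)) :=
    Set.Icc t1 t2 ×ˢ (Set.univ.pi fun _ => Set.Icc 0 Λ) ×ˢ {z | InBox z.1 z.2}
  have hS : IsCompact S :=
    isCompact_Icc.prod ((isCompact_univ_pi fun _ => isCompact_Icc).prod isCompact_box)
  have ok : ∀ z ∈ S, Pr.Ok ⟨z.2.1, s, N, z.2.2.1, z.2.2.2⟩ := fun z hz =>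
    ⟨fun l => (hz.2.1 l trivial).1, hz.2.2⟩
  have h1 : ContinuousOn (fun z : ℝ × (ℕ → ℝ) × ℝ × (ℕ × ℕ → ℝ) =>
      ((YO (Fin N)).rm (ev bb z.1 c) (blk c none) (N + 1) hN).F τ.r b τ.m
        ⟨z.2.1, s, N, z.2.2.1, z.2.2.2⟩) S := fun z0 h0 => by
    have h2 : Continuous fun z : ℝ × (ℕ → ℝ) × ℝ × (ℕ × ℕ → ℝ) =>
        |z.1 - z0.1| * Fintype.card (Fin N) / 2 + pdist τ.r (Fintype.card (Fin N))
          ⟨z.2.1, s, N, z.2.2.1, z.2.2.2⟩ ⟨z0.2.1, s, N, z0.2.2.1, z0.2.2.2⟩ := by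
      simp only [pdist]
      fun_prop
    have h3 := (h2.tendsto' z0 0 (by simp [pdist])).mono_left (nhdsWithin_le_nhds (s := S))
    refine tendsto_iff_dist_tendsto_zero.2 (squeeze_zero' (Eventually.of_forall fun _ => dist_nonneg)
      ?_ h3)
    filter_upwards [self_mem_nhdsWithin] with z hz
    exact (YO (Fin N)).F_lip τ.mok (ok z hz) (ok z0 h0) rfl rfl (usa_ev_sub bb _ _ c) _ hN
  have h2 : Continuous fun z : ℝ × (ℕ → ℝ) × ℝ × (ℕ × ℕ → ℝ) => N * lin τ z.2.1 := by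
    simp only [lin]
    fun_prop
  have h3 : Continuous fun z : ℝ × (ℕ → ℝ) × ℝ × (ℕ × ℕ → ℝ) => pen τ.r N s z.2.2.1 z.2.2.2 :=
    (continuous_pen τ.r N s).comp (continuous_snd.comp continuous_snd)
  obtain ⟨z, hz, h4⟩ := hS.exists_isMaxOn
    ⟨(t1, fun _ => 0, 1, fun _ => 1), ⟨le_rfl, h12⟩, fun _ _ => ⟨le_rfl, hΛ⟩,
      ⟨le_rfl, one_le_two⟩, fun _ => ⟨le_rfl, one_le_two⟩⟩
    (((h1.add h2.continuousOn).sub h3.continuousOn).sub (hW.comp continuous_fst).continuousOn)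
  exact ⟨z.1, hz.1, z.2.1, fun l => hz.2.1 l trivial, z.2.2.1, z.2.2.2, hz.2.2,
    fun t' ht' a' ha' x0' x' hx' => h4 (a := (t', a', x0', x')) ⟨ht', fun l _ => ha' l, hx'⟩⟩

lemma usa_mid : InBox (3 / 2) fun _ => 3 / 2 :=
  ⟨⟨by norm_num, by norm_num⟩, fun _ => ⟨by norm_num, by norm_num⟩⟩

lemma usa_lim {X C d : ℝ} (hd : 0 < d) (h : ∀ c, 0 < c → c < d → c * X ≤ C * (c * √c)) :
    X ≤ 0 := by
  have h1 : Tendsto (fun c : ℝ => C * √c) (𝓝[>] 0) (𝓝 0) :=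
    ((continuous_const.mul Real.continuous_sqrt).tendsto' 0 0 (by simp)).mono_left
      nhdsWithin_le_nhds
  refine ge_of_tendsto h1 ?_
  filter_upwards [Ioo_mem_nhdsGT hd] with c hc
  refine le_of_mul_le_mul_left ?_ hc.1
  linarith [h c hc.1 hc.2]

theorem us_max (τ : Trial) {bb : K → ℝ} {t1 t2 L Λ s e1 : ℝ} (h12 : t1 ≤ t2)
    (hb : ∀ k, |bb k| ≤ L) (h1 : |t1| ≤ L) (h2 : |t2| ≤ L) (hΛ : 0 ≤ Λ) (hs : 0 < s) (he1 : 0 ≤ e1)
    {En : ℝ → ℝ} (hE : ∀ t t', |En t - En t'| ≤ |t - t'| / 2) (b : ℕ → ℕ) {N : ℕ}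
    (c : Fin N → Option K) (hN : Fintype.card (Fin N) ≤ N + 1) :
    ∃ t ∈ Set.Icc t1 t2, ∃ P : Pr, P.Ok ∧ P.s = s ∧ P.M = N ∧ (∀ l, P.a l ≤ Λ) ∧
      Flat τ.r P.M P.s (fun x0 x => ((YO (Fin N)).rm (ev bb t c) (blk c none) (N + 1) hN).F τ.r b τ.m
        (P.wx x0 x)) P.x0 P.x 0 ∧
      G0 τ Λ b N (ev bb t2 c) - N * En t2 - N * e1 * (t2 - t1) ≤
        G0 τ Λ b N (ev bb t1 c) - N * En t1 + (3 * τ.r + 5) * s ^ 2 + N * (t - t1) ∧
      (∀ δ > 0, t1 ≤ t - δ → N * (En t - En (t - δ) + e1 * δ) ≤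
        δ / 2 * ((YO (Fin N)).rm (ev bb t c) (blk c none) (N + 1) hN).A τ.r b τ.m P 1
          fun U x => ∑ y ∈ blk c none, yv U (x 0).1 y ^ 2) ∧
      (∀ j ≤ τ.r, P.a j < Λ → N * tail τ.r τ.m τ.p j ≤
        ((YO (Fin N)).rm (ev bb t c) (blk c none) (N + 1) hN).A τ.r b τ.m P 2
          fun U x => (if j ≤ lev 1 τ.r (x 0).2 (x 1).2 then 1 else 0) *
            ((YO (Fin N)).rm (ev bb t c) (blk c none) (N + 1) hN).Q U (x 0).1 (x 1).1) ∧
      -(N * L) - (3 * τ.r + 5) * s ^ 2 - 2 * (err b 1 τ.r * KK (2 ^ N) (Λ * N) 0 / τ.m 1) ≤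
        N * τ.ent P.a := by
  have hEc : Continuous En := by
    refine (LipschitzWith.of_dist_le_mul (K := 1) fun t t' => ?_).continuous
    have := hE t t'
    have := abs_nonneg (t - t')
    rw [Real.dist_eq, Real.dist_eq, NNReal.coe_one]
    linarith
  obtain ⟨t, ht, a, ha, x0, x, hx, hmax⟩ := usa_exists τ bb s h12 hΛ
    (W := fun t => N * (En t + e1 * t)) (by fun_prop) b c hN
  have hP : Pr.Ok ⟨a, s, N, x0, x⟩ := ⟨fun l => (ha l).1, hx⟩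
  have hN0 : (0 : ℝ) ≤ N := Nat.cast_nonneg N
  have hpen := pen_nonneg τ.r N s x0 x
  have low : ∀ t' ∈ Set.Icc t1 t2, ∀ a' : ℕ → ℝ, (∀ l, a' l ∈ Set.Icc 0 Λ) →
      Gv τ b N (ev bb t' c) a' + Z0 τ.r b τ.m - N * (En t' + e1 * t') ≤
        ((YO (Fin N)).rm (ev bb t c) (blk c none) (N + 1) hN).F τ.r b τ.m ⟨a, s, N, x0, x⟩ +
          N * lin τ a - N * (En t + e1 * t) := fun t' ht' a' ha' => by
    have h3 := hmax t' ht' a' ha' _ _ usa_mid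
    have h4 := ((YO (Fin N)).F_pert (b := b) τ.mok
      (P := ⟨a', s, N, 3 / 2, fun _ => 3 / 2⟩) ⟨fun l => (ha' l).1, usa_mid⟩ (ev bb t' c)
      (blk c none) ∅ hN (N0' := N) (by simp)).1
    rw [pen_mid] at h3
    rw [usa_Gv]
    linarith
  have up : ∀ t', ((YO (Fin N)).rm (ev bb t' c) (blk c none) (N + 1) hN).F τ.r b τ.m
      ⟨a, s, N, x0, x⟩ + N * lin τ a ≤
        Gv τ b N (ev bb t' c) a + Z0 τ.r b τ.m + (3 * τ.r + 5) * s ^ 2 := fun t' => by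
    have h4 := ((YO (Fin N)).F_pert (b := b) τ.mok hP (ev bb t' c)
      (blk c none) ∅ hN (N0' := N) (by simp)).2
    rw [usa_Gv]
    linarith
  refine ⟨t, ht, ⟨a, s, N, x0, x⟩, hP, rfl, rfl, fun l => (ha l).2, ?_, ?_, ?_, ?_, ?_⟩
  · refine RM.flat_of_isMax _ τ.mok hP hs fun x0' x' hx' => ?_
    have h3 := hmax t ht a ha x0' x' hx'
    change ((YO (Fin N)).rm (ev bb t c) (blk c none) (N + 1) hN).F τ.r b τ.m ⟨a, s, N, x0', x'⟩ -
      pen τ.r N s x0' x' ≤ _ - pen τ.r N s x0 x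
    linarith
  · have h3 : G0 τ Λ b N (ev bb t2 c) ≤
        ((YO (Fin N)).rm (ev bb t c) (blk c none) (N + 1) hN).F τ.r b τ.m ⟨a, s, N, x0, x⟩ +
          N * lin τ a - N * (En t + e1 * t) - Z0 τ.r b τ.m + N * (En t2 + e1 * t2) := by
      refine csSup_le ⟨_, a, ha, rfl⟩ ?_
      rintro _ ⟨a', ha', rfl⟩
      linarith [low t2 ⟨h12, le_rfl⟩ a' ha']
    have h4 : Gv τ b N (ev bb t1 c) a ≤ G0 τ Λ b N (ev bb t1 c) :=
      le_csSup (bddAbove_Gv τ Λ b N _) ⟨a, ha, rfl⟩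
    have h5 := (abs_le.1 ((YO (Fin N)).F_lip (b := b) τ.mok hP hP rfl rfl (usa_ev_sub bb t t1 c)
      (blk c none) hN)).2
    have h6 : pdist τ.r (Fintype.card (Fin N)) ⟨a, s, N, x0, x⟩ ⟨a, s, N, x0, x⟩ = 0 := by
      simp [pdist]
    have h7 := (abs_le.1 (hE t t1)).1
    rw [h6, Fintype.card_fin] at h5
    rw [abs_of_nonneg (sub_nonneg.2 ht.1)] at h5 h7
    have h8 := mul_le_mul_of_nonneg_left h7 hN0
    have h9 := mul_nonneg hN0 (mul_nonneg he1 (sub_nonneg.2 ht.1))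
    linarith [up t1]
  · intro δ hδ hd
    have h3 := hmax (t - δ) ⟨hd, by linarith [ht.2]⟩ a ha x0 x hx
    have h4 := (YO (Fin N)).F_tangent (b := b) τ.mok hP (ev bb t c) (ev bb (t - δ) c)
      (blk c none) hN
    simp only [usa_hY] at h4
    rw [((YO (Fin N)).rm (ev bb t c) (blk c none) (N + 1) hN).A_mul_left 1
      fun U x => ∑ y ∈ blk c none, yv U (x 0).1 y ^ 2] at h4
    linarith
  · intro j hj haj
    rw [← sub_nonpos]
    refine usa_lim (C := 2 * (24 * Fintype.card (Cfg τ.r b (Fin N → Bool)) * Real.exp (N / 2)))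
      (sub_pos.2 haj) fun d h0 hd => ?_
    have h3 := hmax t ht (Function.update a j (a j + d)) (fun l => by
      by_cases hl : l = j
      · subst hl
        rw [Function.update_self]
        exact ⟨by linarith [(ha l).1], by linarith⟩
      · rw [Function.update_of_ne hl]
        exact ha l) x0 x hx
    have h4 := (abs_le.1 (((YO (Fin N)).rm (ev bb t c) (blk c none) (N + 1) hN).F_da (b := b) τ.mok
      hP (fun U σ => (sum_congr rfl fun i _ => (pow_two _).symm).trans (yv_sq U σ)) hj h0.le)).1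
    rw [usa_lin_update τ a hj] at h3
    have e : ((YO (Fin N)).rm (ev bb t c) (blk c none) (N + 1) hN).BQ = N := by
      change ((Fintype.card (Fin N) : ℕ) : ℝ) = N
      rw [Fintype.card_fin]
    rw [e] at h4
    change _ ≤ ((YO (Fin N)).rm (ev bb t c) (blk c none) (N + 1) hN).F τ.r b τ.m
      ⟨Function.update a j (a j + d), s, N, x0, x⟩ - _ - _ at h4
    linarith
  · have hL : |t| ≤ L := abs_le.2 ⟨(abs_le.1 h1).1.trans ht.1, ht.2.trans (abs_le.1 h2).2⟩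
    have h3 := low t ht (fun _ => 0) fun _ => ⟨le_rfl, hΛ⟩
    have h4 := usa_le_Gv τ (Λ := Λ) b (fun i => (abs_le.1 (usa_ev_abs hb hL c i)).1)
      (a := fun _ => 0) fun _ => ⟨le_rfl, hΛ⟩
    have h5 := usa_Gv_le τ b (fun i => (abs_le.1 (usa_ev_abs hb hL c i)).2) ha
    rw [τ.ent_zero] at h4
    change _ ≤ N * τ.ent a
    linarith [up t]

end

end Vale.Agent.P166
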