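import Vale.Agent.P157.Comono
import Vale.Agent.P166.Arr

/-! P166 Ultra: ultrametricity, positivity and synchronisation, through the infinite arrays of P157 (Dup, Ultra, Comono; VV r is P157.KK r).
Plan. exists_inf: La n = (nu (n+1)).map (fun A i j => A (min i n) (min j n)), La = limit along hyperfilter in the compact space ProbabilityMeasure (N -> N -> VV r); its restriction to k indices is nu k
(cons, for n+1 >= k; restriction is continuous). Two finite measures on infinite arrays with the same restrictions are equal (f A is the limit of f (truncated A), dominated convergence, for bounded continuous f).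
Exch from cons; GGset: a set E with DepOn n is the preimage of a measurable set of (n+1) arrays (the preimage of E under the extension map), then gg. Note P157.PSD is for N indexed kernels (PSD.quad_nonneg, PSD.symm).
ultra, pos: P157.arr_ultra, P157.arr_pos. sync: P157.comono_null, after checking A in ArrC r almost surely (ultrametricity of the level for distinct indices by Exch.ae, trivial if two indices agree since the diagonal level is the largest). -/

open MeasureTheory ProbabilityTheory Filter Topology Matrix Finset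

namespace Vale.Agent.P166

noncomputable section

variable {r : ℕ} (G : GGA (VV r))

instance ultra_borel1 : BorelSpace (ℕ → VV r) := inferInstance
instance ultra_borel : BorelSpace (ℕ → ℕ → VV r) := inferInstance
instance ultra_opens : OpensMeasurableSpace (ℕ → ℕ → VV r) := inferInstance
instance ultra_compact : CompactSpace (ProbabilityMeasure (ℕ → ℕ → VV r)) := inferInstance

/-- clamp an index -/
def ultra_ex (n i : ℕ) : Fin (n + 1) := ⟨min i n, Nat.lt_succ_of_le (min_le_right _ _)⟩

lemma ultra_cont {I J : Type} (e : I → J) :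
    Continuous fun (A : J → J → VV r) (a a' : I) => A (e a) (e a') :=
  continuous_pi fun _ => continuous_pi fun _ => (continuous_apply _).comp (continuous_apply _)

lemma ultra_unique {μ μ' : Measure (ℕ → ℕ → VV r)} [IsProbabilityMeasure μ]
    [IsProbabilityMeasure μ']
    (h : ∀ n, μ.map (fun A (a a' : Fin n) => A a a') = μ'.map (fun A (a a' : Fin n) => A a a')) :
    μ = μ' := by
  refine ext_of_forall_integral_eq_of_IsFiniteMeasure fun f => ?_
  have key : ∀ (m : Measure (ℕ → ℕ → VV r)) [IsProbabilityMeasure m],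
      Tendsto (fun n => ∫ X, f (fun i j => X (ultra_ex n i) (ultra_ex n j))
        ∂m.map (fun A (a a' : Fin (n + 1)) => A a a')) atTop (𝓝 (∫ A, f A ∂m)) := by
    intro m _
    have h1 : ∀ n, ∫ X, f (fun i j => X (ultra_ex n i) (ultra_ex n j))
        ∂m.map (fun A (a a' : Fin (n + 1)) => A a a') =
        ∫ A, f (fun i j => A (min i n) (min j n)) ∂m := fun n =>
      integral_map (ultra_cont (fun a : Fin (n + 1) => (a : ℕ))).measurable.aemeasurable
        (f.continuous.comp (ultra_cont (ultra_ex n))).aestronglyMeasurable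
    simp only [h1]
    refine tendsto_integral_of_dominated_convergence (fun _ => ‖f‖)
      (fun n => (f.continuous.comp (ultra_cont fun i => min i n)).aestronglyMeasurable)
      (integrable_const _) (fun n => Eventually.of_forall fun A => f.norm_coe_le_norm _)
      (Eventually.of_forall fun A => (f.continuous.tendsto A).comp ?_)
    refine tendsto_pi_nhds.2 fun i => tendsto_pi_nhds.2 fun j => tendsto_const_nhds.congr' ?_
    filter_upwards [eventually_ge_atTop i, eventually_ge_atTop j] with n hi hj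
    rw [min_eq_left hi, min_eq_left hj]
  refine tendsto_nhds_unique (key μ) ((key μ').congr fun n => ?_)
  rw [h]

lemma ultra_lim : ∃ Λ : Measure (ℕ → ℕ → VV r), IsProbabilityMeasure Λ ∧
    ∀ (k : ℕ) (e : Fin k → ℕ), Function.Injective e →
      Λ.map (fun A a a' => A (e a) (e a')) = G.ν k := by
  let La : ℕ → ProbabilityMeasure (ℕ → ℕ → VV r) := fun n =>
    ⟨(G.ν (n + 1)).map fun X i j => X (ultra_ex n i) (ultra_ex n j),
      Measure.isProbabilityMeasure_map (ultra_cont (ultra_ex n)).measurable.aemeasurable⟩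
  obtain ⟨Λ, -, hΛ⟩ := isCompact_univ.ultrafilter_le_nhds ((hyperfilter ℕ).map La)
    (le_principal_iff.2 univ_mem)
  refine ⟨Λ, Λ.2, fun k e he => ?_⟩
  refine ext_of_forall_integral_eq_of_IsFiniteMeasure fun f => ?_
  rw [integral_map (ultra_cont e).measurable.aemeasurable f.continuous.aestronglyMeasurable]
  have h1 := ProbabilityMeasure.tendsto_iff_forall_integral_tendsto.1
    (show Tendsto La (hyperfilter ℕ) (𝓝 Λ) from hΛ)
    (BoundedContinuousFunction.mkOfCompact ⟨_, f.continuous.comp (ultra_cont e)⟩)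
  refine tendsto_nhds_unique h1 (tendsto_const_nhds.congr' ?_)
  have h2 : ∀ᶠ n in atTop, ∀ a, e a ≤ n := eventually_all.2 fun a => eventually_ge_atTop _
  filter_upwards [Nat.hyperfilter_le_atTop h2] with n hn
  have hi : Function.Injective fun a => ultra_ex n (e a) := fun a b hab => he (by
    have := congrArg Fin.val hab
    simpa only [ultra_ex, min_eq_left (hn _)] using this)
  rw [← G.cons k (n + 1) _ hi, integral_map (ultra_cont _).measurable.aemeasurable
    f.continuous.aestronglyMeasurable]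
  exact (integral_map (μ := G.ν (n + 1)) (ultra_cont (ultra_ex n)).measurable.aemeasurable
    (f.continuous.comp (ultra_cont e)).aestronglyMeasurable).symm

lemma ultra_sum (f : ℕ → ℝ) (n : ℕ) : ∑ j ∈ Finset.Icc 1 n, f j = ∑ l : Fin n, f (l + 1) := by
  rw [Fin.sum_univ_eq_sum_range (fun l => f (l + 1))]
  induction n with
  | zero => simp
  | succ k ih => rw [Finset.sum_Icc_succ_top (by omega), ih, Finset.sum_range_succ]

theorem GGA.exists_inf : ∃ Λ : Measure (ℕ → ℕ → VV r), IsProbabilityMeasure Λ ∧ P157.Exch Λ ∧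
    P157.GGset Λ ∧ ∀ n, Λ.map (fun A (a a' : Fin n) => A a a') = G.ν n := by
  obtain ⟨Λ, hΛ, h⟩ := ultra_lim G
  have hr : ∀ n, Λ.map (fun A (a a' : Fin n) => A a a') = G.ν n := fun n =>
    h n _ Fin.val_injective
  refine ⟨Λ, hΛ, fun e he => ?_, fun n E D hE hD hd => ?_, hr⟩
  · have := Measure.isProbabilityMeasure_map (μ := Λ) (P157.measurable_rx (K := VV r) e).aemeasurable
    refine ultra_unique fun n => ?_
    rw [Measure.map_map (ultra_cont (fun a : Fin n => (a : ℕ))).measurable (P157.measurable_rx e),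
      hr]
    exact h n (fun a => e a) (he.comp Fin.val_injective)
  · have hm : ∀ (k : ℕ) (S : Set (Fin k → Fin k → VV r)), MeasurableSet S →
        (G.ν k).real S = Λ.real ((fun A (a a' : Fin k) => A a a') ⁻¹' S) := fun k S hS => by
      rw [← hr k, map_measureReal_apply (ultra_cont (fun a : Fin k => (a : ℕ))).measurable hS]
    have hE' : MeasurableSet ((fun (X : Fin (n + 1) → Fin (n + 1) → VV r) i j =>
        X (ultra_ex n i) (ultra_ex n j)) ⁻¹' E) := (ultra_cont (ultra_ex n)).measurable hE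
    have me : ∀ {k : ℕ} (a b : Fin k), MeasurableSet {X : Fin k → Fin k → VV r | X a b ∈ D} :=
      fun a b => ((measurable_pi_apply b).comp (measurable_pi_apply a)) hD
    have hiff : ∀ A : ℕ → ℕ → VV r, (fun i j => A (min i n) (min j n)) ∈ E ↔ A ∈ E := fun A =>
      (hd _ _ fun i hi j hj => by simp only [min_eq_left hi, min_eq_left hj]).to_iff
    have key := G.gg n _ D hE' hD
    rw [ultra_sum]
    refine Eq.trans ?_ (key.trans ?_)
    · refine congrArg _ (Eq.trans ?_
        (hm _ _ (((ultra_cont Fin.castSucc).measurable hE').inter (me 0 (Fin.last _)))).symm)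
      exact congrArg _ (Set.ext fun A => and_congr_left fun _ => (hiff A).symm)
    · refine congrArg₂ _ (congrArg₂ _ ((hm _ _ hE').trans ?_) (hm _ _ (me 0 1)))
        (Finset.sum_congr rfl fun l _ => (hm _ _ (hE'.inter (me 0 l.succ))).trans ?_)
      · exact congrArg _ (Set.ext fun A => hiff A)
      · exact congrArg _ (Set.ext fun A => and_congr_left fun _ => hiff A)

lemma ultra_ae {Λ : Measure (ℕ → ℕ → VV r)}
    (hr : ∀ n, Λ.map (fun A (a a' : Fin n) => A a a') = G.ν n) {n : ℕ}
    {p : (Fin n → Fin n → VV r) → Prop} (h : ∀ᵐ X ∂G.ν n, p X) :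
    ∀ᵐ A ∂Λ, p fun a a' => A a a' := by
  rw [← hr n] at h
  exact ae_of_ae_map (ultra_cont (fun a : Fin n => (a : ℕ))).measurable.aemeasurable h

lemma ultra_psd {Λ : Measure (ℕ → ℕ → VV r)}
    (hr : ∀ n, Λ.map (fun A (a a' : Fin n) => A a a') = G.ν n) {u : VV r → ℝ}
    (hP : ∀ n, ∀ᵐ X ∂G.ν n, PSD fun a a' => u (X a a')) :
    ∀ᵐ A ∂Λ, P157.PSD fun i j => u (A i j) := by
  filter_upwards [ae_all_iff.2 fun n => ultra_ae G hr (hP n)] with A hA
  refine ⟨fun i j => (hA (max i j + 1)).symm ⟨i, by omega⟩ ⟨j, by omega⟩, fun n c => ?_⟩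
  rw [Finset.sum_range]
  simp only [Finset.sum_range (n := n)]
  refine ((hA n).quad_nonneg fun a => c a).trans_eq
    (Finset.sum_congr rfl fun a _ => Finset.sum_congr rfl fun b _ => ?_)
  ring

lemma ultra_bdd {u : VV r → ℝ} (hu : Continuous u) : ∃ us, ∀ x, |u x| ≤ us := by
  obtain ⟨C, hC⟩ := isCompact_univ.exists_bound_of_continuousOn hu.continuousOn
  exact ⟨C, fun x => hC x (Set.mem_univ _)⟩

lemma ultra_zeta {Λ : Measure (ℕ → ℕ → VV r)}
    (hr : ∀ n, Λ.map (fun A (a a' : Fin n) => A a a') = G.ν n) :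
    G.zeta = Λ.map fun A => A 0 1 := by
  rw [GGA.zeta, ← hr 2]
  exact Measure.map_map ((measurable_pi_apply 1).comp (measurable_pi_apply 0))
    (ultra_cont (fun a : Fin 2 => (a : ℕ))).measurable

lemma ultra_three (a b c : ℕ) (hab : a ≠ b) (hac : a ≠ c) (hbc : b ≠ c) :
    ∃ e : ℕ → ℕ, Function.Injective e ∧ e 0 = a ∧ e 1 = b ∧ e 2 = c := by
  refine ⟨fun i => if i = 0 then a else if i = 1 then b else if i = 2 then c else i + a + b + c,
    fun i j h => ?_, rfl, rfl, rfl⟩
  simp only at h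
  split_ifs at h <;> omega

lemma ultra_all {Λ : Measure (ℕ → ℕ → VV r)} [IsProbabilityMeasure Λ] (hE : P157.Exch Λ)
    (hG : P157.GGset Λ) {u : VV r → ℝ} (hu : Continuous u)
    (hP : ∀ᵐ A ∂Λ, P157.PSD fun i j => u (A i j)) :
    ∀ᵐ A ∂Λ, ∀ a b c, a ≠ b → a ≠ c → b ≠ c → min (u (A a c)) (u (A b c)) ≤ u (A a b) := by
  obtain ⟨us, hb⟩ := ultra_bdd hu
  refine ae_all_iff.2 fun a => ae_all_iff.2 fun b => ae_all_iff.2 fun c => ?_
  by_cases h : a ≠ b ∧ a ≠ c ∧ b ≠ c
  · obtain ⟨e, he, rfl, rfl, rfl⟩ := ultra_three a b c h.1 h.2.1 h.2.2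
    filter_upwards [hE.ae he (P157.arr_ultra hE hG hu.measurable hb hP)] with A hA _ _ _
    exact hA
  · exact Eventually.of_forall fun A h1 h2 h3 => absurd ⟨h1, h2, h3⟩ h

theorem GGA.ultra {u : VV r → ℝ} (hu : Continuous u)
    (hP : ∀ n, ∀ᵐ X ∂G.ν n, PSD fun a a' => u (X a a')) :
    ∀ᵐ X ∂G.ν 3, min (u (X 0 1)) (u (X 1 2)) ≤ u (X 0 2) := by
  obtain ⟨Λ, hΛ, hE, hG, hr⟩ := G.exists_inf
  have hP' := ultra_psd G hr hP
  have c : ∀ a b : Fin 3, Continuous fun X : Fin 3 → Fin 3 → VV r => u (X a b) := fun a b =>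
    hu.comp ((continuous_apply b).comp (continuous_apply a))
  rw [← hr 3]
  refine (ae_map_iff (ultra_cont (fun a : Fin 3 => (a : ℕ))).measurable.aemeasurable
    (isClosed_le ((c 0 1).min (c 1 2)) (c 0 2)).measurableSet).2 ?_
  filter_upwards [hP', ultra_all hE hG hu hP'] with A h1 h2
  have h3 := h2 0 2 1 (by decide) (by decide) (by decide)
  rw [show u (A 2 1) = u (A 1 2) from h1.1 2 1] at h3
  exact h3

theorem GGA.pos {u : VV r → ℝ} (hu : Continuous u)
    (hP : ∀ n, ∀ᵐ X ∂G.ν n, PSD fun a a' => u (X a a')) : ∀ᵐ v ∂G.zeta, 0 ≤ u v := by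
  obtain ⟨Λ, hΛ, hE, hG, hr⟩ := G.exists_inf
  obtain ⟨us, hb⟩ := ultra_bdd hu
  rw [ultra_zeta G hr]
  have m01 : Measurable fun A : ℕ → ℕ → VV r => A 0 1 :=
    (measurable_pi_apply 1).comp (measurable_pi_apply 0)
  have hs : MeasurableSet {v : VV r | 0 ≤ u v} := (isClosed_le continuous_const hu).measurableSet
  exact (ae_map_iff m01.aemeasurable hs).2
    (P157.arr_pos hE hG hu.measurable hb (ultra_psd G hr hP))

lemma ultra_mem {A : ℕ → ℕ → VV r} (h1 : P157.PSD fun i j => ((A i j).1 : ℝ))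
    (h2 : ∀ i j, (((A i j).2 : ℕ) : ℝ) = ((A j i).2 : ℕ))
    (h3 : ∀ a b c, a ≠ b → a ≠ c → b ≠ c →
      min (((A a c).2 : ℕ) : ℝ) ((A b c).2 : ℕ) ≤ ((A a b).2 : ℕ))
    (h4 : ∀ i, (((A i i).2 : ℕ) : ℝ) = r) : A ∈ P157.ArrC r := by
  have s : ∀ i j, (A i j).2 = (A j i).2 := fun i j => Fin.ext (Nat.cast_injective (h2 i j))
  have dg : ∀ i, (A i i).2 = Fin.last r := fun i => Fin.ext (Nat.cast_injective (h4 i))
  refine ⟨h1, s, dg, fun a b c => ?_⟩
  by_cases hab : a = b
  · rw [hab, dg b]
    exact Fin.le_last _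
  by_cases hac : a = c
  · rw [← hac, s b a]
    exact min_le_right _ _
  by_cases hbc : b = c
  · rw [← hbc]
    exact min_le_left _ _
  rcases min_le_iff.1 (h3 a b c hab hac hbc) with h | h
  · exact (min_le_left _ _).trans (Fin.le_def.2 (Nat.cast_le.1 h))
  · exact (min_le_right _ _).trans (Fin.le_def.2 (Nat.cast_le.1 h))

theorem GGA.sync {d : ℝ} (hT : G.Gram (fun v => (v.1 : ℝ)) d)
    (hL : G.Gram (fun v => ((v.2 : ℕ) : ℝ)) r) (t : ℝ) (j : ℕ) :
    G.zeta {v | t < (v.1 : ℝ) ∧ (v.2 : ℕ) ≤ j} = 0 ∨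
      G.zeta {v | j < (v.2 : ℕ) ∧ (v.1 : ℝ) ≤ t} = 0 := by
  obtain ⟨Λ, hΛ, hE, hG, hr⟩ := G.exists_inf
  have cl : Continuous fun v : VV r => ((v.2 : ℕ) : ℝ) :=
    (continuous_of_discreteTopology (f := fun j : Fin (r + 1) => ((j : ℕ) : ℝ))).comp
      continuous_snd
  have hP := ultra_psd G hr (u := fun v => ((v.2 : ℕ) : ℝ)) hL.psd
  have hC : ∀ᵐ A ∂Λ, A ∈ P157.ArrC r := by
    filter_upwards [ultra_psd G hr (u := fun v => (v.1 : ℝ)) hT.psd, hP, ultra_all hE hG cl hP,
      ae_all_iff.2 fun n => ultra_ae G hr (hL.diag n)] with A h1 h2 h3 h4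
    exact ultra_mem h1 h2.1 h3 fun i => h4 (i + 1) (Fin.last i)
  have m1 : Measurable fun x : VV r => (x.1 : ℝ) := measurable_subtype_coe.comp measurable_fst
  have m2 : Measurable fun x : VV r => (x.2 : ℕ) :=
    (measurable_of_countable fun j : Fin (r + 1) => (j : ℕ)).comp measurable_snd
  have m01 : Measurable fun A : ℕ → ℕ → VV r => A 0 1 :=
    (measurable_pi_apply 1).comp (measurable_pi_apply 0)
  have hD : MeasurableSet {x : VV r | t < (x.1 : ℝ) ∧ (x.2 : ℕ) ≤ j} :=
    (m1 measurableSet_Ioi).inter (m2 (MeasurableSet.of_discrete (s := Set.Iic j)))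
  have hB : MeasurableSet {x : VV r | j < (x.2 : ℕ) ∧ (x.1 : ℝ) ≤ t} :=
    (m2 (MeasurableSet.of_discrete (s := Set.Ioi j))).inter (m1 measurableSet_Iic)
  rw [ultra_zeta G hr, Measure.map_apply m01 hD, Measure.map_apply m01 hB]
  refine or_iff_not_imp_left.2 fun h => ?_
  refine measure_eq_zero_iff_ae_notMem.2 ?_
  filter_upwards [P157.comono_null hE hG hC t j h] with A hA h'
  exact absurd (hA h'.1) (not_lt.2 h'.2)

end

end Vale.Agent.P166
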